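import Mathlib

/-!
# Recovering the cavity magnetisations from the magnetisations of the two ends of an edge
-/

namespace Vale.Agent.P161E

namespace AlgAux

theorem mul_lip {x x' y y' X Y e₁ e₂ : ℝ} (hx : |x| ≤ X) (hy : |y'| ≤ Y) (h1 : |x - x'| ≤ e₁)
    (h2 : |y - y'| ≤ e₂) : |x * y - x' * y'| ≤ X * e₂ + Y * e₁ := by
  have e : x * y - x' * y' = x * (y - y') + y' * (x - x') := by ring
  rw [e]
  refine (abs_add_le _ _).trans ?_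
  rw [abs_mul, abs_mul]
  have hX : 0 ≤ X := (abs_nonneg _).trans hx
  have hY : 0 ≤ Y := (abs_nonneg _).trans hy
  gcongr

theorem mul_bd {x y X Y : ℝ} (hx : |x| ≤ X) (hy : |y| ≤ Y) : |x * y| ≤ X * Y := by
  rw [abs_mul]
  have hX : 0 ≤ X := (abs_nonneg _).trans hx
  gcongr

theorem Z_pos {θ₁ θ p q : ℝ} (h1 : θ₁ < 1) (h0 : 0 ≤ θ) (hθ : θ ≤ θ₁) (hp : |p| ≤ 1)
    (hq : |q| ≤ 1) : 0 < 1 + θ * p * q ∧ |θ * p * q| ≤ θ₁ ∧ 1 + θ * p * q ≤ 2 := by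
  have h2 : |θ * p * q| ≤ θ₁ := by
    rw [abs_mul, abs_mul, abs_of_nonneg h0]
    calc θ * |p| * |q| ≤ θ * 1 * 1 := by gcongr
      _ ≤ θ₁ := by linarith
  have h3 := abs_le.1 h2
  exact ⟨by linarith [h3.1], h2, by linarith [h3.2]⟩

theorem comb_abs {θ₁ θ p q : ℝ} (h1 : θ₁ < 1) (h0 : 0 ≤ θ) (hθ : θ ≤ θ₁) (hp : |p| ≤ 1)
    (hq : |q| ≤ 1) : |(p + θ * q) / (1 + θ * p * q)| ≤ 1 := by
  obtain ⟨hZ, -, -⟩ := Z_pos h1 h0 hθ hp hq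
  obtain ⟨hp1, hp2⟩ := abs_le.1 hp
  obtain ⟨hq1, hq2⟩ := abs_le.1 hq
  rw [abs_div, abs_of_pos hZ, div_le_one hZ, abs_le]
  have h3 : 0 ≤ 1 - θ * q := by nlinarith
  have h4 : 0 ≤ 1 + θ * q := by nlinarith
  constructor
  · nlinarith [mul_nonneg (by linarith : (0:ℝ) ≤ 1 + p) h4]
  · nlinarith [mul_nonneg (by linarith : (0:ℝ) ≤ 1 - p) h3]

theorem lin_lip {θ₁ θ θ' m m' n n' : ℝ} (h1 : θ₁ < 1) (h0 : 0 ≤ θ) (hθ : θ ≤ θ₁)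
    (hn : |n'| ≤ 1) :
    |(m - θ * n) - (m' - θ' * n')| ≤ |m - m'| + |n - n'| + |θ - θ'| := by
  have e : (m - θ * n) - (m' - θ' * n') = (m - m') - (θ * n - θ' * n') := by ring
  rw [e]
  have h2 : |θ * n - θ' * n'| ≤ 1 * |n - n'| + 1 * |θ - θ'| :=
    mul_lip (by rw [abs_of_nonneg h0]; linarith) hn le_rfl le_rfl
  have h3 := abs_sub (m - m') (θ * n - θ' * n')
  linarith

theorem lin_bd {θ₁ θ m n : ℝ} (h1 : θ₁ < 1) (h0 : 0 ≤ θ) (hθ : θ ≤ θ₁) (hm : |m| ≤ 1)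
    (hn : |n| ≤ 1) : |m - θ * n| ≤ 2 := by
  have h3 := abs_sub m (θ * n)
  have h4 : |θ * n| ≤ 1 * 1 := mul_bd (by rw [abs_of_nonneg h0]; linarith) hn
  linarith

theorem p_eq {p s Z : ℝ} (hs : s ≠ 0) (hZ : Z ≠ 0) : p = p * s / Z * (Z * (1 / s)) := by
  field_simp

theorem key_eq {z z' : ℝ} (h : 1 + z ≠ 0) (h' : 1 + z' ≠ 0) (hzz : 1 - z * z' ≠ 0) :
    (1 + z) - (1 + z') = (z / (1 + z) ^ 2 - z' / (1 + z') ^ 2) *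
        ((1 + z) ^ 2 * (1 + z') ^ 2 / (1 - z * z')) := by
  have e : (z / (1 + z) ^ 2 - z' / (1 + z') ^ 2) =
      (z - z') * (1 - z * z') / ((1 + z) ^ 2 * (1 + z') ^ 2) := by
    rw [div_sub_div _ _ (pow_ne_zero 2 h) (pow_ne_zero 2 h')]
    congr 1
    ring
  rw [e]
  have h2 : (1 + z) ^ 2 * (1 + z') ^ 2 ≠ 0 := mul_ne_zero (pow_ne_zero 2 h) (pow_ne_zero 2 h')
  generalize (1 + z) ^ 2 * (1 + z') ^ 2 = T at h2
  generalize 1 - z * z' = S at hzz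
  field_simp
  ring

theorem Z_lip {θ₁ z z' D L : ℝ} (h0 : 0 ≤ θ₁) (h1 : θ₁ < 1) (hL : L = 1 / (1 - θ₁ ^ 2))
    (hZa : |z| ≤ θ₁) (hZa' : |z'| ≤ θ₁)
    (lA : |z / (1 + z) ^ 2 - z' / (1 + z') ^ 2| ≤ D) :
    |(1 + z) - (1 + z')| ≤ D * (16 * L) := by
  have hd : 0 < 1 - θ₁ ^ 2 := by nlinarith
  obtain ⟨hz1, hz2⟩ := abs_le.1 hZa
  obtain ⟨hz1', hz2'⟩ := abs_le.1 hZa'
  have hZ : 0 < 1 + z := by linarith
  have hZ' : 0 < 1 + z' := by linarith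
  have h5 : |z * z'| ≤ θ₁ * θ₁ := mul_bd hZa hZa'
  have h6 := (abs_le.1 h5).2
  have h7 : 0 < 1 - z * z' := by nlinarith
  rw [key_eq hZ.ne' hZ'.ne' h7.ne']
  have h8 : |(1 + z) ^ 2 * (1 + z') ^ 2 / (1 - z * z')| ≤ 16 * L := by
    rw [abs_of_nonneg (by positivity), hL, mul_one_div]
    have h9 : (1 + z) ^ 2 ≤ 4 := by nlinarith
    have h10 : (1 + z') ^ 2 ≤ 4 := by nlinarith
    have h11 : (1 + z) ^ 2 * (1 + z') ^ 2 ≤ 16 := by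
      have : (0 : ℝ) ≤ (1 + z) ^ 2 := by positivity
      have : (0 : ℝ) ≤ (1 + z') ^ 2 := by positivity
      nlinarith
    exact div_le_div₀ (by norm_num) h11 hd (by nlinarith)
  exact mul_bd lA h8

theorem r_lip {θ₁ θ θ' L ε : ℝ} (hd : 0 < 1 - θ₁ ^ 2) (hL : L = 1 / (1 - θ₁ ^ 2))
    (h0 : 0 ≤ θ) (h0' : 0 ≤ θ') (h : θ < 1) (h' : θ' < 1)
    (hsd : 1 - θ₁ ^ 2 ≤ 1 - θ ^ 2) (hsd' : 1 - θ₁ ^ 2 ≤ 1 - θ' ^ 2) (hθε : |θ - θ'| ≤ ε) :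
    |1 / (1 - θ ^ 2)| ≤ L ∧ |1 / (1 - θ' ^ 2)| ≤ L ∧
      |1 / (1 - θ ^ 2) - 1 / (1 - θ' ^ 2)| ≤ 2 * L ^ 2 * ε := by
  have hs : 0 < 1 - θ ^ 2 := by linarith
  have hs' : 0 < 1 - θ' ^ 2 := by linarith
  have br : |1 / (1 - θ ^ 2)| ≤ L := by
    rw [abs_of_pos (by positivity), hL]
    exact one_div_le_one_div_of_le hd hsd
  have br' : |1 / (1 - θ' ^ 2)| ≤ L := by
    rw [abs_of_pos (by positivity), hL]
    exact one_div_le_one_div_of_le hd hsd'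
  refine ⟨br, br', ?_⟩
  have e : 1 / (1 - θ ^ 2) - 1 / (1 - θ' ^ 2) =
      (1 / (1 - θ ^ 2) * (1 / (1 - θ' ^ 2))) * ((θ + θ') * (θ - θ')) := by
    field_simp
    ring
  rw [e]
  have h2 : |1 / (1 - θ ^ 2) * (1 / (1 - θ' ^ 2))| ≤ L * L := mul_bd br br'
  have h3 : |(θ + θ') * (θ - θ')| ≤ 2 * ε :=
    mul_bd (by rw [abs_of_nonneg (by linarith)]; linarith) hθε
  refine (mul_bd h2 h3).trans (le_of_eq ?_)
  ring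

theorem A_eq {a c θ p q s Z r : ℝ} (ha : a = p * s / Z) (hc : c = q * s / Z) (hr : r = 1 / s)
    (hs : s ≠ 0) (hZ : Z ≠ 0) : θ * (a * c) * (r * r) = θ * p * q / Z ^ 2 := by
  subst ha hc hr
  field_simp

theorem ident {θ p q : ℝ} (hZ : 1 + θ * p * q ≠ 0) :
    (p + θ * q) / (1 + θ * p * q) - θ * ((q + θ * p) / (1 + θ * p * q)) =
      p * (1 - θ ^ 2) / (1 + θ * p * q) ∧
    (q + θ * p) / (1 + θ * p * q) - θ * ((p + θ * q) / (1 + θ * p * q)) =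
      q * (1 - θ ^ 2) / (1 + θ * p * q) := by
  generalize 1 + θ * p * q = Z at hZ
  constructor <;> field_simp <;> ring

/-- the abstract Lipschitz estimate -/
theorem core {θ₁ θ θ' p q p' q' m n m' n' Z Z' L ε : ℝ} (h00 : 0 ≤ θ₁) (h1 : θ₁ < 1)
    (hL : L = 1 / (1 - θ₁ ^ 2)) (h0 : 0 ≤ θ) (hθ : θ ≤ θ₁) (h0' : 0 ≤ θ') (hθ' : θ' ≤ θ₁)
    (hm : |m| ≤ 1) (hn : |n| ≤ 1) (hm' : |m'| ≤ 1) (hn' : |n'| ≤ 1)
    (hZ : Z = 1 + θ * p * q) (hZ' : Z' = 1 + θ' * p' * q')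
    (hZ0 : 0 < Z) (hZ0' : 0 < Z') (hZ2 : Z ≤ 2) (hZ2' : Z' ≤ 2)
    (hZa : |θ * p * q| ≤ θ₁) (hZa' : |θ' * p' * q'| ≤ θ₁)
    (ia : m - θ * n = p * (1 - θ ^ 2) / Z) (ic : n - θ * m = q * (1 - θ ^ 2) / Z)
    (ia' : m' - θ' * n' = p' * (1 - θ' ^ 2) / Z') (ic' : n' - θ' * m' = q' * (1 - θ' ^ 2) / Z')
    (hε : |m - m'| + |n - n'| + |θ - θ'| = ε) :
    |p - p'| ≤ 2 * (2 * (2 * L ^ 2 * ε) + L * ((1 * (2 * 2) * (L * (2 * L ^ 2 * ε) +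
      L * (2 * L ^ 2 * ε)) + L * L * (1 * (2 * ε + 2 * ε) + 2 * 2 * ε)) * (16 * L))) +
        2 * L * ε := by
  have hd : 0 < 1 - θ₁ ^ 2 := by nlinarith
  have hs : 0 < 1 - θ ^ 2 := by nlinarith
  have hs' : 0 < 1 - θ' ^ 2 := by nlinarith
  have hsd : 1 - θ₁ ^ 2 ≤ 1 - θ ^ 2 := by nlinarith
  have hsd' : 1 - θ₁ ^ 2 ≤ 1 - θ' ^ 2 := by nlinarith
  have hθε : |θ - θ'| ≤ ε := by
    have := abs_nonneg (m - m'); have := abs_nonneg (n - n'); linarith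
  have la : |(m - θ * n) - (m' - θ' * n')| ≤ ε := (lin_lip h1 h0 hθ hn').trans hε.le
  have lc : |(n - θ * m) - (n' - θ' * m')| ≤ ε := by
    have := lin_lip (m := n) (m' := n') (n := m) (n' := m') (θ' := θ') h1 h0 hθ hm'
    linarith
  have ba : |m - θ * n| ≤ 2 := lin_bd h1 h0 hθ hm hn
  have bc : |n - θ * m| ≤ 2 := lin_bd h1 h0 hθ hn hm
  have ba' : |m' - θ' * n'| ≤ 2 := lin_bd h1 h0' hθ' hm' hn'
  have bc' : |n' - θ' * m'| ≤ 2 := lin_bd h1 h0' hθ' hn' hm'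
  obtain ⟨br, br', lr⟩ := r_lip hd hL h0 h0' (by linarith) (by linarith) hsd hsd' hθε
  have lrr := mul_lip br br' lr lr
  have brr' := mul_bd br' br'
  have lac := mul_lip ba bc' la lc
  have bac := mul_bd ba bc
  have bac' := mul_bd ba' bc'
  have bθ : |θ| ≤ 1 := by rw [abs_of_nonneg h0]; linarith
  have lt := mul_lip bθ bac' hθε lac
  have bt := mul_bd bθ bac
  have lA := mul_lip bt brr' lt lrr
  rw [A_eq ia ic rfl hs.ne' hZ0.ne', A_eq ia' ic' rfl hs'.ne' hZ0'.ne', hZ, hZ'] at lA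
  have lZ := Z_lip h00 h1 hL hZa hZa' lA
  rw [← hZ, ← hZ'] at lZ
  have ip : p = (m - θ * n) * (Z * (1 / (1 - θ ^ 2))) := by
    rw [ia]; exact p_eq hs.ne' hZ0.ne'
  have ip' : p' = (m' - θ' * n') * (Z' * (1 / (1 - θ' ^ 2))) := by
    rw [ia']; exact p_eq hs'.ne' hZ0'.ne'
  have bZ : |Z| ≤ 2 := by rw [abs_of_pos hZ0]; exact hZ2
  have bZ' : |Z'| ≤ 2 := by rw [abs_of_pos hZ0']; exact hZ2'
  have lZr := mul_lip bZ br' lZ lr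
  have bZr' := mul_bd bZ' br'
  have lp := mul_lip ba bZr' la lZr
  rw [← ip, ← ip'] at lp
  exact lp

end AlgAux

open AlgAux

/-- Recovering the cavity magnetisations from the magnetisations of the two ends:
`p = (m - θ m') Z / (1 - θ²)`, `Z = 1 + θ p p'` solves `Z = 1 + θ P Z²`,
`P = (m - θ m') (m' - θ m) / (1 - θ²)²`. -/
theorem cavity_lip {θ₁ : ℝ} (h1 : θ₁ < 1) : ∃ K : ℝ, 0 < K ∧ ∀ θ θ' p q p' q' : ℝ,
    0 ≤ θ → θ ≤ θ₁ → 0 ≤ θ' → θ' ≤ θ₁ → |p| ≤ 1 → |q| ≤ 1 → |p'| ≤ 1 → |q'| ≤ 1 →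
    |p - p'| ≤ K * (|(p + θ * q) / (1 + θ * p * q) - (p' + θ' * q') / (1 + θ' * p' * q')| +
      |(q + θ * p) / (1 + θ * p * q) - (q' + θ' * p') / (1 + θ' * p' * q')| + |θ - θ'|) := by
  by_cases h00 : θ₁ < 0
  · exact ⟨1, one_pos, fun θ θ' p q p' q' h0 hθ => absurd (h0.trans hθ) (by linarith)⟩
  push Not at h00
  have hd : 0 < 1 - θ₁ ^ 2 := by nlinarith
  obtain ⟨L, hL⟩ : ∃ L : ℝ, L = 1 / (1 - θ₁ ^ 2) := ⟨_, rfl⟩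
  have hL0 : 0 < L := by rw [hL]; positivity
  refine ⟨2 * (2 * (2 * L ^ 2) + L * ((1 * (2 * 2) * (L * (2 * L ^ 2) +
      L * (2 * L ^ 2)) + L * L * (1 * (2 + 2) + 2 * 2)) * (16 * L))) +
        2 * L, by positivity, ?_⟩
  intro θ θ' p q p' q' h0 hθ h0' hθ' hp hq hp' hq'
  obtain ⟨hZ, hZa, hZ2⟩ := Z_pos h1 h0 hθ hp hq
  obtain ⟨hZ', hZa', hZ2'⟩ := Z_pos h1 h0' hθ' hp' hq'
  have hm := comb_abs h1 h0 hθ hp hq
  have hm' := comb_abs h1 h0' hθ' hp' hq'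
  have hn := comb_abs h1 h0 hθ hq hp
  have hn' := comb_abs h1 h0' hθ' hq' hp'
  rw [show 1 + θ * q * p = 1 + θ * p * q by ring] at hn
  rw [show 1 + θ' * q' * p' = 1 + θ' * p' * q' by ring] at hn'
  obtain ⟨ia, ic⟩ := ident hZ.ne'
  obtain ⟨ia', ic'⟩ := ident hZ'.ne'
  refine (core h00 h1 hL h0 hθ h0' hθ' hm hn hm' hn' rfl rfl hZ hZ' hZ2 hZ2' hZa hZa'
    ia ic ia' ic' rfl).trans (le_of_eq ?_)
  ring

end Vale.Agent.P161E
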