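import Vale.Agent.P161E.Defs2

/-!
# Automorphisms of regular trees
-/

open Set

namespace Vale.Agent.P161E

open Vale.Agent.P161

universe u

namespace AutAux

variable {V : Type u}

open TreeAux ExistAux

theorem exists_bij (A B : Finset V) (h : A.card = B.card) (a c : V) :
    ∃ f : V → V, BijOn f A B ∧ (a ∈ A → c ∈ B → f a = c) := by
  classical
  have e : A ≃ B := Finset.equivOfCardEq h
  by_cases hac : a ∈ A ∧ c ∈ B
  · obtain ⟨ha, hc⟩ := hac
    set e' : A ≃ B := e.trans (Equiv.swap (e ⟨a, ha⟩) ⟨c, hc⟩) with he'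
    refine ⟨fun x => if hx : x ∈ A then (e' ⟨x, hx⟩ : V) else x, ⟨?_, ?_, ?_⟩, ?_⟩
    · intro x hx
      have hx' : x ∈ A := hx
      simp only [hx', dif_pos]
      exact (e' ⟨x, hx'⟩).2
    · intro x hx y hy hxy
      have hx' : x ∈ A := hx
      have hy' : y ∈ A := hy
      simp only [hx', hy', dif_pos] at hxy
      have := e'.injective (Subtype.ext hxy)
      exact congrArg Subtype.val this
    · intro z hz
      have hz' : z ∈ B := hz
      refine ⟨(e'.symm ⟨z, hz'⟩ : V), (e'.symm ⟨z, hz'⟩).2, ?_⟩
      have : ((e'.symm ⟨z, hz'⟩ : A) : V) ∈ A := (e'.symm ⟨z, hz'⟩).2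
      simp only [this, dif_pos, Subtype.coe_eta, Equiv.apply_symm_apply]
    · intro _ _
      simp only [ha, dif_pos, he', Equiv.trans_apply, Equiv.swap_apply_left]
  · refine ⟨fun x => if hx : x ∈ A then (e ⟨x, hx⟩ : V) else x, ⟨?_, ?_, ?_⟩, ?_⟩
    · intro x hx
      have hx' : x ∈ A := hx
      simp only [hx', dif_pos]
      exact (e ⟨x, hx'⟩).2
    · intro x hx y hy hxy
      have hx' : x ∈ A := hx
      have hy' : y ∈ A := hy
      simp only [hx', hy', dif_pos] at hxy
      have := e.injective (Subtype.ext hxy)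
      exact congrArg Subtype.val this
    · intro z hz
      have hz' : z ∈ B := hz
      refine ⟨(e.symm ⟨z, hz'⟩ : V), (e.symm ⟨z, hz'⟩).2, ?_⟩
      have : ((e.symm ⟨z, hz'⟩ : A) : V) ∈ A := (e.symm ⟨z, hz'⟩).2
      simp only [this, dif_pos, Subtype.coe_eta, Equiv.apply_symm_apply]
    · intro h1 h2
      exact absurd ⟨h1, h2⟩ hac

variable {b : ℕ} (T : RTree V b)

open Classical in
/-- The children of `y` in the tree rooted at `o`. -/
noncomputable def kids (o y : V) : Finset V :=
  (T.nb y).filter fun x => T.G.dist o x = T.G.dist o y + 1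

variable {T}

theorem mem_kids {o y x : V} : x ∈ kids T o y ↔ T.G.Adj y x ∧ T.G.dist o x = T.G.dist o y + 1 := by
  simp [kids, T.mem_nb]

theorem dist_cases {o x y : V} (h : T.G.Adj x y) :
    T.G.dist o y = T.G.dist o x + 1 ∨ T.G.dist o x = T.G.dist o y + 1 := by
  have h1 : T.G.dist x y = 1 := SimpleGraph.dist_eq_one_iff_adj.2 h
  have h2 : T.G.dist y x = 1 := SimpleGraph.dist_eq_one_iff_adj.2 h.symm
  have h3 : T.G.dist o y ≤ T.G.dist o x + T.G.dist x y := T.tree.1.dist_triangle
  have h4 : T.G.dist o x ≤ T.G.dist o y + T.G.dist y x := T.tree.1.dist_triangle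
  have h5 := T.tree.dist_ne_of_adj o h
  omega

theorem kids_par {o x y : V} (h : x ∈ kids T o y) : y = par T.G o x :=
  par_unique T.tree (mem_kids.1 h).1 (mem_kids.1 h).2

theorem ne_of_kids {o x y : V} (h : x ∈ kids T o y) : x ≠ o := by
  rintro rfl
  have := (mem_kids.1 h).2
  rw [SimpleGraph.dist_self] at this
  omega

theorem mem_kids_par {o x : V} (h : x ≠ o) : x ∈ kids T o (par T.G o x) :=
  mem_kids.2 (par_spec T.tree.1 h)

theorem card_kids_root (o : V) : (kids T o o).card = b + 1 := by
  rw [kids, Finset.filter_true_of_mem, T.card_nb]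
  intro x hx
  rw [SimpleGraph.dist_self, SimpleGraph.dist_eq_one_iff_adj.2 ((T.mem_nb o x).1 hx)]

theorem card_kids {o y : V} (h : y ≠ o) : (kids T o y).card = b := by
  classical
  have : kids T o y = (T.nb y).erase (par T.G o y) := by
    ext x
    rw [mem_kids, Finset.mem_erase, T.mem_nb]
    constructor
    · rintro ⟨h1, h2⟩
      refine ⟨?_, h1⟩
      rintro rfl
      have := (par_spec T.tree.1 h).2
      omega
    · rintro ⟨h1, h2⟩
      refine ⟨h2, ?_⟩
      rcases dist_cases (o := o) h2 with h3 | h3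
      · exact h3
      · exact absurd (par_unique T.tree h2.symm h3) h1
  rw [this, Finset.card_erase_of_mem, T.card_nb]
  · rfl
  · rw [T.mem_nb]
    exact (par_spec T.tree.1 h).1.symm

theorem exists_sigma (o o' : V) (t t' : V → V) : ∃ σ : V → V → V → V, ∀ y z, (y = o ↔ z = o') →
    BijOn (σ y z) (kids T o y) (kids T o' z) ∧
      (t y ∈ kids T o y → t' z ∈ kids T o' z → σ y z (t y) = t' z) := by
  have : ∀ y z, ∃ f : V → V, (y = o ↔ z = o') → BijOn f (kids T o y) (kids T o' z) ∧
      (t y ∈ kids T o y → t' z ∈ kids T o' z → f (t y) = t' z) := by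
    intro y z
    by_cases h : y = o ↔ z = o'
    · have hc : (kids T o y).card = (kids T o' z).card := by
        by_cases hy : y = o
        · rw [hy, h.1 hy, card_kids_root, card_kids_root]
        · rw [card_kids hy, card_kids fun hz => hy (h.2 hz)]
      obtain ⟨f, hf, hf'⟩ := exists_bij _ _ hc (t y) (t' z)
      exact ⟨f, fun _ => ⟨hf, hf'⟩⟩
    · exact ⟨id, fun h' => absurd h' h⟩
  choose σ hσ using this
  exact ⟨σ, hσ⟩

/-- The recursion along the distance. -/
noncomputable def F (T : RTree V b) (o o' : V) (σ : V → V → V → V) : ℕ → V → V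
  | 0, _ => o'
  | n + 1, x => σ (par T.G o x) (F T o o' σ n (par T.G o x)) x

/-- The map. -/
noncomputable def f (T : RTree V b) (o o' : V) (σ : V → V → V → V) (x : V) : V :=
  F T o o' σ (T.G.dist o x) x

theorem f_root (o o' : V) (σ : V → V → V → V) : f T o o' σ o = o' := by
  rw [f, SimpleGraph.dist_self, F]

theorem f_eq {o x : V} (o' : V) (σ : V → V → V → V) (h : x ≠ o) :
    f T o o' σ x = σ (par T.G o x) (f T o o' σ (par T.G o x)) x := by
  rw [f, (par_spec T.tree.1 h).2, F, f]

theorem dist_zero_iff {o x : V} : T.G.dist o x = 0 ↔ x = o := by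
  rw [T.tree.1.dist_eq_zero_iff]
  exact eq_comm

section

variable {o o' : V} {t t' : V → V} {σ : V → V → V → V}
  (hσ : ∀ y z, (y = o ↔ z = o') → BijOn (σ y z) (kids T o y) (kids T o' z) ∧
      (t y ∈ kids T o y → t' z ∈ kids T o' z → σ y z (t y) = t' z))

include hσ

theorem dist_f (n : ℕ) : ∀ x, T.G.dist o x = n → T.G.dist o' (f T o o' σ x) = n := by
  induction n with
  | zero =>
    intro x hx
    rw [dist_zero_iff] at hx
    rw [hx, f_root, SimpleGraph.dist_self]
  | succ n ih =>
    intro x hx
    have hxo : x ≠ o := by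
      rintro rfl
      rw [SimpleGraph.dist_self] at hx
      omega
    have hp := (par_spec T.tree.1 hxo).2
    have h1 := ih (par T.G o x) (by omega)
    have h2 : par T.G o x = o ↔ f T o o' σ (par T.G o x) = o' := by
      rw [← dist_zero_iff (T := T) (o := o), ← dist_zero_iff (T := T) (o := o'), h1]
      omega
    have h3 := (hσ _ _ h2).1.mapsTo (mem_kids_par hxo)
    rw [← f_eq o' σ hxo] at h3
    have := (mem_kids.1 h3).2
    omega

theorem dist_f' (x : V) : T.G.dist o' (f T o o' σ x) = T.G.dist o x := dist_f hσ _ x rfl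

theorem root_iff (y : V) : y = o ↔ f T o o' σ y = o' := by
  rw [← dist_zero_iff (T := T) (o := o), ← dist_zero_iff (T := T) (o := o'), dist_f' hσ]

theorem f_mem {x : V} (hx : x ≠ o) : f T o o' σ x ∈ kids T o' (f T o o' σ (par T.G o x)) := by
  have h3 := (hσ _ _ (root_iff hσ _)).1.mapsTo (mem_kids_par hx)
  rw [← f_eq o' σ hx] at h3
  exact h3

theorem par_f {x : V} (hx : x ≠ o) : f T o o' σ (par T.G o x) = par T.G o' (f T o o' σ x) :=
  kids_par (f_mem hσ hx)

theorem f_inj (n : ℕ) : ∀ x x', T.G.dist o x = n → f T o o' σ x = f T o o' σ x' → x = x' := by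
  induction n with
  | zero =>
    intro x x' hx h
    have h1 : T.G.dist o x' = 0 := by rw [← dist_f' hσ, ← h, dist_f' hσ, hx]
    rw [dist_zero_iff] at hx h1
    rw [hx, h1]
  | succ n ih =>
    intro x x' hx h
    have h1 : T.G.dist o x' = n + 1 := by rw [← dist_f' hσ, ← h, dist_f' hσ, hx]
    have hxo : x ≠ o := by
      rintro rfl
      rw [SimpleGraph.dist_self] at hx
      omega
    have hxo' : x' ≠ o := by
      rintro rfl
      rw [SimpleGraph.dist_self] at h1
      omega
    have h2 : par T.G o x = par T.G o x' := by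
      apply ih _ _ (by have := (par_spec T.tree.1 hxo).2; omega)
      rw [par_f hσ hxo, par_f hσ hxo', h]
    apply (hσ _ _ (root_iff hσ (par T.G o x))).1.injOn (mem_kids_par hxo)
      (by rw [h2]; exact mem_kids_par hxo')
    rw [← f_eq o' σ hxo, h, f_eq o' σ hxo', h2]

theorem f_surj (n : ℕ) : ∀ z, T.G.dist o' z = n → ∃ x, f T o o' σ x = z := by
  induction n with
  | zero =>
    intro z hz
    rw [dist_zero_iff] at hz
    exact ⟨o, by rw [f_root, hz]⟩
  | succ n ih =>
    intro z hz
    have hzo : z ≠ o' := by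
      rintro rfl
      rw [SimpleGraph.dist_self] at hz
      omega
    obtain ⟨y, hy⟩ := ih (par T.G o' z) (by have := (par_spec T.tree.1 hzo).2; omega)
    have h1 : z ∈ kids T o' (f T o o' σ y) := by
      rw [hy]
      exact mem_kids_par hzo
    obtain ⟨x, hx, hx'⟩ := (hσ _ _ (root_iff hσ y)).1.surjOn h1
    refine ⟨x, ?_⟩
    rw [f_eq o' σ (ne_of_kids hx), ← kids_par hx, hx']

theorem f_adj (x y : V) : T.G.Adj (f T o o' σ x) (f T o o' σ y) ↔ T.G.Adj x y := by
  have key : ∀ x y, T.G.dist o y = T.G.dist o x + 1 →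
      (T.G.Adj (f T o o' σ x) (f T o o' σ y) ↔ T.G.Adj x y) := by
    intro x y hd
    have hy : y ≠ o := by
      rintro rfl
      rw [SimpleGraph.dist_self] at hd
      omega
    constructor
    · intro h
      have h1 := par_unique T.tree h (by rw [dist_f' hσ, dist_f' hσ, hd])
      rw [← par_f hσ hy] at h1
      rw [f_inj hσ _ _ _ rfl h1]
      exact (par_spec T.tree.1 hy).1
    · intro h
      rw [par_unique T.tree h hd]
      exact (mem_kids.1 (f_mem hσ hy)).1
  constructor
  · intro h
    rcases dist_cases (o := o') h with h1 | h1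
    · rw [dist_f' hσ, dist_f' hσ] at h1
      exact (key x y h1).1 h
    · rw [dist_f' hσ, dist_f' hσ] at h1
      exact ((key y x h1).1 h.symm).symm
  · intro h
    rcases dist_cases (o := o) h with h1 | h1
    · exact (key x y h1).2 h
    · exact ((key y x h1).2 h.symm).symm

end

/-- The ancestors of `w`. -/
noncomputable def anc (T : RTree V b) (o w : V) (k : ℕ) : V :=
  (par T.G o)^[T.G.dist o w - k] w

theorem dist_iter {o : V} (m : ℕ) : ∀ w, m ≤ T.G.dist o w →
    T.G.dist o ((par T.G o)^[m] w) = T.G.dist o w - m := by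
  induction m with
  | zero => intro w _; simp
  | succ m ih =>
    intro w hw
    have hwo : w ≠ o := by
      rintro rfl
      rw [SimpleGraph.dist_self] at hw
      omega
    have h1 := (par_spec T.tree.1 hwo).2
    rw [Function.iterate_succ_apply, ih _ (by omega)]
    omega

theorem dist_anc {o w : V} {k : ℕ} (hk : k ≤ T.G.dist o w) : T.G.dist o (anc T o w k) = k := by
  rw [anc, dist_iter _ _ (by omega)]
  omega

theorem anc_self {o w : V} : anc T o w (T.G.dist o w) = w := by
  rw [anc, Nat.sub_self, Function.iterate_zero, id]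

theorem anc_zero {o w : V} : anc T o w 0 = o :=
  dist_zero_iff.1 (dist_anc (Nat.zero_le _))

theorem par_anc {o w : V} {k : ℕ} (hk : k < T.G.dist o w) :
    par T.G o (anc T o w (k + 1)) = anc T o w k := by
  rw [anc, anc, ← Function.iterate_succ_apply' (par T.G o)]
  congr 1
  omega

theorem anc_mem {o w : V} {k : ℕ} (hk : k < T.G.dist o w) :
    anc T o w (k + 1) ∈ kids T o (anc T o w k) := by
  rw [← par_anc hk]
  apply mem_kids_par
  intro h
  have := dist_anc (T := T) (o := o) (w := w) (k := k + 1) hk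
  rw [h, SimpleGraph.dist_self] at this
  omega

end AutAux

open AutAux ExistAux in
theorem exists_aut {V : Type u} {b : ℕ} (T : RTree V b) {v w v' w' : V}
    (h : T.G.dist v w = T.G.dist v' w') :
    ∃ φ : T.G ≃g T.G, φ v = v' ∧ φ w = w' := by
  obtain ⟨σ, hσ⟩ := exists_sigma (T := T) v v'
    (fun y => anc T v w (T.G.dist v y + 1)) (fun z => anc T v' w' (T.G.dist v' z + 1))
  have hbij : Function.Bijective (f T v v' σ) :=
    ⟨fun x x' hxx => f_inj hσ _ _ _ rfl hxx, fun z => f_surj hσ _ z rfl⟩
  refine ⟨⟨Equiv.ofBijective _ hbij, ?_⟩, ?_, ?_⟩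
  · intro x y
    exact f_adj hσ x y
  · exact f_root v v' σ
  · have key : ∀ k ≤ T.G.dist v w, f T v v' σ (anc T v w k) = anc T v' w' k := by
      intro k
      induction k with
      | zero =>
        intro _
        rw [anc_zero, anc_zero, f_root]
      | succ k ih =>
        intro hk
        have hm := anc_mem (T := T) (o := v) (w := w) (k := k) hk
        have hm' := anc_mem (T := T) (o := v') (w := w') (k := k) (by omega)
        rw [f_eq v' σ (ne_of_kids hm), par_anc hk, ih (by omega)]
        have h1 := hσ (anc T v w k) (anc T v' w' k) (by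
          rw [← dist_zero_iff (T := T) (o := v), ← dist_zero_iff (T := T) (o := v'),
            dist_anc (by omega), dist_anc (by omega)])
        have h2 := h1.2
        simp only [dist_anc (T := T) (o := v) (w := w) (k := k) (by omega),
          dist_anc (T := T) (o := v') (w := w') (k := k) (by omega)] at h2
        exact h2 hm hm'
    have h1 := key _ le_rfl
    rw [anc_self, h, anc_self] at h1
    exact h1

end Vale.Agent.P161E
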