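import Vale.Agent.P161E.Picard
import Mathlib.Analysis.SpecialFunctions.Artanh

/-!
# Signals and the update of posterior means
-/

open MeasureTheory Set Filter Topology
open scoped unitInterval ENNReal

namespace Vale.Agent.P161E

open Vale.Agent.P161

universe u

variable {V : Type u}

/-- the half log likelihood ratio of a signal is the `artanh` of `a (1 - 2 z)` -/
theorem ell_eq_artanh {a : ℝ} (ha0 : 0 ≤ a) (ha : a ≤ 1 / 5) (z : I) :
    ell a z = Real.artanh (a * (1 - 2 * (z : ℝ))) := by
  have h := abs_le.mp (abs_aux ha0 ha z)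
  rw [Real.artanh_eq_half_log (by constructor <;> linarith [h.1, h.2]),
    Real.log_div (by linarith [h.1]) (by linarith [h.2])]
  unfold ell
  ring

theorem tanh_ell {a : ℝ} (ha0 : 0 ≤ a) (ha : a ≤ 1 / 5) (z : I) :
    Real.tanh (ell a z) = a * (1 - 2 * (z : ℝ)) := by
  have h := abs_le.mp (abs_aux ha0 ha z)
  rw [ell_eq_artanh ha0 ha, Real.tanh_artanh (by constructor <;> linarith [h.1, h.2])]

/-- integration of a function of a signal -/
theorem integral_sig {s : ℝ} (hs : |s| ≤ 1 / 5) {F : I → ℝ} (hF : Measurable F) :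
    ∫ v : I, F (sig s v) = ∫ z : I, F z * (1 + s * (1 - 2 * (z : ℝ))) := by
  have hm : Measurable (sig s) := measurable_sig.of_uncurry_left
  have hnn : ∀ z : I, 0 ≤ 1 + s * (1 - 2 * (z : ℝ)) := by
    intro z
    have h1 : |1 - 2 * (z : ℝ)| ≤ 1 := by
      rw [abs_le]; constructor <;> linarith [z.2.1, z.2.2]
    have h2 : |s * (1 - 2 * (z : ℝ))| ≤ 1 / 5 := by
      rw [abs_mul]
      calc |s| * |1 - 2 * (z : ℝ)| ≤ 1 / 5 * 1 := by gcongr
        _ = 1 / 5 := by ring
    linarith [(abs_le.mp h2).1]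
  rw [← integral_map (f := F) hm.aemeasurable hF.aestronglyMeasurable, map_sig hs,
    integral_withDensity_eq_integral_toReal_smul (by fun_prop)
      (ae_of_all _ fun z => ENNReal.ofReal_lt_top)]
  refine integral_congr_ae (ae_of_all _ fun z => ?_)
  simp only [smul_eq_mul]
  rw [ENNReal.toReal_ofReal (hnn z), mul_comm]

theorem integral_xi : ∫ z : I, (1 - 2 * (z : ℝ)) = 0 := by
  have h : ∫ z : I, (1 - 2 * (z : ℝ)) = ∫ t in (0 : ℝ)..1, (1 - 2 * t) := by
    rw [intervalIntegral.integral_of_le zero_le_one, ← integral_Icc_eq_integral_Ioc]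
    exact (integral_subtype_comap measurableSet_Icc (fun t : ℝ => 1 - 2 * t))
  rw [h]
  have hi : IntervalIntegrable (fun x : ℝ => 2 * x) volume 0 1 :=
    Continuous.intervalIntegrable (by fun_prop) _ _
  rw [intervalIntegral.integral_sub intervalIntegrable_const hi,
    intervalIntegral.integral_const_mul, integral_id]
  norm_num

/-- changing one field: the update of posterior means -/
theorem tilt_update [DecidableEq V] (μ : Measure (V → Bool)) [IsProbabilityMeasure μ]
    (D : Finset V) (w : V) (hw : w ∈ D) (Y : V → ℝ) (δ : ℝ) {F : (V → Bool) → ℝ}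
    (hF : Measurable F) (hb : ∀ τ, |F τ| ≤ 1) :
    tilt μ D (Function.update Y w (Y w + δ)) F =
      (tilt μ D Y F + Real.tanh δ * tilt μ D Y (fun τ => F τ * sg (τ w))) /
        (1 + Real.tanh δ * mean μ D w Y) ∧ 0 < 1 + Real.tanh δ * mean μ D w Y := by
  have hch : 0 < Real.cosh δ := Real.cosh_pos δ
  have hwt : ∀ τ, wt D (Function.update Y w (Y w + δ)) τ =
      Real.cosh δ * wt D Y τ + Real.sinh δ * (sg (τ w) * wt D Y τ) := by
    intro τ
    have h1 : wt D (Function.update Y w (Y w + δ)) τ = wt D Y τ * Real.exp (δ * sg (τ w)) := by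
      unfold wt
      rw [← Real.exp_add]
      congr 1
      rw [← Finset.add_sum_erase D _ hw, ← Finset.add_sum_erase D _ hw]
      have : ∑ x ∈ D.erase w, Function.update Y w (Y w + δ) x * sg (τ x) =
          ∑ x ∈ D.erase w, Y x * sg (τ x) :=
        Finset.sum_congr rfl fun x hx => by
          rw [Function.update_of_ne (Finset.ne_of_mem_erase hx)]
      rw [this, Function.update_self]
      ring
    rw [h1, CovAux.exp_mul_sg]
    ring
  set Z := Zf μ D Y with hZ
  have hZ0 : 0 < Z := Zf_pos μ D Y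
  have iF := CovAux.integrable_mul_wt μ D Y hF hb
  have iFw := CovAux.integrable_mul_wt μ D Y (F := fun τ => F τ * sg (τ w))
    (hF.mul (measurable_sg.comp (measurable_pi_apply w)))
    (fun τ => by rw [abs_mul, abs_sg, mul_one]; exact hb τ)
  have iw := CovAux.integrable_mul_wt μ D Y (F := fun τ => sg (τ w))
    (measurable_sg.comp (measurable_pi_apply w)) (fun τ => (abs_sg _).le)
  have eF : ∫ τ, F τ * wt D Y τ ∂μ = Z * tilt μ D Y F := by
    unfold tilt; rw [mul_div_cancel₀ _ hZ0.ne']
  have eFw : ∫ τ, F τ * sg (τ w) * wt D Y τ ∂μ = Z * tilt μ D Y (fun τ => F τ * sg (τ w)) := by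
    unfold tilt; rw [mul_div_cancel₀ _ hZ0.ne']
  have ew : ∫ τ, sg (τ w) * wt D Y τ ∂μ = Z * mean μ D w Y := by
    unfold mean tilt; rw [mul_div_cancel₀ _ hZ0.ne']
  have hZ' : Zf μ D (Function.update Y w (Y w + δ)) =
      Z * Real.cosh δ * (1 + Real.tanh δ * mean μ D w Y) := by
    show ∫ τ, wt D (Function.update Y w (Y w + δ)) τ ∂μ = _
    simp_rw [hwt]
    rw [integral_add ((integrable_wt μ D Y).const_mul _) (iw.const_mul _), integral_const_mul,
      integral_const_mul, ew]
    show Real.cosh δ * Z + Real.sinh δ * (Z * mean μ D w Y) = _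
    rw [Real.tanh_eq_sinh_div_cosh]
    field_simp
  have hN' : ∫ τ, F τ * wt D (Function.update Y w (Y w + δ)) τ ∂μ =
      Z * Real.cosh δ * (tilt μ D Y F + Real.tanh δ * tilt μ D Y (fun τ => F τ * sg (τ w))) := by
    have e : ∀ τ : V → Bool, F τ * wt D (Function.update Y w (Y w + δ)) τ =
        Real.cosh δ * (F τ * wt D Y τ) + Real.sinh δ * (F τ * sg (τ w) * wt D Y τ) :=
      fun τ => by rw [hwt]; ring
    simp_rw [e]
    rw [integral_add (iF.const_mul _) (iFw.const_mul _), integral_const_mul,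
      integral_const_mul, eF, eFw, Real.tanh_eq_sinh_div_cosh]
    field_simp
  have hpos : 0 < 1 + Real.tanh δ * mean μ D w Y := by
    have h1 := Zf_pos μ D (Function.update Y w (Y w + δ))
    rw [hZ'] at h1
    exact (pos_iff_pos_of_mul_pos h1).1 (mul_pos hZ0 hch)
  refine ⟨?_, hpos⟩
  conv_lhs => unfold tilt
  rw [hN', hZ', mul_div_mul_left _ _ (mul_pos hZ0 hch).ne']

/-- changing one field: the update of the magnetisation -/
theorem mean_update [DecidableEq V] (μ : Measure (V → Bool)) [IsProbabilityMeasure μ]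
    (D : Finset V) (v w : V) (hw : w ∈ D) (Y : V → ℝ) (δ : ℝ) :
    mean μ D v (Function.update Y w (Y w + δ)) = mean μ D v Y +
      Real.tanh δ * cov μ D v w Y / (1 + Real.tanh δ * mean μ D w Y) := by
  obtain ⟨h1, h2⟩ := tilt_update μ D w hw Y δ (F := fun τ => sg (τ v))
    (measurable_sg.comp (measurable_pi_apply v)) (fun τ => (abs_sg _).le)
  show tilt μ D (Function.update Y w (Y w + δ)) (fun τ => sg (τ v)) = _
  rw [h1]
  unfold cov mean
  rw [show tilt μ D Y (fun τ => sg (τ w)) = mean μ D w Y from rfl,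
    show tilt μ D Y (fun τ => sg (τ v)) = mean μ D v Y from rfl]
  field_simp
  ring

end Vale.Agent.P161E
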