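import Vale.Agent.P161E.Ortho
import Vale.Agent.P161.Cauchy
import Vale.Agent.P161.EfronStein

/-!
# The finite-volume samplers converge
-/

open MeasureTheory Set Filter Topology
open scoped unitInterval ENNReal

namespace Vale.Agent.P161E

open Vale.Agent.P161

universe u

variable {V : Type u}

open LawAux OrthoAux

theorem integral_inn (μ : Measure (V → Bool))
    [IsProbabilityMeasure μ] (D : Finset V) {U : ℕ × V → I} (hU : Function.Injective U) (k : ℕ)
    {F : (ℕ × V → I) → ℝ} (hF : Measurable F) (h0 : ∀ s, 0 ≤ F s)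
    (hdep : DependsOn F (sites k D : Set (ℕ × V))) :
    ∫ p, F (LawAux.inn μ D U (xU U p)) ∂(μ.prod (iid (ℕ × V))) = ∫ s, F s ∂(iid (ℕ × V)) := by
  have hm : Measurable (fun p : (V → Bool) × (ℕ × V → I) => LawAux.inn μ D U (xU U p)) :=
    LawAux.measurable_inn μ D measurable_const (measurable_xU U)
  have hl := LawAux.lintegral_inn μ D hU k (F := fun s => ENNReal.ofReal (F s)) hF.ennreal_ofReal
      (fun x x' h => by
        show ENNReal.ofReal (F x) = ENNReal.ofReal (F x')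
        rw [hdep h])
  rw [integral_eq_lintegral_of_nonneg_ae (ae_of_all _ fun ω => h0 _)
    (hF.comp hm).aestronglyMeasurable,
    integral_eq_lintegral_of_nonneg_ae (ae_of_all _ fun ω => h0 _) hF.aestronglyMeasurable,
    ← hl]
  rfl

theorem measurable_coe_sol (μ : Measure (V → Bool)) [IsProbabilityMeasure μ]
    (D : Finset V) (U : ℕ × V → I) (j : ℕ × V) :
    Measurable (fun s : ℕ × V → I => (sol μ D U s j : ℝ)) := by
  have h : Measurable (fun s : ℕ × V → I => sol μ D ((fun _ => U) s) (id s)) :=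
    measurable_sol μ D measurable_const measurable_id
  exact measurable_subtype_coe.comp (measurable_pi_iff.mp h j)

/-- The finite-volume samplers form a Cauchy net, for fixed labels. -/
theorem sol_cauchy_fixed {μ : Measure (V → Bool)} [IsProbabilityMeasure μ]
    {U : ℕ × V → I} (hU : Function.Injective U) (k : ℕ) (v : V) {c : ℕ × V → ℝ}
    (hc0 : ∀ j, 0 ≤ c j) (hcs : Summable fun j => c j ^ 2)
    (hlip : ∀ D : Finset V, v ∈ D → ∀ s s' : ℕ × V → I,
      |(sol μ D U s (k, v) : ℝ) - sol μ D U s' (k, v)| ≤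
        ∑ j ∈ sites k D, c j * |(s j : ℝ) - s' j|) {ε : ℝ} (hε : 0 < ε) :
    ∃ D₀ : Finset V, v ∈ D₀ ∧ ∀ D D' : Finset V, D₀ ⊆ D → D ⊆ D' →
      ∫ s, ((sol μ D U s (k, v) : ℝ) - sol μ D' U s (k, v)) ^ 2 ∂(iid (ℕ × V)) ≤ ε := by
  classical
  -- the constants
  obtain ⟨B, hB⟩ := summable_iff_vanishing_norm.mp hcs (ε / 9) (by positivity)
  set Q : ℝ := ∑ j ∈ B, c j ^ 2 with hQ
  have hQ0 : 0 ≤ Q := Finset.sum_nonneg fun _ _ => sq_nonneg _
  set ε2 : ℝ := ε / (9 * (Q * B.card + 1)) with hε2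
  have hε2pos : 0 < ε2 := by positivity
  choose T hT using fun j : ℕ × V => OrthoAux.exists_pm_cauchy μ U j.1 (U j) j.2 hε2pos
  refine ⟨insert v (B.biUnion T), Finset.mem_insert_self _ _, fun D D' h0 h1 => ?_⟩
  have hvD : v ∈ D := h0 (Finset.mem_insert_self _ _)
  have hTD : ∀ j ∈ B, T j ⊆ D := fun j hj z hz => h0 (Finset.mem_insert_of_mem
    (Finset.mem_biUnion.mpr ⟨j, hj, hz⟩))
  -- the approximation by a local function
  set f : (ℕ × V → I) → ℝ := fun s => (sol μ D U s (k, v) : ℝ) with hf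
  set f' : (ℕ × V → I) → ℝ := fun s => (sol μ D' U s (k, v) : ℝ) with hf'
  have hlipD : ∀ s s' : ℕ × V → I, |f s - f s'| ≤ ∑ j ∈ sites k D, c j * |(s j : ℝ) - s' j| :=
    fun s s' => hlip D hvD s s'
  have hlipD' : ∀ s s' : ℕ × V → I,
      |f' s - f' s'| ≤ ∑ j ∈ sites k D', c j * |(s j : ℝ) - s' j| :=
    fun s s' => hlip D' (h1 hvD) s s'
  have hmf : Measurable f := measurable_coe_sol μ D U (k, v)
  have hmf' : Measurable f' := measurable_coe_sol μ D' U (k, v)
  have hfb : ∀ s, |f s| ≤ 1 := fun s => by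
    rw [abs_le]; constructor <;> simp only [hf] <;> linarith [(sol μ D U s (k, v)).2.1,
      (sol μ D U s (k, v)).2.2]
  have hf'b : ∀ s, |f' s| ≤ 1 := fun s => by
    rw [abs_le]; constructor <;> simp only [hf'] <;> linarith [(sol μ D' U s (k, v)).2.1,
      (sol μ D' U s (k, v)).2.2]
  obtain ⟨g, hgm, hgb, hglip, hgf⟩ := efron_stein f hmf (sites k D) B c hc0 hfb hlipD
  have hdf := dependsOn_of_lip hlipD
  have hdf' := dependsOn_of_lip hlipD'
  have hdg := dependsOn_of_lip hglip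
  -- the approximation error
  have herr : ∑ j ∈ sites k D \ B, c j ^ 2 ≤ ε / 9 := by
    have e3 := hB (sites k D \ B) Finset.sdiff_disjoint
    rw [Real.norm_eq_abs] at e3
    exact (le_abs_self _).trans e3.le
  have hfg : ∫ s, (f s - g s) ^ 2 ∂(iid (ℕ × V)) ≤ ε / 9 := hgf.trans herr
  -- transfer to the space of the signals
  have hmi : ∀ D, Measurable (fun p : (V → Bool) × (ℕ × V → I) =>
      LawAux.inn μ D U (xU U p)) :=
    fun D => LawAux.measurable_inn μ D measurable_const (measurable_xU U)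
  have t1 : ∫ s, (f s - f' s) ^ 2 ∂(iid (ℕ × V)) =
      ∫ p, (f (LawAux.inn μ D' U (xU U p)) - f' (LawAux.inn μ D' U (xU U p))) ^ 2
        ∂(μ.prod (iid (ℕ × V))) := by
    rw [integral_inn μ D' hU k (F := fun s => (f s - f' s) ^ 2)
      ((hmf.sub hmf').pow_const 2) (fun s => sq_nonneg _)]
    intro s s' hs
    show (f s - f' s) ^ 2 = (f s' - f' s') ^ 2
    rw [hdf fun j hj => hs j (Finset.coe_subset.mpr (sites_mono h1) hj), hdf' hs]
  have t2 : ∀ p : (V → Bool) × (ℕ × V → I), f' (LawAux.inn μ D' U (xU U p)) =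
      f (LawAux.inn μ D U (xU U p)) := by
    intro p
    simp only [hf, hf']
    rw [LawAux.sol_inn μ D' U _ k v (h1 hvD), LawAux.sol_inn μ D U _ k v hvD]
  have t3 : ∀ D'' : Finset V, D ⊆ D'' → ∫ p, (f (LawAux.inn μ D'' U (xU U p)) -
      g (LawAux.inn μ D'' U (xU U p))) ^ 2 ∂(μ.prod (iid (ℕ × V))) ≤ ε / 9 := by
    intro D'' hD''
    rw [integral_inn μ D'' hU k (F := fun s => (f s - g s) ^ 2)
      ((hmf.sub hgm).pow_const 2) (fun s => sq_nonneg _)]
    · exact hfg
    · intro s s' hs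
      show (f s - g s) ^ 2 = (f s' - g s') ^ 2
      rw [hdf fun j hj => hs j (Finset.coe_subset.mpr (sites_mono hD'') hj),
        hdg fun j hj => hs j (Finset.coe_subset.mpr (sites_mono hD'')
          (Finset.coe_subset.mpr Finset.inter_subset_left hj))]
  -- the local function along the two innovations
  set d : (V → Bool) × (ℕ × V → I) → ℕ × V → ℝ := fun p j =>
    pm μ D' U j.1 (U j) j.2 (xU U p) - pm μ D U j.1 (U j) j.2 (xU U p) with hd
  have t4 : ∀ p : (V → Bool) × (ℕ × V → I), (g (LawAux.inn μ D' U (xU U p)) -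
      g (LawAux.inn μ D U (xU U p))) ^ 2 ≤ Q * ∑ j ∈ B, d p j ^ 2 := by
    intro p
    have u1 := hglip (LawAux.inn μ D' U (xU U p)) (LawAux.inn μ D U (xU U p))
    have u2 : ∀ j, |(LawAux.inn μ D' U (xU U p) j : ℝ) - LawAux.inn μ D U (xU U p) j| ≤
        |d p j| := by
      intro j
      unfold LawAux.inn
      refine (cdfI_lip (abs_param_le μ D' U _ j) (abs_param_le μ D U _ j) _).trans ?_
      have : param μ D' U (xU U p) j - param μ D U (xU U p) j = str (U j) * d p j := by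
        simp only [hd]; unfold param OrthoAux.pm; ring
      obtain ⟨hs0, hs1⟩ := abs_str_le (U j)
      rw [this, abs_mul, abs_of_nonneg hs0]
      have := abs_nonneg (d p j)
      nlinarith
    have u3 : |g (LawAux.inn μ D' U (xU U p)) - g (LawAux.inn μ D U (xU U p))| ≤
        ∑ j ∈ B, c j * |d p j| := by
      refine u1.trans ?_
      refine (Finset.sum_le_sum fun j _ => mul_le_mul_of_nonneg_left (u2 j) (hc0 j)).trans ?_
      exact Finset.sum_le_sum_of_subset_of_nonneg Finset.inter_subset_right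
        fun j _ _ => mul_nonneg (hc0 j) (abs_nonneg _)
    calc (g (LawAux.inn μ D' U (xU U p)) - g (LawAux.inn μ D U (xU U p))) ^ 2
        = |g (LawAux.inn μ D' U (xU U p)) - g (LawAux.inn μ D U (xU U p))| ^ 2 :=
          (sq_abs _).symm
      _ ≤ (∑ j ∈ B, c j * |d p j|) ^ 2 := by gcongr
      _ ≤ (∑ j ∈ B, c j ^ 2) * ∑ j ∈ B, |d p j| ^ 2 := Finset.sum_mul_sq_le_sq_mul_sq _ _ _
      _ = Q * ∑ j ∈ B, d p j ^ 2 := by simp only [sq_abs, hQ]
  have hmd : ∀ j, Measurable (fun p => d p j) := fun j =>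
    ((measurable_pm μ D' U j.1 (U j) j.2).comp (measurable_xU U)).sub
      ((measurable_pm μ D U j.1 (U j) j.2).comp (measurable_xU U))
  have hdb : ∀ p j, |d p j| ≤ 2 := by
    intro p j
    have u1 := abs_le.mp (OrthoAux.abs_pm_le μ D' U j.1 (U j) j.2 (xU U p))
    have u2 := abs_le.mp (OrthoAux.abs_pm_le μ D U j.1 (U j) j.2 (xU U p))
    simp only [hd]
    rw [abs_le]; constructor <;> linarith [u1.1, u1.2, u2.1, u2.2]
  have hdi : ∀ j, Integrable (fun p => d p j ^ 2) (μ.prod (iid (ℕ × V))) := fun j =>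
    integrable_bdd ((hmd j).pow_const 2) (M := 4) fun p => by
      rw [abs_pow]
      have := hdb p j
      have := abs_nonneg (d p j)
      nlinarith
  have hsqi : ∀ (F G : (V → Bool) × (ℕ × V → I) → ℝ), Measurable F → Measurable G →
      (∀ p, |F p| ≤ 1) → (∀ p, |G p| ≤ 1) →
      Integrable (fun p => (F p - G p) ^ 2) (μ.prod (iid (ℕ × V))) := by
    intro F G hF hG hFb hGb
    refine integrable_bdd ((hF.sub hG).pow_const 2) (M := 4) fun p => ?_
    have u1 := abs_le.mp (hFb p)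
    have u2 := abs_le.mp (hGb p)
    rw [abs_of_nonneg (sq_nonneg _)]
    nlinarith [u1.1, u1.2, u2.1, u2.2]
  have t5 : ∫ p, (g (LawAux.inn μ D' U (xU U p)) - g (LawAux.inn μ D U (xU U p))) ^ 2
      ∂(μ.prod (iid (ℕ × V))) ≤ ε / 9 := by
    calc ∫ p, (g (LawAux.inn μ D' U (xU U p)) - g (LawAux.inn μ D U (xU U p))) ^ 2
          ∂(μ.prod (iid (ℕ × V)))
        ≤ ∫ p, Q * ∑ j ∈ B, d p j ^ 2 ∂(μ.prod (iid (ℕ × V))) := by
          apply integral_mono
            (hsqi _ _ (hgm.comp (hmi D')) (hgm.comp (hmi D)) (fun p => hgb _) (fun p => hgb _))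
          · exact (integrable_finsetSum _ fun j _ => hdi j).const_mul Q
          · exact t4
      _ = Q * ∑ j ∈ B, ∫ p, d p j ^ 2 ∂(μ.prod (iid (ℕ × V))) := by
          rw [integral_const_mul, integral_finsetSum _ fun j _ => hdi j]
      _ ≤ Q * ∑ _j ∈ B, ε2 := by
          apply mul_le_mul_of_nonneg_left _ hQ0
          exact Finset.sum_le_sum fun j hj => hT j D D' (hTD j hj) h1
      _ = Q * B.card * ε2 := by rw [Finset.sum_const, nsmul_eq_mul]; ring
      _ ≤ ε / 9 := by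
          have u1 : 0 ≤ Q * (B.card : ℝ) := by positivity
          rw [hε2, ← mul_div_assoc, div_le_div_iff₀ (by positivity) (by norm_num)]
          nlinarith
  show ∫ s, (f s - f' s) ^ 2 ∂(iid (ℕ × V)) ≤ ε
  rw [t1]
  simp_rw [t2]
  set F1 : (V → Bool) × (ℕ × V → I) → ℝ := fun p => f (LawAux.inn μ D' U (xU U p)) with hF1
  set F2 : (V → Bool) × (ℕ × V → I) → ℝ := fun p => f (LawAux.inn μ D U (xU U p)) with hF2
  set G1 : (V → Bool) × (ℕ × V → I) → ℝ := fun p => g (LawAux.inn μ D' U (xU U p)) with hG1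
  set G2 : (V → Bool) × (ℕ × V → I) → ℝ := fun p => g (LawAux.inn μ D U (xU U p)) with hG2
  have i1 := hsqi F1 G1 (hmf.comp (hmi D')) (hgm.comp (hmi D')) (fun p => hfb _) (fun p => hgb _)
  have i2 := hsqi G1 G2 (hgm.comp (hmi D')) (hgm.comp (hmi D)) (fun p => hgb _) (fun p => hgb _)
  have i3 := hsqi F2 G2 (hmf.comp (hmi D)) (hgm.comp (hmi D)) (fun p => hfb _) (fun p => hgb _)
  have i4 := hsqi F1 F2 (hmf.comp (hmi D')) (hmf.comp (hmi D)) (fun p => hfb _) (fun p => hfb _)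
  calc ∫ p, (F1 p - F2 p) ^ 2 ∂(μ.prod (iid (ℕ × V)))
      ≤ ∫ p, (3 * (F1 p - G1 p) ^ 2 + (3 * (G1 p - G2 p) ^ 2 + 3 * (F2 p - G2 p) ^ 2))
          ∂(μ.prod (iid (ℕ × V))) := by
        apply integral_mono i4
        · exact (i1.const_mul 3).add ((i2.const_mul 3).add (i3.const_mul 3))
        · intro p
          simp only
          nlinarith [sq_nonneg ((F1 p - G1 p) - (G1 p - G2 p)),
            sq_nonneg ((G1 p - G2 p) - (G2 p - F2 p)), sq_nonneg ((F1 p - G1 p) - (G2 p - F2 p))]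
    _ = 3 * ∫ p, (F1 p - G1 p) ^ 2 ∂(μ.prod (iid (ℕ × V))) +
          (3 * ∫ p, (G1 p - G2 p) ^ 2 ∂(μ.prod (iid (ℕ × V))) +
          3 * ∫ p, (F2 p - G2 p) ^ 2 ∂(μ.prod (iid (ℕ × V)))) := by
        have i5 : Integrable (fun p => 3 * (G1 p - G2 p) ^ 2 + 3 * (F2 p - G2 p) ^ 2)
            (μ.prod (iid (ℕ × V))) := (i2.const_mul 3).add (i3.const_mul 3)
        rw [integral_add (i1.const_mul 3) i5,
          integral_add (i2.const_mul 3) (i3.const_mul 3), integral_const_mul, integral_const_mul,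
          integral_const_mul]
    _ ≤ 3 * (ε / 9) + (3 * (ε / 9) + 3 * (ε / 9)) := by
        have w1 := t3 D' h1
        have w3 := t3 D (Finset.Subset.refl D)
        have w2 := t5
        gcongr
    _ = ε := by ring

/-- The conclusion of `exists_infl` for the coefficients `cf`. -/
structure IsInfl (μ : Measure (V → Bool))
    (cf : (ℕ × V → I) → (ℕ × V) → (ℕ × V) → ℝ≥0∞) : Prop where
  meas : ∀ j i, Measurable fun U => cf U j i
  lip : ∀ (D : Finset V) (U s s' : ℕ × V → I) (k : ℕ) (v : V), v ∈ D →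
    ENNReal.ofReal |(sol μ D U s (k, v) : ℝ) - sol μ D U s' (k, v)| ≤
      ∑ i ∈ sites k D, cf U (k, v) i * ENNReal.ofReal |(s i : ℝ) - s' i|
  sq : ∀ j, ∑' i, ∫⁻ U, cf U j i ^ 2 ∂(iid (ℕ × V)) < ⊤

/-- for almost all labels the coefficients are square summable -/
theorem IsInfl.ae_summable [Countable V] {μ : Measure (V → Bool)}
    {cf : (ℕ × V → I) → (ℕ × V) → (ℕ × V) → ℝ≥0∞} (h : IsInfl μ cf) (j : ℕ × V) :
    ∀ᵐ U ∂(iid (ℕ × V)), ∃ c : ℕ × V → ℝ, (∀ i, 0 ≤ c i) ∧ (Summable fun i => c i ^ 2) ∧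
      ∀ D : Finset V, j.2 ∈ D → ∀ s s' : ℕ × V → I,
        |(sol μ D U s j : ℝ) - sol μ D U s' j| ≤
          ∑ i ∈ sites j.1 D, c i * |(s i : ℝ) - s' i| := by
  have h1 : ∫⁻ U, ∑' i, cf U j i ^ 2 ∂(iid (ℕ × V)) < ⊤ := by
    rw [lintegral_tsum fun i => ((h.meas j i).pow_const 2).aemeasurable]
    exact h.sq j
  have hm : Measurable fun U => ∑' i, cf U j i ^ 2 :=
    Measurable.tsum fun i => (h.meas j i).pow_const 2
  filter_upwards [ae_lt_top hm h1.ne] with U hU
  have hfin : ∀ i, cf U j i ≠ ⊤ := by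
    intro i hi
    have : cf U j i ^ 2 ≤ ∑' i, cf U j i ^ 2 := ENNReal.le_tsum i
    rw [hi] at this
    simp at this
    exact absurd this hU.ne
  refine ⟨fun i => (cf U j i).toReal, fun i => ENNReal.toReal_nonneg, ?_, ?_⟩
  · have h2 := ENNReal.summable_toReal hU.ne
    refine h2.congr fun i => ?_
    rw [ENNReal.toReal_pow]
  · intro D hD s s'
    obtain ⟨k, v⟩ := j
    have h3 := h.lip D U s s' k v hD
    have h4 : ∑ i ∈ sites k D, cf U (k, v) i * ENNReal.ofReal |(s i : ℝ) - s' i| =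
        ENNReal.ofReal (∑ i ∈ sites k D, (cf U (k, v) i).toReal * |(s i : ℝ) - s' i|) := by
      rw [ENNReal.ofReal_sum_of_nonneg fun i _ =>
        mul_nonneg ENNReal.toReal_nonneg (abs_nonneg _)]
      refine Finset.sum_congr rfl fun i _ => ?_
      rw [ENNReal.ofReal_mul ENNReal.toReal_nonneg, ENNReal.ofReal_toReal (hfin i)]
    rw [h4] at h3
    exact (ENNReal.ofReal_le_ofReal_iff (Finset.sum_nonneg fun i _ =>
      mul_nonneg ENNReal.toReal_nonneg (abs_nonneg _))).mp h3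

theorem measurable_sol_joint (μ : Measure (V → Bool)) [IsProbabilityMeasure μ]
    (D : Finset V) : Measurable (fun ω : Om V => sol μ D ω.1 ω.2) :=
  measurable_sol μ D measurable_fst measurable_snd

theorem measurable_sol_joint_coe (μ : Measure (V → Bool)) [IsProbabilityMeasure μ]
    (D : Finset V) (j : ℕ × V) : Measurable (fun ω : Om V => (sol μ D ω.1 ω.2 j : ℝ)) :=
  measurable_subtype_coe.comp (measurable_pi_iff.mp (measurable_sol_joint μ D) j)

/-- The finite-volume samplers form a Cauchy net in `L²`. -/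
theorem sol_cauchy_of_infl [Countable V] {μ : Measure (V → Bool)} [IsProbabilityMeasure μ]
    {cf : (ℕ × V → I) → (ℕ × V) → (ℕ × V) → ℝ≥0∞} (h : IsInfl μ cf) (j : ℕ × V) {ε : ℝ}
    (hε : 0 < ε) :
    ∃ D₀ : Finset V, ∀ D ≥ D₀,
      ∫ ω, ((sol μ D ω.1 ω.2 j : ℝ) - sol μ D₀ ω.1 ω.2 j) ^ 2 ∂(PO V) ≤ ε := by
  obtain ⟨k, v⟩ := j
  set e : Finset V × Finset V → (ℕ × V → I) → ℝ := fun D U =>
    ∫ s, ((sol μ D.1 U s (k, v) : ℝ) - sol μ D.2 U s (k, v)) ^ 2 ∂(iid (ℕ × V)) with he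
  have hsq : ∀ (D D' : Finset V) (ω : Om V),
      |((sol μ D ω.1 ω.2 (k, v) : ℝ) - sol μ D' ω.1 ω.2 (k, v)) ^ 2| ≤ 1 := by
    intro D D' ω
    rw [abs_pow]
    exact pow_le_one₀ (abs_nonneg _) (abs_coe_sub_le _ _)
  have hmj : ∀ D D' : Finset V, Measurable (fun ω : Om V =>
      ((sol μ D ω.1 ω.2 (k, v) : ℝ) - sol μ D' ω.1 ω.2 (k, v)) ^ 2) := fun D D' =>
    ((measurable_sol_joint_coe μ D (k, v)).sub
      (measurable_sol_joint_coe μ D' (k, v))).pow_const 2
  have hint : ∀ (D D' : Finset V) (U : ℕ × V → I), Integrable (fun s : ℕ × V → I =>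
      ((sol μ D U s (k, v) : ℝ) - sol μ D' U s (k, v)) ^ 2) (iid (ℕ × V)) := fun D D' U =>
    integrable_bdd (((measurable_coe_sol μ D U (k, v)).sub
      (measurable_coe_sol μ D' U (k, v))).pow_const 2) (M := 1) fun s => hsq D D' (U, s)
  have he0 : ∀ D U, 0 ≤ e D U := fun D U => integral_nonneg fun s => sq_nonneg _
  have he1 : ∀ D U, e D U ≤ 1 := by
    intro D U
    have : e D U ≤ ∫ _s, (1 : ℝ) ∂(iid (ℕ × V)) := by
      apply integral_mono (hint _ _ _) (integrable_const _)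
      intro s
      exact (le_abs_self _).trans (hsq D.1 D.2 (U, s))
    simpa using this
  -- convergence for fixed labels
  have hpt : ∀ᵐ U ∂(iid (ℕ × V)), Tendsto (fun D => e D U) atTop (𝓝 0) := by
    filter_upwards [ae_injective (V := ℕ × V), h.ae_summable (k, v)] with U hU hc
    obtain ⟨c, hc0, hcs, hcl⟩ := hc
    rw [Metric.tendsto_nhds]
    intro δ hδ
    obtain ⟨D₀, _, hD₀⟩ := sol_cauchy_fixed hU k v hc0 hcs hcl (ε := δ / 8) (by positivity)
    rw [eventually_atTop_prod_self]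
    refine ⟨D₀, fun D D' h1 h2 => ?_⟩
    have u1 := hD₀ D₀ D (Finset.Subset.refl _) h1
    have u2 := hD₀ D₀ D' (Finset.Subset.refl _) h2
    have u3 : e (D, D') U ≤ 2 * (δ / 8) + 2 * (δ / 8) := by
      calc e (D, D') U ≤ ∫ s, (2 * ((sol μ D₀ U s (k, v) : ℝ) - sol μ D U s (k, v)) ^ 2 +
            2 * ((sol μ D₀ U s (k, v) : ℝ) - sol μ D' U s (k, v)) ^ 2) ∂(iid (ℕ × V)) := by
            apply integral_mono (hint _ _ _)
              (((hint D₀ D U).const_mul 2).add ((hint D₀ D' U).const_mul 2))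
            intro s
            show ((sol μ D U s (k, v) : ℝ) - sol μ D' U s (k, v)) ^ 2 ≤
              2 * ((sol μ D₀ U s (k, v) : ℝ) - sol μ D U s (k, v)) ^ 2 +
              2 * ((sol μ D₀ U s (k, v) : ℝ) - sol μ D' U s (k, v)) ^ 2
            nlinarith [sq_nonneg (((sol μ D₀ U s (k, v) : ℝ) - sol μ D U s (k, v)) +
              ((sol μ D₀ U s (k, v) : ℝ) - sol μ D' U s (k, v)))]
        _ = 2 * ∫ s, ((sol μ D₀ U s (k, v) : ℝ) - sol μ D U s (k, v)) ^ 2 ∂(iid (ℕ × V)) +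
            2 * ∫ s, ((sol μ D₀ U s (k, v) : ℝ) - sol μ D' U s (k, v)) ^ 2
              ∂(iid (ℕ × V)) := by
            rw [integral_add ((hint D₀ D U).const_mul 2) ((hint D₀ D' U).const_mul 2),
              integral_const_mul, integral_const_mul]
        _ ≤ _ := by gcongr
    rw [Real.dist_eq, sub_zero, abs_of_nonneg (he0 _ _)]
    linarith
  have hem : ∀ D, AEStronglyMeasurable (fun U => e D U) (iid (ℕ × V)) := fun D =>
    ((hmj D.1 D.2).stronglyMeasurable.integral_prod_right'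
      (ν := iid (ℕ × V))).aestronglyMeasurable
  have hlim : Tendsto (fun D => ∫ U, e D U ∂(iid (ℕ × V))) atTop
      (𝓝 (∫ _U, (0 : ℝ) ∂(iid (ℕ × V)))) := by
    refine tendsto_integral_filter_of_dominated_convergence (fun _ => (1 : ℝ))
      (Eventually.of_forall hem) (Eventually.of_forall fun D => ae_of_all _ fun U => ?_)
      (integrable_const _) hpt
    rw [Real.norm_eq_abs, abs_of_nonneg (he0 _ _)]
    exact he1 _ _
  rw [integral_zero] at hlim
  have hev := hlim.eventually (gt_mem_nhds hε)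
  rw [eventually_atTop_prod_self] at hev
  obtain ⟨D₀, hD₀⟩ := hev
  refine ⟨D₀, fun D hD => ?_⟩
  have h1 := hD₀ D D₀ hD le_rfl
  unfold PO
  rw [integral_prod (fun ω : Om V =>
      ((sol μ D ω.1 ω.2 (k, v) : ℝ) - sol μ D₀ ω.1 ω.2 (k, v)) ^ 2)
      (integrable_bdd (hmj D D₀) (hsq D D₀))]
  exact h1.le

end Vale.Agent.P161E
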