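import Mathlib

/-!
# An Osgood lemma
-/

open Set Filter Topology

namespace Vale.Agent.P161E

namespace OsgoodAux

/-- `F` is Lipschitz away from `0`. -/
theorem continuousOn_aux {K c : ℝ} (hK : 1 ≤ K) (F E : ℝ → ℝ)
    (hF4 : ∀ r ∈ Icc (0 : ℝ) (1 / 2), F r ≤ 4)
    (hmono : MonotoneOn F (Icc (0 : ℝ) (1 / 2)))
    (hE : ∀ r ∈ Ioc (0 : ℝ) (1 / 2), 0 ≤ E r)
    (hanti : AntitoneOn E (Ioc (0 : ℝ) (1 / 2)))
    (hint : ∀ p : ℝ, 2 ≤ p → ∀ s t : ℝ, 0 < s → s ≤ t → t ≤ 1 / 2 →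
      F t - F s ≤ (t - s) * (K * p * (1 + Real.log p) * F t +
        K * p ^ 2 * Real.exp (-(c * p)) * E s)) {a : ℝ} (ha : 0 < a) (ha' : a ≤ 1 / 2) :
    ContinuousOn F (Icc a (1 / 2)) := by
  have hl : 0 ≤ Real.log 2 := Real.log_nonneg (by norm_num)
  set L : ℝ := K * 2 * (1 + Real.log 2) * 4 + K * 2 ^ 2 * Real.exp (-(c * 2)) * E a with hL
  have hEa : 0 ≤ E a := hE a ⟨ha, ha'⟩
  have hL0 : 0 ≤ L := by positivity
  have key : ∀ x ∈ Icc a (1 / 2), ∀ y ∈ Icc a (1 / 2), x ≤ y → |F y - F x| ≤ L * |y - x| := by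
    intro x hx y hy hxy
    have h1 : F x ≤ F y := hmono ⟨ha.le.trans hx.1, hx.2⟩ ⟨ha.le.trans hy.1, hy.2⟩ hxy
    rw [abs_of_nonneg (by linarith), abs_of_nonneg (by linarith)]
    have h2 := hint 2 le_rfl x y (ha.trans_le hx.1) hxy hy.2
    have h3 : E x ≤ E a := hanti ⟨ha, ha'⟩ ⟨ha.trans_le hx.1, hx.2⟩ hx.1
    have h4 : F y ≤ 4 := hF4 y ⟨ha.le.trans hy.1, hy.2⟩
    have h5 : K * 2 * (1 + Real.log 2) * F y + K * 2 ^ 2 * Real.exp (-(c * 2)) * E x ≤ L := by
      rw [hL]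
      gcongr
    calc F y - F x ≤ (y - x) * (K * 2 * (1 + Real.log 2) * F y +
          K * 2 ^ 2 * Real.exp (-(c * 2)) * E x) := h2
      _ ≤ (y - x) * L := mul_le_mul_of_nonneg_left h5 (by linarith)
      _ = L * (y - x) := mul_comm _ _
  have hlip : LipschitzOnWith (Real.toNNReal L) F (Icc a (1 / 2)) := by
    apply LipschitzOnWith.of_dist_le_mul
    intro x hx y hy
    rw [Real.dist_eq, Real.dist_eq, Real.coe_toNNReal L hL0]
    rcases le_total x y with h | h
    · rw [abs_sub_comm, abs_sub_comm x y]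
      exact key x hx y hy h
    · exact key y hy x hx h
  exact hlip.continuousOn

/-- every level is attained -/
theorem exists_level {K c : ℝ} (hK : 1 ≤ K) (F E : ℝ → ℝ)
    (hF4 : ∀ r ∈ Icc (0 : ℝ) (1 / 2), F r ≤ 4)
    (hmono : MonotoneOn F (Icc (0 : ℝ) (1 / 2))) (hzero : Tendsto F (𝓝[>] 0) (𝓝 0))
    (hE : ∀ r ∈ Ioc (0 : ℝ) (1 / 2), 0 ≤ E r)
    (hanti : AntitoneOn E (Ioc (0 : ℝ) (1 / 2)))
    (hint : ∀ p : ℝ, 2 ≤ p → ∀ s t : ℝ, 0 < s → s ≤ t → t ≤ 1 / 2 →
      F t - F s ≤ (t - s) * (K * p * (1 + Real.log p) * F t +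
        K * p ^ 2 * Real.exp (-(c * p)) * E s)) {r : ℝ} (hr : r ∈ Ioc (0 : ℝ) (1 / 2))
    {y : ℝ} (hy : 0 < y) (hyr : y ≤ F r) :
    ∃ t ∈ Ioc (0 : ℝ) (1 / 2), F t = y := by
  have h1 : ∀ᶠ s in 𝓝[>] (0 : ℝ), F s < y := hzero.eventually (gt_mem_nhds hy)
  have h2 : ∀ᶠ s in 𝓝[>] (0 : ℝ), s ∈ Ioo (0 : ℝ) r := Ioo_mem_nhdsGT hr.1
  obtain ⟨s, hs1, hs2⟩ := (h1.and h2).exists
  have hc := continuousOn_aux hK F E hF4 hmono hE hanti hint hs2.1 (hs2.2.le.trans hr.2)
  have hc' : ContinuousOn F (Icc s r) := hc.mono (Icc_subset_Icc le_rfl hr.2)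
  obtain ⟨t, ht, hty⟩ := intermediate_value_Icc hs2.2.le hc' ⟨hs1.le, hyr⟩
  exact ⟨t, ⟨hs2.1.trans_le ht.1, ht.2.trans hr.2⟩, hty⟩

/-- telescoping bound -/
theorem tele {M : ℝ} (hM : 1 ≤ M) (j : ℕ) :
    Real.log (1 + Real.log (M * ((j + 1 : ℕ) + 1))) - Real.log (1 + Real.log (M * (j + 1))) ≤
      1 / ((j + 1) * (1 + Real.log (M * (j + 1)))) := by
  have hj : (0 : ℝ) < (j : ℝ) + 1 := by positivity
  have hMj : 1 ≤ M * ((j : ℝ) + 1) := by nlinarith [(Nat.cast_nonneg j : (0 : ℝ) ≤ (j : ℝ))]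
  have hB : 1 ≤ 1 + Real.log (M * ((j : ℝ) + 1)) := by
    linarith [Real.log_nonneg hMj]
  have hA : Real.log (M * ((j + 1 : ℕ) + 1)) = Real.log (M * (j + 1)) +
      Real.log (((j : ℝ) + 2) / (j + 1)) := by
    rw [← Real.log_mul (by positivity) (by positivity)]
    congr 1
    push_cast
    field_simp
    ring
  have h1 : Real.log (((j : ℝ) + 2) / (j + 1)) ≤ 1 / (j + 1) := by
    have := Real.log_le_sub_one_of_pos (x := ((j : ℝ) + 2) / (j + 1)) (by positivity)
    have h2 : ((j : ℝ) + 2) / (j + 1) - 1 = 1 / (j + 1) := by field_simp; ring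
    linarith
  have h0 : 0 ≤ Real.log (((j : ℝ) + 2) / (j + 1)) := by
    apply Real.log_nonneg
    rw [le_div_iff₀ hj]
    linarith
  rw [hA]
  set B := 1 + Real.log (M * ((j : ℝ) + 1)) with hBdef
  set x := Real.log (((j : ℝ) + 2) / (j + 1)) with hx
  have hBpos : 0 < B := by linarith
  have e1 : 1 + (Real.log (M * ((j : ℝ) + 1)) + x) = B + x := by rw [hBdef]; ring
  rw [e1, ← Real.log_div (by positivity) (by positivity)]
  calc Real.log ((B + x) / B) ≤ (B + x) / B - 1 := Real.log_le_sub_one_of_pos (by positivity)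
    _ = x / B := by field_simp; ring
    _ ≤ (1 / (j + 1)) / B := by gcongr
    _ = 1 / ((j + 1) * B) := by rw [div_div]

/-- choice of the constant `M` -/
theorem exists_M {c : ℝ} (hc : 0 < c) (A : ℝ) :
    ∃ M : ℝ, 2 ≤ M ∧ ∀ j : ℕ, (M * (j + 1)) ^ 2 * Real.exp (-(c * (M * (j + 1)))) * A ≤
      Real.exp (-(4 * ((j : ℝ) + 1))) := by
  -- `p ^ 2 * exp (-(c / 2) p) → 0`
  have h1 : Tendsto (fun p : ℝ => p ^ 2 * Real.exp (-(c / 2) * p)) atTop (𝓝 0) := by
    have := tendsto_rpow_mul_exp_neg_mul_atTop_nhds_zero 2 (c / 2) (by positivity)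
    refine this.congr fun x => ?_
    norm_num
  have h2 : ∀ᶠ p : ℝ in atTop, p ^ 2 * Real.exp (-(c / 2) * p) < 1 / (|A| + 1) :=
    h1.eventually (gt_mem_nhds (by positivity))
  obtain ⟨P, hP⟩ := eventually_atTop.mp h2
  refine ⟨max (max P 2) (8 / c), ?_, fun j => ?_⟩
  · exact (le_max_right _ _).trans (le_max_left _ _)
  set M := max (max P 2) (8 / c) with hMdef
  have hM2 : 2 ≤ M := (le_max_right _ _).trans (le_max_left _ _)
  have hMP : P ≤ M := (le_max_left _ _).trans (le_max_left _ _)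
  have hMc : 8 / c ≤ M := le_max_right _ _
  have hj : (0 : ℝ) ≤ (j : ℝ) := Nat.cast_nonneg j
  set p := M * ((j : ℝ) + 1) with hp
  have hpM : M ≤ p := by rw [hp]; nlinarith
  have h3 := (hP p (hMP.trans hpM)).le
  have h4 : c * p / 2 ≥ 4 * ((j : ℝ) + 1) := by
    have : 8 ≤ c * M := by
      have := mul_le_mul_of_nonneg_left hMc hc.le
      rwa [mul_div_cancel₀ _ hc.ne'] at this
    rw [hp]
    nlinarith
  have h5 : Real.exp (-(c * p)) = Real.exp (-(c / 2) * p) * Real.exp (-(c * p / 2)) := by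
    rw [← Real.exp_add]; congr 1; ring
  have h6 : Real.exp (-(c * p / 2)) ≤ Real.exp (-(4 * ((j : ℝ) + 1))) := by
    apply Real.exp_le_exp.mpr; linarith
  calc p ^ 2 * Real.exp (-(c * p)) * A
      ≤ p ^ 2 * Real.exp (-(c * p)) * |A| := by gcongr; exact le_abs_self A
    _ = (p ^ 2 * Real.exp (-(c / 2) * p)) * |A| * Real.exp (-(c * p / 2)) := by rw [h5]; ring
    _ ≤ (1 / (|A| + 1)) * |A| * Real.exp (-(c * p / 2)) := by gcongr
    _ ≤ 1 * Real.exp (-(c * p / 2)) := by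
        gcongr
        rw [one_div, inv_mul_le_iff₀ (by positivity)]
        linarith
    _ ≤ Real.exp (-(4 * ((j : ℝ) + 1))) := by rw [one_mul]; exact h6

end OsgoodAux

open OsgoodAux in
theorem osgood {K c : ℝ} (hK : 1 ≤ K) (hc : 0 < c) (F E : ℝ → ℝ)
    (hF0 : ∀ r ∈ Icc (0 : ℝ) (1 / 2), 0 ≤ F r) (hF4 : ∀ r ∈ Icc (0 : ℝ) (1 / 2), F r ≤ 4)
    (hmono : MonotoneOn F (Icc (0 : ℝ) (1 / 2))) (hzero : Tendsto F (𝓝[>] 0) (𝓝 0))
    (hE : ∀ r ∈ Ioc (0 : ℝ) (1 / 2), 0 ≤ E r) (hEF : ∀ r ∈ Ioc (0 : ℝ) (1 / 2), E r * F r ^ 3 ≤ K)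
    (hanti : AntitoneOn E (Ioc (0 : ℝ) (1 / 2)))
    (hint : ∀ p : ℝ, 2 ≤ p → ∀ s t : ℝ, 0 < s → s ≤ t → t ≤ 1 / 2 →
      F t - F s ≤ (t - s) * (K * p * (1 + Real.log p) * F t +
        K * p ^ 2 * Real.exp (-(c * p)) * E s)) :
    ∀ r ∈ Ioc (0 : ℝ) (1 / 2), F r = 0 := by
  intro r hr
  by_contra hne
  have hr' : r ∈ Icc (0 : ℝ) (1 / 2) := ⟨hr.1.le, hr.2⟩
  have hpos : 0 < F r := lt_of_le_of_ne (hF0 r hr') (Ne.symm hne)
  set a := F r with ha
  have hlev : ∀ j : ℕ, ∃ t ∈ Ioc (0 : ℝ) (1 / 2), F t = a * Real.exp (-(j : ℝ)) := by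
    intro j
    refine exists_level hK F E hF4 hmono hzero hE hanti hint hr (by positivity) ?_
    rw [← ha]
    have : Real.exp (-(j : ℝ)) ≤ 1 := by
      rw [Real.exp_le_one_iff]; linarith [(Nat.cast_nonneg j : (0 : ℝ) ≤ (j : ℝ))]
    nlinarith
  choose t ht htF using hlev
  -- the constant
  obtain ⟨M, hM2, hM⟩ := exists_M hc (K ^ 2 / a ^ 4)
  have hM1 : 1 ≤ M := by linarith
  have hstep : ∀ j : ℕ, (1 - Real.exp (-1)) / (2 * K * M) *
      (1 / (((j : ℝ) + 1) * (1 + Real.log (M * (j + 1))))) ≤ t j - t (j + 1) := by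
    intro j
    have hj : (0 : ℝ) ≤ (j : ℝ) := Nat.cast_nonneg j
    have hlt : t (j + 1) < t j := by
      by_contra hcon
      push Not at hcon
      have := hmono ⟨(ht j).1.le, (ht j).2⟩ ⟨(ht (j + 1)).1.le, (ht (j + 1)).2⟩ hcon
      rw [htF, htF] at this
      have h2 : Real.exp (-(j : ℝ)) ≤ Real.exp (-((j + 1 : ℕ) : ℝ)) :=
        le_of_mul_le_mul_left this hpos
      rw [Real.exp_le_exp] at h2
      push_cast at h2
      linarith
    set p := M * ((j : ℝ) + 1) with hp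
    have hp2 : 2 ≤ p := by rw [hp]; nlinarith
    have hlog : 0 ≤ Real.log p := Real.log_nonneg (by linarith)
    have h1 := hint p hp2 (t (j + 1)) (t j) (ht (j + 1)).1 hlt.le (ht j).2
    have h2 := hEF (t (j + 1)) (ht (j + 1))
    have h3 := hM j
    rw [← hp] at h3
    rw [htF, htF] at h1
    rw [htF] at h2
    set e := Real.exp (-(j : ℝ)) with he
    have hepos : 0 < e := Real.exp_pos _
    have hj1 : Real.exp (-((j + 1 : ℕ) : ℝ)) = e * Real.exp (-1) := by
      rw [he, ← Real.exp_add]; congr 1; push_cast; ring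
    rw [hj1] at h1 h2
    set q := Real.exp (-1) with hq
    have hqpos : 0 < q := Real.exp_pos _
    have hq1 : q < 1 := by rw [hq, Real.exp_lt_one_iff]; norm_num
    have h4 : Real.exp (-(4 * ((j : ℝ) + 1))) = (e * q) ^ 4 := by
      rw [he, hq, ← Real.exp_add, ← Real.exp_nat_mul]; congr 1; push_cast; ring
    rw [h4] at h3
    have hE0 : 0 ≤ E (t (j + 1)) := hE _ (ht (j + 1))
    -- error term
    have h5 : K * p ^ 2 * Real.exp (-(c * p)) * E (t (j + 1)) ≤ a * e := by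
      have h6 : E (t (j + 1)) ≤ K / (a * (e * q)) ^ 3 := by
        rw [le_div_iff₀ (by positivity)]; exact h2
      calc K * p ^ 2 * Real.exp (-(c * p)) * E (t (j + 1))
          ≤ K * p ^ 2 * Real.exp (-(c * p)) * (K / (a * (e * q)) ^ 3) := by gcongr
        _ = (p ^ 2 * Real.exp (-(c * p)) * (K ^ 2 / a ^ 4)) * (a / (e * q) ^ 3) := by
            field_simp
        _ ≤ (e * q) ^ 4 * (a / (e * q) ^ 3) := by gcongr
        _ = a * e * q := by field_simp
        _ ≤ a * e := by nlinarith [mul_pos hpos hepos]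
    have h7 : a * e - a * (e * q) ≤ (t j - t (j + 1)) * (K * p * (1 + Real.log p) * (a * e) +
        a * e) := by
      refine h1.trans ?_
      apply mul_le_mul_of_nonneg_left _ (by linarith)
      linarith
    have h8 : (1 - q) ≤ (t j - t (j + 1)) * (2 * K * p * (1 + Real.log p)) := by
      have h9 : (1 - q) * (a * e) ≤ ((t j - t (j + 1)) * (K * p * (1 + Real.log p) + 1)) *
          (a * e) := by
        calc (1 - q) * (a * e) = a * e - a * (e * q) := by ring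
          _ ≤ _ := h7
          _ = _ := by ring
      have h10 := le_of_mul_le_mul_right h9 (by positivity)
      refine h10.trans ?_
      apply mul_le_mul_of_nonneg_left _ (by linarith)
      have : 1 ≤ K * p * (1 + Real.log p) := by
        have h11 : 1 ≤ K * p := by nlinarith
        nlinarith
      linarith
    have h12 : (1 - q) / (2 * K * M) * (1 / (((j : ℝ) + 1) * (1 + Real.log p))) =
        (1 - q) / (2 * K * p * (1 + Real.log p)) := by
      rw [hp]; field_simp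
    rw [h12, div_le_iff₀ (by positivity)]
    exact h8
  -- sum up
  have hsum : ∀ J : ℕ, (1 - Real.exp (-1)) / (2 * K * M) *
      (Real.log (1 + Real.log (M * ((J : ℝ) + 1))) - Real.log (1 + Real.log (M * 1))) ≤
        t 0 - t J := by
    intro J
    have hq1 : 0 ≤ (1 - Real.exp (-1)) / (2 * K * M) := by
      have : Real.exp (-1) ≤ 1 := by rw [Real.exp_le_one_iff]; norm_num
      apply div_nonneg (by linarith) (by positivity)
    induction J with
    | zero => simp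
    | succ J ih =>
      have h1 := hstep J
      have h2 := mul_le_mul_of_nonneg_left (tele hM1 J) hq1
      have h3 : (1 - Real.exp (-1)) / (2 * K * M) *
          (Real.log (1 + Real.log (M * (((J + 1 : ℕ) : ℝ) + 1))) -
            Real.log (1 + Real.log (M * 1))) =
          (1 - Real.exp (-1)) / (2 * K * M) *
          (Real.log (1 + Real.log (M * (((J + 1 : ℕ) : ℝ) + 1))) -
            Real.log (1 + Real.log (M * (J + 1)))) + (1 - Real.exp (-1)) / (2 * K * M) *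
          (Real.log (1 + Real.log (M * ((J : ℝ) + 1))) - Real.log (1 + Real.log (M * 1))) := by
        ring
      rw [h3]
      linarith
  -- divergence
  have hdiv : Tendsto (fun J : ℕ => (1 - Real.exp (-1)) / (2 * K * M) *
      (Real.log (1 + Real.log (M * ((J : ℝ) + 1))) - Real.log (1 + Real.log (M * 1))))
      atTop atTop := by
    have hq1 : 0 < (1 - Real.exp (-1)) / (2 * K * M) := by
      have : Real.exp (-1) < 1 := by rw [Real.exp_lt_one_iff]; norm_num
      apply div_pos (by linarith) (by positivity)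
    apply Tendsto.const_mul_atTop hq1
    apply tendsto_atTop_add_const_right
    apply Real.tendsto_log_atTop.comp
    apply tendsto_atTop_add_const_left
    apply Real.tendsto_log_atTop.comp
    apply Tendsto.const_mul_atTop (by linarith)
    exact tendsto_atTop_add_const_right _ _ tendsto_natCast_atTop_atTop
  obtain ⟨J, hJ⟩ := (hdiv.eventually_gt_atTop 1).exists
  have h1 := hsum J
  have h2 := (ht 0).2
  have h3 := (ht J).1
  linarith

end Vale.Agent.P161E
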