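import Mathlib

/-!
# Compactness of functions controlled by bounded monotone functions
-/

open Set Filter Topology MeasureTheory

namespace Vale.Agent.P161E

namespace SubseqAux

/-- the points of the partition -/
noncomputable def pt (a t : ℝ) (N i : ℕ) : ℝ := max a (min t ((i : ℝ) / (2 * N)))

theorem pt_zero {a t : ℝ} (ha : 0 ≤ a) (hat : a ≤ t) (N : ℕ) : pt a t N 0 = a := by
  unfold pt
  rw [Nat.cast_zero, zero_div, min_eq_right (ha.trans hat), max_eq_left ha]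

theorem pt_last {a t : ℝ} (hat : a ≤ t) (ht : t ≤ 1 / 2) {N : ℕ} (hN : 0 < N) :
    pt a t N N = t := by
  unfold pt
  have hN' : (0 : ℝ) < N := by exact_mod_cast hN
  have : (N : ℝ) / (2 * N) = 1 / 2 := by field_simp
  rw [this, min_eq_left ht, max_eq_right hat]

theorem pt_mono (a t : ℝ) (N : ℕ) : Monotone (pt a t N) := by
  intro i j hij
  unfold pt
  have : (i : ℝ) / (2 * N) ≤ (j : ℝ) / (2 * N) := by gcongr
  exact max_le_max le_rfl (min_le_min le_rfl this)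

theorem pt_sub_le (a t : ℝ) (N i : ℕ) :
    |pt a t N (i + 1) - pt a t N i| ≤ 1 / (2 * N) := by
  unfold pt
  have h1 := abs_max_sub_max_le_abs (min t (((i + 1 : ℕ) : ℝ) / (2 * N)))
    (min t ((i : ℝ) / (2 * N))) a
  have h2 := abs_min_sub_min_le_max t (((i + 1 : ℕ) : ℝ) / (2 * N)) t ((i : ℝ) / (2 * N))
  rw [max_comm a, max_comm a]
  refine h1.trans (h2.trans ?_)
  rw [sub_self, abs_zero]
  have h3 : ((i + 1 : ℕ) : ℝ) / (2 * N) - (i : ℝ) / (2 * N) = 1 / (2 * N) := by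
    push_cast; ring
  rw [h3, abs_of_nonneg (by positivity), max_eq_right (by positivity)]

theorem mem_cell {a t : ℝ} {N i : ℕ} {r : ℝ} (h1 : pt a t N i < r) (h2 : r ≤ pt a t N (i + 1)) :
    a < r ∧ (i : ℝ) / (2 * N) < r ∧ r ≤ ((i + 1 : ℕ) : ℝ) / (2 * N) := by
  unfold pt at h1 h2
  have ha : a < r := (le_max_left _ _).trans_lt h1
  have h3 : r ≤ min t (((i + 1 : ℕ) : ℝ) / (2 * N)) := by
    rcases le_max_iff.mp h2 with h | h
    · exact absurd h (not_le.mpr ha)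
    · exact h
  have h4 : min t ((i : ℝ) / (2 * N)) < r := (le_max_right _ _).trans_lt h1
  refine ⟨ha, ?_, h3.trans (min_le_right _ _)⟩
  rcases min_lt_iff.mp h4 with h | h
  · exact absurd (h3.trans (min_le_left _ _)) (not_le.mpr h)
  · exact h

theorem int_bound (c1 c2 q1 q2 : ℝ → ℝ) {B a t : ℝ} (hB : 0 ≤ B) (ha : 0 ≤ a) (hat : a ≤ t)
    (ht : t ≤ 1 / 2) {N : ℕ} (hN : 0 < N)
    (hq1 : MonotoneOn q1 (Icc 0 (1 / 2))) (hq1' : ∀ r, 0 ≤ q1 r ∧ q1 r ≤ 1)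
    (hq2 : MonotoneOn q2 (Icc 0 (1 / 2))) (hq2' : ∀ r, 0 ≤ q2 r ∧ q2 r ≤ 1)
    (h1 : ∀ r r', a < r → r ≤ r' → r' ≤ 1 / 2 → (c1 r' - c1 r) ^ 2 ≤ B * (q1 r' - q1 r))
    (h2 : ∀ r r', a < r → r ≤ r' → r' ≤ 1 / 2 → (c2 r' - c2 r) ^ 2 ≤ B * (q2 r' - q2 r)) :
    |∫ r in a..t, (c1 r - c2 r) ^ 2| ≤ 3 * B / N + 3 * ∑ i ∈ Finset.range N,
      (c1 (((i + 1 : ℕ) : ℝ) / (2 * N)) - c2 (((i + 1 : ℕ) : ℝ) / (2 * N))) ^ 2 := by
  have hN' : (0 : ℝ) < N := by exact_mod_cast hN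
  by_cases hint : IntervalIntegrable (fun r => (c1 r - c2 r) ^ 2) volume a t
  swap
  · rw [intervalIntegral.integral_undef hint, abs_zero]
    positivity
  set g : ℕ → ℝ := fun i => (i : ℝ) / (2 * N) with hg
  have hg0 : ∀ i, 0 ≤ g i := fun i => by simp only [hg]; positivity
  have hgN : ∀ i ≤ N, g i ≤ 1 / 2 := by
    intro i hi
    simp only [hg]
    rw [div_le_iff₀ (by positivity)]
    have : (i : ℝ) ≤ N := by exact_mod_cast hi
    linarith
  have hgm : ∀ i, g i ≤ g (i + 1) := by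
    intro i
    simp only [hg]
    gcongr
    simp
  set C : ℕ → ℝ := fun i => 3 * (B * (q1 (g (i + 1)) - q1 (g i)) +
    B * (q2 (g (i + 1)) - q2 (g i)) + (c1 (g (i + 1)) - c2 (g (i + 1))) ^ 2) with hC
  have hsub : ∀ i, i < N → IntervalIntegrable (fun r => (c1 r - c2 r) ^ 2) volume
      (pt a t N i) (pt a t N (i + 1)) := by
    intro i hi
    apply hint.mono_set
    have e1 : a ≤ pt a t N i := by
      have := pt_mono a t N (Nat.zero_le i)
      rwa [pt_zero ha hat N] at this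
    have e2 : pt a t N (i + 1) ≤ t := by
      conv_rhs => rw [← pt_last hat ht hN]
      exact pt_mono a t N hi
    have e3 : pt a t N i ≤ pt a t N (i + 1) := pt_mono a t N (Nat.le_succ i)
    rw [uIcc_of_le e3, uIcc_of_le hat]
    exact Icc_subset_Icc e1 e2
  have hsum := intervalIntegral.sum_integral_adjacent_intervals (μ := volume) (n := N)
    (a := pt a t N) (f := fun r => (c1 r - c2 r) ^ 2) hsub
  rw [pt_zero ha hat, pt_last hat ht hN] at hsum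
  rw [← hsum]
  have hq1m : ∀ i, i < N → 0 ≤ q1 (g (i + 1)) - q1 (g i) := by
    intro i hi
    have := hq1 ⟨hg0 i, hgN i hi.le⟩ ⟨hg0 (i + 1), hgN (i + 1) hi⟩ (hgm i)
    linarith
  have hq2m : ∀ i, i < N → 0 ≤ q2 (g (i + 1)) - q2 (g i) := by
    intro i hi
    have := hq2 ⟨hg0 i, hgN i hi.le⟩ ⟨hg0 (i + 1), hgN (i + 1) hi⟩ (hgm i)
    linarith
  have hcell : ∀ i ∈ Finset.range N, |∫ r in (pt a t N i)..(pt a t N (i + 1)),
      (c1 r - c2 r) ^ 2| ≤ C i * (1 / (2 * N)) := by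
    intro i hi
    rw [Finset.mem_range] at hi
    have hC0 : 0 ≤ C i := by
      have e1 := hq1m i hi
      have e2 := hq2m i hi
      simp only [hC]
      positivity
    have := intervalIntegral.norm_integral_le_of_norm_le_const (a := pt a t N i)
      (b := pt a t N (i + 1)) (C := C i) (f := fun r => (c1 r - c2 r) ^ 2) (by
        intro r hr
        rw [uIoc_of_le (pt_mono a t N (Nat.le_succ i))] at hr
        obtain ⟨k1, k2, k3⟩ := mem_cell hr.1 hr.2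
        have e0 : g (i + 1) ≤ 1 / 2 := hgN (i + 1) hi
        have k3' : r ≤ g (i + 1) := k3
        have e1 := h1 r (g (i + 1)) k1 k3' e0
        have e2 := h2 r (g (i + 1)) k1 k3' e0
        have hr0 : 0 ≤ r := ha.trans k1.le
        have e3 := hq1 ⟨hg0 i, hgN i hi.le⟩ ⟨hr0, k3'.trans e0⟩ (show g i ≤ r from k2.le)
        have e4 := hq2 ⟨hg0 i, hgN i hi.le⟩ ⟨hr0, k3'.trans e0⟩ (show g i ≤ r from k2.le)
        have e5 : B * (q1 (g (i + 1)) - q1 r) ≤ B * (q1 (g (i + 1)) - q1 (g i)) :=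
          mul_le_mul_of_nonneg_left (by linarith) hB
        have e6 : B * (q2 (g (i + 1)) - q2 r) ≤ B * (q2 (g (i + 1)) - q2 (g i)) :=
          mul_le_mul_of_nonneg_left (by linarith) hB
        rw [Real.norm_eq_abs, abs_of_nonneg (by positivity)]
        simp only [hC]
        nlinarith [sq_nonneg ((c1 r - c1 (g (i + 1))) - (c1 (g (i + 1)) - c2 (g (i + 1)))),
          sq_nonneg ((c1 r - c1 (g (i + 1))) - (c2 (g (i + 1)) - c2 r)),
          sq_nonneg ((c1 (g (i + 1)) - c2 (g (i + 1))) - (c2 (g (i + 1)) - c2 r))])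
    rw [Real.norm_eq_abs] at this
    refine this.trans ?_
    exact mul_le_mul_of_nonneg_left (pt_sub_le a t N i) hC0
  refine (Finset.abs_sum_le_sum_abs _ _).trans ((Finset.sum_le_sum hcell).trans ?_)
  rw [← Finset.sum_mul]
  have hCs : ∑ i ∈ Finset.range N, C i = 3 * (B * (q1 (g N) - q1 (g 0)) +
      B * (q2 (g N) - q2 (g 0)) + ∑ i ∈ Finset.range N, (c1 (g (i + 1)) - c2 (g (i + 1))) ^ 2) := by
    simp only [hC]
    rw [← Finset.mul_sum, Finset.sum_add_distrib, Finset.sum_add_distrib, ← Finset.mul_sum,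
      ← Finset.mul_sum, Finset.sum_range_sub (fun i => q1 (g i)),
      Finset.sum_range_sub (fun i => q2 (g i))]
  rw [hCs]
  set S := ∑ i ∈ Finset.range N, (c1 (g (i + 1)) - c2 (g (i + 1))) ^ 2 with hS
  have hS0 : 0 ≤ S := Finset.sum_nonneg fun i _ => sq_nonneg _
  have e1 : q1 (g N) - q1 (g 0) ≤ 1 := by linarith [(hq1' (g N)).2, (hq1' (g 0)).1]
  have e2 : q2 (g N) - q2 (g 0) ≤ 1 := by linarith [(hq2' (g N)).2, (hq2' (g 0)).1]
  have e3 : (1 : ℝ) / (2 * N) ≤ 1 := by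
    rw [div_le_one (by positivity)]
    have : (1 : ℝ) ≤ N := by exact_mod_cast hN
    linarith
  have e4 : (0 : ℝ) ≤ 1 / (2 * N) := by positivity
  calc 3 * (B * (q1 (g N) - q1 (g 0)) + B * (q2 (g N) - q2 (g 0)) + S) * (1 / (2 * N))
      ≤ 3 * (B * 1 + B * 1 + S) * (1 / (2 * N)) := by gcongr
    _ = 3 * B / N + 3 * (S * (1 / (2 * N))) := by field_simp; ring
    _ ≤ 3 * B / N + 3 * (S * 1) := by gcongr
    _ = 3 * B / N + 3 * S := by ring

end SubseqAux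

open SubseqAux in
/-- An abstract compactness statement: functions controlled by bounded monotone functions have
a subsequence which is Cauchy in `L²`. -/
theorem exists_subseq (c q : ℕ → ℕ → ℝ → ℝ) (B : ℕ → ℝ → ℝ)
    (hq : ∀ n k, MonotoneOn (q n k) (Icc 0 (1 / 2)))
    (hq0 : ∀ n k r, 0 ≤ q n k r ∧ q n k r ≤ 1)
    (hc : ∀ n k s r r', 0 < s → (k = 0 → s ≤ r) → 0 ≤ r → r ≤ r' → r' ≤ 1 / 2 →
      (c n k r' - c n k r) ^ 2 ≤ B k s * (q n k r' - q n k r))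
    (hc0 : ∀ n k s r, 0 < s → (k = 0 → s ≤ r) → 0 ≤ r → r ≤ 1 / 2 → |c n k r| ≤ B k s) :
    ∃ φ : ℕ → ℕ, StrictMono φ ∧ ∀ k s t, 0 < s → s ≤ t → t ≤ 1 / 2 →
      Tendsto (fun nm : ℕ × ℕ =>
        ∫ r in (if k = 0 then s else 0)..t, (c (φ nm.1) k r - c (φ nm.2) k r) ^ 2)
        (atTop ×ˢ atTop) (𝓝 0) := by
  classical
  let ι := ℕ × {r : ℚ // 0 < r ∧ r ≤ 1 / 2}
  let x : ℕ → ι → ℝ := fun n i => c n i.1 ((i.2.1 : ℚ) : ℝ)
  have hr0 : ∀ i : ι, (0 : ℝ) < ((i.2.1 : ℚ) : ℝ) := fun i => by exact_mod_cast i.2.2.1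
  have hr1 : ∀ i : ι, ((i.2.1 : ℚ) : ℝ) ≤ 1 / 2 := fun i => by
    have := i.2.2.2
    have h : ((i.2.1 : ℚ) : ℝ) ≤ ((1 / 2 : ℚ) : ℝ) := by exact_mod_cast this
    simpa using h
  have hcomp : IsCompact (Set.pi univ (fun i : ι =>
      Icc (-(B i.1 ((i.2.1 : ℚ) : ℝ))) (B i.1 ((i.2.1 : ℚ) : ℝ)))) :=
    isCompact_univ_pi (fun i => isCompact_Icc)
  have hmem : ∀ n, x n ∈ Set.pi univ (fun i : ι =>
      Icc (-(B i.1 ((i.2.1 : ℚ) : ℝ))) (B i.1 ((i.2.1 : ℚ) : ℝ))) := by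
    intro n i _
    exact abs_le.mp (hc0 n i.1 _ _ (hr0 i) (fun _ => le_rfl) (hr0 i).le (hr1 i))
  obtain ⟨a, -, φ, hφ, hlim⟩ := hcomp.tendsto_subseq hmem
  refine ⟨φ, hφ, ?_⟩
  intro k s t hs hst ht
  -- convergence at rational points
  have hpt : ∀ r : ℚ, 0 < r → r ≤ 1 / 2 → Tendsto (fun nm : ℕ × ℕ =>
      (c (φ nm.1) k (r : ℝ) - c (φ nm.2) k (r : ℝ)) ^ 2) (atTop ×ˢ atTop) (𝓝 0) := by
    intro r h0 h1
    have h2 : Tendsto (fun n => c (φ n) k (r : ℝ)) atTop (𝓝 (a (k, ⟨r, h0, h1⟩))) :=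
      (tendsto_pi_nhds.mp hlim) (k, ⟨r, h0, h1⟩)
    have h3 := ((h2.comp tendsto_fst (x := atTop ×ˢ atTop)).sub
      (h2.comp (tendsto_snd (f := (atTop : Filter ℕ)) (g := (atTop : Filter ℕ))))).pow 2
    simpa using h3
  have hBs : 0 ≤ B k s := (abs_nonneg _).trans (hc0 0 k s s hs (fun _ => le_rfl) hs.le
    (hst.trans ht))
  set a0 : ℝ := if k = 0 then s else 0 with ha0
  have ha0' : 0 ≤ a0 := by rw [ha0]; split_ifs <;> [exact hs.le; exact le_rfl]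
  have ha0s : a0 ≤ t := by rw [ha0]; split_ifs <;> [exact hst; exact hs.le.trans hst]
  have ha0k : ∀ r, a0 < r → (k = 0 → s ≤ r) := by
    intro r hr hk
    rw [ha0, if_pos hk] at hr
    exact hr.le
  rw [Metric.tendsto_nhds]
  intro ε hε
  obtain ⟨N, hN⟩ := exists_nat_gt (max 1 (6 * B k s / ε))
  have hN1 : (1 : ℝ) < N := (le_max_left _ _).trans_lt hN
  have hN0 : 0 < N := by
    have : (0 : ℝ) < N := by linarith
    exact_mod_cast this
  have hN2 : 6 * B k s / ε < N := (le_max_right _ _).trans_lt hN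
  have hfin : Tendsto (fun nm : ℕ × ℕ => 3 * ∑ i ∈ Finset.range N,
      (c (φ nm.1) k (((i + 1 : ℕ) : ℝ) / (2 * N)) -
        c (φ nm.2) k (((i + 1 : ℕ) : ℝ) / (2 * N))) ^ 2) (atTop ×ˢ atTop) (𝓝 0) := by
    have h1 : Tendsto (fun nm : ℕ × ℕ => ∑ i ∈ Finset.range N,
      (c (φ nm.1) k (((i + 1 : ℕ) : ℝ) / (2 * N)) -
        c (φ nm.2) k (((i + 1 : ℕ) : ℝ) / (2 * N))) ^ 2) (atTop ×ˢ atTop)
        (𝓝 (∑ i ∈ Finset.range N, (0 : ℝ))) := by
      apply tendsto_finsetSum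
      intro i hi
      rw [Finset.mem_range] at hi
      have hNq : (0 : ℚ) < N := by exact_mod_cast hN0
      have h2 := hpt (((i + 1 : ℕ) : ℚ) / (2 * N)) (by positivity) (by
        rw [div_le_iff₀ (by positivity)]
        have : ((i + 1 : ℕ) : ℚ) ≤ N := by exact_mod_cast hi
        linarith)
      have h3 : (((((i + 1 : ℕ) : ℚ) / (2 * N)) : ℚ) : ℝ) = ((i + 1 : ℕ) : ℝ) / (2 * N) := by
        push_cast
        ring
      rw [h3] at h2
      exact h2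
    simpa using h1.const_mul 3
  filter_upwards [hfin.eventually (gt_mem_nhds (half_pos hε))] with nm hnm
  rw [Real.dist_eq, sub_zero]
  have key := int_bound (c (φ nm.1) k) (c (φ nm.2) k) (q (φ nm.1) k) (q (φ nm.2) k) hBs ha0'
    ha0s ht hN0 (hq _ k) (hq0 _ k) (hq _ k) (hq0 _ k)
    (fun r r' h1 h2 h3 => hc (φ nm.1) k s r r' hs (ha0k r h1) (ha0'.trans h1.le) h2 h3)
    (fun r r' h1 h2 h3 => hc (φ nm.2) k s r r' hs (ha0k r h1) (ha0'.trans h1.le) h2 h3)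
  have h5 : 3 * B k s / N ≤ ε / 2 := by
    rw [div_lt_iff₀ hε] at hN2
    rw [div_le_iff₀ (by linarith)]
    linarith
  linarith

end Vale.Agent.P161E
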