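import Vale.Agent.P161E.Defs2
import Vale.Agent.P161E.Osgood
import Vale.Agent.P161E.Subseq

/-!
# Convergence of the samplers: auxiliary results
-/

open MeasureTheory Set Filter Topology
open scoped unitInterval ENNReal

namespace Vale.Agent.P161E

open Vale.Agent.P161

universe u

namespace CV

open SubseqAux in
/-- Functions controlled by bounded monotone functions have a subsequence which is Cauchy
in `L²` on every interval (on every interval away from `0` if `k = 0`). -/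
theorem subseq (c q : ℕ → ℕ → ℝ → ℝ) (B : ℕ → ℝ → ℝ)
    (hq : ∀ n k, MonotoneOn (q n k) (Icc 0 (1 / 2)))
    (hq0 : ∀ n k r, 0 ≤ q n k r ∧ q n k r ≤ 1)
    (hc : ∀ n k s r r', 0 < s → (k = 0 → s ≤ r) → 0 ≤ r → r ≤ r' → r' ≤ 1 / 2 →
      (c n k r' - c n k r) ^ 2 ≤ B k s * (q n k r' - q n k r))
    (hc0 : ∀ n k s r, 0 < s → (k = 0 → s ≤ r) → 0 ≤ r → r ≤ 1 / 2 → |c n k r| ≤ B k s) :
    ∃ φ : ℕ → ℕ, StrictMono φ ∧ ∀ k a t, 0 ≤ a → (k = 0 → 0 < a) → a ≤ t → t ≤ 1 / 2 →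
      Tendsto (fun nm : ℕ × ℕ =>
        ∫ r in a..t, (c (φ nm.1) k r - c (φ nm.2) k r) ^ 2)
        (atTop ×ˢ atTop) (𝓝 0) := by
  classical
  let ι := ℕ × {r : ℚ // 0 < r ∧ r ≤ 1 / 2}
  let x : ℕ → ι → ℝ := fun n i => c n i.1 ((i.2.1 : ℚ) : ℝ)
  have hr0 : ∀ i : ι, (0 : ℝ) < ((i.2.1 : ℚ) : ℝ) := fun i => by exact_mod_cast i.2.2.1
  have hr1 : ∀ i : ι, ((i.2.1 : ℚ) : ℝ) ≤ 1 / 2 := fun i => by
    have := i.2.2.2
    have h : ((i.2.1 : ℚ) : ℝ) ≤ ((1 / 2 : ℚ) : ℝ) := by exact_mod_cast this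
    simpa using h
  have hcomp : IsCompact (Set.pi univ (fun i : ι =>
      Icc (-(B i.1 ((i.2.1 : ℚ) : ℝ))) (B i.1 ((i.2.1 : ℚ) : ℝ)))) :=
    isCompact_univ_pi (fun i => isCompact_Icc)
  have hmem : ∀ n, x n ∈ Set.pi univ (fun i : ι =>
      Icc (-(B i.1 ((i.2.1 : ℚ) : ℝ))) (B i.1 ((i.2.1 : ℚ) : ℝ))) := by
    intro n i _
    exact abs_le.mp (hc0 n i.1 _ _ (hr0 i) (fun _ => le_rfl) (hr0 i).le (hr1 i))
  obtain ⟨a, -, φ, hφ, hlim⟩ := hcomp.tendsto_subseq hmem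
  refine ⟨φ, hφ, ?_⟩
  intro k a0 t ha0' hk0 ha0s ht
  -- convergence at rational points
  have hpt : ∀ r : ℚ, 0 < r → r ≤ 1 / 2 → Tendsto (fun nm : ℕ × ℕ =>
      (c (φ nm.1) k (r : ℝ) - c (φ nm.2) k (r : ℝ)) ^ 2) (atTop ×ˢ atTop) (𝓝 0) := by
    intro r h0 h1
    have h2 : Tendsto (fun n => c (φ n) k (r : ℝ)) atTop (𝓝 (a (k, ⟨r, h0, h1⟩))) :=
      (tendsto_pi_nhds.mp hlim) (k, ⟨r, h0, h1⟩)
    have h3 := ((h2.comp tendsto_fst (x := atTop ×ˢ atTop)).sub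
      (h2.comp (tendsto_snd (f := (atTop : Filter ℕ)) (g := (atTop : Filter ℕ))))).pow 2
    simpa using h3
  obtain ⟨s, hs, hs1, hsk⟩ : ∃ s : ℝ, 0 < s ∧ s ≤ 1 / 2 ∧ ∀ r, a0 < r → (k = 0 → s ≤ r) := by
    by_cases hk : k = 0
    · exact ⟨a0, hk0 hk, ha0s.trans ht, fun r hr _ => hr.le⟩
    · exact ⟨1 / 2, by norm_num, le_rfl, fun r _ h => absurd h hk⟩
  have hBs : 0 ≤ B k s := (abs_nonneg _).trans (hc0 0 k s s hs (fun _ => le_rfl) hs.le hs1)
  rw [Metric.tendsto_nhds]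
  intro ε hε
  obtain ⟨N, hN⟩ := exists_nat_gt (max 1 (6 * B k s / ε))
  have hN1 : (1 : ℝ) < N := (le_max_left _ _).trans_lt hN
  have hN0 : 0 < N := by
    have : (0 : ℝ) < N := by linarith
    exact_mod_cast this
  have hN2 : 6 * B k s / ε < N := (le_max_right _ _).trans_lt hN
  have hfin : Tendsto (fun nm : ℕ × ℕ => 3 * ∑ i ∈ Finset.range N,
      (c (φ nm.1) k (((i + 1 : ℕ) : ℝ) / (2 * N)) -
        c (φ nm.2) k (((i + 1 : ℕ) : ℝ) / (2 * N))) ^ 2) (atTop ×ˢ atTop) (𝓝 0) := by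
    have h1 : Tendsto (fun nm : ℕ × ℕ => ∑ i ∈ Finset.range N,
      (c (φ nm.1) k (((i + 1 : ℕ) : ℝ) / (2 * N)) -
        c (φ nm.2) k (((i + 1 : ℕ) : ℝ) / (2 * N))) ^ 2) (atTop ×ˢ atTop)
        (𝓝 (∑ i ∈ Finset.range N, (0 : ℝ))) := by
      apply tendsto_finsetSum
      intro i hi
      rw [Finset.mem_range] at hi
      have hNq : (0 : ℚ) < N := by exact_mod_cast hN0
      have h2 := hpt (((i + 1 : ℕ) : ℚ) / (2 * N)) (by positivity) (by
        rw [div_le_iff₀ (by positivity)]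
        have : ((i + 1 : ℕ) : ℚ) ≤ N := by exact_mod_cast hi
        linarith)
      have h3 : (((((i + 1 : ℕ) : ℚ) / (2 * N)) : ℚ) : ℝ) = ((i + 1 : ℕ) : ℝ) / (2 * N) := by
        push_cast
        ring
      rw [h3] at h2
      exact h2
    simpa using h1.const_mul 3
  filter_upwards [hfin.eventually (gt_mem_nhds (half_pos hε))] with nm hnm
  rw [Real.dist_eq, sub_zero]
  have key := int_bound (c (φ nm.1) k) (c (φ nm.2) k) (q (φ nm.1) k) (q (φ nm.2) k) hBs ha0'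
    ha0s ht hN0 (hq _ k) (hq0 _ k) (hq _ k) (hq0 _ k)
    (fun r r' h1 h2 h3 => hc (φ nm.1) k s r r' hs (hsk r h1) (ha0'.trans h1.le) h2 h3)
    (fun r r' h1 h2 h3 => hc (φ nm.2) k s r r' hs (hsk r h1) (ha0'.trans h1.le) h2 h3)
  have h5 : 3 * B k s / N ≤ ε / 2 := by
    rw [div_lt_iff₀ hε] at hN2
    rw [div_le_iff₀ (by linarith)]
    linarith
  linarith

/-- The abstract convergence argument. `D k r` is the mean square difference, along an
ultrafilter. -/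
theorem conv_abs {β : Type*} (𝒰 : Ultrafilter β) {K c : ℝ} (hK : 1 ≤ K) (hc : 0 < c)
    (D : ℕ → ℝ → β → ℝ) (δ : β → ℝ) (e : ℕ → ℝ → ℝ → β → ℝ)
    (hD0 : ∀ k r b, 0 ≤ D k r b) (hD4 : ∀ k r b, D k r b ≤ 4)
    (hmono : ∀ k r r' b, 0 ≤ r → r ≤ r' → r' ≤ 1 / 2 → D k r b ≤ D k r' b)
    (h0 : ∀ r b, 0 ≤ r → r ≤ 1 / 2 → D 0 r b ≤ K * r)
    (hsucc : ∀ k b, D (k + 1) 0 b = D k (1 / 2) b)
    (hδ : Tendsto δ 𝒰 (𝓝 0))
    (he : ∀ k s t, 0 ≤ s → (k = 0 → 0 < s) → s ≤ t → t ≤ 1 / 2 → Tendsto (e k s t) 𝒰 (𝓝 0))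
    (hg0 : ∀ p : ℝ, 2 ≤ p → ∀ s t : ℝ, 0 < s → s ≤ t → t ≤ 1 / 2 → ∀ b,
      D 0 t b - D 0 s b ≤
        (t - s) * (K * p * (1 + Real.log p) * D 0 t b +
          K * p ^ 2 / s ^ 3 * (Real.exp (-(c * p)) + δ b)) + K * p ^ 2 / s ^ 3 * e 0 s t b)
    (hg1 : ∀ k, ∀ p : ℝ, 2 ≤ p → ∀ s t : ℝ, 0 ≤ s → s ≤ t → t ≤ 1 / 2 → ∀ b,
      D (k + 1) t b - D (k + 1) s b ≤
        (t - s) * (K * p * (1 + Real.log p) * D (k + 1) t b +
          K * p ^ 2 * (Real.exp (-(c * p)) + δ b)) + K * p ^ 2 * e (k + 1) s t b)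
    (k : ℕ) : Tendsto (D k (1 / 2)) 𝒰 (𝓝 0) := by
  -- limits along the ultrafilter
  have hex : ∀ k r, ∃ x ∈ Icc (0 : ℝ) 4, Tendsto (D k r) 𝒰 (𝓝 x) := by
    intro k r
    have h1 : (𝒰.map (D k r) : Filter ℝ) ≤ 𝓟 (Icc 0 4) := by
      rw [le_principal_iff]
      exact Filter.mem_map.mpr (Filter.univ_mem' fun b => ⟨hD0 k r b, hD4 k r b⟩)
    obtain ⟨x, hx, hx'⟩ := isCompact_Icc.ultrafilter_le_nhds _ h1
    exact ⟨x, hx, hx'⟩
  choose F hF hlim using hex
  have hFmono : ∀ k, MonotoneOn (F k) (Icc (0 : ℝ) (1 / 2)) := by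
    intro k r hr r' hr' hrr
    exact le_of_tendsto_of_tendsto' (hlim k r) (hlim k r')
      fun b => hmono k r r' b hr.1 hrr hr'.2
  have hFsucc : ∀ k, F (k + 1) 0 = F k (1 / 2) := by
    intro k
    apply tendsto_nhds_unique (hlim (k + 1) 0)
    have : D (k + 1) 0 = D k (1 / 2) := funext fun b => hsucc k b
    rw [this]
    exact hlim k (1 / 2)
  have hF0' : ∀ r, 0 ≤ r → r ≤ 1 / 2 → F 0 r ≤ K * r := fun r hr hr' =>
    le_of_tendsto' (hlim 0 r) fun b => h0 r b hr hr'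
  -- the inequalities in the limit
  have hL0 : ∀ p : ℝ, 2 ≤ p → ∀ s t : ℝ, 0 < s → s ≤ t → t ≤ 1 / 2 →
      F 0 t - F 0 s ≤ (t - s) * (K * p * (1 + Real.log p) * F 0 t +
        K * p ^ 2 / s ^ 3 * Real.exp (-(c * p))) := by
    intro p hp s t hs hst ht
    have h1 : Tendsto (fun b => (t - s) * (K * p * (1 + Real.log p) * D 0 t b +
          K * p ^ 2 / s ^ 3 * (Real.exp (-(c * p)) + δ b)) + K * p ^ 2 / s ^ 3 * e 0 s t b) 𝒰
        (𝓝 ((t - s) * (K * p * (1 + Real.log p) * F 0 t +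
          K * p ^ 2 / s ^ 3 * (Real.exp (-(c * p)) + 0)) + K * p ^ 2 / s ^ 3 * 0)) :=
      (((((hlim 0 t).const_mul _).add ((hδ.const_add _).const_mul _)).const_mul _).add
        ((he 0 s t hs.le (fun _ => hs) hst ht).const_mul _))
    have h2 := le_of_tendsto_of_tendsto' ((hlim 0 t).sub (hlim 0 s)) h1
      fun b => hg0 p hp s t hs hst ht b
    simpa using h2
  have hL1 : ∀ k, ∀ p : ℝ, 2 ≤ p → ∀ s t : ℝ, 0 ≤ s → s ≤ t → t ≤ 1 / 2 →
      F (k + 1) t - F (k + 1) s ≤ (t - s) * (K * p * (1 + Real.log p) * F (k + 1) t +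
        K * p ^ 2 * Real.exp (-(c * p))) := by
    intro k p hp s t hs hst ht
    have h1 : Tendsto (fun b => (t - s) * (K * p * (1 + Real.log p) * D (k + 1) t b +
          K * p ^ 2 * (Real.exp (-(c * p)) + δ b)) + K * p ^ 2 * e (k + 1) s t b) 𝒰
        (𝓝 ((t - s) * (K * p * (1 + Real.log p) * F (k + 1) t +
          K * p ^ 2 * (Real.exp (-(c * p)) + 0)) + K * p ^ 2 * 0)) :=
      (((((hlim (k + 1) t).const_mul _).add ((hδ.const_add _).const_mul _)).const_mul _).add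
        ((he (k + 1) s t hs (fun h => absurd h (Nat.succ_ne_zero k)) hst ht).const_mul _))
    have h2 := le_of_tendsto_of_tendsto' ((hlim (k + 1) t).sub (hlim (k + 1) s)) h1
      fun b => hg1 k p hp s t hs hst ht b
    simpa using h2
  have main : ∀ k, ∀ r ∈ Ioc (0 : ℝ) (1 / 2), F k r = 0 := by
    intro k
    induction k with
    | zero =>
      set K' : ℝ := K ^ 3 with hK'
      have hKK' : K ≤ K' := by
        rw [hK']
        exact le_self_pow₀ hK (by norm_num)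
      have hK'1 : 1 ≤ K' := hK.trans hKK'
      refine osgood (K := K') (c := c) hK'1 hc (F 0) (fun s => 1 / s ^ 3)
        (fun r _ => (hF 0 r).1) (fun r _ => (hF 0 r).2) (hFmono 0) ?_ ?_ ?_ ?_ ?_
      · have h1 : Tendsto (fun r : ℝ => K * r) (𝓝[>] 0) (𝓝 0) := by
          have : Tendsto (fun r : ℝ => K * r) (𝓝 0) (𝓝 (K * 0)) :=
            (continuous_const_mul K).tendsto 0
          rw [mul_zero] at this
          exact this.mono_left nhdsWithin_le_nhds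
        refine tendsto_of_tendsto_of_tendsto_of_le_of_le' tendsto_const_nhds h1
          (Eventually.of_forall fun r => (hF 0 r).1) ?_
        have h2 : Ioo (0 : ℝ) (1 / 2) ∈ 𝓝[>] (0 : ℝ) := Ioo_mem_nhdsGT (by norm_num)
        filter_upwards [h2] with r hr
        exact hF0' r hr.1.le hr.2.le
      · intro r hr
        have := hr.1
        positivity
      · intro r hr
        have hr0 := hr.1
        have h1 : F 0 r ^ 3 ≤ (K * r) ^ 3 :=
          pow_le_pow_left₀ (hF 0 r).1 (hF0' r hr.1.le hr.2) 3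
        calc 1 / r ^ 3 * F 0 r ^ 3 ≤ 1 / r ^ 3 * (K * r) ^ 3 := by gcongr
          _ = K' := by rw [hK']; field_simp
      · intro s hs t ht hst
        have hs0 : 0 < s := hs.1
        show 1 / t ^ 3 ≤ 1 / s ^ 3
        gcongr
      · intro p hp s t hs hst ht
        refine (hL0 p hp s t hs hst ht).trans ?_
        have hlog : 0 ≤ Real.log p := Real.log_nonneg (by linarith)
        have hFt := (hF 0 t).1
        have hts : 0 ≤ t - s := by linarith
        have hp0 : 0 ≤ p := by linarith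
        have e1 : K * p ^ 2 / s ^ 3 * Real.exp (-(c * p)) =
            K * p ^ 2 * Real.exp (-(c * p)) * (1 / s ^ 3) := by ring
        rw [e1]
        have hs3 : 0 ≤ 1 / s ^ 3 := by positivity
        gcongr
    | succ k ih =>
      have hz : F (k + 1) 0 = 0 := by
        rw [hFsucc]
        exact ih (1 / 2) ⟨by norm_num, le_rfl⟩
      set K' : ℝ := max K 64 with hK'
      have hKK' : K ≤ K' := le_max_left _ _
      have hK'1 : 1 ≤ K' := hK.trans hKK'
      refine osgood (K := K') (c := c) hK'1 hc (F (k + 1)) (fun _ => 1)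
        (fun r _ => (hF _ r).1) (fun r _ => (hF _ r).2) (hFmono _) ?_ (fun _ _ => zero_le_one)
        ?_ (fun s _ t _ _ => le_rfl) ?_
      · set L : ℝ := K * 2 * (1 + Real.log 2) * 4 + K * 2 ^ 2 * Real.exp (-(c * 2)) with hL
        have h1 : Tendsto (fun r : ℝ => r * L) (𝓝[>] 0) (𝓝 0) := by
          have : Tendsto (fun r : ℝ => r * L) (𝓝 0) (𝓝 (0 * L)) :=
            (continuous_mul_const L).tendsto 0
          rw [zero_mul] at this
          exact this.mono_left nhdsWithin_le_nhds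
        refine tendsto_of_tendsto_of_tendsto_of_le_of_le' tendsto_const_nhds h1
          (Eventually.of_forall fun r => (hF _ r).1) ?_
        have h2 : Ioo (0 : ℝ) (1 / 2) ∈ 𝓝[>] (0 : ℝ) := Ioo_mem_nhdsGT (by norm_num)
        filter_upwards [h2] with r hr
        have h3 := hL1 k 2 le_rfl 0 r le_rfl hr.1.le hr.2.le
        rw [hz, sub_zero, sub_zero] at h3
        refine h3.trans ?_
        have h4 : F (k + 1) r ≤ 4 := (hF _ r).2
        have hlog : 0 ≤ Real.log 2 := Real.log_nonneg (by norm_num)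
        have hr0 := hr.1.le
        rw [hL]
        gcongr
      · intro r hr
        have h1 : F (k + 1) r ^ 3 ≤ 4 ^ 3 := pow_le_pow_left₀ (hF _ r).1 (hF _ r).2 3
        have h2 : (64 : ℝ) ≤ K' := le_max_right _ _
        linarith
      · intro p hp s t hs hst ht
        refine (hL1 k p hp s t hs.le hst ht).trans ?_
        have hlog : 0 ≤ Real.log p := Real.log_nonneg (by linarith)
        have hFt := (hF (k + 1) t).1
        have hts : 0 ≤ t - s := by linarith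
        have hp0 : 0 ≤ p := by linarith
        rw [mul_one]
        gcongr
  have := hlim k (1 / 2)
  rwa [main k (1 / 2) ⟨by norm_num, le_rfl⟩] at this

/-- the influence kernels of the free Ising measure -/
theorem exists_ker {V : Type u} {b : ℕ} (hb : 2 ≤ b) (T : RTree V b) {θ : ℝ} (hθ : 0 ≤ θ)
    (h : b * θ ^ 2 < 1) {μ : Measure (V → Bool)} (hμ : IsFreeIsing T.G θ μ) :
    ∃ (κ H : V → V → ℝ) (C : ℝ), Ker μ κ H C := by
  have hd2 : 2 ≤ b + 1 := by omega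
  have hdeg : ∀ v, (T.G.neighborSet v).ncard ≤ b + 1 := by
    intro v
    have h1 : T.G.neighborSet v = (T.nb v : Set V) := by
      ext w
      rw [SimpleGraph.mem_neighborSet, Finset.mem_coe, T.mem_nb]
    rw [h1, Set.ncard_coe_finset, T.card_nb]
  have hθ1 : θ < 1 := by
    have : (2 : ℝ) ≤ b := by exact_mod_cast hb
    by_contra hcon
    push Not at hcon
    nlinarith
  have hcast : (((b + 1 : ℕ) : ℝ) - 1) = b := by push_cast; ring
  obtain ⟨r, hr1, hr2⟩ : ∃ r, θ < r ∧ (((b + 1 : ℕ) : ℝ) - 1) * r ^ 2 < 1 := by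
    rw [hcast]
    have hc : ContinuousAt (fun r : ℝ => (b : ℝ) * r ^ 2) θ := by fun_prop
    have h1 : ∀ᶠ r in 𝓝 θ, (b : ℝ) * r ^ 2 < 1 := hc.eventually_lt_const h
    have h2 : ∀ᶠ r in 𝓝[>] θ, (b : ℝ) * r ^ 2 < 1 := nhdsWithin_le_nhds h1
    obtain ⟨r, hr⟩ := (h2.and self_mem_nhdsWithin).exists
    exact ⟨r, hr.2, hr.1⟩
  obtain ⟨C, hC, hconv⟩ := kernel_conv T.tree hd2 T.fin hdeg hθ hr1 hr2
  have hr0 : 0 ≤ r := hθ.trans hr1.le
  refine ⟨fun v w => 2 * θ ^ T.G.dist v w, fun v w => r ^ T.G.dist v w, 2 * C, ?_⟩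
  exact {
    κ0 := fun v w => by positivity
    H0 := fun v w => by positivity
    H1 := fun v => by simp
    conv := fun D v z => by
      have := hconv D v z
      calc ∑ w ∈ D, 2 * θ ^ T.G.dist v w * r ^ T.G.dist w z
          = 2 * ∑ w ∈ D, θ ^ T.G.dist v w * r ^ T.G.dist w z := by
            rw [Finset.mul_sum]; exact Finset.sum_congr rfl fun w _ => by ring
        _ ≤ 2 * C * r ^ T.G.dist v z := by linarith
    H2 := fun v => kernel_summable T.tree hd2 T.fin hdeg hr0 hr2 v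
    lip := fun D v Y Y' => mean_lip T.tree T.fin hθ hθ1 hμ D v Y Y'
    C0 := by positivity }

end CV

end Vale.Agent.P161E
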