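import Vale.Agent.P161E.Picard

/-!
# Influences of the seeds on the sampler
-/

open MeasureTheory Set Filter Topology
open scoped unitInterval ENNReal

namespace Vale.Agent.P161E

open Vale.Agent.P161

universe u

variable {V : Type u}

namespace InflAux

/-! ### Minkowski's inequality for squares -/

theorem lintegral_mul_sq_le {Ω : Type*} [MeasurableSpace Ω] {P : Measure Ω} {f g : Ω → ℝ≥0∞}
    (hf : Measurable f) (hg : Measurable g) {A B : ℝ≥0∞} (h1 : ∫⁻ ω, f ω ^ 2 ∂P ≤ A ^ 2)
    (h2 : ∫⁻ ω, g ω ^ 2 ∂P ≤ B ^ 2) : ∫⁻ ω, f ω * g ω ∂P ≤ A * B := by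
  have key := ENNReal.lintegral_mul_le_Lp_mul_Lq P (Real.HolderConjugate.two_two)
    hf.aemeasurable hg.aemeasurable
  have e : ∀ (k : Ω → ℝ≥0∞) (D : ℝ≥0∞), ∫⁻ ω, k ω ^ 2 ∂P ≤ D ^ 2 →
      (∫⁻ ω, k ω ^ (2 : ℝ) ∂P) ^ (1 / 2 : ℝ) ≤ D := by
    intro k D hD
    have e1 : ∫⁻ ω, k ω ^ (2 : ℝ) ∂P = ∫⁻ ω, k ω ^ 2 ∂P := by
      congr 1
      funext ω
      exact_mod_cast ENNReal.rpow_natCast (k ω) 2
    rw [e1]
    calc (∫⁻ ω, k ω ^ 2 ∂P) ^ (1 / 2 : ℝ) ≤ (D ^ 2) ^ (1 / 2 : ℝ) :=
          ENNReal.rpow_le_rpow hD (by norm_num)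
      _ = D := by
          rw [← ENNReal.rpow_natCast, ← ENNReal.rpow_mul]
          norm_num
  refine key.trans ?_
  exact mul_le_mul' (e f A h1) (e g B h2)

theorem minkowski {ι Ω : Type*} [Countable ι] [MeasurableSpace Ω] {P : Measure Ω}
    {f : ι → Ω → ℝ≥0∞} (hf : ∀ i, Measurable (f i)) {B : ι → ℝ≥0∞}
    (h : ∀ i, ∫⁻ ω, f i ω ^ 2 ∂P ≤ B i ^ 2) :
    ∫⁻ ω, (∑' i, f i ω) ^ 2 ∂P ≤ (∑' i, B i) ^ 2 := by
  have e : ∀ c : ι → ℝ≥0∞, (∑' i, c i) ^ 2 = ∑' i, ∑' j, c i * c j := by
    intro c
    rw [sq, ← ENNReal.tsum_mul_right]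
    refine tsum_congr fun i => ?_
    rw [ENNReal.tsum_mul_left]
  simp_rw [e]
  have hm : ∀ i j, Measurable fun ω => f i ω * f j ω := fun i j => (hf i).mul (hf j)
  have hm' : ∀ i, Measurable fun ω => ∑' j, f i ω * f j ω := fun i => Measurable.tsum (hm i)
  rw [lintegral_tsum fun i => (hm' i).aemeasurable]
  refine ENNReal.tsum_le_tsum fun i => ?_
  rw [lintegral_tsum fun j => (hm i j).aemeasurable]
  refine ENNReal.tsum_le_tsum fun j => ?_
  exact lintegral_mul_sq_le (hf i) (hf j) (h i) (h j)

/-! ### Chains of influences -/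

/-- the site `j'` comes before the site `j` -/
def bef (U : ℕ × V → I) (j' j : ℕ × V) : Prop := j'.1 < j.1 ∨ (j'.1 = j.1 ∧ U j' < U j)

theorem bef_trans {U : ℕ × V → I} {i j k : ℕ × V} (h1 : bef U i j) (h2 : bef U j k) :
    bef U i k := by
  unfold bef at *
  rcases h1 with h1 | ⟨h1, h1'⟩
  · rcases h2 with h2 | ⟨h2, _⟩
    · exact Or.inl (h1.trans h2)
    · exact Or.inl (h2 ▸ h1)
  · rcases h2 with h2 | ⟨h2, h2'⟩
    · exact Or.inl (h1 ▸ h2)
    · exact Or.inr ⟨h1.trans h2, h1'.trans h2'⟩

theorem bef_irrefl {U : ℕ × V → I} {i : ℕ × V} (h : bef U i i) : False := by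
  unfold bef at h
  rcases h with h | ⟨_, h⟩
  · exact lt_irrefl _ h
  · exact lt_irrefl _ h

theorem measurableSet_bef (j' j : ℕ × V) : MeasurableSet {U : ℕ × V → I | bef U j' j} := by
  have e : {U : ℕ × V → I | bef U j' j} =
      {U : ℕ × V → I | j'.1 < j.1} ∪ ({U : ℕ × V → I | j'.1 = j.1} ∩
        {U : ℕ × V → I | U j' < U j}) := by
    ext U; rfl
  rw [e]
  exact (MeasurableSet.const _).union ((MeasurableSet.const _).inter
    (measurableSet_lt (measurable_pi_apply j') (measurable_pi_apply j)))

open Classical in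
/-- Chains of length `n`. -/
noncomputable def Lam (κ : V → V → ℝ) : ℕ → (ℕ × V → I) → (ℕ × V) → (ℕ × V) → ℝ≥0∞
  | 0 => fun _ j i => if i = j then 2 else 0
  | n + 1 => fun U j i =>
      ∑' j', if bef U j' j then ENNReal.ofReal (κ j.2 j'.2) * Lam κ n U j' i else 0

/-- The influence coefficients. -/
noncomputable def cf (κ : V → V → ℝ) (U : ℕ × V → I) (j i : ℕ × V) : ℝ≥0∞ :=
  ∑' n, Lam κ n U j i

open Classical in
theorem cf_rec (κ : V → V → ℝ) (U : ℕ × V → I) (j i : ℕ × V) :
    cf κ U j i = (if i = j then 2 else 0) +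
      ∑' j', if bef U j' j then ENNReal.ofReal (κ j.2 j'.2) * cf κ U j' i else 0 := by
  unfold cf
  rw [tsum_eq_zero_add' ENNReal.summable]
  congr 1
  simp only [Lam]
  rw [ENNReal.tsum_comm]
  refine tsum_congr fun j' => ?_
  split_ifs with h
  · rw [ENNReal.tsum_mul_left]
  · simp

theorem measurable_Lam [Countable V] (κ : V → V → ℝ) (n : ℕ) (j i : ℕ × V) :
    Measurable fun U : ℕ × V → I => Lam κ n U j i := by
  classical
  induction n generalizing j with
  | zero => simp only [Lam]; exact measurable_const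
  | succ n ih =>
    simp only [Lam]
    refine Measurable.tsum fun j' => ?_
    exact Measurable.ite (measurableSet_bef j' j) ((ih j').const_mul _) measurable_const

/-- chains do not go up -/
theorem Lam_eq_zero (κ : V → V → ℝ) (n : ℕ) (U : ℕ × V → I) (j i : ℕ × V) (h : j.1 < i.1) :
    Lam κ n U j i = 0 := by
  classical
  induction n generalizing j with
  | zero =>
    simp only [Lam]
    rw [if_neg]
    rintro rfl
    exact lt_irrefl _ h
  | succ n ih =>
    simp only [Lam]
    rw [ENNReal.tsum_eq_zero]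
    intro j'
    split_ifs with hb
    · have : j'.1 ≤ j.1 := by
        unfold bef at hb
        omega
      rw [ih j' (by omega), mul_zero]
    · rfl

/-- chains below a site do not use its label -/
theorem Lam_le_of_bef (κ : V → V → ℝ) (n : ℕ) {U U' : ℕ × V → I} {j : ℕ × V}
    (hU : ∀ j', j' ≠ j → U j' = U' j') (j' i : ℕ × V) (hb : bef U j' j) :
    Lam κ n U j' i ≤ Lam κ n U' j' i := by
  classical
  induction n generalizing j' with
  | zero => exact le_rfl
  | succ n ih =>
    simp only [Lam]
    refine ENNReal.tsum_le_tsum fun l => ?_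
    by_cases hl : bef U l j'
    · have h1 : bef U l j := bef_trans hl hb
      have e1 : U l = U' l := hU l (by rintro rfl; exact bef_irrefl h1)
      have e2 : U j' = U' j' := hU j' (by rintro rfl; exact bef_irrefl hb)
      have hl' : bef U' l j' := by
        unfold bef at hl ⊢
        rwa [← e1, ← e2]
      rw [if_pos hl, if_pos hl']
      exact mul_le_mul' le_rfl (ih l h1)
    · rw [if_neg hl]
      exact zero_le

/-! ### The Lipschitz estimate -/

theorem fld_sub_le (U x x' : ℕ × V → I) (k : ℕ) (r : ℝ) (w : V) :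
    |fld U x k r w - fld U x' k r w| ≤
      ∑ i ∈ Finset.range k, |(x (i, w) : ℝ) - x' (i, w)| +
        (if (U (k, w) : ℝ) < r then |(x (k, w) : ℝ) - x' (k, w)| else 0) := by
  have hl : ∀ j : ℕ × V, |ell (str (U j)) (x j) - ell (str (U j)) (x' j)| ≤
      |(x j : ℝ) - x' j| := by
    intro j
    obtain ⟨h0, h1⟩ := abs_str_le (U j)
    refine (ell_lip h0 h1 _ _).trans ?_
    have := abs_nonneg ((x j : ℝ) - x' j)
    nlinarith
  unfold fld
  have e : ∀ (p q p' q' : ℝ), |(p + q) - (p' + q')| ≤ |p - p'| + |q - q'| := by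
    intro p q p' q'
    have : (p + q) - (p' + q') = (p - p') + (q - q') := by ring
    rw [this]; exact abs_add_le _ _
  refine (e _ _ _ _).trans ?_
  apply add_le_add
  · rw [← Finset.sum_sub_distrib]
    exact (Finset.abs_sum_le_sum_abs _ _).trans (Finset.sum_le_sum fun i _ => hl (i, w))
  · split_ifs
    · exact hl (k, w)
    · simp

open Classical in
theorem sol_sub_le {μ : Measure (V → Bool)} [IsProbabilityMeasure μ]
    {κ H : V → V → ℝ} {C : ℝ} (h : Ker μ κ H C) (D : Finset V) (U s s' : ℕ × V → I) (k : ℕ)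
    (v : V) (hv : v ∈ D) :
    |(sol μ D U s (k, v) : ℝ) - sol μ D U s' (k, v)| ≤ 2 * |(s (k, v) : ℝ) - s' (k, v)| +
      ∑ j' ∈ sites k D, if bef U j' (k, v) then
        κ v j'.2 * |(sol μ D U s j' : ℝ) - sol μ D U s' j'| else 0 := by
  set x := sol μ D U s with hx
  set x' := sol μ D U s' with hx'
  have e1 : x (k, v) = sig (param μ D U x (k, v)) (s (k, v)) := sol_fix μ D U s k v hv
  have e2 : x' (k, v) = sig (param μ D U x' (k, v)) (s' (k, v)) := sol_fix μ D U s' k v hv
  have h1 := abs_sig_sub_le (abs_param_le μ D U x (k, v)) (abs_param_le μ D U x' (k, v))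
    (s (k, v)) (s' (k, v))
  rw [← e1, ← e2] at h1
  obtain ⟨hs0, hs1⟩ := abs_str_le (U (k, v))
  have h2 : |param μ D U x (k, v) - param μ D U x' (k, v)| ≤
      1 / 5 * ∑ w ∈ D, κ v w * |fld U x k (U (k, v)) w - fld U x' k (U (k, v)) w| := by
    unfold param
    rw [← mul_sub, abs_mul, abs_of_nonneg hs0]
    exact mul_le_mul hs1 (h.lip D v _ _) (abs_nonneg _) (by norm_num)
  have h3 : ∑ w ∈ D, κ v w * |fld U x k (U (k, v)) w - fld U x' k (U (k, v)) w| ≤
      ∑ j' ∈ sites k D, if bef U j' (k, v) then κ v j'.2 * |(x j' : ℝ) - x' j'| else 0 := by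
    unfold sites
    rw [Finset.sum_product_right]
    refine Finset.sum_le_sum fun w _ => ?_
    calc κ v w * |fld U x k (U (k, v)) w - fld U x' k (U (k, v)) w|
        ≤ κ v w * (∑ i ∈ Finset.range k, |(x (i, w) : ℝ) - x' (i, w)| +
          (if (U (k, w) : ℝ) < U (k, v) then |(x (k, w) : ℝ) - x' (k, w)| else 0)) :=
          mul_le_mul_of_nonneg_left (fld_sub_le U x x' k _ w) (h.κ0 _ _)
      _ = ∑ l ∈ Finset.range (k + 1), if bef U (l, w) (k, v) then
            κ v w * |(x (l, w) : ℝ) - x' (l, w)| else 0 := by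
          rw [Finset.sum_range_succ, mul_add, Finset.mul_sum]
          congr 1
          · refine Finset.sum_congr rfl fun l hl => ?_
            have hb : bef U (l, w) (k, v) := Or.inl (Finset.mem_range.mp hl)
            rw [if_pos hb]
          · by_cases hw : (U (k, w) : ℝ) < U (k, v)
            · have hb : bef U (k, w) (k, v) := Or.inr ⟨rfl, hw⟩
              rw [if_pos hw, if_pos hb]
            · rw [if_neg hw, if_neg, mul_zero]
              rintro (h | ⟨_, h⟩)
              · exact lt_irrefl _ h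
              · exact hw h
      _ = _ := rfl
  have h4 : 0 ≤ ∑ j' ∈ sites k D, if bef U j' (k, v) then κ v j'.2 * |(x j' : ℝ) - x' j'|
      else 0 := by
    refine Finset.sum_nonneg fun j' _ => ?_
    split_ifs
    · exact mul_nonneg (h.κ0 _ _) (abs_nonneg _)
    · exact le_rfl
  have h5 := abs_nonneg ((s (k, v) : ℝ) - s' (k, v))
  nlinarith

theorem sol_lip {μ : Measure (V → Bool)} [IsProbabilityMeasure μ]
    {κ H : V → V → ℝ} {C : ℝ} (h : Ker μ κ H C) (D : Finset V) (U s s' : ℕ × V → I) (k : ℕ)
    (v : V) (hv : v ∈ D) :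
    ENNReal.ofReal |(sol μ D U s (k, v) : ℝ) - sol μ D U s' (k, v)| ≤
      ∑ i ∈ sites k D, cf κ U (k, v) i * ENNReal.ofReal |(s i : ℝ) - s' i| := by
  classical
  refine site_induction D U (p := fun k v =>
    ENNReal.ofReal |(sol μ D U s (k, v) : ℝ) - sol μ D U s' (k, v)| ≤
      ∑ i ∈ sites k D, cf κ U (k, v) i * ENNReal.ofReal |(s i : ℝ) - s' i|) ?_ k v hv
  intro k v hv ih0 ih1
  have hkv : (k, v) ∈ sites k D := by
    unfold sites
    exact Finset.mem_product.mpr ⟨Finset.mem_range.mpr (Nat.lt_succ_self k), hv⟩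
  have h1 := ENNReal.ofReal_le_ofReal (sol_sub_le h D U s s' k v hv)
  refine h1.trans ?_
  have hnn : ∀ j' ∈ sites k D, 0 ≤ (if bef U j' (k, v) then
      κ v j'.2 * |(sol μ D U s j' : ℝ) - sol μ D U s' j'| else 0) := by
    intro j' _
    split_ifs
    · exact mul_nonneg (h.κ0 _ _) (abs_nonneg _)
    · exact le_rfl
  rw [ENNReal.ofReal_add (by positivity) (Finset.sum_nonneg hnn),
    ENNReal.ofReal_sum_of_nonneg hnn]
  have h2 : ∀ j' ∈ sites k D, ENNReal.ofReal (if bef U j' (k, v) then
      κ v j'.2 * |(sol μ D U s j' : ℝ) - sol μ D U s' j'| else 0) ≤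
      ∑ i ∈ sites k D, (if bef U j' (k, v) then ENNReal.ofReal (κ v j'.2) * cf κ U j' i else 0) *
        ENNReal.ofReal |(s i : ℝ) - s' i| := by
    intro j' hj'
    by_cases hb : bef U j' (k, v)
    · simp only [if_pos hb]
      rw [ENNReal.ofReal_mul (h.κ0 _ _)]
      unfold sites at hj'
      have hj'' := Finset.mem_product.mp hj'
      have hle : ENNReal.ofReal |(sol μ D U s j' : ℝ) - sol μ D U s' j'| ≤
          ∑ i ∈ sites j'.1 D, cf κ U j' i * ENNReal.ofReal |(s i : ℝ) - s' i| := by
        rcases hb with hb | ⟨hb, hb'⟩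
        · exact ih0 j'.1 hb j'.2 hj''.2
        · obtain ⟨l, w⟩ := j'
          simp only at hb
          subst hb
          exact ih1 w hj''.2 hb'
      have hsub : sites j'.1 D ⊆ sites k D := by
        unfold sites
        refine Finset.product_subset_product_left ?_
        have := Finset.mem_range.mp hj''.1
        exact Finset.range_subset_range.mpr (by omega)
      calc ENNReal.ofReal (κ v j'.2) *
            ENNReal.ofReal |(sol μ D U s j' : ℝ) - sol μ D U s' j'|
          ≤ ENNReal.ofReal (κ v j'.2) *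
            ∑ i ∈ sites k D, cf κ U j' i * ENNReal.ofReal |(s i : ℝ) - s' i| :=
            mul_le_mul' le_rfl (hle.trans (Finset.sum_le_sum_of_subset hsub))
        _ = _ := by
            rw [Finset.mul_sum]
            exact Finset.sum_congr rfl fun i _ => by rw [mul_assoc]
    · simp only [if_neg hb]
      simp
  have h3 : ENNReal.ofReal (2 * |(s (k, v) : ℝ) - s' (k, v)|) ≤
      ∑ i ∈ sites k D, (if i = (k, v) then 2 else 0) * ENNReal.ofReal |(s i : ℝ) - s' i| := by
    have e := Finset.single_le_sum (s := sites k D)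
      (f := fun i : ℕ × V => (if i = (k, v) then (2 : ℝ≥0∞) else 0) *
        ENNReal.ofReal |(s i : ℝ) - s' i|) (fun _ _ => zero_le) hkv
    simp only [if_true] at e
    rw [ENNReal.ofReal_mul (by norm_num)]
    simpa using e
  refine (add_le_add h3 (Finset.sum_le_sum h2)).trans ?_
  rw [Finset.sum_comm, ← Finset.sum_add_distrib]
  refine Finset.sum_le_sum fun i _ => ?_
  rw [← Finset.sum_mul, ← add_mul, cf_rec]
  refine mul_le_mul' (add_le_add le_rfl ?_) le_rfl
  exact ENNReal.sum_le_tsum _

/-! ### Moments -/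

theorem lintegral_update {ι : Type u} [DecidableEq ι] (i : ι) {F : (ι → I) → ℝ≥0∞}
    (hF : Measurable F) :
    ∫⁻ U, F U ∂(iid ι) = ∫⁻ t : I, ∫⁻ U, F (Function.update U i t) ∂(iid ι) := by
  have hm : Measurable (fun p : (ι → I) × I => Function.update p.1 i p.2) := measurable_update'
  conv_lhs => rw [← EfronAux.map_update i]
  rw [lintegral_map hF hm]
  exact lintegral_prod_symm _ (hF.comp hm).aemeasurable

/-- the integral of an exponential over the times before `u` -/
theorem lintegral_exp_le {lam : ℝ} (hlam : 0 < lam) (a : ℝ) (u : I) :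
    ∫⁻ t : I, (if t ≤ u then ENNReal.ofReal (Real.exp (lam * (a + t))) else 0) ≤
      ENNReal.ofReal (Real.exp (lam * (a + u)) / lam) := by
  have hm : Measurable fun x : ℝ =>
      if x ≤ u then ENNReal.ofReal (Real.exp (lam * (a + x))) else 0 :=
    Measurable.ite (measurableSet_le measurable_id measurable_const) (by fun_prop)
      measurable_const
  have e1 : ∫⁻ t : I, (if t ≤ u then ENNReal.ofReal (Real.exp (lam * (a + t))) else 0) =
      ∫⁻ x in (Icc (0 : ℝ) 1), (if x ≤ u then ENNReal.ofReal (Real.exp (lam * (a + x))) else 0) :=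
    unitInterval.measurePreserving_coe.lintegral_comp hm
  have e2 : (fun x : ℝ => if x ≤ u then ENNReal.ofReal (Real.exp (lam * (a + x))) else 0) =
      (Iic (u : ℝ)).indicator (fun x => ENNReal.ofReal (Real.exp (lam * (a + x)))) := by
    funext x
    simp only [Set.indicator_apply, Set.mem_Iic]
  have e3 : ∀ x : ℝ, Real.exp (lam * (a + x)) = Real.exp (lam * a) * Real.exp (lam * x) := by
    intro x; rw [← Real.exp_add]; ring_nf
  calc ∫⁻ t : I, (if t ≤ u then ENNReal.ofReal (Real.exp (lam * (a + t))) else 0)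
      ≤ ∫⁻ x : ℝ, (if x ≤ u then ENNReal.ofReal (Real.exp (lam * (a + x))) else 0) := by
        rw [e1]; exact setLIntegral_le_lintegral _ _
    _ = ∫⁻ x in Iic (u : ℝ), ENNReal.ofReal (Real.exp (lam * (a + x))) := by
        rw [e2, lintegral_indicator measurableSet_Iic]
    _ = ENNReal.ofReal (∫ x in Iic (u : ℝ), Real.exp (lam * (a + x))) := by
        rw [ofReal_integral_eq_lintegral_ofReal]
        · simp_rw [e3]
          exact (integrableOn_exp_mul_Iic hlam _).const_mul _
        · exact ae_of_all _ fun x => (Real.exp_pos _).le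
    _ = ENNReal.ofReal (Real.exp (lam * (a + u)) / lam) := by
        simp_rw [e3]
        rw [integral_const_mul, integral_exp_mul_Iic hlam]
        congr 1
        ring

theorem tsum_kernel_le {μ : Measure (V → Bool)} {κ H : V → V → ℝ} {C : ℝ}
    (h : Ker μ κ H C) (v z : V) {c : ℝ} (hc : 0 ≤ c) :
    ∑' w, ENNReal.ofReal (c * (κ v w * H w z)) ≤ ENNReal.ofReal (c * (C * H v z)) := by
  rw [ENNReal.tsum_eq_iSup_sum]
  refine iSup_le fun D => ?_
  rw [← ENNReal.ofReal_sum_of_nonneg fun w _ =>
    mul_nonneg hc (mul_nonneg (h.κ0 _ _) (h.H0 _ _)), ← Finset.mul_sum]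
  exact ENNReal.ofReal_le_ofReal (mul_le_mul_of_nonneg_left (h.conv D v z) hc)

open Classical in
theorem Lam_moment [Countable V] {μ : Measure (V → Bool)} {κ H : V → V → ℝ} {C : ℝ}
    (h : Ker μ κ H C) (K : ℕ) (n : ℕ) (j i : ℕ × V) (hj : j.1 ≤ K) (u : I) :
    ∫⁻ U, Lam κ n (Function.update U j u) j i ^ 2 ∂(iid (ℕ × V)) ≤
      ENNReal.ofReal (2 * (1 / 2) ^ n * Real.exp (2 * ((K + 1) * C + 1) ^ 2 * (j.1 + u)) *
        H j.2 i.2) ^ 2 := by
  have hC0 := h.C0
  set τ : ℝ := (K + 1) * C + 1 with hτ
  have hτ0 : 0 < τ := by positivity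
  induction n generalizing j u with
  | zero =>
    have h1 : (1 : ℝ) ≤ Real.exp (2 * τ ^ 2 * (j.1 + u)) := by
      apply Real.one_le_exp
      have := u.2.1
      positivity
    have h0 := h.H0 j.2 i.2
    calc ∫⁻ U, Lam κ 0 (Function.update U j u) j i ^ 2 ∂(iid (ℕ × V))
        = (if i = j then 2 else 0) ^ 2 := by
          simp only [Lam]
          rw [lintegral_const, measure_univ, mul_one]
      _ ≤ _ := by
          refine pow_le_pow_left' ?_ 2
          by_cases hij : i = j
          · rw [if_pos hij, hij]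
            have h2 : (2 : ℝ≥0∞) = ENNReal.ofReal 2 := by simp
            rw [h2]
            apply ENNReal.ofReal_le_ofReal
            have h3 := h.H1 j.2
            rw [pow_zero, mul_one]
            nlinarith
          · rw [if_neg hij]
            exact zero_le
  | succ n ih =>
    set E : ℝ := Real.exp (2 * τ ^ 2 * (j.1 + u)) with hE
    have hE0 : 0 < E := Real.exp_pos _
    set c : ℝ := 2 * (1 / 2) ^ n * E / (2 * τ) with hc
    have hc0 : 0 ≤ c := by positivity
    set B : ℕ × V → ℝ≥0∞ := fun j' =>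
      if j'.1 ≤ j.1 then ENNReal.ofReal (c * (κ j.2 j'.2 * H j'.2 i.2)) else 0 with hB
    have hmu : Measurable fun U : ℕ × V → I => Function.update U j u :=
      measurable_update'.comp (measurable_id.prodMk measurable_const)
    have hfm : ∀ j' : ℕ × V, Measurable fun U : ℕ × V → I =>
        if bef (Function.update U j u) j' j then
          ENNReal.ofReal (κ j.2 j'.2) * Lam κ n (Function.update U j u) j' i else 0 := by
      intro j'
      exact Measurable.ite (hmu (measurableSet_bef j' j))
        (((measurable_Lam κ n j' i).comp hmu).const_mul _) measurable_const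
    have hfB : ∀ j' : ℕ × V, ∫⁻ U, (if bef (Function.update U j u) j' j then
        ENNReal.ofReal (κ j.2 j'.2) * Lam κ n (Function.update U j u) j' i else 0) ^ 2
        ∂(iid (ℕ × V)) ≤ B j' ^ 2 := by
      intro j'
      by_cases hjj : j' = j
      · have : ∀ U : ℕ × V → I, ¬ bef (Function.update U j u) j' j := by
          intro U hb
          rw [hjj] at hb
          exact bef_irrefl hb
        simp_rw [if_neg (this _)]
        simp
      by_cases hl : j'.1 ≤ j.1
      · have hjj' := hl
        have hle : ∀ U : ℕ × V → I, (if bef (Function.update U j u) j' j then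
            ENNReal.ofReal (κ j.2 j'.2) * Lam κ n (Function.update U j u) j' i else 0) ^ 2 ≤
            ENNReal.ofReal (κ j.2 j'.2) ^ 2 *
              (if j'.1 < j.1 ∨ U j' ≤ u then Lam κ n U j' i ^ 2 else 0) := by
          intro U
          by_cases hb : bef (Function.update U j u) j' j
          · have hb' : j'.1 < j.1 ∨ U j' ≤ u := by
              rcases hb with hb | ⟨_, hb⟩
              · exact Or.inl hb
              · rw [Function.update_self, Function.update_of_ne hjj] at hb
                exact Or.inr hb.le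
            rw [if_pos hb, if_pos hb', mul_pow]
            refine mul_le_mul' le_rfl (pow_le_pow_left' ?_ 2)
            exact Lam_le_of_bef κ n (fun l hl => Function.update_of_ne hl u U) j' i hb
          · rw [if_neg hb]
            simp
        have hm2 : Measurable fun U : ℕ × V → I =>
            (if j'.1 < j.1 ∨ U j' ≤ u then Lam κ n U j' i ^ 2 else 0) := by
          refine Measurable.ite ?_ ((measurable_Lam κ n j' i).pow_const 2) measurable_const
          have e : {U : ℕ × V → I | j'.1 < j.1 ∨ U j' ≤ u} =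
              {U : ℕ × V → I | j'.1 < j.1} ∪ {U : ℕ × V → I | U j' ≤ u} := by
            ext U; rfl
          rw [e]
          exact (MeasurableSet.const _).union
            (measurableSet_le (measurable_pi_apply j') measurable_const)
        set A : ℝ := 2 * (1 / 2) ^ n * H j'.2 i.2 with hA
        have hA0 : 0 ≤ A := mul_nonneg (by positivity) (h.H0 _ _)
        have hlam : 0 < 4 * τ ^ 2 := by positivity
        have hE2 : E ^ 2 = Real.exp (4 * τ ^ 2 * (j.1 + u)) := by
          rw [hE, ← Real.exp_nat_mul]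
          congr 1
          push_cast
          ring
        calc ∫⁻ U, (if bef (Function.update U j u) j' j then
              ENNReal.ofReal (κ j.2 j'.2) * Lam κ n (Function.update U j u) j' i else 0) ^ 2
              ∂(iid (ℕ × V))
            ≤ ∫⁻ U, ENNReal.ofReal (κ j.2 j'.2) ^ 2 *
              (if j'.1 < j.1 ∨ U j' ≤ u then Lam κ n U j' i ^ 2 else 0) ∂(iid (ℕ × V)) :=
              lintegral_mono hle
          _ = ENNReal.ofReal (κ j.2 j'.2) ^ 2 *
              ∫⁻ U, (if j'.1 < j.1 ∨ U j' ≤ u then Lam κ n U j' i ^ 2 else 0)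
                ∂(iid (ℕ × V)) := lintegral_const_mul _ hm2
          _ = ENNReal.ofReal (κ j.2 j'.2) ^ 2 * ∫⁻ t : I, ∫⁻ U,
                (if j'.1 < j.1 ∨ t ≤ u then Lam κ n (Function.update U j' t) j' i ^ 2 else 0)
                ∂(iid (ℕ × V)) := by
              rw [lintegral_update j' hm2]
              simp only [Function.update_self]
          _ ≤ ENNReal.ofReal (κ j.2 j'.2) ^ 2 * ∫⁻ t : I, ENNReal.ofReal (A ^ 2) *
                (if j'.1 < j.1 ∨ t ≤ u then
                  ENNReal.ofReal (Real.exp (4 * τ ^ 2 * (j'.1 + t))) else 0) := by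
              refine mul_le_mul' le_rfl (lintegral_mono fun t => ?_)
              by_cases ht : j'.1 < j.1 ∨ t ≤ u
              · simp only [if_pos ht]
                refine (ih j' (hl.trans hj) t).trans (le_of_eq ?_)
                rw [← ENNReal.ofReal_pow (by have := h.H0 j'.2 i.2; positivity),
                  ← ENNReal.ofReal_mul (by positivity)]
                congr 1
                rw [hA, mul_pow, mul_pow, mul_pow _ (H j'.2 i.2), ← Real.exp_nat_mul]
                push_cast
                ring_nf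
              · simp only [if_neg ht]
                simp
          _ = ENNReal.ofReal (κ j.2 j'.2) ^ 2 * (ENNReal.ofReal (A ^ 2) * ∫⁻ t : I,
                (if j'.1 < j.1 ∨ t ≤ u then
                  ENNReal.ofReal (Real.exp (4 * τ ^ 2 * (j'.1 + t))) else 0)) := by
              rw [lintegral_const_mul' _ _ ENNReal.ofReal_ne_top]
          _ ≤ ENNReal.ofReal (κ j.2 j'.2) ^ 2 * (ENNReal.ofReal (A ^ 2) *
                ENNReal.ofReal (E ^ 2 / (4 * τ ^ 2))) := by
              refine mul_le_mul' le_rfl (mul_le_mul' le_rfl ?_)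
              rw [hE2]
              by_cases hlt : j'.1 < j.1
              · have h1 := lintegral_exp_le hlam (j'.1 : ℝ) 1
                have e1 : ∀ t : I, t ≤ 1 := fun t => t.2.2
                simp only [e1, if_true] at h1
                simp only [hlt, true_or, if_true]
                refine h1.trans (ENNReal.ofReal_le_ofReal ?_)
                apply div_le_div_of_nonneg_right _ hlam.le
                apply Real.exp_le_exp.mpr
                apply mul_le_mul_of_nonneg_left _ hlam.le
                have : (j'.1 : ℝ) + 1 ≤ j.1 := by exact_mod_cast hlt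
                have hu := u.2.1
                simp only [Icc.coe_one]
                linarith
              · have he : j'.1 = j.1 := le_antisymm hl (not_lt.mp hlt)
                have h1 := lintegral_exp_le hlam (j'.1 : ℝ) u
                simp only [hlt, false_or]
                rw [he] at h1 ⊢
                exact h1
          _ = B j' ^ 2 := by
              simp only [hB, if_pos hl]
              have hκ := h.κ0 j.2 j'.2
              have hH := h.H0 j'.2 i.2
              rw [← ENNReal.ofReal_pow hκ, ← ENNReal.ofReal_mul (by positivity),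
                ← ENNReal.ofReal_mul (by positivity), ← ENNReal.ofReal_pow (by positivity)]
              congr 1
              rw [hc, hA]
              field_simp
              ring
      · have : ∀ U : ℕ × V → I, ¬ bef (Function.update U j u) j' j := by
          intro U hb
          apply hl
          unfold bef at hb
          omega
        simp_rw [if_neg (this _)]
        simp
    have hmink := minkowski hfm hfB
    simp only [Lam]
    refine hmink.trans (pow_le_pow_left' ?_ 2)
    -- the sum of the bounds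
    have hBl : ∀ l : ℕ, ∑' w : V, B (l, w) ≤
        if l ≤ j.1 then ENNReal.ofReal (c * (C * H j.2 i.2)) else 0 := by
      intro l
      by_cases hl : l ≤ j.1
      · simp only [hB, if_pos hl]
        exact tsum_kernel_le h j.2 i.2 hc0
      · simp only [hB, if_neg hl]
        simp
    calc ∑' j', B j' = ∑' l : ℕ, ∑' w : V, B (l, w) := ENNReal.tsum_prod (f := fun l w => B (l, w))
      _ ≤ ∑' l : ℕ, (if l ≤ j.1 then ENNReal.ofReal (c * (C * H j.2 i.2)) else 0) :=
          ENNReal.tsum_le_tsum hBl
      _ = ∑ l ∈ Finset.range (j.1 + 1), ENNReal.ofReal (c * (C * H j.2 i.2)) := by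
          rw [tsum_eq_sum (s := Finset.range (j.1 + 1))]
          · refine Finset.sum_congr rfl fun l hl => ?_
            have := Finset.mem_range.mp hl
            rw [if_pos (by omega)]
          · intro l hl
            have : ¬ l < j.1 + 1 := fun h => hl (Finset.mem_range.mpr h)
            rw [if_neg (by omega)]
      _ = ENNReal.ofReal ((j.1 + 1) * (c * (C * H j.2 i.2))) := by
          have e : (j.1 + 1 : ℝ) * (c * (C * H j.2 i.2)) =
              ((j.1 + 1 : ℕ) : ℝ) * (c * (C * H j.2 i.2)) := by push_cast; ring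
          rw [Finset.sum_const, Finset.card_range, nsmul_eq_mul, e,
            ENNReal.ofReal_mul (Nat.cast_nonneg _), ENNReal.ofReal_natCast]
      _ ≤ _ := by
          apply ENNReal.ofReal_le_ofReal
          have hH := h.H0 j.2 i.2
          have hjK : (j.1 : ℝ) ≤ K := by exact_mod_cast hj
          have h1 : (j.1 + 1 : ℝ) * C ≤ τ := by
            rw [hτ]
            nlinarith
          rw [hc, pow_succ]
          have h2 : (j.1 + 1 : ℝ) * (2 * (1 / 2) ^ n * E / (2 * τ) * (C * H j.2 i.2)) =
              (2 * (1 / 2) ^ n * E * H j.2 i.2) * (((j.1 + 1 : ℝ) * C) / (2 * τ)) := by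
            field_simp
          rw [h2]
          have h3 : ((j.1 + 1 : ℝ) * C) / (2 * τ) ≤ 1 / 2 := by
            rw [div_le_iff₀ (by positivity)]
            linarith
          calc (2 * (1 / 2) ^ n * E * H j.2 i.2) * (((j.1 + 1 : ℝ) * C) / (2 * τ))
              ≤ (2 * (1 / 2) ^ n * E * H j.2 i.2) * (1 / 2) :=
                mul_le_mul_of_nonneg_left h3 (by positivity)
            _ = _ := by ring

open Classical in
theorem cf_moment [Countable V] {μ : Measure (V → Bool)} {κ H : V → V → ℝ} {C : ℝ}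
    (h : Ker μ κ H C) (j i : ℕ × V) :
    ∫⁻ U, cf κ U j i ^ 2 ∂(iid (ℕ × V)) ≤ if i.1 ≤ j.1 then
      ENNReal.ofReal ((4 * Real.exp (2 * ((j.1 + 1) * C + 1) ^ 2 * (j.1 + 1))) ^ 2 *
        H j.2 i.2 ^ 2) else 0 := by
  have hC0 := h.C0
  by_cases hij : i.1 ≤ j.1
  · rw [if_pos hij]
    set M : ℝ := Real.exp (2 * ((j.1 + 1) * C + 1) ^ 2 * (j.1 + 1)) with hM
    have hM0 : 0 < M := Real.exp_pos _
    have hH := h.H0 j.2 i.2
    have h1 : ∀ n, ∫⁻ U, Lam κ n U j i ^ 2 ∂(iid (ℕ × V)) ≤
        ENNReal.ofReal ((1 / 2) ^ n * (2 * M * H j.2 i.2)) ^ 2 := by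
      intro n
      have hm : Measurable fun U : ℕ × V → I => Lam κ n U j i ^ 2 :=
        (measurable_Lam κ n j i).pow_const 2
      rw [lintegral_update j hm]
      calc ∫⁻ t : I, ∫⁻ U, Lam κ n (Function.update U j t) j i ^ 2 ∂(iid (ℕ × V))
          ≤ ∫⁻ _ : I, ENNReal.ofReal ((1 / 2) ^ n * (2 * M * H j.2 i.2)) ^ 2 := by
            refine lintegral_mono fun t => ?_
            refine (Lam_moment h j.1 n j i le_rfl t).trans (pow_le_pow_left' ?_ 2)
            apply ENNReal.ofReal_le_ofReal
            have h2 : Real.exp (2 * ((j.1 + 1) * C + 1) ^ 2 * (j.1 + t)) ≤ M := by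
              apply Real.exp_le_exp.mpr
              apply mul_le_mul_of_nonneg_left _ (by positivity)
              have := t.2.2
              linarith
            calc 2 * (1 / 2) ^ n * Real.exp (2 * ((j.1 + 1) * C + 1) ^ 2 * (j.1 + t)) *
                  H j.2 i.2 ≤ 2 * (1 / 2) ^ n * M * H j.2 i.2 := by gcongr
              _ = _ := by ring
        _ = _ := by rw [lintegral_const, measure_univ, mul_one]
    have h2 := minkowski (fun n => measurable_Lam κ n j i) h1
    refine h2.trans (le_of_eq ?_)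
    have h3 : ∑' n : ℕ, ENNReal.ofReal ((1 / 2) ^ n * (2 * M * H j.2 i.2)) =
        ENNReal.ofReal (4 * M * H j.2 i.2) := by
      have hs : Summable fun n : ℕ => (1 / 2 : ℝ) ^ n * (2 * M * H j.2 i.2) :=
        (summable_geometric_two).mul_right _
      rw [← ENNReal.ofReal_tsum_of_nonneg (fun n => by positivity) hs, tsum_mul_right,
        tsum_geometric_two]
      congr 1
      ring
    rw [h3, ← ENNReal.ofReal_pow (by positivity)]
    congr 1
    ring
  · rw [if_neg hij]
    have : ∀ U, cf κ U j i = 0 := by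
      intro U
      unfold cf
      rw [ENNReal.tsum_eq_zero]
      exact fun n => Lam_eq_zero κ n U j i (by omega)
    simp [this]

end InflAux

open InflAux

/-- The influence of a seed on the signals. -/
theorem exists_infl [Countable V] {μ : Measure (V → Bool)} [IsProbabilityMeasure μ]
    {κ H : V → V → ℝ} {C : ℝ} (h : Ker μ κ H C) :
    ∃ cf : (ℕ × V → I) → (ℕ × V) → (ℕ × V) → ℝ≥0∞,
      (∀ j i, Measurable fun U => cf U j i) ∧
      (∀ (D : Finset V) (U s s' : ℕ × V → I) (k : ℕ) (v : V), v ∈ D →
        ENNReal.ofReal |(sol μ D U s (k, v) : ℝ) - sol μ D U s' (k, v)| ≤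
          ∑ i ∈ sites k D, cf U (k, v) i * ENNReal.ofReal |(s i : ℝ) - s' i|) ∧
      (∀ j, ∑' i, ∫⁻ U, cf U j i ^ 2 ∂(iid (ℕ × V)) < ⊤) := by
  classical
  refine ⟨InflAux.cf κ, fun j i => ?_, fun D U s s' k v hv => sol_lip h D U s s' k v hv,
    fun j => ?_⟩
  · unfold InflAux.cf
    exact Measurable.tsum fun n => measurable_Lam κ n j i
  · set M : ℝ := (4 * Real.exp (2 * ((j.1 + 1) * C + 1) ^ 2 * (j.1 + 1))) ^ 2 with hM
    have hM0 : 0 ≤ M := by positivity
    have h1 : ∑' i, ∫⁻ U, InflAux.cf κ U j i ^ 2 ∂(iid (ℕ × V)) ≤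
        ∑' i : ℕ × V, (if i.1 ≤ j.1 then ENNReal.ofReal (M * H j.2 i.2 ^ 2) else 0) :=
      ENNReal.tsum_le_tsum fun i => cf_moment h j i
    refine h1.trans_lt ?_
    have h2 : ∑' z : V, ENNReal.ofReal (M * H j.2 z ^ 2) < ⊤ := by
      rw [← ENNReal.ofReal_tsum_of_nonneg (fun z => by positivity) ((h.H2 j.2).mul_left M)]
      exact ENNReal.ofReal_lt_top
    calc ∑' i : ℕ × V, (if i.1 ≤ j.1 then ENNReal.ofReal (M * H j.2 i.2 ^ 2) else 0)
        = ∑' l : ℕ, ∑' z : V, (if l ≤ j.1 then ENNReal.ofReal (M * H j.2 z ^ 2) else 0) :=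
          ENNReal.tsum_prod
            (f := fun l z => if l ≤ j.1 then ENNReal.ofReal (M * H j.2 z ^ 2) else 0)
      _ = ∑ l ∈ Finset.range (j.1 + 1), ∑' z : V, ENNReal.ofReal (M * H j.2 z ^ 2) := by
          rw [tsum_eq_sum (s := Finset.range (j.1 + 1))]
          · refine Finset.sum_congr rfl fun l hl => ?_
            have hl' := Finset.mem_range.mp hl
            simp only [if_pos (show l ≤ j.1 by omega)]
          · intro l hl
            have hl' : ¬ l < j.1 + 1 := fun h => hl (Finset.mem_range.mpr h)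
            simp only [if_neg (show ¬ l ≤ j.1 by omega)]
            simp
      _ < ⊤ := by
          rw [Finset.sum_const, nsmul_eq_mul]
          exact ENNReal.mul_lt_top (ENNReal.natCast_lt_top _) h2

end Vale.Agent.P161E
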