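import Vale.Agent.P161E.Limit
import Vale.Agent.P161E.Infl

/-!
# The infinite-volume sampler
-/

open MeasureTheory Set Filter Topology
open scoped unitInterval ENNReal

namespace Vale.Agent.P161E

open Vale.Agent.P161

universe u

variable {V : Type u}

/-- The finite-volume samplers form a Cauchy net in `L²`. -/
theorem sol_cauchy [Countable V] {μ : Measure (V → Bool)} [IsProbabilityMeasure μ]
    {κ H : V → V → ℝ} {C : ℝ} (h : Ker μ κ H C) (j : ℕ × V) {ε : ℝ} (hε : 0 < ε) :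
    ∃ D₀ : Finset V, ∀ D ≥ D₀,
      ∫ ω, ((sol μ D ω.1 ω.2 j : ℝ) - sol μ D₀ ω.1 ω.2 j) ^ 2 ∂(PO V) ≤ ε := by
  obtain ⟨cf, h1, h2, h3⟩ := exists_infl h
  exact sol_cauchy_of_infl ⟨h1, h2, h3⟩ j hε

theorem exists_isLim [Countable V] {μ : Measure (V → Bool)} [IsProbabilityMeasure μ]
    {κ H : V → V → ℝ} {C : ℝ} (h : Ker μ κ H C) : ∃ X : Om V → ℕ × V → I, IsLim μ X :=
  exists_isLim_of fun j _ hε => sol_cauchy h j hε

end Vale.Agent.P161E
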