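import Vale.Agent.P161E.SBase

/-!
# Part S, S1: limits
-/

open MeasureTheory Set Filter Topology
open scoped unitInterval ENNReal

namespace Vale.Agent.P161E

open Vale.Agent.P161

universe u

variable {V : Type u} {b : ℕ}

namespace SL

/-- The σ-algebra of the coordinates in `D`. -/
@[reducible] def sa (D : Finset V) : MeasurableSpace (V → ℝ) :=
  MeasurableSpace.comap (fun (Y : V → ℝ) (w : D) => Y w) inferInstance

theorem sa_le (D : Finset V) : sa D ≤ MeasurableSpace.pi := by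
  refine Measurable.comap_le ?_
  exact measurable_pi_iff.mpr fun w => measurable_pi_apply _

theorem sa_mono {D D' : Finset V} (h : D ⊆ D') : sa D ≤ sa D' := by
  unfold sa
  rintro s ⟨t, ht, rfl⟩
  refine ⟨(fun (z : D' → ℝ) (w : D) => z ⟨w, h w.2⟩) ⁻¹' t, ?_, rfl⟩
  exact (measurable_pi_iff.mpr fun w => measurable_pi_apply _) ht

open Classical in
/-- extension by zero -/
noncomputable def ext0 (D : Finset V) (z : D → ℝ) : V → ℝ :=
  fun w => if h : w ∈ D then z ⟨w, h⟩ else 0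

theorem measurable_ext0 (D : Finset V) : Measurable (ext0 D) := by
  rw [measurable_pi_iff]
  intro w
  unfold ext0
  split_ifs with h
  · exact measurable_pi_apply _
  · exact measurable_const

theorem measurable_sa {D : Finset V} {F : (V → ℝ) → ℝ} (hF : Measurable F)
    (hd : DependsOn F (D : Set V)) : Measurable[sa D] F := by
  have h : F = (fun z => F (ext0 D z)) ∘ (fun (Y : V → ℝ) (w : D) => Y w) := by
    funext Y
    apply hd
    intro w hw
    simp only [ext0]
    rw [dif_pos (Finset.mem_coe.mp hw)]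
  rw [h]
  exact (hF.comp (measurable_ext0 D)).comp (comap_measurable _)

theorem dependsOn_indicator {D : Finset V} {s : Set (V → ℝ)} (hs : MeasurableSet[sa D] s) :
    DependsOn (s.indicator (fun _ => (1 : ℝ))) (D : Set V) := by
  obtain ⟨t, ht, rfl⟩ := hs
  intro x y h
  have : (fun w : D => x w) = fun w : D => y w := by
    funext w
    exact h w w.2
  have h2 : x ∈ (fun (Y : V → ℝ) (w : D) => Y w) ⁻¹' t ↔
      y ∈ (fun (Y : V → ℝ) (w : D) => Y w) ⁻¹' t := by
    rw [mem_preimage, mem_preimage, this]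
  by_cases hx : x ∈ (fun (Y : V → ℝ) (w : D) => Y w) ⁻¹' t
  · rw [indicator_of_mem hx, indicator_of_mem (h2.mp hx)]
  · rw [indicator_of_notMem hx, indicator_of_notMem (mt h2.mpr hx)]

/-- the filtration of an increasing sequence of volumes -/
def filt (D : ℕ → Finset V) (hD : Monotone D) :
    Filtration ℕ (MeasurableSpace.pi : MeasurableSpace (V → ℝ)) where
  seq n := sa (D n)
  mono' _ _ h := sa_mono (hD h)
  le' n := sa_le (D n)

end SL

section S1

variable {μ : Measure (V → Bool)} [IsProbabilityMeasure μ] {ν : Measure ℝ} {Q : Measure (V → ℝ)}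

theorem SL.integrable_mean (hQ : IsPlanted μ ν Q) (D : Finset V) (v : V) :
    Integrable (fun Y => mean μ D v Y) Q := by
  have := hQ.prob
  exact Integrable.of_bound (measurable_mean μ D v).aestronglyMeasurable 1
    (ae_of_all _ fun Y => CovAux.abs_mean_le μ D v Y)

/-- martingale convergence (`Mathlib`: `Submartingale.ae_tendsto_limitProcess` or
`tendsto_ae_condExp`) -/
theorem tendsto_seq (hν : Obs ν) (hQ : IsPlanted μ ν Q) (D : ℕ → Finset V) (hD : Monotone D)
    (v : V) : ∀ᵐ Y ∂Q, ∃ l : ℝ, Tendsto (fun n => mean μ (D n) v Y) atTop (𝓝 l) := by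
  have := hQ.prob
  have hsub : Submartingale (fun n Y => mean μ (D n) v Y) (SL.filt D hD) Q := by
    refine ⟨fun n => ?_, fun i j hij => ?_, fun n => SL.integrable_mean hQ (D n) v⟩
    · exact (SL.measurable_sa (measurable_mean μ (D n) v)
        (dependsOn_mean μ (D n) v)).stronglyMeasurable
    · refine (ae_eq_condExp_of_forall_setIntegral_eq ((SL.filt D hD).le i)
        (SL.integrable_mean hQ (D j) v) (fun s _ _ => (SL.integrable_mean hQ (D i) v).integrableOn)
        (fun s hs _ => ?_) ?_).le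
      · have hs' : MeasurableSet s := SL.sa_le (D i) s hs
        rw [← integral_indicator hs', ← integral_indicator hs']
        have h := tower_fin hν hQ (hD hij) v (F := s.indicator (fun _ => (1 : ℝ)))
          (measurable_const.indicator hs') ⟨1, fun Y => by
            by_cases hY : Y ∈ s
            · rw [indicator_of_mem hY]; simp
            · rw [indicator_of_notMem hY]; simp⟩ (SL.dependsOn_indicator hs)
        have e : ∀ n, (fun Y => s.indicator (fun _ => (1 : ℝ)) Y * mean μ (D n) v Y) =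
            s.indicator (fun Y => mean μ (D n) v Y) := by
          intro n
          funext Y
          by_cases hY : Y ∈ s
          · rw [indicator_of_mem hY, indicator_of_mem hY, one_mul]
          · rw [indicator_of_notMem hY, indicator_of_notMem hY, zero_mul]
        rw [e j, e i] at h
        exact h.symm
      · exact (SL.measurable_sa (measurable_mean μ (D i) v)
          (dependsOn_mean μ (D i) v)).stronglyMeasurable.aestronglyMeasurable
  have hb : ∀ n, eLpNorm (fun Y => mean μ (D n) v Y) 1 Q ≤ (1 : NNReal) := by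
    intro n
    refine (eLpNorm_le_of_ae_bound (C := 1) (ae_of_all _ fun Y => ?_)).trans ?_
    · exact CovAux.abs_mean_le μ (D n) v Y
    · simp
  filter_upwards [hsub.ae_tendsto_limitProcess hb] with Y hY
  exact ⟨_, hY⟩

/-! ### Abstract limits -/

namespace SL

variable (hν : Obs ν) (hQ : IsPlanted μ ν Q) {D : ℕ → Finset V} (hD : Monotone D)
  {v : V} {L : (V → ℝ) → ℝ} (hL : ∀ᵐ Y ∂Q, Tendsto (fun n => mean μ (D n) v Y) atTop (𝓝 (L Y)))

include hν hQ hD hL in
theorem tower_gen (E : Finset V) (hE : ∃ n, E ⊆ D n) {F : (V → ℝ) → ℝ} (hF : Measurable F)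
    (hb : ∃ C, ∀ Y, |F Y| ≤ C) (hd : DependsOn F (E : Set V)) :
    ∫ Y, F Y * L Y ∂Q = ∫ Y, F Y * mean μ E v Y ∂Q := by
  have := hQ.prob
  obtain ⟨C, hC⟩ := hb
  obtain ⟨n, hn⟩ := hE
  have h1 : Tendsto (fun m => ∫ Y, F Y * mean μ (D m) v Y ∂Q) atTop (𝓝 (∫ Y, F Y * L Y ∂Q)) := by
    refine tendsto_integral_of_dominated_convergence (fun _ => C) (fun m => ?_)
      (integrable_const _) (fun m => ae_of_all _ fun Y => ?_) ?_
    · exact (hF.mul (measurable_mean μ (D m) v)).aestronglyMeasurable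
    · rw [Real.norm_eq_abs, abs_mul]
      calc |F Y| * |mean μ (D m) v Y| ≤ C * 1 :=
            mul_le_mul (hC Y) (CovAux.abs_mean_le μ (D m) v Y) (abs_nonneg _)
              ((abs_nonneg _).trans (hC Y))
        _ = C := mul_one C
    · filter_upwards [hL] with Y hY
      exact hY.const_mul _
  have h2 : ∀ m ≥ n, ∫ Y, F Y * mean μ (D m) v Y ∂Q = ∫ Y, F Y * mean μ E v Y ∂Q := fun m hm =>
    tower_fin hν hQ (hn.trans (hD hm)) v hF ⟨C, hC⟩ hd
  refine tendsto_nhds_unique h1 ?_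
  exact (tendsto_congr' (eventually_atTop.mpr ⟨n, h2⟩)).mpr tendsto_const_nhds

include hν hQ hD hL in
theorem l2_gen (hLm : Measurable L) (hL1 : ∀ Y, |L Y| ≤ 1) {ε : ℝ} (hε : 0 < ε) :
    ∃ n₀ : ℕ, ∀ E : Finset V, D n₀ ⊆ E → (∃ n, E ⊆ D n) →
      ∫ Y, (mean μ E v Y - L Y) ^ 2 ∂Q ≤ ε := by
  have := hQ.prob
  have hi : ∀ {f g : (V → ℝ) → ℝ}, Measurable f → Measurable g → (∀ Y, |f Y| ≤ 1) →
      (∀ Y, |g Y| ≤ 1) → Integrable (fun Y => f Y * g Y) Q := by
    intro f g hf hg hf1 hg1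
    refine Integrable.of_bound (hf.mul hg).aestronglyMeasurable 1 (ae_of_all _ fun Y => ?_)
    rw [Real.norm_eq_abs, abs_mul]
    exact mul_le_one₀ (hf1 Y) (abs_nonneg _) (hg1 Y)
  have hmm := fun E : Finset V => measurable_mean μ E v
  have hm1 := fun E : Finset V => CovAux.abs_mean_le μ E v
  have hexp : ∀ {f g : (V → ℝ) → ℝ}, Measurable f → Measurable g → (∀ Y, |f Y| ≤ 1) →
      (∀ Y, |g Y| ≤ 1) → ∫ Y, (f Y - g Y) ^ 2 ∂Q =
        ∫ Y, f Y * f Y ∂Q - 2 * ∫ Y, f Y * g Y ∂Q + ∫ Y, g Y * g Y ∂Q := by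
    intro f g hf hg hf1 hg1
    have e1 : Integrable (fun Y => f Y * f Y - 2 * (f Y * g Y)) Q :=
      (hi hf hf hf1 hf1).sub ((hi hf hg hf1 hg1).const_mul 2)
    rw [← integral_const_mul, ← integral_sub (hi hf hf hf1 hf1) ((hi hf hg hf1 hg1).const_mul 2),
      ← integral_add e1 (hi hg hg hg1 hg1)]
    refine integral_congr_ae (ae_of_all _ fun Y => ?_)
    simp only
    ring
  have hort : ∀ E : Finset V, (∃ n, E ⊆ D n) → ∫ Y, mean μ E v Y * L Y ∂Q =
      ∫ Y, mean μ E v Y * mean μ E v Y ∂Q := fun E hE =>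
    tower_gen hν hQ hD hL E hE (hmm E) ⟨1, hm1 E⟩ (dependsOn_mean μ E v)
  have hdiff : ∀ E : Finset V, (∃ n, E ⊆ D n) → ∫ Y, (mean μ E v Y - L Y) ^ 2 ∂Q =
      ∫ Y, L Y * L Y ∂Q - ∫ Y, mean μ E v Y * mean μ E v Y ∂Q := by
    intro E hE
    rw [hexp (hmm E) hLm (hm1 E) hL1, hort E hE]
    ring
  have hmono : ∀ E E' : Finset V, E ⊆ E' → ∫ Y, mean μ E v Y * mean μ E v Y ∂Q ≤
      ∫ Y, mean μ E' v Y * mean μ E' v Y ∂Q := by
    intro E E' hEE
    have h1 := tower_fin hν hQ hEE v (hmm E) ⟨1, hm1 E⟩ (dependsOn_mean μ E v)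
    have h2 := hexp (hmm E) (hmm E') (hm1 E) (hm1 E')
    have h3 : 0 ≤ ∫ Y, (mean μ E v Y - mean μ E' v Y) ^ 2 ∂Q :=
      integral_nonneg fun Y => sq_nonneg _
    rw [h2, h1] at h3
    linarith
  have hlim : Tendsto (fun n => ∫ Y, (mean μ (D n) v Y - L Y) ^ 2 ∂Q) atTop (𝓝 0) := by
    have h0 : (0 : ℝ) = ∫ Y : V → ℝ, (0 : ℝ) ∂Q := by simp
    rw [h0]
    refine tendsto_integral_of_dominated_convergence (fun _ => 4) (fun m => ?_)
      (integrable_const _) (fun m => ae_of_all _ fun Y => ?_) ?_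
    · exact (((hmm (D m)).sub hLm).pow_const 2).aestronglyMeasurable
    · have h1 := abs_le.mp (hm1 (D m) Y)
      have h2 := abs_le.mp (hL1 Y)
      rw [Real.norm_eq_abs, abs_of_nonneg (sq_nonneg _)]
      nlinarith
    · filter_upwards [hL] with Y hY
      have : Tendsto (fun n => (mean μ (D n) v Y - L Y) ^ 2) atTop (𝓝 ((L Y - L Y) ^ 2)) :=
        (hY.sub_const _).pow 2
      simpa using this
  obtain ⟨n₀, hn₀⟩ := (hlim.eventually (gt_mem_nhds hε)).exists
  refine ⟨n₀, fun E hE hE' => ?_⟩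
  rw [hdiff E hE']
  have h1 := hmono (D n₀) E hE
  have h2 := hdiff (D n₀) ⟨n₀, Finset.Subset.refl _⟩
  linarith

end SL

variable (T : RTree V b)

namespace SL

theorem mem_ball {v w : V} {n : ℕ} : w ∈ T.ball v n ↔ T.G.dist v w ≤ n := by
  unfold RTree.ball
  rw [Set.Finite.mem_toFinset, Set.mem_ofPred_eq]

theorem mem_half' {u x w : V} {n : ℕ} :
    w ∈ T.half u x n ↔ T.G.dist w x ≤ n ∧ T.G.dist w x < T.G.dist w u := SplitAux.mem_half

theorem ball_mono (v : V) : Monotone (T.ball v) := by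
  intro m n h w hw
  rw [mem_ball] at hw ⊢
  omega

theorem half_mono (u x : V) : Monotone (T.half u x) := by
  intro m n h w hw
  rw [mem_half'] at hw ⊢
  exact ⟨hw.1.trans h, hw.2⟩

theorem half_sub_side (u x : V) (n : ℕ) : (T.half u x n : Set V) ⊆ T.side u x := by
  intro w hw
  exact ((mem_half' T).mp (Finset.mem_coe.mp hw)).2

theorem exists_sub_half {u x : V} (E : Finset V) (hE : (E : Set V) ⊆ T.side u x) :
    ∃ n, E ⊆ T.half u x n := by
  refine ⟨E.sup fun w => T.G.dist w x, fun w hw => ?_⟩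
  rw [mem_half']
  exact ⟨Finset.le_sup (f := fun w => T.G.dist w x) hw, hE (Finset.mem_coe.mpr hw)⟩

theorem exists_sub_ball {v : V} (E : Finset V) : ∃ n, E ⊆ T.ball v n := by
  refine ⟨E.sup fun w => T.G.dist v w, fun w hw => ?_⟩
  rw [mem_ball]
  exact Finset.le_sup (f := fun w => T.G.dist v w) hw

theorem abs_limsup_le {f : ℕ → ℝ} (hf : ∀ n, |f n| ≤ 1) : |limsup f atTop| ≤ 1 := by
  have h1 : IsBoundedUnder (· ≤ ·) atTop f :=
    isBoundedUnder_of ⟨1, fun n => (abs_le.mp (hf n)).2⟩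
  have h2 : IsBoundedUnder (· ≥ ·) atTop f :=
    isBoundedUnder_of ⟨-1, fun n => (abs_le.mp (hf n)).1⟩
  rw [abs_le]
  constructor
  · exact le_limsup_of_frequently_le (Eventually.of_forall fun n => (abs_le.mp (hf n)).1).frequently
      h1
  · exact limsup_le_of_le h2.isCoboundedUnder_le (Eventually.of_forall fun n => (abs_le.mp (hf n)).2)

end SL

theorem tendsto_th (hν : Obs ν) (hQ : IsPlanted μ ν Q) (u x : V) :
    ∀ᵐ Y ∂Q, Tendsto (fun n => mean μ (T.half u x n) x Y) atTop (𝓝 (th T μ u x Y)) := by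
  filter_upwards [tendsto_seq hν hQ (T.half u x) (SL.half_mono T u x) x] with Y hY
  obtain ⟨l, hl⟩ := hY
  have : th T μ u x Y = l := hl.limsup_eq
  rw [this]
  exact hl

theorem tendsto_Mh (hν : Obs ν) (hQ : IsPlanted μ ν Q) (v : V) :
    ∀ᵐ Y ∂Q, Tendsto (fun n => mean μ (T.ball v n) v Y) atTop (𝓝 (Mh T μ v Y)) := by
  filter_upwards [tendsto_seq hν hQ (T.ball v) (SL.ball_mono T v) v] with Y hY
  obtain ⟨l, hl⟩ := hY
  have : Mh T μ v Y = l := hl.limsup_eq
  rw [this]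
  exact hl

theorem measurable_th (μ : Measure (V → Bool)) [IsProbabilityMeasure μ] (u x : V) :
    Measurable (th T μ u x) :=
  Measurable.limsup fun n => measurable_mean μ (T.half u x n) x

theorem measurable_Mh (μ : Measure (V → Bool)) [IsProbabilityMeasure μ] (v : V) :
    Measurable (Mh T μ v) :=
  Measurable.limsup fun n => measurable_mean μ (T.ball v n) v

theorem dependsOn_th (μ : Measure (V → Bool)) (u x : V) :
    DependsOn (th T μ u x) (T.side u x) := by
  intro Y Y' h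
  unfold th
  congr 1
  funext n
  exact dependsOn_mean μ (T.half u x n) x fun w hw => h w (SL.half_sub_side T u x n hw)

theorem abs_th_le (μ : Measure (V → Bool)) [IsProbabilityMeasure μ] (u x : V) (Y : V → ℝ) :
    |th T μ u x Y| ≤ 1 := SL.abs_limsup_le fun n => CovAux.abs_mean_le μ (T.half u x n) x Y

theorem abs_Mh_le (μ : Measure (V → Bool)) [IsProbabilityMeasure μ] (v : V) (Y : V → ℝ) :
    |Mh T μ v Y| ≤ 1 := SL.abs_limsup_le fun n => CovAux.abs_mean_le μ (T.ball v n) v Y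

theorem tower_th (hν : Obs ν) (hQ : IsPlanted μ ν Q) (u x : V) (D : Finset V)
    (hD : (D : Set V) ⊆ T.side u x) {F : (V → ℝ) → ℝ} (hF : Measurable F)
    (hb : ∃ C, ∀ Y, |F Y| ≤ C) (hd : DependsOn F (D : Set V)) :
    ∫ Y, F Y * th T μ u x Y ∂Q = ∫ Y, F Y * mean μ D x Y ∂Q :=
  SL.tower_gen hν hQ (SL.half_mono T u x) (tendsto_th T hν hQ u x) D
    (SL.exists_sub_half T D hD) hF hb hd

theorem tower_Mh (hν : Obs ν) (hQ : IsPlanted μ ν Q) (v : V) (D : Finset V)
    {F : (V → ℝ) → ℝ} (hF : Measurable F)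
    (hb : ∃ C, ∀ Y, |F Y| ≤ C) (hd : DependsOn F (D : Set V)) :
    ∫ Y, F Y * Mh T μ v Y ∂Q = ∫ Y, F Y * mean μ D v Y ∂Q :=
  SL.tower_gen hν hQ (SL.ball_mono T v) (tendsto_Mh T hν hQ v) D
    (SL.exists_sub_ball T D) hF hb hd

/-- uniform convergence in `L²` (used by B9) -/
theorem l2_th (hν : Obs ν) (hQ : IsPlanted μ ν Q) (u x : V) {ε : ℝ} (hε : 0 < ε) :
    ∃ n₀ : ℕ, ∀ D : Finset V, T.half u x n₀ ⊆ D →
      ∫ Y, (mean μ (T.inter D u x) x Y - th T μ u x Y) ^ 2 ∂Q ≤ ε := by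
  classical
  obtain ⟨n₀, hn₀⟩ := SL.l2_gen hν hQ (SL.half_mono T u x) (tendsto_th T hν hQ u x)
    (measurable_th T μ u x) (abs_th_le T μ u x) hε
  refine ⟨n₀, fun D hD => hn₀ _ ?_ (SL.exists_sub_half T _ ?_)⟩
  · intro w hw
    unfold RTree.inter
    rw [Finset.mem_filter]
    exact ⟨hD hw, ((SL.mem_half' T).mp hw).2⟩
  · intro w hw
    unfold RTree.inter at hw
    rw [Finset.mem_coe, Finset.mem_filter] at hw
    exact hw.2

theorem l2_Mh (hν : Obs ν) (hQ : IsPlanted μ ν Q) (v : V) {ε : ℝ} (hε : 0 < ε) :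
    ∃ n₀ : ℕ, ∀ D : Finset V, T.ball v n₀ ⊆ D →
      ∫ Y, (mean μ D v Y - Mh T μ v Y) ^ 2 ∂Q ≤ ε := by
  obtain ⟨n₀, hn₀⟩ := SL.l2_gen hν hQ (SL.ball_mono T v) (tendsto_Mh T hν hQ v)
    (measurable_Mh T μ v) (abs_Mh_le T μ v) hε
  exact ⟨n₀, fun D hD => hn₀ D hD (SL.exists_sub_ball T D)⟩

end S1

end Vale.Agent.P161E
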