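import Vale.Agent.P161E.Planted
import Vale.Agent.P161E.SLim

/-!
# The cavity magnetisation is a martingale in time
-/

open MeasureTheory Set Filter Topology
open scoped unitInterval ENNReal

namespace Vale.Agent.P161E

open Vale.Agent.P161

universe u

variable {V : Type u}

namespace MartAux

open OrthoAux

theorem integral_PL_nonneg (μ : Measure (V → Bool)) [IsProbabilityMeasure μ] {F : Om V → ℝ}
    (hF : Measurable F) (h0 : ∀ q, 0 ≤ F q) {C : ℝ} (hC : ∀ q, F q ≤ C) :
    ∫ q, F q ∂(PL μ) = ∫ U, ∫ p, F (U, xU U p) ∂(μ.prod (iid (ℕ × V))) ∂(iid (ℕ × V)) := by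
  have hmU : ∀ U : ℕ × V → I, Measurable fun p : (V → Bool) × (ℕ × V → I) =>
      F (U, xU U p) := fun U => hF.comp (measurable_const.prodMk (measurable_xU U))
  have hJ : Measurable fun q : (ℕ × V → I) × ((V → Bool) × (ℕ × V → I)) =>
      ((q.1, xU q.1 q.2) : Om V) :=
    measurable_fst.prodMk (measurable_xs (measurable_fst.comp measurable_snd) measurable_fst
      (measurable_snd.comp measurable_snd))
  have hmJ : Measurable fun q : (ℕ × V → I) × ((V → Bool) × (ℕ × V → I)) =>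
      F (q.1, xU q.1 q.2) := hF.comp hJ
  rw [integral_eq_lintegral_of_nonneg_ae (ae_of_all _ h0) hF.aestronglyMeasurable,
    lintegral_PL μ (F := fun q => ENNReal.ofReal (F q)) hF.ennreal_ofReal,
    integral_eq_lintegral_of_nonneg_ae (ae_of_all _ fun U => integral_nonneg fun p => h0 _)
      (hmJ.stronglyMeasurable.integral_prod_right'
        (ν := μ.prod (iid (ℕ × V)))).aestronglyMeasurable]
  congr 1
  refine lintegral_congr fun U => ?_
  rw [ofReal_integral_eq_lintegral_ofReal]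
  · rfl
  · exact integrable_bdd (hmU U) (M := C) fun p => by
      rw [abs_of_nonneg (h0 _)]; exact hC _
  · exact ae_of_all _ fun p => h0 _

/-- the martingale property in finite volume -/
theorem mart_fin (μ : Measure (V → Bool)) [IsProbabilityMeasure μ] (D : Finset V) (v : V) (k : ℕ)
    {r r' : ℝ} (hr : r ≤ r') :
    ∫ q, (mean μ D v (fld q.1 q.2 k r') - mean μ D v (fld q.1 q.2 k r)) ^ 2 ∂(PL μ) =
      ∫ q, mean μ D v (fld q.1 q.2 k r') ^ 2 ∂(PL μ) -
      ∫ q, mean μ D v (fld q.1 q.2 k r) ^ 2 ∂(PL μ) := by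
  have hm : ∀ r : ℝ, Measurable fun q : Om V => mean μ D v (fld q.1 q.2 k r) := fun r =>
    (Vale.Agent.P161.measurable_mean μ D v).comp (PlA.measurable_fldq k r)
  have hb : ∀ (r : ℝ) (q : Om V), |mean μ D v (fld q.1 q.2 k r)| ≤ 1 := fun r q =>
    CovAux.abs_mean_le μ D v _
  have hsq : ∀ (r : ℝ) (q : Om V), mean μ D v (fld q.1 q.2 k r) ^ 2 ≤ 1 := fun r q => by
    rw [← sq_abs]
    exact pow_le_one₀ (abs_nonneg _) (hb r q)
  have hsq2 : ∀ (q : Om V), (mean μ D v (fld q.1 q.2 k r') -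
      mean μ D v (fld q.1 q.2 k r)) ^ 2 ≤ 4 := fun q => by
    have h1 := abs_le.mp (hb r q)
    have h2 := abs_le.mp (hb r' q)
    have : (mean μ D v (fld q.1 q.2 k r') - mean μ D v (fld q.1 q.2 k r)) ^ 2 ≤ 2 ^ 2 :=
      sq_le_sq' (by linarith) (by linarith)
    linarith
  have e1 := integral_PL_nonneg μ (F := fun q => (mean μ D v (fld q.1 q.2 k r') -
    mean μ D v (fld q.1 q.2 k r)) ^ 2) (((hm r').sub (hm r)).pow_const 2)
    (fun q => sq_nonneg _) hsq2
  have e2 : ∀ r : ℝ, ∫ q, mean μ D v (fld q.1 q.2 k r) ^ 2 ∂(PL μ) =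
      ∫ U, ∫ p, mean μ D v (fld U (xU U p) k r) ^ 2 ∂(μ.prod (iid (ℕ × V)))
        ∂(iid (ℕ × V)) := fun r =>
    integral_PL_nonneg μ (F := fun q => mean μ D v (fld q.1 q.2 k r) ^ 2)
      ((hm r).pow_const 2) (fun q => sq_nonneg _) (hsq r)
  rw [e1, e2 r', e2 r, ← integral_sub]
  · refine integral_congr_ae (ae_of_all _ fun U => ?_)
    exact integral_pm_sub_sq μ (Finset.Subset.refl D) U k hr v
  all_goals
    have hJ : Measurable fun q : (ℕ × V → I) × ((V → Bool) × (ℕ × V → I)) =>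
        ((q.1, xU q.1 q.2) : Om V) :=
      measurable_fst.prodMk (measurable_xs (measurable_fst.comp measurable_snd) measurable_fst
        (measurable_snd.comp measurable_snd))
  · refine integrable_bdd ((((hm r').pow_const 2).comp
      hJ).stronglyMeasurable.integral_prod_right' (ν := μ.prod (iid (ℕ × V)))).measurable
      (M := 1) fun U => ?_
    have := norm_integral_le_of_norm_le_const (μ := μ.prod (iid (ℕ × V))) (C := 1)
      (f := fun p => mean μ D v (fld U (xU U p) k r') ^ 2) (ae_of_all _ fun p => by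
        rw [Real.norm_eq_abs, abs_of_nonneg (sq_nonneg _)]; exact hsq r' (U, xU U p))
    simpa using this
  · refine integrable_bdd ((((hm r).pow_const 2).comp
      hJ).stronglyMeasurable.integral_prod_right' (ν := μ.prod (iid (ℕ × V)))).measurable
      (M := 1) fun U => ?_
    have := norm_integral_le_of_norm_le_const (μ := μ.prod (iid (ℕ × V))) (C := 1)
      (f := fun p => mean μ D v (fld U (xU U p) k r) ^ 2) (ae_of_all _ fun p => by
        rw [Real.norm_eq_abs, abs_of_nonneg (sq_nonneg _)]; exact hsq r (U, xU U p))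
    simpa using this

end MartAux

open MartAux

theorem mart_time [Countable V] {b : ℕ} (hb : 2 ≤ b) (T : RTree V b) {θ : ℝ} (hθ : 0 ≤ θ)
    (hθ1 : θ < 1) {μ : Measure (V → Bool)} (hμ : IsFreeIsing T.G θ μ) (k : ℕ) {r r' : ℝ}
    (hr : 0 ≤ r) (hrr : r ≤ r') (hr' : r' ≤ 1 / 2) {u x : V} (h : T.G.Adj u x) :
    ∫ q, (th T μ u x (fld q.1 q.2 k r') - th T μ u x (fld q.1 q.2 k r)) ^ 2 ∂(PL μ) =
      ∫ q, th T μ u x (fld q.1 q.2 k r') ^ 2 ∂(PL μ) -
      ∫ q, th T μ u x (fld q.1 q.2 k r) ^ 2 ∂(PL μ) := by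
  have hp : IsProbabilityMeasure μ := hμ.prob
  have hae : ∀ r : ℝ, ∀ᵐ q ∂(PL μ), Tendsto (fun n => mean μ (T.half u x n) x
      (fld q.1 q.2 k r)) atTop (𝓝 (th T μ u x (fld q.1 q.2 k r))) := by
    intro r
    have h1 := tendsto_th T (PlA.obs_nu k r) (PlA.isPlanted_fld μ k r) u x
    exact ae_of_ae_map (PlA.measurable_fldq k r).aemeasurable h1
  have hm : ∀ (n : ℕ) (r : ℝ), Measurable fun q : Om V =>
      mean μ (T.half u x n) x (fld q.1 q.2 k r) := fun n r =>
    (Vale.Agent.P161.measurable_mean μ _ x).comp (PlA.measurable_fldq k r)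
  have hb' : ∀ (n : ℕ) (r : ℝ) (q : Om V), |mean μ (T.half u x n) x (fld q.1 q.2 k r)| ≤ 1 :=
    fun n r q => CovAux.abs_mean_le μ _ x _
  have l1 : ∀ r : ℝ, Tendsto (fun n => ∫ q, mean μ (T.half u x n) x (fld q.1 q.2 k r) ^ 2
      ∂(PL μ)) atTop (𝓝 (∫ q, th T μ u x (fld q.1 q.2 k r) ^ 2 ∂(PL μ))) := by
    intro r
    refine tendsto_integral_of_dominated_convergence (fun _ => (1 : ℝ))
      (fun n => ((hm n r).pow_const 2).aestronglyMeasurable) (integrable_const _)
      (fun n => ae_of_all _ fun q => ?_) ?_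
    · rw [Real.norm_eq_abs, abs_pow]
      exact pow_le_one₀ (abs_nonneg _) (hb' n r q)
    · filter_upwards [hae r] with q hq
      exact hq.pow 2
  have l2 : Tendsto (fun n => ∫ q, (mean μ (T.half u x n) x (fld q.1 q.2 k r') -
      mean μ (T.half u x n) x (fld q.1 q.2 k r)) ^ 2 ∂(PL μ)) atTop
      (𝓝 (∫ q, (th T μ u x (fld q.1 q.2 k r') - th T μ u x (fld q.1 q.2 k r)) ^ 2
        ∂(PL μ))) := by
    refine tendsto_integral_of_dominated_convergence (fun _ => (4 : ℝ))
      (fun n => (((hm n r').sub (hm n r)).pow_const 2).aestronglyMeasurable)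
      (integrable_const _) (fun n => ae_of_all _ fun q => ?_) ?_
    · rw [Real.norm_eq_abs, abs_of_nonneg (sq_nonneg _)]
      have h1 := abs_le.mp (hb' n r q)
      have h2 := abs_le.mp (hb' n r' q)
      have : (mean μ (T.half u x n) x (fld q.1 q.2 k r') -
          mean μ (T.half u x n) x (fld q.1 q.2 k r)) ^ 2 ≤ 2 ^ 2 :=
        sq_le_sq' (by linarith) (by linarith)
      linarith
    · filter_upwards [hae r, hae r'] with q h1 h2
      exact (h2.sub h1).pow 2
  have l3 := (l1 r').sub (l1 r)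
  refine tendsto_nhds_unique l2 (l3.congr fun n => ?_)
  exact (mart_fin μ (T.half u x n) x k hrr).symm

end Vale.Agent.P161E
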