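import Vale.Agent.P161E.PlantedB

/-!
# The fields at a fixed time are planted
-/

open MeasureTheory Set Filter Topology ProbabilityTheory
open scoped unitInterval ENNReal

namespace Vale.Agent.P161E

open Vale.Agent.P161

universe u

namespace PlA

open LawAux OrthoAux

/-! ### Symmetry and boundedness -/

theorem ell_symm (a : ℝ) (z : I) : ell a (unitInterval.symm z) = -ell a z := by
  unfold ell
  rw [unitInterval.coe_symm_eq]
  have e1 : 1 + a * (1 - 2 * (1 - (z : ℝ))) = 1 - a * (1 - 2 * (z : ℝ)) := by ring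
  have e2 : 1 - a * (1 - 2 * (1 - (z : ℝ))) = 1 + a * (1 - 2 * (z : ℝ)) := by ring
  rw [e1, e2]
  ring

theorem cden_symm (a : ℝ) (z : I) : cden a (unitInterval.symm z) = cden a z := by
  unfold cden
  rw [unitInterval.coe_symm_eq]
  congr 1
  ring

theorem fk_symm (k : ℕ) (r : ℝ) (U x : ℕ × PUnit.{u + 1} → I) :
    fk k r (U, fun j => unitInterval.symm (x j)) = -fk k r (U, x) := by
  unfold fk fld
  simp only [ell_symm]
  rw [Finset.sum_neg_distrib]
  split_ifs
  · ring
  · ring

theorem Gc_symm (k : ℕ) (r : ℝ) (U x : ℕ × PUnit.{u + 1} → I) :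
    Gc k r U (fun j => unitInterval.symm (x j)) = Gc k r U x := by
  unfold Gc
  exact Finset.prod_congr rfl fun j _ => cden_symm _ _

theorem map_symm_iid (ι : Type u) :
    Measure.map (fun (x : ι → I) j => unitInterval.symm (x j)) (iid ι) = iid ι := by
  unfold iid
  have h := Measure.infinitePi_map_pi (fun _ : ι => (volume : Measure I))
    (f := fun _ => unitInterval.symm) (fun _ => unitInterval.measurable_symm)
  rw [h]
  simp_rw [unitInterval.measurePreserving_symm.map_eq]

theorem measurable_symm_iid (ι : Type u) :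
    Measurable (fun (x : ι → I) j => unitInterval.symm (x j)) :=
  measurable_pi_iff.mpr fun j => unitInterval.measurable_symm.comp (measurable_pi_apply j)

theorem map_neg_nu (k : ℕ) (r : ℝ) : Measure.map (fun y : ℝ => -y) (nu.{u} k r) = nu.{u} k r := by
  refine Measure.ext_of_lintegral _ fun F hF => ?_
  rw [lintegral_map hF measurable_neg, lintegral_nu k r hF,
    lintegral_nu k r (F := fun y => F (-y)) (hF.comp measurable_neg)]
  refine lintegral_congr fun U => ?_
  have hm : Measurable fun x : ℕ × PUnit.{u + 1} → I =>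
      F (fk k r (U, x)) * ENNReal.ofReal (Gc k r U x * Real.cosh (fk k r (U, x))) := by
    have h1 : Measurable fun x : ℕ × PUnit.{u + 1} → I => fk k r (U, x) :=
      (measurable_fk k r).comp measurable_prodMk_left
    have h2 : Measurable fun x : ℕ × PUnit.{u + 1} → I => Gc k r U x := by
      unfold Gc
      refine Finset.measurable_fun_prod _ fun j _ => ?_
      unfold cden
      have h3 : Measurable fun x : ℕ × PUnit.{u + 1} → I => ((x j : I) : ℝ) :=
        measurable_subtype_coe.comp (measurable_pi_apply j)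
      exact Real.continuous_sqrt.measurable.comp ((((h3.const_mul 2).const_sub 1).const_mul _
        |>.const_add 1).mul ((((h3.const_mul 2).const_sub 1).const_mul _).const_sub 1))
    exact (hF.comp h1).mul (h2.mul (Real.measurable_cosh.comp h1)).ennreal_ofReal
  conv_rhs => rw [← map_symm_iid (ℕ × PUnit.{u + 1})]
  rw [lintegral_map hm (measurable_symm_iid _)]
  refine lintegral_congr fun x => ?_
  rw [fk_symm, Gc_symm, Real.cosh_neg]

theorem abs_fk_le (k : ℕ) (r : ℝ) (q : Om PUnit.{u + 1}) :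
    |fk k r q| ≤ (k + 1) * (3 / 10) := by
  have h : ∀ j, |ell (str (q.1 j)) (q.2 j)| ≤ 3 / 10 := fun j => by
    obtain ⟨h0, h1⟩ := abs_str_le (q.1 j)
    have := abs_ell_le h0 h1 (q.2 j)
    linarith
  unfold fk fld
  refine (abs_add_le _ _).trans ?_
  have h1 : |∑ i ∈ Finset.range k, ell (str (q.1 (i, PUnit.unit))) (q.2 (i, PUnit.unit))| ≤
      k * (3 / 10) := by
    refine (Finset.abs_sum_le_sum_abs _ _).trans ?_
    refine (Finset.sum_le_sum fun i _ => h (i, PUnit.unit)).trans (le_of_eq ?_)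
    rw [Finset.sum_const, Finset.card_range, nsmul_eq_mul]
  have h2 : |if (q.1 (k, PUnit.unit) : ℝ) < r then
      ell (str (q.1 (k, PUnit.unit))) (q.2 (k, PUnit.unit)) else 0| ≤ 3 / 10 := by
    split_ifs
    · exact h _
    · norm_num
  linarith

theorem obs_nu (k : ℕ) (r : ℝ) : Obs (nu.{u} k r) where
  prob := inferInstance
  symm := map_neg_nu k r
  bdd := by
    refine ⟨(k + 1) * (3 / 10), ?_⟩
    unfold nu
    have hs : MeasurableSet {y : ℝ | |y| ≤ ((k : ℝ) + 1) * (3 / 10)} :=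
      measurableSet_le continuous_abs.measurable measurable_const
    rw [ae_map_iff (measurable_fk k r).aemeasurable hs]
    exact ae_of_all _ fun q => abs_fk_le k r q

/-! ### Information -/

theorem integral_μ0 (F : Bool → ℝ) :
    ∫ τ, F (τ PUnit.unit) ∂μ0.{u} = 1 / 2 * F true + 1 / 2 * F false := by
  have hi : ∀ s : Bool, Integrable (fun τ : PUnit.{u + 1} → Bool => F (τ PUnit.unit))
      ((1 / 2 : ℝ≥0∞) • Measure.dirac (fun _ => s)) := by
    intro s
    refine Integrable.smul_measure ?_ (by simp)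
    exact integrable_dirac (by simp)
  unfold μ0
  rw [integral_add_measure (hi true) (hi false), integral_smul_measure, integral_smul_measure,
    integral_dirac, integral_dirac]
  simp

theorem mean_pt (Y : PUnit.{u + 1} → ℝ) :
    mean μ0 pt PUnit.unit Y = Real.tanh (Y PUnit.unit) := by
  have hw : ∀ τ : PUnit.{u + 1} → Bool, wt pt Y τ =
      Real.exp (Y PUnit.unit * sg (τ PUnit.unit)) := by
    intro τ
    unfold wt pt
    rw [Finset.sum_singleton]
  unfold mean tilt Zf
  simp_rw [hw]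
  rw [integral_μ0 (fun b => sg b * Real.exp (Y PUnit.unit * sg b)),
    integral_μ0 (fun b => Real.exp (Y PUnit.unit * sg b)), Real.tanh_eq_sinh_div_cosh,
    Real.sinh_eq, Real.cosh_eq]
  simp only [sg, if_true, mul_one, one_mul]
  rw [if_neg (by decide)]
  rw [mul_neg, mul_one]
  congr 1
  · ring
  · ring

/-- the information is at least that of the first signal -/
theorem info_ge (k : ℕ) (r : ℝ) (U : ℕ × PUnit.{u + 1} → I)
    (h0 : (0, PUnit.unit) ∈ beforeR U pt k r) :
    str (U (0, PUnit.unit)) ^ 2 * ∫ x, (1 - 2 * (x (0, PUnit.unit) : ℝ)) ^ 2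
        ∂(iid (ℕ × PUnit.{u + 1})) ≤
      ∫ p, Real.tanh (fk k r (U, xU U p)) ^ 2 ∂(μ0.prod (iid (ℕ × PUnit.{u + 1}))) := by
  set j0 : ℕ × PUnit.{u + 1} := (0, PUnit.unit) with hj0
  set c := str (U j0) with hc
  obtain ⟨hc0, hc1⟩ := abs_str_le (U j0)
  set φ : (ℕ × PUnit.{u + 1} → I) → ℝ := fun x => c * (1 - 2 * (x j0 : ℝ)) with hφ
  have hcm : Measurable fun x : ℕ × PUnit.{u + 1} → I => ((x j0 : I) : ℝ) :=
    measurable_subtype_coe.comp (measurable_pi_apply j0)
  have hφm : Measurable φ := ((hcm.const_mul 2).const_sub 1).const_mul c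
  have hφb : ∀ x, |φ x| ≤ 1 := fun x => (abs_aux hc0 hc1 (x j0)).trans (by norm_num)
  have hφd : DependsOn φ (beforeR U pt k r : Set (ℕ × PUnit.{u + 1})) := by
    intro x x' h
    simp only [hφ]
    rw [h j0 (Finset.mem_coe.mpr h0)]
  have h1 := ortho μ0 pt U k r PUnit.unit hφm hφb hφd
  set B := c ^ 2 * ∫ x, (1 - 2 * (x j0 : ℝ)) ^ 2 ∂(iid (ℕ × PUnit.{u + 1})) with hB
  have hBx : B = ∫ x, (c * (1 - 2 * (x j0 : ℝ))) ^ 2 ∂(iid (ℕ × PUnit.{u + 1})) := by
    rw [hB, ← integral_const_mul]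
    refine integral_congr_ae (ae_of_all _ fun x => ?_)
    simp only
    ring
  -- the two integrals over the configuration and the signals
  have h2 : ∫ p, sg (p.1 PUnit.unit) * φ (xU U p) ∂(μ0.prod (iid (ℕ × PUnit.{u + 1}))) = B := by
    rw [OrthoAux.integral_PP μ0 U {j0} (G := fun τ x => sg (τ PUnit.unit) * φ x)
      ((measurable_sg.comp ((measurable_pi_apply _).comp measurable_fst)).mul
        (hφm.comp measurable_snd)) (M := 1) (fun τ x => by
          rw [abs_mul, abs_sg, one_mul]; exact hφb x)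
      (fun τ x x' h => by
        simp only [hφ]
        rw [h j0 (Finset.mem_coe.mpr (Finset.mem_singleton_self _))]), hBx]
    refine integral_congr_ae (ae_of_all _ fun x => ?_)
    simp only [Finset.prod_singleton]
    rw [integral_μ0 (fun b => sg b * φ x * dens (str (U j0)) b (x j0))]
    simp only [dens, sg, if_true, hφ, ← hc]
    rw [if_neg (by decide)]
    ring
  have h3 : ∫ p, φ (xU U p) ^ 2 ∂(μ0.prod (iid (ℕ × PUnit.{u + 1}))) = B := by
    rw [OrthoAux.integral_PP μ0 U {j0} (G := fun _ x => φ x ^ 2)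
      ((hφm.comp measurable_snd).pow_const 2) (M := 1) (fun τ x => by
          rw [abs_pow]; exact pow_le_one₀ (abs_nonneg _) (hφb x))
      (fun τ x x' h => by
        simp only [hφ]
        rw [h j0 (Finset.mem_coe.mpr (Finset.mem_singleton_self _))]), hBx]
    refine integral_congr_ae (ae_of_all _ fun x => ?_)
    simp only [Finset.prod_singleton]
    rw [integral_μ0 (fun b => φ x ^ 2 * dens (str (U j0)) b (x j0))]
    simp only [dens, sg, if_true, hφ, ← hc]
    rw [if_neg (by decide)]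
    ring
  have hT : ∀ p : (PUnit.{u + 1} → Bool) × (ℕ × PUnit.{u + 1} → I),
      pm μ0 pt U k r PUnit.unit (xU U p) = Real.tanh (fk k r (U, xU U p)) := fun p => by
    unfold OrthoAux.pm
    rw [mean_pt]
    rfl
  have hmt : Measurable fun p : (PUnit.{u + 1} → Bool) × (ℕ × PUnit.{u + 1} → I) =>
      Real.tanh (fk k r (U, xU U p)) := by
    simp_rw [← hT]
    exact (OrthoAux.measurable_pm μ0 pt U k r PUnit.unit).comp (measurable_xU U)
  have hbt : ∀ p : (PUnit.{u + 1} → Bool) × (ℕ × PUnit.{u + 1} → I),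
      |Real.tanh (fk k r (U, xU U p))| ≤ 1 := fun p =>
    (abs_lt.mpr ⟨Real.neg_one_lt_tanh _, Real.tanh_lt_one _⟩).le
  have hmφ : Measurable fun p : (PUnit.{u + 1} → Bool) × (ℕ × PUnit.{u + 1} → I) =>
      φ (xU U p) := hφm.comp (measurable_xU U)
  simp_rw [hT] at h1
  rw [h2] at h1
  have i1 : Integrable (fun p : (PUnit.{u + 1} → Bool) × (ℕ × PUnit.{u + 1} → I) =>
      Real.tanh (fk k r (U, xU U p)) ^ 2) (μ0.prod (iid (ℕ × PUnit.{u + 1}))) :=
    integrable_bdd (hmt.pow_const 2) (M := 1) fun p => by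
      rw [abs_pow]; exact pow_le_one₀ (abs_nonneg _) (hbt p)
  have i2 : Integrable (fun p : (PUnit.{u + 1} → Bool) × (ℕ × PUnit.{u + 1} → I) =>
      Real.tanh (fk k r (U, xU U p)) * φ (xU U p)) (μ0.prod (iid (ℕ × PUnit.{u + 1}))) :=
    integrable_bdd (hmt.mul hmφ) (M := 1) fun p => by
      rw [abs_mul]; exact mul_le_one₀ (hbt p) (abs_nonneg _) (hφb _)
  have i3 : Integrable (fun p : (PUnit.{u + 1} → Bool) × (ℕ × PUnit.{u + 1} → I) =>
      φ (xU U p) ^ 2) (μ0.prod (iid (ℕ × PUnit.{u + 1}))) :=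
    integrable_bdd (hmφ.pow_const 2) (M := 1) fun p => by
      rw [abs_pow]; exact pow_le_one₀ (abs_nonneg _) (hφb _)
  have h4 : ∫ p, (2 * (Real.tanh (fk k r (U, xU U p)) * φ (xU U p)) - φ (xU U p) ^ 2)
      ∂(μ0.prod (iid (ℕ × PUnit.{u + 1}))) ≤
      ∫ p, Real.tanh (fk k r (U, xU U p)) ^ 2 ∂(μ0.prod (iid (ℕ × PUnit.{u + 1}))) := by
    refine integral_mono ((i2.const_mul 2).sub i3) i1 fun p => ?_
    simp only
    nlinarith [sq_nonneg (Real.tanh (fk k r (U, xU U p)) - φ (xU U p))]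
  rw [integral_sub (i2.const_mul 2) i3, integral_const_mul, ← h1, h3] at h4
  linarith

theorem integral_xi_sq : ∫ z : I, (1 - 2 * (z : ℝ)) ^ 2 = 1 / 3 := by
  have h : ∫ z : I, (1 - 2 * (z : ℝ)) ^ 2 = ∫ t in (0 : ℝ)..1, (1 - 2 * t) ^ 2 := by
    rw [intervalIntegral.integral_of_le zero_le_one, ← integral_Icc_eq_integral_Ioc]
    exact (integral_subtype_comap measurableSet_Icc (fun t : ℝ => (1 - 2 * t) ^ 2))
  rw [h]
  have h2 : ∀ t ∈ uIcc (0 : ℝ) 1, HasDerivAt (fun t : ℝ => t - 2 * t ^ 2 + 4 / 3 * t ^ 3)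
      ((1 - 2 * t) ^ 2) t := by
    intro t _
    have h3 := ((hasDerivAt_id t).sub ((hasDerivAt_pow 2 t).const_mul 2)).add
      ((hasDerivAt_pow 3 t).const_mul (4 / 3))
    refine h3.congr_deriv ?_
    simp
    ring
  rw [intervalIntegral.integral_eq_sub_of_hasDerivAt h2
    (Continuous.intervalIntegrable (by fun_prop) _ _)]
  norm_num

theorem integral_coord (ι : Type u) (j : ι) {f : I → ℝ} (hf : Measurable f) :
    ∫ x, f (x j) ∂(iid ι) = ∫ z : I, f z := by
  have h := measurePreserving_eval_infinitePi (fun _ : ι => (volume : Measure I)) j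
  have h2 : ∫ z : I, f z = ∫ x, f (x j) ∂(iid ι) := by
    conv_lhs => rw [← h.map_eq]
    rw [integral_map h.measurable.aemeasurable hf.aestronglyMeasurable]
    rfl
  exact h2.symm

/-- the information of the field is the mean of `tanh²` -/
theorem qq_nu (k : ℕ) (r : ℝ) : qq (nu.{u} k r) =
    ∫ U, ∫ p, Real.tanh (fk k r (U, xU U p)) ^ 2 ∂(μ0.prod (iid (ℕ × PUnit.{u + 1})))
      ∂(iid (ℕ × PUnit.{u + 1})) := by
  have htm : Measurable fun y : ℝ => Real.tanh y ^ 2 := measurable_tanh'.pow_const 2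
  have h0 : ∀ y : ℝ, 0 ≤ Real.tanh y ^ 2 := fun y => sq_nonneg _
  have hb : ∀ y : ℝ, Real.tanh y ^ 2 ≤ 1 := fun y => by
    rw [← sq_abs]
    exact pow_le_one₀ (abs_nonneg _) (abs_lt.mpr ⟨Real.neg_one_lt_tanh y,
      Real.tanh_lt_one y⟩).le
  have hmU : ∀ U : ℕ × PUnit.{u + 1} → I, Measurable fun p :
      (PUnit.{u + 1} → Bool) × (ℕ × PUnit.{u + 1} → I) =>
      Real.tanh (fk k r (U, xU U p)) ^ 2 := fun U =>
    htm.comp ((measurable_fk k r).comp (measurable_const.prodMk (measurable_xU U)))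
  have hmJ : Measurable fun q : (ℕ × PUnit.{u + 1} → I) ×
      ((PUnit.{u + 1} → Bool) × (ℕ × PUnit.{u + 1} → I)) =>
      Real.tanh (fk k r (q.1, xU q.1 q.2)) ^ 2 := by
    refine htm.comp ((measurable_fk k r).comp (measurable_fst.prodMk ?_))
    exact measurable_xs (measurable_fst.comp measurable_snd) measurable_fst
      (measurable_snd.comp measurable_snd)
  unfold qq
  rw [integral_eq_lintegral_of_nonneg_ae (ae_of_all _ h0) htm.aestronglyMeasurable]
  have e1 : ∫⁻ y, ENNReal.ofReal (Real.tanh y ^ 2) ∂(nu.{u} k r) =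
      ∫⁻ q, ENNReal.ofReal (Real.tanh (fk k r q) ^ 2) ∂(PL μ0) := by
    unfold nu
    exact lintegral_map htm.ennreal_ofReal (measurable_fk k r)
  rw [e1, lintegral_PL μ0 (F := fun q => ENNReal.ofReal (Real.tanh (fk k r q) ^ 2))
    (htm.comp (measurable_fk k r)).ennreal_ofReal,
    integral_eq_lintegral_of_nonneg_ae (ae_of_all _ fun U => integral_nonneg fun p => h0 _)
      (hmJ.stronglyMeasurable.integral_prod_right'
        (ν := μ0.prod (iid (ℕ × PUnit.{u + 1})))).aestronglyMeasurable]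
  congr 1
  refine lintegral_congr fun U => ?_
  rw [ofReal_integral_eq_lintegral_ofReal]
  · rfl
  · exact integrable_bdd (hmU U) (M := 1) fun p => by
      rw [abs_of_nonneg (h0 _)]; exact hb _
  · exact ae_of_all _ fun p => h0 _

theorem qq_ge (k : ℕ) {r ρ : ℝ} (hρ0 : 0 ≤ ρ) (hρ : ρ ≤ 1 / 2) (h : 0 < k ∨ ρ ≤ r) :
    ρ ^ 2 / 150 ≤ qq (nu.{u} k r) := by
  rw [qq_nu]
  set j0 : ℕ × PUnit.{u + 1} := (0, PUnit.unit) with hj0
  set f : I → ℝ := fun a => if (a : ℝ) < ρ then str a ^ 2 * (1 / 3) else 0 with hf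
  have hfm : Measurable f := Measurable.ite (measurableSet_lt measurable_subtype_coe
    measurable_const) ((measurable_str.pow_const 2).mul_const _) measurable_const
  have hx : ∫ x, (1 - 2 * (x j0 : ℝ)) ^ 2 ∂(iid (ℕ × PUnit.{u + 1})) = 1 / 3 := by
    rw [integral_coord _ j0 (f := fun z : I => (1 - 2 * (z : ℝ)) ^ 2) (by fun_prop)]
    exact integral_xi_sq
  have hle : ∀ U : ℕ × PUnit.{u + 1} → I, f (U j0) ≤
      ∫ p, Real.tanh (fk k r (U, xU U p)) ^ 2 ∂(μ0.prod (iid (ℕ × PUnit.{u + 1}))) := by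
    intro U
    simp only [hf]
    split_ifs with hU
    · have h0 : j0 ∈ beforeR U pt k r := by
        rw [mem_beforeR]
        refine ⟨Finset.mem_singleton_self _, ?_⟩
        rcases Nat.eq_zero_or_pos k with hk | hk
        · right
          refine ⟨hk.symm, hU.trans_le ?_⟩
          rcases h with h | h
          · omega
          · exact h
        · exact Or.inl hk
      have := info_ge k r U h0
      rw [hx] at this
      exact this
    · exact integral_nonneg fun p => sq_nonneg _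
  have hmJ : Measurable fun q : (ℕ × PUnit.{u + 1} → I) ×
      ((PUnit.{u + 1} → Bool) × (ℕ × PUnit.{u + 1} → I)) =>
      Real.tanh (fk k r (q.1, xU q.1 q.2)) ^ 2 := by
    refine (measurable_tanh'.pow_const 2).comp ((measurable_fk k r).comp
      (measurable_fst.prodMk ?_))
    exact measurable_xs (measurable_fst.comp measurable_snd) measurable_fst
      (measurable_snd.comp measurable_snd)
  have hb : ∀ y : ℝ, Real.tanh y ^ 2 ≤ 1 := fun y => by
    rw [← sq_abs]
    exact pow_le_one₀ (abs_nonneg _) (abs_lt.mpr ⟨Real.neg_one_lt_tanh y,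
      Real.tanh_lt_one y⟩).le
  have hbJ : ∀ U : ℕ × PUnit.{u + 1} → I,
      |∫ p, Real.tanh (fk k r (U, xU U p)) ^ 2 ∂(μ0.prod (iid (ℕ × PUnit.{u + 1})))| ≤ 1 := by
    intro U
    have := norm_integral_le_of_norm_le_const (μ := μ0.prod (iid (ℕ × PUnit.{u + 1}))) (C := 1)
      (f := fun p => Real.tanh (fk k r (U, xU U p)) ^ 2) (ae_of_all _ fun p => by
        rw [Real.norm_eq_abs, abs_of_nonneg (sq_nonneg _)]; exact hb _)
    simpa using this
  have hfb : ∀ a, |f a| ≤ 1 := by
    intro a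
    simp only [hf]
    split_ifs
    · have := str_sq_le a
      have h2 := a.2.2
      rw [abs_of_nonneg (by positivity)]
      linarith
    · simp
  calc ρ ^ 2 / 150 = ∫ a : I, f a := by
        have e0 : ∀ a : I, f a = (Iio ρ).indicator (fun t : ℝ => t / 75) (a : ℝ) := by
          intro a
          simp only [hf]
          by_cases ha : (a : ℝ) < ρ
          · rw [if_pos ha, Set.indicator_of_mem (show (a : ℝ) ∈ Iio ρ from ha)]
            unfold str
            rw [if_pos (ha.trans_le hρ), mul_pow, Real.sq_sqrt a.2.1]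
            ring
          · rw [if_neg ha, Set.indicator_of_notMem (show (a : ℝ) ∉ Iio ρ from ha)]
        rw [integral_congr_ae (ae_of_all _ e0)]
        have e1 : ∫ a : I, (Iio ρ).indicator (fun t : ℝ => t / 75) (a : ℝ) =
            ∫ t in Icc (0 : ℝ) 1, (Iio ρ).indicator (fun t : ℝ => t / 75) t :=
          integral_subtype_comap measurableSet_Icc _
        rw [e1, integral_indicator measurableSet_Iio,
          Measure.restrict_restrict measurableSet_Iio]
        have e2 : Iio ρ ∩ Icc (0 : ℝ) 1 = Ico 0 ρ := by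
          ext t
          simp only [Set.mem_inter_iff, Set.mem_Iio, Set.mem_Icc, Set.mem_Ico]
          constructor
          · rintro ⟨h1, h2, _⟩; exact ⟨h2, h1⟩
          · rintro ⟨h1, h2⟩; exact ⟨h2, h1, by linarith⟩
        rw [e2, integral_Ico_eq_integral_Ioc, ← intervalIntegral.integral_of_le hρ0,
          intervalIntegral.integral_div, integral_id]
        ring
    _ = ∫ U, f (U j0) ∂(iid (ℕ × PUnit.{u + 1})) := (integral_coord _ j0 hfm).symm
    _ ≤ _ := by
        refine integral_mono ?_ ?_ hle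
        · exact integrable_bdd (hfm.comp (measurable_pi_apply j0)) (M := 1) fun U => hfb _
        · exact integrable_bdd (hmJ.stronglyMeasurable.integral_prod_right'
            (ν := μ0.prod (iid (ℕ × PUnit.{u + 1})))).measurable (M := 1) hbJ

/-! ### The first round -/

theorem fk_zero (r : ℝ) (q : Om PUnit.{u + 1}) : fk 0 r q =
    if (q.1 (0, PUnit.unit) : ℝ) < r then
      ell (str (q.1 (0, PUnit.unit))) (q.2 (0, PUnit.unit)) else 0 := by
  unfold fk fld
  simp

theorem abs_fk_zero {r : ℝ} (q : Om PUnit.{u + 1}) : |fk 0 r q| ≤ Real.sqrt r := by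
  rw [fk_zero]
  split_ifs with h
  · obtain ⟨h0, h1⟩ := abs_str_le (q.1 (0, PUnit.unit))
    refine (abs_ell_le h0 h1 _).trans ?_
    have h2 : str (q.1 (0, PUnit.unit)) ≤ 1 / 5 * Real.sqrt r := by
      unfold str
      split_ifs
      · gcongr
      · positivity
    have := Real.sqrt_nonneg r
    linarith
  · rw [abs_zero]; exact Real.sqrt_nonneg r

theorem nu_zero_bdd (r : ℝ) : ∀ᵐ y ∂(nu.{u} 0 r), |y| ≤ Real.sqrt r := by
  unfold nu
  have hs : MeasurableSet {y : ℝ | |y| ≤ Real.sqrt r} :=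
    measurableSet_le continuous_abs.measurable measurable_const
  rw [ae_map_iff (measurable_fk 0 r).aemeasurable hs]
  exact ae_of_all _ fun q => abs_fk_zero q

theorem nu_zero_ne {r : ℝ} (hr0 : 0 ≤ r) (hr : r ≤ 1 / 2) :
    nu.{u} 0 r {y | y ≠ 0} ≤ ENNReal.ofReal r := by
  set j0 : ℕ × PUnit.{u + 1} := (0, PUnit.unit) with hj0
  have hs : MeasurableSet {y : ℝ | y ≠ 0} := (measurableSet_singleton (0 : ℝ)).compl
  unfold nu
  rw [Measure.map_apply (measurable_fk 0 r) hs]
  have hsub : fk 0 r ⁻¹' {y : ℝ | y ≠ 0} ⊆ {q : Om PUnit.{u + 1} | (q.1 j0 : ℝ) < r} := by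
    intro q hq
    by_contra hn
    apply hq
    rw [fk_zero]
    exact if_neg hn
  have hms : MeasurableSet {q : Om PUnit.{u + 1} | (q.1 j0 : ℝ) < r} :=
    measurableSet_lt (measurable_subtype_coe.comp ((measurable_pi_apply j0).comp
      measurable_fst)) measurable_const
  have hmU : MeasurableSet {U : ℕ × PUnit.{u + 1} → I | (U j0 : ℝ) < r} :=
    measurableSet_lt (measurable_subtype_coe.comp (measurable_pi_apply j0)) measurable_const
  refine (measure_mono hsub).trans (le_of_eq ?_)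
  rw [← lintegral_indicator_one hms, lintegral_PL μ0 (measurable_one.indicator hms)]
  have e : ∀ U : ℕ × PUnit.{u + 1} → I, ∫⁻ p : (PUnit.{u + 1} → Bool) ×
      (ℕ × PUnit.{u + 1} → I), ({q : Om PUnit.{u + 1} | (q.1 j0 : ℝ) < r}.indicator 1
        (U, xs (p.1, (U, p.2))) : ℝ≥0∞) ∂(μ0.prod (iid (ℕ × PUnit.{u + 1}))) =
      {U : ℕ × PUnit.{u + 1} → I | (U j0 : ℝ) < r}.indicator 1 U := by
    intro U
    by_cases hU : (U j0 : ℝ) < r
    · rw [Set.indicator_of_mem (show U ∈ {U : ℕ × PUnit.{u + 1} → I | (U j0 : ℝ) < r} from hU)]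
      have : ∀ p : (PUnit.{u + 1} → Bool) × (ℕ × PUnit.{u + 1} → I),
          ({q : Om PUnit.{u + 1} | (q.1 j0 : ℝ) < r}.indicator 1
            (U, xs (p.1, (U, p.2))) : ℝ≥0∞) = 1 := fun p =>
        Set.indicator_of_mem (show (U, xs (p.1, (U, p.2))) ∈
          {q : Om PUnit.{u + 1} | (q.1 j0 : ℝ) < r} from hU) _
      simp_rw [this]
      simp
    · rw [Set.indicator_of_notMem
        (show U ∉ {U : ℕ × PUnit.{u + 1} → I | (U j0 : ℝ) < r} from hU)]
      have : ∀ p : (PUnit.{u + 1} → Bool) × (ℕ × PUnit.{u + 1} → I),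
          ({q : Om PUnit.{u + 1} | (q.1 j0 : ℝ) < r}.indicator 1
            (U, xs (p.1, (U, p.2))) : ℝ≥0∞) = 0 := fun p =>
        Set.indicator_of_notMem (show (U, xs (p.1, (U, p.2))) ∉
          {q : Om PUnit.{u + 1} | (q.1 j0 : ℝ) < r} from hU) _
      simp_rw [this]
      simp
  simp_rw [e]
  rw [lintegral_indicator_one hmU]
  have h := measurePreserving_eval_infinitePi
    (fun _ : ℕ × PUnit.{u + 1} => (volume : Measure I)) j0
  have hI : MeasurableSet {a : I | (a : ℝ) < r} :=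
    measurableSet_lt measurable_subtype_coe measurable_const
  have h2 : iid (ℕ × PUnit.{u + 1}) {U | (U j0 : ℝ) < r} = volume {a : I | (a : ℝ) < r} :=
    h.measure_preimage hI.nullMeasurableSet
  rw [h2]
  set r' : I := ⟨r, hr0, by linarith⟩ with hr'
  have h3 : {a : I | (a : ℝ) < r} = Iio r' := rfl
  rw [h3, unitInterval.volume_Iio]

end PlA

open PlA

/-- The fields at a fixed time are planted. -/
theorem planted_fld {V : Type u} {μ : Measure (V → Bool)} [IsProbabilityMeasure μ] (k : ℕ)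
    {r : ℝ} (hr0 : 0 ≤ r) (hr : r ≤ 1 / 2) :
    ∃ ν : Measure ℝ, Obs ν ∧
      IsPlanted μ ν (Measure.map (fun q : Om V => fld q.1 q.2 k r) (PL μ)) ∧
      (k = 0 → r ^ 2 ≤ 4000 * qq ν ∧ ν {y | y ≠ 0} ≤ ENNReal.ofReal r ∧
        ∀ᵐ y ∂ν, |y| ≤ Real.sqrt r) ∧
      (0 < k → 1 / 4 ≤ 4000 * qq ν) := by
  refine ⟨nu.{u} k r, obs_nu k r, isPlanted_fld μ k r, ?_, ?_⟩
  · rintro rfl
    refine ⟨?_, nu_zero_ne hr0 hr, nu_zero_bdd r⟩
    have := qq_ge.{u} 0 hr0 hr (Or.inr (le_refl r))
    nlinarith [sq_nonneg r]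
  · intro hk
    have := qq_ge.{u} k (r := r) (ρ := 1 / 2) (by norm_num) le_rfl (Or.inl hk)
    linarith

end Vale.Agent.P161E
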