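import Vale.Agent.P161E.Equi

/-!
# The pair inequality: real analysis at one edge
-/

open MeasureTheory Set Filter Topology
open scoped unitInterval ENNReal

namespace Vale.Agent.P161E

open Vale.Agent.P161

universe u

namespace PR

theorem sq_half {b : ℕ} (hb : 2 ≤ b) {θ : ℝ} (hθ : b * θ ^ 2 ≤ 1) : θ ^ 2 ≤ 1 / 2 := by
  have hb' : (2 : ℝ) ≤ b := by exact_mod_cast hb
  nlinarith [sq_nonneg θ]

theorem sq_le_one' {t : ℝ} (ht : |t| ≤ 1) : t ^ 2 ≤ 1 := (sq_le_one_iff_abs_le_one t).mpr ht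

theorem two_sq (x y : ℝ) : (x + y) ^ 2 ≤ 2 * (x ^ 2 + y ^ 2) := by
  nlinarith [sq_nonneg (x - y)]

theorem den {θ t : ℝ} (hθ : θ ^ 2 ≤ 1 / 2) (ht : |t| ≤ 1) : 1 / 2 ≤ 1 - θ ^ 2 * t ^ 2 := by
  have := sq_le_one' ht
  nlinarith [sq_nonneg θ, sq_nonneg t]

theorem af_mem {θ t : ℝ} (hθ : θ ^ 2 ≤ 1 / 2) (ht : |t| ≤ 1) : 0 ≤ af θ t ∧ af θ t ≤ 1 := by
  have h1 := sq_le_one' ht
  have h2 := den hθ ht
  unfold af
  constructor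
  · exact div_nonneg (by linarith) (by linarith)
  · rw [div_le_one (by linarith)]
    nlinarith [sq_nonneg θ, sq_nonneg t]

theorem be_mem {b : ℕ} (hb : 2 ≤ b) {θ t : ℝ} (hθ0 : 0 ≤ θ) (hθ : b * θ ^ 2 ≤ 1)
    (ht : |t| ≤ 1) : 0 ≤ be b θ t ∧ be b θ t ≤ 1 := by
  have h1 := af_mem (sq_half hb hθ) ht
  have h2 : (Real.sqrt b * θ) ^ 2 ≤ 1 := by
    rw [mul_pow, Real.sq_sqrt (Nat.cast_nonneg b)]
    exact hθ
  have h3 : 0 ≤ Real.sqrt b * θ := mul_nonneg (Real.sqrt_nonneg _) hθ0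
  have h4 : Real.sqrt b * θ ≤ 1 := by nlinarith
  unfold be
  exact ⟨mul_nonneg h3 h1.1, mul_le_one₀ h4 h1.1 h1.2⟩

theorem be_lip {b : ℕ} (hb : 2 ≤ b) {θ θ' t t' : ℝ} (hθ : b * θ ^ 2 ≤ 1)
    (hθ' : b * θ' ^ 2 ≤ 1) (ht : |t| ≤ 1) (ht' : |t'| ≤ 1) :
    (be b θ t - be b θ' t') ^ 2 ≤
      (2 * b + 128) * ((θ - θ') ^ 2 + (t ^ 2 + t' ^ 2) * (t - t') ^ 2) := by
  have h1 := sq_half hb hθ
  have h1' := sq_half hb hθ'
  have h2 := den h1 ht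
  have h2' := den h1' ht'
  have h3 := af_mem h1 ht
  have q1 := sq_le_one' ht
  have q1' := sq_le_one' ht'
  have hsub : af θ t - af θ' t' =
      ((t' ^ 2 - t ^ 2) * (1 - θ ^ 2) + (θ ^ 2 - θ' ^ 2) * (t' ^ 2 * (1 - t ^ 2))) /
        ((1 - θ ^ 2 * t ^ 2) * (1 - θ' ^ 2 * t' ^ 2)) := by
    unfold af
    have e1 : 1 - θ ^ 2 * t ^ 2 ≠ 0 := by linarith
    have e2 : 1 - θ' ^ 2 * t' ^ 2 ≠ 0 := by linarith
    rw [div_sub_div _ _ e1 e2]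
    congr 1
    ring
  have hden : 1 / 16 ≤ ((1 - θ ^ 2 * t ^ 2) * (1 - θ' ^ 2 * t' ^ 2)) ^ 2 := by
    have : 1 / 4 ≤ (1 - θ ^ 2 * t ^ 2) * (1 - θ' ^ 2 * t' ^ 2) := by nlinarith
    nlinarith
  have hnum : ((t' ^ 2 - t ^ 2) * (1 - θ ^ 2) +
      (θ ^ 2 - θ' ^ 2) * (t' ^ 2 * (1 - t ^ 2))) ^ 2 ≤
      4 * ((θ - θ') ^ 2 + (t ^ 2 + t' ^ 2) * (t - t') ^ 2) := by
    have a1 : ((t' ^ 2 - t ^ 2) * (1 - θ ^ 2)) ^ 2 ≤ 2 * (t ^ 2 + t' ^ 2) * (t - t') ^ 2 := by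
      have e : ((t' ^ 2 - t ^ 2) * (1 - θ ^ 2)) ^ 2 =
          ((t + t') ^ 2 * (t - t') ^ 2) * (1 - θ ^ 2) ^ 2 := by ring
      have e2 : (1 - θ ^ 2) ^ 2 ≤ 1 := by nlinarith [sq_nonneg θ]
      have e3 : (t + t') ^ 2 ≤ 2 * (t ^ 2 + t' ^ 2) := by nlinarith [sq_nonneg (t - t')]
      rw [e]
      calc ((t + t') ^ 2 * (t - t') ^ 2) * (1 - θ ^ 2) ^ 2
          ≤ ((t + t') ^ 2 * (t - t') ^ 2) * 1 := by gcongr
        _ ≤ (2 * (t ^ 2 + t' ^ 2) * (t - t') ^ 2) * 1 := by gcongr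
        _ = _ := by ring
    have a2 : ((θ ^ 2 - θ' ^ 2) * (t' ^ 2 * (1 - t ^ 2))) ^ 2 ≤ 2 * (θ - θ') ^ 2 := by
      have e : ((θ ^ 2 - θ' ^ 2) * (t' ^ 2 * (1 - t ^ 2))) ^ 2 =
          ((θ + θ') ^ 2 * (θ - θ') ^ 2) * (t' ^ 2 * (1 - t ^ 2)) ^ 2 := by ring
      have e0 : 0 ≤ t' ^ 2 * (1 - t ^ 2) := mul_nonneg (sq_nonneg _) (by linarith)
      have e1 : t' ^ 2 * (1 - t ^ 2) ≤ 1 :=
        mul_le_one₀ q1' (by linarith) (by nlinarith [sq_nonneg t])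
      have e2 : (t' ^ 2 * (1 - t ^ 2)) ^ 2 ≤ 1 := pow_le_one₀ e0 e1
      have e3 : (θ + θ') ^ 2 ≤ 2 := by nlinarith [sq_nonneg (θ - θ')]
      rw [e]
      calc ((θ + θ') ^ 2 * (θ - θ') ^ 2) * (t' ^ 2 * (1 - t ^ 2)) ^ 2
          ≤ ((θ + θ') ^ 2 * (θ - θ') ^ 2) * 1 := by gcongr
        _ ≤ (2 * (θ - θ') ^ 2) * 1 := by gcongr
        _ = _ := by ring
    refine (two_sq _ _).trans ?_
    calc _ ≤ 2 * (2 * (t ^ 2 + t' ^ 2) * (t - t') ^ 2 + 2 * (θ - θ') ^ 2) := by gcongr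
      _ = _ := by ring
  have haf : (af θ t - af θ' t') ^ 2 ≤
      64 * ((θ - θ') ^ 2 + (t ^ 2 + t' ^ 2) * (t - t') ^ 2) := by
    rw [hsub, div_pow, div_le_iff₀ (by positivity)]
    have h0 : 0 ≤ (θ - θ') ^ 2 + (t ^ 2 + t' ^ 2) * (t - t') ^ 2 := by positivity
    calc _ ≤ 4 * ((θ - θ') ^ 2 + (t ^ 2 + t' ^ 2) * (t - t') ^ 2) := hnum
      _ = 64 * ((θ - θ') ^ 2 + (t ^ 2 + t' ^ 2) * (t - t') ^ 2) * (1 / 16) := by ring
      _ ≤ _ := mul_le_mul_of_nonneg_left hden (by positivity)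
  have hbe : be b θ t - be b θ' t' = Real.sqrt b * ((θ - θ') * af θ t) +
      Real.sqrt b * (θ' * (af θ t - af θ' t')) := by
    unfold be
    ring
  have hs : Real.sqrt b ^ 2 = b := Real.sq_sqrt (Nat.cast_nonneg b)
  have c1 : (Real.sqrt b * ((θ - θ') * af θ t)) ^ 2 ≤ b * (θ - θ') ^ 2 := by
    rw [mul_pow, hs, mul_pow]
    have : af θ t ^ 2 ≤ 1 := pow_le_one₀ h3.1 h3.2
    have hb0 : (0 : ℝ) ≤ b := Nat.cast_nonneg b
    calc (b : ℝ) * ((θ - θ') ^ 2 * af θ t ^ 2) ≤ b * ((θ - θ') ^ 2 * 1) := by gcongr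
      _ = _ := by ring
  have c2 : (Real.sqrt b * (θ' * (af θ t - af θ' t'))) ^ 2 ≤
      64 * ((θ - θ') ^ 2 + (t ^ 2 + t' ^ 2) * (t - t') ^ 2) := by
    have e : (Real.sqrt b * (θ' * (af θ t - af θ' t'))) ^ 2 =
        (b * θ' ^ 2) * (af θ t - af θ' t') ^ 2 := by
      rw [mul_pow, hs]; ring
    rw [e]
    calc (b * θ' ^ 2) * (af θ t - af θ' t') ^ 2 ≤ 1 * (af θ t - af θ' t') ^ 2 := by gcongr
      _ ≤ _ := by rw [one_mul]; exact haf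
  rw [hbe]
  refine (two_sq _ _).trans ?_
  have h0 : 0 ≤ (t ^ 2 + t' ^ 2) * (t - t') ^ 2 := by positivity
  have hb0 : (0 : ℝ) ≤ b := Nat.cast_nonneg b
  calc _ ≤ 2 * (b * (θ - θ') ^ 2 +
        64 * ((θ - θ') ^ 2 + (t ^ 2 + t' ^ 2) * (t - t') ^ 2)) := by gcongr
    _ ≤ 2 * (b * ((θ - θ') ^ 2 + (t ^ 2 + t' ^ 2) * (t - t') ^ 2) +
        64 * ((θ - θ') ^ 2 + (t ^ 2 + t' ^ 2) * (t - t') ^ 2)) := by
      gcongr
      linarith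
    _ = _ := by ring

/-- one edge: a weighted second moment of the difference, by truncation -/
theorem gen {Ω : Type*} [MeasurableSpace Ω] {P : Measure Ω} [IsProbabilityMeasure P]
    {K ρ p C2 Θ w₀ B : ℝ} (hK : 1 ≤ K) (hC : 0 ≤ C2) (hΘ : 0 ≤ Θ) (hρ : 0 < ρ) (hp : 0 < p)
    (hw₀ : 0 ≤ w₀) (hB : 0 < B)
    {t t' δ W : Ω → ℝ} (mt : Measurable t) (mt' : Measurable t')
    (mδ : Measurable δ) (mW : Measurable W)
    (ht : ∀ ω, |t ω| ≤ 1) (ht' : ∀ ω, |t' ω| ≤ 1) (hδ1 : ∀ ω, δ ω ^ 2 ≤ 1)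
    (hδ : ∀ ω, δ ω ^ 2 ≤ C2 * (Θ + (t ω ^ 2 + t' ω ^ 2) * (t ω - t' ω) ^ 2))
    (hW0 : ∀ ω, 0 ≤ W ω) (hW2 : Integrable (fun ω => W ω ^ 2) P)
    (hWB : ∫ ω, W ω ^ 2 ∂P ≤ B ^ 2)
    {A : Set Ω} (mA : MeasurableSet A) (hA : P.real A ≤ 4 * K * Real.exp (-p))
    (hG : ∀ ω, ω ∉ A → t ω ^ 2 ≤ K * p * ρ ∧ t' ω ^ 2 ≤ K * p * ρ ∧ W ω ≤ w₀) :
    Integrable (fun ω => δ ω ^ 2 * W ω) P ∧
    ∫ ω, δ ω ^ 2 * W ω ∂P ≤
      w₀ * (C2 * (Θ + 2 * K * min (p * ρ) 1 * ∫ ω, (t ω - t' ω) ^ 2 ∂P)) +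
      2 * K * Real.exp (-p / 2) * B := by
  set s := K * Real.exp (-p / 2) with hs
  have hs0 : 0 < s := mul_pos (by linarith) (Real.exp_pos _)
  set m := min (p * ρ) 1 with hm
  have hm0 : 0 < m := lt_min (mul_pos hp hρ) one_pos
  have hA' : P.real A ≤ 4 * s ^ 2 := by
    have e : s ^ 2 = K ^ 2 * Real.exp (-p) := by
      rw [hs, mul_pow, ← Real.exp_nat_mul]
      congr 2
      push_cast
      ring
    rw [e]
    have : K ≤ K ^ 2 := by nlinarith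
    nlinarith [Real.exp_pos (-p)]
  set l := B / (2 * s) with hl
  have hl0 : 0 < l := by positivity
  have itt : Integrable (fun ω => (t ω - t' ω) ^ 2) P := by
    refine Integrable.of_bound (C := 4) (by fun_prop) (ae_of_all _ fun ω => ?_)
    rw [Real.norm_eq_abs, abs_of_nonneg (sq_nonneg _)]
    have h1 := abs_le.mp (ht ω)
    have h2 := abs_le.mp (ht' ω)
    nlinarith
  have hpt : ∀ ω, δ ω ^ 2 * W ω ≤ w₀ * (C2 * (Θ + 2 * K * m * (t ω - t' ω) ^ 2)) +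
      (l / 2 * A.indicator (fun _ => (1 : ℝ)) ω + 1 / (2 * l) * W ω ^ 2) := by
    intro ω
    have hfirst : 0 ≤ w₀ * (C2 * (Θ + 2 * K * m * (t ω - t' ω) ^ 2)) := by positivity
    have hsecond : 0 ≤ 1 / (2 * l) * W ω ^ 2 := by positivity
    by_cases h : ω ∈ A
    · rw [indicator_of_mem h, mul_one]
      have h1 : W ω ≤ l / 2 + 1 / (2 * l) * W ω ^ 2 := by
        have : 0 ≤ (l - W ω) ^ 2 / (2 * l) := by positivity
        have e : (l - W ω) ^ 2 / (2 * l) = l / 2 - W ω + 1 / (2 * l) * W ω ^ 2 := by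
          field_simp
          ring
        linarith
      have h2 : δ ω ^ 2 * W ω ≤ 1 * W ω := mul_le_mul_of_nonneg_right (hδ1 ω) (hW0 ω)
      linarith
    · rw [indicator_of_notMem h, mul_zero, zero_add]
      obtain ⟨g1, g2, g3⟩ := hG ω h
      have q1 := sq_le_one' (ht ω)
      have q1' := sq_le_one' (ht' ω)
      have hmm : t ω ^ 2 + t' ω ^ 2 ≤ 2 * K * m := by
        rw [hm]
        rcases min_cases (p * ρ) 1 with ⟨e, _⟩ | ⟨e, _⟩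
        · rw [e]; nlinarith
        · rw [e]; nlinarith
      have h1 : δ ω ^ 2 ≤ C2 * (Θ + 2 * K * m * (t ω - t' ω) ^ 2) := by
        refine (hδ ω).trans ?_
        gcongr
      calc δ ω ^ 2 * W ω ≤ (C2 * (Θ + 2 * K * m * (t ω - t' ω) ^ 2)) * w₀ :=
            mul_le_mul h1 g3 (hW0 ω) ((sq_nonneg _).trans h1)
        _ = w₀ * (C2 * (Θ + 2 * K * m * (t ω - t' ω) ^ 2)) := by ring
        _ ≤ _ := by linarith
  have iR1 : Integrable (fun ω => w₀ * (C2 * (Θ + 2 * K * m * (t ω - t' ω) ^ 2))) P :=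
    (((integrable_const _).add (itt.const_mul _)).const_mul _).const_mul _
  have iR2 : Integrable (fun ω => l / 2 * A.indicator (fun _ => (1 : ℝ)) ω) P :=
    ((integrable_const (1 : ℝ)).indicator mA).const_mul _
  have iR3 : Integrable (fun ω => 1 / (2 * l) * W ω ^ 2) P := hW2.const_mul _
  have iR23 : Integrable (fun ω => l / 2 * A.indicator (fun _ => (1 : ℝ)) ω +
      1 / (2 * l) * W ω ^ 2) P := iR2.add iR3
  have iR := iR1.add iR23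
  have iL : Integrable (fun ω => δ ω ^ 2 * W ω) P := by
    refine iR.mono' (by fun_prop) (ae_of_all _ fun ω => ?_)
    rw [Real.norm_eq_abs, abs_of_nonneg (mul_nonneg (sq_nonneg _) (hW0 ω))]
    exact hpt ω
  have e1 : ∫ ω, (w₀ * (C2 * (Θ + 2 * K * m * (t ω - t' ω) ^ 2)) +
      (l / 2 * A.indicator (fun _ => (1 : ℝ)) ω + 1 / (2 * l) * W ω ^ 2)) ∂P =
      w₀ * (C2 * (Θ + 2 * K * m * ∫ ω, (t ω - t' ω) ^ 2 ∂P)) +
        (l / 2 * P.real A + 1 / (2 * l) * ∫ ω, W ω ^ 2 ∂P) := by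
    rw [integral_add iR1 iR23, integral_add iR2 iR3, integral_const_mul,
      integral_const_mul, integral_const_mul, integral_const_mul,
      integral_add (integrable_const _) (itt.const_mul _), integral_const_mul, integral_const,
      integral_indicator mA]
    simp
  refine ⟨iL, (integral_mono iL iR hpt).trans (e1.le.trans ?_)⟩
  have e2 : l / 2 * P.real A ≤ s * B := by
    calc l / 2 * P.real A ≤ l / 2 * (4 * s ^ 2) := by gcongr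
      _ = s * B := by rw [hl]; field_simp; ring
  have e3 : 1 / (2 * l) * ∫ ω, W ω ^ 2 ∂P ≤ s * B := by
    calc 1 / (2 * l) * ∫ ω, W ω ^ 2 ∂P ≤ 1 / (2 * l) * B ^ 2 := by gcongr
      _ = s * B := by rw [hl]; field_simp
  have e4 : 2 * K * Real.exp (-p / 2) * B = 2 * (s * B) := by rw [hs]; ring
  rw [e4]
  linarith

/-- second and fourth moments of a sum -/
theorem moments {Ω : Type*} [MeasurableSpace Ω] {P : Measure Ω} [IsProbabilityMeasure P]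
    {K ρ : ℝ} (hK : 1 ≤ K) (hρ : 0 < ρ) {χ χ' : Ω → ℝ} (mχ : Measurable χ) (mχ' : Measurable χ')
    (iχ : Integrable (fun ω => χ ω ^ 4) P) (iχ' : Integrable (fun ω => χ' ω ^ 4) P)
    (bχ : ∫ ω, χ ω ^ 4 ∂P ≤ K / ρ ^ 4) (bχ' : ∫ ω, χ' ω ^ 4 ∂P ≤ K / ρ ^ 4) :
    (Integrable (fun ω => (χ ω + χ' ω) ^ 2) P ∧
      ∫ ω, (χ ω + χ' ω) ^ 2 ∂P ≤ (2 * K / ρ) ^ 2) ∧
    (Integrable (fun ω => ((χ ω + χ' ω) ^ 2) ^ 2) P ∧
      ∫ ω, ((χ ω + χ' ω) ^ 2) ^ 2 ∂P ≤ (4 * K / ρ ^ 2) ^ 2) := by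
  have h4 : ∀ ω, ((χ ω + χ' ω) ^ 2) ^ 2 ≤ 8 * χ ω ^ 4 + 8 * χ' ω ^ 4 := by
    intro ω
    have h1 := two_sq (χ ω) (χ' ω)
    have h2 := two_sq (χ ω ^ 2) (χ' ω ^ 2)
    have h3 : ((χ ω + χ' ω) ^ 2) ^ 2 ≤ (2 * (χ ω ^ 2 + χ' ω ^ 2)) ^ 2 :=
      pow_le_pow_left₀ (sq_nonneg _) h1 2
    nlinarith
  have i8 : Integrable (fun ω => 8 * χ ω ^ 4 + 8 * χ' ω ^ 4) P :=
    (iχ.const_mul 8).add (iχ'.const_mul 8)
  have i4 : Integrable (fun ω => ((χ ω + χ' ω) ^ 2) ^ 2) P := by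
    refine i8.mono' (by fun_prop) (ae_of_all _ fun ω => ?_)
    rw [Real.norm_eq_abs, abs_of_nonneg (sq_nonneg _)]
    exact h4 ω
  have b4 : ∫ ω, ((χ ω + χ' ω) ^ 2) ^ 2 ∂P ≤ 16 * K / ρ ^ 4 := by
    refine (integral_mono i4 i8 h4).trans ?_
    rw [integral_add (iχ.const_mul 8) (iχ'.const_mul 8), integral_const_mul, integral_const_mul]
    have : 16 * K / ρ ^ 4 = 8 * (K / ρ ^ 4) + 8 * (K / ρ ^ 4) := by ring
    linarith
  have hKK : K ≤ K ^ 2 := by nlinarith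
  have hρ2 : 0 < ρ ^ 2 := by positivity
  have h2 : ∀ ω, (χ ω + χ' ω) ^ 2 ≤ 2 * K / ρ ^ 2 + ρ ^ 2 / (8 * K) * ((χ ω + χ' ω) ^ 2) ^ 2 := by
    intro ω
    have e : 0 ≤ ρ ^ 2 / (8 * K) * ((χ ω + χ' ω) ^ 2 - 4 * K / ρ ^ 2) ^ 2 := by positivity
    have e2 : ρ ^ 2 / (8 * K) * ((χ ω + χ' ω) ^ 2 - 4 * K / ρ ^ 2) ^ 2 =
        2 * K / ρ ^ 2 - (χ ω + χ' ω) ^ 2 + ρ ^ 2 / (8 * K) * ((χ ω + χ' ω) ^ 2) ^ 2 := by
      field_simp
      ring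
    linarith
  have i2' : Integrable (fun ω => 2 * K / ρ ^ 2 + ρ ^ 2 / (8 * K) * ((χ ω + χ' ω) ^ 2) ^ 2) P :=
    (integrable_const _).add (i4.const_mul _)
  have i2 : Integrable (fun ω => (χ ω + χ' ω) ^ 2) P := by
    refine i2'.mono' (by fun_prop) (ae_of_all _ fun ω => ?_)
    rw [Real.norm_eq_abs, abs_of_nonneg (sq_nonneg _)]
    exact h2 ω
  refine ⟨⟨i2, ?_⟩, ⟨i4, ?_⟩⟩
  · refine (integral_mono i2 i2' h2).trans ?_
    rw [integral_add (integrable_const _) (i4.const_mul _), integral_const_mul, integral_const]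
    have e : ρ ^ 2 / (8 * K) * ∫ ω, ((χ ω + χ' ω) ^ 2) ^ 2 ∂P ≤
        ρ ^ 2 / (8 * K) * (16 * K / ρ ^ 4) := by gcongr
    have e2 : ρ ^ 2 / (8 * K) * (16 * K / ρ ^ 4) = 2 / ρ ^ 2 := by
      field_simp
      ring
    have e3 : (2 * K / ρ) ^ 2 = 4 * K ^ 2 / ρ ^ 2 := by ring
    have e4 : 2 * K / ρ ^ 2 + 2 / ρ ^ 2 ≤ 4 * K ^ 2 / ρ ^ 2 := by
      rw [← add_div]
      gcongr
      nlinarith
    rw [e3]
    simp only [probReal_univ, smul_eq_mul, one_mul]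
    linarith
  · refine b4.trans ?_
    have e3 : (4 * K / ρ ^ 2) ^ 2 = 16 * K ^ 2 / ρ ^ 4 := by ring
    rw [e3]
    gcongr

/-- one edge: the three moments of the difference -/
theorem edge {Ω : Type*} [MeasurableSpace Ω] {P : Measure Ω} [IsProbabilityMeasure P]
    {K ρ p C2 Θ : ℝ} (hK : 1 ≤ K) (hC : 0 ≤ C2) (hΘ : 0 ≤ Θ) (hρ : 0 < ρ) (hp : 2 ≤ p)
    {t t' χ χ' δ : Ω → ℝ} (mt : Measurable t) (mt' : Measurable t')
    (mχ : Measurable χ) (mχ' : Measurable χ') (mδ : Measurable δ)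
    (ht : ∀ ω, |t ω| ≤ 1) (ht' : ∀ ω, |t' ω| ≤ 1) (hδ1 : ∀ ω, δ ω ^ 2 ≤ 1)
    (hδ : ∀ ω, δ ω ^ 2 ≤ C2 * (Θ + (t ω ^ 2 + t' ω ^ 2) * (t ω - t' ω) ^ 2))
    (hχ : ∀ ω, 1 ≤ χ ω) (hχ' : ∀ ω, 1 ≤ χ' ω)
    (iχ : Integrable (fun ω => χ ω ^ 4) P) (iχ' : Integrable (fun ω => χ' ω ^ 4) P)
    (bχ : ∫ ω, χ ω ^ 4 ∂P ≤ K / ρ ^ 4) (bχ' : ∫ ω, χ' ω ^ 4 ∂P ≤ K / ρ ^ 4)
    (tt : P.real {ω | K * p * ρ < t ω ^ 2} ≤ K * Real.exp (-p))
    (tt' : P.real {ω | K * p * ρ < t' ω ^ 2} ≤ K * Real.exp (-p))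
    (tχ : P.real {ω | K * (1 / ρ + Real.log p) < χ ω} ≤ K * Real.exp (-p))
    (tχ' : P.real {ω | K * (1 / ρ + Real.log p) < χ' ω} ≤ K * Real.exp (-p)) :
    (Integrable (fun ω => δ ω ^ 2) P ∧ ∫ ω, δ ω ^ 2 ∂P ≤ (8 * K ^ 3 * C2 + 8 * K ^ 3) *
      ((Θ + min (p * ρ) 1 * ∫ ω, (t ω - t' ω) ^ 2 ∂P) + Real.exp (-p / 2))) ∧
    (Integrable (fun ω => δ ω ^ 2 * (χ ω + χ' ω)) P ∧
      ∫ ω, δ ω ^ 2 * (χ ω + χ' ω) ∂P ≤ (8 * K ^ 3 * C2 + 8 * K ^ 3) *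
      ((1 / ρ + Real.log p) * (Θ + min (p * ρ) 1 * ∫ ω, (t ω - t' ω) ^ 2 ∂P) +
        Real.exp (-p / 2) / ρ)) ∧
    (Integrable (fun ω => δ ω ^ 2 * (χ ω + χ' ω) ^ 2) P ∧
      ∫ ω, δ ω ^ 2 * (χ ω + χ' ω) ^ 2 ∂P ≤ (8 * K ^ 3 * C2 + 8 * K ^ 3) *
      ((1 / ρ + Real.log p) ^ 2 * (Θ + min (p * ρ) 1 * ∫ ω, (t ω - t' ω) ^ 2 ∂P) +
        Real.exp (-p / 2) / ρ ^ 2)) := by
  obtain ⟨⟨j2, c2⟩, ⟨j4, c4⟩⟩ := moments hK hρ mχ mχ' iχ iχ' bχ bχ'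
  have hlog : 0 ≤ Real.log p := Real.log_nonneg (by linarith)
  set lam := 1 / ρ + Real.log p with hlam
  have hlam0 : 0 < lam := by positivity
  set m := min (p * ρ) 1 with hm
  have hm0 : 0 < m := lt_min (mul_pos (by linarith) hρ) one_pos
  set D := ∫ ω, (t ω - t' ω) ^ 2 ∂P with hD
  have hD0 : 0 ≤ D := integral_nonneg fun ω => sq_nonneg _
  set e := Real.exp (-p / 2) with he
  have he0 : 0 < e := Real.exp_pos _
  set A : Set Ω := ({ω | K * p * ρ < t ω ^ 2} ∪ {ω | K * p * ρ < t' ω ^ 2}) ∪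
    ({ω | K * lam < χ ω} ∪ {ω | K * lam < χ' ω}) with hA
  have mA : MeasurableSet A :=
    ((measurableSet_lt measurable_const (mt.pow_const 2)).union
      (measurableSet_lt measurable_const (mt'.pow_const 2))).union
    ((measurableSet_lt measurable_const mχ).union (measurableSet_lt measurable_const mχ'))
  have pA : P.real A ≤ 4 * K * Real.exp (-p) := by
    have h1 := measureReal_union_le (μ := P) ({ω | K * p * ρ < t ω ^ 2} ∪ {ω | K * p * ρ < t' ω ^ 2})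
      ({ω | K * lam < χ ω} ∪ {ω | K * lam < χ' ω})
    have h2 := measureReal_union_le (μ := P) {ω | K * p * ρ < t ω ^ 2} {ω | K * p * ρ < t' ω ^ 2}
    have h3 := measureReal_union_le (μ := P) {ω | K * lam < χ ω} {ω | K * lam < χ' ω}
    linarith
  have hnA : ∀ ω, ω ∉ A → (t ω ^ 2 ≤ K * p * ρ ∧ t' ω ^ 2 ≤ K * p * ρ) ∧
      (χ ω ≤ K * lam ∧ χ' ω ≤ K * lam) := by
    intro ω hω
    simp only [hA, mem_union, mem_ofPred_eq, not_or, not_lt] at hω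
    exact hω
  have hK3 : 1 ≤ K ^ 3 := one_le_pow₀ hK
  have hK12 : K ≤ K ^ 2 := by nlinarith
  have hK13 : K ≤ K ^ 3 := by nlinarith [sq_nonneg K]
  have hK23 : K ^ 2 ≤ K ^ 3 := by nlinarith [sq_nonneg K]
  have hX : Θ + 2 * K * m * D ≤ 2 * K * (Θ + m * D) := by
    have := mul_nonneg hm0.le hD0
    nlinarith
  have hX0 : 0 ≤ Θ + m * D := by positivity
  refine ⟨?_, ?_, ?_⟩
  · obtain ⟨i, h⟩ := gen (W := fun _ => (1 : ℝ)) (w₀ := 1) (B := 1) hK hC hΘ hρ (by linarith)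
      zero_le_one one_pos mt mt' mδ measurable_const ht ht' hδ1 hδ (fun _ => zero_le_one)
      (by simp) (by simp) mA pA
      (fun ω hω => ⟨(hnA ω hω).1.1, (hnA ω hω).1.2, le_rfl⟩)
    simp only [mul_one] at i h
    refine ⟨i, h.trans ?_⟩
    rw [one_mul, ← hD, ← he]
    calc C2 * (Θ + 2 * K * m * D) + 2 * K * e ≤ C2 * (2 * K * (Θ + m * D)) + 2 * K * e := by gcongr
      _ = 2 * K * C2 * (Θ + m * D) + 2 * K * e := by ring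
      _ ≤ (8 * K ^ 3 * C2 + 8 * K ^ 3) * (Θ + m * D) + (8 * K ^ 3 * C2 + 8 * K ^ 3) * e := by
        have a1 : 2 * K * C2 ≤ 8 * K ^ 3 * C2 := mul_le_mul_of_nonneg_right (by linarith) hC
        have a2 : 0 ≤ 8 * K ^ 3 * C2 := by positivity
        gcongr
        · linarith
        · linarith
      _ = _ := by ring
  · obtain ⟨i, h⟩ := gen (W := fun ω => χ ω + χ' ω) (w₀ := 2 * K * lam) (B := 2 * K / ρ) hK hC hΘ hρ
      (by linarith) (by positivity) (by positivity) mt mt' mδ (mχ.add mχ') ht ht' hδ1 hδ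
      (fun ω => by linarith [hχ ω, hχ' ω]) j2 c2 mA pA
      (fun ω hω => ⟨(hnA ω hω).1.1, (hnA ω hω).1.2, by
        have := (hnA ω hω).2
        linarith⟩)
    refine ⟨i, h.trans ?_⟩
    rw [← hD, ← he]
    calc 2 * K * lam * (C2 * (Θ + 2 * K * m * D)) + 2 * K * e * (2 * K / ρ)
        ≤ 2 * K * lam * (C2 * (2 * K * (Θ + m * D))) + 2 * K * e * (2 * K / ρ) := by gcongr
      _ = 4 * K ^ 2 * C2 * (lam * (Θ + m * D)) + 4 * K ^ 2 * (e / ρ) := by ring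
      _ ≤ (8 * K ^ 3 * C2 + 8 * K ^ 3) * (lam * (Θ + m * D)) +
          (8 * K ^ 3 * C2 + 8 * K ^ 3) * (e / ρ) := by
        have a1 : 4 * K ^ 2 * C2 ≤ 8 * K ^ 3 * C2 := mul_le_mul_of_nonneg_right (by linarith) hC
        have a2 : 0 ≤ 8 * K ^ 3 * C2 := by positivity
        gcongr
        · linarith
        · linarith
      _ = _ := by ring
  · obtain ⟨i, h⟩ := gen (W := fun ω => (χ ω + χ' ω) ^ 2) (w₀ := 4 * K ^ 2 * lam ^ 2)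
      (B := 4 * K / ρ ^ 2) hK hC hΘ hρ
      (by linarith) (by positivity) (by positivity) mt mt' mδ ((mχ.add mχ').pow_const 2) ht ht'
      hδ1 hδ (fun ω => sq_nonneg _) j4 c4 mA pA
      (fun ω hω => ⟨(hnA ω hω).1.1, (hnA ω hω).1.2, by
        have h1 := (hnA ω hω).2
        have h2 : χ ω + χ' ω ≤ 2 * K * lam := by linarith
        have h3 : 0 ≤ χ ω + χ' ω := by linarith [hχ ω, hχ' ω]
        calc (χ ω + χ' ω) ^ 2 ≤ (2 * K * lam) ^ 2 := pow_le_pow_left₀ h3 h2 2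
          _ = 4 * K ^ 2 * lam ^ 2 := by ring⟩)
    refine ⟨i, h.trans ?_⟩
    rw [← hD, ← he]
    calc 4 * K ^ 2 * lam ^ 2 * (C2 * (Θ + 2 * K * m * D)) + 2 * K * e * (4 * K / ρ ^ 2)
        ≤ 4 * K ^ 2 * lam ^ 2 * (C2 * (2 * K * (Θ + m * D))) + 2 * K * e * (4 * K / ρ ^ 2) := by
          gcongr
      _ = 8 * K ^ 3 * C2 * (lam ^ 2 * (Θ + m * D)) + 8 * K ^ 2 * (e / ρ ^ 2) := by ring
      _ ≤ (8 * K ^ 3 * C2 + 8 * K ^ 3) * (lam ^ 2 * (Θ + m * D)) +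
          (8 * K ^ 3 * C2 + 8 * K ^ 3) * (e / ρ ^ 2) := by
        have a2 : 0 ≤ 8 * K ^ 3 * C2 := by positivity
        gcongr
        · linarith
        · linarith
      _ = _ := by ring

end PR

end Vale.Agent.P161E
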