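import Vale.Agent.P161E.UBoundCore

/-!
# Iteration along rays (with stationarity as a hypothesis)
-/

open MeasureTheory Set Filter Topology
open scoped unitInterval ENNReal

namespace Vale.Agent.P161E

open Vale.Agent.P161

universe u

namespace NB

open UB

variable {V : Type u} {b : ℕ} {T : RTree V b}

theorem wavN_succ (w h : V → V → ℝ) (n : ℕ) (u x : V) :
    T.wavN w h (n + 1) u x = T.av (fun x y => w x y * T.wavN w h n x y) u x := rfl

theorem wavN_nonneg {w h : V → V → ℝ} (hw : ∀ u x, 0 ≤ w u x) (hh : ∀ u x, 0 ≤ h u x) (n : ℕ)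
    (u x : V) : 0 ≤ T.wavN w h n u x := by
  induction n generalizing u x with
  | zero => exact hh u x
  | succ n ih =>
    rw [wavN_succ]
    exact RTree.av_nonneg fun y _ => mul_nonneg (hw x y) (ih x y)

theorem wavN_mono {w w' h h' : V → V → ℝ} (hw : ∀ u x, 0 ≤ w u x) (hww : ∀ u x, w u x ≤ w' u x)
    (hh : ∀ u x, 0 ≤ h u x) (hhh : ∀ u x, h u x ≤ h' u x) (n : ℕ) (u x : V) :
    T.wavN w h n u x ≤ T.wavN w' h' n u x := by
  induction n generalizing u x with
  | zero => exact hhh u x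
  | succ n ih =>
    rw [wavN_succ, wavN_succ]
    refine RTree.av_mono fun y _ => ?_
    exact mul_le_mul (hww x y) (ih x y) (wavN_nonneg hw hh n x y) ((hw x y).trans (hww x y))

theorem wavN_le_one {w : V → V → ℝ} (hb : 0 < b) (hw : ∀ u x, 0 ≤ w u x)
    (hw1 : ∀ u x, w u x ≤ 1) (n : ℕ) {u x : V} (h : T.G.Adj u x) :
    T.wavN w (fun _ _ => 1) n u x ≤ 1 := by
  induction n generalizing u x with
  | zero => exact le_rfl
  | succ n ih =>
    have e := RTree.av_const (T := T) hb 1 h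
    rw [wavN_succ]
    refine le_trans (RTree.av_mono (h := fun _ _ => (1 : ℝ)) fun y hy => ?_) e.le
    have h1 := ih (RTree.mem_ch.mp hy).2
    have h2 := wavN_nonneg (T := T) (h := fun _ _ => (1 : ℝ)) hw (fun _ _ => zero_le_one) n x y
    exact (mul_le_mul_of_nonneg_right (hw1 x y) h2).trans (by rw [one_mul]; exact h1)

/-- the pointwise inequality -/
theorem pt {a N s : ℝ} {m : ℕ} (hm : 1 ≤ m) (ha : 0 ≤ a) (hN : 0 ≤ N) (hs : 0 < s) :
    a * N ≤ 1 / 4 * N + s / 2 * 4 ^ m * a ^ (2 * m) + 4 ^ m / (2 * s) * N ^ 2 := by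
  have h4 : (0 : ℝ) < 4 ^ m := by positivity
  have h1 : a * N ≤ 1 / 4 * N + (4 * a) ^ m * N := by
    rcases le_total (4 * a) 1 with h | h
    · have : 0 ≤ (4 * a) ^ m * N := by positivity
      nlinarith
    · have h2 : 4 * a ≤ (4 * a) ^ m := le_self_pow₀ h (by omega)
      have h3 := mul_le_mul_of_nonneg_right h2 hN
      nlinarith
  have h2 : (4 * a) ^ m * N ≤ s / 2 * 4 ^ m * a ^ (2 * m) + 4 ^ m / (2 * s) * N ^ 2 := by
    have e : s / 2 * 4 ^ m * a ^ (2 * m) + 4 ^ m / (2 * s) * N ^ 2 - (4 * a) ^ m * N =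
        4 ^ m / (2 * s) * (s * a ^ m - N) ^ 2 := by
      rw [mul_pow, pow_mul, show (a ^ 2) ^ m = (a ^ m) ^ 2 by rw [← pow_mul, ← pow_mul, mul_comm]]
      field_simp
      ring
    have h3 : 0 ≤ 4 ^ m / (2 * s) * (s * a ^ m - N) ^ 2 := by positivity
    linarith
  linarith

/-- the inequality for averages of products along paths -/
theorem path_ineq {w N : V → V → ℝ} {s : ℝ} {m : ℕ} (hm : 1 ≤ m) (hs : 0 < s)
    (hw : ∀ u x, 0 ≤ w u x) (hN : ∀ u x, 0 ≤ N u x) (n : ℕ) (u x : V) {a : ℝ} (ha : 0 ≤ a) :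
    a * T.wavN w N n u x ≤ 1 / 4 * T.wavN (fun _ _ => 1) N n u x +
      s / 2 * 4 ^ m * a ^ (2 * m) * T.wavN (fun u x => w u x ^ (2 * m)) (fun _ _ => 1) n u x +
      4 ^ m / (2 * s) * T.wavN (fun _ _ => 1) (fun u x => N u x ^ 2) n u x := by
  induction n generalizing u x a with
  | zero =>
    simp only [RTree.wavN, mul_one]
    exact pt hm ha (hN u x) hs
  | succ n ih =>
    rw [wavN_succ, wavN_one_succ, wavN_one_succ, wavN_succ, ← RTree.av_const_mul,
      ← RTree.av_const_mul, ← RTree.av_const_mul, ← RTree.av_const_mul, ← RTree.av_add,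
      ← RTree.av_add]
    refine RTree.av_mono fun y _ => ?_
    have h1 := ih x y (mul_nonneg ha (hw x y))
    refine le_trans (le_of_eq ?_) (h1.trans (le_of_eq ?_))
    · ring
    · rw [mul_pow]; ring

/-- iteration of `N = A[w N + h]` -/
theorem iter_le {w N h : V → V → ℝ} (hw : ∀ u x, 0 ≤ w u x) (hw1 : ∀ u x, w u x ≤ 1)
    (hrel : ∀ u x, T.G.Adj u x → N u x = T.av (fun u x => w u x * N u x + h u x) u x) (n : ℕ)
    {u x : V} (hux : T.G.Adj u x) : N u x ≤ T.wavN w N n u x +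
      ∑ i ∈ Finset.range n, T.wavN (fun _ _ => 1) (fun u x => |h u x|) (i + 1) u x := by
  induction n generalizing u x with
  | zero => simp [RTree.wavN]
  | succ n ih =>
    rw [hrel u x hux, RTree.av_add]
    have e1 : T.av h u x ≤ T.wavN (fun _ _ => 1) (fun u x => |h u x|) (0 + 1) u x := by
      rw [wavN_one_succ]
      exact RTree.av_mono fun y _ => le_abs_self _
    have e2 : T.av (fun u x => w u x * N u x) u x ≤ T.wavN w N (n + 1) u x +
        ∑ i ∈ Finset.range n, T.wavN (fun _ _ => 1) (fun u x => |h u x|) (i + 1 + 1) u x := by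
      have e3 : ∑ i ∈ Finset.range n, T.wavN (fun _ _ => 1) (fun u x => |h u x|) (i + 1 + 1) u x =
          T.av (fun u x => ∑ i ∈ Finset.range n,
            T.wavN (fun _ _ => 1) (fun u x => |h u x|) (i + 1) u x) u x := by
        unfold RTree.av
        rw [Finset.sum_comm, Finset.sum_div]
        refine Finset.sum_congr rfl fun i _ => ?_
        rw [wavN_one_succ]
        rfl
      rw [e3, wavN_succ, ← RTree.av_add]
      refine RTree.av_mono fun y hy => ?_
      have h1 := ih (RTree.mem_ch.mp hy).2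
      have h2 := mul_le_mul_of_nonneg_left h1 (hw x y)
      have h3 : 0 ≤ ∑ i ∈ Finset.range n,
          T.wavN (fun _ _ => 1) (fun u x => |h u x|) (i + 1) x y :=
        Finset.sum_nonneg fun i _ => wavN_nonneg (fun _ _ => zero_le_one)
          (fun _ _ => abs_nonneg _) _ _ _
      have h4 := mul_le_mul_of_nonneg_right (hw1 x y) h3
      linarith
    rw [Finset.sum_range_succ']
    linarith

variable {g : V → V → (V → I) → ℝ}

theorem int_wavN_one (hst : StatStmt.{u} b) (hb : 0 < b) (hg : Equi T g)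
    (hi : ∀ u x, T.G.Adj u x → Integrable (g u x) (iid V)) (n : ℕ) {u x : V}
    (h : T.G.Adj u x) :
    Integrable (fun ω => T.wavN (fun _ _ => 1) (fun u x => g u x ω) n u x) (iid V) ∧
      ∫ ω, T.wavN (fun _ _ => 1) (fun u x => g u x ω) n u x ∂(iid V) =
        ∫ ω, g u x ω ∂(iid V) := by
  induction n generalizing u x with
  | zero => exact ⟨hi u x h, rfl⟩
  | succ n ih =>
    have e : ∀ ω, T.wavN (fun _ _ => 1) (fun u x => g u x ω) (n + 1) u x =
        T.av (fun u x => T.wavN (fun _ _ => 1) (fun u x => g u x ω) n u x) u x := fun ω =>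
      wavN_one_succ _ n u x
    simp only [e]
    have hE : Equi T (fun u x ω => T.wavN (fun _ _ => 1) (fun u x => g u x ω) n u x) :=
      (Equi.const 1).wavN hg n
    refine ⟨?_, ?_⟩
    · unfold RTree.av
      exact (integrable_finsetSum _ fun y hy => (ih (RTree.mem_ch.mp hy).2).1).div_const _
    · rw [integral_av hst hb hE (fun u x h => (ih h).1) h]
      exact (ih h).2

theorem wpow {w β r : ℝ} {m : ℕ} (hw : 0 ≤ w) (hwβ : w ≤ ((1 + β) / 2) ^ 2) (hβ : 0 ≤ β)
    (hβ1 : β ≤ 1) (hr : r ≤ 2 * m) : w ^ (2 * m) ≤ Real.exp (-r * (1 - β)) := by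
  have h1 : w ^ (2 * m) ≤ (((1 + β) / 2) ^ 2) ^ (2 * m) := pow_le_pow_left₀ hw hwβ _
  have h2 : (1 + β) / 2 ≤ Real.exp (-((1 - β) / 2)) := by
    have := Real.add_one_le_exp (-((1 - β) / 2))
    linarith
  have h3 : (((1 + β) / 2) ^ 2) ^ (2 * m) ≤ Real.exp (-((1 - β) / 2)) ^ (4 * m) := by
    rw [← pow_mul, show 2 * (2 * m) = 4 * m by ring]
    exact pow_le_pow_left₀ (by linarith) h2 _
  have h4 : Real.exp (-((1 - β) / 2)) ^ (4 * m) = Real.exp (-(2 * m) * (1 - β)) := by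
    rw [← Real.exp_nat_mul]
    congr 1
    push_cast
    ring
  rw [h4] at h3
  refine h1.trans (h3.trans (Real.exp_le_exp.2 ?_))
  nlinarith

/-- the inequality for fixed `n`, `m`, `s` -/
theorem fixed (hst : StatStmt.{u} b) (hb : 0 < b) {K c M ρ : ℝ}
    {N h w β : V → V → (V → I) → ℝ} (hN : Equi T N) (hh : Equi T h) (hβ : Equi T β)
    (hNi : ∀ u x, T.G.Adj u x → MemLp (N u x) 2 (iid V))
    (hhi : ∀ u x, T.G.Adj u x → Integrable (h u x) (iid V))
    (hN0 : ∀ u x ω, 0 ≤ N u x ω) (hβ01 : ∀ u x ω, 0 ≤ β u x ω ∧ β u x ω ≤ 1)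
    (hw01 : ∀ u x ω, 0 ≤ w u x ω ∧ w u x ω ≤ ((1 + β u x ω) / 2) ^ 2)
    (hrel : ∀ u x, T.G.Adj u x → ∀ᵐ ω ∂(iid V), N u x ω =
      T.av (fun u x => w u x ω * N u x ω + h u x ω) u x)
    (hray : ∀ (n : ℕ) (u x : V), T.G.Adj u x → ∫ ω, T.wavN
      (fun u x => Real.exp (-(M / ρ) * (1 - β u x ω))) (fun _ _ => 1) n u x ∂(iid V) ≤
        K * Real.exp (-(c * n)))
    {m : ℕ} (hm : 1 ≤ m) (hmM : M / ρ ≤ 2 * m) {s : ℝ} (hs : 0 < s) (hMρ : 0 ≤ M / ρ) (n : ℕ)
    {u x : V} (hux : T.G.Adj u x) :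
    ∫ ω, N u x ω ∂(iid V) ≤ n * ∫ ω, |h u x ω| ∂(iid V) + 1 / 4 * ∫ ω, N u x ω ∂(iid V) +
      s / 2 * 4 ^ m * (K * Real.exp (-(c * n))) + 4 ^ m / (2 * s) * ∫ ω, N u x ω ^ 2 ∂(iid V) := by
  have hV : Countable V := T.countable
  have hw1 : ∀ u x ω, w u x ω ≤ 1 := by
    intro u x ω
    have h1 := (hβ01 u x ω).1
    have h2 := (hβ01 u x ω).2
    have h3 : ((1 + β u x ω) / 2) ^ 2 ≤ 1 := by nlinarith
    exact (hw01 u x ω).2.trans h3
  -- everywhere
  have hall : ∀ᵐ ω ∂(iid V), ∀ u x, T.G.Adj u x →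
      N u x ω = T.av (fun u x => w u x ω * N u x ω + h u x ω) u x := by
    rw [ae_all_iff]
    intro u
    rw [ae_all_iff]
    intro x
    by_cases hux : T.G.Adj u x
    · filter_upwards [hrel u x hux] with ω hω _
      exact hω
    · exact ae_of_all _ fun ω h => absurd h hux
  have iN : ∀ u x, T.G.Adj u x → Integrable (N u x) (iid V) := fun u x h =>
    (hNi u x h).integrable one_le_two
  have iN2 : ∀ u x, T.G.Adj u x → Integrable (fun ω => N u x ω ^ 2) (iid V) := fun u x h =>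
    (hNi u x h).integrable_sq
  have ih' : ∀ u x, T.G.Adj u x → Integrable (fun ω => |h u x ω|) (iid V) := fun u x hx =>
    (hhi u x hx).abs
  have A1 := int_wavN_one hst hb hN iN n hux
  have A2 := int_wavN_one hst hb (hN.pow 2) iN2 n hux
  have A3 := fun i => int_wavN_one hst hb hh.abs ih' i hux
  -- the products of the exponentials
  have hEexp : Equi T (fun u x ω => Real.exp (-(M / ρ) * (1 - β u x ω))) :=
    hβ.comp (F := fun t => Real.exp (-(M / ρ) * (1 - t))) (by fun_prop)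
  have hE1 : Equi T (fun u x ω => T.wavN (fun u x => Real.exp (-(M / ρ) * (1 - β u x ω)))
      (fun _ _ => 1) n u x) := hEexp.wavN (Equi.const 1) n
  have hexp1 : ∀ u x ω, Real.exp (-(M / ρ) * (1 - β u x ω)) ≤ 1 := by
    intro u x ω
    rw [Real.exp_le_one_iff]
    have := (hβ01 u x ω).2
    nlinarith
  have A4 : Integrable (fun ω => T.wavN (fun u x => Real.exp (-(M / ρ) * (1 - β u x ω)))
      (fun _ _ => 1) n u x) (iid V) := by
    refine Integrable.mono' (integrable_const (1 : ℝ)) (hE1.meas u x).aestronglyMeasurable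
      (ae_of_all _ fun ω => ?_)
    rw [Real.norm_eq_abs, abs_of_nonneg (wavN_nonneg (fun _ _ => (Real.exp_pos _).le)
      (fun _ _ => zero_le_one) n u x)]
    exact wavN_le_one hb (fun _ _ => (Real.exp_pos _).le) (fun u x => hexp1 u x ω) n hux
  -- the pointwise inequality
  have hpt : ∀ᵐ ω ∂(iid V), N u x ω ≤
      (∑ i ∈ Finset.range n, T.wavN (fun _ _ => 1) (fun u x => |h u x ω|) (i + 1) u x) +
      (1 / 4 * T.wavN (fun _ _ => 1) (fun u x => N u x ω) n u x +
      (s / 2 * 4 ^ m * T.wavN (fun u x => Real.exp (-(M / ρ) * (1 - β u x ω)))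
        (fun _ _ => 1) n u x +
      4 ^ m / (2 * s) * T.wavN (fun _ _ => 1) (fun u x => N u x ω ^ 2) n u x)) := by
    filter_upwards [hall] with ω hω
    have h1 := iter_le (w := fun u x => w u x ω) (N := fun u x => N u x ω)
      (h := fun u x => h u x ω) (fun u x => (hw01 u x ω).1) (fun u x => hw1 u x ω) hω n hux
    have h2 := path_ineq (T := T) (w := fun u x => w u x ω) (N := fun u x => N u x ω) hm hs
      (fun u x => (hw01 u x ω).1) (fun u x => hN0 u x ω) n u x (a := 1) zero_le_one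
    have h3 : T.wavN (fun u x => w u x ω ^ (2 * m)) (fun _ _ => 1) n u x ≤
        T.wavN (fun u x => Real.exp (-(M / ρ) * (1 - β u x ω))) (fun _ _ => 1) n u x :=
      wavN_mono (fun u x => pow_nonneg (hw01 u x ω).1 _)
        (fun u x => wpow (hw01 u x ω).1 (hw01 u x ω).2 (hβ01 u x ω).1 (hβ01 u x ω).2 hmM)
        (fun _ _ => zero_le_one) (fun _ _ => le_rfl) n u x
    have h4 := mul_le_mul_of_nonneg_left h3 (show 0 ≤ s / 2 * 4 ^ m by positivity)
    simp only [one_mul, one_pow, mul_one] at h2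
    linarith
  have I1 : Integrable (fun ω => ∑ i ∈ Finset.range n,
      T.wavN (fun _ _ => 1) (fun u x => |h u x ω|) (i + 1) u x) (iid V) :=
    integrable_finsetSum _ fun i _ => (A3 (i + 1)).1
  have I2 := A1.1.const_mul (1 / 4)
  have I3 := A4.const_mul (s / 2 * 4 ^ m)
  have I4 := A2.1.const_mul (4 ^ m / (2 * s))
  have key := integral_mono_ae (iN u x hux) (I1.add (I2.add (I3.add I4))) hpt
  have e1 := integral_add I1 (I2.add (I3.add I4))
  have e2 := integral_add I2 (I3.add I4)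
  have e3 := integral_add I3 I4
  have e4 : ∫ ω, ∑ i ∈ Finset.range n,
      T.wavN (fun _ _ => 1) (fun u x => |h u x ω|) (i + 1) u x ∂(iid V) =
      n * ∫ ω, |h u x ω| ∂(iid V) := by
    rw [integral_finsetSum _ fun i _ => (A3 (i + 1)).1, Finset.sum_congr rfl fun i _ =>
      (A3 (i + 1)).2, Finset.sum_const, Finset.card_range, nsmul_eq_mul]
  rw [integral_const_mul, A1.2] at e2
  rw [integral_const_mul, integral_const_mul, A2.2] at e3
  have h5 := mul_le_mul_of_nonneg_left (hray n u x hux) (show 0 ≤ s / 2 * 4 ^ m by positivity)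
  have e5 := key.trans_eq e1
  rw [e4] at e5
  simp only [Pi.add_apply] at e2 e3 e5
  rw [e2, e3] at e5
  linarith

/-- the choices of `m` and `n` -/
theorem choices {K c M ρ p : ℝ} (hK : 1 ≤ K) (hc : 0 < c) (hM : 0 < M) (hρ : 0 < ρ)
    (hp : 2 ≤ p) : ∃ m n : ℕ, 1 ≤ m ∧ M / ρ ≤ 2 * m ∧
      (n : ℝ) ≤ (2 / c * (M + 1) + 1) * max (1 / ρ) p ∧
      4 ^ m * Real.sqrt (K * Real.exp (-(c * n))) ≤ 4 * Real.sqrt K * Real.exp (-p) := by
  obtain ⟨Z, hZ⟩ : ∃ Z : ℝ, Z = max (1 / ρ) p := ⟨_, rfl⟩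
  have hZ1 : 1 / ρ ≤ Z := by rw [hZ]; exact le_max_left _ _
  have hZ2 : p ≤ Z := by rw [hZ]; exact le_max_right _ _
  have hMρ : 0 < M / ρ := by positivity
  obtain ⟨m, hm⟩ : ∃ m : ℕ, m = ⌈M / (2 * ρ)⌉₊ := ⟨_, rfl⟩
  obtain ⟨n, hn⟩ : ∃ n : ℕ, n = ⌈2 / c * (M + 1) * Z⌉₊ := ⟨_, rfl⟩
  have e0 : M / (2 * ρ) = M / ρ / 2 := by field_simp
  have m1 : M / ρ / 2 ≤ m := by rw [hm, ← e0]; exact Nat.le_ceil _
  have m2 : (m : ℝ) ≤ M / ρ / 2 + 1 := by
    rw [hm, ← e0]; exact (Nat.ceil_lt_add_one (by positivity)).le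
  have n1 : 2 / c * (M + 1) * Z ≤ n := by rw [hn]; exact Nat.le_ceil _
  have hZ0 : 0 < Z := by linarith
  have n2 : (n : ℝ) ≤ 2 / c * (M + 1) * Z + 1 := by
    rw [hn]; exact (Nat.ceil_lt_add_one (by positivity)).le
  refine ⟨m, n, ?_, by linarith, ?_, ?_⟩
  · rw [hm]
    exact Nat.ceil_pos.2 (by positivity)
  · rw [← hZ]
    nlinarith
  · have h1 : (M + 1) * Z ≤ c * n / 2 := by
      have := mul_le_mul_of_nonneg_left n1 (show 0 ≤ c / 2 by positivity)
      have e : c / 2 * (2 / c * (M + 1) * Z) = (M + 1) * Z := by field_simp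
      linarith
    have h2 : M / ρ + p ≤ c * n / 2 := by
      have h3 : M * (1 / ρ) ≤ M * Z := mul_le_mul_of_nonneg_left hZ1 hM.le
      have e : M * (1 / ρ) = M / ρ := by ring
      linarith
    have h3 : Real.sqrt (Real.exp (-(c * n))) = Real.exp (-(c * n / 2)) := by
      rw [show -(c * n) = -(c * n / 2) + -(c * n / 2) by ring, Real.exp_add,
        Real.sqrt_mul_self (Real.exp_pos _).le]
    rw [Real.sqrt_mul (by linarith), h3]
    have h4 : (4 : ℝ) ^ m ≤ 4 * Real.exp (M / ρ) := by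
      have h5 : (4 : ℝ) ^ m = Real.exp (m * Real.log 4) := by
        rw [Real.exp_nat_mul, Real.exp_log (by norm_num)]
      have hl : Real.log 4 ≤ 2 := by
        have : Real.log 4 = 2 * Real.log 2 := by
          rw [show (4 : ℝ) = 2 ^ 2 by norm_num, Real.log_pow]; norm_num
        have h6 := Real.log_two_lt_d9
        linarith
      have hl0 : 0 < Real.log 4 := Real.log_pos (by norm_num)
      have h7 : m * Real.log 4 ≤ M / ρ + Real.log 4 := by
        have h8 := mul_le_mul_of_nonneg_right m2 hl0.le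
        nlinarith
      rw [h5]
      refine (Real.exp_le_exp.2 h7).trans (le_of_eq ?_)
      rw [Real.exp_add, Real.exp_log (by norm_num)]
      ring
    have h5 : Real.exp (-(c * n / 2)) ≤ Real.exp (-(M / ρ)) * Real.exp (-p) := by
      rw [← Real.exp_add]
      exact Real.exp_le_exp.2 (by linarith)
    have h6 : Real.exp (M / ρ) * Real.exp (-(M / ρ)) = 1 := by
      rw [← Real.exp_add, add_neg_cancel, Real.exp_zero]
    calc 4 ^ m * (Real.sqrt K * Real.exp (-(c * n / 2)))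
        ≤ (4 * Real.exp (M / ρ)) * (Real.sqrt K * (Real.exp (-(M / ρ)) * Real.exp (-p))) :=
          mul_le_mul h4 (mul_le_mul_of_nonneg_left h5 (Real.sqrt_nonneg _)) (by positivity)
            (by positivity)
      _ = 4 * Real.sqrt K * Real.exp (-p) * (Real.exp (M / ρ) * Real.exp (-(M / ρ))) := by ring
      _ = _ := by rw [h6, mul_one]

end NB

open NB in
theorem N_bound_core {b : ℕ} (hb : 2 ≤ b) (hst : StatStmt.{u} b) {K c M : ℝ} (hK : 1 ≤ K)
    (hc : 0 < c) (hM : 0 < M) :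
    ∃ K' c' : ℝ, 0 < K' ∧ 0 < c' ∧ ∀ (V : Type u) (T : RTree V b) (ρ : ℝ), 0 < ρ → ρ ≤ 1 / 2 →
    ∀ N h w β : V → V → (V → I) → ℝ, Equi T N → Equi T h → Equi T w → Equi T β →
    (∀ u x, T.G.Adj u x → MemLp (N u x) 2 (iid V)) →
    (∀ u x, T.G.Adj u x → Integrable (h u x) (iid V)) →
    (∀ u x ω, 0 ≤ N u x ω) → (∀ u x ω, 0 ≤ β u x ω ∧ β u x ω ≤ 1) →
    (∀ u x ω, 0 ≤ w u x ω ∧ w u x ω ≤ ((1 + β u x ω) / 2) ^ 2) →
    (∀ u x, T.G.Adj u x → ∀ᵐ ω ∂(iid V), N u x ω =
      T.av (fun u x => w u x ω * N u x ω + h u x ω) u x) →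
    (∀ (n : ℕ) (u x : V), T.G.Adj u x → ∫ ω, T.wavN
      (fun u x => Real.exp (-(M / ρ) * (1 - β u x ω))) (fun _ _ => 1) n u x ∂(iid V) ≤
        K * Real.exp (-(c * n))) →
    ∀ p : ℝ, 2 ≤ p → ∀ u x, T.G.Adj u x → ∫ ω, N u x ω ∂(iid V) ≤
      K' * max (1 / ρ) p * ∫ ω, |h u x ω| ∂(iid V) +
      K' * Real.exp (-(c' * p)) * Real.sqrt (∫ ω, N u x ω ^ 2 ∂(iid V)) := by
  have hK0 : 0 < Real.sqrt K := Real.sqrt_pos.2 (by linarith)
  refine ⟨4 / 3 * (2 / c * (M + 1) + 1) + 16 / 3 * Real.sqrt K, 1, by positivity, one_pos,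
    fun V T ρ hρ hρ2 N h w β hN hh hw hβ hNi hhi hN0 hβ01 hw01 hrel hray p hp u x hux => ?_⟩
  have hb0 : 0 < b := by omega
  obtain ⟨m, n, hm, hmM, hn, hmn⟩ := choices (K := K) hK hc hM hρ hp
  have hMρ : 0 ≤ M / ρ := by positivity
  have hfix := fun {s : ℝ} (hs : 0 < s) => fixed hst hb0 hN hh hβ hNi hhi hN0 hβ01 hw01 hrel
    hray hm hmM hs hMρ n hux
  have hH : 0 ≤ ∫ ω, |h u x ω| ∂(iid V) := integral_nonneg fun ω => abs_nonneg _
  have hX2 : 0 ≤ ∫ ω, N u x ω ^ 2 ∂(iid V) := integral_nonneg fun ω => sq_nonneg _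
  have hEN : (∫ ω, N u x ω ∂(iid V)) ^ 2 ≤ ∫ ω, N u x ω ^ 2 ∂(iid V) := by
    obtain ⟨e, he⟩ : ∃ e : ℝ, e = ∫ ω, N u x ω ∂(iid V) := ⟨_, rfl⟩
    have h1 : 0 ≤ ∫ ω, (N u x ω - e) ^ 2 ∂(iid V) := integral_nonneg fun ω => sq_nonneg _
    have i1 := (hNi u x hux).integrable_sq
    have i2 : Integrable (fun ω => 2 * e * N u x ω) (iid V) :=
      ((hNi u x hux).integrable one_le_two).const_mul _
    have h2 : ∫ ω, (N u x ω - e) ^ 2 ∂(iid V) =
        ∫ ω, N u x ω ^ 2 ∂(iid V) - 2 * e * e + e ^ 2 := by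
      have e1 : ∀ ω, (N u x ω - e) ^ 2 = (N u x ω ^ 2 - 2 * e * N u x ω) + e ^ 2 := by
        intro ω; ring
      have i3 : Integrable (fun ω => N u x ω ^ 2 - 2 * e * N u x ω) (iid V) := i1.sub i2
      simp only [e1]
      rw [integral_add i3 (integrable_const _), integral_sub i1 i2, integral_const_mul, ← he]
      simp
    rw [← he]
    nlinarith
  have hZ : 0 < max (1 / ρ) p := lt_of_lt_of_le (by linarith) (le_max_right _ _)
  generalize hHd : ∫ ω, |h u x ω| ∂(iid V) = H at *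
  generalize hEd : ∫ ω, N u x ω ∂(iid V) = E at *
  generalize hXd : ∫ ω, N u x ω ^ 2 ∂(iid V) = X2 at *
  obtain ⟨q, hq⟩ : ∃ q : ℝ, q = K * Real.exp (-(c * n)) := ⟨_, rfl⟩
  have hq0 : 0 < q := by rw [hq]; positivity
  rw [← hq] at hmn
  simp only [← hq] at hfix
  have hmain : E ≤ n * H + 1 / 4 * E + 4 ^ m * Real.sqrt q * Real.sqrt X2 := by
    rcases hX2.eq_or_lt with h0 | h0
    · have hE0 : E = 0 := by
        rw [← h0] at hEN
        nlinarith
      rw [hE0, ← h0, Real.sqrt_zero]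
      have : 0 ≤ (n : ℝ) * H := by positivity
      linarith
    · have hsq : 0 < Real.sqrt q := Real.sqrt_pos.2 hq0
      have hsX : 0 < Real.sqrt X2 := Real.sqrt_pos.2 h0
      have h1 := hfix (s := Real.sqrt X2 / Real.sqrt q) (by positivity)
      have h2 : Real.sqrt X2 / Real.sqrt q / 2 * 4 ^ m * q +
          4 ^ m / (2 * (Real.sqrt X2 / Real.sqrt q)) * X2 =
          4 ^ m * Real.sqrt q * Real.sqrt X2 := by
        have eq1 : q = Real.sqrt q * Real.sqrt q := (Real.mul_self_sqrt hq0.le).symm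
        have eX : X2 = Real.sqrt X2 * Real.sqrt X2 := (Real.mul_self_sqrt h0.le).symm
        generalize Real.sqrt q = a at *
        generalize Real.sqrt X2 = d at *
        rw [eq1, eX]
        field_simp
        ring
      linarith
  have h5 : 4 ^ m * Real.sqrt q * Real.sqrt X2 ≤ 4 * Real.sqrt K * Real.exp (-p) * Real.sqrt X2 :=
    mul_le_mul_of_nonneg_right hmn (Real.sqrt_nonneg _)
  have h6 : n * H ≤ (2 / c * (M + 1) + 1) * max (1 / ρ) p * H :=
    mul_le_mul_of_nonneg_right hn hH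
  have h7 : 0 ≤ 16 / 3 * Real.sqrt K * max (1 / ρ) p * H := by positivity
  have h8 : 0 ≤ 4 / 3 * (2 / c * (M + 1) + 1) * Real.exp (-p) * Real.sqrt X2 := by positivity
  rw [one_mul]
  linarith

end Vale.Agent.P161E
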