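import Vale.Agent.P161E.SDefs
import Vale.Agent.P161E.NBoundCore

/-!
# Part S: exponential moments, deterministic part
-/

open MeasureTheory Set Filter Topology
open scoped unitInterval ENNReal

namespace Vale.Agent.P161E

open Vale.Agent.P161

universe u

variable {V : Type u} {b : ℕ}

namespace SE

/-- Jensen for the exponential and averages over the children -/
theorem exp_av_le {T : RTree V b} (hb : 0 < b) (g : V → V → ℝ) {u x : V} (h : T.G.Adj u x) :
    Real.exp (T.av g u x) ≤ T.av (fun u x => Real.exp (g u x)) u x := by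
  have hb' : (0 : ℝ) < b := by exact_mod_cast hb
  have h1 := convexOn_exp.map_sum_le (t := T.ch u x) (w := fun _ => 1 / (b : ℝ))
    (p := fun y => g x y) (fun _ _ => by positivity)
    (by rw [Finset.sum_const, RTree.card_ch h, nsmul_eq_mul]; field_simp)
    (fun _ _ => mem_univ _)
  simp only [smul_eq_mul] at h1
  unfold RTree.av
  have e1 : (∑ y ∈ T.ch u x, g x y) / b = ∑ y ∈ T.ch u x, 1 / (b : ℝ) * g x y := by
    rw [← Finset.mul_sum]; ring
  have e2 : (∑ y ∈ T.ch u x, Real.exp (g x y)) / b =
      ∑ y ∈ T.ch u x, 1 / (b : ℝ) * Real.exp (g x y) := by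
    rw [← Finset.mul_sum]; ring
  rw [e1, e2]
  exact h1

end SE

open SE

/-- `exp (λ z wavN β² g) ≤ avN exp (λ g / 16) + (16 z)^m wavN β^{2m} exp (λ g)`, `z ∈ [0, 1]`. -/
theorem exp_wavN_le (T : RTree V b) (hb : 0 < b) {lam : ℝ} (hlam : 0 ≤ lam) {m : ℕ}
    (w g : V → V → ℝ) (hw : ∀ u x, 0 ≤ w u x ∧ w u x ≤ 1) (hg : ∀ u x, 0 ≤ g u x) (n : ℕ) :
    ∀ z : ℝ, 0 ≤ z → z ≤ 1 → ∀ u x, T.G.Adj u x →
    Real.exp (lam * (z * T.wavN w g n u x)) ≤
      T.wavN (fun _ _ => 1) (fun u x => Real.exp (lam * g u x / 16)) n u x +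
      (16 * z) ^ m * T.wavN (fun u x => w u x ^ m) (fun u x => Real.exp (lam * g u x)) n u x := by
  induction n with
  | zero =>
    intro z hz0 hz1 u x _
    show Real.exp (lam * (z * g u x)) ≤ Real.exp (lam * g u x / 16) +
      (16 * z) ^ m * Real.exp (lam * g u x)
    have hlg : 0 ≤ lam * g u x := mul_nonneg hlam (hg u x)
    rcases le_total z (1 / 16) with h | h
    · have h1 : Real.exp (lam * (z * g u x)) ≤ Real.exp (lam * g u x / 16) := by
        apply Real.exp_le_exp.2
        nlinarith
      have h2 : 0 ≤ (16 * z) ^ m * Real.exp (lam * g u x) := by positivity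
      linarith
    · have h1 : Real.exp (lam * (z * g u x)) ≤ Real.exp (lam * g u x) := by
        apply Real.exp_le_exp.2
        nlinarith
      have h2 : (1 : ℝ) ≤ (16 * z) ^ m := one_le_pow₀ (by linarith)
      have h3 := mul_le_mul_of_nonneg_right h2 (Real.exp_pos (lam * g u x)).le
      have h4 := Real.exp_pos (lam * g u x / 16)
      linarith
  | succ n ih =>
    intro z hz0 hz1 u x hux
    have e1 : lam * (z * T.wavN w g (n + 1) u x) =
        T.av (fun x y => lam * ((z * w x y) * T.wavN w g n x y)) u x := by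
      have e0 : (fun x y => lam * ((z * w x y) * T.wavN w g n x y)) =
          fun x y => (lam * z) * (w x y * T.wavN w g n x y) := by
        funext x y; ring
      rw [e0, RTree.av_const_mul, NB.wavN_succ]
      ring
    rw [e1]
    refine (exp_av_le hb _ hux).trans ?_
    have h2 : T.av (fun x y => Real.exp (lam * ((z * w x y) * T.wavN w g n x y))) u x ≤
        T.av (fun x y => T.wavN (fun _ _ => 1) (fun u x => Real.exp (lam * g u x / 16)) n x y +
          (16 * z) ^ m * (w x y ^ m *
            T.wavN (fun u x => w u x ^ m) (fun u x => Real.exp (lam * g u x)) n x y)) u x := by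
      refine RTree.av_mono fun y hy => ?_
      have h3 := ih (z * w x y) (mul_nonneg hz0 (hw x y).1)
        (mul_le_one₀ hz1 (hw x y).1 (hw x y).2) x y (RTree.mem_ch.mp hy).2
      refine h3.trans (le_of_eq ?_)
      rw [← mul_assoc 16 z (w x y), mul_pow (16 * z) (w x y) m]
      ring
    refine h2.trans (le_of_eq ?_)
    rw [RTree.av_add, RTree.av_const_mul, NB.wavN_succ, NB.wavN_succ]
    simp only [one_mul]

theorem chiN_add (T : RTree V b) (w : V → V → ℝ) (hw : ∀ u x, 0 ≤ w u x ∧ w u x ≤ 1)
    (hb : 0 < b) (n N : ℕ) (u x : V) (hux : T.G.Adj u x) :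
    T.chiN w (n + N) u x ≤ n + T.wavN w (T.chiN w N) n u x := by
  induction n generalizing u x with
  | zero =>
    rw [Nat.zero_add, Nat.cast_zero, zero_add]
    exact le_rfl
  | succ n ih =>
    rw [Nat.add_right_comm]
    show 1 + T.wav w (T.chiN w (n + N)) u x ≤ _
    have h1 : T.wav w (T.chiN w (n + N)) u x ≤
        T.av (fun x y => (n : ℝ) + w x y * T.wavN w (T.chiN w N) n x y) u x := by
      refine RTree.av_mono fun y hy => ?_
      have h2 := ih x y (RTree.mem_ch.mp hy).2
      have h3 := mul_le_mul_of_nonneg_left h2 (hw x y).1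
      have h4 : w x y * (n : ℝ) ≤ n := mul_le_of_le_one_left (Nat.cast_nonneg n) (hw x y).2
      calc w x y * T.chiN w (n + N) x y ≤ w x y * (n + T.wavN w (T.chiN w N) n x y) := h3
        _ = w x y * n + w x y * T.wavN w (T.chiN w N) n x y := by ring
        _ ≤ _ := by linarith
    have e1 : T.av (fun x y => (n : ℝ) + w x y * T.wavN w (T.chiN w N) n x y) u x =
        n + T.wavN w (T.chiN w N) (n + 1) u x := by
      rw [RTree.av_add (fun _ _ => (n : ℝ)), RTree.av_const hb _ hux, NB.wavN_succ]
    rw [e1] at h1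
    push_cast
    linarith

end Vale.Agent.P161E
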