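import Vale.Agent.P161E.SWav
import Vale.Agent.P161E.SExp
import Vale.Agent.P161E.PairAux

/-!
# Part S: exponential moments of `χ`
-/

open MeasureTheory Set Filter Topology
open scoped unitInterval ENNReal

namespace Vale.Agent.P161E

open Vale.Agent.P161

universe u

namespace SC

/-- the statement of `one_step` -/
def OneStepStmt (b : ℕ) : Prop := ∃ M c : ℝ, 0 < M ∧ 0 < c ∧ ∀ (V : Type u)
    (T : RTree V b) (θ ρ : ℝ) (μ : Measure (V → Bool)) (ν : Measure ℝ) (Q : Measure (V → ℝ)),
    SR T θ μ ν Q → Rate ν ρ →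
    ∀ u x y, T.G.Adj u x → y ∈ T.ch u x → ∀ g : (V → ℝ) → ℝ, Measurable g → (∀ Y, 0 ≤ g Y) →
    Integrable g Q → DependsOn g (T.side x y) →
    ∫ Y, Real.exp (-(M / ρ) * (1 - be b θ (th T μ u x Y))) * g Y ∂Q ≤
      Real.exp (-c) * ∫ Y, g Y ∂Q ∧
    ∫ Y, be b θ (th T μ u x Y) ^ 2 * g Y ∂Q ≤ Real.exp (-(c * ρ)) * ∫ Y, g Y ∂Q ∧
    ∀ m : ℕ, M / ρ ≤ m → ∫ Y, be b θ (th T μ u x Y) ^ (2 * m) * g Y ∂Q ≤
      Real.exp (-c) * ∫ Y, g Y ∂Q

/-- basic facts about `th` -/
structure ThFacts (b : ℕ) : Prop where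
  meas : ∀ (V : Type u) (T : RTree V b) (μ : Measure (V → Bool)), IsProbabilityMeasure μ →
    ∀ u x : V, Measurable (th T μ u x)
  dep : ∀ (V : Type u) (T : RTree V b) (μ : Measure (V → Bool)) (u x : V),
    DependsOn (th T μ u x) (T.side u x)
  abs : ∀ (V : Type u) (T : RTree V b) (μ : Measure (V → Bool)), IsProbabilityMeasure μ →
    ∀ (u x : V) (Y : V → ℝ), |th T μ u x Y| ≤ 1

variable {V : Type u} {b : ℕ} {T : RTree V b}

theorem measurable_be (b : ℕ) (θ : ℝ) : Measurable (be b θ) := by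
  unfold be af
  fun_prop

theorem chiN_nonneg {w : V → V → ℝ} (hw : ∀ u x, 0 ≤ w u x) (N : ℕ) (u x : V) :
    0 ≤ T.chiN w N u x := by
  induction N generalizing u x with
  | zero => exact zero_le_one
  | succ N ih =>
    show 0 ≤ 1 + T.wav w (T.chiN w N) u x
    have : 0 ≤ T.wav w (T.chiN w N) u x :=
      RTree.av_nonneg fun y _ => mul_nonneg (hw x y) (ih x y)
    linarith

theorem chiN_le {w : V → V → ℝ} (hb : 0 < b) (hw : ∀ u x, 0 ≤ w u x ∧ w u x ≤ 1) (N : ℕ)
    {u x : V} (hux : T.G.Adj u x) : T.chiN w N u x ≤ N + 1 := by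
  have h1 := chiN_add T w hw hb N 0 u x hux
  have h2 := NB.wavN_le_one (T := T) hb (fun u x => (hw u x).1) (fun u x => (hw u x).2) N hux
  have h3 : T.chiN w 0 = fun _ _ => 1 := rfl
  rw [h3, Nat.add_zero] at h1
  linarith

theorem measurable_chiN {w : V → V → (V → ℝ) → ℝ} (hw : ∀ u x, Measurable (w u x)) (N : ℕ)
    (u x : V) : Measurable (fun Y => T.chiN (fun u x => w u x Y) N u x) := by
  induction N generalizing u x with
  | zero => exact measurable_const
  | succ N ih =>
    show Measurable fun Y => 1 + (∑ y ∈ T.ch u x, w x y Y * T.chiN (fun u x => w u x Y) N x y) / b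
    refine measurable_const.add (Measurable.div_const ?_ _)
    exact Finset.measurable_sum _ fun y _ => (hw x y).mul (ih x y)

theorem dependsOn_chiN {w : V → V → (V → ℝ) → ℝ}
    (hwd : ∀ u x, T.G.Adj u x → DependsOn (w u x) (T.side u x)) (N : ℕ) (u x : V)
    (hux : T.G.Adj u x) :
    DependsOn (fun Y => T.chiN (fun u x => w u x Y) N u x) (T.side u x) := by
  induction N generalizing u x with
  | zero => exact fun _ _ _ => rfl
  | succ N ih =>
    intro Y Y' h
    show 1 + (∑ y ∈ T.ch u x, w x y Y * T.chiN (fun u x => w u x Y) N x y) / (b : ℝ) =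
      1 + (∑ y ∈ T.ch u x, w x y Y' * T.chiN (fun u x => w u x Y') N x y) / (b : ℝ)
    congr 2
    refine Finset.sum_congr rfl fun y hy => ?_
    have hxy := SW.adj_of_ch hy
    have hs := Dec.side_sub hux hy
    rw [hwd x y hxy (fun i hi => h i (hs hi))]
    congr 1
    exact ih x y hxy (fun i hi => h i (hs hi))

/-- the abstract induction -/
theorem main (hb : 0 < b) (Q : Measure (V → ℝ)) [IsProbabilityMeasure Q] {δ lam : ℝ}
    (hδ : 0 ≤ δ) (hlam : 0 ≤ lam) {n m : ℕ} (hn : 1 ≤ n)
    (h1 : Real.exp (lam * n) ≤ 2) (h2 : 16 ^ m * (δ ^ (n - 1) * 4) ≤ 1 / 4)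
    {w : V → V → (V → ℝ) → ℝ} (hw : ∀ u x, Measurable (w u x))
    (hw0 : ∀ u x Y, 0 ≤ w u x Y ∧ w u x Y ≤ 1)
    (hwd : ∀ u x, T.G.Adj u x → DependsOn (w u x) (T.side u x))
    (hstep : ∀ u x y, T.G.Adj u x → y ∈ T.ch u x → ∀ k : (V → ℝ) → ℝ, Measurable k →
      (∀ Y, 0 ≤ k Y) → Integrable k Q → DependsOn k (T.side x y) →
      ∫ Y, w u x Y ^ m * k Y ∂Q ≤ δ * ∫ Y, k Y ∂Q) (N : ℕ) :
    ∀ u x : V, T.G.Adj u x →
      ∫ Y, Real.exp (lam * T.chiN (fun u x => w u x Y) N u x) ∂Q ≤ 4 := by
  induction N using Nat.strong_induction_on with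
  | _ N ih =>
    intro u x hux
    rcases lt_or_ge N n with hN | hN
    · -- small `N`
      have h3 : ∀ Y, Real.exp (lam * T.chiN (fun u x => w u x Y) N u x) ≤ 4 := by
        intro Y
        have h4 := chiN_le (T := T) hb (fun u x => hw0 u x Y) N hux
        have h5 : ((N : ℝ) + 1) ≤ n := by exact_mod_cast hN
        have h6 : lam * T.chiN (fun u x => w u x Y) N u x ≤ lam * n :=
          mul_le_mul_of_nonneg_left (h4.trans h5) hlam
        have := Real.exp_le_exp.2 h6
        linarith
      calc ∫ Y, Real.exp (lam * T.chiN (fun u x => w u x Y) N u x) ∂Q ≤ ∫ _Y, (4 : ℝ) ∂Q :=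
            integral_mono_of_nonneg (Eventually.of_forall fun Y => (Real.exp_pos _).le)
              (integrable_const _) (Eventually.of_forall h3)
        _ = 4 := by simp
    · obtain ⟨N', rfl⟩ : ∃ N', N = n + N' := ⟨N - n, by omega⟩
      have hN' := ih N' (by omega)
      -- the two families
      set g : V → V → (V → ℝ) → ℝ := fun u x Y =>
        Real.exp (lam * T.chiN (fun u x => w u x Y) N' u x) with hg
      set g' : V → V → (V → ℝ) → ℝ := fun u x Y =>
        Real.exp (lam * T.chiN (fun u x => w u x Y) N' u x / 16) with hg'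
      have gm : ∀ u x, Measurable (g u x) := fun u x =>
        Real.measurable_exp.comp ((measurable_chiN hw N' u x).const_mul lam)
      have gm' : ∀ u x, Measurable (g' u x) := fun u x =>
        Real.measurable_exp.comp (((measurable_chiN hw N' u x).const_mul lam).div_const 16)
      have gd : ∀ u x, T.G.Adj u x → DependsOn (g u x) (T.side u x) := by
        intro u x h Y Y' hY
        show Real.exp _ = Real.exp _
        rw [show T.chiN (fun u x => w u x Y) N' u x = T.chiN (fun u x => w u x Y') N' u x from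
          dependsOn_chiN hwd N' u x h hY]
      have gd' : ∀ u x, T.G.Adj u x → DependsOn (g' u x) (T.side u x) := by
        intro u x h Y Y' hY
        show Real.exp _ = Real.exp _
        rw [show T.chiN (fun u x => w u x Y) N' u x = T.chiN (fun u x => w u x Y') N' u x from
          dependsOn_chiN hwd N' u x h hY]
      have gb : ∀ u x, T.G.Adj u x → ∀ Y, g u x Y ≤ Real.exp (lam * (N' + 1)) := by
        intro u x h Y
        exact Real.exp_le_exp.2 (mul_le_mul_of_nonneg_left
          (chiN_le (T := T) hb (fun u x => hw0 u x Y) N' h) hlam)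
      have gi : ∀ u x, T.G.Adj u x → Integrable (g u x) Q := by
        intro u x h
        refine Integrable.mono' (integrable_const (Real.exp (lam * (N' + 1))))
          (gm u x).aestronglyMeasurable (Eventually.of_forall fun Y => ?_)
        rw [Real.norm_of_nonneg (Real.exp_pos _).le]
        exact gb u x h Y
      have g0 : ∀ u x Y, 0 ≤ lam * T.chiN (fun u x => w u x Y) N' u x := fun u x Y =>
        mul_nonneg hlam (chiN_nonneg (fun u x => (hw0 u x Y).1) N' u x)
      have gi' : ∀ u x, T.G.Adj u x → Integrable (g' u x) Q := by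
        intro u x h
        refine (gi u x h).mono' (gm' u x).aestronglyMeasurable (Eventually.of_forall fun Y => ?_)
        rw [Real.norm_of_nonneg (Real.exp_pos _).le]
        apply Real.exp_le_exp.2
        have := g0 u x Y
        linarith
      -- Bernoulli
      have gG' : ∀ u x, T.G.Adj u x → ∫ Y, g' u x Y ∂Q ≤ 19 / 16 := by
        intro u x h
        have h3 : ∀ Y, g' u x Y ≤ 15 / 16 + g u x Y / 16 := by
          intro Y
          have h4 : g u x Y = g' u x Y ^ 16 := by
            show Real.exp (lam * T.chiN (fun u x => w u x Y) N' u x) =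
              Real.exp (lam * T.chiN (fun u x => w u x Y) N' u x / 16) ^ 16
            rw [← Real.exp_nat_mul]
            congr 1
            push_cast
            ring
          have h5 := one_add_mul_le_pow (a := g' u x Y - 1)
            (by have := Real.exp_pos (lam * T.chiN (fun u x => w u x Y) N' u x / 16)
                show -2 ≤ Real.exp (lam * T.chiN (fun u x => w u x Y) N' u x / 16) - 1
                linarith) 16
          rw [show 1 + (g' u x Y - 1) = g' u x Y by ring, ← h4] at h5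
          push_cast at h5
          linarith
        have h6 : ∫ Y, g' u x Y ∂Q ≤ ∫ Y, (15 / 16 + g u x Y / 16) ∂Q :=
          integral_mono (gi' u x h) ((integrable_const _).add ((gi u x h).div_const 16)) h3
        rw [integral_add (integrable_const _) ((gi u x h).div_const 16),
          integral_div (16 : ℝ) (g u x)] at h6
        have h7 := hN' u x h
        simp only [integral_const, probReal_univ, smul_eq_mul, one_mul] at h6
        have h8 : ∫ Y, g u x Y ∂Q ≤ 4 := h7
        linarith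
      have k1 := wavN_decay T hb Q (δ := 1) (G := 19 / 16) zero_le_one
        (w := fun _ _ _ => 1) (g := g') (fun _ _ => measurable_const) gm'
        (fun _ _ _ => ⟨zero_le_one, le_rfl⟩) (fun _ _ _ => (Real.exp_pos _).le)
        (fun _ _ _ _ _ _ => rfl) gd' gi' gG'
        (fun _ _ _ _ _ k _ _ _ _ => by simp) n u x hux
      rw [one_pow, one_mul] at k1
      have wm : ∀ u x, Measurable fun Y => w u x Y ^ m := fun u x => (hw u x).pow_const m
      have wm0 : ∀ u x Y, 0 ≤ w u x Y ^ m ∧ w u x Y ^ m ≤ 1 := fun u x Y =>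
        ⟨pow_nonneg (hw0 u x Y).1 m, pow_le_one₀ (hw0 u x Y).1 (hw0 u x Y).2⟩
      have wmd : ∀ u x, T.G.Adj u x → DependsOn (fun Y => w u x Y ^ m) (T.side u x) := by
        intro u x h Y Y' hY
        show w u x Y ^ m = w u x Y' ^ m
        rw [hwd u x h hY]
      have k2 := wavN_decay T hb Q (δ := δ) (G := 4) hδ (w := fun u x Y => w u x Y ^ m) (g := g)
        wm gm wm0 (fun _ _ _ => (Real.exp_pos _).le) wmd gd gi hN' hstep n u x hux
      have i1 := wavN_integrable T Q (w := fun _ _ _ => 1) (g := g') (fun _ _ => measurable_const)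
        (fun _ _ _ => ⟨zero_le_one, le_rfl⟩) gi' n u x hux
      have i2 := wavN_integrable T Q (w := fun u x Y => w u x Y ^ m) (g := g) wm wm0 gi n u x hux
      -- pointwise
      have hpt : ∀ Y, Real.exp (lam * T.chiN (fun u x => w u x Y) (n + N') u x) ≤
          2 * (T.wavN (fun _ _ => 1) (fun u x => g' u x Y) n u x +
            16 ^ m * T.wavN (fun u x => w u x Y ^ m) (fun u x => g u x Y) n u x) := by
        intro Y
        have p1 := chiN_add T (fun u x => w u x Y) (fun u x => hw0 u x Y) hb n N' u x hux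
        have p2 := exp_wavN_le T hb hlam (m := m) (fun u x => w u x Y)
          (T.chiN (fun u x => w u x Y) N') (fun u x => hw0 u x Y)
          (fun u x => chiN_nonneg (fun u x => (hw0 u x Y).1) N' u x) n 1 zero_le_one le_rfl u x hux
        rw [mul_one, one_mul] at p2
        have p3 : Real.exp (lam * T.chiN (fun u x => w u x Y) (n + N') u x) ≤
            Real.exp (lam * n) * Real.exp (lam *
              T.wavN (fun u x => w u x Y) (T.chiN (fun u x => w u x Y) N') n u x) := by
          rw [← Real.exp_add]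
          apply Real.exp_le_exp.2
          rw [← mul_add]
          exact mul_le_mul_of_nonneg_left p1 hlam
        refine p3.trans ?_
        exact mul_le_mul h1 p2 (Real.exp_pos _).le zero_le_two
      calc ∫ Y, Real.exp (lam * T.chiN (fun u x => w u x Y) (n + N') u x) ∂Q
          ≤ ∫ Y, 2 * (T.wavN (fun _ _ => 1) (fun u x => g' u x Y) n u x +
            16 ^ m * T.wavN (fun u x => w u x Y ^ m) (fun u x => g u x Y) n u x) ∂Q :=
            integral_mono_of_nonneg (Eventually.of_forall fun Y => (Real.exp_pos _).le)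
              ((i1.add (i2.const_mul _)).const_mul 2) (Eventually.of_forall hpt)
        _ = 2 * (∫ Y, T.wavN (fun _ _ => 1) (fun u x => g' u x Y) n u x ∂Q +
            16 ^ m * ∫ Y, T.wavN (fun u x => w u x Y ^ m) (fun u x => g u x Y) n u x ∂Q) := by
            rw [integral_const_mul, integral_add i1 (i2.const_mul _), integral_const_mul]
        _ ≤ 2 * (19 / 16 + 16 ^ m * (δ ^ (n - 1) * 4)) := by
            gcongr
        _ ≤ 4 := by linarith

end SC

open SC in
theorem chi_exp_core {b : ℕ} (hb : 2 ≤ b) (hone : OneStepStmt.{u} b) (hth : ThFacts.{u} b) :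
    ∃ c : ℝ, 0 < c ∧ ∀ (V : Type u)
    (T : RTree V b) (θ ρ : ℝ) (μ : Measure (V → Bool)) (ν : Measure ℝ) (Q : Measure (V → ℝ)),
    SR T θ μ ν Q → Rate ν ρ → ∀ (N : ℕ) (u x : V), T.G.Adj u x →
    ∫ Y, Real.exp (c * ρ * T.chiN (fun u x => be b θ (th T μ u x Y) ^ 2) N u x) ∂Q ≤ 4 := by
  obtain ⟨M, c₁, hM, hc₁, hone⟩ := hone
  set A : ℕ := ⌈8 / c₁⌉₊ with hA
  have hA1 : 8 ≤ c₁ * A := by
    have h1 := Nat.le_ceil (8 / c₁)
    rw [div_le_iff₀ hc₁] at h1
    rw [hA, mul_comm]
    exact h1
  set D : ℝ := A * (M + 1) + 1 with hD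
  have hD0 : 0 < D := by positivity
  refine ⟨1 / (2 * D), by positivity, ?_⟩
  intro V T θ ρ μ ν Q h hr N u x hux
  have := h.prob_Q
  have hμ := h.prob_μ
  have hρ := hr.pos
  have hρ1 : ρ ≤ 1 := by linarith [hr.le]
  set m : ℕ := ⌈M / ρ⌉₊ with hm
  have hm0 : M / ρ ≤ m := Nat.le_ceil _
  have hm1 : 1 ≤ m := by
    rw [hm]
    exact Nat.one_le_iff_ne_zero.2 (Nat.pos_iff_ne_zero.1 (Nat.ceil_pos.2 (by positivity)))
  have hm2 : (m : ℝ) ≤ (M + 1) / ρ := by
    have h1 := (Nat.ceil_lt_add_one (show 0 ≤ M / ρ by positivity)).le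
    rw [← hm] at h1
    have h2 : (1 : ℝ) ≤ 1 / ρ := by rw [le_div_iff₀ hρ]; linarith
    rw [add_div]
    linarith
  have hbe : ∀ u x Y, 0 ≤ be b θ (th T μ u x Y) ∧ be b θ (th T μ u x Y) ≤ 1 := fun u x Y =>
    PR.be_mem hb h.θ0 h.θ1 (hth.abs V T μ hμ u x Y)
  refine main (T := T) (by omega) Q (δ := Real.exp (-c₁)) (lam := 1 / (2 * D) * ρ)
    (n := A * m + 1) (m := m) (w := fun u x Y => be b θ (th T μ u x Y) ^ 2)
    (Real.exp_pos _).le (by positivity) (by omega) ?_ ?_ ?_ ?_ ?_ ?_ N u x hux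
  · -- `exp (lam n) ≤ 2`
    have h1 : 1 / (2 * D) * ρ * ((A * m + 1 : ℕ) : ℝ) ≤ 1 / 2 := by
      have h2 : ((A * m + 1 : ℕ) : ℝ) ≤ D / ρ := by
        push_cast
        have h3 : (A : ℝ) * m ≤ A * ((M + 1) / ρ) := by gcongr
        have h4 : (1 : ℝ) ≤ 1 / ρ := by rw [le_div_iff₀ hρ]; linarith
        have h5 : D / ρ = A * ((M + 1) / ρ) + 1 / ρ := by rw [hD]; ring
        rw [h5]
        linarith
      calc 1 / (2 * D) * ρ * ((A * m + 1 : ℕ) : ℝ) ≤ 1 / (2 * D) * ρ * (D / ρ) := by gcongr
        _ = 1 / 2 := by field_simp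
    have h6 : Real.exp (1 / 2) ≤ 2 := by
      have h7 : Real.exp (1 / 2) ^ 2 ≤ 2 ^ 2 := by
        rw [← Real.exp_nat_mul]
        have : Real.exp (((2 : ℕ) : ℝ) * (1 / 2)) = Real.exp 1 := by congr 1; norm_num
        rw [this]
        have := Real.exp_one_lt_d9
        linarith
      exact le_of_pow_le_pow_left₀ (by norm_num) (by norm_num) h7
    exact (Real.exp_le_exp.2 h1).trans h6
  · rw [Nat.add_sub_cancel]
    have h1 : Real.exp (-c₁) ^ (A * m) = Real.exp (-(c₁ * A)) ^ m := by
      rw [pow_mul, ← Real.exp_nat_mul]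
      congr 2
      ring
    rw [h1, ← mul_assoc, ← mul_pow]
    have h2 : 16 * Real.exp (-(c₁ * A)) ≤ 1 / 16 := by
      have h3 : Real.exp (-(c₁ * A)) ≤ Real.exp (-8) := Real.exp_le_exp.2 (by linarith)
      have h4 : Real.exp (-8) ≤ 1 / 256 := by
        rw [Real.exp_neg]
        have h5 : (256 : ℝ) ≤ Real.exp 8 := by
          have : Real.exp 8 = Real.exp 1 ^ 8 := by rw [← Real.exp_nat_mul]; congr 1; norm_num
          rw [this]
          calc (256 : ℝ) = 2 ^ 8 := by norm_num
            _ ≤ Real.exp 1 ^ 8 := pow_le_pow_left₀ (by norm_num)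
              (by have := Real.exp_one_gt_d9; linarith) 8
        rw [one_div]
        exact inv_anti₀ (by norm_num) h5
      linarith
    have h3 : (16 * Real.exp (-(c₁ * A))) ^ m ≤ 1 / 16 := by
      calc (16 * Real.exp (-(c₁ * A))) ^ m ≤ (1 / 16) ^ m :=
            pow_le_pow_left₀ (by positivity) h2 m
        _ ≤ (1 / 16) ^ 1 := pow_le_pow_of_le_one (by norm_num) (by norm_num) hm1
        _ = 1 / 16 := pow_one _
    linarith
  · exact fun u x => ((measurable_be b θ).comp (hth.meas V T μ hμ u x)).pow_const 2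
  · exact fun u x Y => ⟨sq_nonneg _, pow_le_one₀ (hbe u x Y).1 (hbe u x Y).2⟩
  · intro u x _ Y Y' hY
    show be b θ (th T μ u x Y) ^ 2 = be b θ (th T μ u x Y') ^ 2
    rw [hth.dep V T μ u x hY]
  · intro u x y hux hy k hk hk0 hki hkd
    have h1 := (hone V T θ ρ μ ν Q h hr u x y hux hy k hk hk0 hki hkd).2.2 m hm0
    simp only [← pow_mul]
    exact h1

end Vale.Agent.P161E
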