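import Vale.Agent.P161E.SStep
import Vale.Agent.P161E.SChiCore

/-!
# Part S, S9B: exponential moments of `χ`
-/

open MeasureTheory Set Filter Topology
open scoped unitInterval ENNReal

namespace Vale.Agent.P161E

open Vale.Agent.P161

universe u

theorem chi_exp {b : ℕ} (hb : 2 ≤ b) : ∃ c : ℝ, 0 < c ∧ ∀ (V : Type u)
    (T : RTree V b) (θ ρ : ℝ) (μ : Measure (V → Bool)) (ν : Measure ℝ) (Q : Measure (V → ℝ)),
    SR T θ μ ν Q → Rate ν ρ → ∀ (N : ℕ) (u x : V), T.G.Adj u x →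
    ∫ Y, Real.exp (c * ρ * T.chiN (fun u x => be b θ (th T μ u x Y) ^ 2) N u x) ∂Q ≤ 4 :=
  chi_exp_core hb (one_step hb)
    ⟨fun _ T μ _ u x => measurable_th T μ u x, fun _ T μ u x => dependsOn_th T μ u x,
      fun _ T μ _ u x Y => abs_th_le T μ u x Y⟩

end Vale.Agent.P161E
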