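import Vale.Agent.P161E.SSib
import Vale.Agent.P161E.SExp

/-!
# Part S: tails of `χ`
-/

open MeasureTheory Set Filter Topology
open scoped unitInterval ENNReal

namespace Vale.Agent.P161E

open Vale.Agent.P161

universe u

variable {V : Type u} {b : ℕ}

namespace CT

theorem chiN_le_succ (T : RTree V b) {w : V → V → ℝ} (hw : ∀ u x, 0 ≤ w u x ∧ w u x ≤ 1)
    (n : ℕ) (u x : V) : T.chiN w n u x ≤ T.chiN w (n + 1) u x := by
  induction n generalizing u x with
  | zero =>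
    rw [Sib.chiN_succ]
    have : 0 ≤ (∑ y ∈ T.ch u x, w x y * T.chiN w 0 x y) / (b : ℝ) :=
      div_nonneg (Finset.sum_nonneg fun y _ => mul_nonneg (hw x y).1 zero_le_one)
        (Nat.cast_nonneg b)
    show (1 : ℝ) ≤ _
    linarith
  | succ n ih =>
    rw [Sib.chiN_succ, Sib.chiN_succ T w (n + 1)]
    gcongr with y hy
    · exact (hw x y).1
    · exact ih x y

theorem chiN_mono (T : RTree V b) {w : V → V → ℝ} (hw : ∀ u x, 0 ≤ w u x ∧ w u x ≤ 1)
    (u x : V) : Monotone fun n => T.chiN w n u x :=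
  monotone_nat_of_le_succ fun n => chiN_le_succ T hw n u x

theorem wavN_le_one (T : RTree V b) {w g : V → V → ℝ} (hw : ∀ u x, 0 ≤ w u x ∧ w u x ≤ 1)
    (hg : ∀ u x, 0 ≤ g u x) (n : ℕ) (u x : V) :
    0 ≤ T.wavN w g n u x ∧ T.wavN w g n u x ≤ T.wavN (fun _ _ => 1) g n u x := by
  induction n generalizing u x with
  | zero => exact ⟨hg u x, le_rfl⟩
  | succ n ih =>
    rw [SW.wavN_succ, SW.wavN_succ]
    constructor
    · exact div_nonneg (Finset.sum_nonneg fun y _ => mul_nonneg (hw x y).1 (ih x y).1)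
        (Nat.cast_nonneg b)
    · gcongr with y hy
      · exact (ih x y).1
      · exact (hw x y).2
      · exact (ih x y).2

theorem pow_four_le {x : ℝ} (hx : 0 ≤ x) : x ^ 4 ≤ 24 * Real.exp x := by
  have := Real.sum_le_exp_of_nonneg hx 5
  norm_num [Finset.sum_range_succ, Nat.factorial] at this
  have h2 : 0 ≤ x ^ 2 := by positivity
  have h3 : 0 ≤ x ^ 3 := by positivity
  nlinarith

end CT

section

variable {T : RTree V b} {θ : ℝ} {μ : Measure (V → Bool)} {ν : Measure ℝ} {Q : Measure (V → ℝ)}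

namespace CT

/-- the weights -/
noncomputable def W (T : RTree V b) (μ : Measure (V → Bool)) (θ : ℝ) (Y : V → ℝ) : V → V → ℝ :=
  fun u x => be b θ (th T μ u x Y) ^ 2

theorem W_mem (h : SR T θ μ ν Q) (Y : V → ℝ) (u x : V) :
    0 ≤ W T μ θ Y u x ∧ W T μ θ Y u x ≤ 1 := Sib.w_mem h u x Y

theorem chi_meas (h : SR T θ μ ν Q) (n : ℕ) (u x : V) :
    Measurable (fun Y => T.chiN (W T μ θ Y) n u x) :=
  (Sib.chiN_basic T (Sib.w_meas h) (fun u x Y => (Sib.w_mem h u x Y).1)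
    (fun u x _ => Sib.w_dep T θ μ u x) n u x).1

theorem chi_nonneg (h : SR T θ μ ν Q) (n : ℕ) (u x : V) (Y : V → ℝ) :
    0 ≤ T.chiN (W T μ θ Y) n u x :=
  (Sib.chiN_basic T (Sib.w_meas h) (fun u x Y => (Sib.w_mem h u x Y).1)
    (fun u x _ => Sib.w_dep T θ μ u x) n u x).2.1 Y

theorem chiY_meas (h : SR T θ μ ν Q) (u x : V) : Measurable (chiY T μ θ u x) :=
  Measurable.limsup fun n => chi_meas h n u x

/-- convergence to `chiY` -/
theorem tendsto_chiY (h : SR T θ μ ν Q) {u x : V} {Y : V → ℝ}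
    (hY : BddAbove (range fun n => T.chiN (W T μ θ Y) n u x)) :
    Tendsto (fun n => T.chiN (W T μ θ Y) n u x) atTop (𝓝 (chiY T μ θ u x Y)) := by
  have h1 := tendsto_atTop_ciSup (chiN_mono T (W_mem h Y) u x) hY
  have h2 : chiY T μ θ u x Y = ⨆ n, T.chiN (W T μ θ Y) n u x := h1.limsup_eq
  rw [h2]
  exact h1

/-- one level -/
theorem level (h : SR T θ μ ν Q) {s : ℝ} (hs : 0 < s)
    (h4 : ∀ (N : ℕ) (u x : V), T.G.Adj u x →
      ∫ Y, Real.exp (s * T.chiN (fun u x => be b θ (th T μ u x Y) ^ 2) N u x) ∂Q ≤ 4)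
    (n N : ℕ) {u x : V} (hux : T.G.Adj u x) :
    Q {Y | n + 3 / s < T.chiN (W T μ θ Y) (n + N) u x} ≤
      ENNReal.ofReal (Real.exp (-(b : ℝ) ^ n)) := by
  have := h.prob_μ
  have := h.prob_Q
  have hb0 : 0 < b := by have := h.hb; omega
  have hgen := chi_gen h hs.le (N := N) (fun u x hux => h4 N u x hux) n u x hux
  set X : (V → ℝ) → ℝ := fun Y => T.wavN (fun _ _ => 1) (T.chiN (W T μ θ Y) N) n u x with hX
  have hXm : Measurable X := by
    exact (wavN_basic T (w := fun _ _ _ => 1)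
        (g := fun u x Y => T.chiN (fun u x => be b θ (th T μ u x Y) ^ 2) N u x)
        (fun _ _ => measurable_const)
        (fun u x => chi_meas h N u x)
        (fun _ _ _ => zero_le_one)
        (fun u x => chi_nonneg h N u x)
        (fun _ _ _ _ _ _ => rfl)
        (fun u x hux => (Sib.chiN_basic T (Sib.w_meas h) (fun u x Y => (Sib.w_mem h u x Y).1)
          (fun u x _ => Sib.w_dep T θ μ u x) N u x).2.2 hux) n u x hux).1
  have hXb : ∀ Y, 0 ≤ X Y ∧ X Y ≤ 2 ^ n * (2 ^ (N + 1) - 1) := fun Y =>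
    Sib.wavN_bd T hb0 (fun _ _ => ⟨zero_le_one, le_rfl⟩)
      (fun u x => Sib.chiN_bd T hb0 (fun u x => Sib.w_mem h u x Y) N u x) n u x
  have hgen' : ∫ Y, Real.exp (s * (b ^ n * X Y)) ∂Q ≤ 4 ^ (b ^ n) := hgen
  have hint : Integrable (fun Y => Real.exp (s * (b ^ n * X Y))) Q := by
    refine Integrable.of_bound (Real.measurable_exp.comp
      ((hXm.const_mul _).const_mul _)).aestronglyMeasurable
      (Real.exp (s * (b ^ n * (2 ^ n * (2 ^ (N + 1) - 1))))) (Eventually.of_forall fun Y => ?_)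
    rw [Real.norm_eq_abs, Real.abs_exp]
    apply Real.exp_le_exp.mpr
    have := (hXb Y).2
    gcongr
  have hmk := mul_meas_ge_le_integral_of_nonneg
    (Eventually.of_forall fun Y => (Real.exp_pos (s * (b ^ n * X Y))).le) hint
    (Real.exp (3 * (b : ℝ) ^ n))
  -- the event
  have hsub : {Y | n + 3 / s < T.chiN (W T μ θ Y) (n + N) u x} ⊆
      {Y | Real.exp (3 * (b : ℝ) ^ n) ≤ Real.exp (s * (b ^ n * X Y))} := by
    intro Y hY
    have h1 : (n : ℝ) + 3 / s < T.chiN (W T μ θ Y) (n + N) u x := hY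
    have h2 := chiN_add T (W T μ θ Y) (W_mem h Y) hb0 n N u x hux
    have h3 := (wavN_le_one T (W_mem h Y) (fun u x => chi_nonneg h N u x Y) n u x).2
    have h5 : 3 / s < X Y := by
      have : X Y = T.wavN (fun _ _ => 1) (T.chiN (W T μ θ Y) N) n u x := rfl
      linarith
    rw [div_lt_iff₀ hs] at h5
    show Real.exp _ ≤ Real.exp _
    apply Real.exp_le_exp.mpr
    have hbn : (0 : ℝ) ≤ (b : ℝ) ^ n := by positivity
    nlinarith
  have hreal : Q.real {Y | n + 3 / s < T.chiN (W T μ θ Y) (n + N) u x} ≤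
      Real.exp (-(b : ℝ) ^ n) := by
    have h1 : Q.real {Y | n + 3 / s < T.chiN (W T μ θ Y) (n + N) u x} ≤
        Q.real {Y | Real.exp (3 * (b : ℝ) ^ n) ≤ Real.exp (s * (b ^ n * X Y))} :=
      measureReal_mono hsub
    have h2 : Real.exp (3 * (b : ℝ) ^ n) *
        Q.real {Y | n + 3 / s < T.chiN (W T μ θ Y) (n + N) u x} ≤ 4 ^ (b ^ n) :=
      (mul_le_mul_of_nonneg_left h1 (Real.exp_pos _).le).trans (hmk.trans hgen')
    have h3 : (4 : ℝ) ^ (b ^ n) ≤ Real.exp (3 * (b : ℝ) ^ n) * Real.exp (-(b : ℝ) ^ n) := by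
      rw [← Real.exp_add]
      have h5 : (4 : ℝ) ≤ Real.exp 2 := by
        have : Real.exp 2 = Real.exp 1 * Real.exp 1 := by rw [← Real.exp_add]; norm_num
        rw [this]
        nlinarith [Real.exp_one_gt_d9]
      have h6 : Real.exp (3 * (b : ℝ) ^ n + -(b : ℝ) ^ n) = Real.exp 2 ^ (b ^ n) := by
        rw [← Real.exp_nat_mul]
        congr 1
        push_cast
        ring
      rw [h6]
      exact pow_le_pow_left₀ (by norm_num) h5 _
    exact le_of_mul_le_mul_left (h2.trans h3) (Real.exp_pos _)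
  rw [← ofReal_measureReal]
  exact ENNReal.ofReal_le_ofReal hreal

theorem level_union (h : SR T θ μ ν Q) {s : ℝ} (hs : 0 < s)
    (h4 : ∀ (N : ℕ) (u x : V), T.G.Adj u x →
      ∫ Y, Real.exp (s * T.chiN (fun u x => be b θ (th T μ u x Y) ^ 2) N u x) ∂Q ≤ 4)
    (n : ℕ) {u x : V} (hux : T.G.Adj u x) :
    Q (⋃ N : ℕ, {Y | n + 3 / s < T.chiN (W T μ θ Y) (n + N) u x}) ≤
      ENNReal.ofReal (Real.exp (-(b : ℝ) ^ n)) := by
  have hm : Monotone fun N : ℕ => {Y | (n : ℝ) + 3 / s < T.chiN (W T μ θ Y) (n + N) u x} := by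
    intro N N' hN Y hY
    exact lt_of_lt_of_le hY (chiN_mono T (W_mem h Y) u x (Nat.add_le_add_left hN n))
  rw [hm.measure_iUnion]
  exact iSup_le fun N => level h hs h4 n N hux

theorem bdd_ae (h : SR T θ μ ν Q) {s : ℝ} (hs : 0 < s)
    (h4 : ∀ (N : ℕ) (u x : V), T.G.Adj u x →
      ∫ Y, Real.exp (s * T.chiN (fun u x => be b θ (th T μ u x Y) ^ 2) N u x) ∂Q ≤ 4)
    {u x : V} (hux : T.G.Adj u x) :
    ∀ᵐ Y ∂Q, BddAbove (range fun n => T.chiN (W T μ θ Y) n u x) := by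
  rw [ae_iff]
  have hle : ∀ n : ℕ, Q {Y | ¬ BddAbove (range fun n => T.chiN (W T μ θ Y) n u x)} ≤
      ENNReal.ofReal (Real.exp (-(b : ℝ) ^ n)) := by
    intro n
    refine (measure_mono ?_).trans (level_union h hs h4 n hux)
    intro Y hY
    rw [mem_iUnion]
    by_contra hcon
    push Not at hcon
    apply hY
    refine ⟨n + 3 / s, ?_⟩
    rintro _ ⟨m, rfl⟩
    have h1 : ¬ ((n : ℝ) + 3 / s < T.chiN (W T μ θ Y) (n + m) u x) := hcon m
    exact (chiN_mono T (W_mem h Y) u x (Nat.le_add_left m n)).trans (not_lt.mp h1)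
  have hlim : Tendsto (fun n : ℕ => ENNReal.ofReal (Real.exp (-(b : ℝ) ^ n))) atTop (𝓝 0) := by
    rw [← ENNReal.ofReal_zero]
    apply ENNReal.tendsto_ofReal
    apply Real.tendsto_exp_neg_atTop_nhds_zero.comp
    apply tendsto_pow_atTop_atTop_of_one_lt
    have := h.hb
    exact_mod_cast (by omega : 1 < b)
  exact le_antisymm (ge_of_tendsto' hlim hle) zero_le

theorem tail (h : SR T θ μ ν Q) {s : ℝ} (hs : 0 < s)
    (h4 : ∀ (N : ℕ) (u x : V), T.G.Adj u x →
      ∫ Y, Real.exp (s * T.chiN (fun u x => be b θ (th T μ u x Y) ^ 2) N u x) ∂Q ≤ 4)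
    (n : ℕ) {u x : V} (hux : T.G.Adj u x) :
    Q.real {Y | n + 3 / s < chiY T μ θ u x Y} ≤ Real.exp (-(b : ℝ) ^ n) := by
  have := h.prob_Q
  have h1 : Q {Y | n + 3 / s < chiY T μ θ u x Y} ≤ ENNReal.ofReal (Real.exp (-(b : ℝ) ^ n)) := by
    refine (measure_mono ?_).trans (level_union h hs h4 n hux)
    intro Y hY
    rw [mem_iUnion]
    by_contra hcon
    push Not at hcon
    have hle : ∀ m, T.chiN (W T μ θ Y) m u x ≤ n + 3 / s := by
      intro m
      have h1 : ¬ ((n : ℝ) + 3 / s < T.chiN (W T μ θ Y) (n + m) u x) := hcon m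
      exact (chiN_mono T (W_mem h Y) u x (Nat.le_add_left m n)).trans (not_lt.mp h1)
    have hb : BddAbove (range fun n => T.chiN (W T μ θ Y) n u x) := by
      refine ⟨n + 3 / s, ?_⟩
      rintro _ ⟨m, rfl⟩
      exact hle m
    have := le_of_tendsto' (tendsto_chiY h hb) hle
    exact absurd hY (not_lt.mpr this)
  rw [Measure.real]
  exact ENNReal.toReal_le_of_le_ofReal (Real.exp_pos _).le h1

theorem moment (h : SR T θ μ ν Q) {s : ℝ} (hs : 0 < s)
    (h4 : ∀ (N : ℕ) (u x : V), T.G.Adj u x →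
      ∫ Y, Real.exp (s * T.chiN (fun u x => be b θ (th T μ u x Y) ^ 2) N u x) ∂Q ≤ 4)
    {u x : V} (hux : T.G.Adj u x) :
    Integrable (fun Y => chiY T μ θ u x Y ^ 4) Q ∧
      ∫ Y, chiY T μ θ u x Y ^ 4 ∂Q ≤ 96 / s ^ 4 := by
  have := h.prob_μ
  have := h.prob_Q
  have hb0 : 0 < b := by have := h.hb; omega
  have hN : ∀ N : ℕ, ∫⁻ Y, ENNReal.ofReal (T.chiN (W T μ θ Y) N u x ^ 4) ∂Q ≤
      ENNReal.ofReal (96 / s ^ 4) := by
    intro N
    have hbd : ∀ Y, T.chiN (W T μ θ Y) N u x ≤ 2 ^ (N + 1) - 1 := fun Y =>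
      (Sib.chiN_bd T hb0 (W_mem h Y) N u x).2
    have hi4 : Integrable (fun Y => T.chiN (W T μ θ Y) N u x ^ 4) Q := by
      refine Integrable.of_bound ((chi_meas h N u x).pow_const 4).aestronglyMeasurable
        ((2 ^ (N + 1) - 1) ^ 4) (Eventually.of_forall fun Y => ?_)
      rw [Real.norm_eq_abs, abs_of_nonneg (by positivity)]
      exact pow_le_pow_left₀ (chi_nonneg h N u x Y) (hbd Y) 4
    have hie : Integrable (fun Y => Real.exp (s * T.chiN (W T μ θ Y) N u x)) Q := by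
      refine Integrable.of_bound (Real.measurable_exp.comp
        ((chi_meas h N u x).const_mul s)).aestronglyMeasurable
        (Real.exp (s * (2 ^ (N + 1) - 1))) (Eventually.of_forall fun Y => ?_)
      rw [Real.norm_eq_abs, Real.abs_exp]
      apply Real.exp_le_exp.mpr
      exact mul_le_mul_of_nonneg_left (hbd Y) hs.le
    rw [← ofReal_integral_eq_lintegral_ofReal hi4 (Eventually.of_forall fun Y => by positivity)]
    apply ENNReal.ofReal_le_ofReal
    have hpt : ∀ Y, T.chiN (W T μ θ Y) N u x ^ 4 ≤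
        24 / s ^ 4 * Real.exp (s * T.chiN (W T μ θ Y) N u x) := by
      intro Y
      have h1 := pow_four_le (mul_nonneg hs.le (chi_nonneg h N u x Y))
      rw [mul_pow] at h1
      rw [div_mul_eq_mul_div, le_div_iff₀ (by positivity)]
      linarith
    calc ∫ Y, T.chiN (W T μ θ Y) N u x ^ 4 ∂Q
        ≤ ∫ Y, 24 / s ^ 4 * Real.exp (s * T.chiN (W T μ θ Y) N u x) ∂Q :=
          integral_mono hi4 (hie.const_mul _) hpt
      _ = 24 / s ^ 4 * ∫ Y, Real.exp (s * T.chiN (W T μ θ Y) N u x) ∂Q := integral_const_mul _ _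
      _ ≤ 24 / s ^ 4 * 4 := by
          apply mul_le_mul_of_nonneg_left (h4 N u x hux) (by positivity)
      _ = 96 / s ^ 4 := by ring
  have hmeas := chiY_meas h u x
  have hlint : ∫⁻ Y, ENNReal.ofReal (chiY T μ θ u x Y ^ 4) ∂Q ≤ ENNReal.ofReal (96 / s ^ 4) := by
    have h1 : ∫⁻ Y, ENNReal.ofReal (chiY T μ θ u x Y ^ 4) ∂Q =
        ∫⁻ Y, liminf (fun N : ℕ => ENNReal.ofReal (T.chiN (W T μ θ Y) N u x ^ 4)) atTop ∂Q := by
      refine lintegral_congr_ae ?_
      filter_upwards [bdd_ae h hs h4 hux] with Y hY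
      have h2 := ENNReal.tendsto_ofReal ((tendsto_chiY h hY).pow 4)
      exact h2.liminf_eq.symm
    rw [h1]
    refine (lintegral_liminf_le fun N =>
      ((chi_meas h N u x).pow_const 4).ennreal_ofReal).trans ?_
    exact liminf_le_of_le (by isBoundedDefault) (fun b hb => by
      obtain ⟨N, hN'⟩ := hb.exists
      exact hN'.trans (hN N))
  have hnn : ∀ Y, 0 ≤ chiY T μ θ u x Y ^ 4 := fun Y => by positivity
  have hint : Integrable (fun Y => chiY T μ θ u x Y ^ 4) Q := by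
    refine ⟨(hmeas.pow_const 4).aestronglyMeasurable, ?_⟩
    rw [hasFiniteIntegral_iff_ofReal (Eventually.of_forall hnn)]
    exact hlint.trans_lt ENNReal.ofReal_lt_top
  refine ⟨hint, ?_⟩
  rw [integral_eq_lintegral_of_nonneg_ae (Eventually.of_forall hnn)
    (hmeas.pow_const 4).aestronglyMeasurable]
  exact ENNReal.toReal_le_of_le_ofReal (by positivity) hlint

end CT

end

open CT in
theorem chi_tail_of {b : ℕ} (_hb : 2 ≤ b)
    (hexp : ∃ c : ℝ, 0 < c ∧ ∀ (V : Type u)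
    (T : RTree V b) (θ ρ : ℝ) (μ : Measure (V → Bool)) (ν : Measure ℝ) (Q : Measure (V → ℝ)),
    SR T θ μ ν Q → Rate ν ρ → ∀ (N : ℕ) (u x : V), T.G.Adj u x →
    ∫ Y, Real.exp (c * ρ * T.chiN (fun u x => be b θ (th T μ u x Y) ^ 2) N u x) ∂Q ≤ 4) :
    ∃ K : ℝ, 1 ≤ K ∧ ∀ (V : Type u)
    (T : RTree V b) (θ ρ : ℝ) (μ : Measure (V → Bool)) (ν : Measure ℝ) (Q : Measure (V → ℝ)),
    SR T θ μ ν Q → Rate ν ρ → ∀ (u x : V), T.G.Adj u x →
    (∀ᵐ Y ∂Q, BddAbove (range fun n =>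
      T.chiN (fun u x => be b θ (th T μ u x Y) ^ 2) n u x)) ∧
    Integrable (fun Y => chiY T μ θ u x Y ^ 4) Q ∧
    ∫ Y, chiY T μ θ u x Y ^ 4 ∂Q ≤ K / ρ ^ 4 ∧
    ∀ p : ℝ, 2 ≤ p →
      Q.real {Y | K * (1 / ρ + Real.log p) < chiY T μ θ u x Y} ≤ K * Real.exp (-p) := by
  obtain ⟨c, hc, H⟩ := hexp
  refine ⟨max (3 + 3 / c) (96 / c ^ 4), ?_, ?_⟩
  · refine le_trans ?_ (le_max_left _ _)
    have : 0 < 3 / c := by positivity
    linarith
  intro V T θ ρ μ ν Q h hρ u x hux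
  have := h.prob_Q
  have hρ0 := hρ.pos
  have hs : 0 < c * ρ := mul_pos hc hρ0
  have h4 : ∀ (N : ℕ) (u x : V), T.G.Adj u x →
      ∫ Y, Real.exp (c * ρ * T.chiN (fun u x => be b θ (th T μ u x Y) ^ 2) N u x) ∂Q ≤ 4 :=
    fun N u x hux => H V T θ ρ μ ν Q h hρ N u x hux
  have hmom := moment h hs h4 hux
  refine ⟨bdd_ae h hs h4 hux, hmom.1, ?_, ?_⟩
  · refine hmom.2.trans ?_
    rw [mul_pow, ← div_div]
    exact div_le_div_of_nonneg_right (le_max_right _ _) (by positivity)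
  · intro p hp
    set K := max (3 + 3 / c) (96 / c ^ 4) with hK
    have hK1 : 3 + 3 / c ≤ K := le_max_left _ _
    have hc3 : 0 < 3 / c := by positivity
    have hlp : 0 ≤ Real.log p := Real.log_nonneg (by linarith)
    -- choose `n`
    obtain ⟨n, hn1, hn2⟩ : ∃ n : ℕ, p ≤ 2 ^ n ∧ (n : ℝ) ≤ 1 + 2 * Real.log p := by
      refine ⟨⌈Real.log p / Real.log 2⌉₊, ?_, ?_⟩
      · have hl2 : 0 < Real.log 2 := Real.log_pos (by norm_num)
        have h1 := Nat.le_ceil (Real.log p / Real.log 2)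
        rw [div_le_iff₀ hl2] at h1
        have h2 : Real.log p ≤ Real.log (2 ^ ⌈Real.log p / Real.log 2⌉₊) := by
          rw [Real.log_pow]; exact h1
        exact (Real.log_le_log_iff (by linarith) (by positivity)).mp h2
      · have hl2 : (1 : ℝ) / 2 ≤ Real.log 2 := by
          have := Real.log_two_gt_d9
          linarith
        have h1 := (Nat.ceil_lt_add_one (div_nonneg hlp (by linarith) :
          0 ≤ Real.log p / Real.log 2)).le
        have h2 : Real.log p / Real.log 2 ≤ 2 * Real.log p := by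
          rw [div_le_iff₀ (by linarith)]
          nlinarith
        linarith
    have hbn : p ≤ (b : ℝ) ^ n := by
      refine hn1.trans (pow_le_pow_left₀ (by norm_num) ?_ n)
      exact_mod_cast h.hb
    have hle : (n : ℝ) + 3 / (c * ρ) ≤ K * (1 / ρ + Real.log p) := by
      have h1 : 2 ≤ 1 / ρ := by
        rw [le_div_iff₀ hρ0]; linarith [hρ.le]
      have h2 : 3 / (c * ρ) = 3 / c * (1 / ρ) := by field_simp
      rw [h2]
      have h3 : (3 + 3 / c) * (1 / ρ + Real.log p) ≤ K * (1 / ρ + Real.log p) :=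
        mul_le_mul_of_nonneg_right hK1 (by positivity)
      have h5 : 0 ≤ 3 / c * Real.log p := by positivity
      nlinarith
    calc Q.real {Y | K * (1 / ρ + Real.log p) < chiY T μ θ u x Y}
        ≤ Q.real {Y | n + 3 / (c * ρ) < chiY T μ θ u x Y} := by
          refine measureReal_mono (fun Y hY => ?_) (measure_ne_top Q _)
          exact lt_of_le_of_lt hle hY
      _ ≤ Real.exp (-(b : ℝ) ^ n) := tail h hs h4 n hux
      _ ≤ Real.exp (-p) := Real.exp_le_exp.mpr (by linarith)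
      _ ≤ K * Real.exp (-p) := by
          have : (1 : ℝ) ≤ K := by linarith
          nlinarith [Real.exp_pos (-p)]

end Vale.Agent.P161E
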