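import Mathlib

/-!
# Part S, S6B: growth of the moment generating function (real analysis)
-/

open Set Filter Topology

namespace Vale.Agent.P161E

universe u

namespace SGr

/-- the potential -/
noncomputable def psi (L θ κ : ℝ) : ℝ :=
  32 * Real.exp (-L) * Real.log (κ / θ) + 32 / L * Real.log (max (κ * Real.exp (-L)) 1)

theorem cosh_sub_one_le {x : ℝ} (h0 : 0 ≤ x) (h1 : x ≤ 1) : Real.cosh x - 1 ≤ x ^ 2 := by
  have h2 : Real.exp x - 1 - x ≤ x ^ 2 := by
    have := Real.abs_exp_sub_one_sub_id_le (x := x) (by rw [abs_of_nonneg h0]; exact h1)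
    exact (le_abs_self _).trans this
  have h3 : Real.exp (-x) - 1 - (-x) ≤ x ^ 2 := by
    have := Real.abs_exp_sub_one_sub_id_le (x := -x) (by rw [abs_neg, abs_of_nonneg h0]; exact h1)
    have h4 := (le_abs_self _).trans this
    simpa using h4
  rw [Real.cosh_eq]
  linarith

theorem sinh_le_two {x : ℝ} (h0 : 0 ≤ x) (h1 : x ≤ 1) : Real.sinh x ≤ 2 * x := by
  have h2 : Real.exp x - 1 - x ≤ x ^ 2 := by
    have := Real.abs_exp_sub_one_sub_id_le (x := x) (by rw [abs_of_nonneg h0]; exact h1)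
    exact (le_abs_self _).trans this
  have h3 := Real.add_one_le_exp (-x)
  rw [Real.sinh_eq]
  nlinarith

theorem log_inv_ge {θ : ℝ} (hθ : 0 < θ) (hθ1 : θ ≤ 3 / 4) : 1 / 4 ≤ -Real.log θ := by
  have := Real.log_le_sub_one_of_pos hθ
  linarith

theorem log_max_nonneg {θ x : ℝ} (hθ1 : θ ≤ 3 / 4) (hx : 0 ≤ x) :
    Real.log (max (θ * x) 1) ≤ Real.log (max x 1) := by
  refine Real.log_le_log (lt_max_of_lt_right one_pos) (max_le_max ?_ le_rfl)
  nlinarith

theorem log_max_two {θ x : ℝ} (hθ : 0 < θ) (hθ1 : θ ≤ 3 / 4) (hx : 2 ≤ x) :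
    1 / 4 ≤ Real.log (max x 1) - Real.log (max (θ * x) 1) := by
  have h1 : max x 1 = x := max_eq_left (by linarith)
  have h2 : max (θ * x) 1 ≤ 3 / 4 * x := by
    refine max_le ?_ (by linarith)
    nlinarith
  have h3 : Real.log (max (θ * x) 1) ≤ Real.log (3 / 4 * x) :=
    Real.log_le_log (lt_max_of_lt_right one_pos) h2
  have h4 : Real.log (3 / 4 * x) = Real.log (3 / 4) + Real.log x :=
    Real.log_mul (by norm_num) (by linarith)
  have h5 : Real.log (3 / 4 : ℝ) ≤ 3 / 4 - 1 := Real.log_le_sub_one_of_pos (by norm_num)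
  rw [h1]
  linarith

/-- the potential increases -/
theorem psi_step {L θ κ : ℝ} (hθ : 0 < θ) (hκ : 1 ≤ κ) :
    psi L θ κ - psi L θ (θ * κ) = 32 * Real.exp (-L) * (-Real.log θ) +
      32 / L * (Real.log (max (κ * Real.exp (-L)) 1) -
        Real.log (max (θ * (κ * Real.exp (-L))) 1)) := by
  unfold psi
  have h1 : Real.log (κ / θ) = Real.log κ - Real.log θ :=
    Real.log_div (by linarith) hθ.ne'
  have h2 : θ * κ / θ = κ := by field_simp
  rw [h1, h2, mul_assoc θ κ]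
  ring

theorem psi_nonneg {L θ κ : ℝ} (hL : 1 ≤ L) (hθ : 0 < θ) (hκ : θ ≤ κ) : 0 ≤ psi L θ κ := by
  unfold psi
  have h1 : 0 ≤ Real.log (κ / θ) := Real.log_nonneg ((one_le_div hθ).mpr hκ)
  have h2 : 0 ≤ Real.log (max (κ * Real.exp (-L)) 1) := Real.log_nonneg (le_max_right _ _)
  have h3 := Real.exp_pos (-L)
  have h4 : 0 < 32 / L := by positivity
  positivity

/-- the increment of the potential pays for one of the two factors -/
theorem pay {L θ κ : ℝ} (hL : 1 ≤ L) (hθ : 0 < θ) (hθ1 : θ ≤ 3 / 4) (hκ : 1 ≤ κ) :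
    κ * Real.exp (-L) ≤ (κ * Real.exp (-L)) ^ 2 * (psi L θ κ - psi L θ (θ * κ)) ∨
    Real.exp (-L) ^ 2 * (Real.cosh (κ * Real.exp (-L)) - 1 +
        Real.exp (-L) * Real.sinh (κ * Real.exp (-L))) ≤
      (κ * Real.exp (-L)) ^ 2 * (psi L θ κ - psi L θ (θ * κ)) := by
  rw [psi_step hθ hκ]
  obtain ⟨s, hs⟩ : ∃ s, s = Real.exp (-L) := ⟨_, rfl⟩
  rw [← hs]
  have hs0 : 0 < s := hs ▸ Real.exp_pos _
  have hs1 : s ≤ 1 := by
    rw [hs]; exact Real.exp_le_one_iff.mpr (by linarith)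
  obtain ⟨x, hx⟩ : ∃ x, x = κ * s := ⟨_, rfl⟩
  rw [← hx]
  have hsx : s ≤ x := by rw [hx]; nlinarith
  have hx0 : 0 < x := lt_of_lt_of_le hs0 hsx
  have hl := log_inv_ge hθ hθ1
  have hd0 : 0 ≤ 32 / L * (Real.log (max x 1) - Real.log (max (θ * x) 1)) :=
    mul_nonneg (by positivity) (sub_nonneg.mpr (log_max_nonneg hθ1 hx0.le))
  have hbase : 8 * s ≤ 32 * s * (-Real.log θ) +
      32 / L * (Real.log (max x 1) - Real.log (max (θ * x) 1)) := by
    nlinarith
  rcases le_or_gt x 1 with hx1 | hx1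
  · right
    have h1 := cosh_sub_one_le hx0.le hx1
    have h2 := sinh_le_two hx0.le hx1
    have h3 : s ^ 2 * (Real.cosh x - 1 + s * Real.sinh x) ≤ s ^ 2 * (x ^ 2 + s * (2 * x)) := by
      gcongr
    have h4 : s ^ 2 * (x ^ 2 + s * (2 * x)) ≤ 8 * s * x ^ 2 := by
      have : s * x ≤ x ^ 2 := by nlinarith
      have h5 : s ^ 2 * (x ^ 2 + s * (2 * x)) ≤ s ^ 2 * (3 * x ^ 2) := by
        gcongr
        nlinarith
      have h6 : s ^ 2 * (3 * x ^ 2) ≤ s * (3 * x ^ 2) := by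
        gcongr
        nlinarith
      nlinarith [sq_nonneg x]
    calc _ ≤ _ := h3
      _ ≤ _ := h4
      _ = x ^ 2 * (8 * s) := by ring
      _ ≤ _ := by gcongr
  · rcases le_or_gt x L with hxL | hxL
    · right
      have h1 : Real.cosh x - 1 + s * Real.sinh x ≤ Real.exp x := by
        have h2 := Real.cosh_add_sinh x
        have h3 : 0 ≤ Real.sinh x := Real.sinh_nonneg_iff.mpr hx0.le
        nlinarith
      have h2 : s * Real.exp x ≤ 1 := by
        rw [hs, ← Real.exp_add]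
        exact Real.exp_le_one_iff.mpr (by linarith)
      calc s ^ 2 * (Real.cosh x - 1 + s * Real.sinh x) ≤ s ^ 2 * Real.exp x := by gcongr
        _ = s * (s * Real.exp x) := by ring
        _ ≤ s * 1 := by gcongr
        _ ≤ x ^ 2 * (8 * s) := by nlinarith
        _ ≤ _ := by gcongr
    · left
      rcases le_or_gt 2 x with h2x | h2x
      · have h1 := log_max_two hθ hθ1 h2x
        have h2 : 8 / L ≤ 32 * s * (-Real.log θ) +
            32 / L * (Real.log (max x 1) - Real.log (max (θ * x) 1)) := by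
          have h3 : 8 / L ≤ 32 / L * (Real.log (max x 1) - Real.log (max (θ * x) 1)) := by
            have : 8 / L = 32 / L * (1 / 4) := by ring
            rw [this]
            gcongr
          have h4 : 0 ≤ 32 * s * (-Real.log θ) := by
            have : 0 ≤ -Real.log θ := by linarith
            positivity
          linarith
        calc x ≤ x ^ 2 * (8 / L) := by
              rw [mul_div_assoc', le_div_iff₀ (by linarith)]
              nlinarith
          _ ≤ _ := by gcongr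
      · have h1 : 1 ≤ 8 * s := by
          have h2 : Real.exp (-2) ≤ s := by
            rw [hs]; exact Real.exp_le_exp.mpr (by linarith)
          have h3 : Real.exp 2 ≤ 8 := by
            have h4 := Real.exp_one_lt_d9
            have h5 : Real.exp 2 = Real.exp 1 * Real.exp 1 := by
              rw [← Real.exp_add]; norm_num
            rw [h5]
            nlinarith [Real.exp_pos 1]
          have h6 : Real.exp (-2) * Real.exp 2 = 1 := by
            rw [← Real.exp_add]; norm_num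
          nlinarith [Real.exp_pos (-2), Real.exp_pos 2]
        calc x ≤ x ^ 2 * 1 := by nlinarith
          _ ≤ x ^ 2 * (8 * s) := by gcongr
          _ ≤ _ := by gcongr

end SGr

/-- Proof: `log Z κ ≤ κ² ρ (A + Ψ κ)` with `Ψ κ = a √ρ log (κ/θ) + (a / L) log (max (κ √ρ) 1)`,
`L = log (1/ρ) / 2 ≥ 1`, by induction on `n` with `κ ≤ θ⁻ⁿ`. -/
theorem mgf_growth (b : ℕ) (C₀ : ℝ) : ∃ C : ℝ, 0 < C ∧ ∀ (ι : Type u) (θ ρ : ℝ)
    (Z : ι → ℝ → ℝ), 2 ≤ b →
    0 ≤ θ → b * θ ^ 2 ≤ 1 → 1 / 2 ≤ b * θ ^ 2 → 0 < ρ → ρ ≤ Real.exp (-2) →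
    (∀ i κ, 0 ≤ κ → 0 ≤ Z i κ) → (∀ i κ, 0 ≤ κ → κ ≤ 1 → Z i κ ≤ Real.exp (C₀ * ρ)) →
    (∀ i κ W, 0 ≤ κ → (∀ j, Z j (θ * κ) ≤ W) → Z i κ ≤ Real.exp (κ * Real.sqrt ρ) * W ^ b) →
    (∀ i κ W, 0 ≤ κ → (∀ j, Z j (θ * κ) ≤ W) → Z i κ ≤
      (1 + ρ * (Real.cosh (κ * Real.sqrt ρ) - 1 +
        Real.sqrt ρ * Real.sinh (κ * Real.sqrt ρ))) * W ^ b) →
    ∀ i κ, θ ≤ κ → κ ≤ 1 / ρ → Z i κ ≤ Real.exp (C * κ ^ 2 * ρ) := by
  obtain ⟨C₁, hC₁⟩ : ∃ C₁, C₁ = max C₀ 0 := ⟨_, rfl⟩
  have hC0 : 0 ≤ C₁ := hC₁ ▸ le_max_right _ _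
  have hC0' : C₀ ≤ C₁ := hC₁ ▸ le_max_left _ _
  refine ⟨2 * b * C₁ + 32 * (b + 4), by positivity, ?_⟩
  intro ι θ ρ Z hb hθ0 hθ1 hθ2 hρ hρ1 hZ0 hZ1 hI hII
  have hb' : (2 : ℝ) ≤ b := by exact_mod_cast hb
  have hθp : 0 < θ := by
    rcases hθ0.lt_or_eq with h0 | h0
    · exact h0
    · exfalso; rw [← h0] at hθ2; norm_num at hθ2
  have hθsq : θ ^ 2 ≤ 1 / 2 := by nlinarith [sq_nonneg θ]
  have hθ34 : θ ≤ 3 / 4 := by nlinarith
  have hθinv : 1 / θ ≤ b + 1 := by
    rw [div_le_iff₀ hθp]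
    by_contra hcon
    push Not at hcon
    have h1 : ((b + 1) * θ) ^ 2 < 1 := by
      have : 0 ≤ ((b : ℝ) + 1) * θ := by positivity
      nlinarith
    nlinarith [sq_nonneg θ, sq_nonneg ((b : ℝ) * θ)]
  -- the logarithm
  obtain ⟨L, hL⟩ : ∃ L, L = -Real.log ρ / 2 := ⟨_, rfl⟩
  have hρL : ρ = Real.exp (-L) ^ 2 := by
    rw [← Real.exp_nat_mul, hL]
    have : ((2 : ℕ) : ℝ) * -(-Real.log ρ / 2) = Real.log ρ := by push_cast; ring
    rw [this, Real.exp_log hρ]
  have hsq : Real.sqrt ρ = Real.exp (-L) := by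
    rw [hρL]; exact Real.sqrt_sq (Real.exp_pos _).le
  have hL1 : 1 ≤ L := by
    have h1 : Real.log ρ ≤ -2 := by
      rw [← Real.log_exp (-2)]
      exact Real.log_le_log hρ hρ1
    rw [hL]; linarith
  rw [hsq] at hI hII
  -- the claim by induction
  have key : ∀ n : ℕ, ∀ i κ, θ ≤ κ → κ * θ ^ n ≤ 1 →
      Z i κ ≤ Real.exp (κ ^ 2 * ρ * (2 * b * C₁ + SGr.psi L θ κ)) := by
    have base : ∀ i κ, θ ≤ κ → κ ≤ 1 →
        Z i κ ≤ Real.exp (κ ^ 2 * ρ * (2 * b * C₁ + SGr.psi L θ κ)) := by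
      intro i κ h1 h2
      refine (hZ1 i κ (hθ0.trans h1) h2).trans (Real.exp_le_exp.mpr ?_)
      have h3 := SGr.psi_nonneg hL1 hθp h1
      have h4 : θ ^ 2 ≤ κ ^ 2 := by gcongr
      have h5 : 1 ≤ κ ^ 2 * (2 * b) := by nlinarith
      calc C₀ * ρ ≤ C₁ * ρ := by gcongr
        _ = 1 * (C₁ * ρ) := (one_mul _).symm
        _ ≤ κ ^ 2 * (2 * b) * (C₁ * ρ) := by gcongr
        _ = κ ^ 2 * ρ * (2 * b * C₁ + 0) := by ring
        _ ≤ _ := by gcongr
    intro n
    induction n with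
    | zero =>
      intro i κ h1 h2
      exact base i κ h1 (by simpa using h2)
    | succ n ih =>
      intro i κ h1 h2
      rcases le_or_gt κ 1 with hκ | hκ
      · exact base i κ h1 hκ
      · have hθκ : θ ≤ θ * κ := by nlinarith
        have h3 : θ * κ * θ ^ n ≤ 1 := by
          calc θ * κ * θ ^ n = κ * θ ^ (n + 1) := by ring
            _ ≤ 1 := h2
        obtain ⟨W, hW⟩ : ∃ W, W = Real.exp ((θ * κ) ^ 2 * ρ *
          (2 * b * C₁ + SGr.psi L θ (θ * κ))) := ⟨_, rfl⟩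
        have hWj : ∀ j, Z j (θ * κ) ≤ W := fun j => hW ▸ ih j (θ * κ) hθκ h3
        have hpos := SGr.psi_nonneg hL1 hθp hθκ
        have hWb : W ^ b ≤ Real.exp (κ ^ 2 * ρ * (2 * b * C₁ + SGr.psi L θ (θ * κ))) := by
          rw [hW, ← Real.exp_nat_mul]
          refine Real.exp_le_exp.mpr ?_
          have h4 : 0 ≤ κ ^ 2 * ρ * (2 * b * C₁ + SGr.psi L θ (θ * κ)) := by positivity
          calc (b : ℝ) * ((θ * κ) ^ 2 * ρ * (2 * b * C₁ + SGr.psi L θ (θ * κ))) =
                (b * θ ^ 2) * (κ ^ 2 * ρ * (2 * b * C₁ + SGr.psi L θ (θ * κ))) := by ring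
            _ ≤ 1 * (κ ^ 2 * ρ * (2 * b * C₁ + SGr.psi L θ (θ * κ))) := by gcongr
            _ = _ := one_mul _
        have hx2 : (κ * Real.exp (-L)) ^ 2 = κ ^ 2 * ρ := by rw [hρL]; ring
        have hpay := SGr.pay hL1 hθp hθ34 hκ.le
        rw [hx2, ← hρL] at hpay
        have hWb0 : 0 ≤ W ^ b := by rw [hW]; positivity
        have hfin : ∀ f : ℝ, f ≤ κ ^ 2 * ρ * (SGr.psi L θ κ - SGr.psi L θ (θ * κ)) →
            Real.exp f * W ^ b ≤ Real.exp (κ ^ 2 * ρ * (2 * b * C₁ + SGr.psi L θ κ)) := by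
          intro f hf
          calc Real.exp f * W ^ b ≤ Real.exp (κ ^ 2 * ρ *
                (SGr.psi L θ κ - SGr.psi L θ (θ * κ))) *
                Real.exp (κ ^ 2 * ρ * (2 * b * C₁ + SGr.psi L θ (θ * κ))) := by
                gcongr
            _ = _ := by rw [← Real.exp_add]; congr 1; ring
        rcases hpay with hp | hp
        · exact (hI i κ W (by linarith) hWj).trans (hfin _ hp)
        · refine (hII i κ W (by linarith) hWj).trans (le_trans ?_ (hfin _ hp))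
          refine mul_le_mul_of_nonneg_right ?_ hWb0
          have := Real.add_one_le_exp (ρ * (Real.cosh (κ * Real.exp (-L)) - 1 +
            Real.exp (-L) * Real.sinh (κ * Real.exp (-L))))
          linarith
  -- conclusion
  intro i κ h1 h2
  have hκ0 : 0 < κ := lt_of_lt_of_le hθp h1
  obtain ⟨n, hn⟩ := exists_pow_lt_of_lt_one (show (0 : ℝ) < 1 / κ by positivity)
    (show θ < 1 by linarith)
  have h3 : κ * θ ^ n ≤ 1 := by
    rw [lt_div_iff₀ hκ0] at hn
    linarith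
  refine (key n i κ h1 h3).trans (Real.exp_le_exp.mpr ?_)
  have hpsi : SGr.psi L θ κ ≤ 32 * (b + 4) := by
    unfold SGr.psi
    have hs0 := Real.exp_pos (-L)
    have hs1 : Real.exp (-L) ≤ 1 := Real.exp_le_one_iff.mpr (by linarith)
    have e1 : Real.log (κ / θ) ≤ 2 * L + (b + 1) := by
      rw [Real.log_div hκ0.ne' hθp.ne']
      have e2 : Real.log κ ≤ 2 * L := by
        have : Real.log κ ≤ Real.log (1 / ρ) := Real.log_le_log hκ0 h2
        rw [one_div, Real.log_inv] at this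
        rw [hL]; linarith
      have e3 : -Real.log θ ≤ b + 1 := by
        have e4 := Real.log_le_sub_one_of_pos (show 0 < 1 / θ by positivity)
        rw [one_div, Real.log_inv] at e4
        rw [one_div] at hθinv
        linarith
      linarith
    have e5 : Real.exp (-L) * L ≤ 1 := by
      have e6 := Real.add_one_le_exp L
      have e7 : Real.exp (-L) * Real.exp L = 1 := by rw [← Real.exp_add]; simp
      nlinarith
    have e8 : Real.log (max (κ * Real.exp (-L)) 1) ≤ L := by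
      have e9 : max (κ * Real.exp (-L)) 1 ≤ Real.exp L := by
        refine max_le ?_ (Real.one_le_exp (by linarith))
        calc κ * Real.exp (-L) ≤ 1 / ρ * Real.exp (-L) := by gcongr
          _ = Real.exp L := by
            have e7 : Real.exp (-L) * Real.exp L = 1 := by rw [← Real.exp_add]; simp
            rw [hρL]
            field_simp
            nlinarith
      calc Real.log (max (κ * Real.exp (-L)) 1) ≤ Real.log (Real.exp L) :=
            Real.log_le_log (lt_max_of_lt_right one_pos) e9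
        _ = L := Real.log_exp L
    have e10 : 32 / L * Real.log (max (κ * Real.exp (-L)) 1) ≤ 32 := by
      calc 32 / L * Real.log (max (κ * Real.exp (-L)) 1) ≤ 32 / L * L := by gcongr
        _ = 32 := by field_simp
    have e11 : 32 * Real.exp (-L) * Real.log (κ / θ) ≤ 32 * (b + 3) := by
      calc 32 * Real.exp (-L) * Real.log (κ / θ) ≤ 32 * Real.exp (-L) * (2 * L + (b + 1)) := by
            gcongr
        _ = 64 * (Real.exp (-L) * L) + 32 * (Real.exp (-L) * (b + 1)) := by ring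
        _ ≤ 64 * 1 + 32 * (1 * (b + 1)) := by gcongr
        _ = _ := by ring
    linarith
  calc κ ^ 2 * ρ * (2 * b * C₁ + SGr.psi L θ κ) ≤ κ ^ 2 * ρ * (2 * b * C₁ + 32 * (b + 4)) := by
        gcongr
    _ = _ := by ring

end Vale.Agent.P161E
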