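import Vale.Agent.P161E.Defs2

/-!
# Equivariant families
-/

open MeasureTheory Set Filter Topology
open scoped unitInterval ENNReal

namespace Vale.Agent.P161E

open Vale.Agent.P161

universe u

variable {V : Type u} {b : ℕ} {T : RTree V b}

theorem RTree.countable (T : RTree V b) : Countable V :=
  Vale.Agent.P161.countable_of_connected T.tree.1 T.fin

theorem RTree.mem_ch {T : RTree V b} {u x y : V} : y ∈ T.ch u x ↔ y ≠ u ∧ T.G.Adj x y := by
  classical
  unfold RTree.ch
  rw [Finset.mem_erase, T.mem_nb]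

theorem RTree.card_ch {T : RTree V b} {u x : V} (h : T.G.Adj u x) : (T.ch u x).card = b := by
  classical
  unfold RTree.ch
  rw [Finset.card_erase_of_mem ((T.mem_nb x u).mpr h.symm), T.card_nb]
  rfl

theorem RTree.ch_map {T : RTree V b} (φ : T.G ≃g T.G) (u x : V) :
    T.ch (φ u) (φ x) = (T.ch u x).map φ.toEquiv.toEmbedding := by
  ext y
  rw [Finset.mem_map, RTree.mem_ch]
  constructor
  · rintro ⟨h1, h2⟩
    refine ⟨φ.symm y, ?_, by simp⟩
    rw [RTree.mem_ch]
    refine ⟨fun h => h1 (by rw [← h]; simp), ?_⟩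
    have := (φ.symm.map_adj_iff (v := φ x) (w := y)).mpr h2
    simpa using this
  · rintro ⟨z, hz, rfl⟩
    rw [RTree.mem_ch] at hz
    refine ⟨fun h => hz.1 (φ.injective h), ?_⟩
    exact (φ.map_adj_iff).mpr hz.2

theorem RTree.av_map {T : RTree V b} (φ : T.G ≃g T.G) (g : V → V → ℝ) (u x : V) :
    T.av g (φ u) (φ x) = T.av (fun u x => g (φ u) (φ x)) u x := by
  unfold RTree.av
  rw [RTree.ch_map, Finset.sum_map]
  rfl

theorem translate_symm_translate (φ : V ≃ V) (ω : V → I) :
    translate φ (translate φ.symm ω) = ω := by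
  funext v
  unfold Vale.Agent.P161.translate
  simp

theorem measurePreserving_translate (φ : V ≃ V) :
    MeasurePreserving (translate φ : (V → I) → V → I) (iid V) (iid V) :=
  ⟨measurable_translate φ, iid_translate φ⟩

namespace Equi

variable {g h : V → V → (V → I) → ℝ}

theorem const (c : ℝ) : Equi T (fun _ _ _ => c) :=
  ⟨fun _ _ => measurable_const, fun _ _ _ => ae_of_all _ fun _ => rfl⟩

theorem comp (hg : Equi T g) {F : ℝ → ℝ} (hF : Measurable F) :
    Equi T (fun u x ω => F (g u x ω)) :=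
  ⟨fun u x => hF.comp (hg.meas u x), fun φ u x => by
    filter_upwards [hg.equi φ u x] with ω hω
    rw [hω]⟩

theorem comp₂ (hg : Equi T g) (hh : Equi T h) {F : ℝ → ℝ → ℝ}
    (hF : Measurable (fun p : ℝ × ℝ => F p.1 p.2)) :
    Equi T (fun u x ω => F (g u x ω) (h u x ω)) :=
  ⟨fun u x => hF.comp ((hg.meas u x).prodMk (hh.meas u x)), fun φ u x => by
    filter_upwards [hg.equi φ u x, hh.equi φ u x] with ω hω hω'
    rw [hω, hω']⟩

theorem add (hg : Equi T g) (hh : Equi T h) : Equi T (fun u x ω => g u x ω + h u x ω) :=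
  hg.comp₂ hh (F := fun a b => a + b) (by fun_prop)

theorem sub (hg : Equi T g) (hh : Equi T h) : Equi T (fun u x ω => g u x ω - h u x ω) :=
  hg.comp₂ hh (F := fun a b => a - b) (by fun_prop)

theorem mul (hg : Equi T g) (hh : Equi T h) : Equi T (fun u x ω => g u x ω * h u x ω) :=
  hg.comp₂ hh (F := fun a b => a * b) (by fun_prop)

theorem neg (hg : Equi T g) : Equi T (fun u x ω => -g u x ω) :=
  hg.comp (F := fun a => -a) (by fun_prop)

theorem const_mul (hg : Equi T g) (c : ℝ) : Equi T (fun u x ω => c * g u x ω) :=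
  hg.comp (F := fun a => c * a) (by fun_prop)

theorem pow (hg : Equi T g) (n : ℕ) : Equi T (fun u x ω => g u x ω ^ n) :=
  hg.comp (F := fun a => a ^ n) (by fun_prop)

theorem abs (hg : Equi T g) : Equi T (fun u x ω => |g u x ω|) :=
  hg.comp (F := fun a => |a|) (by fun_prop)

theorem av (hg : Equi T g) : Equi T (fun u x ω => T.av (fun u x => g u x ω) u x) := by
  refine ⟨fun u x => ?_, fun φ u x => ?_⟩
  · unfold RTree.av
    exact (Finset.measurable_fun_sum _ fun y _ => hg.meas x y).div_const _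
  · have := T.countable
    have h1 : ∀ᵐ ω ∂(iid V), ∀ y : V, g (φ x) (φ y) (translate φ.toEquiv ω) = g x y ω :=
      ae_all_iff.mpr fun y => hg.equi φ x y
    filter_upwards [h1] with ω hω
    rw [RTree.av_map]
    unfold RTree.av
    congr 1
    exact Finset.sum_congr rfl fun y _ => hω y

theorem wav (hg : Equi T g) (hh : Equi T h) :
    Equi T (fun u x ω => T.wav (fun u x => g u x ω) (fun u x => h u x ω) u x) :=
  (hg.mul hh).av

theorem wavN (hg : Equi T g) (hh : Equi T h) (n : ℕ) :
    Equi T (fun u x ω => T.wavN (fun u x => g u x ω) (fun u x => h u x ω) n u x) := by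
  induction n with
  | zero => exact hh
  | succ n ih => exact hg.wav ih

theorem chiN (hg : Equi T g) (n : ℕ) :
    Equi T (fun u x ω => T.chiN (fun u x => g u x ω) n u x) := by
  induction n with
  | zero => exact const 1
  | succ n ih => exact (const 1).add (hg.wav ih)

theorem integral_equi (hg : Equi T g) (φ : T.G ≃g T.G) (u x : V) :
    ∫ ω, g (φ u) (φ x) ω ∂(iid V) = ∫ ω, g u x ω ∂(iid V) := by
  have h1 := (measurePreserving_translate φ.toEquiv).map_eq
  conv_lhs => rw [← h1]
  rw [integral_map (measurable_translate _).aemeasurable (hg.meas _ _).aestronglyMeasurable]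
  exact integral_congr_ae (hg.equi φ u x)

theorem lintegral_equi {g : V → V → (V → I) → ℝ≥0∞} (hm : ∀ u x, Measurable (g u x))
    (φ : T.G ≃g T.G) {u x : V}
    (h : ∀ᵐ ω ∂(iid V), g (φ u) (φ x) (translate φ.toEquiv ω) = g u x ω) :
    ∫⁻ ω, g (φ u) (φ x) ω ∂(iid V) = ∫⁻ ω, g u x ω ∂(iid V) := by
  have h1 := (measurePreserving_translate φ.toEquiv).map_eq
  conv_lhs => rw [← h1]
  rw [lintegral_map (hm _ _) (measurable_translate _)]
  exact lintegral_congr_ae h

theorem memLp_equi (hg : Equi T g) (φ : T.G ≃g T.G) (u x : V) {p : ℝ≥0∞}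
    (h : MemLp (g u x) p (iid V)) : MemLp (g (φ u) (φ x)) p (iid V) := by
  have h1 := (measurePreserving_translate φ.toEquiv).map_eq
  rw [← h1, memLp_map_measure_iff]
  · exact (memLp_congr_ae (hg.equi φ u x)).mpr h
  · exact (hg.meas _ _).aestronglyMeasurable
  · exact (measurable_translate _).aemeasurable

end Equi

/-- Jensen for averages -/
theorem RTree.av_sq_le {T : RTree V b} (hb : 0 < b) (g : V → V → ℝ) {u x : V}
    (h : T.G.Adj u x) : T.av g u x ^ 2 ≤ T.av (fun u x => g u x ^ 2) u x := by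
  unfold RTree.av
  have h1 := sq_sum_le_card_mul_sum_sq (s := T.ch u x) (f := fun y => g x y)
  rw [RTree.card_ch h] at h1
  have hb' : (0 : ℝ) < b := by exact_mod_cast hb
  rw [div_pow, div_le_div_iff₀ (by positivity) hb']
  calc (∑ y ∈ T.ch u x, g x y) ^ 2 * b ≤ (b * ∑ y ∈ T.ch u x, g x y ^ 2) * b := by gcongr
    _ = _ := by ring

theorem RTree.av_mono {T : RTree V b} {g h : V → V → ℝ} {u x : V}
    (hgh : ∀ y ∈ T.ch u x, g x y ≤ h x y) : T.av g u x ≤ T.av h u x := by
  unfold RTree.av
  exact div_le_div_of_nonneg_right (Finset.sum_le_sum hgh) (Nat.cast_nonneg b)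

theorem RTree.av_nonneg {T : RTree V b} {g : V → V → ℝ} {u x : V}
    (hg : ∀ y ∈ T.ch u x, 0 ≤ g x y) : 0 ≤ T.av g u x := by
  unfold RTree.av
  exact div_nonneg (Finset.sum_nonneg hg) (Nat.cast_nonneg b)

theorem RTree.av_add {T : RTree V b} (g h : V → V → ℝ) (u x : V) :
    T.av (fun u x => g u x + h u x) u x = T.av g u x + T.av h u x := by
  unfold RTree.av
  rw [Finset.sum_add_distrib, add_div]

theorem RTree.av_sub {T : RTree V b} (g h : V → V → ℝ) (u x : V) :
    T.av (fun u x => g u x - h u x) u x = T.av g u x - T.av h u x := by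
  unfold RTree.av
  rw [Finset.sum_sub_distrib, sub_div]

theorem RTree.av_const_mul {T : RTree V b} (c : ℝ) (g : V → V → ℝ) (u x : V) :
    T.av (fun u x => c * g u x) u x = c * T.av g u x := by
  unfold RTree.av
  rw [← Finset.mul_sum, mul_div_assoc]

theorem RTree.av_const {T : RTree V b} (hb : 0 < b) (c : ℝ) {u x : V} (h : T.G.Adj u x) :
    T.av (fun _ _ => c) u x = c := by
  unfold RTree.av
  have hb' : (b : ℝ) ≠ 0 := by exact_mod_cast hb.ne'
  rw [Finset.sum_const, RTree.card_ch h, nsmul_eq_mul, mul_comm, mul_div_assoc, div_self hb',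
    mul_one]

theorem IsChi.rec [Countable V]
    {w χ : V → V → (V → I) → ℝ} (h : IsChi T w χ) {u x : V} (hux : T.G.Adj u x) :
    ∀ᵐ ω ∂(iid V), χ u x ω = 1 + T.wav (fun u x => w u x ω) (fun u x => χ u x ω) u x := by
  have h1 : ∀ᵐ ω ∂(iid V), ∀ u x, T.G.Adj u x →
      Tendsto (fun n => T.chiN (fun u x => w u x ω) n u x) atTop (𝓝 (χ u x ω)) := by
    rw [ae_all_iff]
    intro u
    rw [ae_all_iff]
    intro x
    by_cases hux : T.G.Adj u x
    · filter_upwards [h u x hux] with ω hω _
      exact hω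
    · exact ae_of_all _ fun ω h => absurd h hux
  filter_upwards [h1] with ω hω
  have e1 := (tendsto_add_atTop_iff_nat 1).mpr (hω u x hux)
  refine tendsto_nhds_unique e1 ?_
  show Tendsto (fun n => 1 + T.wav (fun u x => w u x ω)
    (T.chiN (fun u x => w u x ω) n) u x) atTop _
  refine Tendsto.const_add _ ?_
  unfold RTree.wav RTree.av
  refine Tendsto.div_const (tendsto_finsetSum _ fun y hy => ?_) _
  exact (hω x y (RTree.mem_ch.mp hy).2).const_mul _

end Vale.Agent.P161E
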