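import Vale.Agent.P161E.SInfo
import Vale.Agent.P161E.SLim
import Vale.Agent.P161E.Equi

/-!
# Part S, S5: bounds for the information
-/

open MeasureTheory Set Filter Topology
open scoped unitInterval ENNReal

namespace Vale.Agent.P161E

open Vale.Agent.P161

universe u

variable {V : Type u} {b : ℕ}

section S

variable {T : RTree V b} {θ : ℝ} {μ : Measure (V → Bool)} {ν : Measure ℝ} {Q : Measure (V → ℝ)}

namespace SQ

theorem qq_nonneg (ν : Measure ℝ) : 0 ≤ qq ν := integral_nonneg fun _ => sq_nonneg _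

theorem qq_le_one {ν : Measure ℝ} (hν : Obs ν) : qq ν ≤ 1 := by
  have := hν.prob
  have h : ∫ y, Real.tanh y ^ 2 ∂ν ≤ ∫ _, (1 : ℝ) ∂ν := by
    refine integral_mono_of_nonneg (ae_of_all _ fun y => sq_nonneg _) (integrable_const _)
      (ae_of_all _ fun y => ?_)
    have h1 := Real.neg_one_lt_tanh y
    have h2 := Real.tanh_lt_one y
    simp only
    nlinarith
  rw [integral_const, probReal_univ, smul_eq_mul, mul_one] at h
  exact h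

theorem q_nonneg (T : RTree V b) (μ : Measure (V → Bool)) (Q : Measure (V → ℝ)) (u x : V) :
    0 ≤ ∫ Y, th T μ u x Y ^ 2 ∂Q := integral_nonneg fun _ => sq_nonneg _

theorem q_le_one (h : SR T θ μ ν Q) (u x : V) : ∫ Y, th T μ u x Y ^ 2 ∂Q ≤ 1 := by
  have := h.prob_Q
  have := h.prob_μ
  have h : ∫ Y, th T μ u x Y ^ 2 ∂Q ≤ ∫ _, (1 : ℝ) ∂Q := by
    refine integral_mono_of_nonneg (ae_of_all _ fun y => sq_nonneg _) (integrable_const _)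
      (ae_of_all _ fun Y => ?_)
    have h1 := abs_le.mp (abs_th_le T μ u x Y)
    simp only
    nlinarith [h1.1, h1.2]
  rw [integral_const, probReal_univ, smul_eq_mul, mul_one] at h
  exact h

theorem one_sub_pow_ge {z : ℝ} (h1 : z ≤ 1) {b : ℕ} (hb : 2 ≤ b) :
    1 - b * z + z ^ 2 ≤ (1 - z) ^ b := by
  induction b, hb using Nat.le_induction with
  | base => norm_num; nlinarith
  | succ n hn ih =>
    have hn' : (2 : ℝ) ≤ n := by exact_mod_cast hn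
    have h2 : (1 - n * z + z ^ 2) * (1 - z) ≤ (1 - z) ^ n * (1 - z) :=
      mul_le_mul_of_nonneg_right ih (by linarith)
    have h3 : 0 ≤ z ^ 2 * (n - z) := by
      have : 0 ≤ (n : ℝ) - z := by linarith
      positivity
    calc 1 - ((n + 1 : ℕ) : ℝ) * z + z ^ 2 ≤ (1 - n * z + z ^ 2) * (1 - z) := by
          push_cast
          nlinarith
      _ ≤ (1 - z) ^ n * (1 - z) := h2
      _ = (1 - z) ^ (n + 1) := (pow_succ _ _).symm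

theorem θsq_le (h : SR T θ μ ν Q) : θ ^ 2 ≤ 1 := h.θsq.trans (by norm_num)

/-- the set of the values -/
theorem edge_exists (T : RTree V b) (x : V) : ∃ y, T.G.Adj x y := by
  have h : (T.nb x).Nonempty := by
    rw [← Finset.card_pos, T.card_nb]
    omega
  obtain ⟨y, hy⟩ := h
  exact ⟨y, (T.mem_nb x y).mp hy⟩

end SQ

/-- from `info_up` with the supremum over all edges; `(1 - z)^b ≥ 1 - b z + z²` -/
theorem q_up (h : SR T θ μ ν Q) {u x : V} (hux : T.G.Adj u x) :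
    θ ^ 4 * (∫ Y, th T μ u x Y ^ 2 ∂Q) ^ 2 ≤ qq ν := by
  obtain ⟨S, hS⟩ : ∃ S : Set ℝ, S = {q | ∃ u x, T.G.Adj u x ∧ q = ∫ Y, th T μ u x Y ^ 2 ∂Q} :=
    ⟨_, rfl⟩
  have hbdd : BddAbove S := by
    refine ⟨1, ?_⟩
    rw [hS]
    rintro q ⟨u, x, -, rfl⟩
    exact SQ.q_le_one h u x
  have hne : S.Nonempty := ⟨_, by rw [hS]; exact ⟨u, x, hux, rfl⟩⟩
  obtain ⟨s, hs⟩ : ∃ s, s = sSup S := ⟨_, rfl⟩
  have hle : ∀ u x, T.G.Adj u x → ∫ Y, th T μ u x Y ^ 2 ∂Q ≤ s := by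
    intro u x hux
    rw [hs]
    exact le_csSup hbdd (by rw [hS]; exact ⟨u, x, hux, rfl⟩)
  have hs0 : 0 ≤ s := (SQ.q_nonneg T μ Q u x).trans (hle u x hux)
  have hs1 : s ≤ 1 := by
    rw [hs]
    refine csSup_le hne ?_
    rw [hS]
    rintro q ⟨u, x, -, rfl⟩
    exact SQ.q_le_one h u x
  have hq0 := SQ.qq_nonneg ν
  have hq1 := SQ.qq_le_one h.hν
  have hθ2 := SQ.θsq_le h
  have hz0 : 0 ≤ θ ^ 2 * s := by positivity
  have hz1 : θ ^ 2 * s ≤ 1 := mul_le_one₀ hθ2 hs0 hs1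
  have key : ∀ u x, T.G.Adj u x →
      ∫ Y, th T μ u x Y ^ 2 ∂Q ≤ 1 - (1 - qq ν) * (1 - θ ^ 2 * s) ^ b := by
    intro u x hux
    have h1 := info_up h hux
    have h2 : (1 - θ ^ 2 * s) ^ b ≤ ∏ y ∈ T.ch u x, (1 - θ ^ 2 * ∫ Y, th T μ x y Y ^ 2 ∂Q) := by
      have e : (1 - θ ^ 2 * s) ^ b = ∏ _y ∈ T.ch u x, (1 - θ ^ 2 * s) := by
        rw [Finset.prod_const, RTree.card_ch hux]
      rw [e]
      refine Finset.prod_le_prod (fun y _ => by linarith) fun y hy => ?_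
      have := hle x y (RTree.mem_ch.mp hy).2
      nlinarith [sq_nonneg θ]
    have h3 := mul_le_mul_of_nonneg_left h2 (sub_nonneg.mpr hq1)
    linarith
  have hsup : s ≤ 1 - (1 - qq ν) * (1 - θ ^ 2 * s) ^ b := by
    conv_lhs => rw [hs]
    refine csSup_le hne ?_
    rw [hS]
    rintro q ⟨u, x, hux, rfl⟩
    exact key u x hux
  have h1 := SQ.one_sub_pow_ge hz1 h.hb
  have h2 := mul_le_mul_of_nonneg_left h1 (sub_nonneg.mpr hq1)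
  have h3 : 1 - s + θ ^ 4 * s ^ 2 ≤ 1 - b * (θ ^ 2 * s) + (θ ^ 2 * s) ^ 2 := by
    have := mul_le_mul_of_nonneg_right h.θ1 hs0
    nlinarith
  have h4 := mul_le_mul_of_nonneg_left h3 (sub_nonneg.mpr hq1)
  have h5 : θ ^ 4 * s ^ 2 ≤ s := by
    have : θ ^ 4 * s ^ 2 = (θ ^ 2 * s) * (θ ^ 2 * s) := by ring
    nlinarith
  have h6 : θ ^ 4 * s ^ 2 ≤ qq ν := by nlinarith
  have h7 := hle u x hux
  have h8 := SQ.q_nonneg T μ Q u x
  calc θ ^ 4 * (∫ Y, th T μ u x Y ^ 2 ∂Q) ^ 2 ≤ θ ^ 4 * s ^ 2 := by gcongr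
    _ ≤ qq ν := h6

/-- from `info_low` with the infimum `m` over all edges: `(1 - b θ²) m + m² ≥ q_ν (1 - m)` -/
theorem q_low (h : SR T θ μ ν Q) :
    (∀ u x, T.G.Adj u x → Real.sqrt (qq ν) / 2 ≤ ∫ Y, th T μ u x Y ^ 2 ∂Q) ∨
      Real.sqrt (qq ν) / 2 ≤ 1 - b * θ ^ 2 := by
  by_contra hcon
  push Not at hcon
  obtain ⟨⟨u₀, x₀, hux₀, hlt⟩, hθ⟩ := hcon
  obtain ⟨S, hS⟩ : ∃ S : Set ℝ, S = {q | ∃ u x, T.G.Adj u x ∧ q = ∫ Y, th T μ u x Y ^ 2 ∂Q} :=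
    ⟨_, rfl⟩
  have hbdd : BddBelow S := by
    refine ⟨0, ?_⟩
    rw [hS]
    rintro q ⟨u, x, -, rfl⟩
    exact SQ.q_nonneg T μ Q u x
  have hne : S.Nonempty := ⟨_, by rw [hS]; exact ⟨u₀, x₀, hux₀, rfl⟩⟩
  obtain ⟨m, hm⟩ : ∃ m, m = sInf S := ⟨_, rfl⟩
  have hle : ∀ u x, T.G.Adj u x → m ≤ ∫ Y, th T μ u x Y ^ 2 ∂Q := by
    intro u x hux
    rw [hm]
    exact csInf_le hbdd (by rw [hS]; exact ⟨u, x, hux, rfl⟩)
  have hm0 : 0 ≤ m := by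
    rw [hm]
    refine le_csInf hne ?_
    rw [hS]
    rintro q ⟨u, x, -, rfl⟩
    exact SQ.q_nonneg T μ Q u x
  have hmlt : m < Real.sqrt (qq ν) / 2 := (hle u₀ x₀ hux₀).trans_lt hlt
  have hq0 := SQ.qq_nonneg ν
  have hq1 := SQ.qq_le_one h.hν
  have hθ2 := SQ.θsq_le h
  obtain ⟨X, hX⟩ : ∃ X, X = qq ν + b * θ ^ 2 * m := ⟨_, rfl⟩
  have hX0 : 0 ≤ X := by rw [hX]; positivity
  have key : ∀ u x, T.G.Adj u x → X / (1 + X) ≤ ∫ Y, th T μ u x Y ^ 2 ∂Q := by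
    intro u x hux
    have h1 := info_low h hux
    obtain ⟨q, hq⟩ : ∃ q, q = ∫ Y, th T μ u x Y ^ 2 ∂Q := ⟨_, rfl⟩
    obtain ⟨X', hX'⟩ : ∃ X', X' = qq ν + θ ^ 2 * ∑ y ∈ T.ch u x, ∫ Y, th T μ x y Y ^ 2 ∂Q :=
      ⟨_, rfl⟩
    rw [← hX', ← hq] at h1
    rw [← hq]
    have hXX : X ≤ X' := by
      rw [hX, hX']
      have h2 : b * m ≤ ∑ y ∈ T.ch u x, ∫ Y, th T μ x y Y ^ 2 ∂Q := by
        have e : (b : ℝ) * m = ∑ _y ∈ T.ch u x, m := by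
          rw [Finset.sum_const, RTree.card_ch hux, nsmul_eq_mul]
        rw [e]
        exact Finset.sum_le_sum fun y hy => hle x y (RTree.mem_ch.mp hy).2
      have := mul_le_mul_of_nonneg_left h2 (sq_nonneg θ)
      linarith
    have hq' : q ≤ 1 := hq ▸ SQ.q_le_one h u x
    rw [div_le_iff₀ (by linarith)]
    nlinarith
  have hinf : X / (1 + X) ≤ m := by
    rw [hm]
    refine le_csInf hne ?_
    rw [hS]
    rintro q ⟨u, x, hux, rfl⟩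
    exact key u x hux
  rw [div_le_iff₀ (by linarith)] at hinf
  obtain ⟨r, hr⟩ : ∃ r, r = Real.sqrt (qq ν) := ⟨_, rfl⟩
  have hrq : r ^ 2 = qq ν := by rw [hr]; exact Real.sq_sqrt hq0
  have hr0 : 0 ≤ r := hr ▸ Real.sqrt_nonneg _
  have hr1 : r ≤ 1 := by nlinarith
  rw [← hr] at hmlt hθ
  rw [hX, ← hrq] at hinf
  have hθ1 := h.θ1
  -- `(1 - b θ²) m + b θ² m² + m r² ≥ r²`
  have h1 : r ^ 2 ≤ (1 - b * θ ^ 2) * m + b * θ ^ 2 * m ^ 2 + m * r ^ 2 := by nlinarith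
  have h2 : (1 - b * θ ^ 2) * m ≤ r / 2 * m := by gcongr
  have h3 : b * θ ^ 2 * m ^ 2 ≤ 1 * m ^ 2 := by gcongr
  have h4 : m * r ^ 2 ≤ r / 2 * r ^ 2 := by gcongr
  nlinarith

theorem Mh_up (h : SR T θ μ ν Q) {s : ℝ}
    (hs : ∀ u x, T.G.Adj u x → ∫ Y, th T μ u x Y ^ 2 ∂Q ≤ s) (v : V) :
    ∫ Y, Mh T μ v Y ^ 2 ∂Q ≤ qq ν + (b + 1) * (θ ^ 2 * s) := by
  have hq0 := SQ.qq_nonneg ν
  have hq1 := SQ.qq_le_one h.hν
  have hθ2 := SQ.θsq_le h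
  have h1 := info_up_Mh h v
  have hf0 : ∀ y, 0 ≤ θ ^ 2 * ∫ Y, th T μ v y Y ^ 2 ∂Q := fun y =>
    mul_nonneg (sq_nonneg _) (SQ.q_nonneg T μ Q v y)
  have hf1 : ∀ y, θ ^ 2 * ∫ Y, th T μ v y Y ^ 2 ∂Q ≤ 1 := fun y =>
    mul_le_one₀ hθ2 (SQ.q_nonneg T μ Q v y) (SQ.q_le_one h v y)
  have key : ∀ A : Finset V, 0 ≤ ∏ y ∈ A, (1 - θ ^ 2 * ∫ Y, th T μ v y Y ^ 2 ∂Q) ∧
      ∏ y ∈ A, (1 - θ ^ 2 * ∫ Y, th T μ v y Y ^ 2 ∂Q) ≤ 1 ∧
      1 - ∑ y ∈ A, θ ^ 2 * ∫ Y, th T μ v y Y ^ 2 ∂Q ≤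
        ∏ y ∈ A, (1 - θ ^ 2 * ∫ Y, th T μ v y Y ^ 2 ∂Q) := by
    classical
    intro A
    induction A using Finset.induction_on with
    | empty => simp
    | insert i A hi ih =>
      obtain ⟨i1, i2, i3⟩ := ih
      rw [Finset.prod_insert hi, Finset.sum_insert hi]
      have e1 := hf0 i
      have e2 := hf1 i
      refine ⟨mul_nonneg (by linarith) i1, ?_, ?_⟩
      · nlinarith
      · nlinarith
  obtain ⟨k1, k2, k3⟩ := key (T.nb v)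
  have h2 : ∑ y ∈ T.nb v, θ ^ 2 * ∫ Y, th T μ v y Y ^ 2 ∂Q ≤ (b + 1) * (θ ^ 2 * s) := by
    have hc : ((T.nb v).card : ℝ) = b + 1 := by rw [T.card_nb]; push_cast; ring
    rw [← hc, ← nsmul_eq_mul, ← Finset.sum_const]
    refine Finset.sum_le_sum fun y hy => ?_
    have := hs v y ((T.mem_nb v y).mp hy)
    gcongr
  nlinarith

end S

end Vale.Agent.P161E
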