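import Vale.Agent.P161E.SMgf
import Vale.Agent.P161E.SInfoQ
import Vale.Agent.P161E.SGrow

/-!
# Part S, S6C: tails of the cavity magnetisation
-/

open MeasureTheory Set Filter Topology
open scoped unitInterval ENNReal

namespace Vale.Agent.P161E

open Vale.Agent.P161

universe u

variable {V : Type u} {b : ℕ}

namespace Tail

theorem pow4_le_cosh (z : ℝ) : z ^ 4 / 24 ≤ Real.cosh z := by
  have h := Real.hasSum_cosh z
  have h1 := le_hasSum h 2 (fun n _ => by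
    rw [pow_mul]
    positivity)
  have e : z ^ (2 * 2) / ((2 * 2).factorial : ℝ) = z ^ 4 / 24 := by norm_num [Nat.factorial]
  rwa [e] at h1

theorem exp_le_two_cosh (z : ℝ) : Real.exp z ≤ 2 * Real.cosh z := by
  rw [Real.cosh_eq]
  have := Real.exp_pos (-z)
  linarith

theorem abs_le_artanh {t : ℝ} (ht : |t| < 1) : |t| ≤ |Real.artanh t| := by
  have h := abs_lt.mp ht
  have h1 := Mgf.abs_tanh_le (Real.artanh t)
  rwa [Real.tanh_artanh ⟨h.1, h.2⟩] at h1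

theorem card_ch (T : RTree V b) {u x : V} (hux : T.G.Adj u x) : (T.ch u x).card = b := by
  classical
  have h1 : u ∈ T.nb x := (T.mem_nb x u).mpr hux.symm
  unfold RTree.ch
  have h2 := Finset.card_erase_of_mem h1
  rw [T.card_nb] at h2
  simpa using h2

section

variable {T : RTree V b} {θ : ℝ} {μ : Measure (V → Bool)} {ν : Measure ℝ} {Q : Measure (V → ℝ)}

theorem integrable_cosh (h : SR T θ μ ν Q) {u x : V} (hux : T.G.Adj u x) {κ : ℝ} (hκ : 0 ≤ κ) :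
    Integrable (fun Y => Real.cosh (κ * Real.artanh (th T μ u x Y))) Q := by
  have := h.prob_μ
  have := h.prob_Q
  obtain ⟨L, hL⟩ := Mgf.exists_bd h
  have hm := measurable_th T μ u x
  have ha := Mgf.measurable_artanh
  refine Integrable.of_bound (C := Real.cosh (κ * L)) ?_ ?_
  · refine Measurable.aestronglyMeasurable ?_
    fun_prop
  · filter_upwards [hL u x hux] with Y hY
    rw [Real.norm_eq_abs, abs_of_pos (Real.cosh_pos _)]
    apply Mgf.cosh_le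
    rw [abs_mul, abs_of_nonneg hκ]
    exact mul_le_mul_of_nonneg_left (Mgf.abs_artanh_le hY) hκ

theorem integrable_pow (h : SR T θ μ ν Q) (u x : V) (n : ℕ) :
    Integrable (fun Y => th T μ u x Y ^ n) Q := by
  have := h.prob_μ
  have := h.prob_Q
  refine Integrable.of_bound ((measurable_th T μ u x).pow_const n).aestronglyMeasurable 1
    (ae_of_all _ fun Y => ?_)
  rw [Real.norm_eq_abs, abs_pow]
  exact pow_le_one₀ (abs_nonneg _) (abs_th_le T μ u x Y)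

theorem integral_pow_le_one (h : SR T θ μ ν Q) (u x : V) (n : ℕ) :
    ∫ Y, th T μ u x Y ^ n ∂Q ≤ 1 := by
  have := h.prob_μ
  have := h.prob_Q
  have h1 : ∫ Y, th T μ u x Y ^ n ∂Q ≤ ∫ _, (1 : ℝ) ∂Q := by
    refine integral_mono (integrable_pow h u x n) (integrable_const _) fun Y => ?_
    refine (le_abs_self _).trans ?_
    rw [abs_pow]
    exact pow_le_one₀ (abs_nonneg _) (abs_th_le T μ u x Y)
  simpa using h1

/-- the information of the base field in the first pass -/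
theorem qq_le {ν : Measure ℝ} (hν : Obs ν) {ρ : ℝ} (hρ : 0 < ρ)
    (h1 : ν {y | y ≠ 0} ≤ ENNReal.ofReal ρ) (h2 : ∀ᵐ y ∂ν, |y| ≤ Real.sqrt ρ) :
    qq ν ≤ ρ ^ 2 := by
  have := hν.prob
  have ms : MeasurableSet {y : ℝ | y ≠ 0} :=
    (measurableSet_eq_fun measurable_id measurable_const).compl
  have e3 : qq ν ≤ ∫ y, {y : ℝ | y ≠ 0}.indicator (fun _ => ρ) y ∂ν := by
    unfold qq
    refine integral_mono_ae ?_ ((integrable_const _).indicator ms) ?_
    · refine Integrable.of_bound (Mgf.measurable_tanh.pow_const 2).aestronglyMeasurable 1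
        (ae_of_all _ fun y => ?_)
      rw [Real.norm_eq_abs, abs_pow]
      refine pow_le_one₀ (abs_nonneg _) ?_
      rw [abs_le]
      exact ⟨(Real.neg_one_lt_tanh y).le, (Real.tanh_lt_one y).le⟩
    · filter_upwards [h2] with y hy
      by_cases h0 : y = 0
      · subst h0
        simp
      · rw [indicator_of_mem (show y ∈ {y : ℝ | y ≠ 0} from h0)]
        have h3 := (Mgf.abs_tanh_le y).trans hy
        calc Real.tanh y ^ 2 = |Real.tanh y| ^ 2 := (sq_abs _).symm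
          _ ≤ Real.sqrt ρ ^ 2 := pow_le_pow_left₀ (abs_nonneg _) h3 2
          _ = ρ := Real.sq_sqrt hρ.le
  have e5 : ∫ y, {y : ℝ | y ≠ 0}.indicator (fun _ => ρ) y ∂ν = ρ * ν.real {y : ℝ | y ≠ 0} := by
    rw [integral_indicator ms, setIntegral_const]
    simp [mul_comm]
  have e6 : ν.real {y : ℝ | y ≠ 0} ≤ ρ := by
    unfold Measure.real
    exact ENNReal.toReal_le_of_le_ofReal hρ.le h1
  nlinarith

/-- Chernoff bound -/
theorem chernoff (h : SR T θ μ ν Q) {u x : V} (hux : T.G.Adj u x) {C ρ K p : ℝ} (hC : 1 ≤ C)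
    (hρ : 0 < ρ) (hρ1 : ρ ≤ 1) (hK : 4 * C ^ 2 ≤ K) (hp : 1 ≤ p)
    (hZ : ∀ κ, θ ≤ κ → κ ≤ 1 / ρ → Zk T μ Q u x κ ≤ Real.exp (C * κ ^ 2 * ρ)) :
    Q.real {Y | K * p * ρ < th T μ u x Y ^ 2} ≤ 2 * Real.exp (-p) := by
  have := h.prob_μ
  have := h.prob_Q
  have hK0 : 0 < K := by nlinarith
  have hs0 : 0 < K * p * ρ := by positivity
  by_cases hbig : 1 ≤ K * p * ρ
  · have : {Y : V → ℝ | K * p * ρ < th T μ u x Y ^ 2} = ∅ := by
      ext Y
      simp only [Set.mem_ofPred_eq, Set.mem_empty_iff_false, iff_false, not_lt]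
      have h1 : th T μ u x Y ^ 2 ≤ 1 := by
        rw [← sq_abs]
        exact pow_le_one₀ (abs_nonneg _) (abs_th_le T μ u x Y)
      linarith
    rw [this]
    simp
    positivity
  · push Not at hbig
    set s : ℝ := Real.sqrt (K * p * ρ) with hs
    have hs2 : s ^ 2 = K * p * ρ := Real.sq_sqrt hs0.le
    have hsp : 0 < s := Real.sqrt_pos.mpr hs0
    have hs1 : s ≤ 1 := by
      rw [hs]
      exact Real.sqrt_le_one.mpr hbig.le
    set κ : ℝ := s / (2 * C * ρ) with hκ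
    have hCρ : 0 < 2 * C * ρ := by positivity
    have hκ0 : 0 ≤ κ := by positivity
    have hκ1 : κ ≤ 1 / ρ := by
      rw [hκ, div_le_div_iff₀ hCρ hρ]
      nlinarith
    have hκθ : θ ≤ κ := by
      refine h.θlt.le.trans ?_
      rw [hκ, le_div_iff₀ hCρ, one_mul]
      refine le_of_sq_le_sq ?_ hsp.le
      rw [hs2]
      have a1 : (2 * C * ρ) ^ 2 = 4 * C ^ 2 * ρ * ρ := by ring
      rw [a1]
      have a2 : 4 * C ^ 2 * ρ * ρ ≤ 4 * C ^ 2 * ρ * 1 :=
        mul_le_mul_of_nonneg_left hρ1 (by positivity)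
      have a3 : 4 * C ^ 2 * ρ ≤ K * ρ := mul_le_mul_of_nonneg_right hK hρ.le
      have a4 : K * 1 * ρ ≤ K * p * ρ :=
        mul_le_mul_of_nonneg_right (mul_le_mul_of_nonneg_left hp hK0.le) hρ.le
      linarith
    have h1 := hZ κ hκθ hκ1
    have h2 := integral_cosh_le h hux hκ0
    have h3 := mul_meas_ge_le_integral_of_nonneg (μ := Q)
      (f := fun Y => Real.cosh (κ * Real.artanh (th T μ u x Y)))
      (ae_of_all _ fun Y => (Real.cosh_pos _).le) (integrable_cosh h hux hκ0) (Real.cosh (κ * s))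
    have h4 : Q.real {Y | K * p * ρ < th T μ u x Y ^ 2} ≤
        Q.real {Y | Real.cosh (κ * s) ≤ Real.cosh (κ * Real.artanh (th T μ u x Y))} := by
      refine ENNReal.toReal_mono (measure_ne_top _ _) (measure_mono_ae ?_)
      obtain ⟨L, hL⟩ := Mgf.exists_bd h
      filter_upwards [hL u x hux] with Y hY hY2
      have b1 : |th T μ u x Y| < 1 := hY.trans_lt (Real.tanh_lt_one L)
      have b2 := abs_le_artanh b1
      have b3 : K * p * ρ < th T μ u x Y ^ 2 := hY2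
      have b4 : s < |th T μ u x Y| := by
        rw [← hs2, ← sq_abs (th T μ u x Y)] at b3
        exact lt_of_pow_lt_pow_left₀ 2 (abs_nonneg _) b3
      show Real.cosh (κ * s) ≤ Real.cosh (κ * Real.artanh (th T μ u x Y))
      rw [← Real.cosh_abs (κ * Real.artanh (th T μ u x Y)), abs_mul, abs_of_nonneg hκ0]
      apply Mgf.cosh_le
      rw [abs_of_nonneg (mul_nonneg hκ0 hsp.le)]
      exact mul_le_mul_of_nonneg_left (b4.le.trans b2) hκ0
    have h5 : Real.exp (κ * s) ≤ 2 * Real.cosh (κ * s) := exp_le_two_cosh _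
    have h6 : C * κ ^ 2 * ρ - κ * s ≤ -p := by
      have c1 : C * κ ^ 2 * ρ - κ * s = -(s ^ 2 / (4 * C * ρ)) := by
        rw [hκ]
        field_simp
        ring
      have c2 : s ^ 2 / (4 * C * ρ) = K * p / (4 * C) := by
        rw [hs2]
        field_simp
      rw [c1, c2]
      have c3 : p ≤ K * p / (4 * C) := by
        rw [le_div_iff₀ (by positivity)]
        have c4 : 4 * C ≤ K := by nlinarith
        nlinarith
      linarith
    have hP : 0 ≤ Q.real {Y | K * p * ρ < th T μ u x Y ^ 2} := measureReal_nonneg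
    have h7 : Q.real {Y | K * p * ρ < th T μ u x Y ^ 2} * Real.exp (κ * s) ≤
        2 * Real.exp (C * κ ^ 2 * ρ) := by
      calc Q.real {Y | K * p * ρ < th T μ u x Y ^ 2} * Real.exp (κ * s)
          ≤ Q.real {Y | K * p * ρ < th T μ u x Y ^ 2} * (2 * Real.cosh (κ * s)) :=
            mul_le_mul_of_nonneg_left h5 hP
        _ ≤ Q.real {Y | Real.cosh (κ * s) ≤ Real.cosh (κ * Real.artanh (th T μ u x Y))} *
              (2 * Real.cosh (κ * s)) := mul_le_mul_of_nonneg_right h4 (by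
                have := Real.cosh_pos (κ * s)
                positivity)
        _ = 2 * (Real.cosh (κ * s) *
              Q.real {Y | Real.cosh (κ * s) ≤ Real.cosh (κ * Real.artanh (th T μ u x Y))}) := by ring
        _ ≤ 2 * Real.exp (C * κ ^ 2 * ρ) := by linarith [h3.trans (h2.trans h1)]
    calc Q.real {Y | K * p * ρ < th T μ u x Y ^ 2}
        = Q.real {Y | K * p * ρ < th T μ u x Y ^ 2} * Real.exp (κ * s) * Real.exp (-(κ * s)) := by
          have e : Real.exp (κ * s) * Real.exp (-(κ * s)) = 1 := by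
            rw [← Real.exp_add]
            simp
          rw [mul_assoc (Q.real _), e, mul_one]
      _ ≤ 2 * Real.exp (C * κ ^ 2 * ρ) * Real.exp (-(κ * s)) :=
          mul_le_mul_of_nonneg_right h7 (Real.exp_nonneg _)
      _ = 2 * Real.exp (C * κ ^ 2 * ρ - κ * s) := by
          rw [mul_assoc, ← Real.exp_add, sub_eq_add_neg]
      _ ≤ 2 * Real.exp (-p) :=
          mul_le_mul_of_nonneg_left (Real.exp_le_exp.mpr h6) (by norm_num)

/-- the fourth moment -/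
theorem fourth (h : SR T θ μ ν Q) {u x : V} (hux : T.G.Adj u x) {C ρ : ℝ}
    (hρ : 0 < ρ) (hρ1 : ρ ≤ 1)
    (hZ : ∀ κ, θ ≤ κ → κ ≤ 1 / ρ → Zk T μ Q u x κ ≤ Real.exp (C * κ ^ 2 * ρ)) :
    ∫ Y, th T μ u x Y ^ 4 ∂Q ≤ 24 * Real.exp C * ρ ^ 2 := by
  have := h.prob_μ
  have := h.prob_Q
  set κ : ℝ := 1 / Real.sqrt ρ with hκ
  have hs : 0 < Real.sqrt ρ := Real.sqrt_pos.mpr hρ
  have hs1 : Real.sqrt ρ ≤ 1 := Real.sqrt_le_one.mpr hρ1
  have hs2 : Real.sqrt ρ ^ 2 = ρ := Real.sq_sqrt hρ.le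
  have hκ0 : 0 ≤ κ := by positivity
  have hκ1 : κ ≤ 1 / ρ := by
    rw [hκ]
    apply one_div_le_one_div_of_le hρ
    nlinarith
  have hκθ : θ ≤ κ := by
    refine h.θlt.le.trans ?_
    rw [hκ, le_div_iff₀ hs]
    linarith
  have hκ2 : κ ^ 2 * ρ = 1 := by
    rw [hκ, div_pow, one_pow, hs2]
    field_simp
  have h1 := hZ κ hκθ hκ1
  rw [mul_assoc, hκ2, mul_one] at h1
  have h2 := (integral_cosh_le h hux hκ0).trans h1
  have h3 : κ ^ 4 / 24 * ∫ Y, th T μ u x Y ^ 4 ∂Q ≤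
      ∫ Y, Real.cosh (κ * Real.artanh (th T μ u x Y)) ∂Q := by
    rw [← integral_const_mul]
    refine integral_mono_ae ((integrable_pow h u x 4).const_mul _) (integrable_cosh h hux hκ0) ?_
    obtain ⟨L, hL⟩ := Mgf.exists_bd h
    filter_upwards [hL u x hux] with Y hY
    have b1 : |th T μ u x Y| < 1 := hY.trans_lt (Real.tanh_lt_one L)
    have b2 := abs_le_artanh b1
    have b3 : th T μ u x Y ^ 4 ≤ Real.artanh (th T μ u x Y) ^ 4 := by
      rw [← Even.pow_abs (by decide : Even 4) (th T μ u x Y),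
        ← Even.pow_abs (by decide : Even 4) (Real.artanh (th T μ u x Y))]
      exact pow_le_pow_left₀ (abs_nonneg _) b2 4
    calc κ ^ 4 / 24 * th T μ u x Y ^ 4 ≤ κ ^ 4 / 24 * Real.artanh (th T μ u x Y) ^ 4 :=
          mul_le_mul_of_nonneg_left b3 (by positivity)
      _ = (κ * Real.artanh (th T μ u x Y)) ^ 4 / 24 := by ring
      _ ≤ _ := pow4_le_cosh _
  have h4 : κ ^ 4 * ρ ^ 2 = 1 := by
    have : κ ^ 4 * ρ ^ 2 = (κ ^ 2 * ρ) ^ 2 := by ring
    rw [this, hκ2, one_pow]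
  have h5 : κ ^ 4 / 24 * ∫ Y, th T μ u x Y ^ 4 ∂Q ≤ Real.exp C := h3.trans h2
  calc ∫ Y, th T μ u x Y ^ 4 ∂Q = (κ ^ 4 * ρ ^ 2) * ∫ Y, th T μ u x Y ^ 4 ∂Q := by
        rw [h4, one_mul]
    _ = 24 * ρ ^ 2 * (κ ^ 4 / 24 * ∫ Y, th T μ u x Y ^ 4 ∂Q) := by ring
    _ ≤ 24 * ρ ^ 2 * Real.exp C := mul_le_mul_of_nonneg_left h5 (by positivity)
    _ = _ := by ring

/-- the second moment -/
theorem second (h : SR T θ μ ν Q) {u x : V} (hux : T.G.Adj u x) {ρ : ℝ} (hρ : 0 < ρ)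
    (hq : qq ν ≤ ρ ^ 2) : ∫ Y, th T μ u x Y ^ 2 ∂Q ≤ 2 * b * ρ := by
  have h1 := q_up h hux
  set q := ∫ Y, th T μ u x Y ^ 2 ∂Q with hq'
  have hq0 : 0 ≤ q := integral_nonneg fun Y => sq_nonneg _
  have h2 : (θ ^ 2 * q) ^ 2 ≤ ρ ^ 2 := by
    have : (θ ^ 2 * q) ^ 2 = θ ^ 4 * q ^ 2 := by ring
    rw [this]
    exact h1.trans hq
  have h3 : θ ^ 2 * q ≤ ρ := abs_le_of_sq_le_sq' h2 hρ.le |>.2
  have h4 := h.θ2
  have hb : (2 : ℝ) ≤ b := by exact_mod_cast h.hb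
  have h5 : q ≤ 2 * (b * θ ^ 2) * q := by nlinarith
  have h6 : 2 * (b * θ ^ 2) * q = 2 * b * (θ ^ 2 * q) := by ring
  rw [h6] at h5
  exact h5.trans (mul_le_mul_of_nonneg_left h3 (by positivity))

end

/-- the constants and the growth bound -/
theorem growth {b : ℕ} (hb : 2 ≤ b) : ∃ C : ℝ, 1 ≤ C ∧ ∀ (V : Type u) (T : RTree V b) (θ ρ : ℝ)
    (μ : Measure (V → Bool)) (ν : Measure ℝ) (Q : Measure (V → ℝ)), SR T θ μ ν Q →
    0 < ρ → ρ ≤ Real.exp (-2) → ν {y | y ≠ 0} ≤ ENNReal.ofReal ρ →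
    (∀ᵐ y ∂ν, |y| ≤ Real.sqrt ρ) → ∀ u x, T.G.Adj u x →
    ∀ κ, θ ≤ κ → κ ≤ 1 / ρ → Zk T μ Q u x κ ≤ Real.exp (C * κ ^ 2 * ρ) := by
  obtain ⟨C₁, hC₁, hs⟩ := Zk_small.{u} (b := b)
  obtain ⟨C, hC, hg⟩ := mgf_growth.{u} b (C₁ * (2 * b))
  refine ⟨max C 1, le_max_right _ _, ?_⟩
  intro V T θ ρ μ ν Q h hρ hρ2 h1 h2 u x hux κ hκθ hκ1
  classical
  have := h.prob_μ
  have := h.prob_Q
  have hρ1 : ρ ≤ 1 := hρ2.trans (by
    rw [← Real.exp_zero]
    exact Real.exp_le_exp.mpr (by norm_num))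
  have hq := qq_le h.hν hρ h1 h2
  have hbd : ∀ᵐ y ∂ν, |y| ≤ 1 := by
    filter_upwards [h2] with y hy
    exact hy.trans (Real.sqrt_le_one.mpr hρ1)
  have hZ0 : ∀ (i : {e : V × V // T.G.Adj e.1 e.2}) (κ : ℝ), 0 ≤ Zk T μ Q i.1.1 i.1.2 κ :=
    fun i κ => Zk_nonneg T μ Q _ _ κ
  have hprod : ∀ (i : {e : V × V // T.G.Adj e.1 e.2}) (κ W : ℝ),
      (∀ j : {e : V × V // T.G.Adj e.1 e.2}, Zk T μ Q j.1.1 j.1.2 (θ * κ) ≤ W) →
      0 ≤ W ^ b ∧ ∏ y ∈ T.ch i.1.1 i.1.2, Zk T μ Q i.1.2 y (θ * κ) ≤ W ^ b := by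
    intro i κ W hW
    have hW0 : 0 ≤ W := (hZ0 i (θ * κ)).trans (hW i)
    refine ⟨pow_nonneg hW0 b, ?_⟩
    have hadj : ∀ y ∈ T.ch i.1.1 i.1.2, T.G.Adj i.1.2 y := fun y hy =>
      (T.mem_nb i.1.2 y).mp (Finset.mem_of_mem_erase hy)
    calc ∏ y ∈ T.ch i.1.1 i.1.2, Zk T μ Q i.1.2 y (θ * κ)
        ≤ ∏ y ∈ T.ch i.1.1 i.1.2, W := Finset.prod_le_prod
          (fun y hy => Zk_nonneg T μ Q _ _ _) (fun y hy => hW ⟨(i.1.2, y), hadj y hy⟩)
      _ = W ^ b := by rw [Finset.prod_const, card_ch T i.2]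
  have key := hg {e : V × V // T.G.Adj e.1 e.2} θ ρ (fun i κ => Zk T μ Q i.1.1 i.1.2 κ) h.hb h.θ0
    h.θ1 h.θ2 hρ hρ2 (fun i κ _ => hZ0 i κ) (fun i κ hκ0 hκ1 => ?_) (fun i κ W hκ0 hW => ?_)
    (fun i κ W hκ0 hW => ?_) ⟨(u, x), hux⟩ κ hκθ hκ1
  · refine key.trans (Real.exp_le_exp.mpr ?_)
    have h3 : 0 ≤ κ ^ 2 * ρ := by positivity
    have h4 : C * (κ ^ 2 * ρ) ≤ max C 1 * (κ ^ 2 * ρ) :=
      mul_le_mul_of_nonneg_right (le_max_left _ _) h3
    calc C * κ ^ 2 * ρ = C * (κ ^ 2 * ρ) := by ring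
      _ ≤ max C 1 * (κ ^ 2 * ρ) := h4
      _ = _ := by ring
  · have h3 := hs V T θ μ ν Q h hbd i.1.1 i.1.2 i.2 κ hκ0 hκ1
    have h4 := second h i.2 hρ hq
    refine h3.trans ?_
    have h5 : C₁ * ∫ Y, th T μ i.1.1 i.1.2 Y ^ 2 ∂Q ≤ C₁ * (2 * b) * ρ := by
      calc C₁ * ∫ Y, th T μ i.1.1 i.1.2 Y ^ 2 ∂Q ≤ C₁ * (2 * b * ρ) :=
            mul_le_mul_of_nonneg_left h4 hC₁.le
        _ = _ := by ring
    have h6 := Real.add_one_le_exp (C₁ * (2 * b) * ρ)
    linarith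
  · obtain ⟨hW0, hW1⟩ := hprod i κ W hW
    have h3 := Zk_rec h i.2 hκ0
    have h4 := (Znu_le h.hν hρ hρ1 h1 h2 hκ0).1
    refine h3.trans (mul_le_mul h4 hW1 (Finset.prod_nonneg fun y _ => Zk_nonneg T μ Q _ _ _)
      (Real.exp_nonneg _))
  · obtain ⟨hW0, hW1⟩ := hprod i κ W hW
    have h3 := Zk_rec h i.2 hκ0
    have h4 := (Znu_le h.hν hρ hρ1 h1 h2 hκ0).2
    refine h3.trans (mul_le_mul h4 hW1 (Finset.prod_nonneg fun y _ => Zk_nonneg T μ Q _ _ _) ?_)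
    refine le_trans ?_ h4
    refine integral_nonneg fun y => ?_
    have := Real.neg_one_lt_tanh y
    have h2 : 0 ≤ 1 + Real.tanh y := by linarith
    exact mul_nonneg h2 (Real.exp_nonneg _)

end Tail

theorem th_tail {b : ℕ} (hb : 2 ≤ b) : ∃ K : ℝ, 1 ≤ K ∧ ∀ (V : Type u) (T : RTree V b) (θ ρ : ℝ)
    (μ : Measure (V → Bool)) (ν : Measure ℝ) (Q : Measure (V → ℝ)), SR T θ μ ν Q → Rate ν ρ →
    ∀ u x, T.G.Adj u x →
    (∀ p : ℝ, 1 ≤ p → Q.real {Y | K * p * ρ < th T μ u x Y ^ 2} ≤ K * Real.exp (-p)) ∧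
    ∫ Y, th T μ u x Y ^ 4 ∂Q ≤ K * ρ ^ 2 ∧ ∫ Y, th T μ u x Y ^ 2 ∂Q ≤ K * ρ := by
  obtain ⟨C, hC, hg⟩ := Tail.growth.{u} hb
  set K : ℝ := Real.exp 4 + 4 * C ^ 2 + 24 * Real.exp C + 2 * b + 2 with hK
  have e4 := Real.exp_pos 4
  have eC := Real.exp_pos C
  have hb0 : (0 : ℝ) ≤ b := Nat.cast_nonneg b
  have hC2 : 0 ≤ 4 * C ^ 2 := by positivity
  have k1 : Real.exp 4 ≤ K := by rw [hK]; linarith
  have k2 : 4 * C ^ 2 ≤ K := by rw [hK]; linarith
  have k3 : 24 * Real.exp C ≤ K := by rw [hK]; linarith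
  have k4 : 2 * (b : ℝ) ≤ K := by rw [hK]; linarith
  have k5 : 2 ≤ K := by rw [hK]; linarith
  refine ⟨K, by linarith, ?_⟩
  intro V T θ ρ μ ν Q h hr u x hux
  have := h.prob_μ
  have := h.prob_Q
  have hρ := hr.pos
  have hρ1 : ρ ≤ 1 := hr.le.trans (by norm_num)
  by_cases hbig : Real.exp (-2) < ρ
  · have g1 : 1 ≤ K * ρ := by
      have : 1 ≤ Real.exp 4 * Real.exp (-2) := by
        rw [← Real.exp_add, ← Real.exp_zero]
        exact Real.exp_le_exp.mpr (by norm_num)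
      calc 1 ≤ Real.exp 4 * Real.exp (-2) := this
        _ ≤ K * ρ := mul_le_mul k1 hbig.le (Real.exp_nonneg _) (by linarith)
    have g2 : 1 ≤ K * ρ ^ 2 := by
      have a1 : Real.exp 4 * Real.exp (-2) ^ 2 = 1 := by
        rw [← Real.exp_nat_mul, ← Real.exp_add, ← Real.exp_zero]
        congr 1
        norm_num
      calc 1 = Real.exp 4 * Real.exp (-2) ^ 2 := a1.symm
        _ ≤ K * ρ ^ 2 := mul_le_mul k1 (pow_le_pow_left₀ (Real.exp_nonneg _) hbig.le 2)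
          (by positivity) (by linarith)
    refine ⟨fun p hp => ?_, (Tail.integral_pow_le_one h u x 4).trans g2,
      (Tail.integral_pow_le_one h u x 2).trans g1⟩
    have : {Y : V → ℝ | K * p * ρ < th T μ u x Y ^ 2} = ∅ := by
      ext Y
      simp only [Set.mem_ofPred_eq, Set.mem_empty_iff_false, iff_false, not_lt]
      have h1 : th T μ u x Y ^ 2 ≤ 1 := by
        rw [← sq_abs]
        exact pow_le_one₀ (abs_nonneg _) (abs_th_le T μ u x Y)
      have h2 : K * ρ ≤ K * ρ * p := le_mul_of_one_le_right (by linarith) hp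
      have h3 : K * ρ * p = K * p * ρ := by ring
      linarith
    rw [this]
    simp
    positivity
  · push Not at hbig
    obtain ⟨h1, h2⟩ : ν {y | y ≠ 0} ≤ ENNReal.ofReal ρ ∧ ∀ᵐ y ∂ν, |y| ≤ Real.sqrt ρ := by
      rcases hr.cases with h3 | h3
      · exact h3
      · exfalso
        rw [h3] at hbig
        have a1 : (2 : ℝ) < Real.exp 2 := by
          have := Real.add_one_lt_exp (show (2 : ℝ) ≠ 0 by norm_num)
          linarith
        rw [Real.exp_neg] at hbig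
        have a2 := (inv_lt_inv₀ (Real.exp_pos 2) (by norm_num : (0 : ℝ) < 2)).mpr a1
        norm_num at a2 hbig
        linarith
    have hZ := hg V T θ ρ μ ν Q h hρ hbig h1 h2 u x hux
    have hq := Tail.qq_le h.hν hρ h1 h2
    refine ⟨fun p hp => ?_, ?_, ?_⟩
    · refine (Tail.chernoff h hux hC hρ hρ1 k2 hp hZ).trans ?_
      exact mul_le_mul_of_nonneg_right k5 (Real.exp_nonneg _)
    · refine (Tail.fourth h hux hρ hρ1 hZ).trans ?_
      exact mul_le_mul_of_nonneg_right k3 (by positivity)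
    · refine (Tail.second h hux hρ hq).trans ?_
      exact mul_le_mul_of_nonneg_right k4 hρ.le

end Vale.Agent.P161E
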