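import Vale.Agent.P161E.SStep
import Vale.Agent.P161E.SChi
import Vale.Agent.P161E.SChiTail
import Vale.Agent.P161E.STail

/-!
# Part S: the final statement about a single replica
-/

open MeasureTheory Set Filter Topology
open scoped unitInterval ENNReal

namespace Vale.Agent.P161E

open Vale.Agent.P161

universe u

namespace Sgl

theorem qq_le {ν : Measure ℝ} (hν : Obs ν) {ρ : ℝ} (hr : Rate ν ρ) : qq ν ≤ 2 * ρ := by
  have := hν.prob
  rcases hr.cases with ⟨h1, h2⟩ | h3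
  · have h4 := Tail.qq_le hν hr.pos h1 h2
    have h5 := hr.pos
    have h6 := hr.le
    nlinarith
  · rw [h3]
    norm_num
    have h1 : qq ν ≤ ∫ _, (1 : ℝ) ∂ν := by
      unfold qq
      refine integral_mono_of_nonneg (ae_of_all _ fun y => sq_nonneg _) (integrable_const _)
        (ae_of_all _ fun y => ?_)
      have h2 := Real.neg_one_lt_tanh y
      have h3 := Real.tanh_lt_one y
      show Real.tanh y ^ 2 ≤ 1
      nlinarith
    simpa using h1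

/-- the decay along rays -/
theorem decay {V : Type u} {b : ℕ} {T : RTree V b} {θ : ℝ} {μ : Measure (V → Bool)}
    {ν : Measure ℝ} {Q : Measure (V → ℝ)} (h : SR T θ μ ν Q) {φ : ℝ → ℝ} (hφ : Measurable φ)
    (hφ1 : ∀ t : ℝ, |t| ≤ 1 → 0 ≤ φ t ∧ φ t ≤ 1) {a : ℝ} (ha : 0 ≤ a)
    (hstep : ∀ u x y, T.G.Adj u x → y ∈ T.ch u x → ∀ k : (V → ℝ) → ℝ, Measurable k →
      (∀ Y, 0 ≤ k Y) → Integrable k Q → DependsOn k (T.side x y) →
      ∫ Y, φ (th T μ u x Y) * k Y ∂Q ≤ Real.exp (-a) * ∫ Y, k Y ∂Q)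
    (n : ℕ) (u x : V) (hux : T.G.Adj u x) :
    ∫ Y, T.wavN (fun u x => φ (th T μ u x Y)) (fun _ _ => 1) n u x ∂Q ≤
      Real.exp a * Real.exp (-(a * n)) := by
  have := h.prob_μ
  have := h.prob_Q
  have hb : 0 < b := by have := h.hb; omega
  have key := wavN_decay T hb Q (δ := Real.exp (-a)) (G := 1) (Real.exp_nonneg _)
    (w := fun u x Y => φ (th T μ u x Y)) (g := fun _ _ _ => 1)
    (fun u x => hφ.comp (measurable_th T μ u x)) (fun u x => measurable_const)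
    (fun u x Y => hφ1 _ (abs_th_le T μ u x Y)) (fun _ _ _ => zero_le_one)
    (fun u x _ Y Y' hYY => by
      show φ (th T μ u x Y) = φ (th T μ u x Y')
      rw [dependsOn_th T μ u x hYY])
    (fun u x _ Y Y' hYY => rfl) (fun u x _ => integrable_const _)
    (fun u x _ => by simp) hstep n u x hux
  refine key.trans ?_
  rw [mul_one, ← Real.exp_nat_mul, ← Real.exp_add]
  apply Real.exp_le_exp.mpr
  rcases Nat.eq_zero_or_pos n with h0 | h0
  · subst h0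
    simp
    exact ha
  · have e : ((n - 1 : ℕ) : ℝ) = (n : ℝ) - 1 := by
      push_cast [Nat.cast_sub h0]
      ring
    rw [e]
    linarith

end Sgl

theorem single {b : ℕ} (hb : 2 ≤ b) : ∃ K c M : ℝ, 1 ≤ K ∧ 0 < c ∧ 0 < M ∧
    ∀ (V : Type u) (T : RTree V b) (θ ρ : ℝ) (μ : Measure (V → Bool)) (ν : Measure ℝ)
      (Q : Measure (V → ℝ)), 0 ≤ θ → 1 / 2 ≤ b * θ ^ 2 → b * θ ^ 2 ≤ 1 →
    IsFreeIsing T.G θ μ → Obs ν → IsPlanted μ ν Q → 0 < ρ → ρ ≤ 1 / 2 → ρ ^ 2 ≤ 4000 * qq ν →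
    ((ν {y | y ≠ 0} ≤ ENNReal.ofReal ρ ∧ ∀ᵐ y ∂ν, |y| ≤ Real.sqrt ρ) ∨ ρ = 1 / 2) →
    (∀ u x, T.G.Adj u x → ∀ᵐ Y ∂Q, BddAbove (range fun n =>
      T.chiN (fun u x => be b θ (th T μ u x Y) ^ 2) n u x)) ∧
    (∀ u x, T.G.Adj u x → Integrable (fun Y => chiY T μ θ u x Y ^ 4) Q ∧
      ∫ Y, chiY T μ θ u x Y ^ 4 ∂Q ≤ K / ρ ^ 4) ∧
    (∀ u x, T.G.Adj u x → ∀ p : ℝ, 2 ≤ p →
      Q.real {Y | K * (1 / ρ + Real.log p) < chiY T μ θ u x Y} ≤ K * Real.exp (-p)) ∧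
    (∀ u x, T.G.Adj u x → ∀ p : ℝ, 1 ≤ p →
      Q.real {Y | K * p * ρ < th T μ u x Y ^ 2} ≤ K * Real.exp (-p)) ∧
    (∀ (n : ℕ) (u x : V), T.G.Adj u x → ∫ Y, T.wavN
      (fun u x => Real.exp (-(M / ρ) * (1 - be b θ (th T μ u x Y)))) (fun _ _ => 1) n u x ∂Q ≤
        K * Real.exp (-(c * n))) ∧
    (∀ (n : ℕ) (u x : V), T.G.Adj u x → ∫ Y, T.wavN
      (fun u x => be b θ (th T μ u x Y) ^ 2) (fun _ _ => 1) n u x ∂Q ≤
        K * Real.exp (-(c * ρ * n))) ∧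
    (∀ u x, T.G.Adj u x → ∫ Y, th T μ u x Y ^ 2 ∂Q ≤ K * ρ) ∧
    (∀ v, ∫ Y, Mh T μ v Y ^ 2 ∂Q ≤ K * ρ) := by
  obtain ⟨K₁, hK₁, H1⟩ := th_tail.{u} hb
  obtain ⟨K₂, hK₂, H2⟩ := chi_tail_of.{u} hb (chi_exp hb)
  obtain ⟨M, c, hM, hc, H3⟩ := one_step.{u} hb
  have hb0 : (0 : ℝ) ≤ b := Nat.cast_nonneg b
  set K : ℝ := K₁ + K₂ + Real.exp c + (2 + (b + 1) * K₁) with hK
  have hec : 0 < Real.exp c := Real.exp_pos c
  have hbK : 0 ≤ (b + 1) * K₁ := by positivity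
  have l1 : K₁ ≤ K := by rw [hK]; linarith
  have l2 : K₂ ≤ K := by rw [hK]; linarith
  have l3 : Real.exp c ≤ K := by rw [hK]; linarith
  have l4 : 2 + (b + 1) * K₁ ≤ K := by rw [hK]; linarith
  refine ⟨K, c, M, by linarith, hc, hM, ?_⟩
  intro V T θ ρ μ ν Q hθ0 hθ2 hθ1 hμ hν hQ hρ hρ1 hq hcs
  have h : SR T θ μ ν Q := ⟨hb, hθ0, hθ1, hθ2, hμ, hν, hQ⟩
  have hr : Rate ν ρ := ⟨hρ, hρ1, hq, hcs⟩
  have := h.prob_μ
  have := h.prob_Q
  have T1 := H1 V T θ ρ μ ν Q h hr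
  have T2 := H2 V T θ ρ μ ν Q h hr
  have T3 := H3 V T θ ρ μ ν Q h hr
  have hbe : ∀ t : ℝ, |t| ≤ 1 → 0 ≤ be b θ t ∧ be b θ t ≤ 1 := fun t ht =>
    PR.be_mem hb hθ0 hθ1 ht
  refine ⟨fun u x hux => (T2 u x hux).1, fun u x hux => ⟨(T2 u x hux).2.1, ?_⟩,
    fun u x hux p hp => ?_, fun u x hux p hp => ?_, fun n u x hux => ?_, fun n u x hux => ?_,
    fun u x hux => ?_, fun v => ?_⟩
  · refine (T2 u x hux).2.2.1.trans ?_
    exact div_le_div_of_nonneg_right l2 (by positivity)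
  · have hp0 : 0 ≤ 1 / ρ + Real.log p :=
      add_nonneg (by positivity) (Real.log_nonneg (by linarith))
    refine le_trans (measureReal_mono ?_) (((T2 u x hux).2.2.2 p hp).trans
      (mul_le_mul_of_nonneg_right l2 (Real.exp_nonneg _)))
    intro Y hY
    exact lt_of_le_of_lt (mul_le_mul_of_nonneg_right l2 hp0) hY
  · have hp0 : 0 ≤ p * ρ := by positivity
    refine le_trans (measureReal_mono ?_) (((T1 u x hux).1 p hp).trans
      (mul_le_mul_of_nonneg_right l1 (Real.exp_nonneg _)))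
    intro Y hY
    have h1 : K₁ * p * ρ ≤ K * p * ρ := by
      rw [mul_assoc, mul_assoc]
      exact mul_le_mul_of_nonneg_right l1 hp0
    exact lt_of_le_of_lt h1 hY
  · have hm : Measurable fun t : ℝ => Real.exp (-(M / ρ) * (1 - be b θ t)) := by
      have := Sib.measurable_be b θ
      fun_prop
    have key := Sgl.decay h hm (fun t ht => ⟨Real.exp_nonneg _, by
        rw [Real.exp_le_one_iff]
        have h1 := (hbe t ht).2
        have h2 : 0 ≤ M / ρ := by positivity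
        nlinarith⟩) (a := c) hc.le
      (fun u x y hux hy k hk hk0 hki hkd => (T3 u x y hux hy k hk hk0 hki hkd).1) n u x hux
    exact key.trans (mul_le_mul_of_nonneg_right l3 (Real.exp_nonneg _))
  · have hm : Measurable fun t : ℝ => be b θ t ^ 2 := (Sib.measurable_be b θ).pow_const 2
    have key := Sgl.decay h hm (fun t ht => ⟨sq_nonneg _, pow_le_one₀ (hbe t ht).1 (hbe t ht).2⟩)
      (a := c * ρ) (by positivity)
      (fun u x y hux hy k hk hk0 hki hkd => (T3 u x y hux hy k hk hk0 hki hkd).2.1) n u x hux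
    refine key.trans (mul_le_mul_of_nonneg_right ?_ (Real.exp_nonneg _))
    refine le_trans (Real.exp_le_exp.mpr ?_) l3
    nlinarith
  · exact (T1 u x hux).2.2.trans (mul_le_mul_of_nonneg_right l1 hρ.le)
  · have h1 := Mh_up h (s := K₁ * ρ) (fun u x hux => (T1 u x hux).2.2) v
    have h2 := Sgl.qq_le hν hr
    have h3 : θ ^ 2 * (K₁ * ρ) ≤ 1 * (K₁ * ρ) := by
      have := h.θsq
      exact mul_le_mul_of_nonneg_right (by linarith) (by positivity)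
    have h4 : ((b : ℝ) + 1) * (θ ^ 2 * (K₁ * ρ)) ≤ (b + 1) * (1 * (K₁ * ρ)) :=
      mul_le_mul_of_nonneg_left h3 (by positivity)
    calc ∫ Y, Mh T μ v Y ^ 2 ∂Q ≤ qq ν + (b + 1) * (θ ^ 2 * (K₁ * ρ)) := h1
      _ ≤ 2 * ρ + (b + 1) * (1 * (K₁ * ρ)) := add_le_add h2 h4
      _ = (2 + (b + 1) * K₁) * ρ := by ring
      _ ≤ K * ρ := mul_le_mul_of_nonneg_right l4 hρ.le

end Vale.Agent.P161E
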