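import Vale.Agent.P161E.Transfer
import Vale.Agent.P161E.ConvAux
import Vale.Agent.P161E.Limit2
import Vale.Agent.P161E.Planted
import Vale.Agent.P161E.Single
import Vale.Agent.P161E.Mart

/-!
# The mean of `χ` is Hölder continuous in the time
-/

open MeasureTheory Set Filter Topology
open scoped unitInterval ENNReal

namespace Vale.Agent.P161E

open Vale.Agent.P161

universe u

open Tr in
/-- `|E χ(r') - E χ(r)|² ≤ (K / s⁴) (q(r') - q(r))` for `s ≤ r ≤ r'`, `q(r) = E t(r)²`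
(from C8, B11). -/
theorem ec_holder {b : ℕ} (hb : 2 ≤ b) : ∃ K : ℝ, 0 < K ∧
    ∀ (V : Type u) (T : RTree V b) (θ : ℝ) (μ : Measure (V → Bool)),
    0 ≤ θ → 1 / 2 ≤ b * θ ^ 2 → b * θ ^ 2 < 1 → IsFreeIsing T.G θ μ →
    ∀ (k : ℕ) (s r r' : ℝ), 0 < s → (k = 0 → s ≤ r) → 0 ≤ r → r ≤ r' → r' ≤ 1 / 2 →
    s ≤ 1 / 2 → ∀ u x, T.G.Adj u x →
    (ec T μ θ k r' u x - ec T μ θ k r u x) ^ 2 ≤ K / s ^ 4 *
      (∫ q, th T μ u x (fld q.1 q.2 k r') ^ 2 ∂(PL μ) -
        ∫ q, th T μ u x (fld q.1 q.2 k r) ^ 2 ∂(PL μ)) := by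
  obtain ⟨K, c, M, hK, hc, hM, hsing⟩ := single.{u} hb
  obtain ⟨K', hK', hcr⟩ := chi_crude.{u} hb hK hc
  refine ⟨K' ^ 2, by positivity, ?_⟩
  intro V T θ μ hθ hθ2 hθ1 hμ k s r r' hs hsr hr hrr hr' hs2 u x hux
  have hcount := T.countable
  have hprob := hμ.prob
  have hb' : (2 : ℝ) ≤ b := by exact_mod_cast hb
  have hθlt : θ < 1 := by nlinarith [sq_nonneg θ]
  obtain ⟨κ, H, C, hker⟩ := CV.exists_ker hb T hθ hθ1 hμ
  obtain ⟨X, hX⟩ := exists_isLim hker
  obtain ⟨S, hS⟩ := exists_isSeed V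
  -- the single replica estimates at the time `(k, r)`
  have hone : ∀ r : ℝ, 0 ≤ r → (k = 0 → s ≤ r) → r ≤ 1 / 2 →
      (∀ u x, T.G.Adj u x →
        ∀ᵐ Y ∂(Measure.map (fun q : Om V => fld q.1 q.2 k r) (PL μ)), BddAbove (range fun n =>
          T.chiN (fun u x => be b θ (th T μ u x Y) ^ 2) n u x)) ∧
      (∀ u x, T.G.Adj u x → Integrable (fun Y => chiY T μ θ u x Y ^ 4)
        (Measure.map (fun q : Om V => fld q.1 q.2 k r) (PL μ))) ∧
      (∀ (n : ℕ) (u x : V), T.G.Adj u x → ∫ Y, T.wavN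
        (fun u x => be b θ (th T μ u x Y) ^ 2) (fun _ _ => 1) n u x
          ∂(Measure.map (fun q : Om V => fld q.1 q.2 k r) (PL μ)) ≤
        K * Real.exp (-(c * s * n))) := by
    intro r hr hsr hr2
    obtain ⟨ν, hν, hpl, h0, h1⟩ := planted_fld (μ := μ) k hr hr2
    rcases Nat.eq_zero_or_pos k with hk | hk
    · obtain ⟨a1, a2, a3⟩ := h0 hk
      have hsr' := hsr hk
      have hr0 : 0 < r := lt_of_lt_of_le hs hsr'
      obtain ⟨b1, b2, b3, b4, b5, b6, b7, b8⟩ := hsing V T θ r μ ν _ hθ hθ2 hθ1.le hμ hν hpl hr0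
        hr2 a1 (Or.inl ⟨a2, a3⟩)
      refine ⟨b1, fun u x h => (b2 u x h).1, fun n u x h => (b6 n u x h).trans ?_⟩
      gcongr
    · have a1 := h1 hk
      obtain ⟨b1, b2, b3, b4, b5, b6, b7, b8⟩ := hsing V T θ (1 / 2) μ ν _ hθ hθ2 hθ1.le hμ hν hpl
        (by norm_num) le_rfl (by norm_num at a1 ⊢; linarith) (Or.inr rfl)
      refine ⟨b1, fun u x h => (b2 u x h).1, fun n u x h => (b6 n u x h).trans ?_⟩
      gcongr
  obtain ⟨p1, p2, p3⟩ := hone r hr hsr (hrr.trans hr')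
  obtain ⟨p1', p2', p3'⟩ := hone r' (hr.trans hrr) (fun h => (hsr h).trans hrr) hr'
  -- moments
  have memL : ∀ r : ℝ, (∀ u x, T.G.Adj u x →
        ∀ᵐ Y ∂(Measure.map (fun q : Om V => fld q.1 q.2 k r) (PL μ)), BddAbove (range fun n =>
          T.chiN (fun u x => be b θ (th T μ u x Y) ^ 2) n u x)) →
      (∀ u x, T.G.Adj u x → Integrable (fun Y => chiY T μ θ u x Y ^ 4)
        (Measure.map (fun q : Om V => fld q.1 q.2 k r) (PL μ))) →
      ∀ u x, T.G.Adj u x → MemLp (cf T μ θ S X k r u x) 2 (iid V) := by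
    intro r q1 q2 u x h
    have hm := (equi_cf hμ hS hX k r).meas u x
    rw [memLp_two_iff_integrable_sq hm.aestronglyMeasurable]
    have i1 : Integrable (fun W => chiY T μ θ u x (Yf S X k r W) ^ 4) (iid V) := by
      have := q2 u x h
      rw [← map_Yf hS hX] at this
      exact this.comp_measurable (measurable_Yf hS hX.meas k r)
    refine i1.mono' (hm.pow_const 2).aestronglyMeasurable ?_
    filter_upwards [cf_eq hμ hS hX k r hθ1.le hb q1 h] with W hW
    have h1 : 1 ≤ chiY T μ θ u x (Yf S X k r W) := by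
      rw [← hW]; exact one_le_cf k r u x W
    rw [Real.norm_eq_abs, abs_of_nonneg (sq_nonneg _), hW]
    exact pow_le_pow_right₀ h1 (by norm_num)
  have dec : ∀ r : ℝ, (∀ (n : ℕ) (u x : V), T.G.Adj u x → ∫ Y, T.wavN
        (fun u x => be b θ (th T μ u x Y) ^ 2) (fun _ _ => 1) n u x
          ∂(Measure.map (fun q : Om V => fld q.1 q.2 k r) (PL μ)) ≤
        K * Real.exp (-(c * s * n))) → ∀ (n : ℕ) (u x : V), T.G.Adj u x → ∫ W, T.wavN
        (fun u x => be b θ (tf T μ S X k r u x W) ^ 2) (fun _ _ => 1) n u x ∂(iid V) ≤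
        K * Real.exp (-(c * s * n)) := by
    intro r q n u x h
    refine le_trans (le_of_eq ?_) (q n u x h)
    have hm : ∀ n u x, Measurable fun Y => T.wavN
        (fun u x => be b θ (th T μ u x Y) ^ 2) (fun _ _ => 1) n u x := by
      intro n
      have hbe : Measurable fun s : ℝ => be b θ s ^ 2 := by
        unfold be af
        fun_prop
      induction n with
      | zero => intro u x; exact measurable_const
      | succ n ih =>
        intro u x
        show Measurable fun Y => T.av (fun u x => be b θ (th T μ u x Y) ^ 2 *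
          T.wavN (fun u x => be b θ (th T μ u x Y) ^ 2) (fun _ _ => 1) n u x) u x
        unfold RTree.av
        exact (Finset.measurable_fun_sum _ fun y _ =>
          (hbe.comp (measurable_th T μ x y)).mul (ih x y)).div_const _
    exact integral_Yf hS hX k r (hm n u x)
  have key := hcr V T s θ hs hs2 hθ hθ1.le (tf T μ S X k r') (cf T μ θ S X k r')
    (tf T μ S X k r) (cf T μ θ S X k r) (equi_tf hμ hS hX k r') (equi_cf hμ hS hX k r')
    (equi_tf hμ hS hX k r) (equi_cf hμ hS hX k r) (fun u x W => abs_tf_le hμ k r' u x W)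
    (fun u x W => abs_tf_le hμ k r u x W) (fun u x W => one_le_cf k r' u x W)
    (fun u x W => one_le_cf k r u x W) (memL r' p1' p2') (memL r p1 p2)
    (isChi_cf hμ hS hX k r' hθ1.le hb p1') (isChi_cf hμ hS hX k r hθ1.le hb p1)
    (dec r' p3') (dec r p3) u x hux
  rw [← ec_eq hμ hS hX k r' hθ1.le hb p1' hux, ← ec_eq hμ hS hX k r hθ1.le hb p1 hux] at key
  have hmart := mart_time hb T hθ hθlt hμ k hr hrr hr' hux
  have hint : ∫ W, (tf T μ S X k r' u x W - tf T μ S X k r u x W) ^ 2 ∂(iid V) =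
      ∫ q, (th T μ u x (fld q.1 q.2 k r') - th T μ u x (fld q.1 q.2 k r)) ^ 2 ∂(PL μ) := by
    rw [integral_PL hS hX (F := fun q => (th T μ u x (fld q.1 q.2 k r') -
      th T μ u x (fld q.1 q.2 k r)) ^ 2)]
    · rfl
    · exact (((measurable_th T μ u x).comp (measurable_fldq k r')).sub
        ((measurable_th T μ u x).comp (measurable_fldq k r))).pow_const 2
  rw [hint, hmart] at key
  have hnn : 0 ≤ ∫ q, th T μ u x (fld q.1 q.2 k r') ^ 2 ∂(PL μ) -
      ∫ q, th T μ u x (fld q.1 q.2 k r) ^ 2 ∂(PL μ) := by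
    rw [← hmart]
    exact integral_nonneg fun _ => sq_nonneg _
  calc (ec T μ θ k r' u x - ec T μ θ k r u x) ^ 2
      = |ec T μ θ k r' u x - ec T μ θ k r u x| ^ 2 := (sq_abs _).symm
    _ ≤ (K' / s ^ 2 * Real.sqrt (∫ q, th T μ u x (fld q.1 q.2 k r') ^ 2 ∂(PL μ) -
        ∫ q, th T μ u x (fld q.1 q.2 k r) ^ 2 ∂(PL μ))) ^ 2 :=
        pow_le_pow_left₀ (abs_nonneg _) key 2
    _ = _ := by
        rw [mul_pow, Real.sq_sqrt hnn, div_pow]
        congr 2
        ring

end Vale.Agent.P161E
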