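import Vale.Agent.P161E.Defs2
import Mathlib.Analysis.SpecialFunctions.Artanh

/-!
# Finite volume identities for cavity magnetisations
-/

open MeasureTheory Set Filter Topology
open scoped unitInterval ENNReal

namespace Vale.Agent.P161E

open Vale.Agent.P161

universe u

namespace FinAux

variable {V : Type u} {b : ℕ} (T : RTree V b)

theorem dist_adj {u x : V} (h : T.G.Adj u x) : T.G.dist u x = 1 :=
  SimpleGraph.dist_eq_one_iff_adj.2 h

open Classical in
theorem filter_not_eq (D : Finset V) {a w : V} (h : T.G.Adj a w) :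
    D.filter (fun u => ¬ T.G.dist u a < T.G.dist u w) = T.inter D a w := by
  unfold RTree.inter
  refine Finset.filter_congr fun u _ => ?_
  have := dist_lt_or_gt T.tree h u
  omega

open CovAux in
/-- splitting along an edge -/
theorem edge_core {θ : ℝ} (hθ : 0 ≤ θ) (hθ1 : θ < 1) {μ : Measure (V → Bool)}
    (hμ : IsFreeIsing T.G θ μ) (D : Finset V) (Y : V → ℝ) {a w v : V} (haw : T.G.Adj a w)
    (hv : T.G.dist v a < T.G.dist v w) {α β : ℝ} (hα : α = mean μ (T.inter D w a) a Y)
    (hβ : β = mean μ (T.inter D a w) w Y) :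
    mean μ D w Y = (β + θ * α) / (1 + θ * α * β) ∧
    cov μ D v w Y = θ * (1 - β ^ 2) * cov μ (T.inter D w a) v a Y / (1 + θ * α * β) ^ 2 ∧
    0 < 1 + θ * α * β ∧ |α| ≤ 1 ∧ |β| ≤ 1 := by
  classical
  have := hμ.prob
  have hG := T.tree
  have hfin := T.fin
  have e0 : T.inter D w a = D.filter (fun u => T.G.dist u a < T.G.dist u w) := by
    unfold RTree.inter
    exact Finset.filter_congr fun u _ => Iff.rfl
  rw [← filter_not_eq T D haw] at hβ
  rw [e0] at hα ⊢
  set G := T.G with hGdef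
  set Da := D.filter (fun u => G.dist u a < G.dist u w) with hDa
  set Dw := D.filter (fun u => ¬ G.dist u a < G.dist u w) with hDw
  have hwt : ∀ τ, wt D Y τ = wt Da Y τ * wt Dw Y τ := fun τ => wt_split D _ Y τ
  have hA : ∀ u ∈ insert v (insert a Da), G.dist u a < G.dist u w := by
    intro u hu
    simp only [Finset.mem_insert, hDa, Finset.mem_filter] at hu
    rcases hu with rfl | rfl | hu
    · exact hv
    · rw [SimpleGraph.dist_self]
      exact (hG.1.pos_dist_of_ne haw.ne)
    · exact hu.2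
  have hB : ∀ u ∈ insert w (insert w Dw), G.dist u w < G.dist u a := by
    intro u hu
    simp only [Finset.mem_insert, hDw, Finset.mem_filter] at hu
    rcases hu with rfl | rfl | hu
    · rw [SimpleGraph.dist_self]
      exact (hG.1.pos_dist_of_ne haw.ne')
    · rw [SimpleGraph.dist_self]
      exact (hG.1.pos_dist_of_ne haw.ne')
    · exact (dist_lt_or_gt hG haw u).resolve_left hu.2
  -- dependence
  have dmono : ∀ {F : (V → Bool) → ℝ} {S T : Finset V}, S ⊆ T → DependsOn F (S : Set V) →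
      DependsOn F (T : Set V) := fun h hF x y hxy => hF fun i hi => hxy i (h hi)
  have hWa : DependsOn (wt Da Y) ((insert v (insert a Da) : Finset V) : Set V) :=
    dmono (by intro x hx; simp [hx]) (dependsOn_wt Da Y)
  have hWw : DependsOn (wt Dw Y) ((insert w (insert w Dw) : Finset V) : Set V) :=
    dmono (by intro x hx; simp [hx]) (dependsOn_wt Dw Y)
  have hvWa : DependsOn (fun τ => sg (τ v) * wt Da Y τ)
      ((insert v (insert a Da) : Finset V) : Set V) :=
    dmono (by intro x hx; simp at hx ⊢; tauto) (dependsOn_sg_mul Da Y v)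
  have hwWw : DependsOn (fun τ => sg (τ w) * wt Dw Y τ)
      ((insert w (insert w Dw) : Finset V) : Set V) :=
    dmono (by intro x hx; simp at hx ⊢; tauto) (dependsOn_sg_mul Dw Y w)
  -- the four integrals
  set Za := Zf μ Da Y with hZa
  set Zw := Zf μ Dw Y with hZw
  have hZa0 : 0 < Za := CovAux.Zf_pos μ Da Y
  have hZw0 : 0 < Zw := CovAux.Zf_pos μ Dw Y
  set p := mean μ Da v Y with hp
  set q := tilt μ Da Y (fun τ => sg (τ v) * sg (τ a)) with hq
  have ea : ∫ τ, sg (τ a) * wt Da Y τ ∂μ = Za * α := by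
    rw [hα]; unfold mean tilt; rw [mul_div_cancel₀ _ hZa0.ne']
  have ew : ∫ τ, sg (τ w) * wt Dw Y τ ∂μ = Zw * β := by
    rw [hβ]; unfold mean tilt; rw [mul_div_cancel₀ _ hZw0.ne']
  have ep : ∫ τ, sg (τ v) * wt Da Y τ ∂μ = Za * p := by
    rw [hp]; unfold mean tilt; rw [mul_div_cancel₀ _ hZa0.ne']
  have eq : ∫ τ, sg (τ v) * sg (τ a) * wt Da Y τ ∂μ = Za * q := by
    rw [hq]; unfold tilt; rw [mul_div_cancel₀ _ hZa0.ne']
  have hss : ∀ τ : V → Bool, sg (τ a) * (sg (τ v) * wt Da Y τ) =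
      sg (τ v) * sg (τ a) * wt Da Y τ := fun τ => by ring
  have hww : ∀ τ : V → Bool, sg (τ w) * (sg (τ w) * wt Dw Y τ) = wt Dw Y τ := fun τ => by
    rw [← mul_assoc, sg_mul_self, one_mul]
  have hZ : Zf μ D Y = Za * Zw * (1 + θ * α * β) := by
    have := split hG hfin hμ haw _ _ hA hB _ _ hWa hWw
    rw [ea, ew] at this
    show ∫ τ, wt D Y τ ∂μ = _
    simp_rw [hwt]
    rw [this]
    show Za * Zw + θ * (Za * α * (Zw * β)) = _
    ring
  have hV : ∫ τ, sg (τ v) * wt D Y τ ∂μ = Za * Zw * (p + θ * q * β) := by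
    have := split hG hfin hμ haw _ _ hA hB _ _ hvWa hWw
    simp_rw [hss] at this
    rw [ep, ew, eq] at this
    simp_rw [hwt, ← mul_assoc]
    rw [this]
    show Za * p * Zw + θ * (Za * q * (Zw * β)) = _
    ring
  have hW : ∫ τ, sg (τ w) * wt D Y τ ∂μ = Za * Zw * (β + θ * α) := by
    have := split hG hfin hμ haw _ _ hA hB _ _ hWa hwWw
    simp_rw [hww] at this
    rw [ea, ew] at this
    have e : ∀ τ : V → Bool, sg (τ w) * wt D Y τ = wt Da Y τ * (sg (τ w) * wt Dw Y τ) :=
      fun τ => by rw [hwt]; ring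
    simp_rw [e]
    rw [this]
    show Za * (Zw * β) + θ * (Za * α * Zw) = _
    ring
  have hVW : ∫ τ, sg (τ v) * sg (τ w) * wt D Y τ ∂μ = Za * Zw * (p * β + θ * q) := by
    have := split hG hfin hμ haw _ _ hA hB _ _ hvWa hwWw
    simp_rw [hww, hss] at this
    rw [ep, ew, eq] at this
    have e : ∀ τ : V → Bool, sg (τ v) * sg (τ w) * wt D Y τ =
        sg (τ v) * wt Da Y τ * (sg (τ w) * wt Dw Y τ) :=
      fun τ => by rw [hwt]; ring
    simp_rw [e]
    rw [this]
    show Za * p * (Zw * β) + θ * (Za * q * Zw) = _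
    ring
  have hne : Za * Zw ≠ 0 := (mul_pos hZa0 hZw0).ne'
  have m1 : tilt μ D Y (fun τ => sg (τ v) * sg (τ w)) = (p * β + θ * q) / (1 + θ * α * β) := by
    unfold tilt
    rw [hVW, hZ, mul_div_mul_left _ _ hne]
  have m2 : mean μ D v Y = (p + θ * q * β) / (1 + θ * α * β) := by
    unfold mean tilt
    rw [hV, hZ, mul_div_mul_left _ _ hne]
  have m3 : mean μ D w Y = (β + θ * α) / (1 + θ * α * β) := by
    unfold mean tilt
    rw [hW, hZ, mul_div_mul_left _ _ hne]
  have hα1 : |α| ≤ 1 := by rw [hα]; exact CovAux.abs_mean_le μ Da a Y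
  have hβ1 : |β| ≤ 1 := by rw [hβ]; exact CovAux.abs_mean_le μ Dw w Y
  have hpos : 0 < 1 + θ * α * β := by
    have ha := abs_le.1 hα1
    have hb := abs_le.1 hβ1
    have hαβ : |α * β| ≤ 1 := by
      rw [abs_mul]; nlinarith [abs_nonneg α, abs_nonneg β]
    have hab := abs_le.1 hαβ
    nlinarith
  refine ⟨m3, ?_, hpos, hα1, hβ1⟩
  have hcov : cov μ Da v a Y = q - p * α := by
    unfold cov
    rw [← hα]
  rw [hcov]
  unfold cov
  rw [m1, m2, m3]
  have hne : (1 + θ * α * β) ≠ 0 := hpos.ne'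
  generalize hZZ : 1 + θ * α * β = ZZ at hne
  field_simp
  rw [← hZZ]
  ring

theorem tanh_add (a c : ℝ) : Real.tanh (a + c) =
    (Real.tanh a + Real.tanh c) / (1 + Real.tanh a * Real.tanh c) := by
  have h1 := (Real.cosh_pos a).ne'
  have h2 := (Real.cosh_pos c).ne'
  have h3 := (Real.cosh_pos (a + c)).ne'
  rw [Real.cosh_add] at h3
  rw [Real.tanh_eq_sinh_div_cosh, Real.tanh_eq_sinh_div_cosh, Real.tanh_eq_sinh_div_cosh,
    Real.sinh_add, Real.cosh_add]
  have e1 : Real.sinh a / Real.cosh a + Real.sinh c / Real.cosh c =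
      (Real.sinh a * Real.cosh c + Real.cosh a * Real.sinh c) / (Real.cosh a * Real.cosh c) := by
    field_simp
  have e2 : 1 + Real.sinh a / Real.cosh a * (Real.sinh c / Real.cosh c) =
      (Real.cosh a * Real.cosh c + Real.sinh a * Real.sinh c) / (Real.cosh a * Real.cosh c) := by
    field_simp
  rw [e1, e2, div_div_div_cancel_right₀ (mul_ne_zero h1 h2)]

theorem cyl_singleton {G : SimpleGraph V} {θ : ℝ} {μ : Measure (V → Bool)}
    (hμ : IsFreeIsing G θ μ) (x : V) (η : V → Bool) : μ.real (SplitAux.cyl {x} η) = 1 / 2 := by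
  classical
  have h := hμ.cylinder {x} ?_ η
  · have e : ({x} : Finset V).sym2.filter (fun e => e ∈ G.edgeSet) = ∅ := by
      rw [Finset.filter_eq_empty_iff]
      intro e he
      induction e using Sym2.ind with
      | _ u w =>
        rw [Finset.mk_mem_sym2_iff, Finset.mem_singleton, Finset.mem_singleton] at he
        rw [he.1, he.2]
        simp
    rw [e, Finset.prod_empty, mul_one] at h
    exact h
  · refine SplitAux.connected_of_descend _ (r := x) (by simp) (fun _ => 0) fun u hu hne => ?_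
    exact absurd (by simpa using hu) hne

theorem mean_singleton {G : SimpleGraph V} {θ : ℝ} {μ : Measure (V → Bool)}
    (hμ : IsFreeIsing G θ μ) (x : V) (Y : V → ℝ) : mean μ {x} x Y = Real.tanh (Y x) := by
  classical
  have := hμ.prob
  have h1 : ∀ F : (V → Bool) → ℝ, DependsOn F (({x} : Finset V) : Set V) →
      ∫ τ, F τ ∂μ = (F (SplitAux.ind ∅) + F (SplitAux.ind {x})) / 2 := by
    intro F hF
    rw [SplitAux.integral_cyl μ {x} hF]
    have e : ({x} : Finset V).powerset = {∅, {x}} := by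
      ext s
      rw [Finset.mem_powerset, Finset.subset_singleton_iff, Finset.mem_insert,
        Finset.mem_singleton]
    rw [e, Finset.sum_pair (Finset.singleton_ne_empty x).symm]
    rw [cyl_singleton hμ, cyl_singleton hμ]
    ring
  unfold mean tilt Zf
  have d1 := CovAux.dependsOn_wt {x} Y
  have d2 := CovAux.dependsOn_sg_mul {x} Y x
  rw [Finset.insert_eq_of_mem (Finset.mem_singleton_self x)] at d2
  rw [h1 _ d1, h1 _ d2]
  have e1 : (SplitAux.ind (∅ : Finset V)) x = false := by simp [SplitAux.ind]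
  have e2 : (SplitAux.ind ({x} : Finset V)) x = true := by simp [SplitAux.ind]
  have s1 : sg false = -1 := by simp [sg]
  have s2 : sg true = 1 := by simp [sg]
  unfold wt
  rw [Finset.sum_singleton, Finset.sum_singleton, e1, e2, s1, s2, mul_neg, mul_one,
    Real.tanh_eq_sinh_div_cosh, Real.sinh_eq, Real.cosh_eq]
  ring

/-! ### sides -/

theorem side_unique {w x y y' : V} (h : T.G.Adj x y) (h' : T.G.Adj x y')
    (hy : T.G.dist w y < T.G.dist w x) (hy' : T.G.dist w y' < T.G.dist w x) : y = y' := by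
  by_contra hne
  have d1 : T.G.dist x y' = 1 := dist_adj T h'
  have h1 : T.G.dist y' x < T.G.dist y' y := by
    rcases dist_lt_or_gt T.tree h y' with h2 | h2
    · exact h2
    · exfalso
      rw [T.G.dist_comm (u := y') (v := x), d1] at h2
      have : T.G.dist y' y = 0 := by omega
      exact hne ((T.tree.1.dist_eq_zero_iff).1 this).symm
  have h3 := dist_split T.tree h.symm hy h1
  have h4 : T.G.dist w x ≤ T.G.dist w y + T.G.dist y x := T.tree.1.dist_triangle
  rw [dist_adj T h.symm] at h4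
  omega

theorem exists_side {w x : V} (h : w ≠ x) : ∃ y ∈ T.nb x, T.G.dist w y < T.G.dist w x := by
  have hpos : T.G.dist w x ≠ 0 := fun h0 => h ((T.tree.1.dist_eq_zero_iff).1 h0)
  obtain ⟨k, hk⟩ := Nat.exists_eq_succ_of_ne_zero hpos
  obtain ⟨y, hy, hy'⟩ := TreeAux.exists_adj_dist T.tree.1 hk
  exact ⟨y, (T.mem_nb x y).2 hy.symm, by omega⟩

open Classical in
/-- the part of `D` consisting of `x` and of the branches at `x` through `N` -/
noncomputable def part (D N : Finset V) (x : V) : Finset V :=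
  D.filter (fun w => w = x ∨ ∃ y ∈ N, T.G.dist w y < T.G.dist w x)

theorem mem_part {D N : Finset V} {x w : V} :
    w ∈ part T D N x ↔ w ∈ D ∧ (w = x ∨ ∃ y ∈ N, T.G.dist w y < T.G.dist w x) := by
  classical
  unfold part
  rw [Finset.mem_filter]

theorem mem_inter {D : Finset V} {u x w : V} :
    w ∈ T.inter D u x ↔ w ∈ D ∧ T.G.dist w x < T.G.dist w u := by
  classical
  unfold RTree.inter
  rw [Finset.mem_filter]

theorem part_nb (D : Finset V) (x : V) : part T D (T.nb x) x = D := by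
  ext w
  rw [mem_part]
  refine ⟨fun h => h.1, fun h => ⟨h, ?_⟩⟩
  by_cases hw : w = x
  · exact Or.inl hw
  · exact Or.inr (exists_side T hw)

theorem part_ch (D : Finset V) {u x : V} (h : T.G.Adj u x) :
    part T D (T.ch u x) x = T.inter D u x := by
  classical
  ext w
  rw [mem_part, mem_inter]
  refine and_congr_right fun _ => ⟨?_, fun hw => ?_⟩
  · rintro (rfl | ⟨y, hy, hyw⟩)
    · rw [SimpleGraph.dist_self]
      exact T.tree.1.pos_dist_of_ne h.ne'
    · unfold RTree.ch at hy
      rw [Finset.mem_erase, T.mem_nb] at hy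
      rcases dist_lt_or_gt T.tree h w with h1 | h1
      · exact absurd (side_unique T hy.2 h.symm hyw h1) hy.1
      · exact h1
  · by_cases hwx : w = x
    · exact Or.inl hwx
    · obtain ⟨y, hy, hyw⟩ := exists_side T hwx
      refine Or.inr ⟨y, ?_, hyw⟩
      unfold RTree.ch
      rw [Finset.mem_erase]
      refine ⟨?_, hy⟩
      rintro rfl
      omega

open Classical in
theorem inter_part_self (D N : Finset V) {x y : V} (h : T.G.Adj x y) (hN : N ⊆ T.nb x)
    (hy : y ∉ N) : T.inter (part T D (insert y N) x) y x = part T D N x := by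
  ext w
  rw [mem_inter, mem_part, mem_part]
  constructor
  · rintro ⟨⟨hD, hw⟩, hlt⟩
    refine ⟨hD, ?_⟩
    rcases hw with hw | ⟨z, hz, hzw⟩
    · exact Or.inl hw
    · rw [Finset.mem_insert] at hz
      rcases hz with rfl | hz
      · omega
      · exact Or.inr ⟨z, hz, hzw⟩
  · rintro ⟨hD, hw⟩
    refine ⟨⟨hD, ?_⟩, ?_⟩
    · rcases hw with hw | ⟨z, hz, hzw⟩
      · exact Or.inl hw
      · exact Or.inr ⟨z, Finset.mem_insert_of_mem hz, hzw⟩
    · rcases hw with rfl | ⟨z, hz, hzw⟩
      · rw [SimpleGraph.dist_self]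
        exact T.tree.1.pos_dist_of_ne h.ne
      · rcases dist_lt_or_gt T.tree h w with h1 | h1
        · exact h1
        · exfalso
          have := side_unique T h ((T.mem_nb x z).1 (hN hz)) h1 hzw
          exact hy (this ▸ hz)

open Classical in
theorem inter_part_other (D N : Finset V) {x y : V} :
    T.inter (part T D (insert y N) x) x y = T.inter D x y := by
  ext w
  rw [mem_inter, mem_part, mem_inter]
  constructor
  · rintro ⟨⟨hD, -⟩, hlt⟩
    exact ⟨hD, hlt⟩
  · rintro ⟨hD, hlt⟩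
    exact ⟨⟨hD, Or.inr ⟨y, Finset.mem_insert_self _ _, hlt⟩⟩, hlt⟩

theorem mean_part {θ : ℝ} (hθ : 0 ≤ θ) (hθ1 : θ < 1) {μ : Measure (V → Bool)}
    (hμ : IsFreeIsing T.G θ μ) (D : Finset V) (Y : V → ℝ) {x : V} (hx : x ∈ D) (N : Finset V)
    (hN : N ⊆ T.nb x) : mean μ (part T D N x) x Y = Real.tanh (Y x + ∑ y ∈ N,
      Real.artanh (θ * mean μ (T.inter D x y) y Y)) := by
  classical
  have := hμ.prob
  induction N using Finset.induction_on with
  | empty =>
    have e : part T D ∅ x = {x} := by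
      ext w
      rw [mem_part, Finset.mem_singleton]
      constructor
      · rintro ⟨-, h | ⟨y, hy, -⟩⟩
        · exact h
        · simp at hy
      · rintro rfl
        exact ⟨hx, Or.inl rfl⟩
    rw [e, mean_singleton hμ, Finset.sum_empty, add_zero]
  | insert y N hy ih =>
    have hyx : T.G.Adj x y := (T.mem_nb x y).1 (hN (Finset.mem_insert_self _ _))
    have hN' : N ⊆ T.nb x := (Finset.subset_insert _ _).trans hN
    have h1 := ih hN'
    obtain ⟨h2, -, -, hα, hβ⟩ := edge_core T hθ hθ1 hμ (part T D (insert y N) x) Y (a := y)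
      (w := x) (v := y) hyx.symm
      (by rw [SimpleGraph.dist_self]; exact T.tree.1.pos_dist_of_ne hyx.ne') rfl rfl
    rw [inter_part_self T D N hyx hN' hy, inter_part_other T D N] at h2
    rw [inter_part_other T D N] at hα
    rw [h2, Finset.sum_insert hy, add_comm (Real.artanh _), ← add_assoc, tanh_add, ← h1,
      Real.tanh_artanh, mul_comm (mean μ (part T D N x) x Y)]
    obtain ⟨g1, g2⟩ := abs_le.1 hα
    constructor <;> nlinarith

/-! ### paths -/

theorem nxt_spec {v w : V} {n : ℕ} (h : T.G.dist v w = n + 1) :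
    T.G.Adj v (nxt T v w) ∧ T.G.dist (nxt T v w) w = n := by
  have hex : ∃ y ∈ T.nb v, T.G.dist y w < T.G.dist v w := by
    obtain ⟨y, hy, hy'⟩ := TreeAux.exists_adj_dist T.tree.1
      (v := w) (w := v) (n := n) (by rw [T.G.dist_comm]; exact h)
    refine ⟨y, (T.mem_nb v y).2 hy.symm, ?_⟩
    rw [T.G.dist_comm (u := y) (v := w)]
    omega
  have hs := hex.choose_spec
  have e : nxt T v w = hex.choose := by
    unfold nxt
    rw [dif_pos hex]
  rw [e]
  have hadj := (T.mem_nb v _).1 hs.1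
  refine ⟨hadj, ?_⟩
  have h1 : T.G.dist v w ≤ T.G.dist v hex.choose + T.G.dist hex.choose w :=
    T.tree.1.dist_triangle
  rw [dist_adj T hadj] at h1
  omega

theorem ppN_congr (g g' : V → V → ℝ) {v x w : V} (hvx : T.G.Adj v x)
    (hg : ∀ z z', T.G.Adj z z' → T.G.dist v z = T.G.dist x z + 1 → T.G.dist v z < T.G.dist v z' →
      g z z' = g' z z') (n : ℕ) :
    ∀ z : V, T.G.dist z w = n → T.G.dist v z = T.G.dist x z + 1 →
      T.G.dist v w = T.G.dist v z + T.G.dist z w → ppN T g n z w = ppN T g' n z w := by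
  induction n with
  | zero => intro z _ _ _; rfl
  | succ n ih =>
    intro z hz h1 h2
    obtain ⟨hadj, hd⟩ := nxt_spec T hz
    set z' := nxt T z w with hz'
    have d1 : T.G.dist z z' = 1 := dist_adj T hadj
    have d2 : T.G.dist v x = 1 := dist_adj T hvx
    have t1 : T.G.dist v w ≤ T.G.dist v z' + T.G.dist z' w := T.tree.1.dist_triangle
    have t2 : T.G.dist v z' ≤ T.G.dist v z + T.G.dist z z' := T.tree.1.dist_triangle
    have t3 : T.G.dist x z' ≤ T.G.dist x z + T.G.dist z z' := T.tree.1.dist_triangle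
    have t4 : T.G.dist v z' ≤ T.G.dist v x + T.G.dist x z' := T.tree.1.dist_triangle
    have hlt : T.G.dist v z < T.G.dist v z' := by omega
    show g z z' * ppN T g n z' w = g' z z' * ppN T g' n z' w
    rw [hg z z' hadj h1 hlt, ih z' hd (by omega) (by omega)]

theorem inter_inter (D : Finset V) {v x z z' : V} (h : T.G.Adj z z')
    (h1 : T.G.dist v z = T.G.dist x z + 1) (h2 : T.G.dist v z < T.G.dist v z') :
    T.inter (T.inter D v x) z z' = T.inter D z z' := by
  ext u
  rw [mem_inter, mem_inter, mem_inter]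
  constructor
  · rintro ⟨⟨hD, -⟩, hlt⟩
    exact ⟨hD, hlt⟩
  · rintro ⟨hD, hlt⟩
    refine ⟨⟨hD, ?_⟩, hlt⟩
    have h3 := dist_split T.tree h.symm hlt h2
    have h4 : T.G.dist u x ≤ T.G.dist u z' + T.G.dist z' x := T.tree.1.dist_triangle
    have h5 : T.G.dist z' x ≤ T.G.dist z' z + T.G.dist z x := T.tree.1.dist_triangle
    rw [dist_adj T h.symm] at h5
    rw [T.G.dist_comm (u := z) (v := v)] at h3
    rw [T.G.dist_comm (u := z) (v := x)] at h5
    omega

theorem cov_comm (μ : Measure (V → Bool)) (D : Finset V) (v w : V) (Y : V → ℝ) :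
    cov μ D v w Y = cov μ D w v Y := by
  unfold cov
  rw [mul_comm (mean μ D v Y)]
  congr 2
  funext τ
  ring

theorem cov_self (μ : Measure (V → Bool)) [IsProbabilityMeasure μ] (D : Finset V) (v : V)
    (Y : V → ℝ) : cov μ D v v Y = 1 - mean μ D v Y ^ 2 := by
  unfold cov tilt
  simp_rw [CovAux.sg_mul_self, one_mul]
  rw [show (∫ τ, wt D Y τ ∂μ) / Zf μ D Y = 1 from div_self (CovAux.Zf_pos μ D Y).ne']
  ring

theorem cov_alg {θ α β P : ℝ} (hpos : 0 < 1 + θ * α * β) (h : 1 - θ ^ 2 * α ^ 2 ≠ 0) :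
    θ * (1 - β ^ 2) * ((1 - α ^ 2) * P) / (1 + θ * α * β) ^ 2 =
      (1 - ((β + θ * α) / (1 + θ * α * β)) ^ 2) * (θ * af θ α * P) := by
  unfold af
  have e : 1 - ((β + θ * α) / (1 + θ * α * β)) ^ 2 =
      (1 - β ^ 2) * (1 - θ ^ 2 * α ^ 2) / (1 + θ * α * β) ^ 2 := by
    rw [div_pow, eq_div_iff (pow_ne_zero 2 hpos.ne'), sub_mul,
      div_mul_cancel₀ _ (pow_ne_zero 2 hpos.ne')]
    ring
  rw [e]
  have h2 := hpos.ne'
  generalize 1 + θ * α * β = Z at h2
  generalize 1 - θ ^ 2 * α ^ 2 = W at h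
  field_simp

theorem cov_aux {θ : ℝ} (hθ : 0 ≤ θ) (hθ1 : θ < 1) {μ : Measure (V → Bool)}
    (hμ : IsFreeIsing T.G θ μ) (Y : V → ℝ) (w : V) (n : ℕ) : ∀ (D : Finset V) (v : V),
    T.G.dist v w = n → cov μ D v w Y = (1 - mean μ D v Y ^ 2) *
      ppN T (fun u x => θ * af θ (mean μ (T.inter D u x) x Y)) n v w := by
  have := hμ.prob
  induction n with
  | zero =>
    intro D v h
    have : v = w := (T.tree.1.dist_eq_zero_iff).1 h
    subst this
    rw [cov_self]
    show _ = _ * (1 : ℝ)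
    rw [mul_one]
  | succ n ih =>
    intro D v h
    obtain ⟨hadj, hd⟩ := nxt_spec T h
    have h1 := ih (T.inter D v (nxt T v w)) (nxt T v w) hd
    show cov μ D v w Y = _ * (θ * af θ (mean μ (T.inter D v (nxt T v w)) (nxt T v w) Y) *
      ppN T (fun u x => θ * af θ (mean μ (T.inter D u x) x Y)) n (nxt T v w) w)
    set x := nxt T v w with hx
    obtain ⟨e1, e2, hpos, hα, hβ⟩ := edge_core T hθ hθ1 hμ D Y (a := x) (w := v) (v := w)
      hadj.symm (by rw [T.G.dist_comm (u := w) (v := x), T.G.dist_comm (u := w) (v := v)]; omega)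
      rfl rfl
    have hd1 : T.G.dist v x = 1 := dist_adj T hadj
    have hcongr : ppN T (fun u y => θ * af θ (mean μ (T.inter (T.inter D v x) u y) y Y)) n x w =
        ppN T (fun u y => θ * af θ (mean μ (T.inter D u y) y Y)) n x w := by
      refine ppN_congr T _ _ hadj (fun z z' hz g1 g2 => ?_) n x hd ?_ (by omega)
      · rw [inter_inter T D hz g1 g2]
      · rw [SimpleGraph.dist_self, hd1]
    rw [cov_comm, e2, cov_comm, h1, hcongr, e1]
    refine cov_alg hpos ?_
    obtain ⟨g1, g2⟩ := abs_le.1 hα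
    have g3 : mean μ (T.inter D v x) x Y ^ 2 ≤ 1 := by nlinarith
    have g4 : θ ^ 2 < 1 := by nlinarith
    have g5 : θ ^ 2 * mean μ (T.inter D v x) x Y ^ 2 ≤ θ ^ 2 * 1 := by
      gcongr
    linarith

end FinAux

open FinAux

variable {V : Type u} {b : ℕ} (T : RTree V b) {θ : ℝ} (hθ : 0 ≤ θ) (hθ1 : θ < 1)
  {μ : Measure (V → Bool)} (hμ : IsFreeIsing T.G θ μ)

include hθ hθ1 hμ

/-- the two ends of an edge -/
theorem mean_edge (D : Finset V) (Y : V → ℝ) {u x : V} (h : T.G.Adj u x) :
    mean μ D x Y = (mean μ (T.inter D u x) x Y + θ * mean μ (T.inter D x u) u Y) /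
      (1 + θ * mean μ (T.inter D u x) x Y * mean μ (T.inter D x u) u Y) := by
  obtain ⟨h1, -⟩ := edge_core T hθ hθ1 hμ D Y (a := u) (w := x) (v := u) h
    (by rw [SimpleGraph.dist_self]; exact T.tree.1.pos_dist_of_ne h.ne) rfl rfl
  rw [h1]
  congr 1
  ring

/-- the recursion at a vertex of `D` (the case of a branch follows with `D` replaced by
`inter D u x`) -/
theorem mean_vertex (D : Finset V) (Y : V → ℝ) {x : V} (hx : x ∈ D) :
    mean μ D x Y = Real.tanh (Y x + ∑ y ∈ T.nb x,
      Real.artanh (θ * mean μ (T.inter D x y) y Y)) := by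
  have h := mean_part T hθ hθ1 hμ D Y hx (T.nb x) subset_rfl
  rwa [part_nb] at h

theorem mean_cavity (D : Finset V) (Y : V → ℝ) {u x : V} (h : T.G.Adj u x) (hx : x ∈ D) :
    mean μ (T.inter D u x) x Y = Real.tanh (Y x + ∑ y ∈ T.ch u x,
      Real.artanh (θ * mean μ (T.inter D x y) y Y)) := by
  classical
  have h1 := mean_part T hθ hθ1 hμ D Y hx (T.ch u x) (Finset.erase_subset _ _)
  rwa [part_ch T D h] at h1

/-- the covariance as a product along the path (exact form of `P161.cov_bound`) -/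
theorem cov_eq (D : Finset V) (Y : V → ℝ) (v w : V) :
    cov μ D v w Y = (1 - mean μ D v Y ^ 2) *
      pp T (fun u x => θ * af θ (mean μ (T.inter D u x) x Y)) v w :=
  FinAux.cov_aux T hθ hθ1 hμ Y w _ D v rfl

end Vale.Agent.P161E
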