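import Vale.Agent.P161E.Basic
import Vale.Agent.P161.Innov
import Vale.Agent.P161.Seeds

/-!
# The law of the signals
-/

open MeasureTheory Set Filter Topology
open scoped unitInterval ENNReal

namespace Vale.Agent.P161E

open Vale.Agent.P161

universe u

variable {V : Type u}

theorem measurable_xs {Ω : Type*} [MeasurableSpace Ω] {τ : Ω → V → Bool}
    {U w : Ω → ℕ × V → I} (hτ : Measurable τ) (hU : Measurable U) (hw : Measurable w) :
    Measurable (fun ω => xs (τ ω, (U ω, w ω))) := by
  rw [measurable_pi_iff]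
  intro j
  unfold xs
  exact measurable_sig.comp (((measurable_str.comp ((measurable_pi_apply j).comp hU)).mul
    (measurable_sg.comp ((measurable_pi_apply j.2).comp hτ))).prodMk
      ((measurable_pi_apply j).comp hw))

theorem abs_str_sg_le (u : I) (b : Bool) : |str u * sg b| ≤ 1 / 5 := by
  obtain ⟨h0, h1⟩ := abs_str_le u
  rw [abs_mul, abs_sg, mul_one, abs_of_nonneg h0]; exact h1

namespace LawAux

/-- The joint law of the configuration and the signals at the sites of `A`. -/
theorem lintegral_PP (μ : Measure (V → Bool))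
    [IsProbabilityMeasure μ] (U : ℕ × V → I) (A : Finset (ℕ × V))
    {G : (V → Bool) → (ℕ × V → I) → ℝ≥0∞}
    (hG : Measurable (Function.uncurry G)) (hdep : ∀ τ, DependsOn (G τ) (A : Set (ℕ × V))) :
    ∫⁻ p, G p.1 (xs (p.1, (U, p.2))) ∂(μ.prod (iid (ℕ × V))) =
      ∫⁻ x, ∫⁻ τ, G τ x * ∏ j ∈ A, ENNReal.ofReal (dens (str (U j)) (τ j.2) (x j)) ∂μ
        ∂(iid (ℕ × V)) := by
  classical
  have hdm : Measurable (fun p : (V → Bool) × (ℕ × V → I) =>
      ∏ j ∈ A, ENNReal.ofReal (dens (str (U j)) (p.1 j.2) (p.2 j))) := by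
    refine Finset.measurable_fun_prod _ fun j _ => ENNReal.measurable_ofReal.comp ?_
    unfold dens
    have h1 : Measurable (fun p : (V → Bool) × (ℕ × V → I) => sg (p.1 j.2)) :=
      measurable_sg.comp ((measurable_pi_apply j.2).comp measurable_fst)
    have h2 : Measurable (fun p : (V → Bool) × (ℕ × V → I) => ((p.2 j : I) : ℝ)) :=
      measurable_subtype_coe.comp ((measurable_pi_apply j).comp measurable_snd)
    exact ((h1.const_mul _).mul ((h2.const_mul 2).const_sub 1)).const_add 1
  have hjoint : Measurable (fun p : (V → Bool) × (ℕ × V → I) =>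
      G p.1 p.2 * ∏ j ∈ A, ENNReal.ofReal (dens (str (U j)) (p.1 j.2) (p.2 j))) := hG.mul hdm
  rw [lintegral_lintegral_swap hjoint.aemeasurable.prod_swap]
  rw [lintegral_prod (fun p : (V → Bool) × (ℕ × V → I) => G p.1 (xs (p.1, (U, p.2))))
    (hG.comp (measurable_fst.prodMk
      (measurable_xs measurable_fst measurable_const measurable_snd))).aemeasurable]
  apply lintegral_congr
  intro τ
  have h := lintegral_sigOn (fun j : ℕ × V => str (U j) * sg (τ j.2))
    (fun j => abs_str_sg_le _ _) A (F := G τ) hG.of_uncurry_left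
  have h1 : ∀ w : ℕ × V → I, G τ (xs (τ, (U, w))) =
      G τ (sigOn (fun j => str (U j) * sg (τ j.2)) A w) := by
    intro w
    apply hdep τ
    intro j hj
    simp only [xs, sigOn]
    rw [if_pos (Finset.mem_coe.mp hj)]
  simp only
  simp_rw [h1]
  rw [h]
  rfl

/-! ### The predecessors of a site -/

open Classical in
/-- The sites of `ℕ × D` which come before the time `(k, r)`. -/
noncomputable def beforeR (U : ℕ × V → I) (D : Finset V) (k : ℕ) (r : ℝ) : Finset (ℕ × V) :=
  (sites k D).filter (fun j => j.1 < k ∨ (U j : ℝ) < r)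

/-- The sites of `ℕ × D` which come before the site `i`. -/
noncomputable abbrev before (U : ℕ × V → I) (D : Finset V) (i : ℕ × V) : Finset (ℕ × V) :=
  beforeR U D i.1 (U i)

theorem mem_beforeR {U : ℕ × V → I} {D : Finset V} {k : ℕ} {r : ℝ} {j : ℕ × V} :
    j ∈ beforeR U D k r ↔ j.2 ∈ D ∧ (j.1 < k ∨ (j.1 = k ∧ (U j : ℝ) < r)) := by
  unfold beforeR sites
  simp only [Finset.mem_filter, Finset.mem_product, Finset.mem_range]
  constructor
  · rintro ⟨⟨h1, h2⟩, h3⟩
    refine ⟨h2, ?_⟩
    by_cases h : j.1 < k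
    · exact Or.inl h
    · right
      rcases h3 with h3 | h3
      · exact absurd h3 h
      · exact ⟨by omega, h3⟩
  · rintro ⟨h1, h2 | ⟨h2, h3⟩⟩
    · exact ⟨⟨by omega, h1⟩, Or.inl h2⟩
    · exact ⟨⟨by omega, h1⟩, Or.inr h3⟩

theorem mem_before {U : ℕ × V → I} {D : Finset V} {i j : ℕ × V} :
    j ∈ before U D i ↔ j.2 ∈ D ∧ (j.1 < i.1 ∨ (j.1 = i.1 ∧ U j < U i)) := mem_beforeR

open Classical in
theorem sum_beforeR (U : ℕ × V → I) (D : Finset V) (k : ℕ) (r : ℝ) (F : ℕ × V → ℝ) :
    ∑ j ∈ beforeR U D k r, F j = ∑ w ∈ D, ((∑ l ∈ Finset.range k, F (l, w)) +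
      if (U (k, w) : ℝ) < r then F (k, w) else 0) := by
  have h : beforeR U D k r = (Finset.range k ×ˢ D) ∪
      ({k} ×ˢ (D.filter fun w => (U (k, w) : ℝ) < r)) := by
    ext ⟨l, w⟩
    rw [mem_beforeR]
    simp only [Finset.mem_union, Finset.mem_product, Finset.mem_range, Finset.mem_singleton,
      Finset.mem_filter]
    constructor
    · rintro ⟨h1, h2 | ⟨h2, h3⟩⟩
      · exact Or.inl ⟨h2, h1⟩
      · subst h2; exact Or.inr ⟨rfl, h1, h3⟩
    · rintro (⟨h2, h1⟩ | ⟨h2, h1, h3⟩)
      · exact ⟨h1, Or.inl h2⟩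
      · subst h2; exact ⟨h1, Or.inr ⟨rfl, h3⟩⟩
  rw [h, Finset.sum_union, Finset.sum_add_distrib, Finset.sum_product_right,
    Finset.sum_product_right]
  · congr 1
    simp only [Finset.sum_singleton]
    rw [Finset.sum_filter]
  · rw [Finset.disjoint_left]
    rintro ⟨l, w⟩ h1 h2
    simp only [Finset.mem_product, Finset.mem_range, Finset.mem_singleton] at h1 h2
    omega

theorem prod_beforeR (U : ℕ × V → I) (D : Finset V)
    (k : ℕ) (r : ℝ) (x : ℕ × V → I) (τ : V → Bool) :
    ∏ j ∈ beforeR U D k r, dens (str (U j)) (τ j.2) (x j) =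
      (∏ j ∈ beforeR U D k r, cden (str (U j)) (x j)) * wt D (fld U x k r) τ := by
  rw [Finset.prod_congr rfl fun j _ => dens_eq (abs_str_le _).1 (abs_str_le _).2 (τ j.2) (x j),
    Finset.prod_mul_distrib, ← Real.exp_sum]
  congr 1
  unfold wt
  congr 1
  rw [sum_beforeR U D k r (fun j => ell (str (U j)) (x j) * sg (τ j.2))]
  apply Finset.sum_congr rfl
  intro w _
  unfold fld
  rw [add_mul, Finset.sum_mul]
  congr 1
  by_cases h : (U (k, w) : ℝ) < r
  · rw [if_pos h, if_pos h]
  · rw [if_neg h, if_neg h, zero_mul]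

/-- The density of the signals at the sites of `A`. -/
noncomputable def Lk (μ : Measure (V → Bool)) (U : ℕ × V → I) (A : Finset (ℕ × V))
    (x : ℕ × V → I) : ℝ :=
  ∫ τ, ∏ j ∈ A, dens (str (U j)) (τ j.2) (x j) ∂μ

theorem Lk_beforeR (μ : Measure (V → Bool))
    (U : ℕ × V → I) (D : Finset V) (k : ℕ) (r : ℝ) (x : ℕ × V → I) :
    Lk μ U (beforeR U D k r) x =
      (∏ j ∈ beforeR U D k r, cden (str (U j)) (x j)) * Zf μ D (fld U x k r) := by
  unfold Lk Zf
  simp_rw [prod_beforeR U D k r x]
  rw [integral_const_mul]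

theorem integral_sg_beforeR (μ : Measure (V → Bool)) [IsProbabilityMeasure μ]
    (U : ℕ × V → I) (D : Finset V) (k : ℕ) (r : ℝ) (x : ℕ × V → I) (v : V) :
    ∫ τ, sg (τ v) * ∏ j ∈ beforeR U D k r, dens (str (U j)) (τ j.2) (x j) ∂μ =
      mean μ D v (fld U x k r) * Lk μ U (beforeR U D k r) x := by
  rw [Lk_beforeR]
  simp_rw [prod_beforeR U D k r x]
  have h : ∀ τ : V → Bool, sg (τ v) * ((∏ j ∈ beforeR U D k r, cden (str (U j)) (x j)) *
      wt D (fld U x k r) τ) = (∏ j ∈ beforeR U D k r, cden (str (U j)) (x j)) *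
        (sg (τ v) * wt D (fld U x k r) τ) := fun τ => by ring
  simp_rw [h]
  rw [integral_const_mul]
  unfold mean tilt
  have := (Zf_pos μ D (fld U x k r)).ne'
  field_simp

theorem abs_dens_le (u : I) (b : Bool) (z : I) : |dens (str u) b z| ≤ 6 / 5 := by
  obtain ⟨h0, h1⟩ := abs_str_le u
  refine (Vale.Agent.P161.abs_dens_le _ _ _).trans ?_
  rw [abs_of_nonneg h0]
  linarith

theorem integrable_prod_dens (μ : Measure (V → Bool))
    [IsProbabilityMeasure μ] (U : ℕ × V → I) (A : Finset (ℕ × V)) (x : ℕ × V → I)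
    {F : (V → Bool) → ℝ} (hF : Measurable F) {M : ℝ} (hM : ∀ τ, |F τ| ≤ M) :
    Integrable (fun τ => F τ * ∏ j ∈ A, dens (str (U j)) (τ j.2) (x j)) μ := by
  have hM0 : 0 ≤ M := (abs_nonneg _).trans (hM fun _ => true)
  refine Integrable.of_bound (hF.mul (Finset.measurable_fun_prod _ fun j _ => ?_)).aestronglyMeasurable
    (M * ∏ _j ∈ A, (6 / 5 : ℝ)) (ae_of_all _ fun τ => ?_)
  · exact (Measurable.of_discrete (f := fun b : Bool => dens (str (U j)) b (x j))).comp
      (measurable_pi_apply j.2)
  · rw [Real.norm_eq_abs, abs_mul, Finset.abs_prod]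
    apply mul_le_mul (hM τ) _ (Finset.prod_nonneg fun _ _ => abs_nonneg _) hM0
    exact Finset.prod_le_prod (fun _ _ => abs_nonneg _) fun j _ => abs_dens_le _ _ _

/-- Adding a site to the set of its predecessors. -/
theorem Lk_insert (μ : Measure (V → Bool))
    [IsProbabilityMeasure μ] (U : ℕ × V → I) (D : Finset V) (i : ℕ × V) (x : ℕ × V → I)
    [DecidableEq (ℕ × V)] :
    Lk μ U (insert i (before U D i)) x =
      Lk μ U (before U D i) x * (1 + param μ D U x i * (1 - 2 * (x i : ℝ))) := by
  have hi : i ∉ before U D i := by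
    rw [mem_before]
    rintro ⟨_, h | ⟨_, h⟩⟩
    · exact lt_irrefl _ h
    · exact lt_irrefl _ h
  have h1 : Lk μ U (insert i (before U D i)) x =
      ∫ τ, (1 * ∏ j ∈ before U D i, dens (str (U j)) (τ j.2) (x j)) +
        str (U i) * (1 - 2 * (x i : ℝ)) *
          (sg (τ i.2) * ∏ j ∈ before U D i, dens (str (U j)) (τ j.2) (x j)) ∂μ := by
    unfold Lk
    apply integral_congr_ae
    refine ae_of_all _ fun τ => ?_
    simp only
    rw [Finset.prod_insert hi]
    unfold dens
    ring
  have hi1 : Integrable (fun τ : V → Bool =>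
      1 * ∏ j ∈ before U D i, dens (str (U j)) (τ j.2) (x j)) μ :=
    integrable_prod_dens μ U _ x (F := fun _ => 1) measurable_const (M := 1) (by simp)
  have hi2 : Integrable (fun τ : V → Bool =>
      sg (τ i.2) * ∏ j ∈ before U D i, dens (str (U j)) (τ j.2) (x j)) μ :=
    integrable_prod_dens μ U _ x (F := fun τ => sg (τ i.2))
      (measurable_sg.comp (measurable_pi_apply _)) (M := 1) (fun τ => (abs_sg _).le)
  rw [h1, integral_add hi1 (hi2.const_mul _),
    integral_const_mul (str (U i) * (1 - 2 * (x i : ℝ))), integral_sg_beforeR]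
  have h2 : ∫ τ : V → Bool, 1 * ∏ j ∈ before U D i, dens (str (U j)) (τ j.2) (x j) ∂μ =
      Lk μ U (before U D i) x := by
    unfold Lk
    simp
  rw [h2]
  unfold param
  ring

theorem Lk_nonneg (μ : Measure (V → Bool)) (U : ℕ × V → I)
    (A : Finset (ℕ × V)) (x : ℕ × V → I) : 0 ≤ Lk μ U A x :=
  integral_nonneg fun _ => Finset.prod_nonneg fun _ _ =>
    (dens_pos (abs_str_le _).1 (abs_str_le _).2 _ _).le

theorem measurable_Lk (μ : Measure (V → Bool)) [IsProbabilityMeasure μ] (U : ℕ × V → I)
    (A : Finset (ℕ × V)) : Measurable (Lk μ U A) := by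
  have hdm : Measurable (fun p : (ℕ × V → I) × (V → Bool) =>
      ∏ j ∈ A, dens (str (U j)) (p.2 j.2) (p.1 j)) := by
    refine Finset.measurable_fun_prod _ fun j _ => ?_
    unfold dens
    have h1 : Measurable (fun p : (ℕ × V → I) × (V → Bool) => sg (p.2 j.2)) :=
      measurable_sg.comp ((measurable_pi_apply j.2).comp measurable_snd)
    have h2 : Measurable (fun p : (ℕ × V → I) × (V → Bool) => ((p.1 j : I) : ℝ)) :=
      measurable_subtype_coe.comp ((measurable_pi_apply j).comp measurable_fst)
    exact ((h1.const_mul _).mul ((h2.const_mul 2).const_sub 1)).const_add 1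
  unfold Lk
  exact (hdm.stronglyMeasurable.integral_prod_right (ν := μ)).measurable

theorem Lk_congr (μ : Measure (V → Bool)) (U : ℕ × V → I) (A : Finset (ℕ × V))
    {x x' : ℕ × V → I} (h : ∀ j ∈ A, x j = x' j) : Lk μ U A x = Lk μ U A x' := by
  unfold Lk
  apply integral_congr_ae
  refine ae_of_all _ fun τ => ?_
  exact Finset.prod_congr rfl fun j hj => by rw [h j hj]

theorem param_congr (μ : Measure (V → Bool)) (U : ℕ × V → I) (D : Finset V) (i : ℕ × V)
    {x x' : ℕ × V → I} (h : ∀ j ∈ before U D i, x j = x' j) :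
    param μ D U x i = param μ D U x' i := by
  unfold param
  rw [mean_congr μ i.2 fun w hw => ?_]
  refine PicAux.fld_congr (D := D) (fun l hl => ⟨rfl, h (l, w) (mem_before.mpr ⟨hw, Or.inl hl⟩)⟩)
    (fun hlt => ⟨rfl, h (i.1, w) (mem_before.mpr ⟨hw, Or.inr ⟨rfl, hlt⟩⟩)⟩) Iff.rfl

/-- The innovations. -/
noncomputable def inn (μ : Measure (V → Bool)) (D : Finset V) (U : ℕ × V → I)
    (x : ℕ × V → I) : ℕ × V → I :=
  fun j => cdfI (param μ D U x j) (x j)

open Classical in
/-- The innovations on the sites of `A`, the signals elsewhere. -/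
noncomputable def innOn (μ : Measure (V → Bool)) (D : Finset V) (U : ℕ × V → I)
    (A : Finset (ℕ × V)) (x : ℕ × V → I) : ℕ × V → I :=
  fun j => if j ∈ A then inn μ D U x j else x j

theorem measurable_inn {Ω : Type*} [MeasurableSpace Ω] (μ : Measure (V → Bool))
    [IsProbabilityMeasure μ] (D : Finset V) {U : Ω → ℕ × V → I}
    {x : Ω → ℕ × V → I} (hU : Measurable U) (hx : Measurable x) :
    Measurable (fun ω => inn μ D (U ω) (x ω)) := by
  rw [measurable_pi_iff]
  intro j
  exact measurable_cdfI.comp ((measurable_param μ D hU hx j).prodMk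
    ((measurable_pi_apply j).comp hx))

theorem measurable_innOn (μ : Measure (V → Bool))
    [IsProbabilityMeasure μ] (D : Finset V) (U : ℕ × V → I) (A : Finset (ℕ × V)) :
    Measurable (innOn μ D U A) := by
  rw [measurable_pi_iff]
  intro j
  unfold innOn
  split_ifs
  · exact (measurable_pi_apply j).comp (measurable_inn μ D measurable_const measurable_id)
  · exact measurable_pi_apply j

theorem not_mem_before_self (U : ℕ × V → I) (D : Finset V) (i : ℕ × V) : i ∉ before U D i := by
  rw [mem_before]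
  rintro ⟨_, h | ⟨_, h⟩⟩
  · exact lt_irrefl _ h
  · exact lt_irrefl _ h

theorem not_mem_before_of_mem {U : ℕ × V → I} {D : Finset V} {i j : ℕ × V}
    (h : j ∈ before U D i) : i ∉ before U D j := by
  rw [mem_before] at h ⊢
  rintro ⟨_, h2⟩
  obtain ⟨_, h1⟩ := h
  rcases h1 with h1 | ⟨h1, h1'⟩ <;> rcases h2 with h2 | ⟨h2, h2'⟩
  · omega
  · omega
  · omega
  · exact lt_asymm h1' h2'

theorem before_trans {U : ℕ × V → I} {D : Finset V} {i j l : ℕ × V}
    (h : j ∈ before U D i) (h2 : l ∈ before U D j) : l ∈ before U D i := by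
  rw [mem_before] at h h2 ⊢
  refine ⟨h2.1, ?_⟩
  obtain ⟨_, h1⟩ := h
  obtain ⟨_, h2⟩ := h2
  rcases h1 with h1 | ⟨h1, h1'⟩ <;> rcases h2 with h2 | ⟨h2, h2'⟩
  · left; omega
  · left; omega
  · left; omega
  · right; exact ⟨by omega, h2'.trans h1'⟩

theorem lintegral_innOn (μ : Measure (V → Bool))
    [IsProbabilityMeasure μ] (D : Finset V) {U : ℕ × V → I} (hU : Function.Injective U)
    (A : Finset (ℕ × V)) (hA : ∀ j ∈ A, j.2 ∈ D ∧ ∀ i ∈ before U D j, i ∈ A)
    {F : (ℕ × V → I) → ℝ≥0∞} (hF : Measurable F) :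
    ∫⁻ x, F (innOn μ D U A x) * ENNReal.ofReal (Lk μ U A x) ∂(iid (ℕ × V)) =
      ∫⁻ x, F x ∂(iid (ℕ × V)) := by
  classical
  revert hA
  refine Finset.induction_on_max_value (fun j : ℕ × V => toLex (j.1, U j))
    (motive := fun A => (∀ j ∈ A, j.2 ∈ D ∧ ∀ i ∈ before U D j, i ∈ A) →
      ∫⁻ x, F (innOn μ D U A x) * ENNReal.ofReal (Lk μ U A x) ∂(iid (ℕ × V)) =
      ∫⁻ x, F x ∂(iid (ℕ × V))) A ?_ ?_
  · intro _
    apply lintegral_congr
    intro x
    have h1 : innOn μ D U ∅ x = x := by funext j; simp [innOn]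
    have h2 : Lk μ U ∅ x = 1 := by simp [Lk]
    rw [h1, h2]
    simp
  · intro i s his hmax ih hA
    -- `s` is the set of the predecessors of `i`
    have hlt : ∀ j ∈ s, toLex (j.1, U j) < toLex (i.1, U i) := by
      intro j hj
      refine lt_of_le_of_ne (hmax j hj) fun h => ?_
      have h2 : (j.1, U j) = (i.1, U i) := toLex.injective h
      have h3 : j = i := hU (Prod.mk.inj h2).2
      exact his (h3 ▸ hj)
    have hs : s = before U D i := by
      ext j
      constructor
      · intro hj
        rw [mem_before]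
        refine ⟨(hA j (Finset.mem_insert_of_mem hj)).1, ?_⟩
        have := hlt j hj
        rw [Prod.Lex.toLex_lt_toLex] at this
        simpa using this
      · intro hj
        have h1 := (hA i (Finset.mem_insert_self _ _)).2 j hj
        rcases Finset.mem_insert.mp h1 with h2 | h2
        · exact absurd (h2 ▸ hj) (not_mem_before_self U D _)
        · exact h2
    have hs2 : ∀ j ∈ s, j.2 ∈ D ∧ ∀ i ∈ before U D j, i ∈ s := by
      intro j hj
      refine ⟨(hA j (Finset.mem_insert_of_mem hj)).1, fun l hl => ?_⟩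
      rw [hs] at hj ⊢
      exact before_trans hj hl
    rw [← ih hs2]
    have hm1 : Measurable (fun x => F (innOn μ D U (insert i s) x) *
        ENNReal.ofReal (Lk μ U (insert i s) x)) :=
      (hF.comp (measurable_innOn μ D U _)).mul (measurable_Lk μ U _).ennreal_ofReal
    have hm2 : Measurable (fun x => F (innOn μ D U s x) *
        ENNReal.ofReal (Lk μ U s x)) :=
      (hF.comp (measurable_innOn μ D U _)).mul (measurable_Lk μ U _).ennreal_ofReal
    rw [lintegral_update i hm1, lintegral_update i hm2]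
    apply lintegral_congr
    intro x
    set p := param μ D U x i with hp
    have hpar : ∀ t : I, param μ D U (Function.update x i t) i = p := by
      intro t
      apply param_congr
      intro j hj
      have : j ≠ i := fun h => not_mem_before_self U D i (h ▸ hj)
      rw [Function.update_of_ne this]
    have hpar2 : ∀ (t : I), ∀ j ∈ s, param μ D U (Function.update x i t) j =
        param μ D U x j := by
      intro t j hj
      apply param_congr
      intro l hl
      have : l ≠ i := fun h => not_mem_before_of_mem (hs ▸ hj) (h ▸ hl)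
      rw [Function.update_of_ne this]
    have hLk : ∀ t : I, Lk μ U s (Function.update x i t) = Lk μ U s x := by
      intro t
      apply Lk_congr
      intro j hj
      have : j ≠ i := fun h => his (h ▸ hj)
      rw [Function.update_of_ne this]
    have hLk2 : ∀ t : I, Lk μ U (insert i s) (Function.update x i t) =
        Lk μ U s x * (1 + p * (1 - 2 * (t : ℝ))) := by
      intro t
      rw [hs, Lk_insert, hpar, Function.update_self, ← hs, hLk]
    have hin1 : ∀ t : I, innOn μ D U s (Function.update x i t) =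
        Function.update (innOn μ D U s x) i t := by
      intro t
      funext j
      by_cases hj : j = i
      · subst hj
        simp [innOn, his]
      · rw [Function.update_of_ne hj]
        unfold innOn
        by_cases hjs : j ∈ s
        · rw [if_pos hjs, if_pos hjs]
          unfold inn
          rw [hpar2 t j hjs, Function.update_of_ne hj]
        · rw [if_neg hjs, if_neg hjs, Function.update_of_ne hj]
    have hin2 : ∀ t : I, innOn μ D U (insert i s) (Function.update x i t) =
        Function.update (innOn μ D U s x) i (cdfI p t) := by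
      intro t
      funext j
      by_cases hj : j = i
      · subst hj
        rw [Function.update_self]
        unfold innOn
        rw [if_pos (Finset.mem_insert_self _ _)]
        unfold inn
        rw [hpar, Function.update_self]
      · rw [Function.update_of_ne hj]
        unfold innOn
        by_cases hjs : j ∈ s
        · rw [if_pos hjs, if_pos (Finset.mem_insert_of_mem hjs)]
          unfold inn
          rw [hpar2 t j hjs, Function.update_of_ne hj]
        · have : j ∉ insert i s := by
            rw [Finset.mem_insert]; tauto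
          rw [if_neg hjs, if_neg this, Function.update_of_ne hj]
    have hpabs : |p| ≤ 1 / 5 := abs_param_le μ D U x i
    have hL0 : 0 ≤ Lk μ U s x := Lk_nonneg μ U s x
    simp_rw [hin1, hin2, hLk, hLk2]
    have e1 : ∀ t : I, F (Function.update (innOn μ D U s x) i (cdfI p t)) *
        ENNReal.ofReal (Lk μ U s x * (1 + p * (1 - 2 * (t : ℝ)))) =
        ENNReal.ofReal (Lk μ U s x) * (F (Function.update (innOn μ D U s x) i (cdfI p t)) *
          ENNReal.ofReal (1 + p * (1 - 2 * (t : ℝ)))) := by
      intro t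
      rw [ENNReal.ofReal_mul hL0]
      ring
    have e2 : ∀ t : I, F (Function.update (innOn μ D U s x) i t) *
        ENNReal.ofReal (Lk μ U s x) =
        ENNReal.ofReal (Lk μ U s x) * F (Function.update (innOn μ D U s x) i t) := by
      intro t; ring
    simp_rw [e1, e2]
    have hmu : Measurable (fun t : I => F (Function.update (innOn μ D U s x) i t)) :=
      hF.comp (measurable_update _)
    have hmc : Measurable (fun t : I => cdfI p t) :=
      measurable_cdfI.comp (measurable_const.prodMk measurable_id)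
    have hmG : Measurable (fun t : I => F (Function.update (innOn μ D U s x) i (cdfI p t))) :=
      hmu.comp hmc
    have hmd : Measurable (fun t : I => F (Function.update (innOn μ D U s x) i (cdfI p t)) *
          ENNReal.ofReal (1 + p * (1 - 2 * (t : ℝ)))) := hmG.mul (by fun_prop)
    rw [lintegral_const_mul _ hmd, lintegral_const_mul _ hmu]
    congr 1
    rw [← lintegral_sig hpabs hmG]
    apply lintegral_congr
    intro t
    rw [cdfI_sig hpabs]

theorem before_subset_sites {U : ℕ × V → I} {k : ℕ} {D : Finset V} {j : ℕ × V}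
    (hj : j ∈ sites k D) : ∀ i ∈ before U D j, i ∈ sites k D := by
  intro i hi
  rw [mem_before] at hi
  unfold sites at hj ⊢
  rw [Finset.mem_product, Finset.mem_range] at hj ⊢
  refine ⟨?_, hi.1⟩
  rcases hi.2 with h | ⟨h, _⟩ <;> omega

theorem inn_congr (μ : Measure (V → Bool)) (U : ℕ × V → I) (D : Finset V) (k : ℕ)
    {x x' : ℕ × V → I} (h : ∀ j ∈ sites k D, x j = x' j) (j : ℕ × V) (hj : j ∈ sites k D) :
    inn μ D U x j = inn μ D U x' j := by
  unfold inn
  rw [h j hj, param_congr μ U D j fun i hi => h i (before_subset_sites hj i hi)]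

/-- The law of the innovations. -/
theorem lintegral_inn (μ : Measure (V → Bool))
    [IsProbabilityMeasure μ] (D : Finset V) {U : ℕ × V → I} (hU : Function.Injective U) (k : ℕ)
    {F : (ℕ × V → I) → ℝ≥0∞} (hF : Measurable F)
    (hdep : DependsOn F (sites k D : Set (ℕ × V))) :
    ∫⁻ p, F (inn μ D U (xs (p.1, (U, p.2)))) ∂(μ.prod (iid (ℕ × V))) =
      ∫⁻ s, F s ∂(iid (ℕ × V)) := by
  classical
  have hmi : Measurable (fun x : ℕ × V → I => inn μ D U x) :=
    measurable_inn μ D measurable_const measurable_id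
  have h1 := lintegral_PP μ U (sites k D) (G := fun _ x => F (inn μ D U x))
    (hF.comp (hmi.comp measurable_snd)) (fun τ x x' h => hdep fun j hj =>
      inn_congr μ U D k (fun i hi => h i (Finset.mem_coe.mpr hi)) j (Finset.mem_coe.mp hj))
  rw [h1, ← lintegral_innOn μ D hU (sites k D)
    (fun j hj => ⟨(Finset.mem_product.mp hj).2, before_subset_sites hj⟩) hF]
  apply lintegral_congr
  intro x
  have e1 : F (innOn μ D U (sites k D) x) = F (inn μ D U x) := by
    apply hdep
    intro j hj
    unfold innOn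
    rw [if_pos (Finset.mem_coe.mp hj)]
  rw [e1]
  have hmd : ∀ j ∈ sites k D, Measurable (fun τ : V → Bool =>
      ENNReal.ofReal (dens (str (U j)) (τ j.2) (x j))) :=
    fun j _ => (Measurable.of_discrete (f := fun b : Bool =>
      ENNReal.ofReal (dens (str (U j)) b (x j)))).comp (measurable_pi_apply j.2)
  rw [lintegral_const_mul _ (Finset.measurable_fun_prod _ hmd)]
  congr 1
  unfold Lk
  rw [ofReal_integral_eq_lintegral_ofReal]
  · apply lintegral_congr
    intro τ
    rw [ENNReal.ofReal_prod_of_nonneg fun j _ =>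
      (dens_pos (abs_str_le _).1 (abs_str_le _).2 _ _).le]
  · have := integrable_prod_dens μ U (sites k D) x (F := fun _ => 1) measurable_const
      (M := 1) (by simp)
    simpa using this
  · exact ae_of_all _ fun τ => Finset.prod_nonneg fun j _ =>
      (dens_pos (abs_str_le _).1 (abs_str_le _).2 _ _).le

/-- The signals are recovered from the innovations. -/
theorem sol_inn (μ : Measure (V → Bool)) [IsProbabilityMeasure μ] (D : Finset V)
    (U x : ℕ × V → I) (k : ℕ) (v : V) (hv : v ∈ D) :
    sol μ D U (inn μ D U x) (k, v) = x (k, v) := by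
  refine sol_eq (fun k v hv => ?_) k v hv
  unfold inn
  rw [sig_cdfI (abs_param_le μ D U x (k, v))]

end LawAux

open LawAux

theorem sol_dep (μ : Measure (V → Bool)) (D : Finset V) (U : ℕ × V → I) (k : ℕ)
    {s s' : ℕ × V → I} (h : ∀ j ∈ sites k D, s j = s' j) :
    ∀ j ∈ sites k D, sol μ D U s j = sol μ D U s' j := by
  rintro ⟨i, w⟩ hj
  unfold sites at hj h
  rw [Finset.mem_product, Finset.mem_range] at hj
  refine sol_causal μ D U s s' (i + 1) 0 ?_ i w hj.2 (Or.inl (Nat.lt_succ_self i))
  intro l y hy hb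
  refine h (l, y) (Finset.mem_product.mpr ⟨Finset.mem_range.mpr ?_, hy⟩)
  have hj1 := hj.1
  simp only at hj1 ⊢
  rcases hb with hb | ⟨hb, hb2⟩
  · omega
  · exact absurd hb2 (not_lt.mpr (U (l, y)).2.1)

/-- For fixed labels the finite-volume sampler has the planted law. -/
theorem lintegral_sol_fixed (μ : Measure (V → Bool)) [IsProbabilityMeasure μ] (D : Finset V)
    {U : ℕ × V → I} (hU : Function.Injective U) (k : ℕ)
    {F : (ℕ × V → I) → ℝ≥0∞} (hF : Measurable F)
    (hdep : DependsOn F (sites k D : Set (ℕ × V))) :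
    ∫⁻ s, F (sol μ D U s) ∂(iid (ℕ × V)) =
      ∫⁻ p, F (xs (p.1, (U, p.2))) ∂(μ.prod (iid (ℕ × V))) := by
  have hm : Measurable fun s : ℕ × V → I => F (sol μ D U s) :=
    hF.comp (measurable_sol μ D measurable_const measurable_id)
  have hd : DependsOn (fun s => F (sol μ D U s)) (sites k D : Set (ℕ × V)) := by
    intro s s' h
    exact hdep fun j hj => sol_dep μ D U k (fun i hi => h i (Finset.mem_coe.mpr hi)) j
      (Finset.mem_coe.mp hj)
  rw [← lintegral_inn μ D hU k hm hd]
  apply lintegral_congr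
  intro p
  apply hdep
  rintro ⟨i, w⟩ hj
  have hj' := Finset.mem_coe.mp hj
  unfold sites at hj'
  rw [Finset.mem_product] at hj'
  exact sol_inn μ D U _ i w hj'.2

/-- Fubini for the planted law: the labels first. -/
theorem lintegral_planted (μ : Measure (V → Bool)) [IsProbabilityMeasure μ]
    {G : (V → Bool) × Om V → ℝ≥0∞} (hG : Measurable G) :
    ∫⁻ p, G p ∂(μ.prod (PO V)) =
      ∫⁻ U, ∫⁻ p, G (p.1, (U, p.2)) ∂(μ.prod (iid (ℕ × V))) ∂(iid (ℕ × V)) := by
  have h3 : Measurable fun q : ((V → Bool) × (ℕ × V → I)) × (ℕ × V → I) =>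
      G (q.1.1, (q.1.2, q.2)) :=
    hG.comp ((measurable_fst.comp measurable_fst).prodMk
      ((measurable_snd.comp measurable_fst).prodMk measurable_snd))
  have h4 : Measurable fun q : (V → Bool) × (ℕ × V → I) =>
      ∫⁻ w, G (q.1, (q.2, w)) ∂(iid (ℕ × V)) := h3.lintegral_prod_right'
  calc ∫⁻ p, G p ∂(μ.prod (PO V))
      = ∫⁻ τ, ∫⁻ ω, G (τ, ω) ∂(PO V) ∂μ := lintegral_prod _ hG.aemeasurable
    _ = ∫⁻ τ, ∫⁻ U, ∫⁻ w, G (τ, (U, w)) ∂(iid (ℕ × V)) ∂(iid (ℕ × V)) ∂μ := by
        refine lintegral_congr fun τ => ?_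
        unfold PO
        exact lintegral_prod (fun ω : Om V => G (τ, ω))
          (hG.comp (measurable_const.prodMk measurable_id)).aemeasurable
    _ = ∫⁻ U, ∫⁻ τ, ∫⁻ w, G (τ, (U, w)) ∂(iid (ℕ × V)) ∂μ ∂(iid (ℕ × V)) :=
        lintegral_lintegral_swap h4.aemeasurable
    _ = ∫⁻ U, ∫⁻ p, G (p.1, (U, p.2)) ∂(μ.prod (iid (ℕ × V))) ∂(iid (ℕ × V)) := by
        refine lintegral_congr fun U => ?_
        exact (lintegral_prod (fun p : (V → Bool) × (ℕ × V → I) => G (p.1, (U, p.2)))
          (hG.comp (measurable_fst.prodMk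
            (measurable_const.prodMk measurable_snd))).aemeasurable).symm

theorem measurable_pl : Measurable fun p : (V → Bool) × Om V => ((p.2.1, xs p) : Om V) :=
  (measurable_fst.comp measurable_snd).prodMk (measurable_xs measurable_fst
    (measurable_fst.comp measurable_snd) (measurable_snd.comp measurable_snd))

instance (μ : Measure (V → Bool)) [IsProbabilityMeasure μ] : IsProbabilityMeasure (PL μ) :=
  Measure.isProbabilityMeasure_map measurable_pl.aemeasurable

theorem lintegral_PL (μ : Measure (V → Bool)) [IsProbabilityMeasure μ]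
    {F : Om V → ℝ≥0∞} (hF : Measurable F) :
    ∫⁻ q, F q ∂(PL μ) =
      ∫⁻ U, ∫⁻ p, F (U, xs (p.1, (U, p.2))) ∂(μ.prod (iid (ℕ × V))) ∂(iid (ℕ × V)) := by
  unfold PL
  rw [lintegral_map hF measurable_pl]
  exact lintegral_planted μ (G := fun p => F (p.2.1, xs p)) (hF.comp measurable_pl)

/-- The joint law of the labels and of the finite-volume sampler. -/
theorem lintegral_sol [Countable V] (μ : Measure (V → Bool)) [IsProbabilityMeasure μ]
    (D : Finset V) (k : ℕ)
    {F : (ℕ × V → I) × (ℕ × V → I) → ℝ≥0∞} (hF : Measurable F)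
    (hdep : ∀ U, DependsOn (fun x => F (U, x)) (sites k D : Set (ℕ × V))) :
    ∫⁻ ω, F (ω.1, sol μ D ω.1 ω.2) ∂(PO V) = ∫⁻ q, F q ∂(PL μ) := by
  have hm : Measurable fun ω : Om V => F (ω.1, sol μ D ω.1 ω.2) :=
    hF.comp (measurable_fst.prodMk (measurable_sol μ D measurable_fst measurable_snd))
  rw [lintegral_PL μ hF]
  unfold PO
  rw [lintegral_prod (fun ω : Om V => F (ω.1, sol μ D ω.1 ω.2)) hm.aemeasurable]
  refine lintegral_congr_ae ?_
  filter_upwards [ae_injective (V := ℕ × V)] with U hU
  exact lintegral_sol_fixed μ D hU k (F := fun x => F (U, x))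
    (hF.comp (measurable_const.prodMk measurable_id)) (hdep U)

end Vale.Agent.P161E
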