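import Vale.Agent.P161E.Cauchy
import Vale.Agent.P161.LimitExists
import Vale.Agent.P161.LimitLaw
import Vale.Agent.P161.Translate

/-!
# The infinite-volume sampler
-/

open MeasureTheory Set Filter Topology
open scoped unitInterval ENNReal

namespace Vale.Agent.P161E

open Vale.Agent.P161

universe u

variable {V : Type u}

theorem measurable_trO (g : V ≃ V) : Measurable (trO g) :=
  ((measurable_translateS g).comp measurable_fst).prodMk
    ((measurable_translateS g).comp measurable_snd)

theorem map_trO (g : V ≃ V) : Measure.map (trO g) (PO V) = PO V := by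
  have := Measure.map_prod_map (iid (ℕ × V)) (iid (ℕ × V)) (measurable_translateS (A := I) g)
    (measurable_translateS (A := I) g)
  unfold PO
  rw [iid_translateS] at this
  exact this.symm

theorem exists_lim_finset {Ω : Type*} [MeasurableSpace Ω] {Q : Measure Ω}
    [IsProbabilityMeasure Q] (f : Finset V → Ω → I) (hf : ∀ D, Measurable (f D))
    (hc : ∀ ε > (0 : ℝ), ∃ D₀ : Finset V, ∀ D ≥ D₀, ∫ ω, ((f D ω : ℝ) - f D₀ ω) ^ 2 ∂Q ≤ ε) :
    ∃ X : Ω → I, Measurable X ∧
      Tendsto (fun D => ∫ ω, |(f D ω : ℝ) - X ω| ∂Q) atTop (𝓝 0) := by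
  classical
  exact exists_limit f hf hc

/-- The infinite-volume sampler exists if the finite-volume samplers form a Cauchy net. -/
theorem exists_isLim_of {μ : Measure (V → Bool)} [IsProbabilityMeasure μ]
    (hc : ∀ (j : ℕ × V) (ε : ℝ), 0 < ε → ∃ D₀ : Finset V, ∀ D ≥ D₀,
      ∫ ω, ((sol μ D ω.1 ω.2 j : ℝ) - sol μ D₀ ω.1 ω.2 j) ^ 2 ∂(PO V) ≤ ε) :
    ∃ X : Om V → ℕ × V → I, IsLim μ X := by
  have hex : ∀ j : ℕ × V, ∃ X : Om V → I, Measurable X ∧
      Tendsto (fun D : Finset V => ∫ ω, |(sol μ D ω.1 ω.2 j : ℝ) - X ω| ∂(PO V)) atTop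
        (𝓝 0) := by
    intro j
    have hm : ∀ D : Finset V, Measurable (fun ω : Om V => sol μ D ω.1 ω.2 j) := fun D =>
      measurable_pi_iff.mp (measurable_sol_joint μ D) j
    have := exists_lim_finset (Q := PO V) (fun (D : Finset V) (ω : Om V) => sol μ D ω.1 ω.2 j)
    exact this hm fun ε hε => hc j ε hε
  choose X hXm hXlim using hex
  exact ⟨fun ω j => X j ω, ⟨measurable_pi_iff.mpr hXm, hXlim⟩⟩

/-- The joint law of the labels and of the infinite-volume signals is the planted law. -/
theorem isLim_law [Countable V] {μ : Measure (V → Bool)} [IsProbabilityMeasure μ]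
    {X : Om V → ℕ × V → I} (hX : IsLim μ X) :
    Measure.map (fun ω => (ω.1, X ω)) (PO V) = PL μ := by
  classical
  -- encode pairs of families as one family
  set enc : Om V → ((ℕ × V) ⊕ (ℕ × V) → I) := fun q => Sum.elim q.1 q.2 with henc
  have hem : Measurable enc := by
    rw [measurable_pi_iff]
    rintro (i | i)
    · exact (measurable_pi_apply i).comp measurable_fst
    · exact (measurable_pi_apply i).comp measurable_snd
  set dec : ((ℕ × V) ⊕ (ℕ × V) → I) → Om V := fun y => (fun i => y (Sum.inl i),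
    fun i => y (Sum.inr i)) with hdec
  have hdm : Measurable dec :=
    (measurable_pi_iff.mpr fun i => measurable_pi_apply _).prodMk
      (measurable_pi_iff.mpr fun i => measurable_pi_apply _)
  have hde : ∀ q, dec (enc q) = q := fun q => rfl
  have hXm : Measurable fun ω : Om V => ((ω.1, X ω) : Om V) := measurable_fst.prodMk hX.meas
  have hπ : IsProbabilityMeasure (Measure.map enc (PL μ)) :=
    Measure.isProbabilityMeasure_map hem.aemeasurable
  have key := law_of_limit (Q := PO V) (S := (ℕ × V) ⊕ (ℕ × V)) (Measure.map enc (PL μ))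
    (atTop : Filter (Finset V)) (fun (D : Finset V) ω => enc (ω.1, sol μ D ω.1 ω.2))
    (fun D => hem.comp (measurable_fst.prodMk (measurable_sol_joint μ D)))
    (fun ω => enc (ω.1, X ω)) (hem.comp hXm) ?_ ?_
  · have h1 : Measure.map (fun ω => (ω.1, X ω)) (PO V) =
        Measure.map dec (Measure.map (fun ω => enc (ω.1, X ω)) (PO V)) := by
      have h3 := Measure.map_map (μ := PO V) hdm (hem.comp hXm)
      exact h3.symm
    rw [h1, key, Measure.map_map hdm hem]
    have h2 : dec ∘ enc = id := funext hde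
    rw [h2, Measure.map_id]
  · rintro (i | i)
    · simp only [henc, Sum.elim_inl, sub_self, abs_zero, integral_zero]
      exact tendsto_const_nhds
    · simp only [henc, Sum.elim_inr]
      exact hX.lim i
  · intro A
    rw [eventually_atTop]
    set A' : Finset (ℕ × V) := A.preimage Sum.inr Sum.inr_injective.injOn with hA'
    refine ⟨A'.image Prod.snd, fun D hD F hF hdep => ?_⟩
    have hAs : A' ⊆ sites (A'.sup Prod.fst) D := by
      intro j hj
      have h1 : j.1 ≤ A'.sup Prod.fst := Finset.le_sup (f := Prod.fst) hj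
      have h2 : j.2 ∈ D := hD (Finset.mem_image_of_mem _ hj)
      exact Finset.mem_product.mpr ⟨Finset.mem_range.mpr (by omega), h2⟩
    rw [lintegral_map hF hem]
    refine lintegral_sol μ D (A'.sup Prod.fst) (F := fun q => F (enc q)) (hF.comp hem) ?_
    intro U x x' h
    apply hdep
    rintro (i | i) hi
    · rfl
    · have : i ∈ A' := by
        rw [hA', Finset.mem_preimage]
        exact Finset.mem_coe.mp hi
      exact h i (Finset.mem_coe.mpr (hAs this))

theorem isLim_equi_coord {μ : Measure (V → Bool)} [IsProbabilityMeasure μ]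
    {X : Om V → ℕ × V → I} (hX : IsLim μ X)
    {g : V ≃ V} (hg : Measure.map (translate g) μ = μ) (k : ℕ) (v : V) :
    ∀ᵐ ω ∂(PO V), X (trO g ω) (k, g v) = X ω (k, v) := by
  have hmX : ∀ i, Measurable (fun ω => X ω i) := fun i => measurable_pi_iff.mp hX.meas i
  have hms : ∀ (D : Finset V) i, Measurable (fun ω : Om V =>
      sol μ D ω.1 ω.2 i) := fun D i => measurable_pi_iff.mp (measurable_sol_joint μ D) i
  have hmt : Measurable (fun ω => X (trO g ω) (k, g v)) :=
    (hmX (k, g v)).comp (measurable_trO g)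
  set δ : ℝ := ∫ ω, |(X (trO g ω) (k, g v) : ℝ) - X ω (k, v)| ∂(PO V) with hδ
  have hle : ∀ D : Finset V, δ ≤
      (∫ ω, |(sol μ (D.map g.toEmbedding) ω.1 ω.2 (k, g v) : ℝ) - X ω (k, g v)| ∂(PO V)) +
      ∫ ω, |(sol μ D ω.1 ω.2 (k, v) : ℝ) - X ω (k, v)| ∂(PO V) := by
    intro D
    have e1 : ∫ ω, |(sol μ (D.map g.toEmbedding) ω.1 ω.2 (k, g v) : ℝ) -
        X ω (k, g v)| ∂(PO V) =
        ∫ ω, |(sol μ D ω.1 ω.2 (k, v) : ℝ) - X (trO g ω) (k, g v)| ∂(PO V) := by
      conv_lhs => rw [← map_trO g]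
      rw [integral_map (measurable_trO g).aemeasurable]
      · apply integral_congr_ae
        refine ae_of_all _ fun ω => ?_
        simp only
        have e2 : sol μ (D.map g.toEmbedding) (trO g ω).1 (trO g ω).2 =
            translateS g (sol μ D ω.1 ω.2) := sol_translate hg D ω.1 ω.2
        rw [e2]
        simp [translateS]
      · exact ((measurable_subtype_coe.comp (hms _ _)).sub
          (measurable_subtype_coe.comp (hmX _))).abs.aestronglyMeasurable
    have i1 := integrable_abs_sub (P := PO V) (hms D (k, v)) hmt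
    have i2 := integrable_abs_sub (P := PO V) (hms D (k, v)) (hmX (k, v))
    rw [e1, ← integral_add i1 i2]
    apply integral_mono (integrable_abs_sub hmt (hmX (k, v))) (i1.add i2)
    intro ω
    show |(X (trO g ω) (k, g v) : ℝ) - X ω (k, v)| ≤
      |(sol μ D ω.1 ω.2 (k, v) : ℝ) - X (trO g ω) (k, g v)| +
        |(sol μ D ω.1 ω.2 (k, v) : ℝ) - X ω (k, v)|
    rw [abs_sub_comm (sol μ D ω.1 ω.2 (k, v) : ℝ) (X (trO g ω) (k, g v) : ℝ)]
    exact abs_sub_le _ _ _
  have htop : Tendsto (fun D : Finset V => D.map g.toEmbedding) atTop atTop := by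
    rw [tendsto_atTop_atTop]
    intro D
    refine ⟨D.map g.symm.toEmbedding, fun D' hD' => ?_⟩
    intro w hw
    rw [Finset.mem_map]
    refine ⟨g.symm w, hD' ?_, by simp⟩
    rw [Finset.mem_map]
    exact ⟨w, hw, rfl⟩
  have hlim0 := ((hX.lim (k, g v)).comp htop).add (hX.lim (k, v))
  rw [add_zero] at hlim0
  have hδ0 : δ ≤ 0 := ge_of_tendsto' hlim0 hle
  have hδ1 : 0 ≤ δ := integral_nonneg fun ω => abs_nonneg _
  have hδ2 : δ = 0 := le_antisymm hδ0 hδ1
  have := (integral_eq_zero_iff_of_nonneg (fun ω => abs_nonneg _)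
    (integrable_abs_sub (P := PO V) hmt (hmX (k, v)))).mp hδ2
  filter_upwards [this] with ω hω
  have h0 : |(X (trO g ω) (k, g v) : ℝ) - X ω (k, v)| = 0 := hω
  exact Subtype.ext (by have := abs_eq_zero.mp h0; linarith)

theorem isLim_equi [Countable V] {μ : Measure (V → Bool)} [IsProbabilityMeasure μ]
    {X : Om V → ℕ × V → I} (hX : IsLim μ X) {g : V ≃ V} (hg : Measure.map (translate g) μ = μ) :
    ∀ᵐ ω ∂(PO V), X (trO g ω) = translateS g (X ω) := by
  have hall : ∀ᵐ ω ∂(PO V), ∀ j : ℕ × V, X (trO g ω) (j.1, g j.2) = X ω (j.1, j.2) :=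
    ae_all_iff.mpr fun j => isLim_equi_coord hX hg j.1 j.2
  filter_upwards [hall] with ω hω
  funext j
  have := hω (j.1, g.symm j.2)
  simpa [translateS] using this

end Vale.Agent.P161E
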