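import Vale.Agent.P161E.Planted
import Vale.Agent.P161E.SLim
import Vale.Agent.P161E.Infl
import Vale.Agent.P161E.Limit
import Vale.Agent.P161E.Law

/-!
# Posteriors in infinite volume
-/

open MeasureTheory Set Filter Topology
open scoped unitInterval ENNReal

namespace Vale.Agent.P161E

open Vale.Agent.P161

universe u

variable {V : Type u}

namespace PostAux

theorem int_sol [Countable V] (μ : Measure (V → Bool)) [IsProbabilityMeasure μ]
    (D : Finset V) (k : ℕ) {F : Om V → ℝ} (hF : Measurable F) (h0 : ∀ q, 0 ≤ F q)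
    (hdep : ∀ U, DependsOn (fun x => F (U, x)) (sites k D : Set (ℕ × V))) :
    ∫ ω, F (ω.1, sol μ D ω.1 ω.2) ∂(PO V) = ∫ q, F q ∂(PL μ) := by
  have hm : Measurable fun ω : Om V => ((ω.1, sol μ D ω.1 ω.2) : Om V) :=
    measurable_fst.prodMk (measurable_sol μ D measurable_fst measurable_snd)
  rw [integral_eq_lintegral_of_nonneg_ae (ae_of_all _ fun ω => h0 _)
    (hF.comp hm).aestronglyMeasurable,
    integral_eq_lintegral_of_nonneg_ae (ae_of_all _ fun q => h0 q) hF.aestronglyMeasurable]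
  congr 1
  refine lintegral_sol μ D k (F := fun q => ENNReal.ofReal (F q)) hF.ennreal_ofReal ?_
  intro U x x' h
  exact congrArg ENNReal.ofReal (hdep U h)

theorem int_X [Countable V] {μ : Measure (V → Bool)} [IsProbabilityMeasure μ]
    {X : Om V → ℕ × V → I} (hX : IsLim μ X) {F : Om V → ℝ} (hF : Measurable F) :
    ∫ ω, F (ω.1, X ω) ∂(PO V) = ∫ q, F q ∂(PL μ) := by
  rw [← isLim_law hX]
  exact (integral_map (measurable_fst.prodMk hX.meas).aemeasurable
    hF.aestronglyMeasurable).symm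

theorem sq_add3 (a b c : ℝ) : (a + b + c) ^ 2 ≤ 3 * a ^ 2 + 3 * b ^ 2 + 3 * c ^ 2 := by
  nlinarith [sq_nonneg (a - b), sq_nonneg (b - c), sq_nonneg (a - c)]

theorem post [Countable V] {μ : Measure (V → Bool)} [IsProbabilityMeasure μ]
    {κ : V → V → ℝ} (hκ : ∀ v w, 0 ≤ κ v w)
    (hlip : ∀ (D : Finset V) (v : V) (Y Y' : V → ℝ),
      |mean μ D v Y - mean μ D v Y'| ≤ ∑ w ∈ D, κ v w * |Y w - Y' w|)
    {X : Om V → ℕ × V → I} (hX : IsLim μ X) (k : ℕ) (r : ℝ) (v : V)
    (e : Finset V → Finset V) (he : ∀ D, e D ⊆ D) {L : (V → ℝ) → ℝ} (hLm : Measurable L)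
    (hL1 : ∀ Y, |L Y| ≤ 1)
    (hL : ∀ ε : ℝ, 0 < ε → ∃ D₀ : Finset V, ∀ D : Finset V, D₀ ⊆ D →
      ∫ Y, (mean μ (e D) v Y - L Y) ^ 2 ∂(Measure.map (fun q : Om V => fld q.1 q.2 k r) (PL μ))
        ≤ ε) :
    Tendsto (fun D : Finset V => ∫ ω, (mean μ (e D) v (fld ω.1 (sol μ D ω.1 ω.2) k r) -
      L (fld ω.1 (X ω) k r)) ^ 2 ∂(PO V)) atTop (𝓝 0) := by
  -- measurability
  have hfs : ∀ D : Finset V, Measurable fun ω : Om V => fld ω.1 (sol μ D ω.1 ω.2) k r :=
    fun D => measurable_fld measurable_fst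
      (measurable_sol μ D measurable_fst measurable_snd) measurable_const k
  have hfX : Measurable fun ω : Om V => fld ω.1 (X ω) k r :=
    measurable_fld measurable_fst hX.meas measurable_const k
  have hfq : Measurable fun q : Om V => fld q.1 q.2 k r :=
    measurable_fld measurable_fst measurable_snd measurable_const k
  have hmm : ∀ E : Finset V, Measurable fun Y : V → ℝ => mean μ E v Y := fun E =>
    measurable_mean μ E v
  have hm1 : ∀ (E : Finset V) (Y : V → ℝ), |mean μ E v Y| ≤ 1 := fun E Y =>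
    CovAux.abs_mean_le μ E v Y
  have hint : ∀ {Ω : Type u} [MeasurableSpace Ω] {P : Measure Ω} [IsProbabilityMeasure P]
      {f g : Ω → ℝ}, Measurable f → Measurable g → (∀ ω, |f ω| ≤ 1) → (∀ ω, |g ω| ≤ 1) →
      Integrable (fun ω => (f ω - g ω) ^ 2) P := by
    intro Ω _ P _ f g hf hg hf1 hg1
    refine Integrable.of_bound ((hf.sub hg).pow_const 2).aestronglyMeasurable 4
      (ae_of_all _ fun ω => ?_)
    rw [Real.norm_eq_abs, abs_of_nonneg (sq_nonneg _)]
    have h1 := abs_le.mp (hf1 ω)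
    have h2 := abs_le.mp (hg1 ω)
    nlinarith
  have hpb : IsProbabilityMeasure (Measure.map (fun q : Om V => fld q.1 q.2 k r) (PL μ)) :=
    Measure.isProbabilityMeasure_map hfq.aemeasurable
  rw [Metric.tendsto_nhds]
  intro ε hε
  obtain ⟨D₀, hD₀⟩ := hL (ε / 24) (by positivity)
  -- the middle term
  have hmid : Tendsto (fun D : Finset V => ∑ w ∈ e D₀, 2 * (κ v w *
      ∑ i ∈ Finset.range (k + 1), ∫ ω, |(sol μ D ω.1 ω.2 (i, w) : ℝ) - X ω (i, w)| ∂(PO V)))
      atTop (𝓝 0) := by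
    have h0 : (0 : ℝ) = ∑ w ∈ e D₀, 2 * (κ v w * ∑ i ∈ Finset.range (k + 1), (0 : ℝ)) := by simp
    rw [h0]
    refine tendsto_finsetSum _ fun w _ => ?_
    refine Tendsto.const_mul _ (Tendsto.const_mul _ ?_)
    exact tendsto_finsetSum _ fun i _ => hX.lim (i, w)
  filter_upwards [eventually_ge_atTop D₀,
    Metric.tendsto_nhds.mp hmid (ε / 12) (by positivity)] with D hD0' hD1
  have hD0 : D₀ ⊆ D := hD0'
  rw [Real.dist_eq, sub_zero] at hD1 ⊢
  rw [abs_of_nonneg (integral_nonneg fun ω => sq_nonneg _)]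
  -- the three terms
  have i1 := hint (P := PO V) ((hmm (e D)).comp (hfs D)) ((hmm (e D₀)).comp (hfs D))
    (fun ω => hm1 _ _) (fun ω => hm1 _ _)
  have i2 := hint (P := PO V) ((hmm (e D₀)).comp (hfs D)) ((hmm (e D₀)).comp hfX)
    (fun ω => hm1 _ _) (fun ω => hm1 _ _)
  have i3 := hint (P := PO V) ((hmm (e D₀)).comp hfX) (hLm.comp hfX)
    (fun ω => hm1 _ _) (fun ω => hL1 _)
  simp only [Function.comp_apply] at i1 i2 i3
  have b3 : ∫ ω, (mean μ (e D₀) v (fld ω.1 (X ω) k r) - L (fld ω.1 (X ω) k r)) ^ 2 ∂(PO V) ≤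
      ε / 24 := by
    have e1 := int_X hX (F := fun q : Om V =>
      (mean μ (e D₀) v (fld q.1 q.2 k r) - L (fld q.1 q.2 k r)) ^ 2)
      (((hmm (e D₀)).comp hfq).sub (hLm.comp hfq) |>.pow_const 2)
    simp only at e1
    rw [e1]
    have e2 := integral_map (μ := PL μ) hfq.aemeasurable
      (f := fun Y => (mean μ (e D₀) v Y - L Y) ^ 2)
      (((hmm (e D₀)).sub hLm).pow_const 2).aestronglyMeasurable
    rw [← e2]
    exact hD₀ D₀ subset_rfl
  have b1 : ∫ ω, (mean μ (e D) v (fld ω.1 (sol μ D ω.1 ω.2) k r) -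
      mean μ (e D₀) v (fld ω.1 (sol μ D ω.1 ω.2) k r)) ^ 2 ∂(PO V) ≤ ε / 6 := by
    have hdep : ∀ U : ℕ × V → I, DependsOn (fun x : ℕ × V → I =>
        (mean μ (e D) v (fld U x k r) - mean μ (e D₀) v (fld U x k r)) ^ 2)
        (sites k D : Set (ℕ × V)) := by
      intro U x x' h
      have hf : ∀ w ∈ D, fld U x k r w = fld U x' k r w := by
        intro w hw
        have hx : ∀ i ≤ k, x (i, w) = x' (i, w) := by
          intro i hi
          apply h
          unfold sites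
          rw [Finset.mem_coe, Finset.mem_product, Finset.mem_range]
          exact ⟨by omega, hw⟩
        unfold fld
        congr 1
        · exact Finset.sum_congr rfl fun i hi => by
            rw [hx i (Finset.mem_range.mp hi).le]
        · rw [hx k le_rfl]
      have h1 := mean_congr μ v (fun w hw => hf w (he D hw))
      have h2 := mean_congr μ v (fun w hw => hf w (hD0 (he D₀ hw)))
      simp only
      rw [h1, h2]
    have e1 := int_sol μ D k (F := fun q : Om V =>
      (mean μ (e D) v (fld q.1 q.2 k r) - mean μ (e D₀) v (fld q.1 q.2 k r)) ^ 2)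
      (((hmm (e D)).comp hfq).sub ((hmm (e D₀)).comp hfq) |>.pow_const 2)
      (fun q => sq_nonneg _) hdep
    simp only at e1
    rw [e1]
    have e2 := integral_map (μ := PL μ) hfq.aemeasurable
      (f := fun Y => (mean μ (e D) v Y - mean μ (e D₀) v Y) ^ 2)
      (((hmm (e D)).sub (hmm (e D₀))).pow_const 2).aestronglyMeasurable
    rw [← e2]
    set Q := Measure.map (fun q : Om V => fld q.1 q.2 k r) (PL μ) with hQ
    have j1 := hint (P := Q) (hmm (e D)) hLm (fun Y => hm1 _ _) hL1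
    have j2 := hint (P := Q) (hmm (e D₀)) hLm (fun Y => hm1 _ _) hL1
    calc ∫ Y, (mean μ (e D) v Y - mean μ (e D₀) v Y) ^ 2 ∂Q
        ≤ ∫ Y, (2 * (mean μ (e D) v Y - L Y) ^ 2 + 2 * (mean μ (e D₀) v Y - L Y) ^ 2) ∂Q := by
          refine integral_mono (hint (hmm (e D)) (hmm (e D₀)) (fun Y => hm1 _ _)
            (fun Y => hm1 _ _)) ((j1.const_mul 2).add (j2.const_mul 2)) fun Y => ?_
          simp only
          nlinarith [sq_nonneg ((mean μ (e D) v Y - L Y) + (mean μ (e D₀) v Y - L Y))]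
      _ = 2 * ∫ Y, (mean μ (e D) v Y - L Y) ^ 2 ∂Q +
          2 * ∫ Y, (mean μ (e D₀) v Y - L Y) ^ 2 ∂Q := by
          rw [integral_add (j1.const_mul 2) (j2.const_mul 2), integral_const_mul,
            integral_const_mul]
      _ ≤ ε / 6 := by
          have := hD₀ D hD0
          have := hD₀ D₀ subset_rfl
          linarith
  have b2 : ∫ ω, (mean μ (e D₀) v (fld ω.1 (sol μ D ω.1 ω.2) k r) -
      mean μ (e D₀) v (fld ω.1 (X ω) k r)) ^ 2 ∂(PO V) ≤ ∑ w ∈ e D₀, 2 * (κ v w *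
      ∑ i ∈ Finset.range (k + 1), ∫ ω, |(sol μ D ω.1 ω.2 (i, w) : ℝ) - X ω (i, w)| ∂(PO V)) := by
    have hab : ∀ j : ℕ × V, Integrable
        (fun ω : Om V => |(sol μ D ω.1 ω.2 j : ℝ) - X ω j|) (PO V) := by
      intro j
      have m1 : Measurable fun ω : Om V => (sol μ D ω.1 ω.2 j : ℝ) :=
        measurable_subtype_coe.comp
          (measurable_pi_iff.mp (measurable_sol μ D measurable_fst measurable_snd) j)
      have m2 : Measurable fun ω : Om V => (X ω j : ℝ) :=
        measurable_subtype_coe.comp ((measurable_pi_apply j).comp hX.meas)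
      refine Integrable.of_bound (m1.sub m2).abs.aestronglyMeasurable 1
        (ae_of_all _ fun ω => ?_)
      rw [Real.norm_eq_abs, abs_abs]
      exact abs_coe_sub_le _ _
    have hs : ∀ w, Integrable (fun ω : Om V => 2 * (κ v w *
        ∑ i ∈ Finset.range (k + 1), |(sol μ D ω.1 ω.2 (i, w) : ℝ) - X ω (i, w)|)) (PO V) :=
      fun w => ((integrable_finsetSum _ fun i _ => hab (i, w)).const_mul _).const_mul _
    calc ∫ ω, (mean μ (e D₀) v (fld ω.1 (sol μ D ω.1 ω.2) k r) -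
          mean μ (e D₀) v (fld ω.1 (X ω) k r)) ^ 2 ∂(PO V)
        ≤ ∫ ω, ∑ w ∈ e D₀, 2 * (κ v w *
          ∑ i ∈ Finset.range (k + 1), |(sol μ D ω.1 ω.2 (i, w) : ℝ) - X ω (i, w)|) ∂(PO V) := by
          refine integral_mono i2 (integrable_finsetSum _ fun w _ => hs w) fun ω => ?_
          simp only
          have l1 := hlip (e D₀) v (fld ω.1 (sol μ D ω.1 ω.2) k r) (fld ω.1 (X ω) k r)
          have l2 := abs_le.mp (hm1 (e D₀) (fld ω.1 (sol μ D ω.1 ω.2) k r))
          have l3 := abs_le.mp (hm1 (e D₀) (fld ω.1 (X ω) k r))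
          set a := mean μ (e D₀) v (fld ω.1 (sol μ D ω.1 ω.2) k r)
          set c := mean μ (e D₀) v (fld ω.1 (X ω) k r)
          have l4 : |a - c| ≤ 2 := by rw [abs_le]; constructor <;> linarith
          have l5 : (a - c) ^ 2 ≤ 2 * |a - c| := by
            rw [← sq_abs]
            nlinarith [abs_nonneg (a - c)]
          have l6 : ∑ w ∈ e D₀, κ v w *
              |fld ω.1 (sol μ D ω.1 ω.2) k r w - fld ω.1 (X ω) k r w| ≤
              ∑ w ∈ e D₀, κ v w * ∑ i ∈ Finset.range (k + 1),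
                |(sol μ D ω.1 ω.2 (i, w) : ℝ) - X ω (i, w)| := by
            refine Finset.sum_le_sum fun w _ => mul_le_mul_of_nonneg_left ?_ (hκ _ _)
            refine (InflAux.fld_sub_le ω.1 (sol μ D ω.1 ω.2) (X ω) k r w).trans ?_
            rw [Finset.sum_range_succ]
            refine add_le_add le_rfl ?_
            split_ifs
            · exact le_rfl
            · exact abs_nonneg _
          rw [← Finset.mul_sum]
          linarith
      _ = _ := by
          rw [integral_finsetSum _ fun w _ => hs w]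
          refine Finset.sum_congr rfl fun w _ => ?_
          rw [integral_const_mul, integral_const_mul,
            integral_finsetSum _ fun i _ => hab (i, w)]
  have hD2 := (abs_lt.mp hD1).2
  calc ∫ ω, (mean μ (e D) v (fld ω.1 (sol μ D ω.1 ω.2) k r) -
        L (fld ω.1 (X ω) k r)) ^ 2 ∂(PO V)
      ≤ ∫ ω, (3 * (mean μ (e D) v (fld ω.1 (sol μ D ω.1 ω.2) k r) -
          mean μ (e D₀) v (fld ω.1 (sol μ D ω.1 ω.2) k r)) ^ 2 +
        3 * (mean μ (e D₀) v (fld ω.1 (sol μ D ω.1 ω.2) k r) -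
          mean μ (e D₀) v (fld ω.1 (X ω) k r)) ^ 2 +
        3 * (mean μ (e D₀) v (fld ω.1 (X ω) k r) - L (fld ω.1 (X ω) k r)) ^ 2) ∂(PO V) := by
        refine integral_mono (hint ((hmm (e D)).comp (hfs D)) (hLm.comp hfX)
          (fun ω => hm1 _ _) (fun ω => hL1 _)) (((i1.const_mul 3).add (i2.const_mul 3)).add
          (i3.const_mul 3)) fun ω => ?_
        simp only [Function.comp_apply]
        refine le_trans (le_of_eq ?_) (sq_add3 _ _ _)
        congr 1
        ring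
    _ = 3 * ∫ ω, (mean μ (e D) v (fld ω.1 (sol μ D ω.1 ω.2) k r) -
          mean μ (e D₀) v (fld ω.1 (sol μ D ω.1 ω.2) k r)) ^ 2 ∂(PO V) +
        3 * ∫ ω, (mean μ (e D₀) v (fld ω.1 (sol μ D ω.1 ω.2) k r) -
          mean μ (e D₀) v (fld ω.1 (X ω) k r)) ^ 2 ∂(PO V) +
        3 * ∫ ω, (mean μ (e D₀) v (fld ω.1 (X ω) k r) - L (fld ω.1 (X ω) k r)) ^ 2 ∂(PO V) := by
        have s1 := integral_add (μ := PO V) ((i1.const_mul 3).add (i2.const_mul 3))
          (i3.const_mul 3)
        have s2 := integral_add (μ := PO V) (i1.const_mul 3) (i2.const_mul 3)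
        simp only [Pi.add_apply] at s1
        rw [s1, s2, integral_const_mul, integral_const_mul, integral_const_mul]
    _ < ε := by linarith

end PostAux

open PostAux

theorem tendsto_cavity [Countable V] {b : ℕ} (hb : 2 ≤ b) (T : RTree V b) {θ : ℝ} (hθ : 0 ≤ θ)
    (hθ1 : θ < 1) {μ : Measure (V → Bool)} (hμ : IsFreeIsing T.G θ μ) {X : Om V → ℕ × V → I}
    (hX : IsLim μ X) (k : ℕ) (r : ℝ) {u x : V} (h : T.G.Adj u x) :
    Tendsto (fun D : Finset V => ∫ ω, (mean μ (T.inter D u x) x (fld ω.1 (sol μ D ω.1 ω.2) k r) -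
      th T μ u x (fld ω.1 (X ω) k r)) ^ 2 ∂(PO V)) atTop (𝓝 0) := by
  have := hμ.prob
  refine post (κ := fun v w => 2 * θ ^ T.G.dist v w) (fun v w => by positivity)
    (fun D v Y Y' => mean_lip T.tree T.fin hθ hθ1 hμ D v Y Y') hX k r x
    (fun D => T.inter D u x) (fun D => Finset.filter_subset _ _) (measurable_th T μ u x)
    (abs_th_le T μ u x) fun ε hε => ?_
  obtain ⟨n, hn⟩ := l2_th T (PlA.obs_nu k r) (PlA.isPlanted_fld μ k r) u x hε
  exact ⟨T.half u x n, hn⟩

theorem tendsto_mean [Countable V] {b : ℕ} (hb : 2 ≤ b) (T : RTree V b) {θ : ℝ} (hθ : 0 ≤ θ)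
    (hθ1 : θ < 1) {μ : Measure (V → Bool)} (hμ : IsFreeIsing T.G θ μ) {X : Om V → ℕ × V → I}
    (hX : IsLim μ X) (k : ℕ) (r : ℝ) (v : V) :
    Tendsto (fun D : Finset V => ∫ ω, (mean μ D v (fld ω.1 (sol μ D ω.1 ω.2) k r) -
      Mh T μ v (fld ω.1 (X ω) k r)) ^ 2 ∂(PO V)) atTop (𝓝 0) := by
  have := hμ.prob
  refine post (κ := fun v w => 2 * θ ^ T.G.dist v w) (fun v w => by positivity)
    (fun D v Y Y' => mean_lip T.tree T.fin hθ hθ1 hμ D v Y Y') hX k r v
    (fun D => D) (fun D => subset_rfl) (measurable_Mh T μ v)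
    (abs_Mh_le T μ v) fun ε hε => ?_
  obtain ⟨n, hn⟩ := l2_Mh T (PlA.obs_nu k r) (PlA.isPlanted_fld μ k r) v hε
  exact ⟨T.ball v n, hn⟩

end Vale.Agent.P161E
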