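import Vale.Agent.P161E.IsoInt
import Vale.Agent.P161E.Fin
import Vale.Agent.P161E.SLim
import Vale.Agent.P161E.Equi
import Vale.Agent.P161E.Post

/-!
# The growth inequality in infinite volume
-/

open MeasureTheory Set Filter Topology
open scoped unitInterval ENNReal

namespace Vale.Agent.P161E

open Vale.Agent.P161

universe u

variable {V : Type u} {b : ℕ}

namespace GrowAux

/-- convergence in `L¹` of uniformly bounded functions along a filter -/
structure LC {ι Ω : Type*} [MeasurableSpace Ω] (P : Measure Ω) (l : Filter ι)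
    (F : ι → Ω → ℝ) (f : Ω → ℝ) : Prop where
  m : ∀ i, Measurable (F i)
  m' : Measurable f
  bd : ∃ B : ℝ, 0 ≤ B ∧ (∀ i ω, |F i ω| ≤ B) ∧ ∀ ω, |f ω| ≤ B
  lim : Tendsto (fun i => ∫ ω, |F i ω - f ω| ∂P) l (𝓝 0)

section LC

variable {ι Ω : Type*} [MeasurableSpace Ω] {P : Measure Ω} [IsProbabilityMeasure P]
  {l : Filter ι} {F G : ι → Ω → ℝ} {f g : Ω → ℝ}

theorem LC.integrable (h : LC P l F f) (i : ι) : Integrable (F i) P := by
  obtain ⟨B, _, h1, _⟩ := h.bd
  exact Integrable.of_bound (h.m i).aestronglyMeasurable B (ae_of_all _ (h1 i))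

theorem LC.integrable' (h : LC P l F f) : Integrable f P := by
  obtain ⟨B, _, _, h1⟩ := h.bd
  exact Integrable.of_bound h.m'.aestronglyMeasurable B (ae_of_all _ h1)

theorem LC.integral (h : LC P l F f) : Tendsto (fun i => ∫ ω, F i ω ∂P) l (𝓝 (∫ ω, f ω ∂P)) := by
  rw [tendsto_iff_dist_tendsto_zero]
  refine squeeze_zero (fun _ => dist_nonneg) (fun i => ?_) h.lim
  rw [Real.dist_eq, ← integral_sub (h.integrable i) h.integrable']
  exact abs_integral_le_integral_abs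

/-- a criterion -/
theorem LC.of_le (hm : ∀ i, Measurable (F i)) (hm' : Measurable f)
    (hbd : ∃ B : ℝ, 0 ≤ B ∧ (∀ i ω, |F i ω| ≤ B) ∧ ∀ ω, |f ω| ≤ B)
    {R : ι → Ω → ℝ} (hRi : ∀ i, Integrable (R i) P) (hR : ∀ i ω, |F i ω - f ω| ≤ R i ω)
    (hlim : Tendsto (fun i => ∫ ω, R i ω ∂P) l (𝓝 0)) : LC P l F f := by
  refine ⟨hm, hm', hbd, ?_⟩
  refine squeeze_zero (fun i => integral_nonneg fun ω => abs_nonneg _) (fun i => ?_) hlim
  refine integral_mono_of_nonneg (ae_of_all _ fun ω => abs_nonneg _) (hRi i)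
    (ae_of_all _ fun ω => hR i ω)

theorem LC.abs_int (h : LC P l F f) (i : ι) : Integrable (fun ω => |F i ω - f ω|) P :=
  ((h.integrable i).sub h.integrable').abs

theorem LC.add (h : LC P l F f) (h' : LC P l G g) :
    LC P l (fun i ω => F i ω + G i ω) (fun ω => f ω + g ω) := by
  obtain ⟨B, hB, h1, h2⟩ := h.bd
  obtain ⟨B', hB', h1', h2'⟩ := h'.bd
  refine LC.of_le (fun i => (h.m i).add (h'.m i)) (h.m'.add h'.m')
    ⟨B + B', by positivity, fun i ω => (abs_add_le _ _).trans (add_le_add (h1 i ω) (h1' i ω)),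
      fun ω => (abs_add_le _ _).trans (add_le_add (h2 ω) (h2' ω))⟩
    (R := fun i ω => |F i ω - f ω| + |G i ω - g ω|)
    (fun i => (h.abs_int i).add (h'.abs_int i)) (fun i ω => ?_) ?_
  · have : F i ω + G i ω - (f ω + g ω) = (F i ω - f ω) + (G i ω - g ω) := by ring
    rw [this]
    exact abs_add_le _ _
  · have := h.lim.add h'.lim
    rw [add_zero] at this
    refine this.congr fun i => ?_
    rw [← integral_add (h.abs_int i) (h'.abs_int i)]

theorem LC.neg (h : LC P l F f) : LC P l (fun i ω => -F i ω) (fun ω => -f ω) := by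
  obtain ⟨B, hB, h1, h2⟩ := h.bd
  refine ⟨fun i => (h.m i).neg, h.m'.neg, ⟨B, hB, fun i ω => by rw [abs_neg]; exact h1 i ω,
    fun ω => by rw [abs_neg]; exact h2 ω⟩, ?_⟩
  refine h.lim.congr fun i => ?_
  congr 1
  funext ω
  rw [← abs_neg]
  congr 1
  ring

theorem LC.sub (h : LC P l F f) (h' : LC P l G g) :
    LC P l (fun i ω => F i ω - G i ω) (fun ω => f ω - g ω) := by
  simp only [sub_eq_add_neg]
  exact h.add h'.neg

theorem LC.const (c : ℝ) : LC P l (fun _ _ => c) (fun _ => c) := by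
  refine ⟨fun _ => measurable_const, measurable_const, ⟨|c|, abs_nonneg _, fun _ _ => le_rfl,
    fun _ => le_rfl⟩, ?_⟩
  simp only [sub_self, abs_zero, integral_zero]
  exact tendsto_const_nhds

theorem LC.mul (h : LC P l F f) (h' : LC P l G g) :
    LC P l (fun i ω => F i ω * G i ω) (fun ω => f ω * g ω) := by
  obtain ⟨B, hB, h1, h2⟩ := h.bd
  obtain ⟨B', hB', h1', h2'⟩ := h'.bd
  refine LC.of_le (fun i => (h.m i).mul (h'.m i)) (h.m'.mul h'.m')
    ⟨B * B', by positivity, fun i ω => by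
        rw [abs_mul]; exact mul_le_mul (h1 i ω) (h1' i ω) (abs_nonneg _) hB,
      fun ω => by rw [abs_mul]; exact mul_le_mul (h2 ω) (h2' ω) (abs_nonneg _) hB⟩
    (R := fun i ω => B' * |F i ω - f ω| + B * |G i ω - g ω|)
    (fun i => ((h.abs_int i).const_mul _).add ((h'.abs_int i).const_mul _)) (fun i ω => ?_) ?_
  · have : F i ω * G i ω - f ω * g ω = G i ω * (F i ω - f ω) + f ω * (G i ω - g ω) := by ring
    rw [this]
    refine (abs_add_le _ _).trans ?_
    rw [abs_mul, abs_mul]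
    exact add_le_add (mul_le_mul_of_nonneg_right (h1' i ω) (abs_nonneg _))
      (mul_le_mul_of_nonneg_right (h2 ω) (abs_nonneg _))
  · have := (h.lim.const_mul B').add (h'.lim.const_mul B)
    rw [mul_zero, mul_zero, add_zero] at this
    refine this.congr fun i => ?_
    rw [integral_add ((h.abs_int i).const_mul _) ((h'.abs_int i).const_mul _),
      integral_const_mul, integral_const_mul]

theorem LC.sq (h : LC P l F f) : LC P l (fun i ω => F i ω ^ 2) (fun ω => f ω ^ 2) := by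
  have := h.mul h
  simpa only [pow_two] using this

/-- composition with a function which is Lipschitz on `[-1, 1]` -/
theorem LC.comp (h : LC P l F f) (h1 : ∀ i ω, |F i ω| ≤ 1) (h2 : ∀ ω, |f ω| ≤ 1) {φ : ℝ → ℝ}
    (hφ : Measurable φ) {L : ℝ} (hL : ∀ s t : ℝ, |s| ≤ 1 → |t| ≤ 1 → |φ s - φ t| ≤ L * |s - t|)
    {C : ℝ} (hC : ∀ s : ℝ, |s| ≤ 1 → |φ s| ≤ C) :
    LC P l (fun i ω => φ (F i ω)) (fun ω => φ (f ω)) := by
  have hC0 : 0 ≤ C := (abs_nonneg _).trans (hC 0 (by simp))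
  refine LC.of_le (fun i => hφ.comp (h.m i)) (hφ.comp h.m')
    ⟨C, hC0, fun i ω => hC _ (h1 i ω), fun ω => hC _ (h2 ω)⟩
    (R := fun i ω => L * |F i ω - f ω|) (fun i => (h.abs_int i).const_mul _)
    (fun i ω => hL _ _ (h1 i ω) (h2 ω)) ?_
  have := h.lim.const_mul L
  rw [mul_zero] at this
  refine this.congr fun i => ?_
  rw [integral_const_mul]

/-- convergence in `L²` implies convergence in `L¹` -/
theorem LC.of_sq (hm : ∀ i, Measurable (F i)) (hm' : Measurable f) (h1 : ∀ i ω, |F i ω| ≤ 1)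
    (h2 : ∀ ω, |f ω| ≤ 1) (h : Tendsto (fun i => ∫ ω, (F i ω - f ω) ^ 2 ∂P) l (𝓝 0)) :
    LC P l F f := by
  refine ⟨hm, hm', ⟨1, zero_le_one, h1, h2⟩, ?_⟩
  have hs : Tendsto (fun i => Real.sqrt (∫ ω, (F i ω - f ω) ^ 2 ∂P)) l (𝓝 0) := by
    have := (Real.continuous_sqrt.tendsto 0).comp h
    rwa [Real.sqrt_zero] at this
  refine squeeze_zero (fun i => integral_nonneg fun ω => abs_nonneg _) (fun i => ?_) hs
  have hb : ∀ ω, |F i ω - f ω| ≤ 2 := fun ω => by
    have e1 := h1 i ω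
    have e2 := h2 ω
    rw [abs_le] at *
    constructor <;> linarith
  have hi1 : Integrable (fun ω => |F i ω - f ω|) P :=
    Integrable.of_bound ((hm i).sub hm').abs.aestronglyMeasurable 2
      (ae_of_all _ fun ω => by rw [Real.norm_eq_abs, abs_abs]; exact hb ω)
  have hi2 : Integrable (fun ω => |F i ω - f ω| ^ 2) P :=
    Integrable.of_bound (((hm i).sub hm').abs.pow_const 2).aestronglyMeasurable 4
      (ae_of_all _ fun ω => by
        rw [Real.norm_eq_abs, abs_of_nonneg (sq_nonneg _)]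
        have := hb ω
        have := abs_nonneg (F i ω - f ω)
        nlinarith)
  apply Real.le_sqrt_of_sq_le
  set A := ∫ ω, |F i ω - f ω| ∂P with hA
  have h3 : 0 ≤ ∫ ω, (|F i ω - f ω| - A) ^ 2 ∂P := integral_nonneg fun ω => sq_nonneg _
  have h4 : ∫ ω, (|F i ω - f ω| - A) ^ 2 ∂P = ∫ ω, (F i ω - f ω) ^ 2 ∂P - A ^ 2 := by
    have e : ∀ ω, (|F i ω - f ω| - A) ^ 2 = |F i ω - f ω| ^ 2 - (2 * A) * |F i ω - f ω| + A ^ 2 :=
      fun ω => by ring
    have e1 : ∫ ω, (|F i ω - f ω| ^ 2 - (2 * A) * |F i ω - f ω| + A ^ 2) ∂P =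
        ∫ ω, (|F i ω - f ω| ^ 2 - (2 * A) * |F i ω - f ω|) ∂P + ∫ _, A ^ 2 ∂P :=
      integral_add (hi2.sub (hi1.const_mul _)) (integrable_const _)
    have e2 : ∫ ω, (|F i ω - f ω| ^ 2 - (2 * A) * |F i ω - f ω|) ∂P =
        ∫ ω, |F i ω - f ω| ^ 2 ∂P - ∫ ω, (2 * A) * |F i ω - f ω| ∂P :=
      integral_sub hi2 (hi1.const_mul _)
    simp_rw [e]
    rw [e1, e2, integral_const_mul, integral_const, probReal_univ, ← hA]
    simp only [sq_abs, smul_eq_mul, one_mul]
    ring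
  linarith

end LC

theorem af_lip {θ : ℝ} (hθ : 0 ≤ θ) (hθ1 : θ < 1) (s t : ℝ) (hs : |s| ≤ 1) (ht : |t| ≤ 1) :
    |θ * af θ s - θ * af θ t| ≤ 2 / (1 - θ ^ 2) * |s - t| := by
  have h0 : 0 < 1 - θ ^ 2 := by nlinarith
  have hs2 : s ^ 2 ≤ 1 := by rw [← sq_abs]; nlinarith [abs_nonneg s]
  have ht2 : t ^ 2 ≤ 1 := by rw [← sq_abs]; nlinarith [abs_nonneg t]
  have h1 : 1 - θ ^ 2 ≤ 1 - θ ^ 2 * s ^ 2 := by nlinarith [sq_nonneg θ]
  have h2 : 1 - θ ^ 2 ≤ 1 - θ ^ 2 * t ^ 2 := by nlinarith [sq_nonneg θ]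
  have h1' : 0 < 1 - θ ^ 2 * s ^ 2 := h0.trans_le h1
  have h2' : 0 < 1 - θ ^ 2 * t ^ 2 := h0.trans_le h2
  have e : θ * af θ s - θ * af θ t =
      θ * ((1 - θ ^ 2) * (t + s) / ((1 - θ ^ 2 * s ^ 2) * (1 - θ ^ 2 * t ^ 2))) * (t - s) := by
    unfold af
    field_simp
    ring
  rw [e, abs_mul, abs_mul, abs_of_nonneg hθ, abs_sub_comm s t]
  apply mul_le_mul_of_nonneg_right _ (abs_nonneg _)
  have h3 : |(1 - θ ^ 2) * (t + s) / ((1 - θ ^ 2 * s ^ 2) * (1 - θ ^ 2 * t ^ 2))| ≤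
      2 / (1 - θ ^ 2) := by
    rw [abs_div, abs_mul, abs_of_pos h0, abs_of_pos (mul_pos h1' h2'),
      div_le_div_iff₀ (mul_pos h1' h2') h0]
    have h4 : |t + s| ≤ 2 := (abs_add_le _ _).trans (by linarith)
    have h5 : (1 - θ ^ 2) * (1 - θ ^ 2) ≤ (1 - θ ^ 2 * s ^ 2) * (1 - θ ^ 2 * t ^ 2) :=
      mul_le_mul h1 h2 h0.le h1'.le
    calc (1 - θ ^ 2) * |t + s| * (1 - θ ^ 2) = |t + s| * ((1 - θ ^ 2) * (1 - θ ^ 2)) := by ring
      _ ≤ 2 * ((1 - θ ^ 2 * s ^ 2) * (1 - θ ^ 2 * t ^ 2)) :=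
          mul_le_mul h4 h5 (by positivity) (by norm_num)
  calc θ * |(1 - θ ^ 2) * (t + s) / ((1 - θ ^ 2 * s ^ 2) * (1 - θ ^ 2 * t ^ 2))|
      ≤ 1 * (2 / (1 - θ ^ 2)) := mul_le_mul hθ1.le h3 (abs_nonneg _) zero_le_one
    _ = _ := one_mul _

theorem af_bd {θ : ℝ} (hθ : 0 ≤ θ) (hθ1 : θ < 1) (s : ℝ) (hs : |s| ≤ 1) :
    0 ≤ θ * af θ s ∧ θ * af θ s ≤ θ := by
  have h0 : 0 < 1 - θ ^ 2 := by nlinarith
  have hs2 : s ^ 2 ≤ 1 := by rw [← sq_abs]; nlinarith [abs_nonneg s]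
  have h1 : 1 - θ ^ 2 ≤ 1 - θ ^ 2 * s ^ 2 := by nlinarith [sq_nonneg θ]
  have h1' : 0 < 1 - θ ^ 2 * s ^ 2 := h0.trans_le h1
  have h2 : 0 ≤ af θ s := div_nonneg (by linarith) h1'.le
  have h3 : af θ s ≤ 1 := by
    unfold af
    rw [div_le_one h1']
    nlinarith [sq_nonneg s]
  exact ⟨mul_nonneg hθ h2, by nlinarith⟩

/-! ### Limits of the finite volume quantities -/

section lims

variable [Countable V] (hb : 2 ≤ b) (T : RTree V b) {θ : ℝ} (hθ : 0 ≤ θ) (hθ1 : θ < 1)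
  {μ : Measure (V → Bool)} (hμ : IsFreeIsing T.G θ μ) {X : Om V → ℕ × V → I} (hX : IsLim μ X)

include hb hθ hθ1 hμ hX

theorem lc_MD (k : ℕ) (r : ℝ) (v : V) : LC (PO V) atTop
    (fun (D : Finset V) ω => MD μ D ω.1 ω.2 k r v)
    (fun ω => Mh T μ v (fld ω.1 (X ω) k r)) := by
  have := hμ.prob
  refine LC.of_sq (fun D => ?_) ?_ (fun D ω => IsoAux.abs_MD_le _ _ _ _ _ _ _)
    (fun ω => abs_Mh_le T μ v _) (tendsto_mean hb T hθ hθ1 hμ hX k r v)
  · exact measurable_MD μ D measurable_fst measurable_snd measurable_const k v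
  · exact (measurable_Mh T μ v).comp
      (measurable_fld measurable_fst hX.meas measurable_const k)

theorem lc_cavity (k : ℕ) (r : ℝ) {u x : V} (h : T.G.Adj u x) : LC (PO V) atTop
    (fun (D : Finset V) ω => mean μ (T.inter D u x) x (fld ω.1 (sol μ D ω.1 ω.2) k r))
    (fun ω => th T μ u x (fld ω.1 (X ω) k r)) := by
  have := hμ.prob
  refine LC.of_sq (fun D => ?_) ?_ (fun D ω => CovAux.abs_mean_le _ _ _ _)
    (fun ω => abs_th_le T μ u x _) (tendsto_cavity hb T hθ hθ1 hμ hX k r h)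
  · exact (measurable_mean μ _ x).comp (measurable_fld measurable_fst
      (measurable_sol μ D measurable_fst measurable_snd) measurable_const k)
  · exact (measurable_th T μ u x).comp
      (measurable_fld measurable_fst hX.meas measurable_const k)

theorem lc_ppN (k : ℕ) (r : ℝ) (w : V) (n : ℕ) : ∀ v : V, T.G.dist v w = n → LC (PO V) atTop
    (fun (D : Finset V) ω => ppN T (fun u x => θ * af θ
      (mean μ (T.inter D u x) x (fld ω.1 (sol μ D ω.1 ω.2) k r))) n v w)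
    (fun ω => ppN T (fun u x => θ * af θ (th T μ u x (fld ω.1 (X ω) k r))) n v w) := by
  have := hμ.prob
  induction n with
  | zero =>
    intro v _
    simp only [ppN]
    exact LC.const 1
  | succ n ih =>
    intro v hv
    obtain ⟨hadj, hd⟩ := FinAux.nxt_spec T hv
    simp only [ppN]
    refine LC.mul ?_ (ih _ hd)
    have hφ : Measurable fun t : ℝ => θ * af θ t := by unfold af; fun_prop
    exact LC.comp (lc_cavity hb T hθ hθ1 hμ hX k r hadj)
      (fun D ω => CovAux.abs_mean_le _ _ _ _) (fun ω => abs_th_le T μ _ _ _) hφ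
      (fun s t hs ht => af_lip hθ hθ1 s t hs ht) (C := 1) (fun s hs => by
        obtain ⟨h1, h2⟩ := af_bd hθ hθ1 s hs
        rw [abs_of_nonneg h1]
        linarith)

theorem lc_cov (k : ℕ) (r : ℝ) (v w : V) : LC (PO V) atTop
    (fun (D : Finset V) ω => cov μ D v w (fld ω.1 (sol μ D ω.1 ω.2) k r))
    (fun ω => Ch T θ μ v w (fld ω.1 (X ω) k r)) := by
  have h1 := (((LC.const (P := PO V) (l := (atTop : Filter (Finset V))) 1).sub
    (lc_MD hb T hθ hθ1 hμ hX k r v).sq).mul (lc_ppN hb T hθ hθ1 hμ hX k r w _ v rfl))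
  have e : (fun (D : Finset V) (ω : Om V) => cov μ D v w (fld ω.1 (sol μ D ω.1 ω.2) k r)) =
      fun (D : Finset V) (ω : Om V) => (1 - MD μ D ω.1 ω.2 k r v ^ 2) *
        ppN T (fun u x => θ * af θ (mean μ (T.inter D u x) x
          (fld ω.1 (sol μ D ω.1 ω.2) k r))) (T.G.dist v w) v w := by
    funext D ω
    exact cov_eq T hθ hθ1 hμ D _ v w
  rw [e]
  exact h1

end lims

theorem lc_sol [Countable V] {μ : Measure (V → Bool)} [IsProbabilityMeasure μ]
    {X : Om V → ℕ × V → I} (hX : IsLim μ X) (j : ℕ × V) : LC (PO V) atTop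
    (fun (D : Finset V) ω => (sol μ D ω.1 ω.2 j : ℝ)) (fun ω => (X ω j : ℝ)) := by
  have h1 : ∀ a : I, |(a : ℝ)| ≤ 1 := fun a => by
    rw [abs_of_nonneg a.2.1]; exact a.2.2
  refine ⟨fun D => ?_, ?_, ⟨1, zero_le_one, fun D ω => h1 _, fun ω => h1 _⟩, hX.lim j⟩
  · exact measurable_subtype_coe.comp
      (measurable_pi_iff.mp (measurable_sol μ D measurable_fst measurable_snd) j)
  · exact measurable_subtype_coe.comp ((measurable_pi_apply j).comp hX.meas)

section two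

variable [Countable V] (hb : 2 ≤ b) (T : RTree V b) {θ θ' : ℝ} (hθ : 0 ≤ θ) (hθ1 : θ < 1)
  (hθ' : 0 ≤ θ') (hθ1' : θ' < 1) {μ μ' : Measure (V → Bool)} (hμ : IsFreeIsing T.G θ μ)
  (hμ' : IsFreeIsing T.G θ' μ') {X X' : Om V → ℕ × V → I} (hX : IsLim μ X) (hX' : IsLim μ' X')

include hb hθ hθ1 hθ' hθ1' hμ hμ' hX hX'

theorem tendsto_DD (k : ℕ) (r : ℝ) (v : V) :
    Tendsto (fun D : Finset V => DD μ μ' D k r v) atTop (𝓝 (Dinf T μ μ' X X' k r v)) :=
  ((lc_MD hb T hθ hθ1 hμ hX k r v).sub (lc_MD hb T hθ' hθ1' hμ' hX' k r v)).sq.integral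

theorem lc_Gam (k : ℕ) (r : ℝ) (v w : V) : LC (PO V) atTop
    (fun (D : Finset V) ω => IntAux.Gam μ μ' D k v w r ω)
    (fun ω => (Ch T θ μ v w (fld ω.1 (X ω) k r) - Ch T θ' μ' v w (fld ω.1 (X' ω) k r)) ^ 2 +
      Ch T θ' μ' v w (fld ω.1 (X' ω) k r) ^ 2 *
      (Mh T μ w (fld ω.1 (X ω) k r) - Mh T μ' w (fld ω.1 (X' ω) k r)) ^ 2) := by
  have c1 := lc_cov hb T hθ hθ1 hμ hX k r v w
  have c2 := lc_cov hb T hθ' hθ1' hμ' hX' k r v w
  have m1 := lc_MD hb T hθ hθ1 hμ hX k r w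
  have m2 := lc_MD hb T hθ' hθ1' hμ' hX' k r w
  exact (c1.sub c2).sq.add (c2.sq.mul (m1.sub m2).sq)

/-- the bound of the integrand -/
theorem Gam_dist_le (D : Finset V) (k : ℕ) (r : ℝ) (v w : V) (ω : Om V) :
    IntAux.Gam μ μ' D k v w r ω ≤ 8 * ((max θ θ') ^ T.G.dist v w) ^ 2 := by
  have := hμ.prob
  have := hμ'.prob
  set q := (max θ θ') ^ T.G.dist v w with hq
  have hq0 : 0 ≤ q := pow_nonneg (hθ.trans (le_max_left _ _)) _
  have hc : ∀ {θ : ℝ} {μ : Measure (V → Bool)}, 0 ≤ θ → θ < 1 → IsFreeIsing T.G θ μ → ∀ Y,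
      |cov μ D v w Y| ≤ θ ^ T.G.dist v w := by
    intro θ μ hθ hθ1 hμ Y
    refine (cov_bound T.tree T.fin hθ hθ1 hμ D Y v w).trans ?_
    have : 1 - mean μ D w Y ^ 2 ≤ 1 := by nlinarith [sq_nonneg (mean μ D w Y)]
    exact mul_le_of_le_one_right (pow_nonneg hθ _) this
  have h1 : |cov μ D v w (fld ω.1 (sol μ D ω.1 ω.2) k r)| ≤ q :=
    (hc hθ hθ1 hμ _).trans (pow_le_pow_left₀ hθ (le_max_left _ _) _)
  have h2 : |cov μ' D v w (fld ω.1 (sol μ' D ω.1 ω.2) k r)| ≤ q :=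
    (hc hθ' hθ1' hμ' _).trans (pow_le_pow_left₀ hθ' (le_max_right _ _) _)
  have h3 := abs_le.mp (IsoAux.abs_MD_le μ D ω.1 ω.2 k r w)
  have h4 := abs_le.mp (IsoAux.abs_MD_le μ' D ω.1 ω.2 k r w)
  unfold IntAux.Gam
  set C := cov μ D v w (fld ω.1 (sol μ D ω.1 ω.2) k r)
  set C' := cov μ' D v w (fld ω.1 (sol μ' D ω.1 ω.2) k r)
  set M := MD μ D ω.1 ω.2 k r w
  set M' := MD μ' D ω.1 ω.2 k r w
  have h1' := abs_le.mp h1
  have h2' := abs_le.mp h2
  have e1 : (C - C') ^ 2 ≤ (2 * q) ^ 2 := sq_le_sq' (by linarith) (by linarith)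
  have e2 : C' ^ 2 ≤ q ^ 2 := sq_le_sq' (by linarith) (by linarith)
  have e3 : (M - M') ^ 2 ≤ 2 ^ 2 := sq_le_sq' (by linarith) (by linarith)
  have e4 : C' ^ 2 * (M - M') ^ 2 ≤ q ^ 2 * 2 ^ 2 :=
    mul_le_mul e2 e3 (sq_nonneg _) (sq_nonneg _)
  nlinarith

theorem tendsto_RD (h1 : b * θ ^ 2 < 1) (h1' : b * θ' ^ 2 < 1) (k : ℕ) (u : ℝ) (v : V) :
    Tendsto (fun D : Finset V => ENNReal.ofReal (RD μ μ' D k u v)) atTop
      (𝓝 (Rinf T θ θ' μ μ' X X' k u v)) ∧
    ∀ D : Finset V, RD μ μ' D k u v ≤ ∑' w, 8 * ((max θ θ') ^ T.G.dist v w) ^ 2 := by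
  classical
  have := hμ.prob
  have := hμ'.prob
  set q : V → ℝ := fun w => 8 * ((max θ θ') ^ T.G.dist v w) ^ 2 with hq
  have hq0 : ∀ w, 0 ≤ q w := fun w => by positivity
  have hqs : Summable q := by
    have hr0 : 0 ≤ max θ θ' := hθ.trans (le_max_left _ _)
    refine (kernel_summable T.tree (d := b + 1) (by omega) T.fin (fun v => ?_) hr0 ?_
      v).mul_left 8
    · have e : T.G.neighborSet v = (T.nb v : Set V) := by
        ext w
        rw [SimpleGraph.mem_neighborSet, Finset.mem_coe, T.mem_nb]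
      rw [e, Set.ncard_coe_finset, T.card_nb]
    · push_cast
      rw [add_sub_cancel_right]
      rcases max_cases θ θ' with ⟨h, _⟩ | ⟨h, _⟩ <;> rw [h] <;> assumption
  set a : Finset V → V → ℝ := fun D w =>
    if w ∈ D then ∫ ω, IntAux.Gam μ μ' D k v w u ω ∂(PO V) else 0 with ha
  set g : V → Om V → ℝ := fun w ω =>
    (Ch T θ μ v w (fld ω.1 (X ω) k u) - Ch T θ' μ' v w (fld ω.1 (X' ω) k u)) ^ 2 +
      Ch T θ' μ' v w (fld ω.1 (X' ω) k u) ^ 2 *
      (Mh T μ w (fld ω.1 (X ω) k u) - Mh T μ' w (fld ω.1 (X' ω) k u)) ^ 2 with hg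
  have hlc : ∀ w, LC (PO V) atTop (fun (D : Finset V) ω => IntAux.Gam μ μ' D k v w u ω) (g w) :=
    fun w => lc_Gam hb T hθ hθ1 hθ' hθ1' hμ hμ' hX hX' k u v w
  have hint0 : ∀ D w, 0 ≤ ∫ ω, IntAux.Gam μ μ' D k v w u ω ∂(PO V) := fun D w =>
    integral_nonneg fun ω => IntAux.Gam_nonneg _ _ _ _ _ _ _ _
  have hintle : ∀ D w, ∫ ω, IntAux.Gam μ μ' D k v w u ω ∂(PO V) ≤ q w := by
    intro D w
    calc ∫ ω, IntAux.Gam μ μ' D k v w u ω ∂(PO V) ≤ ∫ _, q w ∂(PO V) :=
          integral_mono ((hlc w).integrable D) (integrable_const _) fun ω =>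
            Gam_dist_le hb T hθ hθ1 hθ' hθ1' hμ hμ' hX hX' D k u v w ω
      _ = q w := by simp
  have ha0 : ∀ D w, 0 ≤ a D w := by
    intro D w
    simp only [ha]
    split_ifs
    · exact hint0 D w
    · exact le_rfl
  have haq : ∀ D w, a D w ≤ q w := by
    intro D w
    simp only [ha]
    split_ifs
    · exact hintle D w
    · exact hq0 w
  have hRD : ∀ D, RD μ μ' D k u v = ∑' w, a D w := by
    intro D
    rw [IntAux.RD_eq_Gam, tsum_eq_sum (s := D) (fun w hw => if_neg hw)]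
    exact Finset.sum_congr rfl fun w hw => (if_pos hw).symm
  have hlim : Tendsto (fun D : Finset V => ∑' w, a D w) atTop (𝓝 (∑' w, ∫ ω, g w ω ∂(PO V))) := by
    refine tendsto_tsum_of_dominated_convergence hqs (fun w => ?_)
      (Eventually.of_forall fun D w => ?_)
    · refine (hlc w).integral.congr' ?_
      filter_upwards [eventually_ge_atTop ({w} : Finset V)] with D hD
      have : w ∈ D := hD (Finset.mem_singleton_self w)
      simp only [ha, if_pos this]
    · rw [Real.norm_eq_abs, abs_of_nonneg (ha0 D w)]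
      exact haq D w
  have hg0 : ∀ w ω, 0 ≤ g w ω := fun w ω => by
    simp only [hg]
    positivity
  have hgle : ∀ w, ∫ ω, g w ω ∂(PO V) ≤ q w := fun w =>
    le_of_tendsto (hlc w).integral (Eventually.of_forall fun D => hintle D w)
  constructor
  · have e : Rinf T θ θ' μ μ' X X' k u v = ENNReal.ofReal (∑' w, ∫ ω, g w ω ∂(PO V)) := by
      rw [ENNReal.ofReal_tsum_of_nonneg (fun w => integral_nonneg (hg0 w))
        (Summable.of_nonneg_of_le (fun w => integral_nonneg (hg0 w)) hgle hqs)]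
      unfold Rinf
      refine tsum_congr fun w => ?_
      rw [ofReal_integral_eq_lintegral_ofReal (hlc w).integrable' (ae_of_all _ (hg0 w))]
    rw [e]
    refine ((ENNReal.continuous_ofReal.tendsto _).comp hlim).congr fun D => ?_
    rw [Function.comp_apply, hRD D]
  · intro D
    rw [hRD D]
    exact Summable.tsum_le_tsum (haq D)
      (Summable.of_nonneg_of_le (ha0 D) (haq D) hqs) hqs

end two

/-- the mean square difference of the signals in finite volume -/
theorem sol_diff_le [Countable V] (μ μ' : Measure (V → Bool)) [IsProbabilityMeasure μ]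
    [IsProbabilityMeasure μ'] (D : Finset V) (k : ℕ) {v : V} (hv : v ∈ D) :
    ∫ ω, ((sol μ D ω.1 ω.2 (k, v) : ℝ) - sol μ' D ω.1 ω.2 (k, v)) ^ 2 ∂(PO V) ≤
      DD μ μ' D k (1 / 2) v := by
  classical
  set G : I → (ℕ × V → I) → ℝ := fun a U =>
    ∫ s, (MD μ D U s k a v - MD μ' D U s k a v) ^ 2 ∂(iid (ℕ × V)) with hG
  set φ : I → ℝ := fun a => if (a : ℝ) ≤ 1 / 2 then 1 else 0 with hφ
  have hφm : Measurable φ := Measurable.ite
    (measurableSet_le measurable_subtype_coe measurable_const) measurable_const measurable_const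
  have hφ0 : ∀ a, 0 ≤ φ a := fun a => by simp only [hφ]; split_ifs <;> norm_num
  have hφ1 : ∀ a, φ a ≤ 1 := fun a => by simp only [hφ]; split_ifs <;> norm_num
  have hφ2 : ∀ a : I, φ a ≠ 0 → (a : ℝ) ≤ 1 / 2 := by
    intro a ha
    by_contra h
    exact ha (if_neg h)
  have hmd : Measurable fun p : (I × (ℕ × V → I)) × (ℕ × V → I) =>
      (MD μ D p.1.2 p.2 k p.1.1 v - MD μ' D p.1.2 p.2 k p.1.1 v) ^ 2 := by
    have hU : Measurable fun p : (I × (ℕ × V → I)) × (ℕ × V → I) => p.1.2 :=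
      measurable_snd.comp measurable_fst
    have hr : Measurable fun p : (I × (ℕ × V → I)) × (ℕ × V → I) => (p.1.1 : ℝ) :=
      measurable_subtype_coe.comp (measurable_fst.comp measurable_fst)
    exact ((measurable_MD μ D hU measurable_snd hr k v).sub
      (measurable_MD μ' D hU measurable_snd hr k v)).pow_const 2
  have hsq : ∀ (U s : ℕ × V → I) (a : ℝ), (MD μ D U s k a v - MD μ' D U s k a v) ^ 2 ≤ 4 := by
    intro U s a
    have h1 := abs_le.mp (IsoAux.abs_MD_le μ D U s k a v)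
    have h2 := abs_le.mp (IsoAux.abs_MD_le μ' D U s k a v)
    have : (MD μ D U s k a v - MD μ' D U s k a v) ^ 2 ≤ 2 ^ 2 :=
      sq_le_sq' (by linarith) (by linarith)
    linarith
  have hGm : Measurable fun p : I × (ℕ × V → I) => G p.1 p.2 :=
    (hmd.stronglyMeasurable.integral_prod_right' (ν := iid (ℕ × V))).measurable
  have hG0 : ∀ a U, 0 ≤ G a U := fun a U => integral_nonneg fun _ => sq_nonneg _
  have hG4 : ∀ a U, G a U ≤ 4 := by
    intro a U
    have h := norm_integral_le_of_norm_le_const (μ := iid (ℕ × V)) (C := 4)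
      (f := fun s => (MD μ D U s k a v - MD μ' D U s k a v) ^ 2)
      (Eventually.of_forall fun s => by
        rw [Real.norm_eq_abs, abs_of_nonneg (sq_nonneg _)]
        exact hsq U s a)
    have h1 := (le_abs_self _).trans h
    simpa [hG] using h1
  have hGi : ∀ (a a' : I) U, a ≤ a' →
      G a (Function.update U (k, v) a) = G a (Function.update U (k, v) a') := by
    intro a a' U h
    simp only [hG]
    congr 1
    funext s
    unfold MD
    rw [mean_congr μ v (IntAux.state_label μ D U s k v h),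
      mean_congr μ' v (IntAux.state_label μ' D U s k v h)]
  have hlab := IntAux.label_int (k, v) (G := G) (B := 4) hGm hG0 hG4 hGi hφm hφ0 hφ1 hφ2
  -- the pointwise bound
  have hpt : ∀ U s : ℕ × V → I, ((sol μ D U s (k, v) : ℝ) - sol μ' D U s (k, v)) ^ 2 ≤
      1 / 4 * (φ (U (k, v)) * (MD μ D U s k (U (k, v)) v - MD μ' D U s k (U (k, v)) v) ^ 2) := by
    intro U s
    rw [sol_fix μ D U s k v hv, sol_fix μ' D U s k v hv]
    have h1 := sig_lip (abs_param_le μ D U (sol μ D U s) (k, v))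
      (abs_param_le μ' D U (sol μ' D U s) (k, v)) (s (k, v))
    have h2 : param μ D U (sol μ D U s) (k, v) - param μ' D U (sol μ' D U s) (k, v) =
        str (U (k, v)) * (MD μ D U s k (U (k, v)) v - MD μ' D U s k (U (k, v)) v) := by
      unfold param MD
      ring
    obtain ⟨h3, h4⟩ := abs_str_le (U (k, v))
    set M := MD μ D U s k (U (k, v)) v - MD μ' D U s k (U (k, v)) v with hM
    rw [h2, abs_mul, abs_of_nonneg h3] at h1
    by_cases hu : (U (k, v) : ℝ) ≤ 1 / 2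
    · have e : φ (U (k, v)) = 1 := if_pos hu
      rw [e, one_mul, ← sq_abs M, ← sq_abs]
      have h5 : 5 / 16 * (str (U (k, v)) * |M|) ≤ 1 / 2 * |M| := by
        have := abs_nonneg M
        nlinarith
      calc |(sig (param μ D U (sol μ D U s) (k, v)) (s (k, v)) : ℝ) -
            sig (param μ' D U (sol μ' D U s) (k, v)) (s (k, v))| ^ 2 ≤ (1 / 2 * |M|) ^ 2 :=
            pow_le_pow_left₀ (abs_nonneg _) (h1.trans h5) 2
        _ = 1 / 4 * |M| ^ 2 := by ring
    · have e : str (U (k, v)) = 0 := str_of_half_le (not_le.mp hu).le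
      rw [e, zero_mul, mul_zero] at h1
      have h6 := abs_eq_zero.mp (le_antisymm h1 (abs_nonneg _))
      rw [h6, zero_pow two_ne_zero]
      exact mul_nonneg (by norm_num) (mul_nonneg (hφ0 _) (sq_nonneg _))
  -- measurability
  have hmp : Measurable fun ω : Om V => φ (ω.1 (k, v)) *
      (MD μ D ω.1 ω.2 k (ω.1 (k, v)) v - MD μ' D ω.1 ω.2 k (ω.1 (k, v)) v) ^ 2 := by
    have hr : Measurable fun ω : Om V => ω.1 (k, v) :=
      (measurable_pi_apply (k, v)).comp measurable_fst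
    have hr' : Measurable fun ω : Om V => (ω.1 (k, v) : ℝ) := measurable_subtype_coe.comp hr
    exact (hφm.comp hr).mul (((measurable_MD μ D measurable_fst measurable_snd hr' k v).sub
      (measurable_MD μ' D measurable_fst measurable_snd hr' k v)).pow_const 2)
  have hbd : ∀ ω : Om V, |φ (ω.1 (k, v)) *
      (MD μ D ω.1 ω.2 k (ω.1 (k, v)) v - MD μ' D ω.1 ω.2 k (ω.1 (k, v)) v) ^ 2| ≤ 4 := by
    intro ω
    rw [abs_of_nonneg (mul_nonneg (hφ0 _) (sq_nonneg _))]
    calc _ ≤ 1 * 4 := mul_le_mul (hφ1 _) (hsq _ _ _) (sq_nonneg _) zero_le_one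
      _ = 4 := one_mul _
  have hip : Integrable (fun ω : Om V => φ (ω.1 (k, v)) *
      (MD μ D ω.1 ω.2 k (ω.1 (k, v)) v - MD μ' D ω.1 ω.2 k (ω.1 (k, v)) v) ^ 2)
      ((iid (ℕ × V)).prod (iid (ℕ × V))) := EfronAux.integrable_of_bdd hmp hbd
  have hGDD : ∀ a : I, ∫ U, G a U ∂(iid (ℕ × V)) = DD μ μ' D k a v := by
    intro a
    unfold DD PO
    rw [integral_prod]
    refine EfronAux.integrable_of_bdd (((measurable_MD μ D measurable_fst measurable_snd
      measurable_const k v).sub (measurable_MD μ' D measurable_fst measurable_snd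
      measurable_const k v)).pow_const 2) (C := 4) fun ω => ?_
    rw [abs_of_nonneg (sq_nonneg _)]
    exact hsq _ _ _
  have hDD0 : 0 ≤ DD μ μ' D k (1 / 2) v := integral_nonneg fun _ => sq_nonneg _
  calc ∫ ω, ((sol μ D ω.1 ω.2 (k, v) : ℝ) - sol μ' D ω.1 ω.2 (k, v)) ^ 2 ∂(PO V)
      ≤ ∫ ω, 1 / 4 * (φ (ω.1 (k, v)) *
        (MD μ D ω.1 ω.2 k (ω.1 (k, v)) v - MD μ' D ω.1 ω.2 k (ω.1 (k, v)) v) ^ 2) ∂(PO V) := by
        refine integral_mono_of_nonneg (ae_of_all _ fun ω => sq_nonneg _) (hip.const_mul _)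
          (ae_of_all _ fun ω => hpt ω.1 ω.2)
    _ = 1 / 4 * ∫ U, φ (U (k, v)) * G (U (k, v)) U ∂(iid (ℕ × V)) := by
        rw [integral_const_mul]
        congr 1
        unfold PO
        rw [integral_prod _ hip]
        refine integral_congr_ae (ae_of_all _ fun U => ?_)
        simp only [hG]
        rw [integral_const_mul]
    _ ≤ 1 / 4 * (2 * ∫ a : I, φ a * ∫ U, G a U ∂(iid (ℕ × V))) :=
        mul_le_mul_of_nonneg_left hlab (by norm_num)
    _ ≤ 1 / 4 * (2 * ∫ _ : I, DD μ μ' D k (1 / 2) v) := by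
        refine mul_le_mul_of_nonneg_left (mul_le_mul_of_nonneg_left ?_ (by norm_num))
          (by norm_num)
        refine integral_mono_of_nonneg (ae_of_all _ fun a => ?_) (integrable_const _)
          (ae_of_all _ fun a => ?_)
        · exact mul_nonneg (hφ0 a) (integral_nonneg fun U => hG0 a U)
        · simp only
          rw [hGDD a]
          by_cases ha : (a : ℝ) ≤ 1 / 2
          · have e : φ a = 1 := if_pos ha
            rw [e, one_mul]
            exact (growth_finite μ μ' D k v a.2.1 ha le_rfl).1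
          · have e : φ a = 0 := if_neg ha
            rw [e, zero_mul]
            exact hDD0
    _ = 1 / 2 * DD μ μ' D k (1 / 2) v := by
        rw [integral_const, probReal_univ, one_smul]
        ring
    _ ≤ DD μ μ' D k (1 / 2) v := by linarith

end GrowAux

open GrowAux

section grow

variable (hb : 2 ≤ b) (T : RTree V b) {θ θ' : ℝ} (hθ : 0 ≤ θ) (hθ' : 0 ≤ θ')
  (h1 : b * θ ^ 2 < 1) (h1' : b * θ' ^ 2 < 1) {μ μ' : Measure (V → Bool)}
  (hμ : IsFreeIsing T.G θ μ) (hμ' : IsFreeIsing T.G θ' μ') {X X' : Om V → ℕ × V → I}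
  (hX : IsLim μ X) (hX' : IsLim μ' X')

include hb hθ hθ' h1 h1' hμ hμ' hX hX'

/-- Growth of the mean square difference of the magnetisations in infinite volume. -/
theorem growth_infinite (k : ℕ) (v : V) {r r' : ℝ} (hr : 0 ≤ r) (hrr : r ≤ r')
    (hr' : r' ≤ 1 / 2) :
    Dinf T μ μ' X X' k r v ≤ Dinf T μ μ' X X' k r' v ∧
    ENNReal.ofReal (Dinf T μ μ' X X' k r' v) ≤ ENNReal.ofReal (Dinf T μ μ' X X' k r v) +
      ∫⁻ u in Ioc r r', ENNReal.ofReal u * Rinf T θ θ' μ μ' X X' k u v := by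
  have hcount := T.countable
  have := hμ.prob
  have := hμ'.prob
  have hb' : (2 : ℝ) ≤ b := by exact_mod_cast hb
  have hθ1 : θ < 1 := by nlinarith
  have hθ1' : θ' < 1 := by nlinarith
  have t1 := tendsto_DD hb T hθ hθ1 hθ' hθ1' hμ hμ' hX hX' k r v
  have t2 := tendsto_DD hb T hθ hθ1 hθ' hθ1' hμ hμ' hX hX' k r' v
  refine ⟨le_of_tendsto_of_tendsto' t1 t2 fun D => (growth_finite μ μ' D k v hr hrr hr').1, ?_⟩
  have hR := fun u => tendsto_RD hb T hθ hθ1 hθ' hθ1' hμ hμ' hX hX' h1 h1' k u v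
  set S := ∑' w, 8 * ((max θ θ') ^ T.G.dist v w) ^ 2 with hS
  have t3 : Tendsto (fun D : Finset V =>
      ∫⁻ u in Ioc r r', ENNReal.ofReal u * ENNReal.ofReal (RD μ μ' D k u v)) atTop
      (𝓝 (∫⁻ u in Ioc r r', ENNReal.ofReal u * Rinf T θ θ' μ μ' X X' k u v)) := by
    refine tendsto_lintegral_filter_of_dominated_convergence
      (fun _ => ENNReal.ofReal 1 * ENNReal.ofReal S) (Eventually.of_forall fun D => ?_)
      (Eventually.of_forall fun D => ?_) ?_ ?_
    · exact ENNReal.measurable_ofReal.mul (IntAux.RD_meas μ μ' D k v).ennreal_ofReal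
    · rw [ae_restrict_iff' measurableSet_Ioc]
      refine ae_of_all _ fun u hu => ?_
      exact mul_le_mul' (ENNReal.ofReal_le_ofReal (by linarith [hu.2]))
        (ENNReal.ofReal_le_ofReal ((hR u).2 D))
    · rw [lintegral_const]
      simp only [MeasurableSet.univ, Measure.restrict_apply, Set.univ_inter, Real.volume_Ioc]
      exact ENNReal.mul_ne_top (ENNReal.mul_ne_top ENNReal.ofReal_ne_top ENNReal.ofReal_ne_top)
        ENNReal.ofReal_ne_top
    · refine ae_of_all _ fun u => ?_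
      exact ENNReal.Tendsto.const_mul (hR u).1 (Or.inr ENNReal.ofReal_ne_top)
  have t4 := (ENNReal.continuous_ofReal.tendsto _).comp t2
  have t5 := ((ENNReal.continuous_ofReal.tendsto _).comp t1).add t3
  refine le_of_tendsto_of_tendsto' t4 t5 fun D => ?_
  simp only [Function.comp_apply]
  have hg := (growth_finite μ μ' D k v hr hrr hr').2
  refine (ENNReal.ofReal_le_ofReal hg).trans ?_
  refine ENNReal.ofReal_add_le.trans (add_le_add le_rfl ?_)
  rw [intervalIntegral.integral_of_le hrr]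
  rw [integral_eq_lintegral_of_nonneg_ae]
  · refine ENNReal.ofReal_toReal_le.trans (lintegral_mono_ae ?_)
    rw [ae_restrict_iff' measurableSet_Ioc]
    refine ae_of_all _ fun u hu => ?_
    rw [ENNReal.ofReal_mul (hr.trans hu.1.le)]
  · rw [Filter.EventuallyLE, ae_restrict_iff' measurableSet_Ioc]
    refine ae_of_all _ fun u hu => ?_
    exact mul_nonneg (hr.trans hu.1.le) (IntAux.RD_nonneg _ _ _ _ _ _)
  · exact (measurable_id.mul (IntAux.RD_meas μ μ' D k v)).aestronglyMeasurable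

theorem signal_dist (j : ℕ × V) :
    ∫ ω, ((X ω j : ℝ) - X' ω j) ^ 2 ∂(PO V) ≤ Dinf T μ μ' X X' j.1 (1 / 2) j.2 := by
  have hcount := T.countable
  have := hμ.prob
  have := hμ'.prob
  have hb' : (2 : ℝ) ≤ b := by exact_mod_cast hb
  have hθ1 : θ < 1 := by nlinarith
  have hθ1' : θ' < 1 := by nlinarith
  obtain ⟨k, v⟩ := j
  have t1 := tendsto_DD hb T hθ hθ1 hθ' hθ1' hμ hμ' hX hX' k (1 / 2) v
  have t2 := ((lc_sol hX (k, v)).sub (lc_sol hX' (k, v))).sq.integral
  refine le_of_tendsto_of_tendsto t2 t1 ?_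
  filter_upwards [eventually_ge_atTop ({v} : Finset V)] with D hD
  exact sol_diff_le μ μ' D k (hD (Finset.mem_singleton_self v))

end grow

end Vale.Agent.P161E
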