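import Vale.Agent.P161E.TimeKP

/-!
# The growth inequality in time
-/

open MeasureTheory Set Filter Topology
open scoped unitInterval ENNReal

namespace Vale.Agent.P161E

open Vale.Agent.P161

universe u

namespace TI

open Vale.Agent.P161E.ST

instance instPL {V : Type u} (μ : Measure (V → Bool)) [IsProbabilityMeasure μ] :
    IsProbabilityMeasure (PL μ) := by
  unfold PL
  refine Measure.isProbabilityMeasure_map (Measurable.aemeasurable ?_)
  have h2 : Measurable (fun p : (V → Bool) × Om V => p.2.1) :=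
    measurable_fst.comp measurable_snd
  refine h2.prodMk ?_
  rw [measurable_pi_iff]
  intro j
  unfold xs
  refine measurable_sig.comp (Measurable.prodMk ?_ ?_)
  · exact (measurable_str.comp ((measurable_pi_apply j).comp h2)).mul
      ((CovAux.measurable_sgv j.2).comp measurable_fst)
  · exact (measurable_pi_apply j).comp (measurable_snd.comp measurable_snd)

theorem measurable_ec {V : Type u} {b : ℕ} (T : RTree V b) (μ : Measure (V → Bool))
    [IsProbabilityMeasure μ] (θ : ℝ) (k : ℕ) (u x : V) :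
    Measurable (fun r : ℝ => ec T μ θ k r u x) := by
  unfold ec
  have h : Measurable (fun z : ℝ × Om V => chiY T μ θ u x (fld z.2.1 z.2.2 k z.1)) :=
    (measurable_chiY T μ θ u x).comp (measurable_fld (measurable_fst.comp measurable_snd)
      (measurable_snd.comp measurable_snd) measurable_fst k)
  exact (StronglyMeasurable.integral_prod_right
    (f := fun (r : ℝ) (q : Om V) => chiY T μ θ u x (fld q.1 q.2 k r)) h.stronglyMeasurable).measurable

theorem integ_step {Ds Dt A B C s t : ℝ} {g : ℝ → ℝ≥0∞} {Z : ℝ → ℝ} (hDs : 0 ≤ Ds)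
    (hst : s ≤ t) (hA : 0 ≤ A) (hB : 0 ≤ B) (mZ : Measurable Z) (hZ0 : ∀ u, 0 ≤ Z u)
    (hZC : ∀ u ∈ Ioc s t, Z u ≤ C)
    (h : ENNReal.ofReal Dt ≤ ENNReal.ofReal Ds + ∫⁻ u in Ioc s t, g u)
    (hg : ∀ u ∈ Ioc s t, g u ≤ ENNReal.ofReal (A + B * Z u)) :
    Dt - Ds ≤ (t - s) * A + B * ∫ u in s..t, Z u := by
  have iZ : IntegrableOn Z (Ioc s t) := by
    refine Measure.integrableOn_of_bounded (M := C) (by simp) mZ.aestronglyMeasurable ?_
    refine (ae_restrict_iff' measurableSet_Ioc).mpr (ae_of_all _ fun u hu => ?_)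
    rw [Real.norm_eq_abs, abs_of_nonneg (hZ0 u)]
    exact hZC u hu
  have iA : IntegrableOn (fun _ : ℝ => A) (Ioc s t) := by simp
  have iF : IntegrableOn (fun u => A + B * Z u) (Ioc s t) := iA.add (iZ.const_mul B)
  have h1 : ∫⁻ u in Ioc s t, g u ≤ ENNReal.ofReal ((t - s) * A + B * ∫ u in s..t, Z u) := by
    have h2 : ∫⁻ u in Ioc s t, g u ≤ ∫⁻ u in Ioc s t, ENNReal.ofReal (A + B * Z u) :=
      setLIntegral_mono' measurableSet_Ioc hg
    refine h2.trans (le_of_eq ?_)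
    rw [← ofReal_integral_eq_lintegral_ofReal iF
      (ae_of_all _ fun u => add_nonneg hA (mul_nonneg hB (hZ0 u)))]
    congr 1
    rw [integral_add iA (iZ.const_mul B), integral_const_mul,
      intervalIntegral.integral_of_le hst]
    simp [hst]
  have hI0 : 0 ≤ ∫ u in s..t, Z u :=
    intervalIntegral.integral_nonneg hst fun u _ => hZ0 u
  have hR : 0 ≤ (t - s) * A + B * ∫ u in s..t, Z u :=
    add_nonneg (mul_nonneg (by linarith) hA) (mul_nonneg hB hI0)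
  have h3 := h.trans (add_le_add le_rfl h1)
  rw [← ENNReal.ofReal_add hDs hR, ENNReal.ofReal_le_ofReal_iff (add_nonneg hDs hR)] at h3
  linarith

/-- `0 ≤ ec ≤ K / ρ⁴` -/
theorem ec_bound {V : Type u} {b : ℕ} {T : RTree V b} {s : I → (ℕ → I) × (ℕ → I)}
    (hs : Measurable s) (hl : Measure.map (seedMap s) (iid V) = PO V) {θ : ℝ}
    {μ : Measure (V → Bool)} (hμ : IsFreeIsing T.G θ μ) {X : Om V → ℕ × V → I} (hX : IsLim μ X)
    {k : ℕ} {r : ℝ} {K c M ρ : ℝ} (hθ : 0 ≤ θ) (h1 : b * θ ^ 2 ≤ 1) (h2 : 1 / 2 ≤ b * θ ^ 2)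
    (h : SC T K c M θ ρ μ (Measure.map (fun q : Om V => fld q.1 q.2 k r) (PL μ))) {u x : V}
    (hux : T.G.Adj u x) : 0 ≤ ec T μ θ k r u x ∧ ec T μ θ k r u x ≤ K / ρ ^ 4 := by
  have := T.countable
  have := hμ.prob
  have R := rep hs hl hμ hX (st_law hs hl hX k r) h hθ h1 h2
  rw [← ec_eq hs hl hμ hX h hux]
  constructor
  · exact integral_nonneg fun W => zero_le_one.trans (R.χ1 u x W)
  · have l := PR.memLp_of_four (R.equi_χ.meas u x) (R.χ1 u x) (R.int_χ u x hux)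
    refine le_trans (integral_mono (l.integrable one_le_two) (R.int_χ u x hux) fun W => ?_)
      (R.mom_χ u x hux)
    exact le_self_pow₀ (R.χ1 u x W) (by norm_num)

end TI

open Vale.Agent.P161E.ST Vale.Agent.P161E.TI in
theorem time_ineq {b : ℕ} (hb : 2 ≤ b) : ∃ K c : ℝ, 1 ≤ K ∧ 0 < c ∧
    ∀ (V : Type u) (T : RTree V b) (θ θ' : ℝ) (μ μ' : Measure (V → Bool))
      (X X' : Om V → ℕ × V → I), 0 ≤ θ → 1 / 2 ≤ b * θ ^ 2 → b * θ ^ 2 < 1 →
    0 ≤ θ' → 1 / 2 ≤ b * θ' ^ 2 → b * θ' ^ 2 < 1 →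
    IsFreeIsing T.G θ μ → IsFreeIsing T.G θ' μ' → IsLim μ X → IsLim μ' X' →
    ∀ v u x, T.G.Adj u x →
    (∀ r, 0 ≤ r → r ≤ 1 / 2 → Dinf T μ μ' X X' 0 r v ≤ K * r) ∧
    (∀ k, Dinf T μ μ' X X' (k + 1) 0 v = Dinf T μ μ' X X' k (1 / 2) v) ∧
    (∀ p : ℝ, 2 ≤ p → ∀ s t : ℝ, 0 < s → s ≤ t → t ≤ 1 / 2 →
      Dinf T μ μ' X X' 0 t v - Dinf T μ μ' X X' 0 s v ≤
        (t - s) * (K * p * (1 + Real.log p) * Dinf T μ μ' X X' 0 t v +
          K * p ^ 2 / s ^ 3 * (Real.exp (-(c * p)) + (θ - θ') ^ 2)) +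
        K * p ^ 2 / s ^ 3 * ∫ r in s..t, (ec T μ θ 0 r u x - ec T μ' θ' 0 r u x) ^ 2) ∧
    (∀ k, ∀ p : ℝ, 2 ≤ p → ∀ s t : ℝ, 0 ≤ s → s ≤ t → t ≤ 1 / 2 →
      Dinf T μ μ' X X' (k + 1) t v - Dinf T μ μ' X X' (k + 1) s v ≤
        (t - s) * (K * p * (1 + Real.log p) * Dinf T μ μ' X X' (k + 1) t v +
          K * p ^ 2 * (Real.exp (-(c * p)) + (θ - θ') ^ 2)) +
        K * p ^ 2 * ∫ r in s..t, (ec T μ θ (k + 1) r u x - ec T μ' θ' (k + 1) r u x) ^ 2) := by
  obtain ⟨K0, c0, M, hK0, hc0, hM, hsingle⟩ := single.{u} hb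
  obtain ⟨K, c, hK, hc, hKP⟩ := KP.{u} hb hK0 hc0 hM
  refine ⟨8 * K + 4 * K0, c, by linarith, hc, ?_⟩
  intro V T θ θ' μ μ' X X' hθ hθ2 hθ1 hθ' hθ2' hθ1' hμ hμ' hX hX' v u x hux
  have hV := T.countable
  have hpμ := hμ.prob
  have hpμ' := hμ'.prob
  obtain ⟨s₀, hs, hl⟩ := exists_seeds V
  have hl : Measure.map (seedMap s₀) (iid V) = PO V := hl
  -- the single replica statements
  have sc0 : ∀ (θ : ℝ) (μ : Measure (V → Bool)), 0 ≤ θ → 1 / 2 ≤ b * θ ^ 2 → b * θ ^ 2 < 1 →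
      IsFreeIsing T.G θ μ → ∀ r : ℝ, 0 < r → r ≤ 1 / 2 →
      SC T K0 c0 M θ r μ (Measure.map (fun q : Om V => fld q.1 q.2 0 r) (PL μ)) := by
    intro θ μ h1 h2 h3 h4 r hr0 hr
    have := h4.prob
    obtain ⟨ν, hν, hpl, hz, _⟩ := planted_fld (μ := μ) 0 hr0.le hr
    obtain ⟨z1, z2, z3⟩ := hz rfl
    exact hsingle V T θ r μ ν _ h1 h2 h3.le h4 hν hpl hr0 hr z1 (Or.inl ⟨z2, z3⟩)
  have sc1 : ∀ (θ : ℝ) (μ : Measure (V → Bool)), 0 ≤ θ → 1 / 2 ≤ b * θ ^ 2 → b * θ ^ 2 < 1 →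
      IsFreeIsing T.G θ μ → ∀ (k : ℕ) (r : ℝ), 0 ≤ r → r ≤ 1 / 2 →
      SC T K0 c0 M θ (1 / 2) μ
        (Measure.map (fun q : Om V => fld q.1 q.2 (k + 1) r) (PL μ)) := by
    intro θ μ h1 h2 h3 h4 k r hr0 hr
    have := h4.prob
    obtain ⟨ν, hν, hpl, _, hz⟩ := planted_fld (μ := μ) (k + 1) hr0 hr
    have z1 := hz (Nat.succ_pos k)
    exact hsingle V T θ (1 / 2) μ ν _ h1 h2 h3.le h4 hν hpl (by norm_num) le_rfl
      (by norm_num at z1 ⊢; exact z1) (Or.inr rfl)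
  have growth := fun (k : ℕ) (r r' : ℝ) (h1 : 0 ≤ r) (h2 : r ≤ r') (h3 : r' ≤ 1 / 2) =>
    growth_infinite hb T hθ hθ' hθ1 hθ1' hμ hμ' hX hX' k v h1 h2 h3
  have hD0 : ∀ k r, 0 ≤ Dinf T μ μ' X X' k r v := fun k r => by
    rw [Dinf_eq hs hl hX hX']
    exact integral_nonneg fun W => sq_nonneg _
  have mec := measurable_ec T μ θ
  have mec' := measurable_ec T μ' θ'
  -- small times
  have hsmall : ∀ r, 0 < r → r ≤ 1 / 2 → Dinf T μ μ' X X' 0 r v ≤ 4 * K0 * r := by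
    intro r hr0 hr
    have a1 := (sc0 θ μ hθ hθ2 hθ1 hμ r hr0 hr).2.2.2.2.2.2.2 v
    have a2 := (sc0 θ' μ' hθ' hθ2' hθ1' hμ' r hr0 hr).2.2.2.2.2.2.2 v
    have mst := measurable_st hs hX 0 r
    have mst' := measurable_st hs hX' 0 r
    rw [← integral_st mst (st_law hs hl hX 0 r) ((measurable_Mh T μ v).pow_const 2)] at a1
    rw [← integral_st mst' (st_law hs hl hX' 0 r) ((measurable_Mh T μ' v).pow_const 2)] at a2
    have ib : ∀ f : (V → I) → ℝ, Measurable f → (∀ W, |f W| ≤ 1) →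
        Integrable (fun W => f W ^ 2) (iid V) := by
      intro f hf hb
      refine Integrable.of_bound (C := 1) (hf.pow_const 2).aestronglyMeasurable
        (ae_of_all _ fun W => ?_)
      rw [Real.norm_eq_abs, abs_of_nonneg (sq_nonneg _)]
      exact (sq_le_one_iff_abs_le_one _).mpr (hb W)
    have i1 := ib (fun W => Mh T μ v (st s₀ X 0 r W)) ((measurable_Mh T μ v).comp mst)
      fun W => abs_Mh_le T μ v _
    have i2 := ib (fun W => Mh T μ' v (st s₀ X' 0 r W)) ((measurable_Mh T μ' v).comp mst')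
      fun W => abs_Mh_le T μ' v _
    rw [Dinf_eq hs hl hX hX']
    have hle : ∫ W, (mm T μ s₀ X 0 r v W - mm T μ' s₀ X' 0 r v W) ^ 2 ∂(iid V) ≤
        ∫ W, (2 * Mh T μ v (st s₀ X 0 r W) ^ 2 + 2 * Mh T μ' v (st s₀ X' 0 r W) ^ 2)
          ∂(iid V) := by
      refine integral_mono_of_nonneg (ae_of_all _ fun W => sq_nonneg _)
        ((i1.const_mul 2).add (i2.const_mul 2)) (ae_of_all _ fun W => ?_)
      show (Mh T μ v (st s₀ X 0 r W) - Mh T μ' v (st s₀ X' 0 r W)) ^ 2 ≤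
        2 * Mh T μ v (st s₀ X 0 r W) ^ 2 + 2 * Mh T μ' v (st s₀ X' 0 r W) ^ 2
      nlinarith [sq_nonneg (Mh T μ v (st s₀ X 0 r W) + Mh T μ' v (st s₀ X' 0 r W))]
    rw [integral_add (i1.const_mul 2) (i2.const_mul 2), integral_const_mul,
      integral_const_mul] at hle
    linarith
  refine ⟨?_, ?_, ?_, ?_⟩
  · intro r hr0 hr
    rcases hr0.lt_or_eq with h | h
    · have := hsmall r h hr
      nlinarith
    · rw [← h, mul_zero]
      by_contra hcon
      push Not at hcon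
      have e : ∀ r' : ℝ, 0 < r' → r' ≤ 1 / 2 → Dinf T μ μ' X X' 0 0 v ≤ 4 * K0 * r' :=
        fun r' h1 h2 => (growth 0 0 r' le_rfl h1.le h2).1.trans (hsmall r' h1 h2)
      set d := Dinf T μ μ' X X' 0 0 v with hd
      have h3 := e (min (1 / 2) (d / (8 * K0))) (lt_min (by norm_num) (by positivity))
        (min_le_left _ _)
      have h4 : 4 * K0 * min (1 / 2) (d / (8 * K0)) ≤ 4 * K0 * (d / (8 * K0)) :=
        mul_le_mul_of_nonneg_left (min_le_right _ _) (by positivity)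
      have h5 : 4 * K0 * (d / (8 * K0)) = d / 2 := by
        field_simp
        norm_num
      linarith
  · intro k
    unfold Dinf
    congr 1
    funext ω
    rw [fld_succ ω.1 (X ω) k (1 / 2) le_rfl, fld_succ ω.1 (X' ω) k (1 / 2) le_rfl]
  · intro p hp s t hs0 hst ht
    have hlog : 0 ≤ Real.log p := Real.log_nonneg (by linarith)
    have hDt := hD0 0 t
    have step := integ_step (Ds := Dinf T μ μ' X X' 0 s v) (Dt := Dinf T μ μ' X X' 0 t v)
      (A := K * (p * (1 + Real.log p)) * Dinf T μ μ' X X' 0 t v +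
        K * (p ^ 2 / s ^ 3) * (Real.exp (-(c * p)) + (θ - θ') ^ 2))
      (B := K * (p ^ 2 / s ^ 3)) (C := (K0 / s ^ 4) ^ 2)
      (g := fun r => ENNReal.ofReal r * Rinf T θ θ' μ μ' X X' 0 r v)
      (Z := fun r => (ec T μ θ 0 r u x - ec T μ' θ' 0 r u x) ^ 2) (hD0 0 s) hst
      (by positivity) (by positivity) (((mec 0 u x).sub (mec' 0 u x)).pow_const 2)
      (fun r => sq_nonneg _) ?_ (growth 0 s t hs0.le hst ht).2 ?_
    · refine step.trans ?_
      have hI0 : 0 ≤ ∫ r in s..t, (ec T μ θ 0 r u x - ec T μ' θ' 0 r u x) ^ 2 :=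
        intervalIntegral.integral_nonneg hst fun r _ => sq_nonneg _
      have e0 := Real.exp_pos (-(c * p))
      have eq1 : (t - s) * ((8 * K + 4 * K0) * p * (1 + Real.log p) * Dinf T μ μ' X X' 0 t v +
          (8 * K + 4 * K0) * p ^ 2 / s ^ 3 * (Real.exp (-(c * p)) + (θ - θ') ^ 2)) +
          (8 * K + 4 * K0) * p ^ 2 / s ^ 3 *
            ∫ r in s..t, (ec T μ θ 0 r u x - ec T μ' θ' 0 r u x) ^ 2 =
          ((t - s) * (K * (p * (1 + Real.log p)) * Dinf T μ μ' X X' 0 t v +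
            K * (p ^ 2 / s ^ 3) * (Real.exp (-(c * p)) + (θ - θ') ^ 2)) +
            K * (p ^ 2 / s ^ 3) *
              ∫ r in s..t, (ec T μ θ 0 r u x - ec T μ' θ' 0 r u x) ^ 2) +
          (7 * K + 4 * K0) * ((t - s) * ((p * (1 + Real.log p)) * Dinf T μ μ' X X' 0 t v +
            (p ^ 2 / s ^ 3) * (Real.exp (-(c * p)) + (θ - θ') ^ 2)) +
            (p ^ 2 / s ^ 3) *
              ∫ r in s..t, (ec T μ θ 0 r u x - ec T μ' θ' 0 r u x) ^ 2) := by ring
      rw [eq1]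
      refine le_add_of_nonneg_right ?_
      have hts : 0 ≤ t - s := by linarith
      positivity
    · intro r hr
      have hr0 : 0 < r := hs0.trans hr.1
      have b1 := ec_bound hs hl hμ hX hθ hθ1.le hθ2
        (sc0 θ μ hθ hθ2 hθ1 hμ r hr0 (hr.2.trans ht)) hux
      have b2 := ec_bound hs hl hμ' hX' hθ' hθ1'.le hθ2'
        (sc0 θ' μ' hθ' hθ2' hθ1' hμ' r hr0 (hr.2.trans ht)) hux
      have b3 : K0 / r ^ 4 ≤ K0 / s ^ 4 := by
        have := hr.1.le
        gcongr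
      have b4 : |ec T μ θ 0 r u x - ec T μ' θ' 0 r u x| ≤ K0 / s ^ 4 := by
        rw [abs_le]
        constructor <;> linarith
      calc (ec T μ θ 0 r u x - ec T μ' θ' 0 r u x) ^ 2
          = |ec T μ θ 0 r u x - ec T μ' θ' 0 r u x| ^ 2 := (sq_abs _).symm
        _ ≤ _ := pow_le_pow_left₀ (abs_nonneg _) b4 2
    · intro r hr
      have hr0 : 0 < r := hs0.trans hr.1
      refine (hKP V T θ θ' μ μ' X X' 0 r r hθ hθ2 hθ1 hθ' hθ2' hθ1' hμ hμ' hX hX' hr0.le le_rfl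
        hr0 (hr.2.trans ht) (sc0 θ μ hθ hθ2 hθ1 hμ r hr0 (hr.2.trans ht))
        (sc0 θ' μ' hθ' hθ2' hθ1' hμ' r hr0 (hr.2.trans ht)) v u x hux p hp).trans ?_
      refine ENNReal.ofReal_le_ofReal ?_
      have g1 := (growth 0 r t hr0.le hr.2 ht).1
      have g2 : p ^ 2 / r ^ 3 ≤ p ^ 2 / s ^ 3 := by
        have := hr.1.le
        gcongr
      have e0 := Real.exp_pos (-(c * p))
      have z0 := sq_nonneg (ec T μ θ 0 r u x - ec T μ' θ' 0 r u x)
      have t0 := sq_nonneg (θ - θ')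
      have g3 : K * (p * (1 + Real.log p)) * Dinf T μ μ' X X' 0 r v ≤
          K * (p * (1 + Real.log p)) * Dinf T μ μ' X X' 0 t v :=
        mul_le_mul_of_nonneg_left g1 (by positivity)
      have g4 : K * (p ^ 2 / r ^ 3) * (Real.exp (-(c * p)) + (θ - θ') ^ 2 +
          (ec T μ θ 0 r u x - ec T μ' θ' 0 r u x) ^ 2) ≤
          K * (p ^ 2 / s ^ 3) * (Real.exp (-(c * p)) + (θ - θ') ^ 2 +
          (ec T μ θ 0 r u x - ec T μ' θ' 0 r u x) ^ 2) :=
        mul_le_mul_of_nonneg_right (mul_le_mul_of_nonneg_left g2 (by linarith)) (by positivity)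
      calc _ ≤ K * (p * (1 + Real.log p)) * Dinf T μ μ' X X' 0 t v +
          K * (p ^ 2 / s ^ 3) * (Real.exp (-(c * p)) + (θ - θ') ^ 2 +
          (ec T μ θ 0 r u x - ec T μ' θ' 0 r u x) ^ 2) := add_le_add g3 g4
        _ = _ := by ring
  · intro k p hp s t hs0 hst ht
    have hlog : 0 ≤ Real.log p := Real.log_nonneg (by linarith)
    have hDt := hD0 (k + 1) t
    have step := integ_step (Ds := Dinf T μ μ' X X' (k + 1) s v)
      (Dt := Dinf T μ μ' X X' (k + 1) t v)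
      (A := K * (p * (1 + Real.log p)) * Dinf T μ μ' X X' (k + 1) t v +
        K * (8 * p ^ 2) * (Real.exp (-(c * p)) + (θ - θ') ^ 2))
      (B := K * (8 * p ^ 2)) (C := (16 * K0) ^ 2)
      (g := fun r => ENNReal.ofReal r * Rinf T θ θ' μ μ' X X' (k + 1) r v)
      (Z := fun r => (ec T μ θ (k + 1) r u x - ec T μ' θ' (k + 1) r u x) ^ 2) (hD0 (k + 1) s) hst
      (by positivity) (by positivity) (((mec (k + 1) u x).sub (mec' (k + 1) u x)).pow_const 2)
      (fun r => sq_nonneg _) ?_ (growth (k + 1) s t hs0 hst ht).2 ?_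
    · refine step.trans ?_
      have hI0 : 0 ≤ ∫ r in s..t, (ec T μ θ (k + 1) r u x - ec T μ' θ' (k + 1) r u x) ^ 2 :=
        intervalIntegral.integral_nonneg hst fun r _ => sq_nonneg _
      have e0 := Real.exp_pos (-(c * p))
      have eq1 : (t - s) * ((8 * K + 4 * K0) * p * (1 + Real.log p) *
          Dinf T μ μ' X X' (k + 1) t v +
          (8 * K + 4 * K0) * p ^ 2 * (Real.exp (-(c * p)) + (θ - θ') ^ 2)) +
          (8 * K + 4 * K0) * p ^ 2 *
            ∫ r in s..t, (ec T μ θ (k + 1) r u x - ec T μ' θ' (k + 1) r u x) ^ 2 =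
          ((t - s) * (K * (p * (1 + Real.log p)) * Dinf T μ μ' X X' (k + 1) t v +
            K * (8 * p ^ 2) * (Real.exp (-(c * p)) + (θ - θ') ^ 2)) +
            K * (8 * p ^ 2) *
              ∫ r in s..t, (ec T μ θ (k + 1) r u x - ec T μ' θ' (k + 1) r u x) ^ 2) +
          ((7 * K + 4 * K0) * ((t - s) * ((p * (1 + Real.log p)) *
            Dinf T μ μ' X X' (k + 1) t v)) +
            4 * K0 * ((t - s) * (p ^ 2 * (Real.exp (-(c * p)) + (θ - θ') ^ 2)) +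
            p ^ 2 *
              ∫ r in s..t, (ec T μ θ (k + 1) r u x - ec T μ' θ' (k + 1) r u x) ^ 2)) := by ring
      rw [eq1]
      refine le_add_of_nonneg_right ?_
      have hts : 0 ≤ t - s := by linarith
      positivity
    · intro r hr
      have hr0 : 0 ≤ r := hs0.trans hr.1.le
      have b1 := ec_bound hs hl hμ hX hθ hθ1.le hθ2
        (sc1 θ μ hθ hθ2 hθ1 hμ k r hr0 (hr.2.trans ht)) hux
      have b2 := ec_bound hs hl hμ' hX' hθ' hθ1'.le hθ2'
        (sc1 θ' μ' hθ' hθ2' hθ1' hμ' k r hr0 (hr.2.trans ht)) hux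
      have b3 : K0 / (1 / 2) ^ 4 = 16 * K0 := by norm_num; ring
      rw [b3] at b1 b2
      have b4 : |ec T μ θ (k + 1) r u x - ec T μ' θ' (k + 1) r u x| ≤ 16 * K0 := by
        rw [abs_le]
        constructor <;> linarith
      calc (ec T μ θ (k + 1) r u x - ec T μ' θ' (k + 1) r u x) ^ 2
          = |ec T μ θ (k + 1) r u x - ec T μ' θ' (k + 1) r u x| ^ 2 := (sq_abs _).symm
        _ ≤ _ := pow_le_pow_left₀ (abs_nonneg _) b4 2
    · intro r hr
      have hr0 : 0 ≤ r := hs0.trans hr.1.le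
      refine (hKP V T θ θ' μ μ' X X' (k + 1) r (1 / 2) hθ hθ2 hθ1 hθ' hθ2' hθ1' hμ hμ' hX hX' hr0
        (hr.2.trans ht) (by norm_num) le_rfl (sc1 θ μ hθ hθ2 hθ1 hμ k r hr0 (hr.2.trans ht))
        (sc1 θ' μ' hθ' hθ2' hθ1' hμ' k r hr0 (hr.2.trans ht)) v u x hux p hp).trans ?_
      refine ENNReal.ofReal_le_ofReal ?_
      have g1 := (growth (k + 1) r t hr0 hr.2 ht).1
      have g2 : p ^ 2 / (1 / 2 : ℝ) ^ 3 = 8 * p ^ 2 := by norm_num; ring
      have g3 : K * (p * (1 + Real.log p)) * Dinf T μ μ' X X' (k + 1) r v ≤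
          K * (p * (1 + Real.log p)) * Dinf T μ μ' X X' (k + 1) t v :=
        mul_le_mul_of_nonneg_left g1 (by positivity)
      rw [g2]
      linarith

end Vale.Agent.P161E
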