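import Vale.Agent.P161E.ConvAux
import Vale.Agent.P161E.Single
import Vale.Agent.P161E.Grow
import Vale.Agent.P161E.TimeIneq
import Vale.Agent.P161E.EcHolder
import Vale.Agent.P161E.Planted
import Vale.Agent.P161E.Mart
import Vale.Agent.P161E.Limit2

/-!
# Convergence of the samplers below the threshold
-/

open MeasureTheory Set Filter Topology
open scoped unitInterval ENNReal

namespace Vale.Agent.P161E

open Vale.Agent.P161

universe u

namespace CV

variable {V : Type u} {b : ℕ}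

/-- a crude bound for the mean of `χ` -/
theorem exists_ec_bound (hb : 2 ≤ b) : ∃ K : ℝ, 1 ≤ K ∧ ∀ (V : Type u) (T : RTree V b) (θ : ℝ)
    (μ : Measure (V → Bool)), 0 ≤ θ → 1 / 2 ≤ b * θ ^ 2 → b * θ ^ 2 < 1 →
    IsFreeIsing T.G θ μ → ∀ (k : ℕ) (s r : ℝ), 0 < s → s ≤ 1 / 2 → (k = 0 → s ≤ r) → 0 ≤ r →
    r ≤ 1 / 2 → ∀ u x, T.G.Adj u x → |ec T μ θ k r u x| ≤ 1 + K / s ^ 4 := by
  obtain ⟨K, c, M, hK, hc, hM, hs⟩ := single.{u} hb
  refine ⟨K, hK, ?_⟩
  intro V T θ μ hθ hθ2 hθ1 hμ k s r hs0 hs1 hsr hr0 hr1 u x hux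
  have hV : Countable V := countable_of_connected T.tree.1 T.fin
  have := hμ.prob
  obtain ⟨ν, hν, hpl, hk0, hk1⟩ := planted_fld (μ := μ) k hr0 hr1
  obtain ⟨ρ, hρ0, hρ1, hρs, hρq, hρc⟩ : ∃ ρ : ℝ, 0 < ρ ∧ ρ ≤ 1 / 2 ∧ s ≤ ρ ∧
      ρ ^ 2 ≤ 4000 * qq ν ∧
      ((ν {y | y ≠ 0} ≤ ENNReal.ofReal ρ ∧ ∀ᵐ y ∂ν, |y| ≤ Real.sqrt ρ) ∨ ρ = 1 / 2) := by
    rcases Nat.eq_zero_or_pos k with hk | hk
    · obtain ⟨h1, h2, h3⟩ := hk0 hk
      have h4 := hsr hk
      exact ⟨r, hs0.trans_le h4, hr1, h4, h1, Or.inl ⟨h2, h3⟩⟩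
    · refine ⟨1 / 2, by norm_num, le_rfl, hs1, ?_, Or.inr rfl⟩
      have := hk1 hk
      linarith
  obtain ⟨-, h4, -⟩ := hs V T θ ρ μ ν _ hθ hθ2 hθ1.le hμ hν hpl hρ0 hρ1 hρq hρc
  obtain ⟨hint, hle⟩ := h4 u x hux
  have hm : AEMeasurable (fun q : Om V => fld q.1 q.2 k r) (PL μ) := by
    by_contra hcon
    have h0 := hpl.prob
    rw [Measure.map_of_not_aemeasurable hcon] at h0
    have h1 := h0.measure_univ
    rw [Measure.coe_zero, Pi.zero_apply] at h1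
    exact zero_ne_one h1
  have hint' : Integrable (fun q : Om V => chiY T μ θ u x (fld q.1 q.2 k r) ^ 4) (PL μ) :=
    (integrable_map_measure hint.1 hm).mp hint
  have hint2 : ∫ q : Om V, chiY T μ θ u x (fld q.1 q.2 k r) ^ 4 ∂(PL μ) =
      ∫ Y, chiY T μ θ u x Y ^ 4 ∂(Measure.map (fun q : Om V => fld q.1 q.2 k r) (PL μ)) :=
    (integral_map hm hint.1).symm
  have hPL : IsProbabilityMeasure (PL μ) := by
    have h0 := hpl.prob
    have h1 := h0.measure_univ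
    rw [Measure.map_apply_of_aemeasurable hm MeasurableSet.univ, preimage_univ] at h1
    exact ⟨h1⟩
  have key : ‖∫ q : Om V, chiY T μ θ u x (fld q.1 q.2 k r) ∂(PL μ)‖ ≤
      ∫ q : Om V, (1 + chiY T μ θ u x (fld q.1 q.2 k r) ^ 4) ∂(PL μ) := by
    apply norm_integral_le_of_norm_le ((integrable_const _).add hint')
    refine ae_of_all _ fun q => ?_
    rw [Real.norm_eq_abs]
    set z := chiY T μ θ u x (fld q.1 q.2 k r)
    have h1 : |z| ≤ 1 + |z| ^ 4 := by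
      have h0 := abs_nonneg z
      rcases le_total |z| 1 with h | h
      · have : 0 ≤ |z| ^ 4 := by positivity
        linarith
      · have : |z| ≤ |z| ^ 4 := le_self_pow₀ h (by norm_num)
        linarith
    have h2 : |z| ^ 4 = z ^ 4 := by
      rw [← abs_pow, abs_of_nonneg (by positivity)]
    rw [h2] at h1
    exact h1
  rw [Real.norm_eq_abs, integral_add (integrable_const _) hint', hint2] at key
  have h5 : K / ρ ^ 4 ≤ K / s ^ 4 := by
    have hK0 : 0 ≤ K := by linarith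
    gcongr
  have h6 : ∫ _ : Om V, (1 : ℝ) ∂(PL μ) = 1 := by simp
  rw [h6] at key
  exact key.trans (by linarith)

theorem Dinf_nonneg (T : RTree V b) (μ μ' : Measure (V → Bool)) (X X' : Om V → ℕ × V → I)
    (k : ℕ) (r : ℝ) (v : V) : 0 ≤ Dinf T μ μ' X X' k r v :=
  integral_nonneg fun _ => sq_nonneg _

theorem Dinf_le (T : RTree V b) (μ μ' : Measure (V → Bool)) [IsProbabilityMeasure μ]
    [IsProbabilityMeasure μ'] (X X' : Om V → ℕ × V → I)
    (k : ℕ) (r : ℝ) (v : V) : Dinf T μ μ' X X' k r v ≤ 4 := by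
  have h := norm_integral_le_of_norm_le_const (μ := PO V) (C := 4) (f := fun ω =>
    (Mh T μ v (fld ω.1 (X ω) k r) - Mh T μ' v (fld ω.1 (X' ω) k r)) ^ 2) (ae_of_all _ fun ω => by
      have h1 := abs_le.mp (abs_Mh_le T μ v (fld ω.1 (X ω) k r))
      have h2 := abs_le.mp (abs_Mh_le T μ' v (fld ω.1 (X' ω) k r))
      rw [Real.norm_eq_abs, abs_of_nonneg (sq_nonneg _)]
      nlinarith)
  have h2 : (PO V).real univ = 1 := probReal_univ
  rw [h2, mul_one] at h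
  exact (le_abs_self _).trans h

end CV

open CV in
/-- Along a sequence `θ n` increasing to the threshold the samplers converge. -/
theorem exists_cauchy {V : Type u} {b : ℕ} (hb : 2 ≤ b) (T : RTree V b) :
    ∃ (θ : ℕ → ℝ) (μ : ℕ → Measure (V → Bool)) (X : ℕ → Om V → ℕ × V → I),
      (∀ n, 0 ≤ θ n) ∧ (∀ n, b * θ n ^ 2 < 1) ∧ Tendsto θ atTop (𝓝 (Real.sqrt b)⁻¹) ∧
      (∀ n, IsFreeIsing T.G (θ n) (μ n)) ∧ (∀ n, IsLim (μ n) (X n)) ∧
      ∀ j : ℕ × V, Tendsto (fun nm : ℕ × ℕ =>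
        ∫ ω, ((X nm.1 ω j : ℝ) - X nm.2 ω j) ^ 2 ∂(PO V)) (atTop ×ˢ atTop) (𝓝 0) := by
  have hV : Countable V := countable_of_connected T.tree.1 T.fin
  obtain ⟨u⟩ := T.tree.1.nonempty
  obtain ⟨x, hx⟩ : ∃ x, x ∈ T.nb u := by
    have h1 : 0 < (T.nb u).card := by rw [T.card_nb]; omega
    exact Finset.card_pos.mp h1
  have hux : T.G.Adj u x := (T.mem_nb u x).mp hx
  have hb2 : (2 : ℝ) ≤ b := by exact_mod_cast hb
  have hb0 : (0 : ℝ) < b := by linarith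
  -- the sequence of parameters
  set θ : ℕ → ℝ := fun n => (Real.sqrt b)⁻¹ * Real.sqrt (1 - 1 / ((n : ℝ) + 2)) with hθdef
  have hfrac : ∀ n : ℕ, 0 < 1 / ((n : ℝ) + 2) ∧ 1 / ((n : ℝ) + 2) ≤ 1 / 2 := by
    intro n
    have hn : (0 : ℝ) ≤ n := Nat.cast_nonneg n
    exact ⟨by positivity, by rw [div_le_div_iff₀ (by positivity) (by norm_num)]; linarith⟩
  have hθ0 : ∀ n, 0 ≤ θ n := fun n => by simp only [hθdef]; positivity
  have hθsq : ∀ n, b * θ n ^ 2 = 1 - 1 / ((n : ℝ) + 2) := by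
    intro n
    obtain ⟨h1, h2⟩ := hfrac n
    simp only [hθdef]
    rw [mul_pow, inv_pow, Real.sq_sqrt hb0.le, Real.sq_sqrt (by linarith)]
    field_simp
  have hθ2 : ∀ n, 1 / 2 ≤ b * θ n ^ 2 := fun n => by
    obtain ⟨h1, h2⟩ := hfrac n
    rw [hθsq]; linarith
  have hθ1 : ∀ n, b * θ n ^ 2 < 1 := fun n => by
    obtain ⟨h1, h2⟩ := hfrac n
    rw [hθsq]; linarith
  have hθlt : ∀ n, θ n < 1 := fun n => by
    by_contra hcon
    push Not at hcon
    nlinarith [hθ1 n]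
  have hθlim : Tendsto θ atTop (𝓝 (Real.sqrt b)⁻¹) := by
    have h1 : Tendsto (fun n : ℕ => 1 / ((n : ℝ) + 2)) atTop (𝓝 0) := by
      have h2 : Tendsto (fun n : ℕ => (n : ℝ) + 2) atTop atTop :=
        tendsto_atTop_add_const_right _ _ tendsto_natCast_atTop_atTop
      have h3 := h2.inv_tendsto_atTop
      refine h3.congr fun n => ?_
      rw [one_div]
      rfl
    have h2 : Tendsto (fun n : ℕ => Real.sqrt (1 - 1 / ((n : ℝ) + 2))) atTop (𝓝 1) := by
      have h3 := (Real.continuous_sqrt.tendsto (1 - 0)).comp (h1.const_sub 1)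
      rw [sub_zero, Real.sqrt_one] at h3
      exact h3
    have h3 := h2.const_mul ((Real.sqrt b)⁻¹)
    rw [mul_one] at h3
    exact h3
  have hμex : ∀ n, ∃ μ : Measure (V → Bool), IsFreeIsing T.G (θ n) μ := fun n =>
    exists_isFreeIsing T.tree (by rw [abs_of_nonneg (hθ0 n)]; exact (hθlt n).le)
  choose μ hμ using hμex
  have hprob := fun n => (hμ n).prob
  have hXex : ∀ n, ∃ X : Om V → ℕ × V → I, IsLim (μ n) X := by
    intro n
    obtain ⟨κ, H, C, hker⟩ := exists_ker hb T (hθ0 n) (hθ1 n) (hμ n)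
    exact exists_isLim hker
  choose X hX using hXex
  -- the constants
  obtain ⟨K₁, c₁, hK₁, hc₁, htime⟩ := time_ineq.{u} hb
  obtain ⟨K₂, hK₂, hhold⟩ := ec_holder.{u} hb
  obtain ⟨K₃, hK₃, hbound⟩ := exists_ec_bound.{u} hb
  -- the subsequence
  set cc : ℕ → ℕ → ℝ → ℝ := fun n k r => ec T (μ n) (θ n) k r u x with hcc
  set qf : ℕ → ℕ → ℝ → ℝ := fun n k r =>
    ∫ q, th T (μ n) u x (fld q.1 q.2 k r) ^ 2 ∂(PL (μ n)) with hqf
  set B : ℕ → ℝ → ℝ := fun _ s =>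
    max (K₂ / (min s (1 / 2)) ^ 4) (1 + K₃ / (min s (1 / 2)) ^ 4) with hB
  have hPL : ∀ n, IsProbabilityMeasure (PL (μ n)) := by
    intro n
    obtain ⟨ν, hν, hpl, -⟩ := planted_fld (μ := μ n) 0 (le_refl (0 : ℝ)) (by norm_num)
    have h0 := hpl.prob
    have hm : AEMeasurable (fun q : Om V => fld q.1 q.2 0 0) (PL (μ n)) := by
      by_contra hcon
      rw [Measure.map_of_not_aemeasurable hcon] at h0
      have h1 := h0.measure_univ
      rw [Measure.coe_zero, Pi.zero_apply] at h1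
      exact zero_ne_one h1
    have h1 := h0.measure_univ
    rw [Measure.map_apply_of_aemeasurable hm MeasurableSet.univ, preimage_univ] at h1
    exact ⟨h1⟩
  have hqmono : ∀ n k, MonotoneOn (qf n k) (Icc 0 (1 / 2)) := by
    intro n k r hr r' hr' hrr
    have h1 := mart_time hb T (hθ0 n) (hθlt n) (hμ n) k hr.1 hrr hr'.2 hux
    have h2 : 0 ≤ ∫ q, (th T (μ n) u x (fld q.1 q.2 k r') -
        th T (μ n) u x (fld q.1 q.2 k r)) ^ 2 ∂(PL (μ n)) := integral_nonneg fun _ => sq_nonneg _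
    simp only [hqf]
    linarith
  have hq01 : ∀ n k r, 0 ≤ qf n k r ∧ qf n k r ≤ 1 := by
    intro n k r
    refine ⟨integral_nonneg fun _ => sq_nonneg _, ?_⟩
    have h := norm_integral_le_of_norm_le_const (μ := PL (μ n)) (C := 1) (f := fun q =>
      th T (μ n) u x (fld q.1 q.2 k r) ^ 2) (ae_of_all _ fun q => by
        have h1 := abs_le.mp (abs_th_le T (μ n) u x (fld q.1 q.2 k r))
        rw [Real.norm_eq_abs, abs_of_nonneg (sq_nonneg _)]
        nlinarith)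
    have h2 : (PL (μ n)).real univ = 1 := probReal_univ
    rw [h2, mul_one] at h
    exact (le_abs_self _).trans h
  obtain ⟨φ, hφ, hsub⟩ := CV.subseq cc qf B hqmono hq01 (by
      intro n k s r r' hs hsr hr0 hrr hr1
      have hs' : 0 < min s (1 / 2) := lt_min hs (by norm_num)
      have h1 := hhold V T (θ n) (μ n) (hθ0 n) (hθ2 n) (hθ1 n) (hμ n) k (min s (1 / 2)) r r' hs'
        (fun hk => (min_le_left _ _).trans (hsr hk)) hr0 hrr hr1 (min_le_right _ _) u x hux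
      refine h1.trans ?_
      have h2 : 0 ≤ qf n k r' - qf n k r := by
        have := hqmono n k ⟨hr0, hrr.trans hr1⟩ ⟨hr0.trans hrr, hr1⟩ hrr
        linarith
      exact mul_le_mul_of_nonneg_right (le_max_left _ _) h2) (by
      intro n k s r hs hsr hr0 hr1
      have hs' : 0 < min s (1 / 2) := lt_min hs (by norm_num)
      exact (hbound V T (θ n) (μ n) (hθ0 n) (hθ2 n) (hθ1 n) (hμ n) k (min s (1 / 2)) r hs'
        (min_le_right _ _) (fun hk => (min_le_left _ _).trans (hsr hk)) hr0 hr1 u x hux).trans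
        (le_max_right _ _))
  have hφt : Tendsto φ atTop atTop := hφ.tendsto_atTop
  refine ⟨fun n => θ (φ n), fun n => μ (φ n), fun n => X (φ n), fun n => hθ0 _, fun n => hθ1 _,
    hθlim.comp hφt, fun n => hμ _, fun n => hX _, ?_⟩
  rintro ⟨k, v⟩
  -- the mean square differences tend to zero
  have hD : Tendsto (fun nm : ℕ × ℕ => Dinf T (μ (φ nm.1)) (μ (φ nm.2)) (X (φ nm.1)) (X (φ nm.2))
      k (1 / 2) v) (atTop ×ˢ atTop) (𝓝 0) := by
    rw [tendsto_iff_ultrafilter]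
    intro 𝒰 h𝒰
    set δ : ℕ × ℕ → ℝ := fun nm => (θ (φ nm.1) - θ (φ nm.2)) ^ 2 with hδ
    have hδlim : Tendsto δ 𝒰 (𝓝 0) := by
      have h1 : Tendsto (fun n => θ (φ n)) atTop (𝓝 (Real.sqrt b)⁻¹) := hθlim.comp hφt
      have h3 := ((h1.comp tendsto_fst (x := atTop ×ˢ atTop)).sub
        (h1.comp (tendsto_snd (f := (atTop : Filter ℕ)) (g := (atTop : Filter ℕ))))).pow 2
      have h4 : Tendsto δ (atTop ×ˢ atTop) (𝓝 0) := by simpa using h3
      exact h4.mono_left h𝒰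
    have hT := fun nm : ℕ × ℕ => htime V T _ _ _ _ _ _ (hθ0 (φ nm.1)) (hθ2 _) (hθ1 _)
      (hθ0 (φ nm.2)) (hθ2 _) (hθ1 _) (hμ _) (hμ _) (hX _) (hX _) v u x hux
    exact conv_abs 𝒰 hK₁ hc₁ (fun k r nm =>
        Dinf T (μ (φ nm.1)) (μ (φ nm.2)) (X (φ nm.1)) (X (φ nm.2)) k r v) δ
      (fun k s t nm => ∫ r in s..t, (cc (φ nm.1) k r - cc (φ nm.2) k r) ^ 2)
      (fun k r nm => Dinf_nonneg _ _ _ _ _ _ _ _) (fun k r nm => Dinf_le _ _ _ _ _ _ _ _)
      (fun k r r' nm hr0 hrr hr1 => (growth_infinite hb T (hθ0 _) (hθ0 _) (hθ1 _) (hθ1 _) (hμ _)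
        (hμ _) (hX _) (hX _) k v hr0 hrr hr1).1)
      (fun r nm hr0 hr1 => (hT nm).1 r hr0 hr1) (fun k nm => (hT nm).2.1 k) hδlim
      (fun k s t hs hk hst ht => (hsub k s t hs hk hst ht).mono_left h𝒰)
      (fun p hp s t hs hst ht nm => (hT nm).2.2.1 p hp s t hs hst ht)
      (fun k p hp s t hs hst ht nm => (hT nm).2.2.2 k p hp s t hs hst ht) k
  refine squeeze_zero (fun nm => integral_nonneg fun _ => sq_nonneg _) (fun nm => ?_) hD
  exact signal_dist hb T (hθ0 _) (hθ0 _) (hθ1 _) (hθ1 _) (hμ _) (hμ _) (hX _) (hX _) (k, v)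

end Vale.Agent.P161E
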