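import Vale.Agent.P161E.DecorV

/-!
# The free Ising measure is not a factor of IID in the reconstruction regime
-/

open MeasureTheory Set Filter Topology
open scoped unitInterval ENNReal

namespace Vale.Agent.P161E

open Vale.Agent.P161 Vale.Agent.P161.ExistAux

universe u

namespace Conv

open Dec

variable {V : Type u} {b : ℕ} {T : RTree V b}

theorem measurable_sg' : Measurable sg := measurable_from_top

theorem sg_mul_self' (c : Bool) : sg c * sg c = 1 := by cases c <;> simp [sg]

theorem abs_sg' (c : Bool) : |sg c| = 1 := by cases c <;> simp [sg]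

theorem integral_sg (T : RTree V b) {θ : ℝ} {μ : Measure (V → Bool)}
    (hμ : IsFreeIsing T.G θ μ) (v : V) : ∫ τ, sg (τ v) ∂μ = 0 := by
  classical
  have := hμ.prob
  have h1 := hμ.cylinder {v} (by
    have : ((({v} : Finset V) : Set V)) = {v} := by simp
    rw [this]
    rw [SimpleGraph.connected_iff]
    refine ⟨?_, ⟨⟨v, rfl⟩⟩⟩
    intro x y
    have hx : x = y := Subsingleton.elim x y
    rw [hx]) (fun _ => true)
  have h2 : ∏ e ∈ ({v} : Finset V).sym2 with e ∈ T.G.edgeSet,
      edgeFactor θ (fun _ => true) e = 1 := by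
    rw [Finset.prod_eq_one]
    intro e he
    rw [Finset.mem_filter] at he
    obtain ⟨he1, he2⟩ := he
    rw [Finset.sym2_singleton, Finset.mem_singleton] at he1
    subst he1
    exact absurd he2 (by simp)
  rw [h2, mul_one] at h1
  have hset : {τ : V → Bool | ∀ w ∈ ({v} : Finset V), τ w = true} = {τ | τ v = true} := by
    ext τ; simp
  rw [hset] at h1
  have hm : MeasurableSet {τ : V → Bool | τ v = true} :=
    measurable_pi_apply v (measurableSet_singleton _)
  have h3 : (fun τ : V → Bool => sg (τ v)) =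
      fun τ => 2 * {τ : V → Bool | τ v = true}.indicator (fun _ => (1 : ℝ)) τ - 1 := by
    funext τ
    by_cases h : τ v = true
    · rw [Set.indicator_of_mem (by exact h), h]; simp [sg]; norm_num
    · rw [Set.indicator_of_notMem (by exact h)]
      rw [Bool.not_eq_true] at h
      rw [h]; simp [sg]
  rw [h3, integral_sub, integral_const_mul, integral_indicator_const _ hm]
  · simp only [smul_eq_mul, mul_one, integral_const, probReal_univ]
    linarith
  · exact ((integrable_const (1 : ℝ)).indicator hm).const_mul 2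
  · exact integrable_const _

theorem integral_sg_sg (T : RTree V b) {θ : ℝ} {μ : Measure (V → Bool)}
    (hμ : IsFreeIsing T.G θ μ) (v : V) (n : ℕ) : ∀ w, T.G.dist v w = n →
    ∫ τ, sg (τ v) * sg (τ w) ∂μ = θ ^ n := by
  classical
  have := hμ.prob
  induction n with
  | zero =>
    intro w hw
    rw [T.tree.1.dist_eq_zero_iff] at hw
    subst hw
    simp [sg_mul_self']
  | succ n ih =>
    intro w hw
    obtain ⟨y, hy, hvy⟩ := TreeAux.exists_adj_dist T.tree.1 hw
    have h1 := split T.tree T.fin hμ hy {v} {w} (fun u hu => by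
      rw [Finset.mem_singleton] at hu
      subst hu
      omega) (fun u hu => by
      rw [Finset.mem_singleton] at hu
      subst hu
      rw [SimpleGraph.dist_self, SimpleGraph.dist_eq_one_iff_adj.2 hy.symm]
      exact Nat.one_pos) (fun τ => sg (τ v)) (fun τ => sg (τ w))
      (fun τ τ' h => by
        have := h v (by simp)
        simp only
        rw [this]) (fun τ τ' h => by
        have := h w (by simp)
        simp only
        rw [this])
    have h2 : ∫ τ, sg (τ y) * sg (τ v) ∂μ = θ ^ n := by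
      rw [← ih y hvy]
      exact integral_congr_ae (ae_of_all _ fun τ => mul_comm _ _)
    rw [h1, integral_sg T hμ v, h2]
    have h3 : ∫ τ : V → Bool, sg (τ w) * sg (τ w) ∂μ = 1 := by
      simp [sg_mul_self']
    rw [h3]
    ring

theorem exists_dist (hb : 1 ≤ b) (T : RTree V b) (v : V) (n : ℕ) : ∃ w, T.G.dist v w = n := by
  classical
  induction n with
  | zero => exact ⟨v, by simp⟩
  | succ n ih =>
    obtain ⟨w, hw⟩ := ih
    by_contra hcon
    push Not at hcon
    have h1 : (T.nb w).card ≤ 1 := by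
      rw [Finset.card_le_one]
      have key : ∀ y ∈ T.nb w, T.G.Adj w y ∧ T.G.dist v y < T.G.dist v w := by
        intro y hy
        have hy' := (T.mem_nb w y).mp hy
        refine ⟨hy', ?_⟩
        rcases dist_lt_or_gt T.tree hy' v with h | h
        · exfalso
          have h2 : T.G.dist v y ≤ T.G.dist v w + T.G.dist w y := T.tree.1.dist_triangle
          rw [SimpleGraph.dist_eq_one_iff_adj.2 hy'] at h2
          exact hcon y (by omega)
        · exact h
      intro y hy y' hy'
      exact nbr_unique T (key y hy).1 (key y' hy').1 (key y hy).2 (key y' hy').2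
    rw [T.card_nb] at h1
    omega

end Conv

open Conv Dec in
theorem not_fiid {V : Type u} {b : ℕ} (hb : 2 ≤ b) (T : RTree V b) {θ : ℝ} (hθ : θ ≤ 1)
    (h : 1 < b * θ ^ 2) (hθ0 : 0 ≤ θ) {μ : Measure (V → Bool)} (hμ : IsFreeIsing T.G θ μ) :
    ¬ IsFactorOfIID T.G μ := by
  rintro ⟨Φ, hΦ, hmap, heq⟩
  have hcount := T.countable
  obtain ⟨C, hC, hdec⟩ := decor_vertex.{u} hb
  have hb' : (0 : ℝ) < b := by exact_mod_cast (by omega : 0 < b)
  obtain ⟨f, hf⟩ : ∃ f : V → (V → I) → ℝ, f = fun v ω => sg (Φ ω v) := ⟨_, rfl⟩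
  have hfm : ∀ v, Measurable (f v) := by
    intro v
    rw [hf]
    exact measurable_sg'.comp ((measurable_pi_apply v).comp hΦ)
  have hfL : ∀ v, MemLp (f v) 2 (iid V) := by
    intro v
    refine MemLp.of_bound (hfm v).aestronglyMeasurable 1 (ae_of_all _ fun ω => ?_)
    rw [hf, Real.norm_eq_abs, abs_sg']
  have hfe : ∀ (φ : T.G ≃g T.G) (v : V), ∀ᵐ ω ∂(iid V),
      f (φ v) (translate φ.toEquiv ω) = f v ω := by
    intro φ v
    filter_upwards [heq φ] with ω hω
    rw [hf]
    simp only
    rw [hω]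
    unfold Vale.Agent.P161.translate
    congr 2
    exact φ.symm_apply_apply v
  have hint : ∀ F : (V → Bool) → ℝ, Measurable F → ∫ ω, F (Φ ω) ∂(iid V) = ∫ τ, F τ ∂μ := by
    intro F hF
    rw [← hmap, integral_map hΦ.aemeasurable hF.aestronglyMeasurable]
  have hf0 : ∀ v, ∫ ω, f v ω ∂(iid V) = 0 := by
    intro v
    rw [hf]
    simp only
    rw [hint (fun τ => sg (τ v)) (measurable_sg'.comp (measurable_pi_apply v)),
      integral_sg T hμ v]
  have key := hdec V T f hfL hfe hf0
  obtain ⟨v⟩ := T.tree.1.nonempty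
  have hkey : ∀ n : ℕ, (θ * Real.sqrt b) ^ n ≤ C * (n + 1) := by
    intro n
    obtain ⟨w, hw⟩ := exists_dist (by omega) T v n
    have h1 := key v w
    rw [hf] at h1
    simp only at h1
    rw [hint (fun τ => sg (τ v) * sg (τ w))
      ((measurable_sg'.comp (measurable_pi_apply v)).mul
        (measurable_sg'.comp (measurable_pi_apply w))),
      integral_sg_sg T hμ v n w hw, hw] at h1
    have h2 : ∫ ω, sg (Φ ω v) ^ 2 ∂(iid V) = 1 := by
      have : ∀ ω, sg (Φ ω v) ^ 2 = 1 := fun ω => by rw [sq]; exact sg_mul_self' _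
      simp [this]
    rw [h2, mul_one, abs_of_nonneg (by positivity)] at h1
    have hs : (0 : ℝ) < Real.sqrt b := Real.sqrt_pos.mpr hb'
    rw [mul_pow]
    calc θ ^ n * Real.sqrt b ^ n ≤ (C * (n + 1) * (Real.sqrt b)⁻¹ ^ n) * Real.sqrt b ^ n := by
          gcongr
      _ = C * (n + 1) * ((Real.sqrt b)⁻¹ * Real.sqrt b) ^ n := by rw [mul_pow]; ring
      _ = C * (n + 1) := by rw [inv_mul_cancel₀ hs.ne', one_pow, mul_one]
  have hx : 1 < θ * Real.sqrt b := by
    have h1 : (θ * Real.sqrt b) ^ 2 = b * θ ^ 2 := by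
      rw [mul_pow, Real.sq_sqrt hb'.le]; ring
    nlinarith [mul_nonneg hθ0 (Real.sqrt_nonneg b)]
  have hlim : Tendsto (fun n : ℕ => ((n : ℝ) + 1) / (θ * Real.sqrt b) ^ n) atTop (𝓝 0) := by
    have h1 := tendsto_pow_const_div_const_pow_of_one_lt 1 hx
    have h2 := tendsto_pow_const_div_const_pow_of_one_lt 0 hx
    have h3 := h1.add h2
    rw [add_zero] at h3
    refine h3.congr fun n => ?_
    rw [pow_one, pow_zero, add_div]
  have hlim2 : Tendsto (fun n : ℕ => C * (((n : ℝ) + 1) / (θ * Real.sqrt b) ^ n)) atTop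
      (𝓝 (C * 0)) := hlim.const_mul C
  rw [mul_zero] at hlim2
  have h4 : ∀ n : ℕ, (1 : ℝ) ≤ C * (((n : ℝ) + 1) / (θ * Real.sqrt b) ^ n) := by
    intro n
    have h5 : 0 < (θ * Real.sqrt b) ^ n := by positivity
    rw [← mul_div_assoc, le_div_iff₀ h5, one_mul]
    exact hkey n
  have h6 := ge_of_tendsto' hlim2 h4
  linarith

end Vale.Agent.P161E
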