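import Vale.Agent.P161E.Law
import Vale.Agent.P161.Decode
import Vale.Agent.P161.Seeds

/-!
# Decoding the configuration, and seeds
-/

open MeasureTheory Set Filter Topology ProbabilityTheory
open scoped unitInterval ENNReal

namespace Vale.Agent.P161E

open Vale.Agent.P161

universe u

variable {V : Type u}

namespace DecodeAux

/-- two families as one -/
def asm {ι : Type*} (q : (ι → I) × (ι → I)) (k : ι × Bool) : I := cond k.2 (q.2 k.1) (q.1 k.1)

theorem measurable_asm {ι : Type*} : Measurable (asm (ι := ι)) := by
  rw [measurable_pi_iff]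
  rintro ⟨j, c⟩
  cases c with
  | false => exact (measurable_pi_apply j).comp measurable_fst
  | true => exact (measurable_pi_apply j).comp measurable_snd

theorem map_asm (ι : Type u) :
    Measure.map (asm (ι := ι)) ((iid ι).prod (iid ι)) = iid (ι × Bool) := by
  classical
  apply Measure.eq_infinitePi
  intro s t ht
  rw [Measure.map_apply measurable_asm (.pi s.countable_toSet fun k _ => ht k)]
  set A : Finset ι := (s.filter (fun k => k.2 = false)).image Prod.fst with hA
  set B : Finset ι := (s.filter (fun k => ¬ k.2 = false)).image Prod.fst with hB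
  have hpre : asm (ι := ι) ⁻¹' (Set.pi s t) = (Set.pi A (fun j => t (j, false))) ×ˢ
      (Set.pi B (fun j => t (j, true))) := by
    ext p
    simp only [Set.mem_preimage, Set.mem_pi, Finset.mem_coe, Set.mem_prod]
    constructor
    · intro h
      constructor
      · intro j hj0
        obtain ⟨⟨j', c⟩, hj1, rfl⟩ := Finset.mem_image.1 hj0
        obtain ⟨hj, h0⟩ := Finset.mem_filter.1 hj1
        obtain rfl : c = false := h0
        exact h _ hj
      · intro j hj0
        obtain ⟨⟨j', c⟩, hj1, rfl⟩ := Finset.mem_image.1 hj0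
        obtain ⟨hj, h0⟩ := Finset.mem_filter.1 hj1
        obtain rfl : c = true := by simpa using h0
        exact h _ hj
    · rintro ⟨h1, h2⟩ ⟨j, c⟩ hj
      cases c with
      | false => exact h1 j (Finset.mem_image.2 ⟨(j, false), Finset.mem_filter.2 ⟨hj, rfl⟩, rfl⟩)
      | true =>
        exact h2 j (Finset.mem_image.2 ⟨(j, true), Finset.mem_filter.2 ⟨hj, by simp⟩, rfl⟩)
  rw [hpre, Measure.prod_prod]
  unfold iid
  rw [Measure.infinitePi_pi _ (fun v _ => ht _),
    Measure.infinitePi_pi _ (fun v _ => ht _), hA, hB, Finset.prod_image, Finset.prod_image,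
    ← Finset.prod_filter_mul_prod_filter_not s (fun k => k.2 = false)]
  · congr 1
    · apply Finset.prod_congr rfl
      rintro ⟨j, c⟩ hj
      obtain ⟨_, h0⟩ := Finset.mem_filter.1 hj
      obtain rfl : c = false := h0
      rfl
    · apply Finset.prod_congr rfl
      rintro ⟨j, c⟩ hj
      obtain ⟨_, h0⟩ := Finset.mem_filter.1 hj
      obtain rfl : c = true := by simpa using h0
      rfl
  · rintro ⟨j, c⟩ hj ⟨j', c'⟩ hj' h
    have h0 := (Finset.mem_filter.1 hj).2
    have h0' := (Finset.mem_filter.1 hj').2
    simp only at h0 h0' h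
    have e1 : c = true := by simpa using h0
    have e2 : c' = true := by simpa using h0'
    rw [h, e1, e2]
  · rintro ⟨j, c⟩ hj ⟨j', c'⟩ hj' h
    have h0 := (Finset.mem_filter.1 hj).2
    have h0' := (Finset.mem_filter.1 hj').2
    simp only at h0 h0' h
    rw [h, h0, h0']

/-- the inverse -/
def unasm {ι : Type*} (b : ι × Bool → I) : (ι → I) × (ι → I) :=
  (fun j => b (j, false), fun j => b (j, true))

theorem measurable_unasm {ι : Type*} : Measurable (unasm (ι := ι)) :=
  (measurable_pi_lambda _ fun _ => measurable_pi_apply _).prodMk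
    (measurable_pi_lambda _ fun _ => measurable_pi_apply _)

theorem map_unasm (ι : Type u) :
    Measure.map (unasm (ι := ι)) (iid (ι × Bool)) = (iid ι).prod (iid ι) := by
  rw [← map_asm, Measure.map_map measurable_unasm measurable_asm]
  have : (unasm ∘ asm : (ι → I) × (ι → I) → (ι → I) × (ι → I)) = id := rfl
  rw [this, Measure.map_id]

end DecodeAux

open DecodeAux SeedAux

theorem exists_seeds (V : Type u) [Countable V] : ∃ s : I → (ℕ → I) × (ℕ → I), Measurable s ∧
    Measure.map (fun W : V → I => ((fun j : ℕ × V => (s (W j.2)).1 j.1,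
      fun j : ℕ × V => (s (W j.2)).2 j.1) : Om V)) (iid V) = PO V := by
  obtain ⟨f, hf, hfm⟩ := Measure.exists_measurable_map_eq
    (Measure.infinitePi fun _ : ℕ => (volume : Measure I))
  refine ⟨fun u => (fun n => f u (2 * n), fun n => f u (2 * n + 1)), ?_, ?_⟩
  · refine Measurable.prodMk (measurable_pi_lambda _ fun n => ?_)
      (measurable_pi_lambda _ fun n => ?_)
    · exact (measurable_pi_apply (2 * n)).comp hf
    · exact (measurable_pi_apply (2 * n + 1)).comp hf
  · have hW : Measure.map (fun (U : V → I) (v : V) => f (U v)) (iid V) =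
        Measure.infinitePi fun _ : V => Measure.infinitePi fun _ : ℕ => (volume : Measure I) := by
      rw [iid, Measure.infinitePi_map_pi (fun _ : V => (volume : Measure I)) (fun _ => hf), hfm]
    have hWm : Measurable (fun (U : V → I) (v : V) => f (U v)) :=
      measurable_pi_lambda _ fun v => hf.comp (measurable_pi_apply v)
    set T : (V → ℕ → I) → Om V :=
      fun w => (fun j => w j.2 (2 * j.1), fun j => w j.2 (2 * j.1 + 1)) with hT
    have hTm : Measurable T := by
      refine Measurable.prodMk (measurable_pi_lambda _ fun j => ?_)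
        (measurable_pi_lambda _ fun j => ?_)
      · exact (measurable_pi_apply (2 * j.1)).comp (measurable_pi_apply j.2)
      · exact (measurable_pi_apply (2 * j.1 + 1)).comp (measurable_pi_apply j.2)
    have h1 : (fun W : V → I => ((fun j : ℕ × V =>
        ((fun u => (fun n => f u (2 * n), fun n => f u (2 * n + 1)) : I → (ℕ → I) × (ℕ → I))
          (W j.2)).1 j.1,
        fun j : ℕ × V =>
        ((fun u => (fun n => f u (2 * n), fun n => f u (2 * n + 1)) : I → (ℕ → I) × (ℕ → I))
          (W j.2)).2 j.1) : Om V)) =
        T ∘ fun (U : V → I) (v : V) => f (U v) := rfl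
    rw [h1, ← Measure.map_map hTm hWm, hW,
      ← Measure.infinitePi_map_curry (fun (_ : V) (_ : ℕ) => (volume : Measure I)),
      Measure.map_map hTm (MeasurableEquiv.measurable _)]
    set φ : (ℕ × V) × Bool → V × ℕ := fun k => (k.1.2, cond k.2 (2 * k.1.1 + 1) (2 * k.1.1)) with hφ
    have hφi : Function.Injective φ := by
      rintro ⟨⟨n, v⟩, c⟩ ⟨⟨n', v'⟩, c'⟩ h
      simp only [hφ, Prod.mk.injEq] at h
      obtain ⟨rfl, h⟩ := h
      cases c <;> cases c' <;> simp only [cond_true, cond_false] at h
      · obtain rfl : n = n' := by omega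
        rfl
      · omega
      · omega
      · obtain rfl : n = n' := by omega
        rfl
    have h2 : (T ∘ ⇑(MeasurableEquiv.curry V ℕ I) : (V × ℕ → I) → Om V) =
        unasm ∘ fun (b : V × ℕ → I) (k : (ℕ × V) × Bool) => b (φ k) := rfl
    have hm : Measurable (fun (b : V × ℕ → I) (k : (ℕ × V) × Bool) => b (φ k)) :=
      measurable_pi_lambda _ fun k => measurable_pi_apply _
    rw [h2, ← Measure.map_map measurable_unasm hm, map_reindex φ hφi]
    exact map_unasm (ℕ × V)

/-! ### The decoder -/

namespace DecodeAux

/-- labels and seeds as one family of pairs -/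
def prs (q : Om V) (j : ℕ × V) (c : Bool) : I := asm q (j, c)

theorem measurable_prs : Measurable (prs (V := V)) :=
  measurable_pi_lambda _ fun j => measurable_pi_lambda _ fun c =>
    (measurable_pi_apply (j, c)).comp measurable_asm

theorem map_prs (V : Type u) : Measure.map (prs (V := V)) (PO V) =
    Measure.infinitePi fun _ : ℕ × V => Measure.infinitePi fun _ : Bool => (volume : Measure I) := by
  rw [← Measure.infinitePi_map_curry (fun (_ : ℕ × V) (_ : Bool) => (volume : Measure I))]
  have h1 : (prs (V := V)) = ⇑(MeasurableEquiv.curry (ℕ × V) Bool I) ∘ asm := rfl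
  rw [h1, ← Measure.map_map (MeasurableEquiv.measurable _) measurable_asm, PO, map_asm]
  rfl

theorem mp_prs (V : Type u) : MeasurePreserving (prs (V := V)) (PO V)
    (Measure.infinitePi fun _ : ℕ × V =>
      Measure.infinitePi fun _ : Bool => (volume : Measure I)) :=
  ⟨measurable_prs, map_prs V⟩

/-- a signal as a function of a pair -/
noncomputable def Fs (s : ℝ) (e : Bool → I) : ℝ := 1 / 2 - (sig (str (e false) * s) (e true) : ℝ)

theorem measurable_Fs (s : ℝ) : Measurable (Fs s) := by
  have h1 : Measurable (fun e : Bool → I => (str (e false) * s, e true)) :=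
    ((measurable_str.comp (measurable_pi_apply false)).mul_const s).prodMk
      (measurable_pi_apply true)
  have h2 : Measurable (fun e : Bool → I => sig (str (e false) * s) (e true)) :=
    measurable_sig.comp h1
  exact measurable_const.sub (measurable_subtype_coe.comp h2)

theorem abs_Fs_le (s : ℝ) (e : Bool → I) : |Fs s e| ≤ 1 := by
  unfold Fs
  rw [abs_le]
  constructor <;> linarith [(sig (str (e false) * s) (e true)).2.1,
    (sig (str (e false) * s) (e true)).2.2]

/-- mean strength -/
noncomputable def kap : ℝ := (∫ u : I, str u) / 6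

theorem kap_pos : 0 < kap := by
  unfold kap
  refine div_pos ?_ (by norm_num)
  have hi : Integrable (fun u : I => str u) (volume : Measure I) :=
    Integrable.of_bound measurable_str.aestronglyMeasurable (1 / 5) (ae_of_all _ fun u => by
      rw [Real.norm_eq_abs, abs_of_nonneg (abs_str_le u).1]; exact (abs_str_le u).2)
  rw [integral_pos_iff_support_of_nonneg (fun u => (abs_str_le u).1) hi]
  have hsub : (Set.Ioo ⟨1 / 4, by norm_num, by norm_num⟩ ⟨1 / 2, by norm_num, by norm_num⟩ :
      Set I) ⊆ Function.support (fun u : I => str u) := by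
    intro u hu
    have h1 : (1 / 4 : ℝ) < u := hu.1
    have h2 : (u : ℝ) < 1 / 2 := hu.2
    rw [Function.mem_support]
    unfold str
    rw [if_pos h2]
    have : 0 < Real.sqrt u := Real.sqrt_pos.2 (by linarith)
    positivity
  refine lt_of_lt_of_le ?_ (measure_mono hsub)
  rw [unitInterval.volume_Ioo]
  norm_num

theorem integral_Fs {s : ℝ} (hs : |s| ≤ 1) (v : V) :
    ∫ c, Fs s (c (0, v)) ∂(Measure.infinitePi fun _ : ℕ × V =>
      Measure.infinitePi fun _ : Bool => (volume : Measure I)) = s * kap := by
  have hm0 : Measurable (fun c : ℕ × V → Bool → I => Fs s (c (0, v))) :=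
    (measurable_Fs s).comp (measurable_pi_apply (0, v))
  rw [← map_prs, integral_map measurable_prs.aemeasurable hm0.aestronglyMeasurable]
  have hm : Measurable (fun q : Om V => Fs s (prs q (0, v))) :=
    (measurable_Fs s).comp ((measurable_pi_apply (0, v)).comp measurable_prs)
  have hi : Integrable (fun q : Om V => Fs s (prs q (0, v))) (PO V) :=
    Integrable.of_bound hm.aestronglyMeasurable 1 (ae_of_all _ fun q => abs_Fs_le s _)
  unfold PO at hi ⊢
  rw [integral_prod _ hi]
  have h1 : ∀ U : ℕ × V → I, ∫ w, Fs s (prs (U, w) (0, v)) ∂(iid (ℕ × V)) =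
      str (U (0, v)) * s / 6 := by
    intro U
    have hs5 : |str (U (0, v)) * s| ≤ 1 / 5 := by
      rw [abs_mul, abs_of_nonneg (abs_str_le _).1]
      have h2 := (abs_str_le (U (0, v))).2
      have h3 := (abs_str_le (U (0, v))).1
      calc str (U (0, v)) * |s| ≤ 1 / 5 * 1 := by gcongr
        _ = 1 / 5 := by ring
    rw [← integral_half_sub_sig hs5]
    have hm : Measurable (fun t : I => 1 / 2 - (sig (str (U (0, v)) * s) t : ℝ)) :=
      measurable_const.sub (measurable_subtype_coe.comp measurable_sig.of_uncurry_left)
    rw [← (measurePreserving_eval_infinitePi (fun _ : ℕ × V => (volume : Measure I))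
      (0, v)).map_eq, integral_map (measurable_pi_apply (0, v)).aemeasurable
        hm.aestronglyMeasurable]
    rfl
  simp only [h1]
  have h2 : ∫ U : ℕ × V → I, str (U (0, v)) * s / 6 ∂(iid (ℕ × V)) =
      ∫ u : I, str u * s / 6 := by
    rw [← (measurePreserving_eval_infinitePi (fun _ : ℕ × V => (volume : Measure I))
      (0, v)).map_eq, integral_map (measurable_pi_apply (0, v)).aemeasurable
        ((measurable_str.mul_const s).div_const 6).aestronglyMeasurable]
    rfl
  rw [h2, integral_div, integral_mul_const, kap]
  ring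

theorem ae_avs (τ : V → Bool) (v : V) :
    ∀ᵐ q ∂(PO V), Tendsto (fun n => avs (xs (τ, q)) v n) atTop (𝓝 (sg (τ v) * kap)) := by
  set s := sg (τ v) with hs
  have hs1 : |s| ≤ 1 := (abs_sg _).le
  set X : ℕ → (ℕ × V → Bool → I) → ℝ := fun k c => Fs s (c (k, v)) with hX
  have hXm : ∀ k, Measurable (X k) := fun k => (measurable_Fs s).comp (measurable_pi_apply (k, v))
  set P2 : Measure (ℕ × V → Bool → I) := Measure.infinitePi fun _ : ℕ × V =>
      Measure.infinitePi fun _ : Bool => (volume : Measure I) with hP2
  have h := strong_law_ae_real (μ := P2) X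
    (Integrable.of_bound (hXm 0).aestronglyMeasurable 1 (ae_of_all _ fun c => abs_Fs_le s _))
    ?_ ?_
  · have h' := (mp_prs V).quasiMeasurePreserving.ae h
    filter_upwards [h'] with q hq
    have e : ∫ c, X 0 c ∂P2 = s * kap := integral_Fs hs1 v
    rw [e] at hq
    exact hq
  · intro k l hkl
    have h1 := iIndepFun_infinitePi
      (P := fun _ : ℕ × V => Measure.infinitePi fun _ : Bool => (volume : Measure I))
      (X := fun _ e => Fs s e) (fun _ => measurable_Fs s)
    exact h1.indepFun (i := (k, v)) (j := (l, v)) (fun h => hkl (Prod.mk.inj h).1)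
  · intro k
    refine ⟨(hXm k).aemeasurable, (hXm 0).aemeasurable, ?_⟩
    have e : ∀ k, Measure.map (X k) P2 =
        Measure.map (Fs s) (Measure.infinitePi fun _ : Bool => (volume : Measure I)) := by
      intro k
      have hev : Measurable (fun c : ℕ × V → Bool → I => c (k, v)) := measurable_pi_apply (k, v)
      rw [← (measurePreserving_eval_infinitePi (fun _ : ℕ × V =>
        Measure.infinitePi fun _ : Bool => (volume : Measure I)) (k, v)).map_eq,
        Measure.map_map (measurable_Fs s) hev]
      rfl
    rw [e k, e 0]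

end DecodeAux

theorem decode [Countable V] (μ : Measure (V → Bool)) [IsProbabilityMeasure μ] :
    ∃ ψ : Om V → (V → Bool), Measurable ψ ∧
      (∀ (g : V ≃ V) (q : Om V), ψ (trO g q) = translate g (ψ q)) ∧
      ∀ᵐ p ∂(μ.prod (PO V)), ψ (p.2.1, xs p) = p.1 := by
  refine ⟨fun q => dec q.2, measurable_dec.comp measurable_snd, fun g q => rfl, ?_⟩
  have hxs : Measurable (fun p : (V → Bool) × Om V => xs p) :=
    measurable_xs measurable_fst (measurable_fst.comp measurable_snd)
      (measurable_snd.comp measurable_snd)
  have h : ∀ v : V, ∀ᵐ p ∂(μ.prod (PO V)), dec (xs p) v = p.1 v := by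
    intro v
    rw [Measure.ae_prod_iff_ae_ae]
    · refine ae_of_all _ fun τ => ?_
      filter_upwards [DecodeAux.ae_avs τ v] with w hw
      unfold dec
      rw [hw.limsup_eq]
      have hk := DecodeAux.kap_pos
      cases h : τ v
      · simp only [sg, Bool.false_eq_true, if_false]
        simp
        linarith
      · simp only [sg, if_true]
        simp
        exact hk
    · exact measurableSet_eq_fun ((measurable_pi_apply v).comp
        (measurable_dec.comp hxs)) ((measurable_pi_apply v).comp measurable_fst)
  have h2 : ∀ᵐ p ∂(μ.prod (PO V)), ∀ v : V, dec (xs p) v = p.1 v := ae_all_iff.mpr h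
  filter_upwards [h2] with p hp
  funext v
  exact hp v

end Vale.Agent.P161E
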