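import Vale.Agent.P161E.CritCore
import Vale.Agent.P161E.Conv
import Vale.Agent.P161E.Limit
import Vale.Agent.P161E.Decode

/-!
# The critical point
-/

open MeasureTheory Set Filter Topology
open scoped unitInterval ENNReal

namespace Vale.Agent.P161E

open Vale.Agent.P161

universe u

/-- At the reconstruction threshold the free Ising measure is a factor of IID. -/
theorem fiid_critical {V : Type u} {b : ℕ} (hb : 2 ≤ b) (T : RTree V b)
    {μ : Measure (V → Bool)} (hμ : IsFreeIsing T.G (Real.sqrt b)⁻¹ μ) :
    IsFactorOfIID T.G μ := by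
  obtain ⟨θ, μs, X, _, _, h2, h3, h4, h5⟩ := exists_cauchy hb T
  exact crit_core T hμ ⟨θ, μs, X, h2, h3, h4, h5⟩ (fun μ _ X hX => isLim_law hX)
    (fun μ _ X hX g hg => isLim_equi hX hg) (fun μ _ => decode μ) (exists_seeds V)

end Vale.Agent.P161E
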