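import Vale.Agent.P161E.Defs2

/-!
# The limit of the samplers at the threshold
-/

open MeasureTheory Set Filter Topology
open scoped unitInterval ENNReal

namespace Vale.Agent.P161E

open Vale.Agent.P161

universe u

namespace CR

variable {V : Type u}

/-! ### Convergence of the free Ising measures -/

theorem tendsto_edgeFactor {θ : ℕ → ℝ} {θc : ℝ} (h : Tendsto θ atTop (𝓝 θc)) (η : V → Bool)
    (e : Sym2 V) : Tendsto (fun n => edgeFactor (θ n) η e) atTop (𝓝 (edgeFactor θc η e)) := by
  induction e with
  | _ a c =>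
    simp only [edgeFactor, Sym2.lift_mk]
    exact ((((h.mul_const _).mul_const _).const_add _).div_const _)

/-- expectations of local functions are continuous in `θ` -/
theorem tendsto_integral {G : SimpleGraph V} (hG : G.Connected) {θ : ℕ → ℝ} {θc : ℝ}
    (h : Tendsto θ atTop (𝓝 θc)) {μs : ℕ → Measure (V → Bool)} {μ : Measure (V → Bool)}
    (hμs : ∀ n, IsFreeIsing G (θ n) (μs n)) (hμ : IsFreeIsing G θc μ) (A : Finset V)
    {F : (V → Bool) → ℝ} (hF : DependsOn F (A : Set V)) :
    Tendsto (fun n => ∫ τ, F τ ∂(μs n)) atTop (𝓝 (∫ τ, F τ ∂μ)) := by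
  classical
  obtain ⟨v₀⟩ := hG.nonempty
  obtain ⟨D, hD, hDc⟩ := G.extend_finset_to_connected hG.preconnected
    (t := insert v₀ A) ⟨v₀, Finset.mem_insert_self _ _⟩
  have hFD : DependsOn F (D : Set V) := fun x y hxy =>
    hF fun i hi => hxy i (Finset.mem_coe.mpr (hD (Finset.mem_insert_of_mem
      (Finset.mem_coe.mp hi))))
  have := hμ.prob
  have := fun n => (hμs n).prob
  rw [SplitAux.integral_cyl μ D hFD]
  have e : ∀ n, ∫ τ, F τ ∂(μs n) = ∑ S ∈ D.powerset, F (SplitAux.ind S) *
      (μs n).real (SplitAux.cyl D (SplitAux.ind S)) :=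
    fun n => SplitAux.integral_cyl (μs n) D hFD
  simp_rw [e]
  apply tendsto_finsetSum
  intro S _
  apply Tendsto.const_mul
  have h1 : ∀ n, (μs n).real (SplitAux.cyl D (SplitAux.ind S)) = _ :=
    fun n => (hμs n).cylinder D hDc (SplitAux.ind S)
  have h2 : μ.real (SplitAux.cyl D (SplitAux.ind S)) = _ := hμ.cylinder D hDc (SplitAux.ind S)
  rw [h2]
  simp_rw [h1]
  apply Tendsto.const_mul
  apply tendsto_finsetProd
  intro e _
  exact tendsto_edgeFactor h _ _

/-! ### Laws of limits -/

theorem law_of_limit' {S : Type u} [Countable S] {Ω : Type*} [MeasurableSpace Ω]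
    {Q : Measure Ω} [IsProbabilityMeasure Q] (π : Measure (S → I)) [IsProbabilityMeasure π]
    {β : Type*} (l : Filter β) [l.NeBot] (f : β → Ω → S → I) (hf : ∀ D, Measurable (f D))
    (X : Ω → S → I) (hX : Measurable X)
    (hlim : ∀ j, Tendsto (fun D => ∫ ω, |(f D ω j : ℝ) - X ω j| ∂Q) l (𝓝 0))
    (hlaw : ∀ (A : Finset S) (F : BoundedContinuousFunction (A → I) ℝ),
      Tendsto (fun D => ∫ ω, F (A.restrict (f D ω)) ∂Q) l (𝓝 (∫ x, F (A.restrict x) ∂π))) :
    Measure.map X Q = π := by
  have hprob : IsProbabilityMeasure (Measure.map X Q) :=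
    Measure.isProbabilityMeasure_map hX.aemeasurable
  -- it suffices to compare the finite-dimensional laws
  have hfin : ∀ A : Finset S, (Measure.map X Q).map A.restrict = π.map A.restrict := by
    intro A
    have hr : Measurable (A.restrict : (S → I) → _) := Finset.measurable_restrict A
    have h1 : IsProbabilityMeasure ((Measure.map X Q).map A.restrict) :=
      Measure.isProbabilityMeasure_map hr.aemeasurable
    have h2 : IsProbabilityMeasure (π.map A.restrict) :=
      Measure.isProbabilityMeasure_map hr.aemeasurable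
    refine ext_of_forall_integral_eq_of_IsFiniteMeasure fun F => ?_
    have hbd : ∀ x, |F x| ≤ ‖F‖ := fun x => F.norm_coe_le_norm x
    have hmF : Measurable (fun x : S → I => F (A.restrict x)) := F.continuous.measurable.comp hr
    rw [integral_map hr.aemeasurable F.continuous.measurable.aestronglyMeasurable,
      integral_map hr.aemeasurable F.continuous.measurable.aestronglyMeasurable,
      integral_map hX.aemeasurable (f := fun x : S → I => F (A.restrict x))
        hmF.aestronglyMeasurable]
    have htend : Tendsto (fun D => ∫ ω, F (A.restrict (f D ω)) ∂Q) l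
        (𝓝 (∫ ω, F (A.restrict (X ω)) ∂Q)) := by
      rw [Metric.tendsto_nhds]
      intro ε hε
      obtain ⟨K, hK0, hK⟩ := abs_sub_le_of_compact (fun x => F x) F.continuous
        (ε := ε / 2) (by positivity)
      have hsum : Tendsto (fun D => K * ∑ i : A, ∫ ω, |(f D ω i : ℝ) - X ω i| ∂Q) l (𝓝 0) := by
        have := (tendsto_finsetSum (Finset.univ : Finset A) fun i _ => hlim i.1).const_mul K
        simpa using this
      filter_upwards [hsum.eventually (gt_mem_nhds (half_pos hε))] with D hD
      have i1 : Integrable (fun ω => F (A.restrict (f D ω))) Q :=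
        Integrable.of_bound (hmF.comp (hf D)).aestronglyMeasurable ‖F‖ (ae_of_all _ fun ω => hbd _)
      have i2 : Integrable (fun ω => F (A.restrict (X ω))) Q :=
        Integrable.of_bound (hmF.comp hX).aestronglyMeasurable ‖F‖ (ae_of_all _ fun ω => hbd _)
      have i3 : ∀ i : A, Integrable (fun ω => |(f D ω i : ℝ) - X ω i|) Q := by
        intro i
        refine Integrable.of_bound (((measurable_subtype_coe.comp
          (measurable_pi_iff.mp (hf D) i)).sub (measurable_subtype_coe.comp
          (measurable_pi_iff.mp hX i))).abs).aestronglyMeasurable 1 (ae_of_all _ fun ω => ?_)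
        rw [Real.norm_eq_abs, abs_abs, abs_le]
        constructor <;> linarith [(f D ω i).2.1, (f D ω i).2.2, (X ω i).2.1, (X ω i).2.2]
      have i4 : Integrable (fun ω => K * ∑ i : A, |(f D ω i : ℝ) - X ω i|) Q :=
        (integrable_finsetSum _ fun i _ => i3 i).const_mul K
      rw [Real.dist_eq, ← integral_sub i1 i2]
      calc |∫ ω, (F (A.restrict (f D ω)) - F (A.restrict (X ω))) ∂Q|
          ≤ ∫ ω, |F (A.restrict (f D ω)) - F (A.restrict (X ω))| ∂Q :=
            abs_integral_le_integral_abs
        _ ≤ ∫ ω, (ε / 2 + K * ∑ i : A, |(f D ω i : ℝ) - X ω i|) ∂Q := by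
            apply integral_mono (i1.sub i2).abs ((integrable_const _).add i4)
            intro ω
            exact hK _ _
        _ = ε / 2 + K * ∑ i : A, ∫ ω, |(f D ω i : ℝ) - X ω i| ∂Q := by
            rw [integral_add (integrable_const _) i4, integral_const_mul,
              integral_finsetSum _ fun i _ => i3 i]
            simp
        _ < ε := by linarith
    exact tendsto_nhds_unique htend (hlaw A F)
  -- uniqueness of the projective limit
  have hp1 : IsProjectiveLimit (Measure.map X Q) (fun A : Finset S => π.map A.restrict) := hfin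
  have hp2 : IsProjectiveLimit π (fun A : Finset S => π.map A.restrict) := fun A => rfl
  exact hp1.unique hp2

/-! ### Measurability -/

theorem measurable_str : Measurable str := by
  unfold str
  refine Measurable.ite (measurableSet_lt measurable_subtype_coe measurable_const) ?_
    measurable_const
  exact (measurable_subtype_coe.sqrt).const_mul _

theorem measurable_xs : Measurable (xs (V := V)) := by
  rw [measurable_pi_iff]
  intro j
  unfold xs
  refine measurable_sig.comp (Measurable.prodMk (Measurable.mul ?_ ?_) ?_)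
  · exact measurable_str.comp ((measurable_pi_apply j).comp (measurable_fst.comp measurable_snd))
  · exact measurable_sg.comp ((measurable_pi_apply j.2).comp measurable_fst)
  · exact (measurable_pi_apply j).comp (measurable_snd.comp measurable_snd)

theorem measurable_trO (g : V ≃ V) : Measurable (trO g : Om V → Om V) :=
  ((measurable_translateS g).comp measurable_fst).prodMk
    ((measurable_translateS g).comp measurable_snd)

theorem map_trO (g : V ≃ V) : Measure.map (trO g) (PO V) = PO V := by
  have := Measure.map_prod_map (iid (ℕ × V)) (iid (ℕ × V)) (measurable_translateS (A := I) g)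
    (measurable_translateS (A := I) g)
  unfold PO
  rw [iid_translateS] at this
  exact this.symm

theorem measurable_joint : Measurable (fun p : (V → Bool) × Om V => ((p.2.1, xs p) : Om V)) :=
  (measurable_fst.comp measurable_snd).prodMk measurable_xs

instance (μ : Measure (V → Bool)) [IsProbabilityMeasure μ] : IsProbabilityMeasure (PL μ) :=
  Measure.isProbabilityMeasure_map measurable_joint.aemeasurable

/-! ### The joint law as the law of one family -/

/-- labels and signals as one family -/
def el (q : Om V) : (ℕ × V) ⊕ (ℕ × V) → I := Sum.elim q.1 q.2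

theorem measurable_el : Measurable (el (V := V)) := by
  rw [measurable_pi_iff]
  rintro (j | j)
  · exact (measurable_pi_apply j).comp measurable_fst
  · exact (measurable_pi_apply j).comp measurable_snd

/-- labels and signals from one family -/
def le' (x : (ℕ × V) ⊕ (ℕ × V) → I) : Om V := (fun j => x (Sum.inl j), fun j => x (Sum.inr j))

theorem measurable_le' : Measurable (le' (V := V)) :=
  (measurable_pi_iff.mpr fun j => measurable_pi_apply (Sum.inl j)).prodMk
    (measurable_pi_iff.mpr fun j => measurable_pi_apply (Sum.inr j))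

theorem le'_el (q : Om V) : le' (el q) = q := rfl

/-- expectations of local functions under the planted laws converge -/
theorem tendsto_PL {G : SimpleGraph V} (hG : G.Connected) {θ : ℕ → ℝ} {θc : ℝ}
    (h : Tendsto θ atTop (𝓝 θc)) {μs : ℕ → Measure (V → Bool)} {μ : Measure (V → Bool)}
    (hμs : ∀ n, IsFreeIsing G (θ n) (μs n)) (hμ : IsFreeIsing G θc μ)
    (A : Finset ((ℕ × V) ⊕ (ℕ × V))) (F : BoundedContinuousFunction (A → I) ℝ) :
    Tendsto (fun n => ∫ q, F (A.restrict (el q)) ∂(PL (μs n))) atTop
      (𝓝 (∫ q, F (A.restrict (el q)) ∂(PL μ))) := by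
  classical
  have := hμ.prob
  have := fun n => (hμs n).prob
  have hr : Measurable (A.restrict : ((ℕ × V) ⊕ (ℕ × V) → I) → _) := Finset.measurable_restrict A
  have hmF : Measurable (fun q : Om V => F (A.restrict (el q))) :=
    F.continuous.measurable.comp (hr.comp measurable_el)
  have hbd : ∀ x, |F x| ≤ ‖F‖ := fun x => F.norm_coe_le_norm x
  have key : ∀ m : Measure (V → Bool), IsProbabilityMeasure m →
      ∫ q, F (A.restrict (el q)) ∂(PL m) =
        ∫ τ, (∫ ω, F (A.restrict (el (ω.1, xs (τ, ω)))) ∂(PO V)) ∂m := by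
    intro m hm
    unfold PL
    rw [integral_map measurable_joint.aemeasurable hmF.aestronglyMeasurable]
    have hi : Integrable (fun p : (V → Bool) × Om V => F (A.restrict (el (p.2.1, xs p))))
        (m.prod (PO V)) :=
      Integrable.of_bound (hmF.comp measurable_joint).aestronglyMeasurable ‖F‖
        (ae_of_all _ fun ω => hbd _)
    exact integral_prod _ hi
  simp_rw [fun n => key (μs n) inferInstance]
  rw [key μ inferInstance]
  -- the inner integral depends on finitely many spins
  refine tendsto_integral hG h hμs hμ (A.image (fun j => Sum.elim Prod.snd Prod.snd j)) ?_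
  intro τ τ' hτ
  simp only
  congr 1
  funext ω
  congr 1
  funext j
  obtain ⟨j, hj⟩ := j
  rcases j with j | j
  · rfl
  · have h1 : τ j.2 = τ' j.2 :=
      hτ j.2 (Finset.mem_coe.mpr (Finset.mem_image.mpr ⟨Sum.inr j, hj, rfl⟩))
    show sig (str (ω.1 j) * sg (τ j.2)) (ω.2 j) = sig (str (ω.1 j) * sg (τ' j.2)) (ω.2 j)
    rw [h1]

/-- the law of the limit of the samplers -/
theorem limit_law [Countable V] {G : SimpleGraph V} (hG : G.Connected) {θ : ℕ → ℝ} {θc : ℝ}
    (h : Tendsto θ atTop (𝓝 θc)) {μs : ℕ → Measure (V → Bool)} {μ : Measure (V → Bool)}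
    (hμs : ∀ n, IsFreeIsing G (θ n) (μs n)) (hμ : IsFreeIsing G θc μ)
    {X : ℕ → Om V → ℕ × V → I} (hXm : ∀ n, Measurable (X n))
    (hlaw : ∀ n, Measure.map (fun ω => (ω.1, X n ω)) (PO V) = PL (μs n))
    {Y : Om V → ℕ × V → I} (hYm : Measurable Y)
    (hlim : ∀ j, Tendsto (fun n => ∫ ω, |(X n ω j : ℝ) - Y ω j| ∂(PO V)) atTop (𝓝 0)) :
    Measure.map (fun ω => (ω.1, Y ω)) (PO V) = PL μ := by
  have := hμ.prob
  have := fun n => (hμs n).prob
  have hp : IsProbabilityMeasure (Measure.map el (PL μ)) :=
    Measure.isProbabilityMeasure_map measurable_el.aemeasurable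
  have hXj : ∀ n, Measurable (fun ω : Om V => ((ω.1, X n ω) : Om V)) := fun n =>
    measurable_fst.prodMk (hXm n)
  have hYj : Measurable (fun ω : Om V => ((ω.1, Y ω) : Om V)) := measurable_fst.prodMk hYm
  have key := law_of_limit' (Q := PO V) (S := (ℕ × V) ⊕ (ℕ × V)) (Measure.map el (PL μ))
    (atTop : Filter ℕ) (fun n ω => el (ω.1, X n ω)) (fun n => measurable_el.comp (hXj n))
    (fun ω => el (ω.1, Y ω)) (measurable_el.comp hYj) (by
      rintro (j | j)
      · simp [el]
      · simpa [el] using hlim j) (by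
      intro A F
      have hr : Measurable (A.restrict : ((ℕ × V) ⊕ (ℕ × V) → I) → _) :=
        Finset.measurable_restrict A
      have hmF : Measurable (fun x : (ℕ × V) ⊕ (ℕ × V) → I => F (A.restrict x)) :=
        F.continuous.measurable.comp hr
      rw [integral_map measurable_el.aemeasurable hmF.aestronglyMeasurable]
      have e : ∀ n, ∫ ω, F (A.restrict (el (ω.1, X n ω))) ∂(PO V) =
          ∫ q, F (A.restrict (el q)) ∂(PL (μs n)) := by
        intro n
        rw [← hlaw n]
        exact (integral_map (hXj n).aemeasurable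
          (hmF.comp measurable_el).aestronglyMeasurable).symm
      simp_rw [e]
      exact tendsto_PL hG h hμs hμ A F)
  have h2 := congrArg (Measure.map le') key
  have e1 : Measure.map le' (Measure.map (fun ω : Om V => el (ω.1, Y ω)) (PO V)) =
      Measure.map (fun ω => ((ω.1, Y ω) : Om V)) (PO V) :=
    Measure.map_map measurable_le' (measurable_el.comp hYj)
  have e2 : Measure.map le' (Measure.map (el (V := V)) (PL μ)) = PL μ := by
    rw [Measure.map_map measurable_le' measurable_el]
    exact Measure.map_id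
  rw [e1, e2] at h2
  exact h2

/-- the limit of the samplers is equivariant -/
theorem limit_equi [Countable V] {X : ℕ → Om V → ℕ × V → I} (hXm : ∀ n, Measurable (X n))
    {Y : Om V → ℕ × V → I} (hYm : Measurable Y)
    (hlim : ∀ j, Tendsto (fun n => ∫ ω, |(X n ω j : ℝ) - Y ω j| ∂(PO V)) atTop (𝓝 0))
    (g : V ≃ V) (hX : ∀ n, ∀ᵐ ω ∂(PO V), X n (trO g ω) = translateS g (X n ω)) :
    ∀ᵐ ω ∂(PO V), Y (trO g ω) = translateS g (Y ω) := by
  have hall : ∀ᵐ ω ∂(PO V), ∀ j : ℕ × V, Y (trO g ω) j = translateS g (Y ω) j := by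
    rw [ae_all_iff]
    intro j
    have hmY : ∀ i, Measurable (fun ω => Y ω i) := fun i => measurable_pi_iff.mp hYm i
    have hmX : ∀ n i, Measurable (fun ω => X n ω i) := fun n i => measurable_pi_iff.mp (hXm n) i
    set i : ℕ × V := (j.1, g.symm j.2) with hi
    have hmt : Measurable (fun ω => Y (trO g ω) j) := (hmY j).comp (measurable_trO g)
    set δ : ℝ := ∫ ω, |(Y (trO g ω) j : ℝ) - Y ω i| ∂(PO V) with hδ
    have hle : ∀ n, δ ≤ (∫ ω, |(X n ω j : ℝ) - Y ω j| ∂(PO V)) +
        ∫ ω, |(X n ω i : ℝ) - Y ω i| ∂(PO V) := by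
      intro n
      have e1 : ∫ ω, |(X n ω j : ℝ) - Y ω j| ∂(PO V) =
          ∫ ω, |(X n ω i : ℝ) - Y (trO g ω) j| ∂(PO V) := by
        conv_lhs => rw [← map_trO g]
        rw [integral_map (measurable_trO g).aemeasurable]
        · apply integral_congr_ae
          filter_upwards [hX n] with ω hω
          rw [hω]
          rfl
        · exact ((measurable_subtype_coe.comp (hmX _ _)).sub
            (measurable_subtype_coe.comp (hmY _))).abs.aestronglyMeasurable
      have i1 := integrable_abs_sub (P := PO V) (hmX n i) hmt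
      have i2 := integrable_abs_sub (P := PO V) (hmX n i) (hmY i)
      rw [e1, ← integral_add i1 i2]
      apply integral_mono (integrable_abs_sub hmt (hmY i)) (i1.add i2)
      intro ω
      show |(Y (trO g ω) j : ℝ) - Y ω i| ≤
        |(X n ω i : ℝ) - Y (trO g ω) j| + |(X n ω i : ℝ) - Y ω i|
      rw [abs_sub_comm (X n ω i : ℝ) (Y (trO g ω) j : ℝ)]
      exact abs_sub_le _ _ _
    have hlim0 := (hlim j).add (hlim i)
    rw [add_zero] at hlim0
    have hδ0 : δ ≤ 0 := ge_of_tendsto' hlim0 hle
    have hδ1 : 0 ≤ δ := integral_nonneg fun ω => abs_nonneg _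
    have hδ2 : δ = 0 := le_antisymm hδ0 hδ1
    have := (integral_eq_zero_iff_of_nonneg (fun ω => abs_nonneg _)
      (integrable_abs_sub (P := PO V) hmt (hmY i))).mp hδ2
    filter_upwards [this] with ω hω
    have h0 : |(Y (trO g ω) j : ℝ) - Y ω i| = 0 := hω
    show Y (trO g ω) j = Y ω i
    exact Subtype.ext (by have := abs_eq_zero.mp h0; linarith)
  filter_upwards [hall] with ω hω
  funext j
  exact hω j

end CR

/-- the limit of a Cauchy sequence of samplers gives a factor of IID -/
theorem crit_core {V : Type u} {b : ℕ} (T : RTree V b) {θc : ℝ} {μ : Measure (V → Bool)}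
    (hμ : IsFreeIsing T.G θc μ)
    (hcauchy : ∃ (θ : ℕ → ℝ) (μs : ℕ → Measure (V → Bool)) (X : ℕ → Om V → ℕ × V → I),
      Tendsto θ atTop (𝓝 θc) ∧ (∀ n, IsFreeIsing T.G (θ n) (μs n)) ∧ (∀ n, IsLim (μs n) (X n)) ∧
      ∀ j : ℕ × V, Tendsto (fun nm : ℕ × ℕ =>
        ∫ ω, ((X nm.1 ω j : ℝ) - X nm.2 ω j) ^ 2 ∂(PO V)) (atTop ×ˢ atTop) (𝓝 0))
    (hlaw : ∀ [Countable V] (μ : Measure (V → Bool)) [IsProbabilityMeasure μ]
      (X : Om V → ℕ × V → I), IsLim μ X → Measure.map (fun ω => (ω.1, X ω)) (PO V) = PL μ)
    (hequi : ∀ [Countable V] (μ : Measure (V → Bool)) [IsProbabilityMeasure μ]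
      (X : Om V → ℕ × V → I), IsLim μ X → ∀ g : V ≃ V, Measure.map (translate g) μ = μ →
      ∀ᵐ ω ∂(PO V), X (trO g ω) = translateS g (X ω))
    (hdecode : ∀ [Countable V] (μ : Measure (V → Bool)) [IsProbabilityMeasure μ],
      ∃ ψ : Om V → (V → Bool), Measurable ψ ∧
        (∀ (g : V ≃ V) (q : Om V), ψ (trO g q) = translate g (ψ q)) ∧
        ∀ᵐ p ∂(μ.prod (PO V)), ψ (p.2.1, xs p) = p.1)
    (hseeds : ∀ [Countable V], ∃ s : I → (ℕ → I) × (ℕ → I), Measurable s ∧
      Measure.map (fun W : V → I => ((fun j : ℕ × V => (s (W j.2)).1 j.1,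
        fun j : ℕ × V => (s (W j.2)).2 j.1) : Om V)) (iid V) = PO V) :
    IsFactorOfIID T.G μ := by
  have hV : Countable V := countable_of_connected T.tree.1 T.fin
  have := hμ.prob
  obtain ⟨θ, μs, X, hθ, hμs, hX, hc⟩ := hcauchy
  have hXm : ∀ n, Measurable (X n) := fun n => (hX n).meas
  have := fun n => (hμs n).prob
  -- the limit
  have hex : ∀ j : ℕ × V, ∃ Y : Om V → I, Measurable Y ∧
      Tendsto (fun n => ∫ ω, |(X n ω j : ℝ) - Y ω| ∂(PO V)) atTop (𝓝 0) := by
    intro j
    refine exists_limit (fun n ω => X n ω j) (fun n => measurable_pi_iff.mp (hXm n) j) ?_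
    intro ε hε
    have h1 := (hc j).eventually (gt_mem_nhds hε)
    rw [prod_atTop_atTop_eq] at h1
    obtain ⟨⟨n₀, m₀⟩, hn₀⟩ := eventually_atTop.mp h1
    refine ⟨max n₀ m₀, fun n hn => (hn₀ (n, max n₀ m₀) ⟨?_, ?_⟩).le⟩
    · exact (le_max_left _ _).trans hn
    · exact le_max_right _ _
  choose Y hYm hYlim using hex
  set Z : Om V → ℕ × V → I := fun ω j => Y j ω with hZ
  have hZm : Measurable Z := measurable_pi_iff.mpr hYm
  have hZlaw : Measure.map (fun ω => ((ω.1, Z ω) : Om V)) (PO V) = PL μ :=
    CR.limit_law T.tree.1 hθ hμs hμ hXm (fun n => hlaw (μs n) (X n) (hX n)) hZm hYlim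
  obtain ⟨ψ, hψm, hψeq, hψ⟩ := hdecode μ
  obtain ⟨s, hs, hslaw⟩ := hseeds
  set S : (V → I) → Om V := fun W => (fun j : ℕ × V => (s (W j.2)).1 j.1,
    fun j : ℕ × V => (s (W j.2)).2 j.1) with hS
  have hSm : Measurable S := by
    refine Measurable.prodMk ?_ ?_
    · rw [measurable_pi_iff]
      intro j
      exact (measurable_pi_apply j.1).comp (measurable_fst.comp
        (hs.comp (measurable_pi_apply j.2)))
    · rw [measurable_pi_iff]
      intro j
      exact (measurable_pi_apply j.1).comp (measurable_snd.comp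
        (hs.comp (measurable_pi_apply j.2)))
  have hSlaw : Measure.map S (iid V) = PO V := hslaw
  have hZj : Measurable (fun ω : Om V => ((ω.1, Z ω) : Om V)) := measurable_fst.prodMk hZm
  refine ⟨fun W => ψ ((S W).1, Z (S W)), hψm.comp (hZj.comp hSm), ?_, ?_⟩
  · have e1 : Measure.map (fun W => ψ ((S W).1, Z (S W))) (iid V) =
        Measure.map ψ (Measure.map (fun ω => ((ω.1, Z ω) : Om V)) (Measure.map S (iid V))) := by
      rw [Measure.map_map hZj hSm, Measure.map_map hψm (hZj.comp hSm)]
      rfl
    rw [e1, hSlaw, hZlaw]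
    unfold PL
    rw [Measure.map_map hψm CR.measurable_joint]
    have e2 : Measure.map (ψ ∘ fun p : (V → Bool) × Om V => ((p.2.1, xs p) : Om V))
        (μ.prod (PO V)) = Measure.map Prod.fst (μ.prod (PO V)) :=
      Measure.map_congr hψ
    rw [e2, Measure.map_fst_prod]
    simp
  · intro g
    have hg : ∀ n, Measure.map (translate g.toEquiv) (μs n) = μs n := fun n =>
      isFreeIsing_unique T.tree.1 (isFreeIsing_translate (hμs n) g) (hμs n)
    have h1 := CR.limit_equi hXm hZm hYlim g.toEquiv
      (fun n => hequi (μs n) (X n) (hX n) g.toEquiv (hg n))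
    rw [← hSlaw] at h1
    have h2 := ae_of_ae_map hSm.aemeasurable h1
    filter_upwards [h2] with W hW
    have e : S (translate g.toEquiv W) = trO g.toEquiv (S W) := rfl
    rw [e, hW]
    exact hψeq g.toEquiv ((S W).1, Z (S W))

end Vale.Agent.P161E
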