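import Vale.Agent.P161E.Equi
import Vale.Agent.P161E.Aut

/-!
# Stationarity of equivariant families
-/

open MeasureTheory Set Filter Topology
open scoped unitInterval ENNReal

namespace Vale.Agent.P161E

open Vale.Agent.P161

universe u

variable {V : Type u} {b : ℕ} {T : RTree V b}

/-- directed edges can be exchanged -/
theorem exists_aut_edge (T : RTree V b) {u x u' x' : V} (h : T.G.Adj u x)
    (h' : T.G.Adj u' x') : ∃ φ : T.G ≃g T.G, φ u = u' ∧ φ x = x' :=
  exists_aut T (by
    rw [SimpleGraph.dist_eq_one_iff_adj.2 h, SimpleGraph.dist_eq_one_iff_adj.2 h'])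

theorem Equi.integral_eq {g : V → V → (V → I) → ℝ}
    (hg : Equi T g) {u x u' x' : V} (h : T.G.Adj u x) (h' : T.G.Adj u' x') :
    ∫ ω, g u x ω ∂(iid V) = ∫ ω, g u' x' ω ∂(iid V) := by
  obtain ⟨φ, rfl, rfl⟩ := exists_aut_edge T h h'
  exact (hg.integral_equi φ u x).symm

theorem Equi.memLp_iff {g : V → V → (V → I) → ℝ}
    (hg : Equi T g) {u x u' x' : V} (h : T.G.Adj u x) (h' : T.G.Adj u' x') {p : ℝ≥0∞}
    (hp : MemLp (g u x) p (iid V)) : MemLp (g u' x') p (iid V) := by
  obtain ⟨φ, rfl, rfl⟩ := exists_aut_edge T h h'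
  exact hg.memLp_equi φ u x hp

/-- the mean of an average -/
theorem Equi.integral_av (hb : 0 < b) {g : V → V → (V → I) → ℝ} (hg : Equi T g)
    (hi : ∀ u x, T.G.Adj u x → Integrable (g u x) (iid V)) {u x : V} (h : T.G.Adj u x) :
    ∫ ω, T.av (fun u x => g u x ω) u x ∂(iid V) = ∫ ω, g u x ω ∂(iid V) := by
  unfold RTree.av
  rw [integral_div, integral_finsetSum]
  · rw [Finset.sum_congr rfl fun y hy =>
      hg.integral_eq (RTree.mem_ch.mp hy).2 h, Finset.sum_const, RTree.card_ch h, nsmul_eq_mul]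
    field_simp
  · intro y hy
    exact hi x y (RTree.mem_ch.mp hy).2

end Vale.Agent.P161E
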