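import Vale.Agent.P161E.UBoundCore
import Vale.Agent.P161E.Aut

/-!
# Stationarity of equivariant families
-/

open MeasureTheory Set Filter Topology
open scoped unitInterval ENNReal

namespace Vale.Agent.P161E

open Vale.Agent.P161

universe u

theorem statStmt (b : ℕ) : StatStmt.{u} b := by
  intro V T g hg u x u' x' h h'
  obtain ⟨φ, rfl, rfl⟩ := exists_aut T (show T.G.dist u x = T.G.dist u' x' by
    rw [SimpleGraph.dist_eq_one_iff_adj.2 h, SimpleGraph.dist_eq_one_iff_adj.2 h'])
  exact (hg.integral_equi φ u x).symm

end Vale.Agent.P161E
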