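import Vale.Agent.P161E.NBoundCore
import Vale.Agent.P161E.Stat
import Vale.Agent.P161E.EquiAut

/-!
# Crude comparison of the means of `χ`
-/

open MeasureTheory Set Filter Topology
open scoped unitInterval ENNReal

namespace Vale.Agent.P161E

open Vale.Agent.P161

universe u

namespace Crude

open NB

variable {V : Type u} {b : ℕ} {T : RTree V b}

/-! ### Pointwise facts -/

theorem wav_add (w g h : V → V → ℝ) (u x : V) :
    T.wav w (fun u x => g u x + h u x) u x = T.wav w g u x + T.wav w h u x := by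
  unfold RTree.wav
  rw [← RTree.av_add]
  unfold RTree.av
  congr 1
  exact Finset.sum_congr rfl fun y _ => mul_add _ _ _

theorem wav_sum {ι : Type*} (s : Finset ι) (w : V → V → ℝ) (g : ι → V → V → ℝ) (u x : V) :
    T.wav w (fun u x => ∑ i ∈ s, g i u x) u x = ∑ i ∈ s, T.wav w (g i) u x := by
  classical
  induction s using Finset.induction_on with
  | empty =>
    simp only [Finset.sum_empty]
    unfold RTree.wav RTree.av
    simp
  | insert i s hi ih =>
    rw [Finset.sum_insert hi, ← ih, ← wav_add]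
    congr 1
    funext u x
    rw [Finset.sum_insert hi]

theorem chiN_eq (w : V → V → ℝ) (n : ℕ) (u x : V) :
    T.chiN w n u x = ∑ k ∈ Finset.range (n + 1), T.wavN w (fun _ _ => 1) k u x := by
  induction n generalizing u x with
  | zero =>
    rw [Finset.sum_range_one]
    rfl
  | succ n ih =>
    rw [Finset.sum_range_succ']
    show 1 + T.wav w (T.chiN w n) u x = _
    have e : T.chiN w n = fun u x =>
        ∑ k ∈ Finset.range (n + 1), T.wavN w (fun _ _ => 1) k u x := by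
      funext u x
      exact ih u x
    rw [e, wav_sum, add_comm]
    rfl

/-- the mixed products -/
noncomputable def EE (T : RTree V b) (w d W : V → V → ℝ) (i : ℕ) : V → V → ℝ :=
  T.wavN w (T.av fun x y => d x y * W x y) i

theorem EE_nonneg {w d W : V → V → ℝ} (hw : ∀ u x, 0 ≤ w u x) (hd : ∀ u x, 0 ≤ d u x)
    (hW : ∀ u x, 0 ≤ W u x) (i : ℕ) (u x : V) : 0 ≤ EE T w d W i u x :=
  wavN_nonneg hw (fun _ x => RTree.av_nonneg (g := fun x y => d x y * W x y)
    fun y _ => mul_nonneg (hd x y) (hW x y)) i u x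

/-- telescoping -/
theorem tele {w w' : V → V → ℝ} (hw : ∀ u x, 0 ≤ w u x) (hw' : ∀ u x, 0 ≤ w' u x) (n : ℕ) :
    ∀ u x, |T.wavN w (fun _ _ => 1) n u x - T.wavN w' (fun _ _ => 1) n u x| ≤
      ∑ i ∈ Finset.range n, EE T w (fun u x => |w u x - w' u x|)
        (T.wavN w' (fun _ _ => 1) (n - 1 - i)) i u x := by
  induction n with
  | zero => intro u x; simp [RTree.wavN]
  | succ n ih =>
    intro u x
    rw [Finset.sum_range_succ']
    have e1 : ∀ i ∈ Finset.range n, EE T w (fun u x => |w u x - w' u x|)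
        (T.wavN w' (fun _ _ => 1) (n + 1 - 1 - (i + 1))) (i + 1) u x =
        T.wav w (EE T w (fun u x => |w u x - w' u x|)
          (T.wavN w' (fun _ _ => 1) (n - 1 - i)) i) u x := by
      intro i _
      rw [show n + 1 - 1 - (i + 1) = n - 1 - i by omega]
      rfl
    rw [Finset.sum_congr rfl e1, ← wav_sum]
    have h0 : ∀ u x, 0 ≤ T.wavN w' (fun _ _ => 1) n u x := fun u x =>
      wavN_nonneg hw' (fun _ _ => zero_le_one) n u x
    show |T.wav w (T.wavN w (fun _ _ => 1) n) u x - T.wav w' (T.wavN w' (fun _ _ => 1) n) u x| ≤ _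
    have e2 : EE T w (fun u x => |w u x - w' u x|)
        (T.wavN w' (fun _ _ => 1) (n + 1 - 1 - 0)) 0 u x =
        T.av (fun x y => |w x y - w' x y| * T.wavN w' (fun _ _ => 1) n x y) u x := rfl
    rw [e2]
    unfold RTree.wav RTree.av
    rw [← sub_div, ← Finset.sum_sub_distrib, abs_div, abs_of_nonneg (Nat.cast_nonneg b : (0:ℝ) ≤ b),
      ← add_div, ← Finset.sum_add_distrib]
    refine div_le_div_of_nonneg_right ?_ (Nat.cast_nonneg b)
    refine (Finset.abs_sum_le_sum_abs _ _).trans (Finset.sum_le_sum fun y _ => ?_)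
    have h1 := ih x y
    have h2 : w x y * T.wavN w (fun _ _ => 1) n x y - w' x y * T.wavN w' (fun _ _ => 1) n x y =
        w x y * (T.wavN w (fun _ _ => 1) n x y - T.wavN w' (fun _ _ => 1) n x y) +
          (w x y - w' x y) * T.wavN w' (fun _ _ => 1) n x y := by ring
    rw [h2]
    refine (abs_add_le _ _).trans ?_
    rw [abs_mul, abs_mul, abs_of_nonneg (hw x y), abs_of_nonneg (h0 x y)]
    exact add_le_add (mul_le_mul_of_nonneg_left h1 (hw x y)) le_rfl

/-- Cauchy-Schwarz for averages -/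
theorem av_cs {Z A B : V → V → ℝ} (hA : ∀ u x, 0 ≤ A u x) (hB : ∀ u x, 0 ≤ B u x)
    (hZ : ∀ u x, Z u x ^ 2 ≤ A u x * B u x) (u x : V) :
    T.av Z u x ^ 2 ≤ T.av A u x * T.av B u x := by
  unfold RTree.av
  rw [div_pow, ← mul_div_mul_comm, ← sq]
  refine div_le_div_of_nonneg_right ?_ (sq_nonneg _)
  exact Finset.sum_sq_le_sum_mul_sum_of_sq_le_mul _ (fun y _ => hA x y) (fun y _ => hB x y)
    (fun y _ => hZ x y)

/-- Cauchy-Schwarz along the paths -/
theorem EE_sq (w d W : V → V → ℝ) (i : ℕ) : ∀ u x,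
    EE T w d W i u x ^ 2 ≤
      T.wavN (fun _ _ => 1) (T.av fun x y => d x y ^ 2) i u x *
        T.wavN (fun u x => w u x ^ 2) (T.av fun x y => W x y ^ 2) i u x := by
  induction i with
  | zero =>
    intro u x
    exact av_cs (fun _ _ => sq_nonneg _) (fun _ _ => sq_nonneg _)
      (fun u x => le_of_eq (mul_pow _ _ _)) u x
  | succ i ih =>
    intro u x
    have h1 : ∀ u x, 0 ≤ T.wavN (fun _ _ => 1) (T.av fun x y => d x y ^ 2) i u x := fun u x =>
      wavN_nonneg (fun _ _ => zero_le_one) (fun _ _ => RTree.av_nonneg fun _ _ => sq_nonneg _) i u x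
    have h2 : ∀ u x, 0 ≤ T.wavN (fun u x => w u x ^ 2) (T.av fun x y => W x y ^ 2) i u x :=
      fun u x => wavN_nonneg (fun _ _ => sq_nonneg _)
        (fun _ _ => RTree.av_nonneg fun _ _ => sq_nonneg _) i u x
    show T.av (fun x y => w x y * EE T w d W i x y) u x ^ 2 ≤
      T.av (fun x y => 1 * T.wavN (fun _ _ => 1) (T.av fun x y => d x y ^ 2) i x y) u x *
      T.av (fun x y => w x y ^ 2 *
        T.wavN (fun u x => w u x ^ 2) (T.av fun x y => W x y ^ 2) i x y) u x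
    refine av_cs (fun u x => by rw [one_mul]; exact h1 u x)
      (fun u x => mul_nonneg (sq_nonneg _) (h2 u x)) (fun u x => ?_) u x
    rw [mul_pow, one_mul]
    calc w u x ^ 2 * EE T w d W i u x ^ 2 ≤ w u x ^ 2 *
          (T.wavN (fun _ _ => 1) (T.av fun x y => d x y ^ 2) i u x *
            T.wavN (fun u x => w u x ^ 2) (T.av fun x y => W x y ^ 2) i u x) :=
          mul_le_mul_of_nonneg_left (ih u x) (sq_nonneg _)
      _ = _ := by ring

/-! ### Real numbers -/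

theorem le_sqrt_mul {X a c : ℝ} (ha : 0 ≤ a) (hc : 0 ≤ c)
    (h : ∀ s : ℝ, 0 < s → 2 * X ≤ s * a + s⁻¹ * c) : X ≤ Real.sqrt a * Real.sqrt c := by
  rcases eq_or_lt_of_le ha with ha0 | ha0
  · -- `a = 0`
    rw [← ha0, Real.sqrt_zero, zero_mul]
    by_contra hX
    push Not at hX
    have h1 := h ((c + 1) / X) (by positivity)
    rw [← ha0, mul_zero, zero_add, inv_div, div_mul_eq_mul_div] at h1
    have h2 : X * c / (c + 1) ≤ X := by
      rw [div_le_iff₀ (by positivity)]; nlinarith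
    linarith
  · rcases eq_or_lt_of_le hc with hc0 | hc0
    · rw [← hc0, Real.sqrt_zero, mul_zero]
      by_contra hX
      push Not at hX
      have h1 := h (X / (a + 1)) (by positivity)
      rw [← hc0, mul_zero, add_zero, div_mul_eq_mul_div] at h1
      have h2 : X * a / (a + 1) ≤ X := by
        rw [div_le_iff₀ (by positivity)]; nlinarith
      linarith
    · have hsa := Real.sqrt_pos.mpr ha0
      have hsc := Real.sqrt_pos.mpr hc0
      have h1 := h (Real.sqrt c / Real.sqrt a) (by positivity)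
      have h2 : Real.sqrt c / Real.sqrt a * a = Real.sqrt a * Real.sqrt c := by
        rw [div_mul_eq_mul_div, div_eq_iff hsa.ne']
        nlinarith [Real.mul_self_sqrt ha]
      have h3 : (Real.sqrt c / Real.sqrt a)⁻¹ * c = Real.sqrt a * Real.sqrt c := by
        rw [inv_div, div_mul_eq_mul_div, div_eq_iff hsc.ne']
        nlinarith [Real.mul_self_sqrt hc]
      rw [h2, h3] at h1
      linarith

/-- Cauchy-Schwarz for integrals -/
theorem integral_le_sqrt {E A B : (V → I) → ℝ} (hA : Integrable A (iid V))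
    (hB : Integrable B (iid V)) (hE : Integrable E (iid V)) (hA0 : ∀ ω, 0 ≤ A ω)
    (hB0 : ∀ ω, 0 ≤ B ω) (h : ∀ ω, E ω ^ 2 ≤ A ω * B ω) :
    ∫ ω, E ω ∂(iid V) ≤
      Real.sqrt (∫ ω, A ω ∂(iid V)) * Real.sqrt (∫ ω, B ω ∂(iid V)) := by
  refine le_sqrt_mul (integral_nonneg hA0) (integral_nonneg hB0) fun s hs => ?_
  rw [← integral_const_mul, ← integral_const_mul, ← integral_const_mul,
    ← integral_add (hA.const_mul _) (hB.const_mul _)]
  refine integral_mono (hE.const_mul _) ((hA.const_mul _).add (hB.const_mul _)) fun ω => ?_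
  show 2 * E ω ≤ s * A ω + s⁻¹ * B ω
  have h1 : (2 * E ω) ^ 2 ≤ (s * A ω + s⁻¹ * B ω) ^ 2 := by
    have h2 : (s * A ω + s⁻¹ * B ω) ^ 2 = (s * A ω - s⁻¹ * B ω) ^ 2 + 4 * (A ω * B ω) := by
      have : s * s⁻¹ = 1 := mul_inv_cancel₀ hs.ne'
      linear_combination (4 * A ω * B ω) * this
    rw [h2]
    nlinarith [sq_nonneg (s * A ω - s⁻¹ * B ω), h ω]
  have h3 : 0 ≤ s * A ω + s⁻¹ * B ω :=
    add_nonneg (mul_nonneg hs.le (hA0 ω)) (mul_nonneg (inv_nonneg.mpr hs.le) (hB0 ω))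
  exact (abs_le_of_sq_le_sq' h1 h3).2

/-- the weights are Lipschitz -/
theorem be_lip {b : ℕ} {θ t t' : ℝ} (hb : 2 ≤ b) (hθ : b * θ ^ 2 ≤ 1)
    (ht : |t| ≤ 1) (ht' : |t'| ≤ 1) :
    0 ≤ be b θ t ^ 2 ∧ be b θ t ^ 2 ≤ 1 ∧ |be b θ t ^ 2 - be b θ t' ^ 2| ≤ 8 * |t - t'| := by
  have hb' : (2 : ℝ) ≤ b := by exact_mod_cast hb
  have hθ2 : θ ^ 2 ≤ 1 / 2 := by nlinarith [sq_nonneg θ]
  have hsb : Real.sqrt b ^ 2 = b := Real.sq_sqrt (by positivity)
  have key : ∀ s : ℝ, |s| ≤ 1 → 0 ≤ af θ s ∧ af θ s ≤ 1 ∧ 1 / 2 ≤ 1 - θ ^ 2 * s ^ 2 ∧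
      1 - θ ^ 2 ≤ 1 - θ ^ 2 * s ^ 2 := by
    intro s hs
    have h1 : s ^ 2 ≤ 1 := by rw [← sq_abs]; exact pow_le_one₀ (abs_nonneg s) hs
    have h2 : θ ^ 2 * s ^ 2 ≤ 1 / 2 := by nlinarith [sq_nonneg θ, sq_nonneg s]
    have h3 : θ ^ 2 * s ^ 2 ≤ s ^ 2 := by nlinarith [sq_nonneg θ, sq_nonneg s]
    have h4 : θ ^ 2 * s ^ 2 ≤ θ ^ 2 := by nlinarith [sq_nonneg θ, sq_nonneg s]
    refine ⟨?_, ?_, by linarith, by linarith⟩
    · unfold af; apply div_nonneg <;> linarith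
    · unfold af; rw [div_le_one (by linarith)]; linarith
  obtain ⟨a0, a1, a2, a3⟩ := key t ht
  obtain ⟨c0, c1, c2, c3⟩ := key t' ht'
  have hbe : ∀ s, be b θ s ^ 2 = (b * θ ^ 2) * af θ s ^ 2 := by
    intro s
    unfold be
    rw [mul_pow, mul_pow, hsb]
  have hbθ : 0 ≤ (b : ℝ) * θ ^ 2 := by positivity
  refine ⟨sq_nonneg _, ?_, ?_⟩
  · rw [hbe]
    have : af θ t ^ 2 ≤ 1 := pow_le_one₀ a0 a1
    nlinarith [sq_nonneg (af θ t)]
  · rw [hbe, hbe, ← mul_sub, abs_mul, abs_of_nonneg hbθ]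
    have h1 : |af θ t ^ 2 - af θ t' ^ 2| ≤ 2 * |af θ t - af θ t'| := by
      rw [sq_sub_sq, abs_mul]
      refine mul_le_mul_of_nonneg_right ?_ (abs_nonneg _)
      rw [abs_of_nonneg (by linarith)]
      linarith
    have h2 : af θ t - af θ t' = (1 - θ ^ 2) * (t' ^ 2 - t ^ 2) /
        ((1 - θ ^ 2 * t ^ 2) * (1 - θ ^ 2 * t' ^ 2)) := by
      have e1 : (1 - θ ^ 2 * t ^ 2) ≠ 0 := by linarith
      have e2 : (1 - θ ^ 2 * t' ^ 2) ≠ 0 := by linarith
      unfold af
      rw [div_sub_div _ _ e1 e2]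
      congr 1
      ring
    have h3 : |t' ^ 2 - t ^ 2| ≤ 2 * |t - t'| := by
      rw [sq_sub_sq, abs_mul, abs_sub_comm t' t]
      refine mul_le_mul_of_nonneg_right ?_ (abs_nonneg _)
      exact (abs_add_le _ _).trans (by linarith)
    have h4 : |af θ t - af θ t'| ≤ 4 * |t - t'| := by
      have hden : 0 < (1 - θ ^ 2 * t ^ 2) * (1 - θ ^ 2 * t' ^ 2) := by
        apply mul_pos <;> linarith
      rw [h2, abs_div, abs_of_pos hden, div_le_iff₀ hden, abs_mul,
        abs_of_nonneg (by linarith : 0 ≤ 1 - θ ^ 2)]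
      have h5 : (1 - θ ^ 2) * (1 / 2) ≤ (1 - θ ^ 2 * t ^ 2) * (1 - θ ^ 2 * t' ^ 2) :=
        mul_le_mul a3 c2 (by norm_num) (by linarith)
      have h6 : 0 ≤ |t - t'| := abs_nonneg _
      calc (1 - θ ^ 2) * |t' ^ 2 - t ^ 2| ≤ (1 - θ ^ 2) * (2 * |t - t'|) :=
            mul_le_mul_of_nonneg_left h3 (by linarith)
        _ = 4 * |t - t'| * ((1 - θ ^ 2) * (1 / 2)) := by ring
        _ ≤ 4 * |t - t'| * ((1 - θ ^ 2 * t ^ 2) * (1 - θ ^ 2 * t' ^ 2)) := by gcongr
    calc (b : ℝ) * θ ^ 2 * |af θ t ^ 2 - af θ t' ^ 2| ≤ 1 * (2 * (4 * |t - t'|)) := by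
          refine mul_le_mul hθ (h1.trans ?_) (abs_nonneg _) zero_le_one
          linarith
      _ = 8 * |t - t'| := by ring

/-- the geometric sum -/
theorem geom {r : ℝ} (h0 : 0 ≤ r) (h1 : r ≤ 1) (n : ℕ) :
    (1 - r) ^ 2 * ∑ k ∈ Finset.range (n + 1), (k : ℝ) * r ^ (k - 1) ≤ 1 := by
  have key : ∀ n : ℕ, (1 - r) ^ 2 * ∑ k ∈ Finset.range (n + 1), (k : ℝ) * r ^ (k - 1) =
      1 - (n + 1) * r ^ n + n * r ^ (n + 1) := by
    intro n
    induction n with
    | zero => simp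
    | succ n ih =>
      rw [Finset.sum_range_succ, mul_add, ih]
      push_cast
      ring
  rw [key]
  have h2 : r ^ (n + 1) ≤ r ^ n := by
    rw [pow_succ]; exact mul_le_of_le_one_right (pow_nonneg h0 n) h1
  have h3 : 0 ≤ r ^ n := pow_nonneg h0 n
  have h4 : (0 : ℝ) ≤ n := Nat.cast_nonneg n
  nlinarith

theorem one_sub_exp_ge {y C : ℝ} (hy : 0 < y) (hyC : y ≤ C) :
    y / (1 + C) ≤ 1 - Real.exp (-y) := by
  have h1 : Real.exp (-y) ≤ 1 / (1 + y) := by
    rw [Real.exp_neg, ← one_div]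
    exact one_div_le_one_div_of_le (by linarith) (by linarith [Real.add_one_le_exp y])
  have h2 : y / (1 + C) ≤ y / (1 + y) :=
    div_le_div_of_nonneg_left hy.le (by linarith) (by linarith)
  have h3 : 1 - 1 / (1 + y) = y / (1 + y) := by
    have : (1 + y) ≠ 0 := by linarith
    field_simp
    ring
  linarith

theorem wavN_mono_edge {w w' h h' : V → V → ℝ} (hw : ∀ u x, 0 ≤ w u x)
    (hww : ∀ u x, w u x ≤ w' u x) (hh : ∀ u x, 0 ≤ h u x)
    (hhh : ∀ u x, T.G.Adj u x → h u x ≤ h' u x) (n : ℕ) :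
    ∀ {u x : V}, T.G.Adj u x → T.wavN w h n u x ≤ T.wavN w' h' n u x := by
  induction n with
  | zero => intro u x hux; exact hhh u x hux
  | succ n ih =>
    intro u x _
    rw [wavN_succ, wavN_succ]
    refine RTree.av_mono fun y hy => ?_
    exact mul_le_mul (hww x y) (ih (RTree.mem_ch.mp hy).2) (wavN_nonneg hw hh n x y)
      ((hw x y).trans (hww x y))

theorem intb {F : (V → I) → ℝ} (hm : Measurable F) {C : ℝ} (h : ∀ ω, |F ω| ≤ C) :
    Integrable F (iid V) :=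
  (integrable_const C).mono' hm.aestronglyMeasurable (ae_of_all _ h)

/-- the main estimate for the mixed products -/
theorem int_EE (hb : 0 < b) {w w' : V → V → (V → I) → ℝ} (ew : Equi T w) (ew' : Equi T w')
    (hw : ∀ u x ω, 0 ≤ w u x ω ∧ w u x ω ≤ 1) (hw' : ∀ u x ω, 0 ≤ w' u x ω ∧ w' u x ω ≤ 1)
    {K ρ : ℝ} (hK : 1 ≤ K)
    (hdec : ∀ (n : ℕ) (u x : V), T.G.Adj u x → ∫ ω, T.wavN
      (fun u x => w u x ω) (fun _ _ => 1) n u x ∂(iid V) ≤ K * Real.exp (-(ρ * n)))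
    (hdec' : ∀ (n : ℕ) (u x : V), T.G.Adj u x → ∫ ω, T.wavN
      (fun u x => w' u x ω) (fun _ _ => 1) n u x ∂(iid V) ≤ K * Real.exp (-(ρ * n)))
    (i j : ℕ) {u x : V} (h : T.G.Adj u x) :
    Integrable (fun ω => EE T (fun u x => w u x ω) (fun u x => |w u x ω - w' u x ω|)
      (T.wavN (fun u x => w' u x ω) (fun _ _ => 1) j) i u x) (iid V) ∧
    ∫ ω, EE T (fun u x => w u x ω) (fun u x => |w u x ω - w' u x ω|)
      (T.wavN (fun u x => w' u x ω) (fun _ _ => 1) j) i u x ∂(iid V) ≤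
      Real.sqrt (∫ ω, (w u x ω - w' u x ω) ^ 2 ∂(iid V)) *
        (Real.sqrt K * Real.exp (-(ρ / 4)) ^ (i + j)) := by
  have ed : Equi T (fun u x ω => |w u x ω - w' u x ω|) := (ew.sub ew').abs
  have ed2 : Equi T (fun u x ω => |w u x ω - w' u x ω| ^ 2) := ed.pow 2
  have eW : Equi T (fun u x ω => T.wavN (fun u x => w' u x ω) (fun _ _ => 1) j u x) :=
    ew'.wavN (Equi.const 1) j
  have hd : ∀ u x ω, 0 ≤ |w u x ω - w' u x ω| ∧ |w u x ω - w' u x ω| ≤ 1 := by
    intro u x ω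
    refine ⟨abs_nonneg _, ?_⟩
    rw [abs_le]
    have h1 := hw u x ω
    have h2 := hw' u x ω
    constructor <;> linarith
  have hW0 : ∀ u x ω, 0 ≤ T.wavN (fun u x => w' u x ω) (fun _ _ => 1) j u x := fun u x ω =>
    wavN_nonneg (fun u x => (hw' u x ω).1) (fun _ _ => zero_le_one) j u x
  have hW1 : ∀ u x ω, T.G.Adj u x → T.wavN (fun u x => w' u x ω) (fun _ _ => 1) j u x ≤ 1 :=
    fun u x ω h => wavN_le_one hb (fun u x => (hw' u x ω).1) (fun u x => (hw' u x ω).2) j h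
  have hone : ∀ (n : ℕ) {u x : V}, T.G.Adj u x →
      T.wavN (fun _ _ => 1) (fun _ _ => 1) n u x ≤ 1 := fun n u x h =>
    wavN_le_one hb (fun _ _ => zero_le_one) (fun _ _ => le_rfl) n h
  have hEE0 : ∀ ω, 0 ≤ EE T (fun u x => w u x ω) (fun u x => |w u x ω - w' u x ω|)
      (T.wavN (fun u x => w' u x ω) (fun _ _ => 1) j) i u x := fun ω =>
    EE_nonneg (fun u x => (hw u x ω).1) (fun u x => (hd u x ω).1) (fun u x => hW0 u x ω) i u x
  -- `A`
  obtain ⟨A, hA⟩ : ∃ A : (V → I) → ℝ, A = fun ω => T.wavN (fun _ _ => 1)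
      (T.av fun x y => |w x y ω - w' x y ω| ^ 2) i u x := ⟨_, rfl⟩
  obtain ⟨B, hB⟩ : ∃ B : (V → I) → ℝ, B = fun ω => T.wavN (fun u x => w u x ω ^ 2)
      (T.av fun x y => T.wavN (fun u x => w' u x ω) (fun _ _ => 1) j x y ^ 2) i u x := ⟨_, rfl⟩
  obtain ⟨R, hR⟩ : ∃ R : (V → I) → ℝ, R = fun ω => T.wavN (fun u x => w u x ω)
      (T.av fun x y => T.wavN (fun u x => w' u x ω) (fun _ _ => 1) j x y) i u x := ⟨_, rfl⟩
  have hst := statStmt.{u} b
  have iA := int_wavN_one hst hb ed2.av (T := T) (fun u x h => by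
    refine intb (ed2.av.meas u x) (C := 1) fun ω => ?_
    rw [abs_of_nonneg (RTree.av_nonneg fun y _ => sq_nonneg _)]
    refine le_trans (RTree.av_mono (h := fun _ _ => (1 : ℝ)) fun y _ => ?_)
      (RTree.av_const hb 1 h).le
    exact pow_le_one₀ (hd x y ω).1 (hd x y ω).2) i h
  have hAint : Integrable A (iid V) := by rw [hA]; exact iA.1
  have hAval : ∫ ω, A ω ∂(iid V) = ∫ ω, (w u x ω - w' u x ω) ^ 2 ∂(iid V) := by
    rw [hA]
    rw [iA.2, Equi.integral_av hb ed2 (fun u x _ => intb (ed2.meas u x) (C := 1) fun ω => by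
      rw [abs_of_nonneg (sq_nonneg _)]
      exact pow_le_one₀ (hd u x ω).1 (hd u x ω).2) h]
    refine integral_congr_ae (ae_of_all _ fun ω => ?_)
    exact sq_abs _
  have hA0 : ∀ ω, 0 ≤ A ω := fun ω => by
    rw [hA]
    exact wavN_nonneg (fun _ _ => zero_le_one) (fun _ x => RTree.av_nonneg fun y _ =>
      sq_nonneg _) i u x
  have hB0 : ∀ ω, 0 ≤ B ω := fun ω => by
    rw [hB]
    exact wavN_nonneg (fun _ _ => sq_nonneg _) (fun _ x => RTree.av_nonneg fun y _ =>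
      sq_nonneg _) i u x
  have hBR : ∀ ω, B ω ≤ R ω := by
    intro ω
    rw [hB, hR]
    refine wavN_mono_edge (fun _ _ => sq_nonneg _) (fun u x => ?_)
      (fun _ x => RTree.av_nonneg fun y _ => sq_nonneg _) (fun u x _ => ?_) i h
    · have := hw u x ω
      nlinarith
    · refine RTree.av_mono fun y hy => ?_
      have h1 := hW0 x y ω
      have h2 := hW1 x y ω (RTree.mem_ch.mp hy).2
      nlinarith
  have havW : ∀ u x ω, T.G.Adj u x →
      T.av (fun x y => T.wavN (fun u x => w' u x ω) (fun _ _ => 1) j x y) u x ≤ 1 := by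
    intro u x ω h
    refine le_trans (RTree.av_mono (h := fun _ _ => (1 : ℝ)) fun y hy => ?_)
      (RTree.av_const hb 1 h).le
    exact hW1 x y ω (RTree.mem_ch.mp hy).2
  have havW0 : ∀ u x ω,
      0 ≤ T.av (fun x y => T.wavN (fun u x => w' u x ω) (fun _ _ => 1) j x y) u x :=
    fun u x ω => RTree.av_nonneg fun y _ => hW0 x y ω
  have hR1 : ∀ ω, R ω ≤ T.wavN (fun u x => w u x ω) (fun _ _ => 1) i u x := by
    intro ω
    rw [hR]
    exact wavN_mono_edge (fun u x => (hw u x ω).1) (fun _ _ => le_rfl)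
      (fun u x => havW0 u x ω) (fun u x h => havW u x ω h) i h
  have hR2 : ∀ ω, R ω ≤ T.wavN (fun _ _ => 1)
      (T.av fun x y => T.wavN (fun u x => w' u x ω) (fun _ _ => 1) j x y) i u x := by
    intro ω
    rw [hR]
    exact wavN_mono_edge (fun u x => (hw u x ω).1) (fun u x => (hw u x ω).2)
      (fun u x => havW0 u x ω) (fun u x h => le_rfl) i h
  have eR : Equi T (fun u x ω => T.wavN (fun u x => w u x ω)
      (T.av fun x y => T.wavN (fun u x => w' u x ω) (fun _ _ => 1) j x y) i u x) :=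
    ew.wavN eW.av i
  have hWi1 : ∀ ω, T.wavN (fun u x => w u x ω) (fun _ _ => 1) i u x ≤ 1 := fun ω =>
    wavN_le_one hb (fun u x => (hw u x ω).1) (fun u x => (hw u x ω).2) i h
  have hWi0 : ∀ ω, 0 ≤ T.wavN (fun u x => w u x ω) (fun _ _ => 1) i u x := fun ω =>
    wavN_nonneg (fun u x => (hw u x ω).1) (fun _ _ => zero_le_one) i u x
  have hR0 : ∀ ω, 0 ≤ R ω := fun ω => (hB0 ω).trans (hBR ω)
  have hRint : Integrable R (iid V) := by
    refine intb (by rw [hR]; exact eR.meas u x) (C := 1) fun ω => ?_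
    rw [abs_of_nonneg (hR0 ω)]
    exact (hR1 ω).trans (hWi1 ω)
  have eB : Equi T (fun u x ω => T.wavN (fun u x => w u x ω ^ 2)
      (T.av fun x y => T.wavN (fun u x => w' u x ω) (fun _ _ => 1) j x y ^ 2) i u x) :=
    (ew.pow 2).wavN (eW.pow 2).av i
  have hBint : Integrable B (iid V) := by
    refine intb (by rw [hB]; exact eB.meas u x) (C := 1) fun ω => ?_
    rw [abs_of_nonneg (hB0 ω)]
    exact (hBR ω).trans ((hR1 ω).trans (hWi1 ω))
  have hRa : ∫ ω, R ω ∂(iid V) ≤ K * Real.exp (-(ρ * i)) := by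
    refine le_trans (integral_mono hRint ?_ hR1) (hdec i u x h)
    refine intb ((ew.wavN (Equi.const 1) i).meas u x) (C := 1) fun ω => ?_
    rw [abs_of_nonneg (hWi0 ω)]
    exact hWi1 ω
  have hRb : ∫ ω, R ω ∂(iid V) ≤ K * Real.exp (-(ρ * j)) := by
    have iW : ∀ u x, T.G.Adj u x → Integrable
        (fun ω => T.wavN (fun u x => w' u x ω) (fun _ _ => 1) j u x) (iid V) := by
      intro u x h
      refine intb (eW.meas u x) (C := 1) fun ω => ?_
      rw [abs_of_nonneg (hW0 u x ω)]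
      exact hW1 u x ω h
    have i2 := int_wavN_one hst hb eW.av (T := T) (fun u x h => by
      refine intb (eW.av.meas u x) (C := 1) fun ω => ?_
      rw [abs_of_nonneg (havW0 u x ω)]
      exact havW u x ω h) i h
    refine le_trans (integral_mono hRint i2.1 hR2) ?_
    rw [i2.2, Equi.integral_av hb eW iW h]
    exact hdec' j u x h
  have hBv : ∫ ω, B ω ∂(iid V) ≤ K * (Real.exp (-(ρ / 4)) ^ (i + j)) ^ 2 := by
    have h1 : ∫ ω, B ω ∂(iid V) ≤ ∫ ω, R ω ∂(iid V) := integral_mono hBint hRint hBR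
    have h2 : (Real.exp (-(ρ / 4)) ^ (i + j)) ^ 2 = Real.exp (-(ρ * i + ρ * j) / 2) := by
      rw [← pow_mul, ← Real.exp_nat_mul]
      congr 1
      push_cast
      ring
    rw [h2]
    rcases le_total (ρ * i) (ρ * j) with hij | hij
    · refine h1.trans (hRb.trans ?_)
      gcongr
      linarith
    · refine h1.trans (hRa.trans ?_)
      gcongr
      linarith
  have eE : Equi T (fun u x ω => EE T (fun u x => w u x ω) (fun u x => |w u x ω - w' u x ω|)
      (T.wavN (fun u x => w' u x ω) (fun _ _ => 1) j) i u x) :=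
    ew.wavN (ed.mul eW).av i
  have hEEint : Integrable (fun ω => EE T (fun u x => w u x ω)
      (fun u x => |w u x ω - w' u x ω|)
      (T.wavN (fun u x => w' u x ω) (fun _ _ => 1) j) i u x) (iid V) := by
    refine intb (eE.meas u x) (C := 1) fun ω => ?_
    rw [abs_of_nonneg (hEE0 ω)]
    refine le_trans (wavN_mono_edge (w' := fun _ _ => 1) (h' := fun _ _ => 1)
      (fun u x => (hw u x ω).1) (fun u x => (hw u x ω).2)
      (fun _ x => RTree.av_nonneg (g := fun x y => |w x y ω - w' x y ω| *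
        T.wavN (fun u x => w' u x ω) (fun _ _ => 1) j x y)
        fun y _ => mul_nonneg (hd x y ω).1 (hW0 x y ω))
      (fun u x h => ?_) i h) (hone i h)
    refine le_trans (RTree.av_mono (h := fun _ _ => (1 : ℝ)) fun y hy => ?_)
      (RTree.av_const hb 1 h).le
    exact mul_le_one₀ (hd x y ω).2 (hW0 x y ω) (hW1 x y ω (RTree.mem_ch.mp hy).2)
  refine ⟨hEEint, ?_⟩
  have hcs := integral_le_sqrt hAint hBint hEEint hA0 hB0 (fun ω => by
    rw [hA, hB]
    exact EE_sq _ _ _ i u x)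
  refine hcs.trans ?_
  rw [hAval]
  refine mul_le_mul_of_nonneg_left ?_ (Real.sqrt_nonneg _)
  rw [← Real.sqrt_sq (pow_nonneg (Real.exp_pos (-(ρ / 4))).le (i + j)),
    ← Real.sqrt_mul (by linarith)]
  exact Real.sqrt_le_sqrt hBv

end Crude

open Crude NB in
theorem chi_crude {b : ℕ} (hb : 2 ≤ b) {K c : ℝ} (hK : 1 ≤ K) (hc : 0 < c) :
    ∃ K' : ℝ, 0 < K' ∧ ∀ (V : Type u) (T : RTree V b) (ρ θ : ℝ), 0 < ρ → ρ ≤ 1 / 2 →
    0 ≤ θ → b * θ ^ 2 ≤ 1 →
    ∀ t χ t' χ' : V → V → (V → I) → ℝ, Equi T t → Equi T χ → Equi T t' → Equi T χ' →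
    (∀ u x ω, |t u x ω| ≤ 1) → (∀ u x ω, |t' u x ω| ≤ 1) →
    (∀ u x ω, 1 ≤ χ u x ω) → (∀ u x ω, 1 ≤ χ' u x ω) →
    (∀ u x, T.G.Adj u x → MemLp (χ u x) 2 (iid V)) →
    (∀ u x, T.G.Adj u x → MemLp (χ' u x) 2 (iid V)) →
    IsChi T (fun u x ω => be b θ (t u x ω) ^ 2) χ →
    IsChi T (fun u x ω => be b θ (t' u x ω) ^ 2) χ' →
    (∀ (n : ℕ) (u x : V), T.G.Adj u x → ∫ ω, T.wavN
      (fun u x => be b θ (t u x ω) ^ 2) (fun _ _ => 1) n u x ∂(iid V) ≤
        K * Real.exp (-(c * ρ * n))) →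
    (∀ (n : ℕ) (u x : V), T.G.Adj u x → ∫ ω, T.wavN
      (fun u x => be b θ (t' u x ω) ^ 2) (fun _ _ => 1) n u x ∂(iid V) ≤
        K * Real.exp (-(c * ρ * n))) →
    ∀ u x, T.G.Adj u x →
    |∫ ω, χ u x ω ∂(iid V) - ∫ ω, χ' u x ω ∂(iid V)| ≤
      K' / ρ ^ 2 * Real.sqrt (∫ ω, (t u x ω - t' u x ω) ^ 2 ∂(iid V)) := by
  refine ⟨8 * Real.sqrt K * ((1 + c / 8) * (4 / c)) ^ 2, ?_, ?_⟩
  · have : 0 < Real.sqrt K := Real.sqrt_pos.mpr (by linarith)
    positivity
  intro V T ρ θ hρ hρ2 hθ0 hθ t χ t' χ' et eχ et' eχ' ht ht' hχ hχ' mχ mχ' lχ lχ' dec dec' u x h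
  have hb0 : 0 < b := by omega
  obtain ⟨w, hw⟩ : ∃ w : V → V → (V → I) → ℝ, w = fun u x ω => be b θ (t u x ω) ^ 2 := ⟨_, rfl⟩
  obtain ⟨w', hw'⟩ : ∃ w' : V → V → (V → I) → ℝ, w' = fun u x ω => be b θ (t' u x ω) ^ 2 :=
    ⟨_, rfl⟩
  have hbem : Measurable fun s : ℝ => be b θ s ^ 2 := by
    unfold be af
    fun_prop
  have ew : Equi T w := by rw [hw]; exact et.comp (F := fun s => be b θ s ^ 2) hbem
  have ew' : Equi T w' := by rw [hw']; exact et'.comp (F := fun s => be b θ s ^ 2) hbem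
  have w01 : ∀ u x ω, 0 ≤ w u x ω ∧ w u x ω ≤ 1 := by
    intro u x ω
    rw [hw]
    have := be_lip hb hθ (ht u x ω) (ht u x ω)
    exact ⟨this.1, this.2.1⟩
  have w01' : ∀ u x ω, 0 ≤ w' u x ω ∧ w' u x ω ≤ 1 := by
    intro u x ω
    rw [hw']
    have := be_lip hb hθ (ht' u x ω) (ht' u x ω)
    exact ⟨this.1, this.2.1⟩
  have ww' : ∀ u x ω, |w u x ω - w' u x ω| ≤ 8 * |t u x ω - t' u x ω| := by
    intro u x ω
    rw [hw, hw']
    exact (be_lip hb hθ (ht u x ω) (ht' u x ω)).2.2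
  have dec1 : ∀ (n : ℕ) (u x : V), T.G.Adj u x → ∫ ω, T.wavN
      (fun u x => w u x ω) (fun _ _ => 1) n u x ∂(iid V) ≤ K * Real.exp (-(c * ρ * n)) := by
    rw [hw]; exact dec
  have dec1' : ∀ (n : ℕ) (u x : V), T.G.Adj u x → ∫ ω, T.wavN
      (fun u x => w' u x ω) (fun _ _ => 1) n u x ∂(iid V) ≤ K * Real.exp (-(c * ρ * n)) := by
    rw [hw']; exact dec'
  obtain ⟨σt, hσt⟩ : ∃ σt : ℝ, σt = Real.sqrt (∫ ω, (t u x ω - t' u x ω) ^ 2 ∂(iid V)) :=
    ⟨_, rfl⟩
  have hσ0 : 0 ≤ σt := by rw [hσt]; exact Real.sqrt_nonneg _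
  have hσw : Real.sqrt (∫ ω, (w u x ω - w' u x ω) ^ 2 ∂(iid V)) ≤ 8 * σt := by
    rw [hσt, show (8 : ℝ) = Real.sqrt (8 ^ 2) by rw [Real.sqrt_sq (by norm_num)],
      ← Real.sqrt_mul (by norm_num), ← integral_const_mul]
    apply Real.sqrt_le_sqrt
    refine integral_mono ?_ ?_ fun ω => ?_
    · refine intb (((ew.meas u x).sub (ew'.meas u x)).pow_const 2) (C := 1) fun ω => ?_
      show |(w u x ω - w' u x ω) ^ 2| ≤ 1
      rw [abs_of_nonneg (sq_nonneg _)]
      have h1 := w01 u x ω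
      have h2 := w01' u x ω
      nlinarith
    · refine intb ((((et.meas u x).sub (et'.meas u x)).pow_const 2).const_mul _)
        (C := 8 ^ 2 * 4) fun ω => ?_
      show |8 ^ 2 * (t u x ω - t' u x ω) ^ 2| ≤ 8 ^ 2 * 4
      rw [abs_of_nonneg (by positivity)]
      have h1 := abs_le.mp (ht u x ω)
      have h2 := abs_le.mp (ht' u x ω)
      nlinarith
    · show (w u x ω - w' u x ω) ^ 2 ≤ 8 ^ 2 * (t u x ω - t' u x ω) ^ 2
      rw [← sq_abs (w u x ω - w' u x ω), ← sq_abs (t u x ω - t' u x ω), ← mul_pow]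
      exact pow_le_pow_left₀ (abs_nonneg _) (ww' u x ω) 2
  obtain ⟨r, hr⟩ : ∃ r : ℝ, r = Real.exp (-(c * ρ / 4)) := ⟨_, rfl⟩
  have hr0 : 0 < r := by rw [hr]; exact Real.exp_pos _
  have hr1 : r < 1 := by
    rw [hr, Real.exp_lt_one_iff]
    have : 0 < c * ρ := mul_pos hc hρ
    linarith
  have hsK : 0 ≤ Real.sqrt K := Real.sqrt_nonneg K
  obtain ⟨M, hM⟩ : ∃ M : ℝ, M = 8 * σt * Real.sqrt K := ⟨_, rfl⟩
  have hM0 : 0 ≤ M := by rw [hM]; positivity
  -- difference of the products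
  have iW : ∀ (w : V → V → (V → I) → ℝ), Equi T w → (∀ u x ω, 0 ≤ w u x ω ∧ w u x ω ≤ 1) →
      ∀ n, Integrable (fun ω => T.wavN (fun u x => w u x ω) (fun _ _ => 1) n u x) (iid V) := by
    intro w ew w01 n
    refine intb ((ew.wavN (Equi.const 1) n).meas u x) (C := 1) fun ω => ?_
    rw [abs_of_nonneg (wavN_nonneg (fun u x => (w01 u x ω).1) (fun _ _ => zero_le_one) n u x)]
    exact wavN_le_one hb0 (fun u x => (w01 u x ω).1) (fun u x => (w01 u x ω).2) n h
  have hdiff : ∀ k : ℕ, |∫ ω, T.wavN (fun u x => w u x ω) (fun _ _ => 1) k u x ∂(iid V) -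
      ∫ ω, T.wavN (fun u x => w' u x ω) (fun _ _ => 1) k u x ∂(iid V)| ≤
      M * ((k : ℝ) * r ^ (k - 1)) := by
    intro k
    rw [← integral_sub (iW w ew w01 k) (iW w' ew' w01' k)]
    have hE := fun i j => int_EE hb0 ew ew' w01 w01' hK (ρ := c * ρ) dec1 dec1' i j h
    calc |∫ ω, (T.wavN (fun u x => w u x ω) (fun _ _ => 1) k u x -
          T.wavN (fun u x => w' u x ω) (fun _ _ => 1) k u x) ∂(iid V)|
        ≤ ∫ ω, |T.wavN (fun u x => w u x ω) (fun _ _ => 1) k u x -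
          T.wavN (fun u x => w' u x ω) (fun _ _ => 1) k u x| ∂(iid V) :=
          abs_integral_le_integral_abs
      _ ≤ ∫ ω, ∑ i ∈ Finset.range k, EE T (fun u x => w u x ω)
          (fun u x => |w u x ω - w' u x ω|)
          (T.wavN (fun u x => w' u x ω) (fun _ _ => 1) (k - 1 - i)) i u x ∂(iid V) := by
          refine integral_mono ((iW w ew w01 k).sub (iW w' ew' w01' k)).abs
            (integrable_finsetSum _ fun i _ => (hE i (k - 1 - i)).1) fun ω => ?_
          exact tele (fun u x => (w01 u x ω).1) (fun u x => (w01' u x ω).1) k u x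
      _ = ∑ i ∈ Finset.range k, ∫ ω, EE T (fun u x => w u x ω)
          (fun u x => |w u x ω - w' u x ω|)
          (T.wavN (fun u x => w' u x ω) (fun _ _ => 1) (k - 1 - i)) i u x ∂(iid V) :=
          integral_finsetSum _ fun i _ => (hE i (k - 1 - i)).1
      _ ≤ ∑ i ∈ Finset.range k, M * r ^ (k - 1) := by
          refine Finset.sum_le_sum fun i hi => ?_
          have hik : i + (k - 1 - i) = k - 1 := by
            have := Finset.mem_range.mp hi
            omega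
          refine (hE i (k - 1 - i)).2.trans ?_
          rw [hik, ← hr, hM]
          calc Real.sqrt (∫ ω, (w u x ω - w' u x ω) ^ 2 ∂(iid V)) *
                (Real.sqrt K * r ^ (k - 1)) ≤ (8 * σt) * (Real.sqrt K * r ^ (k - 1)) := by
                gcongr
            _ = _ := by ring
      _ = M * ((k : ℝ) * r ^ (k - 1)) := by
          rw [Finset.sum_const, Finset.card_range, nsmul_eq_mul]
          ring
  -- partial sums
  have hchiN : ∀ (w : V → V → (V → I) → ℝ), Equi T w → (∀ u x ω, 0 ≤ w u x ω ∧ w u x ω ≤ 1) →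
      ∀ n, ∫ ω, T.chiN (fun u x => w u x ω) n u x ∂(iid V) =
        ∑ k ∈ Finset.range (n + 1),
          ∫ ω, T.wavN (fun u x => w u x ω) (fun _ _ => 1) k u x ∂(iid V) := by
    intro w ew w01 n
    simp only [chiN_eq]
    exact integral_finsetSum _ fun k _ => iW w ew w01 k
  have hpart : ∀ n, |∫ ω, T.chiN (fun u x => w u x ω) n u x ∂(iid V) -
      ∫ ω, T.chiN (fun u x => w' u x ω) n u x ∂(iid V)| ≤ M / (1 - r) ^ 2 := by
    intro n
    rw [hchiN w ew w01, hchiN w' ew' w01', ← Finset.sum_sub_distrib]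
    refine (Finset.abs_sum_le_sum_abs _ _).trans ((Finset.sum_le_sum fun k _ =>
      hdiff k).trans ?_)
    rw [← Finset.mul_sum, le_div_iff₀ (by nlinarith [mul_pos (sub_pos.mpr hr1) (sub_pos.mpr hr1)])]
    have h1 := geom hr0.le hr1.le n
    calc (M * ∑ k ∈ Finset.range (n + 1), (k : ℝ) * r ^ (k - 1)) * (1 - r) ^ 2
        = M * ((1 - r) ^ 2 * ∑ k ∈ Finset.range (n + 1), (k : ℝ) * r ^ (k - 1)) := by
          ring
      _ ≤ M * 1 := by gcongr
      _ = M := mul_one M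
  -- limits
  have hlim : ∀ (w χ : V → V → (V → I) → ℝ), Equi T w → (∀ u x ω, 0 ≤ w u x ω ∧ w u x ω ≤ 1) →
      MemLp (χ u x) 2 (iid V) → IsChi T w χ →
      Tendsto (fun n => ∫ ω, T.chiN (fun u x => w u x ω) n u x ∂(iid V)) atTop
        (𝓝 (∫ ω, χ u x ω ∂(iid V))) := by
    intro w χ ew w01 mχ lχ
    have hmono : ∀ ω, Monotone fun n => T.chiN (fun u x => w u x ω) n u x := by
      intro ω
      refine monotone_nat_of_le_succ fun n => ?_
      rw [chiN_eq, chiN_eq, Finset.sum_range_succ _ (n + 1)]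
      have := wavN_nonneg (T := T) (fun u x => (w01 u x ω).1)
        (fun _ _ => zero_le_one (α := ℝ)) (n + 1) u x
      linarith
    have h0 : ∀ n ω, 0 ≤ T.chiN (fun u x => w u x ω) n u x := by
      intro n ω
      rw [chiN_eq]
      exact Finset.sum_nonneg fun k _ => wavN_nonneg (fun u x => (w01 u x ω).1)
        (fun _ _ => zero_le_one) k u x
    refine tendsto_integral_of_dominated_convergence (fun ω => |χ u x ω|)
      (fun n => ((ew.chiN n).meas u x).aestronglyMeasurable) (mχ.integrable one_le_two).abs ?_ ?_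
    · intro n
      filter_upwards [lχ u x h] with ω hω
      rw [Real.norm_eq_abs, abs_of_nonneg (h0 n ω)]
      exact ((hmono ω).ge_of_tendsto hω n).trans (le_abs_self _)
    · filter_upwards [lχ u x h] with ω hω
      exact hω
  have l1 := hlim w χ ew w01 (mχ u x h) (by rw [hw]; exact lχ)
  have l2 := hlim w' χ' ew' w01' (mχ' u x h) (by rw [hw']; exact lχ')
  have hfin := le_of_tendsto' (l1.sub l2).abs hpart
  refine hfin.trans ?_
  rw [hM, ← hσt]
  have hy : c * ρ / 4 / (1 + c / 8) ≤ 1 - r := by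
    rw [hr]
    refine one_sub_exp_ge (by positivity) ?_
    nlinarith
  have hy0 : 0 < c * ρ / 4 / (1 + c / 8) := by positivity
  calc 8 * σt * Real.sqrt K / (1 - r) ^ 2
      ≤ 8 * σt * Real.sqrt K / (c * ρ / 4 / (1 + c / 8)) ^ 2 := by
        gcongr
    _ = _ := by
        field_simp

end Vale.Agent.P161E
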