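import Vale.Agent.P161E.Defs

/-!
# The free Ising measure at the reconstruction threshold: further definitions
-/

open MeasureTheory Set Filter Topology
open scoped unitInterval ENNReal

namespace Vale.Agent.P161E

open Vale.Agent.P161

universe u

/-! ### Equivariant families on the space of iid labels -/

/-- An equivariant family of random variables indexed by pairs of vertices. -/
structure Equi {V : Type u} {b : ℕ} (T : RTree V b) (g : V → V → (V → I) → ℝ) : Prop where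
  meas : ∀ u x, Measurable (g u x)
  equi : ∀ (φ : T.G ≃g T.G) (u x : V), ∀ᵐ ω ∂(iid V),
    g (φ u) (φ x) (translate φ.toEquiv ω) = g u x ω

/-- `χ` is the limit of the partial sums `1 + w + w w + ...` averaged over the generations. -/
def IsChi {V : Type u} {b : ℕ} (T : RTree V b) (w χ : V → V → (V → I) → ℝ) : Prop :=
  ∀ u x, T.G.Adj u x → ∀ᵐ ω ∂(iid V),
    Tendsto (fun n => T.chiN (fun u x => w u x ω) n u x) atTop (𝓝 (χ u x ω))

/-- The data of one replica at one time, with the constants `K c M` and the rate `ρ`. -/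
structure Rep {V : Type u} {b : ℕ} (T : RTree V b) (K c M ρ θ : ℝ)
    (t χ : V → V → (V → I) → ℝ) : Prop where
  θ0 : 0 ≤ θ
  θ1 : b * θ ^ 2 ≤ 1
  θ2 : 1 / 2 ≤ b * θ ^ 2
  equi_t : Equi T t
  equi_χ : Equi T χ
  t1 : ∀ u x ω, |t u x ω| ≤ 1
  χ1 : ∀ u x ω, 1 ≤ χ u x ω
  lim_χ : IsChi T (fun u x ω => be b θ (t u x ω) ^ 2) χ
  int_χ : ∀ u x, T.G.Adj u x → Integrable (fun ω => χ u x ω ^ 4) (iid V)
  mom_χ : ∀ u x, T.G.Adj u x → ∫ ω, χ u x ω ^ 4 ∂(iid V) ≤ K / ρ ^ 4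
  tail_χ : ∀ u x, T.G.Adj u x → ∀ p : ℝ, 2 ≤ p →
    (iid V).real {ω | K * (1 / ρ + Real.log p) < χ u x ω} ≤ K * Real.exp (-p)
  tail_t : ∀ u x, T.G.Adj u x → ∀ p : ℝ, 1 ≤ p →
    (iid V).real {ω | K * p * ρ < t u x ω ^ 2} ≤ K * Real.exp (-p)
  ray : ∀ (n : ℕ) (u x : V), T.G.Adj u x → ∫ ω, T.wavN
      (fun u x => Real.exp (-(M / ρ) * (1 - be b θ (t u x ω)))) (fun _ _ => 1) n u x ∂(iid V) ≤
        K * Real.exp (-(c * n))
  decay : ∀ (n : ℕ) (u x : V), T.G.Adj u x → ∫ ω, T.wavN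
      (fun u x => be b θ (t u x ω) ^ 2) (fun _ _ => 1) n u x ∂(iid V) ≤
        K * Real.exp (-(c * ρ * n))

/-! ### Paths -/

open Classical in
/-- The neighbour of `v` which is closer to `w`. -/
noncomputable def nxt {V : Type u} {b : ℕ} (T : RTree V b) (v w : V) : V :=
  if h : ∃ y ∈ T.nb v, T.G.dist y w < T.G.dist v w then h.choose else v

/-- The product of `g` over the first `n` directed edges of the geodesic from `v` to `w`. -/
noncomputable def ppN {V : Type u} {b : ℕ} (T : RTree V b) (g : V → V → ℝ) : ℕ → V → V → ℝ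
  | 0 => fun _ _ => 1
  | n + 1 => fun v w => g v (nxt T v w) * ppN T g n (nxt T v w) w

/-- The product of `g` over the directed edges of the geodesic from `v` to `w`. -/
noncomputable def pp {V : Type u} {b : ℕ} (T : RTree V b) (g : V → V → ℝ) (v w : V) : ℝ :=
  ppN T g (T.G.dist v w) v w

/-! ### Infinite volume quantities -/

/-- the average of `chi` -/
noncomputable def chiY {V : Type u} {b : ℕ} (T : RTree V b) (μ : Measure (V → Bool)) (θ : ℝ)
    (u x : V) (Y : V → ℝ) : ℝ :=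
  T.chi (fun u x => be b θ (th T μ u x Y) ^ 2) u x

/-- The mean of `chi` at the time `(k, r)`. -/
noncomputable def ec {V : Type u} {b : ℕ} (T : RTree V b) (μ : Measure (V → Bool)) (θ : ℝ)
    (k : ℕ) (r : ℝ) (u x : V) : ℝ := ∫ q, chiY T μ θ u x (fld q.1 q.2 k r) ∂(PL μ)


section

variable {V : Type u}

/-- The hypotheses on the influence kernels. -/
structure Ker (μ : Measure (V → Bool)) (κ H : V → V → ℝ) (C : ℝ) : Prop where
  κ0 : ∀ v w, 0 ≤ κ v w
  H0 : ∀ v w, 0 ≤ H v w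
  H1 : ∀ v, 1 ≤ H v v
  conv : ∀ (D : Finset V) (v z : V), ∑ w ∈ D, κ v w * H w z ≤ C * H v z
  H2 : ∀ v, Summable fun z => H v z ^ 2
  lip : ∀ (D : Finset V) (v : V) (Y Y' : V → ℝ),
    |mean μ D v Y - mean μ D v Y'| ≤ ∑ w ∈ D, κ v w * |Y w - Y' w|
  C0 : 0 ≤ C

/-- The defining property of the infinite-volume sampler. -/
structure IsLim (μ : Measure (V → Bool)) (X : Om V → ℕ × V → I) : Prop where
  meas : Measurable X
  lim : ∀ j : ℕ × V, Tendsto (fun D : Finset V => ∫ ω, |(sol μ D ω.1 ω.2 j : ℝ) - X ω j| ∂(PO V))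
    atTop (𝓝 0)

/-- The jump of the magnetisation at `v` when the signal at the site `(k, w)` is revealed. -/
noncomputable def jump (μ : Measure (V → Bool)) (D : Finset V) (U s : ℕ × V → I) (k : ℕ)
    (v w : V) : ℝ :=
  let Y := fld U (sol μ D U s) k (U (k, w))
  let ξ := 1 - 2 * (sol μ D U s (k, w) : ℝ)
  str (U (k, w)) * ξ * cov μ D v w Y / (1 + str (U (k, w)) * ξ * mean μ D w Y)

/-- The magnetisation in finite volume at the time `(k, r)`. -/
noncomputable def MD (μ : Measure (V → Bool)) (D : Finset V) (U s : ℕ × V → I) (k : ℕ) (r : ℝ)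
    (v : V) : ℝ := mean μ D v (fld U (sol μ D U s) k r)

/-- The rate of growth in finite volume at the time `(k, r)`. -/
noncomputable def RD (μ μ' : Measure (V → Bool)) (D : Finset V) (k : ℕ) (r : ℝ) (v : V) : ℝ :=
  ∑ w ∈ D, ∫ ω, ((cov μ D v w (fld ω.1 (sol μ D ω.1 ω.2) k r) -
      cov μ' D v w (fld ω.1 (sol μ' D ω.1 ω.2) k r)) ^ 2 +
    cov μ' D v w (fld ω.1 (sol μ' D ω.1 ω.2) k r) ^ 2 *
      (MD μ D ω.1 ω.2 k r w - MD μ' D ω.1 ω.2 k r w) ^ 2) ∂(PO V)

/-- The mean square difference in finite volume. -/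
noncomputable def DD (μ μ' : Measure (V → Bool)) (D : Finset V) (k : ℕ) (r : ℝ) (v : V) : ℝ :=
  ∫ ω, (MD μ D ω.1 ω.2 k r v - MD μ' D ω.1 ω.2 k r v) ^ 2 ∂(PO V)


variable {b : ℕ}

/-- the mean square difference of the magnetisations of two samplers -/
noncomputable def Dinf (T : RTree V b) (μ μ' : Measure (V → Bool)) (X X' : Om V → ℕ × V → I)
    (k : ℕ) (r : ℝ) (v : V) : ℝ :=
  ∫ ω, (Mh T μ v (fld ω.1 (X ω) k r) - Mh T μ' v (fld ω.1 (X' ω) k r)) ^ 2 ∂(PO V)

/-- the covariance in infinite volume -/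
noncomputable def Ch (T : RTree V b) (θ : ℝ) (μ : Measure (V → Bool)) (v w : V) (Y : V → ℝ) : ℝ :=
  (1 - Mh T μ v Y ^ 2) * pp T (fun u x => θ * af θ (th T μ u x Y)) v w

/-- the growth rate in infinite volume -/
noncomputable def Rinf (T : RTree V b) (θ θ' : ℝ) (μ μ' : Measure (V → Bool))
    (X X' : Om V → ℕ × V → I) (k : ℕ) (r : ℝ) (v : V) : ℝ≥0∞ :=
  ∑' w, ∫⁻ ω, ENNReal.ofReal
    ((Ch T θ μ v w (fld ω.1 (X ω) k r) - Ch T θ' μ' v w (fld ω.1 (X' ω) k r)) ^ 2 +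
      Ch T θ' μ' v w (fld ω.1 (X' ω) k r) ^ 2 *
      (Mh T μ w (fld ω.1 (X ω) k r) - Mh T μ' w (fld ω.1 (X' ω) k r)) ^ 2) ∂(PO V)


end

end Vale.Agent.P161E
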