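import Vale.Agent.P161E.DecompC
import Vale.Agent.P161E.Defs2

/-!
# The invariant orthogonal decomposition
-/

open MeasureTheory Set Filter Topology
open scoped unitInterval ENNReal

namespace Vale.Agent.P161E

open Vale.Agent.P161

universe u

namespace DecompAux

variable {V : Type u} {ι : Type} [Zero ι]

/-- An orthonormal basis of `L²(I)` (as in `exists_basis`), with index `0` for the constant. -/
structure Bas (e : ι → I → ℝ) : Prop where
  em : ∀ i, Measurable (e i)
  e2 : ∀ i, MemLp (e i) 2 (volume : Measure I)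
  e0 : e 0 = fun _ => 1
  e1 : ∀ i, ∫ t, e i t * e i t = 1
  eo : ∀ i j, i ≠ j → ∫ t, e i t * e j t = 0
  ec : ∀ h : I → ℝ, MemLp h 2 (volume : Measure I) → (∀ i, ∫ t, h t * e i t = 0) →
      h =ᵐ[volume] 0

/-- the product basis -/
noncomputable def EE (e : ι → I → ℝ) (α : V →₀ ι) : (V → I) → ℝ :=
  pf α.support (fun v => e (α v))

/-- coefficients -/
noncomputable def coef (e : ι → I → ℝ) (f : (V → I) → ℝ) (α : V →₀ ι) : ℝ :=
  ∫ x, f x * EE e α x ∂(iid V)

open Classical in
/-- the part of the coefficient seen by `z` -/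
noncomputable def wt (e : ι → I → ℝ) (f : (V → I) → ℝ) (z : V) (α : V →₀ ι) : ℝ :=
  if z ∈ α.support then coef e f α ^ 2 / α.support.card else 0

open Classical in
/-- the influence of `z` on `f` -/
noncomputable def NN (e : ι → I → ℝ) (f : (V → I) → ℝ) (z : V) : ℝ :=
  if MemLp f 2 (iid V) then √(∑' α, wt e f z α) else 0

lemma EE_eq {e : ι → I → ℝ} (he : Bas e) (α : V →₀ ι) {S : Finset V} (h : α.support ⊆ S)
    (x : V → I) : pf S (fun v => e (α v)) x = EE e α x := by
  unfold EE pf
  symm
  apply Finset.prod_subset h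
  intro v _ hv
  show e (α v) (x v) = 1
  rw [Finsupp.notMem_support_iff.1 hv, he.e0]

lemma memLp_EE {e : ι → I → ℝ} (he : Bas e) (α : V →₀ ι) : MemLp (EE e α) 2 (iid V) :=
  memLp_pf _ (fun _ => he.em _) (fun _ => he.e2 _)

open Classical in
lemma orth {e : ι → I → ℝ} (he : Bas e) (α β : V →₀ ι) :
    ∫ x, EE e α x * EE e β x ∂(iid V) = if α = β then 1 else 0 := by
  set S := α.support ∪ β.support with hS
  have h1 : ∀ x, EE e α x * EE e β x = pf S (fun v t => e (α v) t * e (β v) t) x := by
    intro x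
    rw [← EE_eq he α (S := S) Finset.subset_union_left, ← EE_eq he β (S := S)
      Finset.subset_union_right]
    unfold pf
    rw [← Finset.prod_mul_distrib]
  simp_rw [h1]
  rw [integral_pf S (h := fun v t => e (α v) t * e (β v) t) (fun v => (he.em _).mul (he.em _))]
  split_ifs with h
  · subst h
    exact Finset.prod_eq_one fun v _ => he.e1 _
  · have : ∃ v, α v ≠ β v := by
      by_contra hc
      push Not at hc
      exact h (Finsupp.ext hc)
    obtain ⟨v, hv⟩ := this
    have hvS : v ∈ S := by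
      by_contra hc
      rw [hS, Finset.mem_union, not_or, Finsupp.notMem_support_iff, Finsupp.notMem_support_iff]
        at hc
      exact hv (hc.1.trans hc.2.symm)
    exact Finset.prod_eq_zero hvS (he.eo _ _ hv)

lemma inner_toLp {f g : (V → I) → ℝ} (hf : MemLp f 2 (iid V)) (hg : MemLp g 2 (iid V)) :
    inner ℝ (hf.toLp f) (hg.toLp g) = ∫ x, f x * g x ∂(iid V) := by
  rw [L2.inner_def]
  refine integral_congr_ae ?_
  filter_upwards [hf.coeFn_toLp, hg.coeFn_toLp] with x h1 h2
  rw [h1, h2]
  simp [mul_comm]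

/-- Parseval -/
lemma parseval {e : ι → I → ℝ} (he : Bas e) {f : (V → I) → ℝ} (hf : MemLp f 2 (iid V)) :
    HasSum (fun α : V →₀ ι => coef e f α ^ 2) (∫ x, f x ^ 2 ∂(iid V)) := by
  classical
  set v : (V →₀ ι) → Lp ℝ 2 (iid V) := fun α => (memLp_EE he α).toLp (EE e α) with hv
  have hon : Orthonormal ℝ v := by
    rw [orthonormal_iff_ite]
    intro α β
    rw [hv]
    simp only
    rw [inner_toLp, orth he]
  have hbot : (Submodule.span ℝ (Set.range v))ᗮ = ⊥ := by
    rw [Submodule.eq_bot_iff]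
    intro x hx
    have h1 : ∀ α, inner ℝ (v α) x = (0 : ℝ) := fun α =>
      hx (v α) (Submodule.subset_span (mem_range_self α))
    have h2 : ∀ α : V →₀ ι, ∫ y, (x : (V → I) → ℝ) y * EE e α y ∂(iid V) = 0 := by
      intro α
      rw [← h1 α, L2.inner_def]
      refine integral_congr_ae ?_
      filter_upwards [(memLp_EE he α).coeFn_toLp] with y hy
      rw [hv]
      simp only [hy]
      simp
    have h3 : (x : (V → I) → ℝ) =ᵐ[iid V] 0 := by
      refine complete he.em he.e2 he.ec 0 (Lp.stronglyMeasurable x).measurable (Lp.memLp x) ?_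
      intro S α
      set β : V →₀ ι := Finsupp.onFinset S (fun v => if v ∈ S then α v else 0)
        (by intro v hv; by_contra hc; simp [hc] at hv) with hβ
      have h4 : ∀ y, pf S (fun v => e (α v)) y = EE e β y := by
        intro y
        rw [← EE_eq he β (S := S) Finsupp.support_onFinset_subset]
        unfold pf
        refine Finset.prod_congr rfl fun v hv => ?_
        show e (α v) (y v) = e (β v) (y v)
        rw [hβ, Finsupp.onFinset_apply, if_pos hv]
      simp_rw [h4]
      exact h2 β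
    exact (Lp.eq_zero_iff_ae_eq_zero).2 h3
  set b := HilbertBasis.mkOfOrthogonalEqBot hon hbot with hb
  have h5 := b.hasSum_inner_mul_inner (hf.toLp f) (hf.toLp f)
  rw [inner_toLp hf hf] at h5
  have h6 : ∀ α, inner ℝ (hf.toLp f) (b α) * inner ℝ (b α) (hf.toLp f) = coef e f α ^ 2 := by
    intro α
    rw [hb, HilbertBasis.coe_mkOfOrthogonalEqBot, real_inner_comm (hf.toLp f), hv]
    simp only
    rw [inner_toLp, ← sq]
    rfl
  simp_rw [h6] at h5
  have h7 : ∀ x, f x * f x = f x ^ 2 := fun x => (sq (f x)).symm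
  simp_rw [h7] at h5
  exact h5

lemma coef_add {e : ι → I → ℝ} (he : Bas e) {f g : (V → I) → ℝ} (hf : MemLp f 2 (iid V))
    (hg : MemLp g 2 (iid V)) (α : V →₀ ι) : coef e (f + g) α = coef e f α + coef e g α := by
  unfold coef
  have i1 : Integrable (fun x => f x * EE e α x) (iid V) := hf.integrable_mul (memLp_EE he α)
  have i2 : Integrable (fun x => g x * EE e α x) (iid V) := hg.integrable_mul (memLp_EE he α)
  rw [← integral_add i1 i2]
  refine integral_congr_ae (Eventually.of_forall fun x => ?_)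
  simp only [Pi.add_apply, add_mul]

lemma coef_smul (e : ι → I → ℝ) (c : ℝ) (f : (V → I) → ℝ) (α : V →₀ ι) :
    coef e (c • f) α = c * coef e f α := by
  unfold coef
  rw [← integral_const_mul]
  refine integral_congr_ae (Eventually.of_forall fun x => ?_)
  simp only [Pi.smul_apply, smul_eq_mul, mul_assoc]

lemma coef_congr (e : ι → I → ℝ) {f g : (V → I) → ℝ} (h : f =ᵐ[iid V] g) (α : V →₀ ι) :
    coef e f α = coef e g α := by
  unfold coef
  refine integral_congr_ae ?_
  filter_upwards [h] with x hx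
  rw [hx]

lemma wt_nonneg (e : ι → I → ℝ) (f : (V → I) → ℝ) (z : V) (α : V →₀ ι) : 0 ≤ wt e f z α := by
  unfold wt
  split_ifs
  · positivity
  · exact le_rfl

lemma wt_le (e : ι → I → ℝ) (f : (V → I) → ℝ) (z : V) (α : V →₀ ι) :
    wt e f z α ≤ coef e f α ^ 2 := by
  unfold wt
  split_ifs with h
  · have h1 : (1 : ℝ) ≤ α.support.card := by
      have : 0 < α.support.card := Finset.card_pos.2 ⟨z, h⟩
      exact_mod_cast this
    exact div_le_self (sq_nonneg _) h1
  · positivity

lemma summable_wt {e : ι → I → ℝ} (he : Bas e) {f : (V → I) → ℝ} (hf : MemLp f 2 (iid V))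
    (z : V) : Summable (wt e f z) :=
  Summable.of_nonneg_of_le (wt_nonneg e f z) (wt_le e f z) (parseval he hf).summable

lemma NN_sq {e : ι → I → ℝ} {f : (V → I) → ℝ} (hf : MemLp f 2 (iid V))
    (z : V) : NN e f z ^ 2 = ∑' α, wt e f z α := by
  unfold NN
  rw [if_pos hf, Real.sq_sqrt (tsum_nonneg (wt_nonneg e f z))]

lemma NN_nonneg (e : ι → I → ℝ) (f : (V → I) → ℝ) (z : V) : 0 ≤ NN e f z := by
  unfold NN
  split_ifs
  · exact Real.sqrt_nonneg _
  · exact le_rfl

open Classical in
/-- the square root of `wt` -/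
noncomputable def rt (e : ι → I → ℝ) (f : (V → I) → ℝ) (z : V) (α : V →₀ ι) : ℝ :=
  if z ∈ α.support then coef e f α / √(α.support.card) else 0

lemma rt_sq (e : ι → I → ℝ) (f : (V → I) → ℝ) (z : V) (α : V →₀ ι) :
    rt e f z α ^ 2 = wt e f z α := by
  unfold rt wt
  split_ifs
  · rw [div_pow, Real.sq_sqrt (Nat.cast_nonneg _)]
  · norm_num

lemma NN_add {e : ι → I → ℝ} (he : Bas e) {f g : (V → I) → ℝ} (z : V) (hf : MemLp f 2 (iid V))
    (hg : MemLp g 2 (iid V)) : NN e (f + g) z ≤ NN e f z + NN e g z := by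
  have h1 : ∀ α, wt e (f + g) z α ≤ (|rt e f z α| + |rt e g z α|) ^ (2 : ℝ) := by
    intro α
    rw [Real.rpow_two, ← rt_sq]
    have : rt e (f + g) z α = rt e f z α + rt e g z α := by
      unfold rt
      split_ifs
      · rw [coef_add he hf hg, add_div]
      · norm_num
    rw [this, ← sq_abs]
    exact pow_le_pow_left₀ (abs_nonneg _) (abs_add_le _ _) 2
  have e1 : ∀ (f : (V → I) → ℝ) α, |rt e f z α| ^ (2 : ℝ) = wt e f z α := by
    intro f α
    rw [Real.rpow_two, sq_abs, rt_sq]
  have h2 := Real.Lp_add_le_tsum_of_nonneg (p := 2) (f := fun α => |rt e f z α|)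
    (g := fun α => |rt e g z α|) one_le_two (fun _ => abs_nonneg _) (fun _ => abs_nonneg _)
    (by simp_rw [e1]; exact summable_wt he hf z) (by simp_rw [e1]; exact summable_wt he hg z)
  simp_rw [e1, ← Real.sqrt_eq_rpow] at h2
  have h3 : NN e (f + g) z = √(∑' α, wt e (f + g) z α) := by
    unfold NN
    rw [if_pos (hf.add hg)]
  have h4 : NN e f z = √(∑' α, wt e f z α) := by
    unfold NN
    rw [if_pos hf]
  have h5 : NN e g z = √(∑' α, wt e g z α) := by
    unfold NN
    rw [if_pos hg]
  rw [h3, h4, h5]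
  refine le_trans (Real.sqrt_le_sqrt ?_) h2.2
  exact (summable_wt he (hf.add hg) z).tsum_le_tsum h1 h2.1

lemma NN_smul {e : ι → I → ℝ} (c : ℝ) {f : (V → I) → ℝ} (z : V)
    (hf : MemLp f 2 (iid V)) : NN e (c • f) z = |c| * NN e f z := by
  unfold NN
  rw [if_pos (hf.const_smul c), if_pos hf]
  have h1 : ∀ α, wt e (c • f) z α = c ^ 2 * wt e f z α := by
    intro α
    unfold wt
    split_ifs
    · rw [coef_smul]; ring
    · ring
  simp_rw [h1]
  rw [tsum_mul_left, Real.sqrt_mul (sq_nonneg c), Real.sqrt_sq_eq_abs]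

lemma NN_congr {e : ι → I → ℝ} {f g : (V → I) → ℝ} (z : V)
    (h : f =ᵐ[iid V] g) : NN e f z = NN e g z := by
  unfold NN
  have h1 : MemLp f 2 (iid V) ↔ MemLp g 2 (iid V) := memLp_congr_ae h
  have h2 : ∀ α, wt e f z α = wt e g z α := by
    intro α
    unfold wt
    rw [coef_congr e h]
  simp_rw [h2]
  by_cases h3 : MemLp f 2 (iid V)
  · rw [if_pos h3, if_pos (h1.1 h3)]
  · rw [if_neg h3, if_neg (fun h4 => h3 (h1.2 h4))]

lemma NN_hasSum {e : ι → I → ℝ} (he : Bas e) {f : (V → I) → ℝ} (hf : MemLp f 2 (iid V)) :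
    HasSum (fun z => NN e f z ^ 2) (∫ ω, (f ω - ∫ ω', f ω' ∂(iid V)) ^ 2 ∂(iid V)) := by
  classical
  -- sum over `z` for a fixed `α`
  have h1 : ∀ α : V →₀ ι, HasSum (fun z => wt e f z α) (if α = 0 then 0 else coef e f α ^ 2) := by
    intro α
    have h2 : HasSum (fun z => wt e f z α) (∑ z ∈ α.support, wt e f z α) :=
      hasSum_sum_of_ne_finset_zero (fun z hz => by unfold wt; rw [if_neg hz])
    have h3 : ∑ z ∈ α.support, wt e f z α = if α = 0 then 0 else coef e f α ^ 2 := by
      have h4 : ∀ z ∈ α.support, wt e f z α = coef e f α ^ 2 / α.support.card := by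
        intro z hz
        unfold wt
        rw [if_pos hz]
      rw [Finset.sum_congr rfl h4, Finset.sum_const, nsmul_eq_mul]
      split_ifs with h
      · subst h; simp
      · have : (α.support.card : ℝ) ≠ 0 := by
          rw [Nat.cast_ne_zero, Ne, Finset.card_eq_zero, Finsupp.support_eq_empty]
          exact h
        field_simp
    rw [← h3]
    exact h2
  have hpar := parseval he hf
  have hs1 : Summable (fun α : V →₀ ι => if α = 0 then 0 else coef e f α ^ 2) := by
    refine Summable.of_nonneg_of_le (fun α => ?_) (fun α => ?_) hpar.summable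
    · split_ifs
      · exact le_rfl
      · positivity
    · split_ifs
      · positivity
      · exact le_rfl
  -- the sum over the non-zero indices
  have h5 : HasSum (fun α : V →₀ ι => if α = 0 then 0 else coef e f α ^ 2)
      (∫ ω, (f ω - ∫ ω', f ω' ∂(iid V)) ^ 2 ∂(iid V)) := by
    have h6 : HasSum (fun α : V →₀ ι => if α = 0 then coef e f 0 ^ 2 else 0) (coef e f 0 ^ 2) := by
      have := hasSum_ite_eq (0 : V →₀ ι) (coef e f 0 ^ 2)
      exact this
    have h7 := hpar.sub h6
    have h8 : (fun α : V →₀ ι => coef e f α ^ 2 - if α = 0 then coef e f 0 ^ 2 else 0) =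
        fun α => if α = 0 then 0 else coef e f α ^ 2 := by
      funext α
      split_ifs with h
      · subst h; simp
      · simp
    rw [h8] at h7
    have h9 : coef e f 0 = ∫ ω, f ω ∂(iid V) := by
      unfold coef EE pf
      simp
    have hfi : Integrable f (iid V) := hf.integrable one_le_two
    have h10 : ∫ ω, (f ω - ∫ ω', f ω' ∂(iid V)) ^ 2 ∂(iid V) =
        ∫ x, f x ^ 2 ∂(iid V) - coef e f 0 ^ 2 := by
      rw [h9]
      set m := ∫ ω, f ω ∂(iid V) with hm
      have e1 : ∀ ω, (f ω - m) ^ 2 = f ω ^ 2 - 2 * m * f ω + m ^ 2 := fun ω => by ring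
      simp_rw [e1]
      have i1 : Integrable (fun ω => f ω ^ 2) (iid V) := hf.integrable_sq
      have i2 : Integrable (fun ω => 2 * m * f ω) (iid V) := hfi.const_mul _
      have i12 : Integrable (fun ω => f ω ^ 2 - 2 * m * f ω) (iid V) := i1.sub i2
      rw [integral_add i12 (integrable_const _), integral_sub i1 i2, integral_const_mul, ← hm]
      simp
      ring
    rw [h10]
    exact h7
  -- the sum over the product
  set F : (V →₀ ι) × V → ℝ := fun p => wt e f p.2 p.1 with hF
  have hF0 : 0 ≤ F := fun p => wt_nonneg e f p.2 p.1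
  have hFs : Summable F := by
    rw [summable_prod_of_nonneg hF0]
    refine ⟨fun α => (h1 α).summable, ?_⟩
    have : (fun α : V →₀ ι => ∑' z, F (α, z)) = fun α => if α = 0 then 0 else coef e f α ^ 2 := by
      funext α
      exact (h1 α).tsum_eq
    rw [this]
    exact hs1
  have h11 : HasSum (fun α : V →₀ ι => if α = 0 then 0 else coef e f α ^ 2) (∑' p, F p) :=
    hFs.hasSum.prod_fiberwise h1
  have h12 : ∑' p, F p = ∫ ω, (f ω - ∫ ω', f ω' ∂(iid V)) ^ 2 ∂(iid V) := h11.unique h5
  have h13 : HasSum (fun q : V × (V →₀ ι) => F (q.2, q.1))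
      (∫ ω, (f ω - ∫ ω', f ω' ∂(iid V)) ^ 2 ∂(iid V)) := by
    have h14 : HasSum F (∫ ω, (f ω - ∫ ω', f ω' ∂(iid V)) ^ 2 ∂(iid V)) := by
      rw [← h12]
      exact hFs.hasSum
    have h17 := (Equiv.prodComm V (V →₀ ι)).hasSum_iff.2 h14
    have h18 : F ∘ (Equiv.prodComm V (V →₀ ι)) = fun q : V × (V →₀ ι) => F (q.2, q.1) := by
      funext q
      rfl
    rw [h18] at h17
    exact h17
  have h15 := h13.prod_fiberwise (g := fun z => ∑' α, wt e f z α)
    (fun z => (summable_wt he hf z).hasSum)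
  have h16 : (fun z => NN e f z ^ 2) = fun z => ∑' α, wt e f z α := by
    funext z
    exact NN_sq hf z
  rw [h16]
  exact h15

lemma NN_translate {e : ι → I → ℝ} (he : Bas e) (φ : V ≃ V) {f : (V → I) → ℝ} (z : V)
    (hf : MemLp f 2 (iid V)) : NN e (fun ω => f (translate φ ω)) z = NN e f (φ z) := by
  classical
  have hmp : MeasurePreserving (translate φ : (V → I) → V → I) (iid V) (iid V) :=
    ⟨measurable_translate φ, iid_translate φ⟩
  have hf' : MemLp (fun ω => f (translate φ ω)) 2 (iid V) := hf.comp_measurePreserving hmp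
  unfold NN
  rw [if_pos hf', if_pos hf]
  congr 1
  set T : (V →₀ ι) ≃ (V →₀ ι) := Finsupp.equivCongrLeft φ with hT
  have hTa : ∀ (α : V →₀ ι) (v : V), T α v = α (φ.symm v) := by
    intro α v
    rw [hT, Finsupp.equivCongrLeft_apply, Finsupp.equivMapDomain_apply]
  have hTs : ∀ α : V →₀ ι, (T α).support = α.support.map φ.toEmbedding := by
    intro α
    ext v
    rw [Finsupp.mem_support_iff, hTa, Finset.mem_map_equiv, Finsupp.mem_support_iff]
  have hc : ∀ α : V →₀ ι, coef e (fun ω => f (translate φ ω)) α = coef e f (T α) := by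
    intro α
    unfold coef
    have h1 : ∀ x : V → I, EE e α x = EE e (T α) (translate φ x) := by
      intro x
      unfold EE pf
      rw [hTs, Finset.prod_map]
      refine Finset.prod_congr rfl fun v _ => ?_
      simp only [Vale.Agent.P161.translate, Equiv.coe_toEmbedding, hTa, Equiv.symm_apply_apply]
    simp_rw [h1]
    have h2 : AEStronglyMeasurable (fun y => f y * EE e (T α) y)
        (Measure.map (translate φ) (iid V)) := by
      rw [iid_translate]
      exact (hf.integrable_mul (memLp_EE he (T α))).1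
    conv_rhs => rw [← iid_translate φ]
    rw [integral_map (measurable_translate φ).aemeasurable h2]
  refine Eq.trans ?_ (T.tsum_eq (wt e f (φ z)))
  refine tsum_congr fun α => ?_
  unfold wt
  have h3 : φ z ∈ (T α).support ↔ z ∈ α.support := by
    rw [hTs, Finset.mem_map_equiv, Equiv.symm_apply_apply]
  rw [hc, hTs, Finset.card_map]
  rw [hTs] at h3
  by_cases h4 : z ∈ α.support
  · rw [if_pos h4, if_pos (h3.2 h4)]
  · rw [if_neg h4, if_neg (fun h5 => h4 (h3.1 h5))]

end DecompAux

open DecompAux in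
/-- An invariant orthogonal decomposition of the square integrable functions of iid labels. -/
theorem exists_decomp (V : Type u) [Countable V] :
    ∃ N : ((V → I) → ℝ) → V → ℝ,
      (∀ f z, 0 ≤ N f z) ∧
      (∀ f g z, MemLp f 2 (iid V) → MemLp g 2 (iid V) → N (f + g) z ≤ N f z + N g z) ∧
      (∀ (c : ℝ) f z, MemLp f 2 (iid V) → N (c • f) z = |c| * N f z) ∧
      (∀ f g z, f =ᵐ[iid V] g → N f z = N g z) ∧
      (∀ f, MemLp f 2 (iid V) →
        HasSum (fun z => N f z ^ 2) (∫ ω, (f ω - ∫ ω', f ω' ∂(iid V)) ^ 2 ∂(iid V))) ∧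
      (∀ (φ : V ≃ V) f z, MemLp f 2 (iid V) →
        N (fun ω => f (translate φ ω)) z = N f (φ z)) := by
  obtain ⟨ι, o, e, a1, a2, a3, a4, a5, a6⟩ := exists_basis
  let _ : Zero ι := ⟨o⟩
  have he : Bas e := ⟨a1, a2, a3, a4, a5, a6⟩
  exact ⟨NN e, NN_nonneg e, fun f g z hf hg => NN_add he z hf hg,
    fun c f z hf => NN_smul c z hf, fun f g z h => NN_congr z h,
    fun f hf => NN_hasSum he hf, fun φ f z hf => NN_translate he φ z hf⟩

end Vale.Agent.P161E
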