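import Vale.Agent.P161E.TreeSide
import Vale.Agent.P161E.Decomp

/-!
# Tools for the decorrelation bounds: sums of the decomposition over sets
-/

open MeasureTheory Set Filter Topology
open scoped unitInterval ENNReal

namespace Vale.Agent.P161E

open Vale.Agent.P161 Vale.Agent.P161.ExistAux

universe u

namespace Dec

variable {V : Type u} {b : ℕ} {T : RTree V b}

/-! ### Sums of the decomposition -/

/-- the properties of the decomposition -/
structure IsDec (N : ((V → I) → ℝ) → V → ℝ) : Prop where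
  nonneg : ∀ f z, 0 ≤ N f z
  add : ∀ f g z, MemLp f 2 (iid V) → MemLp g 2 (iid V) → N (f + g) z ≤ N f z + N g z
  smul : ∀ (c : ℝ) f z, MemLp f 2 (iid V) → N (c • f) z = |c| * N f z
  congr : ∀ f g z, f =ᵐ[iid V] g → N f z = N g z
  sum : ∀ f, MemLp f 2 (iid V) →
    HasSum (fun z => N f z ^ 2) (∫ ω, (f ω - ∫ ω', f ω' ∂(iid V)) ^ 2 ∂(iid V))
  equi : ∀ (φ : V ≃ V) f z, MemLp f 2 (iid V) → N (fun ω => f (translate φ ω)) z = N f (φ z)

theorem exists_isDec (V : Type u) [Countable V] :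
    ∃ N : ((V → I) → ℝ) → V → ℝ, IsDec N := by
  obtain ⟨N, h1, h2, h3, h4, h5, h6⟩ := exists_decomp V
  exact ⟨N, h1, h2, h3, h4, h5, h6⟩

/-- the sum over the set `S` -/
noncomputable def SS (N : ((V → I) → ℝ) → V → ℝ) (f : (V → I) → ℝ) (S : Set V) : ℝ :=
  ∑' z, S.indicator (fun z => N f z ^ 2) z

variable {N : ((V → I) → ℝ) → V → ℝ}

theorem IsDec.zero (hN : IsDec N) (z : V) : N 0 z = 0 := by
  have := hN.smul 0 0 z MemLp.zero
  simpa using this

theorem IsDec.sum_le (hN : IsDec N) {ι : Type*} (s : Finset ι) (f : ι → (V → I) → ℝ)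
    (hf : ∀ i ∈ s, MemLp (f i) 2 (iid V)) (z : V) :
    N (∑ i ∈ s, f i) z ≤ ∑ i ∈ s, N (f i) z := by
  classical
  induction s using Finset.induction_on with
  | empty => simp [hN.zero]
  | insert i s his ih =>
    rw [Finset.sum_insert his, Finset.sum_insert his]
    have h1 : MemLp (f i) 2 (iid V) := hf i (Finset.mem_insert_self _ _)
    have h2 : ∀ j ∈ s, MemLp (f j) 2 (iid V) := fun j hj => hf j (Finset.mem_insert_of_mem hj)
    have h3 : MemLp (∑ j ∈ s, f j) 2 (iid V) := memLp_finsetSum' s h2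
    linarith [hN.add (f i) (∑ j ∈ s, f j) z h1 h3, ih h2]

theorem IsDec.summable (hN : IsDec N) {f : (V → I) → ℝ} (hf : MemLp f 2 (iid V)) :
    Summable (fun z => N f z ^ 2) := (hN.sum f hf).summable

theorem IsDec.summable_ind (hN : IsDec N) {f : (V → I) → ℝ} (hf : MemLp f 2 (iid V))
    (S : Set V) : Summable (S.indicator (fun z => N f z ^ 2)) := (hN.summable hf).indicator S

theorem SS_nonneg (f : (V → I) → ℝ) (S : Set V) : 0 ≤ SS N f S :=
  tsum_nonneg fun z => Set.indicator_nonneg (fun _ _ => sq_nonneg _) z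

theorem IsDec.SS_mono (hN : IsDec N) {f : (V → I) → ℝ} (hf : MemLp f 2 (iid V)) {S S' : Set V}
    (h : S ⊆ S') : SS N f S ≤ SS N f S' := by
  refine (hN.summable_ind hf S).tsum_le_tsum (fun z => ?_) (hN.summable_ind hf S')
  exact Set.indicator_le_indicator_of_subset h (fun _ => sq_nonneg _) z

theorem IsDec.SS_union (hN : IsDec N) {f : (V → I) → ℝ} (hf : MemLp f 2 (iid V)) {S S' : Set V}
    (h : Disjoint S S') : SS N f (S ∪ S') = SS N f S + SS N f S' := by
  unfold SS
  rw [← (hN.summable_ind hf S).tsum_add (hN.summable_ind hf S')]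
  refine tsum_congr fun z => ?_
  rw [Set.indicator_union_of_disjoint h]

theorem IsDec.SS_univ (hN : IsDec N) {f : (V → I) → ℝ} (hf : MemLp f 2 (iid V)) :
    SS N f Set.univ = ∫ ω, (f ω - ∫ ω', f ω' ∂(iid V)) ^ 2 ∂(iid V) := by
  unfold SS
  rw [Set.indicator_univ]
  exact (hN.sum f hf).tsum_eq

/-- disjoint sets -/
theorem IsDec.sum_SS_le (hN : IsDec N) {f : (V → I) → ℝ} (hf : MemLp f 2 (iid V))
    {ι : Type*} (s : Finset ι) (S : ι → Set V) (S' : Set V) (h1 : ∀ i ∈ s, S i ⊆ S')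
    (h2 : ∀ i ∈ s, ∀ j ∈ s, i ≠ j → Disjoint (S i) (S j)) :
    ∑ i ∈ s, SS N f (S i) ≤ SS N f S' := by
  classical
  have key : ∀ t : Finset ι, t ⊆ s → ∑ i ∈ t, SS N f (S i) = SS N f (⋃ i ∈ t, S i) := by
    intro t
    induction t using Finset.induction_on with
    | empty =>
      intro _
      simp [SS]
    | insert i t hit ih =>
      intro ht
      rw [Finset.sum_insert hit, ih ((Finset.subset_insert _ _).trans ht),
        Finset.set_biUnion_insert, hN.SS_union hf]
      rw [Set.disjoint_iUnion_right]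
      intro j
      rw [Set.disjoint_iUnion_right]
      intro hj
      exact h2 i (ht (Finset.mem_insert_self _ _)) j (ht (Finset.mem_insert_of_mem hj))
        (fun h => hit (h ▸ hj))
  rw [key s (Finset.Subset.refl _)]
  exact hN.SS_mono hf (Set.iUnion₂_subset h1)

/-- translation -/
theorem IsDec.SS_map (hN : IsDec N) {f g : (V → I) → ℝ} (hf : MemLp f 2 (iid V)) (φ : V ≃ V)
    (h : ∀ᵐ ω ∂(iid V), f (translate φ ω) = g ω) {S S' : Set V}
    (hS : ∀ z, φ z ∈ S ↔ z ∈ S') : SS N g S' = SS N f S := by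
  unfold SS
  rw [← φ.tsum_eq (S.indicator (fun z => N f z ^ 2))]
  refine tsum_congr fun z => ?_
  have h1 : N g z = N f (φ z) := by
    rw [← hN.equi φ f z hf]
    exact (hN.congr _ _ z h).symm
  by_cases hz : z ∈ S'
  · rw [Set.indicator_of_mem hz, Set.indicator_of_mem ((hS z).mpr hz), h1]
  · rw [Set.indicator_of_notMem hz, Set.indicator_of_notMem (fun h => hz ((hS z).mp h))]

end Dec

end Vale.Agent.P161E
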