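import Vale.Agent.P161.Limit

/-!
# An orthonormal basis of `L^2(I)` and products of functions of single labels
-/

open MeasureTheory Set Filter Topology
open scoped unitInterval ENNReal

namespace Vale.Agent.P161E

open Vale.Agent.P161

universe u

namespace DecompAux

/-- An orthonormal basis of `L²(I)` containing the constant one, by measurable representatives. -/
theorem exists_basis : ∃ (ι : Type) (o : ι) (e : ι → I → ℝ),
    (∀ i, Measurable (e i)) ∧ (∀ i, MemLp (e i) 2 (volume : Measure I)) ∧
    (e o = fun _ => 1) ∧ (∀ i, ∫ t, e i t * e i t = 1) ∧ (∀ i j, i ≠ j → ∫ t, e i t * e j t = 0) ∧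
    ∀ h : I → ℝ, MemLp h 2 (volume : Measure I) → (∀ i, ∫ t, h t * e i t = 0) →
      h =ᵐ[volume] 0 := by
  classical
  set one : Lp ℝ 2 (volume : Measure I) := (memLp_const (1 : ℝ)).toLp (fun _ : I => (1 : ℝ)) with h1
  have hone : (one : I → ℝ) =ᵐ[volume] fun _ => 1 := MemLp.coeFn_toLp _
  have hinner : ∀ f g : Lp ℝ 2 (volume : Measure I), inner ℝ f g = ∫ t, f t * g t := by
    intro f g
    rw [L2.inner_def]
    refine integral_congr_ae (Eventually.of_forall fun t => ?_)
    simp [mul_comm]
  have hnorm : ‖one‖ = 1 := by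
    have : inner ℝ one one = (1 : ℝ) := by
      rw [hinner]
      have : ∫ t, (one : I → ℝ) t * (one : I → ℝ) t = ∫ t : I, (1 : ℝ) := by
        refine integral_congr_ae ?_
        filter_upwards [hone] with t ht
        rw [ht]; norm_num
      rw [this]; simp
    rw [real_inner_self_eq_norm_sq] at this
    have h0 := norm_nonneg one
    nlinarith [sq_nonneg (‖one‖ - 1)]
  have horth : Orthonormal ℝ ((↑) : ({one} : Set (Lp ℝ 2 (volume : Measure I))) →
      Lp ℝ 2 (volume : Measure I)) := by
    constructor
    · rintro ⟨x, hx⟩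
      rw [mem_singleton_iff] at hx
      subst hx
      exact hnorm
    · rintro ⟨x, hx⟩ ⟨y, hy⟩ hxy
      rw [mem_singleton_iff] at hx hy
      exact absurd (Subtype.ext (hx.trans hy.symm)) hxy
  obtain ⟨w, b, hw, hb⟩ := horth.exists_hilbertBasis_extension
  have hwo : one ∈ w := hw rfl
  set e : w → I → ℝ := fun i => if (i : Lp ℝ 2 (volume : Measure I)) = one then fun _ => 1
    else (i : Lp ℝ 2 (volume : Measure I)) with he
  have hae : ∀ i : w, e i =ᵐ[volume] ((i : Lp ℝ 2 (volume : Measure I)) : I → ℝ) := by
    intro i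
    simp only [he]
    split_ifs with h
    · rw [h]; exact hone.symm
    · exact Filter.EventuallyEq.rfl
  have hmul : ∀ i j : w, ∫ t, e i t * e j t =
      inner ℝ (i : Lp ℝ 2 (volume : Measure I)) (j : Lp ℝ 2 (volume : Measure I)) := by
    intro i j
    rw [hinner]
    refine integral_congr_ae ?_
    filter_upwards [hae i, hae j] with t h1 h2
    rw [h1, h2]
  have hbo := b.orthonormal
  rw [hb] at hbo
  refine ⟨w, ⟨one, hwo⟩, e, ?_, ?_, ?_, ?_, ?_, ?_⟩
  · intro i
    simp only [he]
    split_ifs with h
    · exact measurable_const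
    · exact (Lp.stronglyMeasurable _).measurable
  · intro i
    exact (memLp_congr_ae (hae i)).2 (Lp.memLp _)
  · simp [he]
  · intro i
    rw [hmul, real_inner_self_eq_norm_sq, hbo.1 i]; norm_num
  · intro i j hij
    rw [hmul]
    exact hbo.2 hij
  · intro h hh h0
    have h2 : ∀ i, inner ℝ (b i) (hh.toLp h) = (0 : ℝ) := by
      intro i
      rw [hb, hinner, ← h0 i]
      refine integral_congr_ae ?_
      filter_upwards [hae i, hh.coeFn_toLp] with t h1 h2
      rw [h2, ← h1, mul_comm]
    have h3 : hh.toLp h = 0 := by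
      have := (b.hasSum_inner_mul_inner (hh.toLp h) (hh.toLp h))
      have h4 : (fun i => inner ℝ (hh.toLp h) (b i) * inner ℝ (b i) (hh.toLp h)) =
          fun _ => (0 : ℝ) := by
        funext i
        rw [h2 i, mul_zero]
      rw [h4] at this
      have h5 := this.unique hasSum_zero
      exact inner_self_eq_zero.1 h5
    have h6 := hh.coeFn_toLp
    rw [h3] at h6
    exact h6.symm.trans (Lp.coeFn_zero _ _ _)



/-! ### Products of functions of single coordinates -/

/-- product of functions of the coordinates in `S` -/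
noncomputable def pf {V : Type u} (S : Finset V) (h : V → I → ℝ) (x : V → I) : ℝ :=
  ∏ v ∈ S, h v (x v)

variable {V : Type u}

lemma measurable_pf (S : Finset V) {h : V → I → ℝ} (hm : ∀ v, Measurable (h v)) :
    Measurable (pf S h) :=
  Finset.measurable_prod S (fun v _ => (hm v).comp (measurable_pi_apply v))

lemma pf_eq (S : Finset V) (h : V → I → ℝ) (x : V → I) :
    pf S h x = (fun y : S → I => ∏ v : S, h v (y v)) (S.restrict x) := by
  simp only [pf, Finset.restrict]
  exact (Finset.prod_coe_sort S (fun v => h v (x v))).symm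

lemma integral_pf (S : Finset V) {h : V → I → ℝ} (hm : ∀ v, Measurable (h v)) :
    ∫ x, pf S h x ∂(iid V) = ∏ v ∈ S, ∫ t, h v t := by
  have h0 : Measurable (fun y : S → I => ∏ v : S, h v (y v)) :=
    Finset.measurable_prod _ (fun v _ => (hm v).comp (measurable_pi_apply v))
  have h1 := integral_restrict_infinitePi (μ := fun _ : V => (volume : Measure I)) (s := S)
    (f := fun y : S → I => ∏ v : S, h v (y v)) h0.aestronglyMeasurable
  rw [integral_fintype_prod_eq_prod (fun (v : S) (t : I) => h v t)] at h1
  simp_rw [pf_eq]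
  unfold iid
  rw [← Finset.prod_coe_sort S (fun v => ∫ t, h v t)]
  exact h1

lemma integrable_pf (S : Finset V) {h : V → I → ℝ}
    (hi : ∀ v, Integrable (h v) (volume : Measure I)) : Integrable (pf S h) (iid V) := by
  have h1 : Integrable (fun y : S → I => ∏ v : S, h v (y v))
      (Measure.pi fun _ : S => (volume : Measure I)) :=
    Integrable.fintype_prod_dep (f := fun (v : S) (t : I) => h v t) fun v => hi v
  have h2 : pf S h = (fun y : S → I => ∏ v : S, h v (y v)) ∘ (S.restrict) := by
    funext x
    exact pf_eq S h x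
  rw [h2]
  unfold iid
  have h3 : Measure.map (S.restrict (π := fun _ : V => I))
      (Measure.infinitePi fun _ : V => (volume : Measure I)) =
      Measure.pi fun _ : S => (volume : Measure I) := Measure.infinitePi_map_restrict _
  rw [← h3] at h1
  exact h1.comp_measurable (Finset.measurable_restrict S)

lemma sq_pf (S : Finset V) (h : V → I → ℝ) (x : V → I) :
    pf S h x ^ 2 = pf S (fun v t => h v t ^ 2) x := by
  simp only [pf, Finset.prod_pow]

lemma memLp_pf (S : Finset V) {h : V → I → ℝ} (hm : ∀ v, Measurable (h v))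
    (hi : ∀ v, MemLp (h v) 2 (volume : Measure I)) : MemLp (pf S h) 2 (iid V) := by
  rw [memLp_two_iff_integrable_sq (measurable_pf S hm).aestronglyMeasurable]
  simp_rw [sq_pf]
  exact integrable_pf S (fun v => (hi v).integrable_sq)

/-- Cauchy-Schwarz. -/
lemma cs {α : Type*} [MeasurableSpace α] {μ : Measure α} {a b : α → ℝ} (ha : MemLp a 2 μ)
    (hb : MemLp b 2 μ) : (∫ x, a x * b x ∂μ) ^ 2 ≤ (∫ x, a x ^ 2 ∂μ) * ∫ x, b x ^ 2 ∂μ := by
  have hab : Integrable (fun x => a x * b x) μ := ha.integrable_mul hb
  have h1 : ∀ s : ℝ, 0 ≤ (∫ x, a x ^ 2 ∂μ) * (s * s) + (2 * ∫ x, a x * b x ∂μ) * s +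
      ∫ x, b x ^ 2 ∂μ := by
    intro s
    have h2 : 0 ≤ ∫ x, (s * a x + b x) ^ 2 ∂μ := integral_nonneg fun x => sq_nonneg _
    have h3 : ∫ x, (s * a x + b x) ^ 2 ∂μ = (∫ x, a x ^ 2 ∂μ) * (s * s) +
        (2 * ∫ x, a x * b x ∂μ) * s + ∫ x, b x ^ 2 ∂μ := by
      have e : ∀ x, (s * a x + b x) ^ 2 = (s * s) * a x ^ 2 + (2 * s) * (a x * b x) + b x ^ 2 := by
        intro x; ring
      simp_rw [e]
      have i1 : Integrable (fun x => (s * s) * a x ^ 2) μ := ha.integrable_sq.const_mul _
      have i2 : Integrable (fun x => (2 * s) * (a x * b x)) μ := hab.const_mul _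
      have i3 : Integrable (fun x => b x ^ 2) μ := hb.integrable_sq
      have i12 : Integrable (fun x => (s * s) * a x ^ 2 + (2 * s) * (a x * b x)) μ := i1.add i2
      rw [integral_add i12 i3, integral_add i1 i2, integral_const_mul, integral_const_mul]
      ring
    linarith
  have h2 := discrim_le_zero h1
  unfold discrim at h2
  nlinarith

section fib

variable [DecidableEq V]

lemma pf_update_of_notMem {S : Finset V} {v : V} (hv : v ∉ S) (h : V → I → ℝ) (x : V → I)
    (t : I) : pf S h (Function.update x v t) = pf S h x := by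
  unfold pf
  refine Finset.prod_congr rfl fun w hw => ?_
  have : w ≠ v := fun e => hv (e ▸ hw)
  rw [Function.update_of_ne this]

/-- the average of `g * pf S h` over all coordinates but `v` -/
noncomputable def fib (g : (V → I) → ℝ) (S : Finset V) (h : V → I → ℝ) (v : V) (t : I) : ℝ :=
  ∫ x, g (Function.update x v t) * pf S h x ∂(iid V)

lemma measurable_psi {g : (V → I) → ℝ} (hg : Measurable g) (S : Finset V) {h : V → I → ℝ}
    (hm : ∀ v, Measurable (h v)) (v : V) : Measurable (fun p : (V → I) × I =>
      g (Function.update p.1 v p.2) * pf S h p.1) :=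
  (hg.comp measurable_update').mul ((measurable_pf S hm).comp measurable_fst)

lemma measurable_fib {g : (V → I) → ℝ} (hg : Measurable g) (S : Finset V) {h : V → I → ℝ}
    (hm : ∀ v, Measurable (h v)) (v : V) : Measurable (fib g S h v) := by
  have h1 := (measurable_psi hg S hm v).comp measurable_swap
  exact (h1.stronglyMeasurable.integral_prod_right' (ν := iid V)).measurable

lemma integrable_sq_psi {g : (V → I) → ℝ} (hg2 : MemLp g 2 (iid V)) (v : V) :
    Integrable (fun p : (V → I) × I => g (Function.update p.1 v p.2) ^ 2)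
      ((iid V).prod (volume : Measure I)) := by
  have h1 : Integrable (fun x => g x ^ 2) (iid V) := hg2.integrable_sq
  rw [← EfronAux.map_update v] at h1
  exact h1.comp_measurable measurable_update'

lemma memLp_fib {g : (V → I) → ℝ} (hg : Measurable g) (hg2 : MemLp g 2 (iid V)) (S : Finset V)
    {h : V → I → ℝ} (hm : ∀ v, Measurable (h v)) (hi : ∀ v, MemLp (h v) 2 (volume : Measure I))
    (v : V) : MemLp (fib g S h v) 2 (volume : Measure I) := by
  rw [memLp_two_iff_integrable_sq (measurable_fib hg S hm v).aestronglyMeasurable]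
  have h1 := integrable_sq_psi hg2 v
  have h2 : Integrable (fun t : I => ∫ x, g (Function.update x v t) ^ 2 ∂(iid V)) volume :=
    h1.integral_prod_right
  have h3 := h1.prod_left_ae
  refine Integrable.mono' (h2.mul_const (∫ x, pf S h x ^ 2 ∂(iid V)))
    ((measurable_fib hg S hm v).pow_const 2).aestronglyMeasurable ?_
  filter_upwards [h3] with t ht
  have hgt : MemLp (fun x => g (Function.update x v t)) 2 (iid V) := by
    have hmt : Measurable (fun x : V → I => g (Function.update x v t)) :=
      hg.comp (measurable_update'.comp (measurable_id.prodMk measurable_const))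
    rw [memLp_two_iff_integrable_sq hmt.aestronglyMeasurable]
    exact ht
  rw [Real.norm_of_nonneg (sq_nonneg _)]
  exact cs hgt (memLp_pf S hm hi)

lemma integral_fib {g : (V → I) → ℝ} (hg2 : MemLp g 2 (iid V)) {S : Finset V}
    {v : V} (hv : v ∉ S) {h : V → I → ℝ} (hm : ∀ v, Measurable (h v))
    (hi : ∀ v, MemLp (h v) 2 (volume : Measure I)) :
    ∫ x, g x * pf (insert v S) h x ∂(iid V) = ∫ t, fib g S h v t * h v t := by
  have h1 : Integrable (fun x => g x * pf (insert v S) h x) (iid V) :=
    hg2.integrable_mul (memLp_pf _ hm hi)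
  have h2 : AEStronglyMeasurable (fun x => g x * pf (insert v S) h x)
      (Measure.map (fun p : (V → I) × I => Function.update p.1 v p.2)
        ((iid V).prod (volume : Measure I))) := by
    rw [EfronAux.map_update v]; exact h1.1
  have hmu : Measurable (fun p : (V → I) × I => Function.update p.1 v p.2) := measurable_update'
  have e : ∀ p : (V → I) × I, g (Function.update p.1 v p.2) *
      pf (insert v S) h (Function.update p.1 v p.2) =
      g (Function.update p.1 v p.2) * pf S h p.1 * h v p.2 := by
    intro p
    have : pf (insert v S) h (Function.update p.1 v p.2) = h v p.2 * pf S h p.1 := by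
      rw [← pf_update_of_notMem hv h p.1 p.2]
      unfold pf
      rw [Finset.prod_insert hv, Function.update_self]
    rw [this]; ring
  have h3 : Integrable (fun p : (V → I) × I =>
      g (Function.update p.1 v p.2) * pf S h p.1 * h v p.2)
      ((iid V).prod (volume : Measure I)) := by
    have h4 := h1
    rw [← EfronAux.map_update v] at h4
    have h5 := h4.comp_measurable hmu
    refine h5.congr (Eventually.of_forall fun p => ?_)
    exact e p
  conv_lhs => rw [← EfronAux.map_update v]
  rw [integral_map hmu.aemeasurable h2]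
  simp_rw [e]
  rw [integral_prod_symm _ h3]
  refine integral_congr_ae (Eventually.of_forall fun t => ?_)
  simp only [fib]
  rw [integral_mul_const]

end fib
end DecompAux

end Vale.Agent.P161E
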