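import Vale.Agent.P161E.DecompAux

/-!
# Completeness of the product basis
-/

open MeasureTheory Set Filter Topology
open scoped unitInterval ENNReal

namespace Vale.Agent.P161E

open Vale.Agent.P161

universe u

namespace DecompAux

variable {V : Type u} [DecidableEq V] {ι : Type}

/-- from products of basis functions to products of square integrable functions -/
lemma ext_step {e : ι → I → ℝ} (em : ∀ i, Measurable (e i))
    (e2 : ∀ i, MemLp (e i) 2 (volume : Measure I))
    (ec : ∀ h : I → ℝ, MemLp h 2 (volume : Measure I) → (∀ i, ∫ t, h t * e i t = 0) →
      h =ᵐ[volume] 0)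
    {g : (V → I) → ℝ} (hg : Measurable g) (hg2 : MemLp g 2 (iid V))
    (h0 : ∀ (S : Finset V) (α : V → ι), ∫ x, g x * pf S (fun v => e (α v)) x ∂(iid V) = 0)
    {h : V → I → ℝ} (hm : ∀ v, Measurable (h v)) (hi : ∀ v, MemLp (h v) 2 (volume : Measure I))
    (T : Finset V) : ∀ (S : Finset V) (α : V → ι),
      ∫ x, g x * pf S (fun v => if v ∈ T then h v else e (α v)) x ∂(iid V) = 0 := by
  induction T using Finset.induction_on with
  | empty =>
    intro S α
    simpa using h0 S α
  | insert v T hv ih =>
    intro S α
    by_cases hS : v ∈ S
    · set S' := S.erase v with hS'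
      have hvS' : v ∉ S' := Finset.notMem_erase v S
      have hins : insert v S' = S := Finset.insert_erase hS
      set h' : V → I → ℝ := fun w => if w ∈ insert v T then h w else e (α w) with hh'
      have hm' : ∀ w, Measurable (h' w) := by
        intro w
        simp only [hh']
        split_ifs
        · exact hm w
        · exact em _
      have hi' : ∀ w, MemLp (h' w) 2 (volume : Measure I) := by
        intro w
        simp only [hh']
        split_ifs
        · exact hi w
        · exact e2 _
      rw [← hins, integral_fib hg2 hvS' hm' hi']
      -- the fibre is orthogonal to the basis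
      have key : fib g S' h' v =ᵐ[volume] 0 := by
        apply ec _ (memLp_fib hg hg2 S' hm' hi' v)
        intro i
        set h'' : V → I → ℝ := fun w => if w ∈ T then h w else e (Function.update α v i w) with hh''
        have hm'' : ∀ w, Measurable (h'' w) := by
          intro w
          simp only [hh'']
          split_ifs
          · exact hm w
          · exact em _
        have hi'' : ∀ w, MemLp (h'' w) 2 (volume : Measure I) := by
          intro w
          simp only [hh'']
          split_ifs
          · exact hi w
          · exact e2 _
        have a1 := ih (insert v S') (Function.update α v i)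
        have a2 := integral_fib hg2 hvS' hm'' hi''
        rw [a1] at a2
        have a3 : fib g S' h'' v = fib g S' h' v := by
          funext t
          unfold fib
          have : ∀ x, pf S' h'' x = pf S' h' x := by
            intro x
            unfold pf
            refine Finset.prod_congr rfl fun w hw => ?_
            have hwv : w ≠ v := fun hc => hvS' (hc ▸ hw)
            simp only [hh', hh'', Finset.mem_insert, hwv, false_or, Function.update_of_ne hwv]
          simp_rw [this]
        have a4 : h'' v = e i := by
          simp only [hh'', hv, if_false, Function.update_self]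
        rw [a3, a4] at a2
        exact a2.symm
      have : (fun t => fib g S' h' v t * h' v t) =ᵐ[volume] fun _ => 0 := by
        filter_upwards [key] with t ht
        rw [ht]; simp
      rw [integral_congr_ae this]
      simp
    · have : ∀ x, pf S (fun w => if w ∈ insert v T then h w else e (α w)) x =
          pf S (fun w => if w ∈ T then h w else e (α w)) x := by
        intro x
        unfold pf
        refine Finset.prod_congr rfl fun w hw => ?_
        have hwv : w ≠ v := fun hc => hS (hc ▸ hw)
        simp only [Finset.mem_insert, hwv, false_or]
      simp_rw [this]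
      exact ih S α

/-- completeness of the products -/
lemma complete {e : ι → I → ℝ} (em : ∀ i, Measurable (e i))
    (e2 : ∀ i, MemLp (e i) 2 (volume : Measure I))
    (ec : ∀ h : I → ℝ, MemLp h 2 (volume : Measure I) → (∀ i, ∫ t, h t * e i t = 0) →
      h =ᵐ[volume] 0) (o : ι)
    {g : (V → I) → ℝ} (hg : Measurable g) (hg2 : MemLp g 2 (iid V))
    (h0 : ∀ (S : Finset V) (α : V → ι), ∫ x, g x * pf S (fun v => e (α v)) x ∂(iid V) = 0) :
    g =ᵐ[iid V] 0 := by
  have hgi : Integrable g (iid V) := hg2.integrable one_le_two
  have h1 : ∀ (S : Finset V) (h : V → I → ℝ), (∀ v, Measurable (h v)) →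
      (∀ v, MemLp (h v) 2 (volume : Measure I)) → ∫ x, g x * pf S h x ∂(iid V) = 0 := by
    intro S h hm hi
    have := ext_step em e2 ec hg hg2 h0 hm hi S S (fun _ => o)
    have e3 : ∀ x, pf S (fun v => if v ∈ S then h v else e o) x = pf S h x := by
      intro x
      unfold pf
      refine Finset.prod_congr rfl fun w hw => ?_
      simp only [hw, if_true]
    simp_rw [e3] at this
    exact this
  have htot : ∫ x, g x ∂(iid V) = 0 := by
    have := h1 ∅ (fun _ _ => 0) (fun _ => measurable_const) (fun _ => memLp_const _)
    simpa [pf] using this
  apply hgi.ae_eq_zero_of_forall_setIntegral_eq_zero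
  intro s hs _
  refine MeasurableSpace.induction_on_inter
    (C := fun s _ => ∫ x in s, g x ∂(iid V) = 0)
    (generateFrom_squareCylinders (α := fun _ : V => I)).symm
    (isPiSystem_squareCylinders (fun _ => MeasurableSpace.isPiSystem_measurableSet)
      (fun _ => by simp)) ?_ ?_ ?_ ?_ s hs
  · simp
  · rintro t ⟨S, B, hB, rfl⟩
    have hB' : ∀ v, MeasurableSet (B v) := fun v => hB v (mem_univ v)
    have hms : MeasurableSet ((S : Set V).pi B) :=
      MeasurableSet.pi (Finset.countable_toSet _) fun v _ => hB' v
    have := h1 S (fun v => (B v).indicator 1) (fun v => measurable_one.indicator (hB' v))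
      (fun v => (memLp_const (1 : ℝ)).indicator (hB' v))
    rw [← integral_indicator hms, ← this]
    refine integral_congr_ae (Eventually.of_forall fun x => ?_)
    have e4 : pf S (fun v => (B v).indicator 1) x = ((S : Set V).pi B).indicator 1 x := by
      by_cases hx : x ∈ (S : Set V).pi B
      · rw [indicator_of_mem hx]
        unfold pf
        rw [Finset.prod_eq_one]
        · rfl
        · intro v hv
          show (B v).indicator 1 (x v) = (1 : ℝ)
          rw [indicator_of_mem (hx v hv)]
          rfl
      · rw [indicator_of_notMem hx]
        simp only [Set.mem_pi, not_forall] at hx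
        obtain ⟨v, hv, hvx⟩ := hx
        unfold pf
        exact Finset.prod_eq_zero hv (indicator_of_notMem hvx _)
    show ((S : Set V).pi B).indicator g x = g x * pf S (fun v => (B v).indicator 1) x
    rw [e4]
    by_cases hx : x ∈ (S : Set V).pi B
    · rw [indicator_of_mem hx, indicator_of_mem hx]; simp
    · rw [indicator_of_notMem hx, indicator_of_notMem hx]; simp
  · intro t ht h
    have := integral_add_compl ht hgi
    rw [h, htot, zero_add] at this
    exact this
  · intro f hd hf h
    rw [integral_iUnion hf hd hgi.integrableOn]
    simp [h]

end DecompAux

end Vale.Agent.P161E
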