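import Vale.Agent.P161E.DecBase
import Vale.Agent.P161E.EquiAut

/-!
# Decorrelation of averages over descendants
-/

open MeasureTheory Set Filter Topology
open scoped unitInterval ENNReal

namespace Vale.Agent.P161E

open Vale.Agent.P161 Vale.Agent.P161.ExistAux

universe u

namespace Dec

variable {V : Type u} {b : ℕ} {T : RTree V b} {N : ((V → I) → ℝ) → V → ℝ}
  {g : V → V → (V → I) → ℝ}

/-- the two sums of an equivariant family do not depend on the edge -/
theorem SS_side_eq (hN : IsDec N) (hg : Equi T g)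
    (hm : ∀ u x, T.G.Adj u x → MemLp (g u x) 2 (iid V)) {u x u' x' : V} (h : T.G.Adj u x)
    (h' : T.G.Adj u' x') : SS N (g u x) (T.side u x) = SS N (g u' x') (T.side u' x') := by
  obtain ⟨φ, rfl, rfl⟩ := exists_aut_edge T h h'
  exact hN.SS_map (hm _ _ h') φ.toEquiv (hg.equi φ u x) (fun z => side_map φ u x z)

theorem SS_side_eq' (hN : IsDec N) (hg : Equi T g)
    (hm : ∀ u x, T.G.Adj u x → MemLp (g u x) 2 (iid V)) {u x u' x' : V} (h : T.G.Adj u x)
    (h' : T.G.Adj u' x') : SS N (g u x) (T.side x u) = SS N (g u' x') (T.side x' u') := by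
  obtain ⟨φ, rfl, rfl⟩ := exists_aut_edge T h h'
  exact hN.SS_map (hm _ _ h') φ.toEquiv (hg.equi φ u x) (fun z => side_map φ x u z)

theorem memLp_av (hm : ∀ u x, T.G.Adj u x → MemLp (g u x) 2 (iid V)) (u x : V) :
    MemLp (fun ω => T.av (fun u x => g u x ω) u x) 2 (iid V) := by
  unfold RTree.av
  have h1 : MemLp (fun ω => ∑ y ∈ T.ch u x, g x y ω) 2 (iid V) :=
    memLp_finsetSum _ fun y hy => hm x y (RTree.mem_ch.mp hy).2
  have h2 := h1.const_mul ((b : ℝ)⁻¹)
  refine h2.ae_eq (ae_of_all _ fun ω => ?_)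
  show (b : ℝ)⁻¹ * _ = _ / (b : ℝ)
  rw [div_eq_inv_mul]

theorem N_av_le (hN : IsDec N)
    (hm : ∀ u x, T.G.Adj u x → MemLp (g u x) 2 (iid V)) (u x z : V) :
    N (fun ω => T.av (fun u x => g u x ω) u x) z ≤ (b : ℝ)⁻¹ * ∑ y ∈ T.ch u x, N (g x y) z := by
  have h0 : ∀ y ∈ T.ch u x, MemLp (g x y) 2 (iid V) := fun y hy =>
    hm x y (RTree.mem_ch.mp hy).2
  have h1 : (fun ω => T.av (fun u x => g u x ω) u x) = (b : ℝ)⁻¹ • ∑ y ∈ T.ch u x, g x y := by
    funext ω
    unfold RTree.av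
    rw [Pi.smul_apply, Finset.sum_apply, smul_eq_mul, div_eq_inv_mul]
  rw [h1, hN.smul _ _ _ (memLp_finsetSum' _ h0), abs_of_nonneg (by positivity)]
  exact mul_le_mul_of_nonneg_left (hN.sum_le _ _ h0 z) (by positivity)

/-- The part away from the branch contracts. -/
theorem B_av (hb : 0 < b) (hN : IsDec N) (hg : Equi T g)
    (hm : ∀ u x, T.G.Adj u x → MemLp (g u x) 2 (iid V)) {u x : V} (h : T.G.Adj u x) :
    SS N (fun ω => T.av (fun u x => g u x ω) u x) (T.side x u) ≤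
      (b : ℝ)⁻¹ * SS N (g u x) (T.side x u) := by
  have hb' : (0 : ℝ) < b := by exact_mod_cast hb
  have h0 : ∀ y ∈ T.ch u x, MemLp (g x y) 2 (iid V) := fun y hy =>
    hm x y (RTree.mem_ch.mp hy).2
  -- pointwise
  have h1 : ∀ z, (T.side x u).indicator
      (fun z => N (fun ω => T.av (fun u x => g u x ω) u x) z ^ 2) z ≤
      (b : ℝ)⁻¹ * ∑ y ∈ T.ch u x, (T.side x u).indicator (fun z => N (g x y) z ^ 2) z := by
    intro z
    by_cases hz : z ∈ T.side x u
    · rw [Set.indicator_of_mem hz, Finset.sum_congr rfl fun y _ => Set.indicator_of_mem hz _]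
      have h2 := N_av_le hN hm u x z
      have h3 := sq_sum_le_card_mul_sum_sq (s := T.ch u x) (f := fun y => N (g x y) z)
      rw [RTree.card_ch h] at h3
      calc N (fun ω => T.av (fun u x => g u x ω) u x) z ^ 2
          ≤ ((b : ℝ)⁻¹ * ∑ y ∈ T.ch u x, N (g x y) z) ^ 2 :=
            pow_le_pow_left₀ (hN.nonneg _ _) h2 2
        _ = (b : ℝ)⁻¹ ^ 2 * (∑ y ∈ T.ch u x, N (g x y) z) ^ 2 := by ring
        _ ≤ (b : ℝ)⁻¹ ^ 2 * (b * ∑ y ∈ T.ch u x, N (g x y) z ^ 2) := by gcongr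
        _ = _ := by field_simp
    · rw [Set.indicator_of_notMem hz,
        Finset.sum_congr rfl fun y _ => Set.indicator_of_notMem hz _]
      simp
  have h2 : ∀ y ∈ T.ch u x, SS N (g x y) (T.side x u) ≤
      (b : ℝ)⁻¹ * SS N (g u x) (T.side x u) := by
    intro y hy
    obtain ⟨hyu, hxy⟩ := RTree.mem_ch.mp hy
    have hux' : u ∈ T.ch y x := RTree.mem_ch.mpr ⟨Ne.symm hyu, h.symm⟩
    -- all branches at `x` other than the one at `y` give the same sum
    have e1 : ∀ v ∈ T.ch y x, SS N (g x y) (T.side x v) = SS N (g x y) (T.side x u) := by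
      intro v hv
      obtain ⟨hv1, hv2⟩ := RTree.mem_ch.mp hv
      obtain ⟨φ, k1, k2, k3⟩ := exists_aut_fork (T := T) (u := v) (u' := u) (x := x) (y := y)
        hv2.symm h hxy hv1 (Ne.symm hyu)
      refine hN.SS_map (hm x y hxy) φ.toEquiv ?_ (fun z => ?_)
      · have := hg.equi φ x y
        rwa [k2, k3] at this
      · have := side_map (T := T) φ x v z
        rw [k1, k2] at this
        exact this
    have e2 : ∑ v ∈ T.ch y x, SS N (g x y) (T.side x v) ≤ SS N (g x y) (T.side y x) := by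
      refine hN.sum_SS_le (hm x y hxy) _ _ _ (fun v hv => side_sub hxy.symm hv) ?_
      intro v hv v' hv' hne
      rw [Set.disjoint_left]
      intro z hz
      exact side_disj (RTree.mem_ch.mp hv).2 (RTree.mem_ch.mp hv').2 hne hz
    rw [Finset.sum_congr rfl e1, Finset.sum_const, RTree.card_ch hxy.symm, nsmul_eq_mul,
      SS_side_eq' hN hg hm hxy h] at e2
    rw [← div_eq_inv_mul, le_div_iff₀ hb', mul_comm]
    exact e2
  calc SS N (fun ω => T.av (fun u x => g u x ω) u x) (T.side x u)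
      ≤ ∑' z, (b : ℝ)⁻¹ * ∑ y ∈ T.ch u x, (T.side x u).indicator (fun z => N (g x y) z ^ 2) z := by
        refine Summable.tsum_le_tsum h1 (hN.summable_ind (memLp_av hm u x) _) ?_
        exact (summable_sum fun y hy => hN.summable_ind (h0 y hy) _).mul_left _
    _ = (b : ℝ)⁻¹ * ∑ y ∈ T.ch u x, SS N (g x y) (T.side x u) := by
        rw [tsum_mul_left, Summable.tsum_finsetSum fun y hy => hN.summable_ind (h0 y hy) _]
        rfl
    _ ≤ (b : ℝ)⁻¹ * ∑ y ∈ T.ch u x, (b : ℝ)⁻¹ * SS N (g u x) (T.side x u) := by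
        gcongr with y hy
        exact h2 y hy
    _ = _ := by
        rw [Finset.sum_const, RTree.card_ch h, nsmul_eq_mul]
        field_simp

/-- The part in the branch. -/
theorem A_av (hb : 0 < b) (hN : IsDec N) (hg : Equi T g)
    (hm : ∀ u x, T.G.Adj u x → MemLp (g u x) 2 (iid V)) {u x : V} (h : T.G.Adj u x) {s : ℝ}
    (hs : 0 < s) :
    SS N (fun ω => T.av (fun u x => g u x ω) u x) (T.side u x) ≤
      (1 + s) * (b : ℝ)⁻¹ * SS N (g u x) (T.side u x) +
        (1 + s⁻¹) * SS N (g u x) (T.side x u) := by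
  classical
  have hb' : (0 : ℝ) < b := by exact_mod_cast hb
  have h0 : ∀ y ∈ T.ch u x, MemLp (g x y) 2 (iid V) := fun y hy =>
    hm x y (RTree.mem_ch.mp hy).2
  have h1 : ∀ z, (T.side u x).indicator
      (fun z => N (fun ω => T.av (fun u x => g u x ω) u x) z ^ 2) z ≤
      (1 + s) * (b : ℝ)⁻¹ ^ 2 *
        ∑ y ∈ T.ch u x, (T.side x y).indicator (fun z => N (g x y) z ^ 2) z +
      (1 + s⁻¹) * (b : ℝ)⁻¹ *
        ∑ y ∈ T.ch u x, (T.side y x).indicator (fun z => N (g x y) z ^ 2) z := by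
    intro z
    have n1 : ∀ y, 0 ≤ (T.side x y).indicator (fun z => N (g x y) z ^ 2) z := fun y =>
      Set.indicator_nonneg (fun _ _ => sq_nonneg _) z
    have n2 : ∀ y, 0 ≤ (T.side y x).indicator (fun z => N (g x y) z ^ 2) z := fun y =>
      Set.indicator_nonneg (fun _ _ => sq_nonneg _) z
    have hs' : 0 < s⁻¹ := inv_pos.mpr hs
    by_cases hz : z ∈ T.side u x
    swap
    · rw [Set.indicator_of_notMem hz]
      have := Finset.sum_nonneg (s := T.ch u x) fun y _ => n1 y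
      have := Finset.sum_nonneg (s := T.ch u x) fun y _ => n2 y
      positivity
    rw [Set.indicator_of_mem hz]
    have h2 := N_av_le hN hm u x z
    obtain ⟨P, hP⟩ : ∃ P : ℝ, P = ∑ y ∈ T.ch u x, if z ∈ T.side x y then N (g x y) z else 0 :=
      ⟨_, rfl⟩
    obtain ⟨Q, hQ⟩ : ∃ Q : ℝ, Q = ∑ y ∈ T.ch u x, if z ∈ T.side x y then 0 else N (g x y) z :=
      ⟨_, rfl⟩
    have hPQ : ∑ y ∈ T.ch u x, N (g x y) z = P + Q := by
      rw [hP, hQ, ← Finset.sum_add_distrib]
      refine Finset.sum_congr rfl fun y _ => ?_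
      split_ifs <;> simp
    have hP2 : P ^ 2 = ∑ y ∈ T.ch u x, (T.side x y).indicator (fun z => N (g x y) z ^ 2) z := by
      by_cases hex : ∃ y ∈ T.ch u x, z ∈ T.side x y
      · obtain ⟨y, hy, hzy⟩ := hex
        have k1 : ∀ y' ∈ T.ch u x, y' ≠ y → z ∉ T.side x y' := fun y' hy' hne hz' =>
          hne (nbr_unique T (RTree.mem_ch.mp hy').2 (RTree.mem_ch.mp hy).2 hz' hzy)
        rw [hP, Finset.sum_eq_single y, Finset.sum_eq_single y, if_pos hzy,
          Set.indicator_of_mem hzy]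
        · intro y' hy' hne
          exact Set.indicator_of_notMem (k1 y' hy' hne) _
        · exact fun hn => absurd hy hn
        · intro y' hy' hne
          exact if_neg (k1 y' hy' hne)
        · exact fun hn => absurd hy hn
      · push Not at hex
        rw [hP, Finset.sum_eq_zero fun y hy => if_neg (hex y hy),
          Finset.sum_eq_zero fun y hy => Set.indicator_of_notMem (hex y hy) _]
        norm_num
    have hQ2 : Q ^ 2 ≤
        b * ∑ y ∈ T.ch u x, (T.side y x).indicator (fun z => N (g x y) z ^ 2) z := by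
      have h3 := sq_sum_le_card_mul_sum_sq (s := T.ch u x)
        (f := fun y => if z ∈ T.side x y then 0 else N (g x y) z)
      rw [RTree.card_ch h, ← hQ] at h3
      refine h3.trans (le_of_eq ?_)
      congr 1
      refine Finset.sum_congr rfl fun y hy => ?_
      have hxy := (RTree.mem_ch.mp hy).2
      by_cases hzy : z ∈ T.side x y
      · have : z ∉ T.side y x := by rw [← side_compl hxy]; exact fun hn => hn hzy
        rw [if_pos hzy, Set.indicator_of_notMem this]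
        norm_num
      · have : z ∈ T.side y x := by rw [← side_compl hxy]; exact hzy
        rw [if_neg hzy, Set.indicator_of_mem this]
    have h4 : N (fun ω => T.av (fun u x => g u x ω) u x) z ^ 2 ≤ ((b : ℝ)⁻¹ * (P + Q)) ^ 2 := by
      rw [hPQ] at h2
      exact pow_le_pow_left₀ (hN.nonneg _ _) h2 2
    have h5 : (P + Q) ^ 2 ≤ (1 + s) * P ^ 2 + (1 + s⁻¹) * Q ^ 2 := by
      have h6 : 2 * P * Q ≤ s * P ^ 2 + s⁻¹ * Q ^ 2 := by
        have h7 : 0 ≤ s * (P - s⁻¹ * Q) ^ 2 := by positivity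
        have h8 : s * (P - s⁻¹ * Q) ^ 2 = s * P ^ 2 - 2 * P * Q + s⁻¹ * Q ^ 2 := by
          field_simp
          ring
        linarith
      nlinarith
    calc N (fun ω => T.av (fun u x => g u x ω) u x) z ^ 2 ≤ (b : ℝ)⁻¹ ^ 2 * (P + Q) ^ 2 := by
          rw [← mul_pow]; exact h4
      _ ≤ (b : ℝ)⁻¹ ^ 2 * ((1 + s) * P ^ 2 + (1 + s⁻¹) * Q ^ 2) := by gcongr
      _ ≤ (b : ℝ)⁻¹ ^ 2 * ((1 + s) * P ^ 2 + (1 + s⁻¹) *
          (b * ∑ y ∈ T.ch u x, (T.side y x).indicator (fun z => N (g x y) z ^ 2) z)) := by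
          gcongr
      _ = _ := by
          rw [hP2]
          field_simp
  have e1 : ∀ y ∈ T.ch u x, SS N (g x y) (T.side x y) = SS N (g u x) (T.side u x) :=
    fun y hy => SS_side_eq hN hg hm (RTree.mem_ch.mp hy).2 h
  have e2 : ∀ y ∈ T.ch u x, SS N (g x y) (T.side y x) = SS N (g u x) (T.side x u) :=
    fun y hy => SS_side_eq' hN hg hm (RTree.mem_ch.mp hy).2 h
  have s1 : Summable fun z =>
      ∑ y ∈ T.ch u x, (T.side x y).indicator (fun z => N (g x y) z ^ 2) z :=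
    summable_sum fun y hy => hN.summable_ind (h0 y hy) _
  have s2 : Summable fun z =>
      ∑ y ∈ T.ch u x, (T.side y x).indicator (fun z => N (g x y) z ^ 2) z :=
    summable_sum fun y hy => hN.summable_ind (h0 y hy) _
  calc SS N (fun ω => T.av (fun u x => g u x ω) u x) (T.side u x)
      ≤ ∑' z, ((1 + s) * (b : ℝ)⁻¹ ^ 2 *
        ∑ y ∈ T.ch u x, (T.side x y).indicator (fun z => N (g x y) z ^ 2) z +
      (1 + s⁻¹) * (b : ℝ)⁻¹ *
        ∑ y ∈ T.ch u x, (T.side y x).indicator (fun z => N (g x y) z ^ 2) z) := by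
        refine Summable.tsum_le_tsum h1 (hN.summable_ind (memLp_av hm u x) _) ?_
        exact (s1.mul_left _).add (s2.mul_left _)
    _ = (1 + s) * (b : ℝ)⁻¹ ^ 2 * ∑ y ∈ T.ch u x, SS N (g x y) (T.side x y) +
        (1 + s⁻¹) * (b : ℝ)⁻¹ * ∑ y ∈ T.ch u x, SS N (g x y) (T.side y x) := by
        rw [(s1.mul_left _).tsum_add (s2.mul_left _), tsum_mul_left, tsum_mul_left,
          Summable.tsum_finsetSum fun y hy => hN.summable_ind (h0 y hy) _,
          Summable.tsum_finsetSum fun y hy => hN.summable_ind (h0 y hy) _]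
        rfl
    _ = _ := by
        rw [Finset.sum_congr rfl e1, Finset.sum_congr rfl e2, Finset.sum_const,
          Finset.sum_const, RTree.card_ch h, nsmul_eq_mul, nsmul_eq_mul]
        field_simp

end Dec

/-- Averages of centred equivariant edge families decay. -/
theorem decor {b : ℕ} (hb : 2 ≤ b) : ∃ C : ℝ, 0 < C ∧ ∀ (V : Type u) (T : RTree V b)
    (g : V → V → (V → I) → ℝ), Equi T g → (∀ u x, T.G.Adj u x → MemLp (g u x) 2 (iid V)) →
    (∀ u x, T.G.Adj u x → ∫ ω, g u x ω ∂(iid V) = 0) → ∀ (n : ℕ) (u x : V), T.G.Adj u x →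
    ∫ ω, (T.wavN (fun _ _ => 1) (fun u x => g u x ω) n u x) ^ 2 ∂(iid V) ≤
      C * (n + 1) ^ 2 * ((b : ℝ)⁻¹) ^ n * ∫ ω, (g u x ω) ^ 2 ∂(iid V) := by
  have hb0 : 0 < b := by omega
  have hb' : (0 : ℝ) < b := by exact_mod_cast hb0
  refine ⟨b + 1, by positivity, fun V T g hg hm h0 => ?_⟩
  have hcount := T.countable
  obtain ⟨N, hN⟩ := Dec.exists_isDec V
  -- the iterates
  obtain ⟨G, hG⟩ : ∃ G : ℕ → V → V → (V → I) → ℝ,
    G = fun n u x ω => T.wavN (fun _ _ => 1) (fun u x => g u x ω) n u x := ⟨_, rfl⟩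
  have hG0 : G 0 = g := by rw [hG]; rfl
  have hGs : ∀ n, G (n + 1) = fun u x ω => T.av (fun u x => G n u x ω) u x := by
    intro n
    rw [hG]
    funext u x ω
    show T.wav _ _ u x = _
    unfold RTree.wav
    simp only [one_mul]
  have hGe : ∀ n, Equi T (G n) := by
    intro n
    induction n with
    | zero => rw [hG0]; exact hg
    | succ n ih => rw [hGs]; exact ih.av
  have hGm : ∀ n, ∀ u x, T.G.Adj u x → MemLp (G n u x) 2 (iid V) := by
    intro n
    induction n with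
    | zero => rw [hG0]; exact hm
    | succ n ih => rw [hGs]; exact fun u x _ => Dec.memLp_av ih u x
  have hGz : ∀ n, ∀ u x, T.G.Adj u x → ∫ ω, G n u x ω ∂(iid V) = 0 := by
    intro n
    induction n with
    | zero => rw [hG0]; exact h0
    | succ n ih =>
      rw [hGs]
      intro u x h
      have := (hGe n).integral_av hb0 (fun u x h => (hGm n u x h).integrable one_le_two) h
      rw [ih u x h] at this
      exact this
  intro n u x h
  obtain ⟨S₀, hS₀⟩ : ∃ S₀ : ℝ, S₀ = ∫ ω, (g u x ω) ^ 2 ∂(iid V) := ⟨_, rfl⟩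
  have htot : ∀ n, ∫ ω, (G n u x ω) ^ 2 ∂(iid V) =
      Dec.SS N (G n u x) (T.side u x) + Dec.SS N (G n u x) (T.side x u) := by
    intro n
    have h1 := hN.SS_univ (hGm n u x h)
    rw [hGz n u x h] at h1
    simp only [sub_zero] at h1
    rw [← h1, ← Dec.side_compl h, ← hN.SS_union (hGm n u x h) disjoint_compl_right,
      Set.union_compl_self]
  have hA0 : ∀ n, 0 ≤ Dec.SS N (G n u x) (T.side u x) := fun n => Dec.SS_nonneg _ _
  have hB0 : ∀ n, 0 ≤ Dec.SS N (G n u x) (T.side x u) := fun n => Dec.SS_nonneg _ _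
  have hS₀0 : 0 ≤ S₀ := by rw [hS₀]; exact integral_nonneg fun _ => sq_nonneg _
  have hS₀1 : Dec.SS N (G 0 u x) (T.side u x) + Dec.SS N (G 0 u x) (T.side x u) = S₀ := by
    rw [← htot 0, hS₀, hG0]
  have hB : ∀ n, Dec.SS N (G n u x) (T.side x u) ≤ (b : ℝ)⁻¹ ^ n * S₀ := by
    intro n
    induction n with
    | zero => rw [pow_zero, one_mul, ← hS₀1]; linarith [hA0 0]
    | succ n ih =>
      have h1 := Dec.B_av hb0 hN (hGe n) (hGm n) h
      rw [← show G (n + 1) u x = _ from congrFun (congrFun (hGs n) u) x] at h1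
      calc _ ≤ _ := h1
        _ ≤ (b : ℝ)⁻¹ * ((b : ℝ)⁻¹ ^ n * S₀) := by gcongr
        _ = _ := by ring
  have hA : ∀ n : ℕ, Dec.SS N (G n u x) (T.side u x) ≤
      (b : ℝ)⁻¹ ^ n * (((n : ℝ) + 1) ^ 2 * b) * S₀ := by
    intro n
    induction n with
    | zero =>
      have h1 : (1 : ℝ) ≤ b := by exact_mod_cast hb0
      have h2 : Dec.SS N (G 0 u x) (T.side u x) ≤ S₀ := by linarith [hB0 0]
      simp only [pow_zero, Nat.cast_zero, zero_add, one_pow, one_mul]
      nlinarith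
    | succ n ih =>
      have hn : (0 : ℝ) < (n : ℝ) + 1 := by positivity
      have h1 := Dec.A_av hb0 hN (hGe n) (hGm n) h (s := 1 / ((n : ℝ) + 1)) (by positivity)
      rw [← show G (n + 1) u x = _ from congrFun (congrFun (hGs n) u) x] at h1
      calc _ ≤ _ := h1
        _ ≤ (1 + 1 / ((n : ℝ) + 1)) * (b : ℝ)⁻¹ *
            ((b : ℝ)⁻¹ ^ n * (((n : ℝ) + 1) ^ 2 * b) * S₀) +
            (1 + (1 / ((n : ℝ) + 1))⁻¹) * ((b : ℝ)⁻¹ ^ n * S₀) := by
            gcongr
            exact hB n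
        _ = (b : ℝ)⁻¹ ^ n * ((b : ℝ)⁻¹ * b) * S₀ * ((1 + 1 / ((n : ℝ) + 1)) * ((n : ℝ) + 1) ^ 2) +
            (1 + ((n : ℝ) + 1)) * ((b : ℝ)⁻¹ ^ n * S₀) := by
            rw [one_div, inv_inv]
            ring
        _ = (b : ℝ)⁻¹ ^ n * S₀ * (((n : ℝ) + 1) * ((n : ℝ) + 2)) +
            (1 + ((n : ℝ) + 1)) * ((b : ℝ)⁻¹ ^ n * S₀) := by
            rw [inv_mul_cancel₀ hb'.ne', show (1 + 1 / ((n : ℝ) + 1)) * ((n : ℝ) + 1) ^ 2 =
              ((n : ℝ) + 1) * ((n : ℝ) + 2) by field_simp; ring]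
            ring
        _ = (b : ℝ)⁻¹ ^ n * ((b : ℝ)⁻¹ * b) * S₀ * ((n : ℝ) + 2) ^ 2 := by
            rw [inv_mul_cancel₀ hb'.ne']
            ring
        _ = _ := by
            push_cast
            ring
  have key := htot n
  rw [show (fun ω => G n u x ω ^ 2) = fun ω =>
    (T.wavN (fun _ _ => 1) (fun u x => g u x ω) n u x) ^ 2 by rw [hG]] at key
  rw [key, ← hS₀]
  have h1 := hA n
  have h2 := hB n
  have h3 : (b : ℝ)⁻¹ ^ n * S₀ ≤ (b : ℝ)⁻¹ ^ n * S₀ * ((n : ℝ) + 1) ^ 2 := by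
    have : (1 : ℝ) ≤ ((n : ℝ) + 1) ^ 2 := by
      have : (0 : ℝ) ≤ n := Nat.cast_nonneg n
      nlinarith
    exact le_mul_of_one_le_right (by positivity) this
  calc _ ≤ (b : ℝ)⁻¹ ^ n * (((n : ℝ) + 1) ^ 2 * b) * S₀ +
        (b : ℝ)⁻¹ ^ n * S₀ * ((n : ℝ) + 1) ^ 2 := by linarith
    _ = _ := by ring

end Vale.Agent.P161E
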