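import Vale.Agent.P161E.DecBase

/-!
# Decorrelation of equivariant vertex families
-/

open MeasureTheory Set Filter Topology
open scoped unitInterval ENNReal

namespace Vale.Agent.P161E

open Vale.Agent.P161 Vale.Agent.P161.ExistAux

universe u

namespace Dec

variable {V : Type u} {b : ℕ} {T : RTree V b} {N : ((V → I) → ℝ) → V → ℝ}

/-- the vertices behind `x` seen from `v` -/
def far (T : RTree V b) (v x : V) : Set V := {z | T.G.dist v z = T.G.dist v x + T.G.dist x z}

theorem mem_far {v x z : V} : z ∈ far T v x ↔ T.G.dist v z = T.G.dist v x + T.G.dist x z :=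
  Iff.rfl

theorem far_map (φ : T.G ≃g T.G) (v x z : V) : φ z ∈ far T (φ v) (φ x) ↔ z ∈ far T v x := by
  rw [mem_far, mem_far, dist_iso T.tree.1, dist_iso T.tree.1, dist_iso T.tree.1]

/-- Medians. -/
theorem median (T : RTree V b) (m : ℕ) : ∀ v w, T.G.dist v w = m → ∃ P : Finset V,
    P.card ≤ m + 1 ∧ (∀ p ∈ P, T.G.dist v p + T.G.dist p w = m) ∧
    ∀ z, ∃ p ∈ P, z ∈ far T v p ∧ z ∈ far T w p := by
  classical
  induction m with
  | zero =>
    intro v w h
    rw [T.tree.1.dist_eq_zero_iff] at h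
    subst h
    refine ⟨{v}, by simp, by simp, fun z => ⟨v, by simp, ?_, ?_⟩⟩ <;>
      simp [mem_far]
  | succ n ih =>
    intro v w h
    rw [T.G.dist_comm] at h
    obtain ⟨v', hv', hv2⟩ := TreeAux.exists_adj_dist T.tree.1 h
    obtain ⟨P, hP1, hP2, hP3⟩ := ih v' w (by rw [T.G.dist_comm]; exact hv2)
    have hv1 := SimpleGraph.dist_eq_one_iff_adj.2 hv'
    refine ⟨insert v P, (Finset.card_insert_le _ _).trans (by omega), ?_, fun z => ?_⟩
    · intro p hp
      rw [Finset.mem_insert] at hp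
      rcases hp with rfl | hp
      · rw [SimpleGraph.dist_self, zero_add, T.G.dist_comm]; exact h
      · have h1 := hP2 p hp
        have h2 : T.G.dist v p ≤ T.G.dist v v' + T.G.dist v' p := T.tree.1.dist_triangle
        have h3 : T.G.dist v w ≤ T.G.dist v p + T.G.dist p w := T.tree.1.dist_triangle
        rw [T.G.dist_comm (u := v) (v := v')] at h2
        rw [T.G.dist_comm (u := v) (v := w)] at h3
        omega
    · rcases dist_lt_or_gt T.tree hv' z with hz | hz
      · -- `z` is closer to `v'`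
        obtain ⟨p, hp, h1, h2⟩ := hP3 z
        refine ⟨p, Finset.mem_insert_of_mem hp, ?_, h2⟩
        rw [mem_far] at h1 ⊢
        have h3 := hP2 p hp
        have h4 : T.G.dist v w ≤ T.G.dist v p + T.G.dist p w := T.tree.1.dist_triangle
        have h5 : T.G.dist v p ≤ T.G.dist v v' + T.G.dist v' p := T.tree.1.dist_triangle
        have h6 : T.G.dist v z ≤ T.G.dist v v' + T.G.dist v' z := T.tree.1.dist_triangle
        rw [T.G.dist_comm (u := z), T.G.dist_comm (u := z)] at hz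
        rw [T.G.dist_comm (u := v) (v := v')] at h5 h6
        rw [T.G.dist_comm (u := v) (v := w)] at h4
        omega
      · -- `z` is closer to `v`
        refine ⟨v, Finset.mem_insert_self _ _, by rw [mem_far, SimpleGraph.dist_self, zero_add],
          ?_⟩
        rw [mem_far]
        have h3 : T.G.dist w v' < T.G.dist w v := by omega
        have h4 := dist_split T.tree hv' h3 hz
        omega

/-- the part behind `x` -/
theorem SS_far (hb : 0 < b) (hN : IsDec N) {f : V → (V → I) → ℝ}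
    (hm : ∀ v, MemLp (f v) 2 (iid V))
    (he : ∀ (φ : T.G ≃g T.G) (v : V), ∀ᵐ ω ∂(iid V), f (φ v) (translate φ.toEquiv ω) = f v ω)
    (h0 : ∀ v, ∫ ω, f v ω ∂(iid V) = 0) (v : V) (n : ℕ) : ∀ x, T.G.dist v x = n →
    (b : ℝ) ^ n * SS N (f v) (far T v x) ≤ ∫ ω, (f v ω) ^ 2 ∂(iid V) := by
  classical
  have hb' : (0 : ℝ) < b := by exact_mod_cast hb
  induction n with
  | zero =>
    intro x _
    rw [pow_zero, one_mul]
    have h1 := hN.SS_univ (hm v)
    rw [h0 v] at h1
    simp only [sub_zero] at h1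
    rw [← h1]
    exact hN.SS_mono (hm v) (Set.subset_univ _)
  | succ n ih =>
    intro x hx
    obtain ⟨u, hu, hvu⟩ := TreeAux.exists_adj_dist T.tree.1 hx
    obtain ⟨Y, hY⟩ : ∃ Y : Finset V, Y = (T.nb u).filter fun y => T.G.dist v y = n + 1 :=
      ⟨_, rfl⟩
    have hmemY : ∀ y, y ∈ Y ↔ T.G.Adj u y ∧ T.G.dist v y = n + 1 := by
      intro y; rw [hY, Finset.mem_filter, T.mem_nb]
    have hcard : b ≤ Y.card := by
      have h1 : (T.nb u \ Y).card ≤ 1 := by
        rw [Finset.card_le_one]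
        have key : ∀ y ∈ T.nb u \ Y, T.G.Adj u y ∧ T.G.dist v y < T.G.dist v u := by
          intro y hy
          rw [Finset.mem_sdiff, T.mem_nb, hmemY] at hy
          refine ⟨hy.1, ?_⟩
          have h2 : T.G.dist v y ≠ n + 1 := fun h => hy.2 ⟨hy.1, h⟩
          have h3 : T.G.dist v y ≤ T.G.dist v u + T.G.dist u y := T.tree.1.dist_triangle
          rw [SimpleGraph.dist_eq_one_iff_adj.2 hy.1] at h3
          rcases dist_lt_or_gt T.tree hy.1 v with h4 | h4 <;> omega
        intro y hy y' hy'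
        exact nbr_unique T (key y hy).1 (key y' hy').1 (key y hy).2 (key y' hy').2
      have h2 : Y ⊆ T.nb u := by rw [hY]; exact Finset.filter_subset _ _
      have h3 := Finset.card_sdiff_add_card_eq_card h2
      rw [T.card_nb] at h3
      omega
    have h1 : ∀ y ∈ Y, SS N (f v) (far T v y) = SS N (f v) (far T v x) := by
      intro y hy
      obtain ⟨φ, k1, k2⟩ := exists_aut T (v := v) (w := y) (v' := v) (w' := x) (by
        rw [((hmemY y).mp hy).2, hx])
      refine hN.SS_map (hm v) φ.toEquiv ?_ (fun z => ?_)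
      · have := he φ v
        rwa [k1] at this
      · have := far_map (T := T) φ v y z
        rw [k1, k2] at this
        exact this
    have h2 : ∑ y ∈ Y, SS N (f v) (far T v y) ≤ SS N (f v) (far T v u) := by
      have key : ∀ y ∈ Y, ∀ z ∈ far T v y,
          z ∈ far T v u ∧ T.G.dist z y < T.G.dist z u := by
        intro y hy z hz
        obtain ⟨k1, k2⟩ := (hmemY y).mp hy
        rw [mem_far] at hz ⊢
        have k3 : T.G.dist v z ≤ T.G.dist v u + T.G.dist u z := T.tree.1.dist_triangle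
        have k4 : T.G.dist u z ≤ T.G.dist u y + T.G.dist y z := T.tree.1.dist_triangle
        rw [SimpleGraph.dist_eq_one_iff_adj.2 k1] at k4
        rw [T.G.dist_comm (u := z), T.G.dist_comm (u := z)]
        omega
      refine hN.sum_SS_le (hm v) _ _ _ (fun y hy z hz => (key y hy z hz).1) ?_
      intro y hy y' hy' hne
      rw [Set.disjoint_left]
      intro z hz hz'
      exact hne (nbr_unique T ((hmemY y).mp hy).1 ((hmemY y').mp hy').1 (key y hy z hz).2
        (key y' hy' z hz').2)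
    rw [Finset.sum_congr rfl h1, Finset.sum_const, nsmul_eq_mul] at h2
    have h3 : (b : ℝ) * SS N (f v) (far T v x) ≤ SS N (f v) (far T v u) := by
      refine le_trans ?_ h2
      exact mul_le_mul_of_nonneg_right (by exact_mod_cast hcard) (SS_nonneg _ _)
    calc (b : ℝ) ^ (n + 1) * SS N (f v) (far T v x)
        = (b : ℝ) ^ n * ((b : ℝ) * SS N (f v) (far T v x)) := by ring
      _ ≤ (b : ℝ) ^ n * SS N (f v) (far T v u) := by gcongr
      _ ≤ _ := ih u hvu

/-- covariances are bounded by the sums of the products -/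
theorem abs_cov_le (hN : IsDec N) {f g : (V → I) → ℝ} (hf : MemLp f 2 (iid V))
    (hg : MemLp g 2 (iid V)) (hf0 : ∫ ω, f ω ∂(iid V) = 0) (hg0 : ∫ ω, g ω ∂(iid V) = 0) :
    Summable (fun z => N f z * N g z) ∧
    |∫ ω, f ω * g ω ∂(iid V)| ≤ ∑' z, N f z * N g z := by
  have hs : Summable (fun z => N f z * N g z) := by
    refine Summable.of_nonneg_of_le (fun z => mul_nonneg (hN.nonneg _ _) (hN.nonneg _ _))
      (fun z => ?_) ((hN.summable hf).add (hN.summable hg))
    nlinarith [sq_nonneg (N f z - N g z), sq_nonneg (N f z), sq_nonneg (N g z)]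
  refine ⟨hs, ?_⟩
  have hfg : Integrable (fun ω => f ω * g ω) (iid V) := hf.integrable_mul hg
  have hff : Integrable (fun ω => f ω ^ 2) (iid V) := hf.integrable_sq
  have hgg : Integrable (fun ω => g ω ^ 2) (iid V) := hg.integrable_sq
  have key : ∀ c : ℝ, |c| = 1 → c * ∫ ω, f ω * g ω ∂(iid V) ≤ ∑' z, N f z * N g z := by
    intro c hc
    have hc2 : c ^ 2 = 1 := by rw [← sq_abs, hc]; norm_num
    have h1 := hN.sum (f + c • g) (hf.add (hg.const_smul c))
    have h2 : ∫ ω, (f + c • g) ω ∂(iid V) = 0 := by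
      have : (fun ω => (f + c • g) ω) = fun ω => f ω + c * g ω := by
        funext ω; rfl
      rw [this, integral_add (hf.integrable one_le_two)
        ((hg.integrable one_le_two).const_mul c), integral_const_mul, hf0, hg0]
      ring
    rw [h2] at h1
    have h3 : ∫ ω, ((f + c • g) ω - 0) ^ 2 ∂(iid V) =
        ∫ ω, f ω ^ 2 ∂(iid V) + ∫ ω, g ω ^ 2 ∂(iid V) + 2 * (c * ∫ ω, f ω * g ω ∂(iid V)) := by
      have : (fun ω => ((f + c • g) ω - 0) ^ 2) =
          fun ω => (f ω ^ 2 + g ω ^ 2) + 2 * c * (f ω * g ω) := by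
        funext ω
        simp only [Pi.add_apply, Pi.smul_apply, smul_eq_mul, sub_zero]
        linear_combination (g ω) ^ 2 * hc2
      have i1 : Integrable (fun ω => f ω ^ 2 + g ω ^ 2) (iid V) := hff.add hgg
      rw [this, integral_add i1 (hfg.const_mul _), integral_add hff hgg, integral_const_mul]
      ring
    rw [h3] at h1
    have h4 := hN.sum f hf
    have h5 := hN.sum g hg
    rw [hf0] at h4
    rw [hg0] at h5
    simp only [sub_zero] at h4 h5
    have h6 : HasSum (fun z => N f z ^ 2 + N g z ^ 2 + 2 * (N f z * N g z))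
        (∫ ω, f ω ^ 2 ∂(iid V) + ∫ ω, g ω ^ 2 ∂(iid V) + 2 * ∑' z, N f z * N g z) :=
      (h4.add h5).add (hs.hasSum.mul_left 2)
    have h7 := hasSum_le (fun z => ?_) h1 h6
    · linarith
    · have h8 := hN.add f (c • g) z hf (hg.const_smul c)
      rw [hN.smul c g z hg, hc, one_mul] at h8
      calc N (f + c • g) z ^ 2 ≤ (N f z + N g z) ^ 2 := pow_le_pow_left₀ (hN.nonneg _ _) h8 2
        _ = _ := by ring
  rw [abs_le]
  have k1 := key 1 (by norm_num)
  have k2 := key (-1) (by norm_num)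
  constructor <;> linarith

end Dec

/-- Covariances of equivariant vertex families decay. -/
theorem decor_vertex {b : ℕ} (hb : 2 ≤ b) : ∃ C : ℝ, 0 < C ∧ ∀ (V : Type u) (T : RTree V b)
    (f : V → (V → I) → ℝ), (∀ v, MemLp (f v) 2 (iid V)) →
    (∀ (φ : T.G ≃g T.G) (v : V), ∀ᵐ ω ∂(iid V), f (φ v) (translate φ.toEquiv ω) = f v ω) →
    (∀ v, ∫ ω, f v ω ∂(iid V) = 0) → ∀ v w,
    |∫ ω, f v ω * f w ω ∂(iid V)| ≤
      C * (T.G.dist v w + 1) * (Real.sqrt b)⁻¹ ^ T.G.dist v w * ∫ ω, (f v ω) ^ 2 ∂(iid V) := by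
  classical
  have hb0 : 0 < b := by omega
  have hb' : (0 : ℝ) < b := by exact_mod_cast hb0
  refine ⟨1, one_pos, fun V T f hm he h0 v w => ?_⟩
  have hcount := T.countable
  obtain ⟨N, hN⟩ := Dec.exists_isDec V
  obtain ⟨m, hmd⟩ : ∃ m, m = T.G.dist v w := ⟨_, rfl⟩
  obtain ⟨P, hP1, hP2, hP3⟩ := Dec.median T m v w hmd.symm
  -- stationarity
  obtain ⟨S₀, hS₀⟩ : ∃ S₀ : ℝ, S₀ = ∫ ω, (f v ω) ^ 2 ∂(iid V) := ⟨_, rfl⟩
  have hS₀' : ∫ ω, (f w ω) ^ 2 ∂(iid V) = S₀ := by
    obtain ⟨φ, k1, _⟩ := exists_aut T (v := v) (w := v) (v' := w) (w' := w) (by simp)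
    have h1 := hN.SS_map (f := f w) (g := f v) (hm w) φ.toEquiv (by
      have := he φ v
      rwa [k1] at this) (S := Set.univ) (S' := Set.univ) (fun z => by simp)
    rw [hN.SS_univ (hm v), hN.SS_univ (hm w), h0 v, h0 w] at h1
    simp only [sub_zero] at h1
    rw [hS₀, h1]
  have hS₀0 : 0 ≤ S₀ := by rw [hS₀]; exact integral_nonneg fun _ => sq_nonneg _
  obtain ⟨r, hr⟩ : ∃ r : ℝ, r = (Real.sqrt b)⁻¹ := ⟨_, rfl⟩
  have hr0 : 0 < r := by rw [hr]; positivity
  have hr2 : r ^ 2 * b = 1 := by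
    rw [hr, inv_pow, Real.sq_sqrt hb'.le]
    exact inv_mul_cancel₀ hb'.ne'
  obtain ⟨hs, hcov⟩ := Dec.abs_cov_le hN (hm v) (hm w) (h0 v) (h0 w)
  -- pointwise bound
  have h1 : ∀ z, N (f v) z * N (f w) z ≤ ∑ p ∈ P,
      (1 / 2 * (r ^ m * (b : ℝ) ^ T.G.dist v p) *
        (Dec.far T v p).indicator (fun z => N (f v) z ^ 2) z +
      1 / 2 * (r ^ m * (b : ℝ) ^ T.G.dist w p) *
        (Dec.far T w p).indicator (fun z => N (f w) z ^ 2) z) := by
    intro z
    obtain ⟨p, hp, hz1, hz2⟩ := hP3 z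
    have h2 : N (f v) z * N (f w) z ≤ 1 / 2 * (r ^ m * (b : ℝ) ^ T.G.dist v p) *
        (Dec.far T v p).indicator (fun z => N (f v) z ^ 2) z +
      1 / 2 * (r ^ m * (b : ℝ) ^ T.G.dist w p) *
        (Dec.far T w p).indicator (fun z => N (f w) z ^ 2) z := by
      rw [Set.indicator_of_mem hz1, Set.indicator_of_mem hz2]
      obtain ⟨A, hA⟩ : ∃ A : ℝ, A = r ^ m * (b : ℝ) ^ T.G.dist v p := ⟨_, rfl⟩
      obtain ⟨B, hB⟩ : ∃ B : ℝ, B = r ^ m * (b : ℝ) ^ T.G.dist w p := ⟨_, rfl⟩
      have hAB : A * B = 1 := by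
        have h3 := hP2 p hp
        rw [T.G.dist_comm (u := p) (v := w)] at h3
        rw [hA, hB]
        calc r ^ m * (b : ℝ) ^ T.G.dist v p * (r ^ m * (b : ℝ) ^ T.G.dist w p)
            = (r ^ m * r ^ m) * ((b : ℝ) ^ T.G.dist v p * (b : ℝ) ^ T.G.dist w p) := by ring
          _ = (r ^ 2) ^ m * (b : ℝ) ^ m := by
            rw [← pow_add (b : ℝ), h3]
            ring
          _ = 1 := by rw [← mul_pow, hr2, one_pow]
      have hA0 : 0 < A := by rw [hA]; positivity
      rw [← hA, ← hB]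
      have h4 : 0 ≤ A * (N (f v) z - B * N (f w) z) ^ 2 := by positivity
      have h5 : A * (N (f v) z - B * N (f w) z) ^ 2 =
          A * N (f v) z ^ 2 - 2 * (A * B) * (N (f v) z * N (f w) z) +
            (A * B) * (B * N (f w) z ^ 2) := by ring
      rw [hAB] at h5
      linarith
    refine h2.trans (Finset.single_le_sum (f := fun p =>
      1 / 2 * (r ^ m * (b : ℝ) ^ T.G.dist v p) *
        (Dec.far T v p).indicator (fun z => N (f v) z ^ 2) z +
      1 / 2 * (r ^ m * (b : ℝ) ^ T.G.dist w p) *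
        (Dec.far T w p).indicator (fun z => N (f w) z ^ 2) z) (fun q _ => ?_) hp)
    have n1 : 0 ≤ (Dec.far T v q).indicator (fun z => N (f v) z ^ 2) z :=
      Set.indicator_nonneg (fun _ _ => sq_nonneg _) z
    have n2 : 0 ≤ (Dec.far T w q).indicator (fun z => N (f w) z ^ 2) z :=
      Set.indicator_nonneg (fun _ _ => sq_nonneg _) z
    positivity
  have s1 : ∀ p, Summable fun z => (1 / 2 * (r ^ m * (b : ℝ) ^ T.G.dist v p) *
        (Dec.far T v p).indicator (fun z => N (f v) z ^ 2) z +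
      1 / 2 * (r ^ m * (b : ℝ) ^ T.G.dist w p) *
        (Dec.far T w p).indicator (fun z => N (f w) z ^ 2) z) := fun p =>
    ((hN.summable_ind (hm v) _).mul_left _).add ((hN.summable_ind (hm w) _).mul_left _)
  have h2 : ∀ p ∈ P, ∑' z, (1 / 2 * (r ^ m * (b : ℝ) ^ T.G.dist v p) *
        (Dec.far T v p).indicator (fun z => N (f v) z ^ 2) z +
      1 / 2 * (r ^ m * (b : ℝ) ^ T.G.dist w p) *
        (Dec.far T w p).indicator (fun z => N (f w) z ^ 2) z) ≤ r ^ m * S₀ := by
    intro p _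
    rw [((hN.summable_ind (hm v) _).mul_left _).tsum_add
      ((hN.summable_ind (hm w) _).mul_left _), tsum_mul_left, tsum_mul_left]
    have e1 := Dec.SS_far (T := T) hb0 hN hm he h0 v _ p rfl
    have e2 := Dec.SS_far (T := T) hb0 hN hm he h0 w _ p rfl
    rw [← hS₀] at e1
    rw [hS₀'] at e2
    have hrm : 0 < r ^ m := by positivity
    calc 1 / 2 * (r ^ m * (b : ℝ) ^ T.G.dist v p) * Dec.SS N (f v) (Dec.far T v p) +
        1 / 2 * (r ^ m * (b : ℝ) ^ T.G.dist w p) * Dec.SS N (f w) (Dec.far T w p)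
        = 1 / 2 * r ^ m * ((b : ℝ) ^ T.G.dist v p * Dec.SS N (f v) (Dec.far T v p)) +
          1 / 2 * r ^ m * ((b : ℝ) ^ T.G.dist w p * Dec.SS N (f w) (Dec.far T w p)) := by ring
      _ ≤ 1 / 2 * r ^ m * S₀ + 1 / 2 * r ^ m * S₀ := by gcongr
      _ = _ := by ring
  rw [← hmd, ← hS₀, ← hr, one_mul]
  calc |∫ ω, f v ω * f w ω ∂(iid V)| ≤ ∑' z, N (f v) z * N (f w) z := hcov
    _ ≤ ∑' z, ∑ p ∈ P, (1 / 2 * (r ^ m * (b : ℝ) ^ T.G.dist v p) *
        (Dec.far T v p).indicator (fun z => N (f v) z ^ 2) z +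
      1 / 2 * (r ^ m * (b : ℝ) ^ T.G.dist w p) *
        (Dec.far T w p).indicator (fun z => N (f w) z ^ 2) z) :=
        hs.tsum_le_tsum h1 (summable_sum fun p _ => s1 p)
    _ = ∑ p ∈ P, ∑' z, (1 / 2 * (r ^ m * (b : ℝ) ^ T.G.dist v p) *
        (Dec.far T v p).indicator (fun z => N (f v) z ^ 2) z +
      1 / 2 * (r ^ m * (b : ℝ) ^ T.G.dist w p) *
        (Dec.far T w p).indicator (fun z => N (f w) z ^ 2) z) :=
        Summable.tsum_finsetSum fun p _ => s1 p
    _ ≤ ∑ p ∈ P, r ^ m * S₀ := Finset.sum_le_sum h2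
    _ = P.card * (r ^ m * S₀) := by rw [Finset.sum_const, nsmul_eq_mul]
    _ ≤ ((m : ℝ) + 1) * (r ^ m * S₀) := by
        have : (P.card : ℝ) ≤ (m : ℝ) + 1 := by exact_mod_cast hP1
        gcongr
    _ = _ := by ring

end Vale.Agent.P161E
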