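import Vale.Agent.P161.Limit
import Vale.Agent.P161.Cov
import Vale.Agent.P161.Unique
import Vale.Agent.P161.Exist
import Vale.Agent.P161.TreeDist

/-!
# The free Ising measure at the reconstruction threshold: definitions
-/

open MeasureTheory Set Filter Topology
open scoped unitInterval ENNReal

namespace Vale.Agent.P161E

open Vale.Agent.P161

universe u

/-! ### Regular trees -/

/-- A tree all of whose vertices have `b + 1` neighbours. -/
structure RTree (V : Type u) (b : ℕ) where
  /-- the tree -/
  G : SimpleGraph V
  tree : G.IsTree
  /-- the neighbours -/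
  nb : V → Finset V
  mem_nb : ∀ v w, w ∈ nb v ↔ G.Adj v w
  card_nb : ∀ v, (nb v).card = b + 1

namespace RTree

variable {V : Type u} {b : ℕ}

theorem fin (T : RTree V b) (v : V) : (T.G.neighborSet v).Finite := by
  apply (T.nb v).finite_toSet.subset
  intro w hw
  exact Finset.mem_coe.mpr ((T.mem_nb v w).mpr hw)

/-- The ball of radius `n`. -/
noncomputable def ball (T : RTree V b) (v : V) (n : ℕ) : Finset V :=
  (Vale.Agent.P161.ball_finite T.tree.1 T.fin v n).toFinset

/-- The vertices of the branch at `x` seen from the neighbour `u` (those closer to `x` than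
to `u`) at distance at most `n` from `x`. -/
noncomputable def half (T : RTree V b) (u x : V) (n : ℕ) : Finset V :=
  SplitAux.half T.G T.tree.1 T.fin x u n

/-- The branch at `x` seen from the neighbour `u`. -/
def side (T : RTree V b) (u x : V) : Set V := {w | T.G.dist w x < T.G.dist w u}

open Classical in
/-- The part of `D` in the branch at `x` seen from `u`. -/
noncomputable def inter (T : RTree V b) (D : Finset V) (u x : V) : Finset V :=
  D.filter (fun w => T.G.dist w x < T.G.dist w u)

open Classical in
/-- The children of the directed edge `(u, x)`. -/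
noncomputable def ch (T : RTree V b) (u x : V) : Finset V := (T.nb x).erase u

/-- Average of an edge functional over the children of `(u, x)`. -/
noncomputable def av (T : RTree V b) (g : V → V → ℝ) : V → V → ℝ := fun u x =>
  (∑ y ∈ T.ch u x, g x y) / b

/-- Average over the children with a weight. -/
noncomputable def wav (T : RTree V b) (w g : V → V → ℝ) : V → V → ℝ :=
  T.av (fun x y => w x y * g x y)

/-- Iterated weighted averages: the average over the descendants of the generation `n` of the
product of the weights along the path and of `g` at its end. -/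
noncomputable def wavN (T : RTree V b) (w g : V → V → ℝ) : ℕ → V → V → ℝ
  | 0 => g
  | n + 1 => T.wav w (wavN T w g n)

/-- Partial sums: `1 + w + w w + ...` averaged over the first `n` generations. -/
noncomputable def chiN (T : RTree V b) (w : V → V → ℝ) : ℕ → V → V → ℝ
  | 0 => fun _ _ => 1
  | n + 1 => fun u x => 1 + T.wav w (chiN T w n) u x

/-- The sum over all generations. -/
noncomputable def chi (T : RTree V b) (w : V → V → ℝ) (u x : V) : ℝ :=
  limsup (fun n => T.chiN w n u x) atTop

end RTree

/-! ### Cavity magnetisations -/

/-- `comb s t` is the posterior mean of a sign with independent posterior means `s` and `t`. -/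
noncomputable def comb (s t : ℝ) : ℝ := (s + t) / (1 + s * t)

/-- The contraction factor of an edge whose lower end has cavity magnetisation `t`. -/
noncomputable def af (θ t : ℝ) : ℝ := (1 - t ^ 2) / (1 - θ ^ 2 * t ^ 2)

variable {V : Type u} {b : ℕ}

/-- The normalised edge weight. -/
noncomputable def be (b : ℕ) (θ t : ℝ) : ℝ := Real.sqrt b * θ * af θ t

/-- The magnetisation at `v` in infinite volume, with the fields `Y`. -/
noncomputable def Mh (T : RTree V b) (μ : Measure (V → Bool)) (v : V) (Y : V → ℝ) : ℝ :=
  limsup (fun n => mean μ (T.ball v n) v Y) atTop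

/-- The cavity magnetisation at `x` in the branch seen from `u`, with the fields `Y`. -/
noncomputable def th (T : RTree V b) (μ : Measure (V → Bool)) (u x : V) (Y : V → ℝ) : ℝ :=
  limsup (fun n => mean μ (T.half u x n) x Y) atTop

/-- The covariance of two spins with fields `Y` on `D`. -/
noncomputable def cov (μ : Measure (V → Bool)) (D : Finset V) (v w : V) (Y : V → ℝ) : ℝ :=
  tilt μ D Y (fun τ => sg (τ v) * sg (τ w)) - mean μ D v Y * mean μ D w Y

/-! ### Planted fields -/

/-- The likelihood of the fields on `D`. -/
noncomputable def Lik (μ : Measure (V → Bool)) (D : Finset V) (Y : V → ℝ) : ℝ :=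
  ∫ τ, ∏ w ∈ D, (1 + sg (τ w) * Real.tanh (Y w)) ∂μ

/-- An observation law: symmetric with bounded support. -/
structure Obs (ν : Measure ℝ) : Prop where
  prob : IsProbabilityMeasure ν
  symm : Measure.map (fun y : ℝ => -y) ν = ν
  bdd : ∃ B : ℝ, ∀ᵐ y ∂ν, |y| ≤ B

/-- `Q` is the law of the fields planted by `μ` with the observation law `ν`. -/
structure IsPlanted (μ : Measure (V → Bool)) (ν : Measure ℝ) (Q : Measure (V → ℝ)) : Prop where
  prob : IsProbabilityMeasure Q
  law : ∀ (D : Finset V) (F : (V → ℝ) → ℝ≥0∞), Measurable F → DependsOn F (D : Set V) →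
    ∫⁻ Y, F Y ∂Q = ∫⁻ Y, F Y * ENNReal.ofReal (Lik μ D Y) ∂(Measure.infinitePi fun _ : V => ν)

/-- Information of the observation law. -/
noncomputable def qq (ν : Measure ℝ) : ℝ := ∫ y, Real.tanh y ^ 2 ∂ν

/-! ### Time, labels and signals -/

/-- The strength of a signal with the label `u`. -/
noncomputable def str (u : I) : ℝ := if (u : ℝ) < 1 / 2 then 1 / 5 * Real.sqrt u else 0

/-- The fields at the time `(k, r)` when the labels are `U` and the signals are `x`. -/
noncomputable def fld (U x : ℕ × V → I) (k : ℕ) (r : ℝ) : V → ℝ := fun w =>
  (∑ i ∈ Finset.range k, ell (str (U (i, w))) (x (i, w))) +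
    (if (U (k, w) : ℝ) < r then ell (str (U (k, w))) (x (k, w)) else 0)

/-- The mixture parameter of the site `j`. -/
noncomputable def param (μ : Measure (V → Bool)) (D : Finset V) (U x : ℕ × V → I)
    (j : ℕ × V) : ℝ :=
  str (U j) * mean μ D j.2 (fld U x j.1 (U j))

/-- Picard iterates. -/
noncomputable def picard (μ : Measure (V → Bool)) (D : Finset V) (U s : ℕ × V → I) :
    ℕ → ℕ × V → I
  | 0 => fun _ => 0
  | n + 1 => fun j => sig (param μ D U (picard μ D U s n) j) (s j)

/-- The finite-volume sampler with seeds `s`. -/
noncomputable def sol (μ : Measure (V → Bool)) (D : Finset V) (U s : ℕ × V → I)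
    (j : ℕ × V) : I := picard μ D U s ((j.1 + 1) * D.card) j

/-- Labels and seeds: `ω.1` are the labels, `ω.2` are the seeds. -/
abbrev Om (V : Type u) := (ℕ × V → I) × (ℕ × V → I)

/-- The law of the labels and the seeds. -/
noncomputable def PO (V : Type u) : Measure (Om V) := (iid (ℕ × V)).prod (iid (ℕ × V))

instance : IsProbabilityMeasure (PO V) := by unfold PO; infer_instance

/-- Translation of the labels and the seeds. -/
def trO (g : V ≃ V) (ω : Om V) : Om V := (translateS g ω.1, translateS g ω.2)

/-- The signals about `τ` with the labels `U` obtained from uniform variables `w`. -/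
noncomputable def xs (p : (V → Bool) × Om V) : ℕ × V → I :=
  fun j => sig (str (p.2.1 j) * sg (p.1 j.2)) (p.2.2 j)

/-- The planted law of the labels and the signals. -/
noncomputable def PL (μ : Measure (V → Bool)) : Measure (Om V) :=
  Measure.map (fun p : (V → Bool) × Om V => (p.2.1, xs p)) (μ.prod (PO V))

end Vale.Agent.P161E
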