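import Vale.Agent.P161E.Converse

/-!
# The free Ising measure on the regular tree: assembly
-/

open MeasureTheory Set Filter Topology
open scoped unitInterval ENNReal

namespace Vale.Agent.P161E

open Vale.Agent.P161

universe u

/-- The regular tree as an `RTree`. -/
noncomputable def mkRTree {V : Type u} (G : SimpleGraph V) (hG : G.IsTree) (b : ℕ)
    (hdeg : ∀ v, (G.neighborSet v).encard = (b + 1 : ℕ)) : RTree V b where
  G := G
  tree := hG
  nb := fun v => (Set.finite_of_encard_eq_coe (hdeg v)).toFinset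
  mem_nb := by
    intro v w
    rw [Set.Finite.mem_toFinset]
    rfl
  card_nb := by
    intro v
    have h := hdeg v
    rw [(Set.finite_of_encard_eq_coe (hdeg v)).encard_eq_coe_toFinset_card] at h
    exact_mod_cast h

/-- below the threshold -/
theorem fiid_below {V : Type u} (G : SimpleGraph V) (hG : G.IsTree) (d : ℕ) (hd : 3 ≤ d)
    (hdeg : ∀ v, (G.neighborSet v).encard ≤ d) {θ : ℝ} (hθ : 0 ≤ θ) (hθ1 : θ < 1)
    (h : ((d : ℝ) - 1) * θ ^ 2 < 1) {μ : Measure (V → Bool)} (hμ : IsFreeIsing G θ μ) :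
    IsFactorOfIID G μ := by
  have hd2 : 2 ≤ d := by omega
  have hfin : ∀ v, (G.neighborSet v).Finite := fun v =>
    Set.finite_of_encard_le_coe (hdeg v)
  have hdeg' : ∀ v, (G.neighborSet v).ncard ≤ d := by
    intro v
    have h1 := hdeg v
    rw [← (hfin v).cast_ncard_eq] at h1
    exact_mod_cast h1
  have hV : Countable V := countable_of_connected hG.1 hfin
  have := hμ.prob
  obtain ⟨r, hr1, hr2⟩ : ∃ r, θ < r ∧ ((d : ℝ) - 1) * r ^ 2 < 1 := by
    have hc : ContinuousAt (fun r : ℝ => ((d : ℝ) - 1) * r ^ 2) θ := by fun_prop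
    have h1 : ∀ᶠ r in 𝓝 θ, ((d : ℝ) - 1) * r ^ 2 < 1 := hc.eventually_lt_const h
    have h2 : ∀ᶠ r in 𝓝[>] θ, ((d : ℝ) - 1) * r ^ 2 < 1 := nhdsWithin_le_nhds h1
    obtain ⟨r, hr⟩ := (h2.and self_mem_nhdsWithin).exists
    exact ⟨r, hr.2, hr.1⟩
  obtain ⟨C, hC, hconv⟩ := kernel_conv hG hd2 hfin hdeg' hθ hr1 hr2
  have hr0 : 0 ≤ r := hθ.trans hr1.le
  obtain ⟨Φ, hΦ, hlaw, heq⟩ := factor_of_kernel μ (fun v w => 2 * θ ^ G.dist v w)
    (fun v w => r ^ G.dist v w) (2 * C) (fun v w => by positivity) (fun v w => by positivity)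
    (fun v => by simp) (fun D v z => by
      have := hconv D v z
      calc ∑ w ∈ D, 2 * θ ^ G.dist v w * r ^ G.dist w z
          = 2 * ∑ w ∈ D, θ ^ G.dist v w * r ^ G.dist w z := by
            rw [Finset.mul_sum]; exact Finset.sum_congr rfl fun w _ => by ring
        _ ≤ 2 * C * r ^ G.dist v z := by linarith)
    (fun v => kernel_summable hG hd2 hfin hdeg' hr0 hr2 v)
    (fun D v Y Y' => mean_lip hG hfin hθ hθ1 hμ D v Y Y')
  refine ⟨Φ, hΦ, hlaw, fun g => heq g.toEquiv ?_⟩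
  exact isFreeIsing_unique hG.1 (isFreeIsing_translate hμ g) hμ

/-- The free Ising measure on the `d`-regular tree is a factor of IID if and only if
`(d - 1) (tanh β)² ≤ 1`, given the critical case. -/
theorem final_core
    (hcrit : ∀ {V : Type u} {b : ℕ}, 2 ≤ b → ∀ (T : RTree V b) {μ : Measure (V → Bool)},
      IsFreeIsing T.G (Real.sqrt b)⁻¹ μ → IsFactorOfIID T.G μ)
    {V : Type u} (G : SimpleGraph V) (hG : G.IsTree) (d : ℕ) (hd : 3 ≤ d)
    (hdeg : ∀ v, (G.neighborSet v).encard = d) (β : ℝ) (hβ : 0 ≤ β) :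
    ∃ μ : Measure (V → Bool), IsFreeIsing G (Real.tanh β) μ ∧
      (∀ ν : Measure (V → Bool), IsFreeIsing G (Real.tanh β) ν → ν = μ) ∧
      (IsFactorOfIID G μ ↔ ((d : ℝ) - 1) * Real.tanh β ^ 2 ≤ 1) := by
  set θ := Real.tanh β with hθdef
  have hθ : 0 ≤ θ := by
    rw [hθdef, Real.tanh_eq_sinh_div_cosh]
    exact div_nonneg (Real.sinh_nonneg_iff.mpr hβ) (Real.cosh_pos β).le
  have hθ1 : θ < 1 := by
    rw [hθdef]
    exact Real.tanh_lt_one β
  obtain ⟨μ, hμ⟩ := exists_isFreeIsing hG (θ := θ) (by rw [abs_of_nonneg hθ]; exact hθ1.le)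
  refine ⟨μ, hμ, fun ν hν => isFreeIsing_unique hG.1 hν hμ, ?_⟩
  obtain ⟨b, rfl⟩ : ∃ b, d = b + 1 := ⟨d - 1, by omega⟩
  have hb : 2 ≤ b := by omega
  have hbr : (((b + 1 : ℕ) : ℝ) - 1) = b := by push_cast; ring
  have hb0 : (0 : ℝ) < b := by exact_mod_cast (by omega : 0 < b)
  set T : RTree V b := mkRTree G hG b hdeg with hT
  constructor
  · intro hf
    by_contra hlt
    push Not at hlt
    rw [hbr] at hlt
    exact not_fiid hb T hθ1.le hlt hθ (μ := μ) hμ hf
  · intro hle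
    rcases hle.lt_or_eq with hlt | heq
    · exact fiid_below G hG (b + 1) hd (fun v => (hdeg v).le) hθ hθ1 hlt hμ
    · rw [hbr] at heq
      have hs : θ = (Real.sqrt b)⁻¹ := by
        have h1 : θ ^ 2 = (b : ℝ)⁻¹ := by
          field_simp
          linarith
        rw [← Real.sqrt_sq hθ, h1, Real.sqrt_inv]
      rw [hs] at hμ
      exact hcrit hb T hμ

end Vale.Agent.P161E
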