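import Vale.Agent.P161E.SRec

/-!
# Identities in infinite volume
-/

open MeasureTheory Set Filter Topology
open scoped unitInterval ENNReal

namespace Vale.Agent.P161E

open Vale.Agent.P161

universe u

namespace IdentAux

theorem ae_of_l2 {Ω : Type*} [MeasurableSpace Ω] {Q : Measure Ω} [IsProbabilityMeasure Q]
    {f : ℕ → Ω → ℝ} {g : Ω → ℝ} (hf : ∀ n, Measurable (f n)) (hf1 : ∀ n Y, |f n Y| ≤ 1)
    (hg : Measurable g) (hg1 : ∀ Y, |g Y| ≤ 1)
    (hl : ∀ᵐ Y ∂Q, ∃ l, Tendsto (fun n => f n Y) atTop (𝓝 l))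
    (h2 : ∀ ε : ℝ, 0 < ε → ∃ n₀, ∀ n ≥ n₀, ∫ Y, (f n Y - g Y) ^ 2 ∂Q ≤ ε) :
    ∀ᵐ Y ∂Q, Tendsto (fun n => f n Y) atTop (𝓝 (g Y)) := by
  set L : Ω → ℝ := fun Y => limsup (fun n => f n Y) atTop with hLdef
  have hLm : Measurable L := Measurable.limsup hf
  have hL : ∀ᵐ Y ∂Q, Tendsto (fun n => f n Y) atTop (𝓝 (L Y)) := by
    filter_upwards [hl] with Y hY
    obtain ⟨l, hl⟩ := hY
    rw [show L Y = l from hl.limsup_eq]
    exact hl
  have hL1 : ∀ Y, |L Y| ≤ 1 := fun Y => SL.abs_limsup_le fun n => hf1 n Y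
  have hb : ∀ x y : ℝ, |x| ≤ 1 → |y| ≤ 1 → (x - y) ^ 2 ≤ 4 := by
    intro x y hx hy
    obtain ⟨h1, h2⟩ := abs_le.1 hx
    obtain ⟨h3, h4⟩ := abs_le.1 hy
    nlinarith
  have h3 : Tendsto (fun n => ∫ Y, (f n Y - g Y) ^ 2 ∂Q) atTop
      (𝓝 (∫ Y, (L Y - g Y) ^ 2 ∂Q)) := by
    refine tendsto_integral_of_dominated_convergence (fun _ => (4 : ℝ))
      (fun n => (((hf n).sub hg).pow_const 2).aestronglyMeasurable) (integrable_const _)
      (fun n => ae_of_all _ fun Y => ?_) ?_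
    · rw [Real.norm_eq_abs, abs_of_nonneg (sq_nonneg _)]
      exact hb _ _ (hf1 n Y) (hg1 Y)
    · filter_upwards [hL] with Y hY
      exact (hY.sub_const _).pow 2
  have h4 : ∫ Y, (L Y - g Y) ^ 2 ∂Q ≤ 0 := by
    refine le_of_forall_pos_le_add fun ε hε => ?_
    obtain ⟨n₀, hn₀⟩ := h2 ε hε
    rw [zero_add]
    exact le_of_tendsto h3 (eventually_atTop.2 ⟨n₀, hn₀⟩)
  have h5 : (fun Y => (L Y - g Y) ^ 2) =ᵐ[Q] 0 := by
    refine (integral_eq_zero_iff_of_nonneg (fun Y => sq_nonneg _) ?_).1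
      (le_antisymm h4 (integral_nonneg fun Y => sq_nonneg _))
    refine Integrable.of_bound ((hLm.sub hg).pow_const 2).aestronglyMeasurable 4
      (ae_of_all _ fun Y => ?_)
    rw [Real.norm_eq_abs, abs_of_nonneg (sq_nonneg _)]
    exact hb _ _ (hL1 Y) (hg1 Y)
  filter_upwards [hL, h5] with Y a c
  have h6 : (L Y - g Y) ^ 2 = 0 := c
  have h7 : L Y = g Y := by
    have := pow_eq_zero_iff (two_ne_zero) |>.1 h6
    linarith
  rwa [h7] at a

variable {V : Type u} {b : ℕ} (T : RTree V b)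

theorem ball_sub (o v : V) (n : ℕ) : T.ball v n ⊆ T.ball o (n + T.G.dist o v) := by
  intro w hw
  rw [RecAux.mem_ball] at hw ⊢
  have : T.G.dist o w ≤ T.G.dist o v + T.G.dist v w := T.tree.1.dist_triangle
  omega

theorem half_sub_ball (u x : V) (n : ℕ) : T.half u x n ⊆ T.ball x n := by
  intro w hw
  rw [RecAux.mem_half] at hw
  rw [RecAux.mem_ball, T.G.dist_comm]
  exact hw.1

theorem ball_mono (o : V) {m n : ℕ} (h : m ≤ n) : T.ball o m ⊆ T.ball o n := by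
  intro w hw
  rw [RecAux.mem_ball] at hw ⊢
  omega

variable {μ : Measure (V → Bool)} [IsProbabilityMeasure μ] {ν : Measure ℝ} {Q : Measure (V → ℝ)}

theorem tendsto_ball_Mh (hν : Obs ν) (hQ : IsPlanted μ ν Q) (o v : V) :
    ∀ᵐ Y ∂Q, Tendsto (fun n => mean μ (T.ball o n) v Y) atTop (𝓝 (Mh T μ v Y)) := by
  have := hQ.prob
  refine ae_of_l2 (fun n => measurable_mean μ (T.ball o n) v)
    (fun n Y => CovAux.abs_mean_le μ _ v Y) (measurable_Mh T μ v) (abs_Mh_le T μ v)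
    (tendsto_seq hν hQ (T.ball o) (fun m n h => ball_mono T o h) v) fun ε hε => ?_
  obtain ⟨n₀, hn₀⟩ := l2_Mh T hν hQ v hε
  exact ⟨n₀ + T.G.dist o v, fun n hn =>
    hn₀ _ ((ball_sub T o v n₀).trans (ball_mono T o hn))⟩

theorem tendsto_ball_th (hν : Obs ν) (hQ : IsPlanted μ ν Q) (o u x : V) :
    ∀ᵐ Y ∂Q, Tendsto (fun n => mean μ (T.inter (T.ball o n) u x) x Y) atTop
      (𝓝 (th T μ u x Y)) := by
  have := hQ.prob
  have hmono : Monotone fun n => T.inter (T.ball o n) u x := by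
    intro m n h w hw
    rw [FinAux.mem_inter] at hw ⊢
    exact ⟨ball_mono T o h hw.1, hw.2⟩
  refine ae_of_l2 (fun n => measurable_mean μ _ x)
    (fun n Y => CovAux.abs_mean_le μ _ x Y) (measurable_th T μ u x) (abs_th_le T μ u x)
    (tendsto_seq hν hQ (fun n => T.inter (T.ball o n) u x) hmono x) fun ε hε => ?_
  obtain ⟨n₀, hn₀⟩ := l2_th T hν hQ u x hε
  exact ⟨n₀ + T.G.dist o x, fun n hn =>
    hn₀ _ (((half_sub_ball T u x n₀).trans (ball_sub T o x n₀)).trans (ball_mono T o hn))⟩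

omit [IsProbabilityMeasure μ] in
theorem tendsto_ppN {f : ℕ → V → V → ℝ} {g : V → V → ℝ}
    (h : ∀ u x, T.G.Adj u x → Tendsto (fun n => f n u x) atTop (𝓝 (g u x))) (w : V) (m : ℕ) :
    ∀ v, T.G.dist v w = m →
      Tendsto (fun n => ppN T (f n) m v w) atTop (𝓝 (ppN T g m v w)) := by
  induction m with
  | zero => intro v _; exact tendsto_const_nhds
  | succ m ih =>
    intro v hv
    obtain ⟨hadj, hd⟩ := FinAux.nxt_spec T hv
    exact (h _ _ hadj).mul (ih _ hd)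

theorem one_sub_pos {θ t : ℝ} (hθ : 0 ≤ θ) (hθ1 : θ < 1) (ht : |t| ≤ 1) :
    0 < 1 - θ ^ 2 * t ^ 2 := by
  obtain ⟨g1, g2⟩ := abs_le.1 ht
  have g3 : t ^ 2 ≤ 1 := by nlinarith
  have g4 : θ ^ 2 < 1 := by nlinarith
  have g5 : θ ^ 2 * t ^ 2 ≤ θ ^ 2 * 1 := by gcongr
  linarith

theorem tendsto_af {θ t : ℝ} {f : ℕ → ℝ} (hθ : 0 ≤ θ) (hθ1 : θ < 1) (ht : |t| ≤ 1)
    (hf : Tendsto f atTop (𝓝 t)) : Tendsto (fun n => af θ (f n)) atTop (𝓝 (af θ t)) := by
  unfold af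
  refine Tendsto.div ((hf.pow 2).const_sub 1) (((hf.pow 2).const_mul (θ ^ 2)).const_sub 1) ?_
  exact (one_sub_pos hθ hθ1 ht).ne'

end IdentAux

open IdentAux in
theorem ident {V : Type u} {b : ℕ} (hb : 2 ≤ b) (T : RTree V b) {θ : ℝ} (hθ : 0 ≤ θ)
    (hθ1 : θ < 1) {μ : Measure (V → Bool)} (hμ : IsFreeIsing T.G θ μ) {ν : Measure ℝ}
    (hν : Obs ν) {Q : Measure (V → ℝ)} (hQ : IsPlanted μ ν Q) :
    (∀ u x, T.G.Adj u x → ∀ᵐ Y ∂Q, Mh T μ x Y = (th T μ u x Y + θ * th T μ x u Y) /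
      (1 + θ * th T μ u x Y * th T μ x u Y)) ∧
    (∀ v w, ∀ᵐ Y ∂Q,
      (1 - Mh T μ v Y ^ 2) * pp T (fun u x => θ * af θ (th T μ u x Y)) v w =
      (1 - Mh T μ w Y ^ 2) * pp T (fun u x => θ * af θ (th T μ u x Y)) w v) := by
  have := hμ.prob
  have hc : Countable V := countable_of_connected T.tree.1 T.fin
  constructor
  · intro u x hux
    filter_upwards [tendsto_ball_Mh T hν hQ x x, tendsto_ball_th T hν hQ x u x,
      tendsto_ball_th T hν hQ x x u] with Y g1 g2 g3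
    have hpos : 0 < 1 + θ * th T μ u x Y * th T μ x u Y := by
      have ha := abs_le.1 (abs_th_le T μ u x Y)
      have hb := abs_le.1 (abs_th_le T μ x u Y)
      have hαβ : |th T μ u x Y * th T μ x u Y| ≤ 1 := by
        rw [abs_mul]
        nlinarith [abs_nonneg (th T μ u x Y), abs_nonneg (th T μ x u Y),
          abs_th_le T μ u x Y, abs_th_le T μ x u Y]
      have hab := abs_le.1 hαβ
      nlinarith
    refine tendsto_nhds_unique g1 ?_
    have h1 : Tendsto (fun n => (mean μ (T.inter (T.ball x n) u x) x Y +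
        θ * mean μ (T.inter (T.ball x n) x u) u Y) / (1 + θ *
          mean μ (T.inter (T.ball x n) u x) x Y * mean μ (T.inter (T.ball x n) x u) u Y)) atTop
        (𝓝 ((th T μ u x Y + θ * th T μ x u Y) /
          (1 + θ * th T μ u x Y * th T μ x u Y))) :=
      Tendsto.div (g2.add (g3.const_mul θ)) (((g2.const_mul θ).mul g3).const_add 1) hpos.ne'
    refine h1.congr fun n => ?_
    rw [mean_edge T hθ hθ1 hμ (T.ball x n) Y hux]
  · intro v w
    have h1 : ∀ᵐ Y ∂Q, ∀ u x, Tendsto (fun n => mean μ (T.inter (T.ball v n) u x) x Y) atTop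
        (𝓝 (th T μ u x Y)) := by
      rw [ae_all_iff]
      intro u
      rw [ae_all_iff]
      intro x
      exact tendsto_ball_th T hν hQ v u x
    filter_upwards [h1, tendsto_ball_Mh T hν hQ v v, tendsto_ball_Mh T hν hQ v w] with Y g1 g2 g3
    have h2 : ∀ u x, T.G.Adj u x → Tendsto (fun n => (fun u x =>
        θ * af θ (mean μ (T.inter (T.ball v n) u x) x Y)) u x) atTop
        (𝓝 ((fun u x => θ * af θ (th T μ u x Y)) u x)) := fun u x _ =>
      (tendsto_af hθ hθ1 (abs_th_le T μ u x Y) (g1 u x)).const_mul θ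
    have h3 : ∀ a c : V, Tendsto (fun n => mean μ (T.ball v n) a Y) atTop (𝓝 (Mh T μ a Y)) →
        Tendsto (fun n => cov μ (T.ball v n) a c Y) atTop
        (𝓝 ((1 - Mh T μ a Y ^ 2) * pp T (fun u x => θ * af θ (th T μ u x Y)) a c)) := by
      intro a c ha
      have h4 := ((ha.pow 2).const_sub 1).mul (tendsto_ppN T h2 c _ a rfl)
      refine h4.congr fun n => ?_
      rw [cov_eq T hθ hθ1 hμ (T.ball v n) Y a c]
      rfl
    refine tendsto_nhds_unique (h3 v w g2) ((h3 w v g3).congr fun n => ?_)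
    rw [FinAux.cov_comm]

end Vale.Agent.P161E
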