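import Vale.Agent.P161E.Basic
import Vale.Agent.P161.EfronStein

/-!
# The isometry in finite volume, for fixed labels
-/

open MeasureTheory Set Filter Topology
open scoped unitInterval ENNReal

namespace Vale.Agent.P161E

open Vale.Agent.P161

universe u

variable {V : Type u}

theorem tilt_congr (μ : Measure (V → Bool)) {D : Finset V} {Y Y' : V → ℝ}
    (h : ∀ w ∈ D, Y w = Y' w) (F : (V → Bool) → ℝ) : tilt μ D Y F = tilt μ D Y' F := by
  have : wt D Y = wt D Y' := funext fun τ => by rw [wt_congr h]
  unfold tilt Zf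
  rw [this]

theorem cov_congr (μ : Measure (V → Bool)) {D : Finset V} (v w : V) {Y Y' : V → ℝ}
    (h : ∀ z ∈ D, Y z = Y' z) : cov μ D v w Y = cov μ D v w Y' := by
  unfold cov
  rw [tilt_congr μ h, mean_congr μ v h, mean_congr μ w h]

theorem measurable_tilt (μ : Measure (V → Bool)) [IsProbabilityMeasure μ] (D : Finset V)
    {F : (V → Bool) → ℝ} (hF : Measurable F) : Measurable (fun Y => tilt μ D Y F) := by
  unfold tilt Zf
  have h1 : Measurable (fun p : (V → ℝ) × (V → Bool) => wt D p.1 p.2) := by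
    unfold wt
    refine Real.measurable_exp.comp (Finset.measurable_fun_sum _ fun w _ => ?_)
    exact ((measurable_pi_apply w).comp measurable_fst).mul
      (measurable_sg.comp ((measurable_pi_apply w).comp measurable_snd))
  have h2 : Measurable (fun p : (V → ℝ) × (V → Bool) => F p.2 * wt D p.1 p.2) :=
    (hF.comp measurable_snd).mul h1
  exact (h2.stronglyMeasurable.integral_prod_right (ν := μ)).measurable.div
    (h1.stronglyMeasurable.integral_prod_right (ν := μ)).measurable

theorem measurable_cov (μ : Measure (V → Bool)) [IsProbabilityMeasure μ] (D : Finset V)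
    (v w : V) : Measurable (fun Y => cov μ D v w Y) := by
  unfold cov
  exact (measurable_tilt μ D ((measurable_sg.comp (measurable_pi_apply v)).mul
    (measurable_sg.comp (measurable_pi_apply w)))).sub
    ((measurable_mean μ D v).mul (measurable_mean μ D w))

theorem measurable_MD {Ω : Type*} [MeasurableSpace Ω] (μ : Measure (V → Bool))
    [IsProbabilityMeasure μ] (D : Finset V) {U s : Ω → ℕ × V → I} {r : Ω → ℝ}
    (hU : Measurable U) (hs : Measurable s) (hr : Measurable r) (k : ℕ) (v : V) :
    Measurable (fun ω => MD μ D (U ω) (s ω) k (r ω) v) := by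
  unfold MD
  exact (measurable_mean μ D v).comp (measurable_fld hU (measurable_sol μ D hU hs) hr k)

theorem measurable_jump {Ω : Type*} [MeasurableSpace Ω] (μ : Measure (V → Bool))
    [IsProbabilityMeasure μ] (D : Finset V) {U s : Ω → ℕ × V → I}
    (hU : Measurable U) (hs : Measurable s) (k : ℕ) (v w : V) :
    Measurable (fun ω => jump μ D (U ω) (s ω) k v w) := by
  have hUj : Measurable fun ω => U ω (k, w) := (measurable_pi_apply _).comp hU
  have hsj : Measurable fun ω => (sol μ D (U ω) (s ω) (k, w) : ℝ) :=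
    measurable_subtype_coe.comp (measurable_pi_iff.mp (measurable_sol μ D hU hs) (k, w))
  have hY : Measurable fun ω => fld (U ω) (sol μ D (U ω) (s ω)) k (U ω (k, w)) :=
    measurable_fld hU (measurable_sol μ D hU hs) (measurable_subtype_coe.comp hUj) k
  have h1 := measurable_str.comp hUj
  have h2 : Measurable fun ω => 1 - 2 * (sol μ D (U ω) (s ω) (k, w) : ℝ) :=
    (hsj.const_mul 2).const_sub 1
  unfold jump
  exact (((h1.mul h2).mul ((measurable_cov μ D v w).comp hY))).div
    (((h1.mul h2).mul ((measurable_mean μ D w).comp hY)).const_add 1)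

theorem abs_xi_le (z : I) : |1 - 2 * (z : ℝ)| ≤ 1 := by
  rw [abs_le]; constructor <;> linarith [z.2.1, z.2.2]

namespace IsoAux

/-- the magnetisation just before a site does not depend on its seed -/
theorem fld_update [DecidableEq V] (μ : Measure (V → Bool)) (D : Finset V) (U s : ℕ × V → I)
    (k : ℕ) (w : V) (z : I) {r : ℝ} (hr : r ≤ U (k, w)) :
    ∀ v ∈ D, fld U (sol μ D U (Function.update s (k, w) z)) k r v = fld U (sol μ D U s) k r v := by
  intro v hv
  have h := sol_causal μ D U (Function.update s (k, w) z) s k r (fun i y _ hb => by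
    rw [Function.update_of_ne]
    rintro h
    obtain ⟨h1, h2⟩ := Prod.mk.inj h
    subst h1; subst h2
    rcases hb with hb | ⟨_, hb⟩
    · exact lt_irrefl _ hb
    · exact absurd hb (not_lt.mpr hr))
  refine PicAux.fld_congr (D := D) ?_ ?_ Iff.rfl
  · exact fun i hi => ⟨rfl, h i v hv (Or.inl hi)⟩
  · exact fun hlt => ⟨rfl, h k v hv (Or.inr ⟨rfl, hlt⟩)⟩

theorem sol_update [DecidableEq V] (μ : Measure (V → Bool)) (D : Finset V) (U s : ℕ × V → I)
    (k : ℕ) {w : V} (hw : w ∈ D) (z : I) :
    sol μ D U (Function.update s (k, w) z) (k, w) =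
      sig (str (U (k, w)) * mean μ D w (fld U (sol μ D U s) k (U (k, w)))) z := by
  rw [sol_fix μ D U _ k w hw, Function.update_self]
  congr 1
  unfold param
  simp only
  congr 1
  exact mean_congr μ w (fld_update μ D U s k w z le_rfl)

/-- the magnetisation after the revelation of a site -/
theorem MD_after [DecidableEq V] (μ : Measure (V → Bool)) [IsProbabilityMeasure μ]
    (D : Finset V) (U s : ℕ × V → I) (k : ℕ) (v : V) {w : V} (hw : w ∈ D) {r : ℝ}
    (h : ∀ z ∈ D, (U (k, z) : ℝ) < r ↔ ((U (k, z) : ℝ) < U (k, w) ∨ z = w)) :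
    MD μ D U s k r v = MD μ D U s k (U (k, w)) v + jump μ D U s k v w := by
  obtain ⟨h0, h1⟩ := abs_str_le (U (k, w))
  set x := sol μ D U s with hx
  have e : ∀ z ∈ D, fld U x k r z = Function.update (fld U x k (U (k, w))) w
      (fld U x k (U (k, w)) w + ell (str (U (k, w))) (x (k, w))) z := by
    intro z hz
    by_cases hzw : z = w
    · subst hzw
      rw [Function.update_self]
      unfold fld
      rw [if_neg (lt_irrefl _), if_pos ((h z hz).mpr (Or.inr rfl)), add_zero]
    · rw [Function.update_of_ne hzw]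
      refine PicAux.fld_congr (D := D) (fun i _ => ⟨rfl, rfl⟩) (fun _ => ⟨rfl, rfl⟩) ?_
      rw [h z hz]
      simp [hzw]
  unfold MD
  rw [mean_congr μ v e, mean_update μ D v w hw, tanh_ell h0 h1]
  rfl

/-- the jump in terms of the signal -/
noncomputable def jf (c C M : ℝ) (z : I) : ℝ :=
  c * (1 - 2 * (z : ℝ)) * C / (1 + c * (1 - 2 * (z : ℝ)) * M)

theorem jump_update [DecidableEq V] (μ : Measure (V → Bool)) (D : Finset V) (U s : ℕ × V → I)
    (k : ℕ) (v : V) {w : V} (hw : w ∈ D) (z : I) :
    jump μ D U (Function.update s (k, w) z) k v w =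
      jf (str (U (k, w))) (cov μ D v w (fld U (sol μ D U s) k (U (k, w))))
        (mean μ D w (fld U (sol μ D U s) k (U (k, w))))
        (sig (str (U (k, w)) * mean μ D w (fld U (sol μ D U s) k (U (k, w)))) z) := by
  unfold jump jf
  simp only
  rw [sol_update μ D U s k hw z,
    cov_congr μ v w (fld_update μ D U s k w z le_rfl),
    mean_congr μ w (fld_update μ D U s k w z le_rfl)]

theorem den_pos {c M : ℝ} (hc0 : 0 ≤ c) (hc : c ≤ 1 / 5) (hM : |M| ≤ 1) (z : I) :
    4 / 5 ≤ 1 + c * (1 - 2 * (z : ℝ)) * M := by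
  have h1 : |c * (1 - 2 * (z : ℝ)) * M| ≤ 1 / 5 := by
    rw [abs_mul]
    calc |c * (1 - 2 * (z : ℝ))| * |M| ≤ 1 / 5 * 1 :=
          mul_le_mul (abs_aux hc0 hc z) hM (abs_nonneg _) (by norm_num)
      _ = 1 / 5 := by ring
  linarith [(abs_le.mp h1).1]

theorem integral_jf {c C M : ℝ} (hc0 : 0 ≤ c) (hc : c ≤ 1 / 5) (hM : |M| ≤ 1) :
    ∫ z : I, jf c C M (sig (c * M) z) = 0 := by
  have hcM : |c * M| ≤ 1 / 5 := by
    rw [abs_mul, abs_of_nonneg hc0]
    calc c * |M| ≤ 1 / 5 * 1 := mul_le_mul hc hM (abs_nonneg _) (by norm_num)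
      _ = 1 / 5 := by ring
  have hm : Measurable (jf c C M) := by unfold jf; fun_prop
  rw [integral_sig hcM hm]
  have : ∀ z : I, jf c C M z * (1 + c * M * (1 - 2 * (z : ℝ))) =
      (c * C) * (1 - 2 * (z : ℝ)) := by
    intro z
    have h := den_pos hc0 hc hM z
    unfold jf
    have h' : 1 + c * (1 - 2 * (z : ℝ)) * M ≠ 0 := by positivity
    rw [div_mul_eq_mul_div, div_eq_iff h']
    ring
  simp_rw [this]
  rw [integral_const_mul, integral_xi, mul_zero]

theorem abs_cov_le (μ : Measure (V → Bool)) [IsProbabilityMeasure μ] (D : Finset V) (v w : V)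
    (Y : V → ℝ) : |cov μ D v w Y| ≤ 2 := by
  unfold cov
  have h1 : |tilt μ D Y (fun τ => sg (τ v) * sg (τ w))| ≤ 1 :=
    CovAux.abs_tilt_le μ D Y ((measurable_sg.comp (measurable_pi_apply v)).mul
      (measurable_sg.comp (measurable_pi_apply w)))
      (fun τ => by rw [abs_mul, abs_sg, abs_sg, one_mul])
  have h2 : |mean μ D v Y * mean μ D w Y| ≤ 1 := by
    rw [abs_mul]
    exact mul_le_one₀ (abs_mean_le μ D v Y) (abs_nonneg _) (abs_mean_le μ D w Y)
  calc _ ≤ _ := abs_sub _ _
    _ ≤ 1 + 1 := add_le_add h1 h2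
    _ = 2 := by norm_num

theorem abs_jump_le (μ : Measure (V → Bool)) [IsProbabilityMeasure μ] (D : Finset V)
    (U s : ℕ × V → I) (k : ℕ) (v w : V) : |jump μ D U s k v w| ≤ 1 := by
  obtain ⟨h0, h1⟩ := abs_str_le (U (k, w))
  unfold jump
  simp only
  set Y := fld U (sol μ D U s) k (U (k, w)) with hY
  have h2 := den_pos h0 h1 (abs_mean_le μ D w Y) (sol μ D U s (k, w))
  have h3 : 0 < 1 + str (U (k, w)) * (1 - 2 * (sol μ D U s (k, w) : ℝ)) * mean μ D w Y := by
    linarith
  rw [abs_div, abs_of_pos h3, div_le_one h3, abs_mul]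
  calc |str (U (k, w)) * (1 - 2 * (sol μ D U s (k, w) : ℝ))| * |cov μ D v w Y| ≤ 1 / 5 * 2 :=
        mul_le_mul (abs_aux h0 h1 _) (abs_cov_le μ D v w _) (abs_nonneg _) (by norm_num)
    _ ≤ _ := by linarith

theorem abs_MD_le (μ : Measure (V → Bool)) [IsProbabilityMeasure μ] (D : Finset V)
    (U s : ℕ × V → I) (k : ℕ) (r : ℝ) (v : V) : |MD μ D U s k r v| ≤ 1 :=
  abs_mean_le μ D v _

/-- the jumps have mean zero -/
theorem avg_jump [DecidableEq V] (μ : Measure (V → Bool)) [IsProbabilityMeasure μ]
    (D : Finset V) (U : ℕ × V → I) (k : ℕ) (v : V) {w : V} (hw : w ∈ D) (s : ℕ × V → I) :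
    ∫ z : I, jump μ D U (Function.update s (k, w) z) k v w = 0 := by
  obtain ⟨h0, h1⟩ := abs_str_le (U (k, w))
  simp_rw [jump_update μ D U s k v hw]
  exact integral_jf h0 h1 (abs_mean_le μ D w _)

theorem step [Countable V] (μ μ' : Measure (V → Bool)) [IsProbabilityMeasure μ]
    [IsProbabilityMeasure μ'] (D : Finset V) (U : ℕ × V → I)
    (k : ℕ) (v : V) {w : V} (hw : w ∈ D) {r : ℝ}
    (h : ∀ z ∈ D, (U (k, z) : ℝ) < r ↔ ((U (k, z) : ℝ) < U (k, w) ∨ z = w)) :
    ∫ s, (MD μ D U s k r v - MD μ' D U s k r v) ^ 2 ∂(iid (ℕ × V)) =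
      ∫ s, (MD μ D U s k (U (k, w)) v - MD μ' D U s k (U (k, w)) v) ^ 2 ∂(iid (ℕ × V)) +
        ∫ s, (jump μ D U s k v w - jump μ' D U s k v w) ^ 2 ∂(iid (ℕ × V)) := by
  classical
  set f : (ℕ × V → I) → ℝ := fun s =>
    MD μ D U s k (U (k, w)) v - MD μ' D U s k (U (k, w)) v with hf
  set g : (ℕ × V → I) → ℝ := fun s => jump μ D U s k v w - jump μ' D U s k v w with hg
  have hfm : Measurable f :=
    (measurable_MD μ D measurable_const measurable_id measurable_const k v).sub
      (measurable_MD μ' D measurable_const measurable_id measurable_const k v)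
  have hgm : Measurable g :=
    (measurable_jump μ D measurable_const measurable_id k v w).sub
      (measurable_jump μ' D measurable_const measurable_id k v w)
  have hfb : ∀ s, |f s| ≤ 2 := fun s =>
    (abs_sub _ _).trans (by
      have h1 := abs_MD_le μ D U s k (U (k, w)) v
      have h2 := abs_MD_le μ' D U s k (U (k, w)) v
      linarith)
  have hgb : ∀ s, |g s| ≤ 2 := fun s =>
    (abs_sub _ _).trans (by
      have h1 := abs_jump_le μ D U s k v w
      have h2 := abs_jump_le μ' D U s k v w
      linarith)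
  have hfi : ∀ s z, f (Function.update s (k, w) z) = f s := by
    intro s z
    simp only [hf, MD]
    rw [mean_congr μ v (fld_update μ D U s k w z le_rfl),
      mean_congr μ' v (fld_update μ' D U s k w z le_rfl)]
  have hgz : ∀ s, ∫ z : I, g (Function.update s (k, w) z) = 0 := by
    intro s
    simp only [hg]
    rw [integral_sub, avg_jump μ D U k v hw s, avg_jump μ' D U k v hw s, sub_zero]
    · exact EfronAux.integrable_of_bdd ((measurable_jump μ D measurable_const measurable_id k v
        w).comp (measurable_update s)) (C := 1) fun z => abs_jump_le μ D U _ k v w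
    · exact EfronAux.integrable_of_bdd ((measurable_jump μ' D measurable_const measurable_id k v
        w).comp (measurable_update s)) (C := 1) fun z => abs_jump_le μ' D U _ k v w
  have hcross : ∫ s, g s * f s ∂(iid (ℕ × V)) = 0 := by
    rw [← EfronAux.integral_avg (k, w) (f := fun s => g s * f s) (hgm.mul hfm) (C := 4)
      (fun s => by
        rw [abs_mul]
        calc |g s| * |f s| ≤ 2 * 2 := mul_le_mul (hgb s) (hfb s) (abs_nonneg _) (by norm_num)
          _ = 4 := by norm_num)]
    have : ∀ s, EfronAux.avg (k, w) (fun y => g y * f y) s = 0 := by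
      intro s
      rw [EfronAux.avg_mul (k, w) hfi]
      unfold EfronAux.avg
      rw [hgz s, zero_mul]
    rw [integral_congr_ae (ae_of_all _ this), integral_zero]
  have e1 : ∀ s, (MD μ D U s k r v - MD μ' D U s k r v) ^ 2 =
      f s ^ 2 + g s ^ 2 + 2 * (g s * f s) := by
    intro s
    rw [MD_after μ D U s k v hw h, MD_after μ' D U s k v hw h]
    simp only [hf, hg]
    ring
  have i1 : Integrable (fun s => f s ^ 2) (iid (ℕ × V)) :=
    EfronAux.integrable_of_bdd (hfm.pow_const 2) (C := 4) fun s => by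
      rw [abs_pow]
      calc |f s| ^ 2 ≤ 2 ^ 2 := by gcongr; exact hfb s
        _ = 4 := by norm_num
  have i2 : Integrable (fun s => g s ^ 2) (iid (ℕ × V)) :=
    EfronAux.integrable_of_bdd (hgm.pow_const 2) (C := 4) fun s => by
      rw [abs_pow]
      calc |g s| ^ 2 ≤ 2 ^ 2 := by gcongr; exact hgb s
        _ = 4 := by norm_num
  have i3 : Integrable (fun s => 2 * (g s * f s)) (iid (ℕ × V)) :=
    (EfronAux.integrable_of_bdd (f := fun s => g s * f s) (hgm.mul hfm) (C := 4) fun s => by
      rw [abs_mul]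
      calc |g s| * |f s| ≤ 2 * 2 := mul_le_mul (hgb s) (hfb s) (abs_nonneg _) (by norm_num)
        _ = 4 := by norm_num).const_mul 2
  have i12 : Integrable (fun s => f s ^ 2 + g s ^ 2) (iid (ℕ × V)) := i1.add i2
  rw [integral_congr_ae (ae_of_all _ e1), integral_add i12 i3, integral_add i1 i2,
    integral_const_mul, hcross, mul_zero, add_zero]

end IsoAux

open IsoAux

open Classical in
/-- Two samplers with the same seeds: the increments of the difference of the magnetisations
are orthogonal. -/
theorem isometry [Countable V] (μ μ' : Measure (V → Bool)) [IsProbabilityMeasure μ]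
    [IsProbabilityMeasure μ'] (D : Finset V) {U : ℕ × V → I} (hU : Function.Injective U)
    (k : ℕ) (r : ℝ) (v : V) :
    ∫ s, (MD μ D U s k r v - MD μ' D U s k r v) ^ 2 ∂(iid (ℕ × V)) =
      ∫ s, (MD μ D U s k 0 v - MD μ' D U s k 0 v) ^ 2 ∂(iid (ℕ × V)) +
      ∑ w ∈ D with (U (k, w) : ℝ) < r,
        ∫ s, (jump μ D U s k v w - jump μ' D U s k v w) ^ 2 ∂(iid (ℕ × V)) := by
  have key : ∀ (n : ℕ) (r : ℝ), (D.filter fun w => (U (k, w) : ℝ) < r).card = n →
      ∫ s, (MD μ D U s k r v - MD μ' D U s k r v) ^ 2 ∂(iid (ℕ × V)) =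
      ∫ s, (MD μ D U s k 0 v - MD μ' D U s k 0 v) ^ 2 ∂(iid (ℕ × V)) +
      ∑ w ∈ D with (U (k, w) : ℝ) < r,
        ∫ s, (jump μ D U s k v w - jump μ' D U s k v w) ^ 2 ∂(iid (ℕ × V)) := by
    intro n
    induction n with
    | zero =>
      intro r hr
      have h0 := Finset.card_eq_zero.mp hr
      have h1 : ∀ w ∈ D, ¬ ((U (k, w) : ℝ) < r) := fun w hw hlt => by
        have : w ∈ D.filter fun w => (U (k, w) : ℝ) < r := Finset.mem_filter.mpr ⟨hw, hlt⟩
        rw [h0] at this
        exact absurd this (Finset.notMem_empty w)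
      rw [h0, Finset.sum_empty, add_zero]
      refine integral_congr_ae (ae_of_all _ fun s => ?_)
      have h2 : ∀ (m : Measure (V → Bool)), MD m D U s k r v = MD m D U s k 0 v := by
        intro m
        unfold MD
        apply mean_congr
        intro w hw
        refine PicAux.fld_congr (D := D) (fun i _ => ⟨rfl, rfl⟩) (fun _ => ⟨rfl, rfl⟩) ?_
        have h3 : ¬ ((U (k, w) : ℝ) < 0) := not_lt.mpr (U (k, w)).2.1
        simp [h1 w hw, h3]
      simp only
      rw [h2 μ, h2 μ']
    | succ n ih =>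
      intro r hr
      have hne : (D.filter fun w => (U (k, w) : ℝ) < r).Nonempty := by
        rw [← Finset.card_pos, hr]; exact Nat.succ_pos n
      obtain ⟨w, hw, hmax⟩ := Finset.exists_max_image _ (fun w => (U (k, w) : ℝ)) hne
      obtain ⟨hwD, hwr⟩ := Finset.mem_filter.mp hw
      have hiff : ∀ z ∈ D, (U (k, z) : ℝ) < r ↔ ((U (k, z) : ℝ) < U (k, w) ∨ z = w) := by
        intro z hz
        constructor
        · intro hlt
          have h1 := hmax z (Finset.mem_filter.mpr ⟨hz, hlt⟩)
          rcases lt_or_eq_of_le h1 with h2 | h2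
          · exact Or.inl h2
          · right
            have h3 := hU (Subtype.ext h2)
            exact (Prod.mk.inj h3).2
        · rintro (hlt | rfl)
          · exact hlt.trans hwr
          · exact hwr
      have hset : (D.filter fun w => (U (k, w) : ℝ) < r) =
          insert w (D.filter fun z => (U (k, z) : ℝ) < U (k, w)) := by
        ext z
        rw [Finset.mem_insert, Finset.mem_filter, Finset.mem_filter]
        constructor
        · rintro ⟨hz, hlt⟩
          rcases (hiff z hz).mp hlt with h1 | h1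
          · exact Or.inr ⟨hz, h1⟩
          · exact Or.inl h1
        · rintro (rfl | ⟨hz, hlt⟩)
          · exact ⟨hwD, hwr⟩
          · exact ⟨hz, (hiff z hz).mpr (Or.inl hlt)⟩
      have hnot : w ∉ D.filter fun z => (U (k, z) : ℝ) < U (k, w) := fun h =>
        lt_irrefl _ (Finset.mem_filter.mp h).2
      have hcard : (D.filter fun z => (U (k, z) : ℝ) < U (k, w)).card = n := by
        rw [hset, Finset.card_insert_of_notMem hnot] at hr
        omega
      rw [step μ μ' D U k v hwD hiff, ih _ hcard, hset, Finset.sum_insert hnot]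
      ring
  exact key _ r rfl

end Vale.Agent.P161E
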