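import Vale.Agent.P161E.Iso

/-!
# Integration of the isometry over the labels
-/

open MeasureTheory Set Filter Topology
open scoped unitInterval ENNReal

namespace Vale.Agent.P161E

open Vale.Agent.P161

universe u

variable {V : Type u}

namespace IntAux

/-- The law of the state just before the event of the label `a`, given that label. -/
theorem label_int {ι : Type u} [DecidableEq ι] (i : ι) {G : I → (ι → I) → ℝ} {B : ℝ}
    (hG : Measurable fun p : I × (ι → I) => G p.1 p.2) (hG0 : ∀ a U, 0 ≤ G a U)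
    (hGB : ∀ a U, G a U ≤ B)
    (hGi : ∀ (a a' : I) U, a ≤ a' → G a (Function.update U i a) = G a (Function.update U i a'))
    {φ : I → ℝ} (hφ : Measurable φ) (hφ0 : ∀ a, 0 ≤ φ a) (hφ1 : ∀ a, φ a ≤ 1)
    (hφ2 : ∀ a : I, φ a ≠ 0 → (a : ℝ) ≤ 1 / 2) :
    ∫ U, φ (U i) * G (U i) U ∂(iid ι) ≤ 2 * ∫ a : I, φ a * ∫ U, G a U ∂(iid ι) := by
  have hB0 : 0 ≤ B := (hG0 0 (fun _ => 0)).trans (hGB 0 (fun _ => 0))
  have hb : ∀ a U, |φ a * G a U| ≤ B := by
    intro a U
    rw [abs_of_nonneg (mul_nonneg (hφ0 a) (hG0 a U))]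
    calc φ a * G a U ≤ 1 * B := mul_le_mul (hφ1 a) (hGB a U) (hG0 a U) zero_le_one
      _ = B := one_mul B
  have hGa : ∀ a, Measurable (G a) := fun a => hG.comp (measurable_const.prodMk measurable_id)
  have hpi : Measurable fun U : ι → I => (U i, U) :=
    (measurable_pi_apply i).prodMk measurable_id
  have hf : Measurable fun U : ι → I => φ (U i) * G (U i) U :=
    (hφ.comp (measurable_pi_apply i)).mul (hG.comp hpi)
  -- the key pointwise inequality
  have key : ∀ (a : I) (U : ι → I), φ a * G a (Function.update U i a) ≤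
      φ a * (2 * EfronAux.avg i (G a) U) := by
    intro a U
    by_cases ha : φ a = 0
    · rw [ha, zero_mul, zero_mul]
    refine mul_le_mul_of_nonneg_left ?_ (hφ0 a)
    have ha2 := hφ2 a ha
    unfold EfronAux.avg
    set c := G a (Function.update U i a) with hc
    have hc0 : 0 ≤ c := hG0 _ _
    have hint : Integrable (fun t : I => G a (Function.update U i t)) :=
      EfronAux.integrable_of_bdd ((hGa a).comp (measurable_update U)) (C := B) fun t => by
        rw [abs_of_nonneg (hG0 _ _)]; exact hGB _ _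
    have h1 : ∫ t : I, (Ici a).indicator (fun _ => c) t ≤
        ∫ t : I, G a (Function.update U i t) := by
      refine integral_mono ((integrable_const c).indicator measurableSet_Ici) hint fun t => ?_
      by_cases ht : t ∈ Ici a
      · rw [Set.indicator_of_mem ht]
        exact (hGi a t U ht).le
      · rw [Set.indicator_of_notMem ht]
        exact hG0 _ _
    rw [integral_indicator_const _ measurableSet_Ici] at h1
    have h2 : (volume : Measure I).real (Ici a) = 1 - a := by
      rw [Measure.real, unitInterval.volume_Ici]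
      exact ENNReal.toReal_ofReal (by linarith [a.2.2])
    rw [h2, smul_eq_mul] at h1
    nlinarith
  have hprod : Integrable (fun p : (ι → I) × I => φ p.2 * G p.2 (Function.update p.1 i p.2))
      ((iid ι).prod volume) := by
    refine EfronAux.integrable_of_bdd ?_ (C := B) fun p => hb _ _
    have hm : Measurable (fun p : (ι → I) × I => Function.update p.1 i p.2) := measurable_update'
    exact (hφ.comp measurable_snd).mul (hG.comp (measurable_snd.prodMk hm))
  have hGavg : Measurable fun p : (ι → I) × I => EfronAux.avg i (G p.2) p.1 := by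
    unfold EfronAux.avg
    have hm : Measurable (fun p : ((ι → I) × I) × I => Function.update p.1.1 i p.2) :=
      (measurable_update').comp ((measurable_fst.comp measurable_fst).prodMk measurable_snd)
    have h3 : Measurable (fun p : ((ι → I) × I) × I => G p.1.2 (Function.update p.1.1 i p.2)) :=
      hG.comp ((measurable_snd.comp measurable_fst).prodMk hm)
    exact (h3.stronglyMeasurable.integral_prod_right' (ν := (volume : Measure I))).measurable
  have hprod2 : Integrable (fun p : (ι → I) × I => φ p.2 * (2 * EfronAux.avg i (G p.2) p.1))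
      ((iid ι).prod volume) := by
    refine EfronAux.integrable_of_bdd ((hφ.comp measurable_snd).mul (hGavg.const_mul 2))
      (C := 2 * B) fun p => ?_
    have h4 := EfronAux.avg_bdd i (f := G p.2) (C := B)
      (fun x => by rw [abs_of_nonneg (hG0 _ _)]; exact hGB _ _) p.1
    rw [abs_mul, abs_of_nonneg (hφ0 _), abs_mul, abs_two]
    calc φ p.2 * (2 * |EfronAux.avg i (G p.2) p.1|) ≤ 1 * (2 * B) :=
          mul_le_mul (hφ1 _) (by linarith) (by positivity) zero_le_one
      _ = 2 * B := one_mul _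
  calc ∫ U, φ (U i) * G (U i) U ∂(iid ι)
      = ∫ U, EfronAux.avg i (fun U => φ (U i) * G (U i) U) U ∂(iid ι) :=
        (EfronAux.integral_avg i hf (C := B) fun U => hb _ _).symm
    _ = ∫ U, (∫ a : I, φ a * G a (Function.update U i a)) ∂(iid ι) := by
        refine integral_congr_ae (ae_of_all _ fun U => ?_)
        unfold EfronAux.avg
        simp only [Function.update_self]
    _ = ∫ p : (ι → I) × I, φ p.2 * G p.2 (Function.update p.1 i p.2) ∂((iid ι).prod volume) :=
        (integral_prod _ hprod).symm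
    _ ≤ ∫ p : (ι → I) × I, φ p.2 * (2 * EfronAux.avg i (G p.2) p.1) ∂((iid ι).prod volume) :=
        integral_mono hprod hprod2 fun p => key p.2 p.1
    _ = ∫ a : I, (∫ U, φ a * (2 * EfronAux.avg i (G a) U) ∂(iid ι)) :=
        integral_prod_symm _ hprod2
    _ = ∫ a : I, 2 * (φ a * ∫ U, G a U ∂(iid ι)) := by
        refine integral_congr_ae (ae_of_all _ fun a => ?_)
        simp only
        rw [integral_const_mul, integral_const_mul,
          EfronAux.integral_avg i (hGa a) (C := B) (fun x => by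
            rw [abs_of_nonneg (hG0 _ _)]; exact hGB _ _)]
        ring
    _ = 2 * ∫ a : I, φ a * ∫ U, G a U ∂(iid ι) := integral_const_mul _ _

/-- the difference of two jumps -/
theorem jf_diff {c C C' M M' : ℝ} (hc0 : 0 ≤ c) (hc : c ≤ 1 / 5) (hM : |M| ≤ 1) (hM' : |M'| ≤ 1)
    (z z' : I) (hz : |(z : ℝ) - z'| ≤ 5 / 16 * (c * |M - M'|)) :
    (IsoAux.jf c C M z - IsoAux.jf c C' M' z') ^ 2 ≤
      25 / 8 * c ^ 2 * ((C - C') ^ 2 + C' ^ 2 * (M - M') ^ 2) := by
  have h1 := IsoAux.den_pos hc0 hc hM z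
  have h2 := IsoAux.den_pos hc0 hc hM' z'
  set ξ : ℝ := 1 - 2 * (z : ℝ) with hξ
  set ξ' : ℝ := 1 - 2 * (z' : ℝ) with hξ'
  have hξ1 : |ξ| ≤ 1 := abs_xi_le z
  have hξ1' : |ξ'| ≤ 1 := abs_xi_le z'
  set d := 1 + c * ξ * M with hd
  set d' := 1 + c * ξ' * M' with hd'
  have hd0 : 0 < d := by linarith
  have hd0' : 0 < d' := by linarith
  have e : IsoAux.jf c C M z - IsoAux.jf c C' M' z' =
      c * (ξ / d * (C - C') + C' * (((ξ - ξ') + c * ξ * ξ' * (M' - M)) / (d * d'))) := by
    unfold IsoAux.jf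
    rw [← hξ, ← hξ', ← hd, ← hd']
    have e1 : ((ξ - ξ') + c * ξ * ξ' * (M' - M)) = ξ * d' - ξ' * d := by
      rw [hd, hd']; ring
    rw [e1]
    field_simp
    ring
  have b1 : |ξ / d| ≤ 5 / 4 := by
    rw [abs_div, abs_of_pos hd0, div_le_iff₀ hd0]
    linarith
  have b2 : |((ξ - ξ') + c * ξ * ξ' * (M' - M)) / (d * d')| ≤ 65 / 128 * |M - M'| := by
    rw [abs_div, abs_of_pos (mul_pos hd0 hd0'), div_le_iff₀ (mul_pos hd0 hd0')]
    have e2 : |ξ - ξ'| ≤ 5 / 8 * (c * |M - M'|) := by
      have : ξ - ξ' = -2 * ((z : ℝ) - z') := by rw [hξ, hξ']; ring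
      rw [this, abs_mul]
      norm_num
      linarith
    have e3 : |c * ξ * ξ' * (M' - M)| ≤ c * |M - M'| := by
      rw [abs_mul, abs_mul, abs_mul, abs_of_nonneg hc0, abs_sub_comm M' M]
      have : |ξ| * |ξ'| ≤ 1 := mul_le_one₀ hξ1 (abs_nonneg _) hξ1'
      calc c * |ξ| * |ξ'| * |M - M'| = c * (|ξ| * |ξ'|) * |M - M'| := by ring
        _ ≤ c * 1 * |M - M'| := by gcongr
        _ = c * |M - M'| := by ring
    have e4 : 16 / 25 ≤ d * d' := by nlinarith
    have e5 : c * |M - M'| ≤ 1 / 5 * |M - M'| := by gcongr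
    calc |(ξ - ξ') + c * ξ * ξ' * (M' - M)| ≤ |ξ - ξ'| + |c * ξ * ξ' * (M' - M)| :=
          abs_add_le _ _
      _ ≤ 13 / 40 * |M - M'| := by linarith
      _ = 65 / 128 * |M - M'| * (16 / 25) := by ring
      _ ≤ 65 / 128 * |M - M'| * (d * d') := by gcongr
  rw [e, mul_pow]
  set p := ξ / d * (C - C') with hp
  set q := C' * (((ξ - ξ') + c * ξ * ξ' * (M' - M)) / (d * d')) with hq
  have hp2 : p ^ 2 ≤ 25 / 16 * (C - C') ^ 2 := by
    rw [hp, mul_pow]
    have : (ξ / d) ^ 2 ≤ (5 / 4) ^ 2 := sq_le_sq' (abs_le.mp b1).1 (abs_le.mp b1).2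
    nlinarith [sq_nonneg (C - C')]
  have hq2 : q ^ 2 ≤ 25 / 16 * (C' ^ 2 * (M - M') ^ 2) := by
    rw [hq, mul_pow]
    have h3 : (((ξ - ξ') + c * ξ * ξ' * (M' - M)) / (d * d')) ^ 2 ≤
        (65 / 128 * |M - M'|) ^ 2 := sq_le_sq' (abs_le.mp b2).1 (abs_le.mp b2).2
    rw [mul_pow, sq_abs] at h3
    nlinarith [sq_nonneg C', sq_nonneg (M - M'), mul_nonneg (sq_nonneg C') (sq_nonneg (M - M')),
      mul_le_mul_of_nonneg_left h3 (sq_nonneg C')]
  have hpq : (p + q) ^ 2 ≤ 2 * p ^ 2 + 2 * q ^ 2 := by nlinarith [sq_nonneg (p - q)]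
  nlinarith [sq_nonneg c, mul_le_mul_of_nonneg_left (show (p + q) ^ 2 ≤
    25 / 8 * ((C - C') ^ 2 + C' ^ 2 * (M - M') ^ 2) by linarith) (sq_nonneg c)]

/-- the integrand of the growth rate -/
noncomputable def Gam (μ μ' : Measure (V → Bool)) (D : Finset V) (k : ℕ) (v w : V)
    (a : ℝ) (ω : Om V) : ℝ :=
  (cov μ D v w (fld ω.1 (sol μ D ω.1 ω.2) k a) -
      cov μ' D v w (fld ω.1 (sol μ' D ω.1 ω.2) k a)) ^ 2 +
    cov μ' D v w (fld ω.1 (sol μ' D ω.1 ω.2) k a) ^ 2 *
      (MD μ D ω.1 ω.2 k a w - MD μ' D ω.1 ω.2 k a w) ^ 2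

theorem Gam_nonneg (μ μ' : Measure (V → Bool)) (D : Finset V) (k : ℕ) (v w : V) (a : ℝ)
    (ω : Om V) : 0 ≤ Gam μ μ' D k v w a ω := by
  unfold Gam; positivity

theorem Gam_le (μ μ' : Measure (V → Bool)) [IsProbabilityMeasure μ] [IsProbabilityMeasure μ']
    (D : Finset V) (k : ℕ) (v w : V) (a : ℝ) (ω : Om V) : Gam μ μ' D k v w a ω ≤ 32 := by
  unfold Gam
  have h1 := abs_le.mp (IsoAux.abs_cov_le μ D v w (fld ω.1 (sol μ D ω.1 ω.2) k a))
  have h2 := abs_le.mp (IsoAux.abs_cov_le μ' D v w (fld ω.1 (sol μ' D ω.1 ω.2) k a))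
  have h3 := abs_le.mp (IsoAux.abs_MD_le μ D ω.1 ω.2 k a w)
  have h4 := abs_le.mp (IsoAux.abs_MD_le μ' D ω.1 ω.2 k a w)
  set C := cov μ D v w (fld ω.1 (sol μ D ω.1 ω.2) k a)
  set C' := cov μ' D v w (fld ω.1 (sol μ' D ω.1 ω.2) k a)
  set M := MD μ D ω.1 ω.2 k a w
  set M' := MD μ' D ω.1 ω.2 k a w
  have e1 : (C - C') ^ 2 ≤ 4 ^ 2 := sq_le_sq' (by linarith) (by linarith)
  have e2 : C' ^ 2 ≤ 2 ^ 2 := sq_le_sq' (by linarith) (by linarith)
  have e3 : (M - M') ^ 2 ≤ 2 ^ 2 := sq_le_sq' (by linarith) (by linarith)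
  have e4 : C' ^ 2 * (M - M') ^ 2 ≤ 2 ^ 2 * 2 ^ 2 := mul_le_mul e2 e3 (sq_nonneg _) (by norm_num)
  linarith

theorem measurable_Gam (μ μ' : Measure (V → Bool)) [IsProbabilityMeasure μ]
    [IsProbabilityMeasure μ'] (D : Finset V) (k : ℕ) (v w : V) :
    Measurable fun p : ℝ × Om V => Gam μ μ' D k v w p.1 p.2 := by
  have hU : Measurable fun p : ℝ × Om V => p.2.1 := measurable_fst.comp measurable_snd
  have hs : Measurable fun p : ℝ × Om V => p.2.2 := measurable_snd.comp measurable_snd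
  have hr : Measurable fun p : ℝ × Om V => p.1 := measurable_fst
  unfold Gam
  have h1 := (measurable_cov μ D v w).comp (measurable_fld hU (measurable_sol μ D hU hs) hr k)
  have h2 := (measurable_cov μ' D v w).comp (measurable_fld hU (measurable_sol μ' D hU hs) hr k)
  have h3 := measurable_MD μ D hU hs hr k w
  have h4 := measurable_MD μ' D hU hs hr k w
  exact ((h1.sub h2).pow_const 2).add ((h2.pow_const 2).mul ((h3.sub h4).pow_const 2))

/-- the state at the time `(k, a)` does not depend on a label of the round `k` which is at least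
`a` -/
theorem state_label [DecidableEq V] (μ : Measure (V → Bool)) (D : Finset V) (U s : ℕ × V → I)
    (k : ℕ) (w : V) {a a' : I} (h : a ≤ a') : ∀ z ∈ D,
    fld (Function.update U (k, w) a) (sol μ D (Function.update U (k, w) a) s) k a z =
      fld (Function.update U (k, w) a') (sol μ D (Function.update U (k, w) a') s) k a z := by
  have hne : ∀ i y, (i < k ∨ (i = k ∧ (Function.update U (k, w) a (i, y) : ℝ) < a)) →
      (i, y) ≠ (k, w) := by
    rintro i y hb heq
    obtain ⟨h1, h2⟩ := Prod.mk.inj heq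
    subst h1; subst h2
    rcases hb with hb | ⟨_, hb⟩
    · exact lt_irrefl _ hb
    · rw [Function.update_self] at hb
      exact lt_irrefl _ hb
  have hiff : ∀ y ∈ D, (Function.update U (k, w) a (k, y) : ℝ) < a ↔
      (Function.update U (k, w) a' (k, y) : ℝ) < a := by
    intro y _
    by_cases hy : y = w
    · subst hy
      rw [Function.update_self, Function.update_self]
      have : ¬ ((a' : ℝ) < a) := not_lt.mpr h
      simp [this]
    · have hy' : (k, y) ≠ (k, w) := fun h => hy (Prod.mk.inj h).2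
      rw [Function.update_of_ne hy', Function.update_of_ne hy']
  have hc := sol_causal_label μ D (Function.update U (k, w) a) (Function.update U (k, w) a')
    s s k a (fun i y _ hb => ⟨rfl, by
      rw [Function.update_of_ne (hne i y hb), Function.update_of_ne (hne i y hb)]⟩) hiff
  intro z hz
  refine PicAux.fld_congr (D := D) ?_ ?_ (hiff z hz)
  · intro i hi
    refine ⟨?_, hc i z hz (Or.inl hi)⟩
    rw [Function.update_of_ne (hne i z (Or.inl hi)), Function.update_of_ne (hne i z (Or.inl hi))]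
  · intro hlt
    refine ⟨?_, hc k z hz (Or.inr ⟨rfl, hlt⟩)⟩
    rw [Function.update_of_ne (hne k z (Or.inr ⟨rfl, hlt⟩)),
      Function.update_of_ne (hne k z (Or.inr ⟨rfl, hlt⟩))]

theorem Gam_label [DecidableEq V] (μ μ' : Measure (V → Bool)) (D : Finset V)
    (U s : ℕ × V → I) (k : ℕ) (v w : V) {a a' : I} (h : a ≤ a') :
    Gam μ μ' D k v w a (Function.update U (k, w) a, s) =
      Gam μ μ' D k v w a (Function.update U (k, w) a', s) := by
  have h1 := state_label μ D U s k w h
  have h2 := state_label μ' D U s k w h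
  unfold Gam MD
  simp only
  rw [cov_congr μ v w h1, cov_congr μ' v w h2, mean_congr μ w h1, mean_congr μ' w h2]

/-- the square of the difference of the jumps -/
theorem jump_diff (μ μ' : Measure (V → Bool)) [IsProbabilityMeasure μ] [IsProbabilityMeasure μ']
    (D : Finset V) (U s : ℕ × V → I) (k : ℕ) (v : V) {w : V} (hw : w ∈ D) :
    (jump μ D U s k v w - jump μ' D U s k v w) ^ 2 ≤
      (U (k, w) : ℝ) / 8 * Gam μ μ' D k v w (U (k, w)) (U, s) := by
  classical
  obtain ⟨h0, h1⟩ := abs_str_le (U (k, w))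
  have e := IsoAux.jump_update μ D U s k v hw (s (k, w))
  have e' := IsoAux.jump_update μ' D U s k v hw (s (k, w))
  rw [Function.update_eq_self] at e e'
  rw [e, e']
  set M := mean μ D w (fld U (sol μ D U s) k (U (k, w))) with hM
  set M' := mean μ' D w (fld U (sol μ' D U s) k (U (k, w))) with hM'
  set C := cov μ D v w (fld U (sol μ D U s) k (U (k, w))) with hC
  set C' := cov μ' D v w (fld U (sol μ' D U s) k (U (k, w))) with hC'
  set c := str (U (k, w)) with hc
  have bM : |M| ≤ 1 := abs_mean_le μ D w _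
  have bM' : |M'| ≤ 1 := abs_mean_le μ' D w _
  have b1 : ∀ m : ℝ, |m| ≤ 1 → |c * m| ≤ 1 / 5 := by
    intro m hm
    rw [abs_mul, abs_of_nonneg h0]
    calc c * |m| ≤ 1 / 5 * 1 := mul_le_mul h1 hm (abs_nonneg _) (by norm_num)
      _ = 1 / 5 := by ring
  have hz : |(sig (c * M) (s (k, w)) : ℝ) - sig (c * M') (s (k, w))| ≤
      5 / 16 * (c * |M - M'|) := by
    refine (sig_lip (b1 M bM) (b1 M' bM') _).trans (le_of_eq ?_)
    rw [← mul_sub, abs_mul, abs_of_nonneg h0]
  refine (jf_diff h0 h1 bM bM' _ _ hz).trans ?_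
  have hG : Gam μ μ' D k v w (U (k, w)) (U, s) =
      (C - C') ^ 2 + C' ^ 2 * (M - M') ^ 2 := rfl
  rw [hG]
  have h2 := str_sq_le (U (k, w))
  have h3 : 25 / 8 * c ^ 2 ≤ (U (k, w) : ℝ) / 8 := by
    rw [← hc] at h2; linarith
  exact mul_le_mul_of_nonneg_right h3 (by positivity)

theorem RD_eq_Gam (μ μ' : Measure (V → Bool)) (D : Finset V) (k : ℕ) (v : V) (a : ℝ) :
    RD μ μ' D k a v = ∑ w ∈ D, ∫ ω, Gam μ μ' D k v w a ω ∂(PO V) := rfl

attribute [local irreducible] Gam

/-- the mean of `Gam` over the seeds -/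
noncomputable def GU (μ μ' : Measure (V → Bool)) (D : Finset V) (k : ℕ) (v w : V)
    (a : ℝ) (U : ℕ × V → I) : ℝ := ∫ s, Gam μ μ' D k v w a (U, s) ∂(iid (ℕ × V))

theorem measurable_GU (μ μ' : Measure (V → Bool)) [IsProbabilityMeasure μ]
    [IsProbabilityMeasure μ'] (D : Finset V) (k : ℕ) (v w : V) :
    Measurable fun p : ℝ × (ℕ × V → I) => GU μ μ' D k v w p.1 p.2 := by
  unfold GU
  have h : Measurable fun p : (ℝ × (ℕ × V → I)) × (ℕ × V → I) =>
      Gam μ μ' D k v w p.1.1 (p.1.2, p.2) := by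
    have h1 : Measurable fun p : (ℝ × (ℕ × V → I)) × (ℕ × V → I) => (p.1.1, (p.1.2, p.2)) :=
      (measurable_fst.comp measurable_fst).prodMk
        ((measurable_snd.comp measurable_fst).prodMk measurable_snd)
    exact (measurable_Gam μ μ' D k v w).comp h1
  exact (h.stronglyMeasurable.integral_prod_right' (ν := iid (ℕ × V))).measurable

theorem GU_nonneg (μ μ' : Measure (V → Bool)) (D : Finset V) (k : ℕ) (v w : V) (a : ℝ)
    (U : ℕ × V → I) : 0 ≤ GU μ μ' D k v w a U :=
  integral_nonneg fun s => Gam_nonneg μ μ' D k v w a (U, s)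

theorem integrable_Gam (μ μ' : Measure (V → Bool)) [IsProbabilityMeasure μ]
    [IsProbabilityMeasure μ'] (D : Finset V) (k : ℕ) (v w : V) (a : ℝ) :
    Integrable (Gam μ μ' D k v w a) (PO V) := by
  have hp : Measurable fun ω : Om V => (a, ω) := measurable_const.prodMk measurable_id
  refine EfronAux.integrable_of_bdd ((measurable_Gam μ μ' D k v w).comp hp) (C := 32) fun ω => ?_
  rw [abs_of_nonneg (Gam_nonneg _ _ _ _ _ _ _ _)]
  exact Gam_le _ _ _ _ _ _ _ _

theorem GU_le (μ μ' : Measure (V → Bool)) [IsProbabilityMeasure μ] [IsProbabilityMeasure μ']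
    (D : Finset V) (k : ℕ) (v w : V) (a : ℝ) (U : ℕ × V → I) : GU μ μ' D k v w a U ≤ 32 := by
  have h := norm_integral_le_of_norm_le_const (μ := iid (ℕ × V)) (C := 32)
    (f := fun s => Gam μ μ' D k v w a (U, s)) (Eventually.of_forall fun s => by
      rw [Real.norm_eq_abs, abs_of_nonneg (Gam_nonneg _ _ _ _ _ _ _ _)]
      exact Gam_le _ _ _ _ _ _ _ _)
  have h1 := (le_abs_self _).trans h
  unfold GU
  simpa using h1

theorem RD_eq (μ μ' : Measure (V → Bool)) [IsProbabilityMeasure μ]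
    [IsProbabilityMeasure μ'] (D : Finset V) (k : ℕ) (v : V) (a : ℝ) :
    RD μ μ' D k a v = ∑ w ∈ D, ∫ U, GU μ μ' D k v w a U ∂(iid (ℕ × V)) := by
  rw [RD_eq_Gam]
  refine Finset.sum_congr rfl fun w _ => ?_
  have hi := integrable_Gam μ μ' D k v w a
  unfold PO at hi ⊢
  rw [integral_prod _ hi]
  rfl

theorem RD_nonneg (μ μ' : Measure (V → Bool)) [IsProbabilityMeasure μ]
    [IsProbabilityMeasure μ'] (D : Finset V) (k : ℕ) (v : V) (a : ℝ) :
    0 ≤ RD μ μ' D k a v := by
  rw [RD_eq]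
  exact Finset.sum_nonneg fun w _ => integral_nonneg fun U => GU_nonneg _ _ _ _ _ _ _ _

/-- the mean square of the difference of the jumps -/
noncomputable def JU (μ μ' : Measure (V → Bool)) (D : Finset V) (k : ℕ) (v w : V)
    (U : ℕ × V → I) : ℝ :=
  ∫ s, (jump μ D U s k v w - jump μ' D U s k v w) ^ 2 ∂(iid (ℕ × V))

theorem JU_nonneg (μ μ' : Measure (V → Bool)) (D : Finset V) (k : ℕ) (v w : V)
    (U : ℕ × V → I) : 0 ≤ JU μ μ' D k v w U :=
  integral_nonneg fun _ => sq_nonneg _

theorem jump_sq_le (μ μ' : Measure (V → Bool)) [IsProbabilityMeasure μ]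
    [IsProbabilityMeasure μ'] (D : Finset V) (k : ℕ) (v w : V) (U s : ℕ × V → I) :
    (jump μ D U s k v w - jump μ' D U s k v w) ^ 2 ≤ 4 := by
  have h1 := abs_le.mp (IsoAux.abs_jump_le μ D U s k v w)
  have h2 := abs_le.mp (IsoAux.abs_jump_le μ' D U s k v w)
  have : (jump μ D U s k v w - jump μ' D U s k v w) ^ 2 ≤ 2 ^ 2 :=
    sq_le_sq' (by linarith) (by linarith)
  linarith

theorem measurable_JU (μ μ' : Measure (V → Bool)) [IsProbabilityMeasure μ]
    [IsProbabilityMeasure μ'] (D : Finset V) (k : ℕ) (v w : V) :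
    Measurable (JU μ μ' D k v w) := by
  unfold JU
  have h : Measurable fun p : (ℕ × V → I) × (ℕ × V → I) =>
      (jump μ D p.1 p.2 k v w - jump μ' D p.1 p.2 k v w) ^ 2 :=
    ((measurable_jump μ D measurable_fst measurable_snd k v w).sub
      (measurable_jump μ' D measurable_fst measurable_snd k v w)).pow_const 2
  exact (h.stronglyMeasurable.integral_prod_right' (ν := iid (ℕ × V))).measurable

theorem JU_le (μ μ' : Measure (V → Bool)) [IsProbabilityMeasure μ] [IsProbabilityMeasure μ']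
    (D : Finset V) (k : ℕ) (v : V) {w : V} (hw : w ∈ D) (U : ℕ × V → I) :
    JU μ μ' D k v w U ≤ (U (k, w) : ℝ) / 8 * GU μ μ' D k v w (U (k, w)) U := by
  unfold JU GU
  rw [← integral_const_mul]
  refine integral_mono ?_ ?_ fun s => jump_diff μ μ' D U s k v hw
  · refine EfronAux.integrable_of_bdd (((measurable_jump μ D measurable_const measurable_id k v
      w).sub (measurable_jump μ' D measurable_const measurable_id k v w)).pow_const 2) (C := 4)
      fun s => ?_
    rw [abs_of_nonneg (sq_nonneg _)]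
    exact jump_sq_le _ _ _ _ _ _ _ _
  · have hp : Measurable fun s : ℕ × V → I => (((U (k, w) : I) : ℝ), ((U, s) : Om V)) :=
      measurable_const.prodMk (measurable_const.prodMk measurable_id)
    refine Integrable.const_mul (EfronAux.integrable_of_bdd
      ((measurable_Gam μ μ' D k v w).comp hp) (C := 32) fun s => ?_) _
    rw [Function.comp_apply, abs_of_nonneg (Gam_nonneg _ _ _ _ _ _ _ _)]
    exact Gam_le _ _ _ _ _ _ _ _

theorem JU_bdd (μ μ' : Measure (V → Bool)) [IsProbabilityMeasure μ] [IsProbabilityMeasure μ']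
    (D : Finset V) (k : ℕ) (v w : V) (U : ℕ × V → I) : JU μ μ' D k v w U ≤ 4 := by
  have h := norm_integral_le_of_norm_le_const (μ := iid (ℕ × V)) (C := 4)
    (f := fun s => (jump μ D U s k v w - jump μ' D U s k v w) ^ 2)
    (Eventually.of_forall fun s => by
      rw [Real.norm_eq_abs, abs_of_nonneg (sq_nonneg _)]
      exact jump_sq_le _ _ _ _ _ _ _ _)
  have h1 := (le_abs_self _).trans h
  unfold JU
  simpa using h1

open Classical in
/-- the mean square difference at the time `(k, r)` -/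
theorem DD_eq [Countable V] (μ μ' : Measure (V → Bool)) [IsProbabilityMeasure μ]
    [IsProbabilityMeasure μ'] (D : Finset V) (k : ℕ) (r : ℝ) (v : V) :
    DD μ μ' D k r v = DD μ μ' D k 0 v + ∑ w ∈ D,
      ∫ U, (if (U (k, w) : ℝ) < r then JU μ μ' D k v w U else 0) ∂(iid (ℕ × V)) := by
  have hi : ∀ r : ℝ, Integrable (fun ω : Om V =>
      (MD μ D ω.1 ω.2 k r v - MD μ' D ω.1 ω.2 k r v) ^ 2)
      ((iid (ℕ × V)).prod (iid (ℕ × V))) := by
    intro r
    refine EfronAux.integrable_of_bdd (((measurable_MD μ D measurable_fst measurable_snd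
      measurable_const k v).sub (measurable_MD μ' D measurable_fst measurable_snd
      measurable_const k v)).pow_const 2) (C := 4) fun ω => ?_
    rw [abs_of_nonneg (sq_nonneg _)]
    have h1 := abs_le.mp (IsoAux.abs_MD_le μ D ω.1 ω.2 k r v)
    have h2 := abs_le.mp (IsoAux.abs_MD_le μ' D ω.1 ω.2 k r v)
    have : (MD μ D ω.1 ω.2 k r v - MD μ' D ω.1 ω.2 k r v) ^ 2 ≤ 2 ^ 2 :=
      sq_le_sq' (by linarith) (by linarith)
    linarith
  have hm : ∀ w, Measurable fun U : ℕ × V → I =>
      (if (U (k, w) : ℝ) < r then JU μ μ' D k v w U else 0) := fun w =>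
    Measurable.ite (measurableSet_lt (measurable_subtype_coe.comp (measurable_pi_apply _))
      measurable_const) (measurable_JU μ μ' D k v w) measurable_const
  have hib : ∀ w, Integrable (fun U : ℕ × V → I =>
      (if (U (k, w) : ℝ) < r then JU μ μ' D k v w U else 0)) (iid (ℕ × V)) := by
    intro w
    refine EfronAux.integrable_of_bdd (hm w) (C := 4) fun U => ?_
    split_ifs
    · rw [abs_of_nonneg (JU_nonneg _ _ _ _ _ _ _)]
      exact JU_bdd _ _ _ _ _ _ _
    · simp
  unfold DD PO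
  rw [integral_prod _ (hi r), integral_prod _ (hi 0), ← integral_finsetSum D fun w _ => hib w,
    ← integral_add ?_ (integrable_finsetSum D fun w _ => hib w)]
  · refine integral_congr_ae ?_
    filter_upwards [ae_injective (V := ℕ × V)] with U hU
    rw [isometry μ μ' D hU k r v, Finset.sum_filter]
    rfl
  · exact (hi 0).integral_prod_left

open Classical in
theorem DD_sub [Countable V] (μ μ' : Measure (V → Bool)) [IsProbabilityMeasure μ]
    [IsProbabilityMeasure μ'] (D : Finset V) (k : ℕ) {r r' : ℝ} (hrr : r ≤ r') (v : V) :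
    DD μ μ' D k r' v - DD μ μ' D k r v = ∑ w ∈ D,
      ∫ U, (if r ≤ (U (k, w) : ℝ) ∧ (U (k, w) : ℝ) < r' then JU μ μ' D k v w U else 0)
        ∂(iid (ℕ × V)) := by
  have hib : ∀ (r : ℝ) (w : V), Integrable (fun U : ℕ × V → I =>
      (if (U (k, w) : ℝ) < r then JU μ μ' D k v w U else 0)) (iid (ℕ × V)) := by
    intro r w
    refine EfronAux.integrable_of_bdd (Measurable.ite (measurableSet_lt
      (measurable_subtype_coe.comp (measurable_pi_apply _))
      measurable_const) (measurable_JU μ μ' D k v w) measurable_const) (C := 4) fun U => ?_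
    split_ifs
    · rw [abs_of_nonneg (JU_nonneg _ _ _ _ _ _ _)]
      exact JU_bdd _ _ _ _ _ _ _
    · simp
  rw [DD_eq μ μ' D k r' v, DD_eq μ μ' D k r v, add_sub_add_left_eq_sub,
    ← Finset.sum_sub_distrib]
  refine Finset.sum_congr rfl fun w _ => ?_
  rw [← integral_sub (hib r' w) (hib r w)]
  refine integral_congr_ae (ae_of_all _ fun U => ?_)
  simp only
  by_cases h1 : (U (k, w) : ℝ) < r
  · have h2 : (U (k, w) : ℝ) < r' := h1.trans_le hrr
    rw [if_pos h1, if_pos h2, if_neg (fun h => absurd h1 (not_lt.mpr h.1)), sub_self]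
  · by_cases h2 : (U (k, w) : ℝ) < r'
    · rw [if_neg h1, if_pos h2, if_pos ⟨not_lt.mp h1, h2⟩, sub_zero]
    · rw [if_neg h1, if_neg h2, if_neg (fun h => h2 h.2), sub_zero]

attribute [local irreducible] GU JU

theorem GU_meas (μ μ' : Measure (V → Bool)) [IsProbabilityMeasure μ]
    [IsProbabilityMeasure μ'] (D : Finset V) (k : ℕ) (v w : V) (a : ℝ) :
    Measurable (GU μ μ' D k v w a) := by
  have hp : Measurable fun U : ℕ × V → I => (a, U) := measurable_const.prodMk measurable_id
  exact (measurable_GU μ μ' D k v w).comp hp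

theorem GU_measI (μ μ' : Measure (V → Bool)) [IsProbabilityMeasure μ]
    [IsProbabilityMeasure μ'] (D : Finset V) (k : ℕ) (v w : V) :
    Measurable fun p : I × (ℕ × V → I) => GU μ μ' D k v w p.1 p.2 := by
  have hp : Measurable fun p : I × (ℕ × V → I) => ((p.1 : ℝ), p.2) :=
    (measurable_subtype_coe.comp measurable_fst).prodMk measurable_snd
  exact (measurable_GU μ μ' D k v w).comp hp

theorem GU_int (μ μ' : Measure (V → Bool)) [IsProbabilityMeasure μ]
    [IsProbabilityMeasure μ'] (D : Finset V) (k : ℕ) (v w : V) (a : ℝ) :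
    Integrable (GU μ μ' D k v w a) (iid (ℕ × V)) := by
  refine EfronAux.integrable_of_bdd (GU_meas μ μ' D k v w a) (C := 32) fun U => ?_
  rw [abs_of_nonneg (GU_nonneg _ _ _ _ _ _ _ _)]
  exact GU_le _ _ _ _ _ _ _ _

theorem GU_label [DecidableEq V] (μ μ' : Measure (V → Bool)) (D : Finset V)
    (U : ℕ × V → I) (k : ℕ) (v w : V) {a a' : I} (h : a ≤ a') :
    GU μ μ' D k v w a (Function.update U (k, w) a) =
      GU μ μ' D k v w a (Function.update U (k, w) a') := by
  unfold GU
  simp_rw [Gam_label μ μ' D U _ k v w h]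

theorem bound_term [DecidableEq V] (μ μ' : Measure (V → Bool)) [IsProbabilityMeasure μ]
    [IsProbabilityMeasure μ'] (D : Finset V) (k : ℕ) (v : V) {φ : I → ℝ} (hφm : Measurable φ)
    (hφ0 : ∀ a, 0 ≤ φ a) (hφ1 : ∀ a, φ a ≤ 1) (hφ2 : ∀ a : I, φ a ≠ 0 → (a : ℝ) ≤ 1 / 2)
    {p : I → Prop} [DecidablePred p] (hp : MeasurableSet {a | p a})
    (h3 : ∀ a, p a → φ a = (a : ℝ) / 8) {w : V} (hw : w ∈ D) :
    ∫ U, (if p (U (k, w)) then JU μ μ' D k v w U else 0)
        ∂(iid (ℕ × V)) ≤ 2 * ∫ a : I, φ a * ∫ U, GU μ μ' D k v w a U ∂(iid (ℕ × V)) := by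
  have hmI := GU_measI μ μ' D k v w
  refine le_trans ?_ (label_int (k, w) (G := fun a U => GU μ μ' D k v w a U) (B := 32)
    hmI (fun a U => GU_nonneg _ _ _ _ _ _ _ _) (fun a U => GU_le _ _ _ _ _ _ _ _)
    (fun a a' U h => GU_label μ μ' D U k v w h) hφm hφ0 hφ1 hφ2)
  have hpi : Measurable fun U : ℕ × V → I => (U (k, w), U) :=
    (measurable_pi_apply (k, w)).prodMk measurable_id
  refine integral_mono ?_ ?_ fun U => ?_
  · refine EfronAux.integrable_of_bdd (Measurable.ite ((measurable_pi_apply (k, w)) hp)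
      (measurable_JU μ μ' D k v w) measurable_const) (C := 4) fun U => ?_
    split_ifs
    · rw [abs_of_nonneg (JU_nonneg _ _ _ _ _ _ _)]
      exact JU_bdd _ _ _ _ _ _ _
    · simp
  · refine EfronAux.integrable_of_bdd ((hφm.comp (measurable_pi_apply (k, w))).mul
      (hmI.comp hpi)) (C := 32) fun U => ?_
    rw [abs_of_nonneg (mul_nonneg (hφ0 _) (GU_nonneg _ _ _ _ _ _ _ _))]
    calc φ (U (k, w)) * GU μ μ' D k v w (U (k, w)) U ≤ 1 * 32 :=
          mul_le_mul (hφ1 _) (GU_le _ _ _ _ _ _ _ _) (GU_nonneg _ _ _ _ _ _ _ _) zero_le_one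
      _ = 32 := one_mul _
  · by_cases h : p (U (k, w))
    · simp only [if_pos h]
      rw [h3 _ h]
      exact JU_le μ μ' D k v hw U
    · simp only [if_neg h]
      exact mul_nonneg (hφ0 _) (GU_nonneg _ _ _ _ _ _ _ _)

theorem RD_meas (μ μ' : Measure (V → Bool)) [IsProbabilityMeasure μ]
    [IsProbabilityMeasure μ'] (D : Finset V) (k : ℕ) (v : V) :
    Measurable fun u : ℝ => RD μ μ' D k u v := by
  simp_rw [RD_eq]
  refine Finset.measurable_fun_sum _ fun w _ => ?_
  exact ((measurable_GU μ μ' D k v w).stronglyMeasurable.integral_prod_right'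
    (ν := iid (ℕ × V))).measurable

theorem sum_term (μ μ' : Measure (V → Bool)) [IsProbabilityMeasure μ]
    [IsProbabilityMeasure μ'] (D : Finset V) (k : ℕ) (v : V) {φ : I → ℝ} (hφm : Measurable φ)
    (hφ0 : ∀ a, 0 ≤ φ a) (hφ1 : ∀ a, φ a ≤ 1) :
    ∑ w ∈ D, 2 * ∫ a : I, φ a * ∫ U, GU μ μ' D k v w a U ∂(iid (ℕ × V)) =
      2 * ∫ a : I, φ a * RD μ μ' D k a v := by
  rw [← Finset.mul_sum]
  congr 1
  rw [← integral_finsetSum]
  · refine integral_congr_ae (ae_of_all _ fun a => ?_)
    simp only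
    rw [RD_eq, Finset.mul_sum]
  · intro w _
    have hm1 : Measurable fun a : ℝ => ∫ U, GU μ μ' D k v w a U ∂(iid (ℕ × V)) :=
      ((measurable_GU μ μ' D k v w).stronglyMeasurable.integral_prod_right'
        (ν := iid (ℕ × V))).measurable
    have hmI : Measurable fun a : I => ∫ U, GU μ μ' D k v w a U ∂(iid (ℕ × V)) :=
      hm1.comp measurable_subtype_coe
    refine EfronAux.integrable_of_bdd (hφm.mul hmI) (C := 32) fun a => ?_
    have h0 : 0 ≤ ∫ U, GU μ μ' D k v w a U ∂(iid (ℕ × V)) :=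
      integral_nonneg fun U => GU_nonneg _ _ _ _ _ _ _ _
    have h1 : ∫ U, GU μ μ' D k v w a U ∂(iid (ℕ × V)) ≤ 32 := by
      calc _ ≤ ∫ U, (32 : ℝ) ∂(iid (ℕ × V)) :=
            integral_mono (GU_int μ μ' D k v w a) (integrable_const _)
              fun U => GU_le _ _ _ _ _ _ _ _
        _ = 32 := by simp
    rw [abs_of_nonneg (mul_nonneg (hφ0 _) h0)]
    calc φ a * ∫ U, GU μ μ' D k v w a U ∂(iid (ℕ × V)) ≤ 1 * 32 :=
          mul_le_mul (hφ1 _) h1 h0 zero_le_one
      _ = 32 := one_mul _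

end IntAux

open IntAux

/-- Growth of the mean square difference in finite volume. -/
theorem growth_finite [Countable V] (μ μ' : Measure (V → Bool)) [IsProbabilityMeasure μ]
    [IsProbabilityMeasure μ'] (D : Finset V) (k : ℕ) (v : V) {r r' : ℝ} (hr : 0 ≤ r)
    (hrr : r ≤ r') (hr' : r' ≤ 1 / 2) :
    DD μ μ' D k r v ≤ DD μ μ' D k r' v ∧
    DD μ μ' D k r' v ≤ DD μ μ' D k r v + ∫ u in r..r', u * RD μ μ' D k u v := by
  classical
  have hsub := DD_sub μ μ' D k hrr v
  constructor
  · have : 0 ≤ DD μ μ' D k r' v - DD μ μ' D k r v := by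
      rw [hsub]
      refine Finset.sum_nonneg fun w _ => integral_nonneg fun U => ?_
      simp only [Pi.zero_apply]
      split_ifs
      · exact JU_nonneg _ _ _ _ _ _ _
      · exact le_rfl
    linarith
  set φ : I → ℝ := fun a => if r ≤ (a : ℝ) ∧ (a : ℝ) < r' then (a : ℝ) / 8 else 0 with hφ
  have hφs : MeasurableSet {a : I | r ≤ (a : ℝ) ∧ (a : ℝ) < r'} :=
    (measurableSet_le measurable_const measurable_subtype_coe).inter
      (measurableSet_lt measurable_subtype_coe measurable_const)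
  have hφm : Measurable φ :=
    Measurable.ite hφs (measurable_subtype_coe.div_const 8) measurable_const
  have hφ0 : ∀ a, 0 ≤ φ a := by
    intro a
    simp only [hφ]
    split_ifs
    · have := a.2.1; positivity
    · exact le_rfl
  have hφ1 : ∀ a, φ a ≤ 1 := by
    intro a
    simp only [hφ]
    split_ifs
    · have := a.2.2; linarith
    · exact zero_le_one
  have hφ2 : ∀ a : I, φ a ≠ 0 → (a : ℝ) ≤ 1 / 2 := by
    intro a ha
    by_cases h : r ≤ (a : ℝ) ∧ (a : ℝ) < r'
    · linarith [h.2]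
    · exact absurd (if_neg h) ha
  have hconv : ∫ a : I, φ a * RD μ μ' D k a v = 1 / 8 * ∫ u in r..r', u * RD μ μ' D k u v := by
    set f : ℝ → ℝ := (Ico r r').indicator (fun u => u / 8 * RD μ μ' D k u v) with hf
    have e1 : ∀ a : I, φ a * RD μ μ' D k a v = f a := by
      intro a
      simp only [hφ, hf]
      by_cases h : r ≤ (a : ℝ) ∧ (a : ℝ) < r'
      · rw [if_pos h, Set.indicator_of_mem (show (a : ℝ) ∈ Ico r r' from h)]
      · rw [if_neg h, Set.indicator_of_notMem (show (a : ℝ) ∉ Ico r r' from h), zero_mul]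
    have e2 : ∫ a : I, f a = ∫ t in Icc (0 : ℝ) 1, f t :=
      integral_subtype_comap measurableSet_Icc f
    have e3 : Icc (0 : ℝ) 1 ∩ Ico r r' = Ico r r' := by
      apply Set.inter_eq_self_of_subset_right
      intro x hx
      exact ⟨hr.trans hx.1, by linarith [hx.2]⟩
    rw [integral_congr_ae (ae_of_all _ e1), e2, hf, integral_indicator measurableSet_Ico,
      Measure.restrict_restrict measurableSet_Ico, Set.inter_comm, e3,
      intervalIntegral.integral_of_le hrr, ← integral_const_mul,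
      integral_Ico_eq_integral_Ioc]
    refine integral_congr_ae (ae_of_all _ fun u => ?_)
    simp only
    ring
  have hnn : 0 ≤ ∫ u in r..r', u * RD μ μ' D k u v := by
    refine intervalIntegral.integral_nonneg hrr fun u hu => ?_
    exact mul_nonneg (hr.trans hu.1) (RD_nonneg _ _ _ _ _ _)
  have hfin := Finset.sum_le_sum fun w hw => bound_term μ μ' D k v hφm hφ0 hφ1 hφ2
    (p := fun a : I => r ≤ (a : ℝ) ∧ (a : ℝ) < r') hφs (fun a ha => if_pos ha) hw
  rw [← hsub, sum_term μ μ' D k v hφm hφ0 hφ1, hconv] at hfin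
  linarith

end Vale.Agent.P161E
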