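import Vale.Agent.P161E.NBoundCore
import Vale.Agent.P161E.Stat

/-!
# Iteration along rays
-/

open MeasureTheory Set Filter Topology
open scoped unitInterval ENNReal

namespace Vale.Agent.P161E

open Vale.Agent.P161

universe u

/-- Iteration along rays: `N = A[β̄² N + h]`, `β̄ ≤ (1 + β) / 2`, and the products of
`exp (-(M/ρ) (1 - β))` along rays decay. -/
theorem N_bound {b : ℕ} (hb : 2 ≤ b) {K c M : ℝ} (hK : 1 ≤ K) (hc : 0 < c) (hM : 0 < M) :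
    ∃ K' c' : ℝ, 0 < K' ∧ 0 < c' ∧ ∀ (V : Type u) (T : RTree V b) (ρ : ℝ), 0 < ρ → ρ ≤ 1 / 2 →
    ∀ N h w β : V → V → (V → I) → ℝ, Equi T N → Equi T h → Equi T w → Equi T β →
    (∀ u x, T.G.Adj u x → MemLp (N u x) 2 (iid V)) →
    (∀ u x, T.G.Adj u x → Integrable (h u x) (iid V)) →
    (∀ u x ω, 0 ≤ N u x ω) → (∀ u x ω, 0 ≤ β u x ω ∧ β u x ω ≤ 1) →
    (∀ u x ω, 0 ≤ w u x ω ∧ w u x ω ≤ ((1 + β u x ω) / 2) ^ 2) →
    (∀ u x, T.G.Adj u x → ∀ᵐ ω ∂(iid V), N u x ω =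
      T.av (fun u x => w u x ω * N u x ω + h u x ω) u x) →
    (∀ (n : ℕ) (u x : V), T.G.Adj u x → ∫ ω, T.wavN
      (fun u x => Real.exp (-(M / ρ) * (1 - β u x ω))) (fun _ _ => 1) n u x ∂(iid V) ≤
        K * Real.exp (-(c * n))) →
    ∀ p : ℝ, 2 ≤ p → ∀ u x, T.G.Adj u x → ∫ ω, N u x ω ∂(iid V) ≤
      K' * max (1 / ρ) p * ∫ ω, |h u x ω| ∂(iid V) +
      K' * Real.exp (-(c' * p)) * Real.sqrt (∫ ω, N u x ω ^ 2 ∂(iid V)) :=
  N_bound_core hb (statStmt b) hK hc hM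

end Vale.Agent.P161E
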