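import Vale.Agent.P161E.Law
import Vale.Agent.P161.Ortho

/-!
# Orthogonality of the posterior means, for fixed labels
-/

open MeasureTheory Set Filter Topology
open scoped unitInterval ENNReal

namespace Vale.Agent.P161E

open Vale.Agent.P161

universe u

variable {V : Type u}

open LawAux

namespace OrthoAux

/-- the signals about `p.1` for the fixed labels `U` -/
noncomputable def xU (U : ℕ × V → I) (p : (V → Bool) × (ℕ × V → I)) : ℕ × V → I :=
  xs (p.1, (U, p.2))

theorem measurable_xU (U : ℕ × V → I) : Measurable (xU U) :=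
  measurable_xs measurable_fst measurable_const measurable_snd

theorem measurable_prod_dens (U : ℕ × V → I) (A : Finset (ℕ × V)) :
    Measurable (fun p : (ℕ × V → I) × (V → Bool) =>
      ∏ j ∈ A, dens (str (U j)) (p.2 j.2) (p.1 j)) := by
  refine Finset.measurable_fun_prod _ fun j _ => ?_
  unfold dens
  have h1 : Measurable (fun p : (ℕ × V → I) × (V → Bool) => sg (p.2 j.2)) :=
    measurable_sg.comp ((measurable_pi_apply j.2).comp measurable_snd)
  have h2 : Measurable (fun p : (ℕ × V → I) × (V → Bool) => ((p.1 j : I) : ℝ)) :=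
    measurable_subtype_coe.comp ((measurable_pi_apply j).comp measurable_fst)
  exact ((h1.const_mul _).mul ((h2.const_mul 2).const_sub 1)).const_add 1

theorem prod_pos' (U : ℕ × V → I) (A : Finset (ℕ × V)) (τ : V → Bool) (x : ℕ × V → I) :
    0 ≤ ∏ j ∈ A, dens (str (U j)) (τ j.2) (x j) :=
  Finset.prod_nonneg fun _ _ => (dens_pos (abs_str_le _).1 (abs_str_le _).2 _ _).le

theorem integral_PP_nonneg (μ : Measure (V → Bool))
    [IsProbabilityMeasure μ] (U : ℕ × V → I) (A : Finset (ℕ × V))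
    {G : (V → Bool) → (ℕ × V → I) → ℝ}
    (hG : Measurable (Function.uncurry G)) (h0 : ∀ τ x, 0 ≤ G τ x) {M : ℝ}
    (hM : ∀ τ x, |G τ x| ≤ M) (hdep : ∀ τ, DependsOn (G τ) (A : Set (ℕ × V))) :
    ∫ p, G p.1 (xU U p) ∂(μ.prod (iid (ℕ × V))) =
      ∫ x, ∫ τ, G τ x * ∏ j ∈ A, dens (str (U j)) (τ j.2) (x j) ∂μ ∂(iid (ℕ × V)) := by
  have hjoint : Measurable (fun p : (ℕ × V → I) × (V → Bool) =>
      G p.2 p.1 * ∏ j ∈ A, dens (str (U j)) (p.2 j.2) (p.1 j)) :=
    (hG.comp measurable_swap).mul (measurable_prod_dens U A)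
  have hpos : ∀ τ x, 0 ≤ G τ x * ∏ j ∈ A, dens (str (U j)) (τ j.2) (x j) := fun τ x =>
    mul_nonneg (h0 τ x) (prod_pos' U A τ x)
  have hl := lintegral_PP μ U A (G := fun τ x => ENNReal.ofReal (G τ x)) hG.ennreal_ofReal
      (fun τ x x' h => by
        show ENNReal.ofReal (G τ x) = ENNReal.ofReal (G τ x')
        rw [hdep τ h])
  rw [integral_eq_lintegral_of_nonneg_ae (ae_of_all _ fun ω => h0 _ _)
    (hG.comp (measurable_fst.prodMk (measurable_xU U))).aestronglyMeasurable,
    integral_eq_lintegral_of_nonneg_ae (ae_of_all _ fun x => integral_nonneg fun τ => hpos τ x)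
    (hjoint.stronglyMeasurable.integral_prod_right (ν := μ)).aestronglyMeasurable]
  unfold xU
  rw [hl]
  congr 1
  apply lintegral_congr
  intro x
  rw [ofReal_integral_eq_lintegral_ofReal]
  · apply lintegral_congr
    intro τ
    rw [ENNReal.ofReal_mul (h0 τ x), ENNReal.ofReal_prod_of_nonneg
      fun j _ => (dens_pos (abs_str_le _).1 (abs_str_le _).2 _ _).le]
  · exact LawAux.integrable_prod_dens μ U A x (F := fun τ => G τ x) hG.of_uncurry_right
      (fun τ => hM τ x)
  · exact ae_of_all _ fun τ => hpos τ x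

theorem integral_PP (μ : Measure (V → Bool))
    [IsProbabilityMeasure μ] (U : ℕ × V → I) (A : Finset (ℕ × V))
    {G : (V → Bool) → (ℕ × V → I) → ℝ}
    (hG : Measurable (Function.uncurry G)) {M : ℝ}
    (hM : ∀ τ x, |G τ x| ≤ M) (hdep : ∀ τ, DependsOn (G τ) (A : Set (ℕ × V))) :
    ∫ p, G p.1 (xU U p) ∂(μ.prod (iid (ℕ × V))) =
      ∫ x, ∫ τ, G τ x * ∏ j ∈ A, dens (str (U j)) (τ j.2) (x j) ∂μ ∂(iid (ℕ × V)) := by
  have hM0 : 0 ≤ M := (abs_nonneg _).trans (hM (fun _ => true) (fun _ => 0))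
  have h1 := integral_PP_nonneg μ U A (G := fun τ x => G τ x + M)
    (hG.add measurable_const) (fun τ x => by have := (abs_le.mp (hM τ x)).1; linarith)
    (M := M + M) (fun τ x => by
      refine (abs_add_le _ _).trans (add_le_add (hM τ x) ?_)
      rw [abs_of_nonneg hM0]) (fun τ x x' h => by
        show G τ x + M = G τ x' + M
        rw [hdep τ h])
  have h2 := integral_PP_nonneg μ U A (G := fun _ _ => M) measurable_const
    (fun _ _ => hM0) (M := M) (fun _ _ => by rw [abs_of_nonneg hM0])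
    (fun τ x x' h => rfl)
  have hi1 : Integrable (fun ω : (V → Bool) × (ℕ × V → I) => G ω.1 (xU U ω))
      (μ.prod (iid (ℕ × V))) :=
    Integrable.of_bound (hG.comp (measurable_fst.prodMk (measurable_xU U))).aestronglyMeasurable
      M (ae_of_all _ fun ω => hM _ _)
  rw [integral_add hi1 (integrable_const M)] at h1
  have hjoint : Measurable (fun p : (ℕ × V → I) × (V → Bool) =>
      G p.2 p.1 * ∏ j ∈ A, dens (str (U j)) (p.2 j.2) (p.1 j)) :=
    (hG.comp measurable_swap).mul (measurable_prod_dens U A)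
  have hjoint2 : Measurable (fun p : (ℕ × V → I) × (V → Bool) =>
      M * ∏ j ∈ A, dens (str (U j)) (p.2 j.2) (p.1 j)) := (measurable_prod_dens U A).const_mul M
  have hbd : ∀ (K : (V → Bool) → ℝ), (∀ τ, |K τ| ≤ M) → ∀ x : ℕ × V → I,
      |∫ τ, K τ * ∏ j ∈ A, dens (str (U j)) (τ j.2) (x j) ∂μ| ≤ M * ∏ _j ∈ A, (6 / 5 : ℝ) := by
    intro K hK x
    have := norm_integral_le_of_norm_le_const (μ := μ) (C := M * ∏ _j ∈ A, (6 / 5 : ℝ))
      (f := fun τ => K τ * ∏ j ∈ A, dens (str (U j)) (τ j.2) (x j)) (ae_of_all _ fun τ => by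
        rw [Real.norm_eq_abs, abs_mul, Finset.abs_prod]
        exact mul_le_mul (hK τ) (Finset.prod_le_prod (fun _ _ => abs_nonneg _)
          fun j _ => LawAux.abs_dens_le _ _ _) (Finset.prod_nonneg fun _ _ => abs_nonneg _) hM0)
    simpa using this
  have hj1 : Integrable (fun x => ∫ τ, G τ x * ∏ j ∈ A, dens (str (U j)) (τ j.2) (x j) ∂μ)
      (iid (ℕ × V)) :=
    Integrable.of_bound
      (hjoint.stronglyMeasurable.integral_prod_right (ν := μ)).aestronglyMeasurable _
      (ae_of_all _ fun x => hbd (fun τ => G τ x) (fun τ => hM τ x) x)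
  have hj2 : Integrable (fun x => ∫ τ, M * ∏ j ∈ A, dens (str (U j)) (τ j.2) (x j) ∂μ)
      (iid (ℕ × V)) :=
    Integrable.of_bound
      (hjoint2.stronglyMeasurable.integral_prod_right (ν := μ)).aestronglyMeasurable _
      (ae_of_all _ fun x => hbd (fun _ => M) (fun τ => by rw [abs_of_nonneg hM0]) x)
  have h3 : ∀ x : ℕ × V → I, ∫ τ, (G τ x + M) * ∏ j ∈ A, dens (str (U j)) (τ j.2) (x j) ∂μ =
      (∫ τ, G τ x * ∏ j ∈ A, dens (str (U j)) (τ j.2) (x j) ∂μ) +
        ∫ τ, M * ∏ j ∈ A, dens (str (U j)) (τ j.2) (x j) ∂μ := by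
    intro x
    rw [← integral_add (LawAux.integrable_prod_dens μ U A x (F := fun τ => G τ x)
      hG.of_uncurry_right (fun τ => hM τ x)) (LawAux.integrable_prod_dens μ U A x
      (F := fun _ => M) measurable_const (M := M) (fun τ => by rw [abs_of_nonneg hM0]))]
    apply integral_congr_ae
    exact ae_of_all _ fun τ => by simp only; ring
  simp_rw [h3] at h1
  rw [integral_add hj1 hj2] at h1
  rw [← h2] at h1
  linarith

/-- The posterior mean at `v` at the time `(k, r)`. -/
noncomputable def pm (μ : Measure (V → Bool)) (D : Finset V) (U : ℕ × V → I) (k : ℕ) (r : ℝ)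
    (v : V) (x : ℕ × V → I) : ℝ := mean μ D v (fld U x k r)

theorem measurable_pm (μ : Measure (V → Bool)) [IsProbabilityMeasure μ]
    (D : Finset V) (U : ℕ × V → I) (k : ℕ) (r : ℝ) (v : V) : Measurable (pm μ D U k r v) :=
  (measurable_mean μ D v).comp (measurable_fld measurable_const measurable_id measurable_const k)

theorem abs_pm_le (μ : Measure (V → Bool)) [IsProbabilityMeasure μ]
    (D : Finset V) (U : ℕ × V → I) (k : ℕ) (r : ℝ) (v : V) (x : ℕ × V → I) :
    |pm μ D U k r v x| ≤ 1 := abs_mean_le _ _ _ _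

theorem dependsOn_pm (μ : Measure (V → Bool)) (D : Finset V) (U : ℕ × V → I) (k : ℕ) (r : ℝ)
    (v : V) : DependsOn (pm μ D U k r v) (beforeR U D k r : Set (ℕ × V)) := by
  intro x x' h
  refine mean_congr μ v fun w hw => ?_
  exact PicAux.fld_congr (D := D)
    (fun l hl => ⟨rfl, h (l, w) (Finset.mem_coe.mpr (mem_beforeR.mpr ⟨hw, Or.inl hl⟩))⟩)
    (fun hlt => ⟨rfl, h (k, w) (Finset.mem_coe.mpr (mem_beforeR.mpr ⟨hw, Or.inr ⟨rfl, hlt⟩⟩))⟩)
    Iff.rfl

/-- Orthogonality. -/
theorem ortho (μ : Measure (V → Bool))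
    [IsProbabilityMeasure μ] (D : Finset V) (U : ℕ × V → I) (k : ℕ) (r : ℝ) (v : V)
    {φ : (ℕ × V → I) → ℝ} (hφ : Measurable φ) {M : ℝ} (hM : ∀ x, |φ x| ≤ M)
    (hdep : DependsOn φ (beforeR U D k r : Set (ℕ × V))) :
    ∫ p, sg (p.1 v) * φ (xU U p) ∂(μ.prod (iid (ℕ × V))) =
      ∫ p, pm μ D U k r v (xU U p) * φ (xU U p) ∂(μ.prod (iid (ℕ × V))) := by
  have h1 := integral_PP μ U (beforeR U D k r) (G := fun τ x => sg (τ v) * φ x)
    ((measurable_sg.comp ((measurable_pi_apply v).comp measurable_fst)).mul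
      (hφ.comp measurable_snd)) (M := M) (fun τ x => by
        rw [abs_mul, abs_sg, one_mul]; exact hM x)
    (fun τ x x' h => by
      show sg (τ v) * φ x = sg (τ v) * φ x'
      rw [hdep h])
  have h2 := integral_PP μ U (beforeR U D k r) (G := fun τ x => pm μ D U k r v x * φ x)
    (((measurable_pm μ D U k r v).mul hφ).comp measurable_snd) (M := 1 * M) (fun τ x => by
        rw [abs_mul]
        exact mul_le_mul (abs_pm_le μ D U k r v x) (hM x) (abs_nonneg _) zero_le_one)
    (fun τ x x' h => by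
      show pm μ D U k r v x * φ x = pm μ D U k r v x' * φ x'
      rw [hdep h, dependsOn_pm μ D U k r v h])
  rw [h1, h2]
  apply integral_congr_ae
  refine ae_of_all _ fun x => ?_
  simp only
  have e1 : ∀ τ : V → Bool, sg (τ v) * φ x *
      ∏ j ∈ beforeR U D k r, dens (str (U j)) (τ j.2) (x j) =
      φ x * (sg (τ v) * ∏ j ∈ beforeR U D k r, dens (str (U j)) (τ j.2) (x j)) :=
    fun τ => by ring
  simp_rw [e1]
  rw [integral_const_mul, integral_sg_beforeR, integral_const_mul]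
  unfold pm LawAux.Lk
  ring

theorem beforeR_mono {U : ℕ × V → I} {D D' : Finset V} (hD : D ⊆ D') {k : ℕ} {r r' : ℝ}
    (hr : r ≤ r') : beforeR U D k r ⊆ beforeR U D' k r' := by
  intro j hj
  rw [mem_beforeR] at hj ⊢
  refine ⟨hD hj.1, ?_⟩
  rcases hj.2 with h | ⟨h1, h2⟩
  · exact Or.inl h
  · exact Or.inr ⟨h1, h2.trans_le hr⟩

/-- The increments of the posterior means, in the volume and in time. -/
theorem integral_pm_sub_sq (μ : Measure (V → Bool))
    [IsProbabilityMeasure μ] {D D' : Finset V} (hD : D ⊆ D') (U : ℕ × V → I) (k : ℕ) {r r' : ℝ}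
    (hr : r ≤ r') (v : V) :
    ∫ p, (pm μ D' U k r' v (xU U p) - pm μ D U k r v (xU U p)) ^ 2 ∂(μ.prod (iid (ℕ × V))) =
      (∫ p, pm μ D' U k r' v (xU U p) ^ 2 ∂(μ.prod (iid (ℕ × V)))) -
        ∫ p, pm μ D U k r v (xU U p) ^ 2 ∂(μ.prod (iid (ℕ × V))) := by
  have h1 := ortho μ D U k r v (measurable_pm μ D U k r v) (abs_pm_le μ D U k r v)
    (dependsOn_pm μ D U k r v)
  have hsub : beforeR U D k r ⊆ beforeR U D' k r' := beforeR_mono hD hr
  have h2 := ortho μ D' U k r' v (measurable_pm μ D U k r v) (abs_pm_le μ D U k r v)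
    (fun x x' h => dependsOn_pm μ D U k r v fun j hj => h j (Finset.coe_subset.mpr hsub hj))
  have hm : ∀ D r, Measurable (fun p : (V → Bool) × (ℕ × V → I) => pm μ D U k r v (xU U p)) :=
    fun D r => (measurable_pm μ D U k r v).comp (measurable_xU U)
  have hb : ∀ (D : Finset V) (r : ℝ) (p : (V → Bool) × (ℕ × V → I)),
      |pm μ D U k r v (xU U p)| ≤ 1 := fun D r p => abs_pm_le μ D U k r v _
  have hb2 : ∀ (D D' : Finset V) (r r' : ℝ) (p : (V → Bool) × (ℕ × V → I)),
      |pm μ D U k r v (xU U p) * pm μ D' U k r' v (xU U p)| ≤ 1 := by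
    intro D D' r r' p
    rw [abs_mul]
    exact mul_le_one₀ (hb D r p) (abs_nonneg _) (hb D' r' p)
  have e : ∀ p : (V → Bool) × (ℕ × V → I),
      (pm μ D' U k r' v (xU U p) - pm μ D U k r v (xU U p)) ^ 2 =
      pm μ D' U k r' v (xU U p) * pm μ D' U k r' v (xU U p) +
        (pm μ D U k r v (xU U p) * pm μ D U k r v (xU U p) -
          2 * (pm μ D' U k r' v (xU U p) * pm μ D U k r v (xU U p))) := fun p => by ring
  have hI1 : ∀ (D D' : Finset V) (r r' : ℝ), Integrable (fun p : (V → Bool) × (ℕ × V → I) =>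
      pm μ D U k r v (xU U p) * pm μ D' U k r' v (xU U p)) (μ.prod (iid (ℕ × V))) :=
    fun D D' r r' => integrable_bdd ((hm D r).mul (hm D' r')) (hb2 D D' r r')
  simp_rw [e]
  have hI2 : Integrable (fun p : (V → Bool) × (ℕ × V → I) =>
      pm μ D U k r v (xU U p) * pm μ D U k r v (xU U p) -
          2 * (pm μ D' U k r' v (xU U p) * pm μ D U k r v (xU U p))) (μ.prod (iid (ℕ × V))) :=
    (hI1 D D r r).sub ((hI1 D' D r' r).const_mul 2)
  rw [integral_add (hI1 D' D' r' r') hI2,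
    integral_sub (hI1 D D r r) ((hI1 D' D r' r).const_mul 2), integral_const_mul, ← h2, h1]
  simp_rw [pow_two]
  ring

/-- The posterior means form a Cauchy net in `L²`. -/
theorem exists_pm_cauchy (μ : Measure (V → Bool))
    [IsProbabilityMeasure μ] (U : ℕ × V → I) (k : ℕ) (r : ℝ) (v : V) {ε : ℝ} (hε : 0 < ε) :
    ∃ D₀ : Finset V, ∀ D D' : Finset V, D₀ ⊆ D → D ⊆ D' →
      ∫ p, (pm μ D' U k r v (xU U p) - pm μ D U k r v (xU U p)) ^ 2
        ∂(μ.prod (iid (ℕ × V))) ≤ ε := by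
  set q : Finset V → ℝ := fun D => ∫ p, pm μ D U k r v (xU U p) ^ 2 ∂(μ.prod (iid (ℕ × V)))
    with hq
  have hmono : Monotone q := by
    intro D D' h
    have h1 := integral_pm_sub_sq μ h U k (le_refl r) v
    have h2 : 0 ≤ ∫ p, (pm μ D' U k r v (xU U p) - pm μ D U k r v (xU U p)) ^ 2
        ∂(μ.prod (iid (ℕ × V))) := integral_nonneg fun p => sq_nonneg _
    rw [h1] at h2
    simp only [hq]
    linarith
  have hbdd : BddAbove (Set.range q) := by
    refine ⟨1, ?_⟩
    rintro _ ⟨D, rfl⟩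
    have h1 : q D ≤ ∫ _p, (1 : ℝ) ∂(μ.prod (iid (ℕ × V))) := by
      apply integral_mono
      · refine integrable_bdd (((measurable_pm μ D U k r v).comp (measurable_xU U)).pow_const 2)
          (M := 1) fun ω => ?_
        rw [abs_pow]
        exact pow_le_one₀ (abs_nonneg _) (abs_pm_le μ D U k r v _)
      · exact integrable_const _
      · intro ω
        have := abs_pm_le μ D U k r v (xU U ω)
        simp only
        rw [← sq_abs]
        exact pow_le_one₀ (abs_nonneg _) this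
    simpa using h1
  obtain ⟨D₀, hD₀⟩ := exists_lt_of_lt_ciSup (f := q) (b := (⨆ D, q D) - ε) (by linarith)
  refine ⟨D₀, fun D D' h0 h1 => ?_⟩
  rw [integral_pm_sub_sq μ h1 U k (le_refl r) v]
  have h2 : q D' ≤ ⨆ D, q D := le_ciSup hbdd D'
  have h3 : q D₀ ≤ q D := hmono h0
  simp only [hq] at h2 h3 hD₀ ⊢
  linarith

end OrthoAux

end Vale.Agent.P161E
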