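import Vale.Agent.P161E.UBoundCore
import Vale.Agent.P161E.Stat
import Vale.Agent.P161E.Decor

open MeasureTheory Set Filter Topology
open scoped unitInterval ENNReal

namespace Vale.Agent.P161E

open Vale.Agent.P161

universe u

theorem U_bound {b : ℕ} (hb : 2 ≤ b) : ∃ K : ℝ, 0 < K ∧ ∀ (V : Type u) (T : RTree V b)
    (U f ε : V → V → (V → I) → ℝ), Equi T U → Equi T f → Equi T ε →
    (∀ u x, T.G.Adj u x → MemLp (U u x) 2 (iid V)) →
    (∀ u x, T.G.Adj u x → MemLp (f u x) 2 (iid V)) →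
    (∀ u x ω, 0 ≤ ε u x ω ∧ ε u x ω ≤ 1) →
    (∀ u x, T.G.Adj u x → ∀ᵐ ω ∂(iid V), U u x ω =
      T.av (fun u x => (1 - ε u x ω) * U u x ω + f u x ω) u x) →
    ∀ u x, T.G.Adj u x → ∫ ω, U u x ω ^ 2 ∂(iid V) ≤
      K * (∫ ω, f u x ω ^ 2 ∂(iid V) + (∫ ω, U u x ω ∂(iid V)) ^ 2) :=
  U_bound_core hb (statStmt b) (decor hb)

end Vale.Agent.P161E
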