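import Vale.Agent.P161E.PairAux
import Vale.Agent.P161E.UBound
import Vale.Agent.P161E.NBound

/-!
# The pair inequality
-/

open MeasureTheory Set Filter Topology
open scoped unitInterval ENNReal

namespace Vale.Agent.P161E

open Vale.Agent.P161

universe u

namespace PR

theorem memLp_of_four {Ω : Type*} [MeasurableSpace Ω] {P : Measure Ω} [IsProbabilityMeasure P]
    {χ : Ω → ℝ} (mχ : Measurable χ) (hχ : ∀ ω, 1 ≤ χ ω)
    (iχ : Integrable (fun ω => χ ω ^ 4) P) : MemLp χ 2 P := by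
  rw [memLp_two_iff_integrable_sq mχ.aestronglyMeasurable]
  refine iχ.mono' (by fun_prop) (ae_of_all _ fun ω => ?_)
  rw [Real.norm_eq_abs, abs_of_nonneg (sq_nonneg _)]
  exact pow_le_pow_right₀ (hχ ω) (by norm_num)

theorem num1 {p ρ : ℝ} (hρ : 0 < ρ) (hρ1 : ρ ≤ 1 / 2) (hp : 2 ≤ p) :
    0 ≤ ρ * max (1 / ρ) p ∧ ρ * max (1 / ρ) p ≤ p ∧
      (ρ * max (1 / ρ) p) * min (p * ρ) 1 = p * ρ := by
  have hμ' : ρ * max (1 / ρ) p = max 1 (p * ρ) := by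
    rw [mul_max_of_nonneg _ _ hρ.le, mul_one_div_cancel hρ.ne', mul_comm ρ p]
  rw [hμ']
  refine ⟨zero_le_one.trans (le_max_left _ _), max_le (by linarith) ?_, ?_⟩
  · calc p * ρ ≤ p * 1 := mul_le_mul_of_nonneg_left (by linarith) (by linarith)
      _ = p := mul_one p
  · rcases le_total (p * ρ) 1 with h | h
    · rw [max_eq_left h, min_eq_left h, one_mul]
    · rw [max_eq_right h, min_eq_right h, mul_one]

theorem num2 {p ρ : ℝ} (hρ : 0 < ρ) (hρ1 : ρ ≤ 1 / 2) (hp : 2 ≤ p) :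
    1 / ρ + Real.log p ≤ p / ρ ∧ p ^ 2 / ρ ≤ p ^ 2 / ρ ^ 3 ∧ p ≤ p ^ 2 / ρ ^ 3 := by
  have hlogp : Real.log p ≤ p := (Real.log_le_sub_one_of_pos (by linarith)).trans (by linarith)
  have h1 : 1 / ρ ≤ (p / ρ) / 2 := by
    rw [div_div, div_le_div_iff₀ hρ (by positivity)]
    nlinarith
  have h2 : p ≤ (p / ρ) / 2 := by
    rw [div_div, le_div_iff₀ (by positivity)]
    nlinarith
  have h3 : p ^ 2 / ρ ≤ p ^ 2 / ρ ^ 3 := by
    have hρ3 : ρ ^ 3 ≤ ρ := by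
      calc ρ ^ 3 = ρ * ρ ^ 2 := by ring
        _ ≤ ρ * 1 := mul_le_mul_of_nonneg_left (by nlinarith) hρ.le
        _ = ρ := mul_one ρ
    have hρ3' : 0 < ρ ^ 3 := by positivity
    gcongr
  refine ⟨by linarith, h3, ?_⟩
  refine le_trans ?_ h3
  rw [le_div_iff₀ hρ]
  nlinarith

theorem num3 {p ρ : ℝ} (hρ : 0 < ρ) (hρ1 : ρ ≤ 1 / 2) (hp : 2 ≤ p) :
    (p * ρ) * (1 / ρ + Real.log p) ≤ p * (1 + Real.log p) := by
  have hlog : 0 ≤ Real.log p := Real.log_nonneg (by linarith)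
  have e : (p * ρ) * (1 / ρ + Real.log p) = p * (1 + ρ * Real.log p) := by
    field_simp
  rw [e]
  have : ρ * Real.log p ≤ 1 * Real.log p := mul_le_mul_of_nonneg_right (by linarith) hlog
  rw [one_mul] at this
  exact mul_le_mul_of_nonneg_left (by linarith) (by linarith)

/-- the final numerical step -/
theorem final_num {K2 C5 K c p ρ D Θ m e U2 J N Q : ℝ} (hρ : 0 < ρ) (hρ1 : ρ ≤ 1 / 2)
    (hp : 2 ≤ p) (hK2 : 0 < K2) (hC5 : 0 < C5) (hK : 1 ≤ K) (hD : 0 ≤ D) (hΘ : 0 ≤ Θ)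
    (hm : m = min (p * ρ) 1) (he : e = Real.exp (-p / 2)) (hU2 : 0 ≤ U2)
    (hI : J ≤ C5 * ((1 / ρ + Real.log p) * (Θ + m * D) + (1 / ρ + Real.log p) * e + U2))
    (hQ : Q ≤ 2 * K / ρ)
    (hN : N ≤ K2 * max (1 / ρ) p * J + K2 * Real.exp (-(c * p)) * Q) :
    ρ * N ≤ (K2 * C5 + 2 * K * K2) * p * (1 + Real.log p) * D +
      (K2 * C5 + 2 * K * K2) * p ^ 2 / ρ ^ 3 *
        (Real.exp (-(min c (1 / 2) * p)) + Θ + U2) := by
  obtain ⟨hμ0, hμp, hμm⟩ := num1 hρ hρ1 hp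
  obtain ⟨hlamp, hpρ, hpp⟩ := num2 hρ hρ1 hp
  have hn3 := num3 hρ hρ1 hp
  have hlog : 0 ≤ Real.log p := Real.log_nonneg (by linarith)
  rw [← hm] at hμm
  have hμdef : ρ * max (1 / ρ) p = ρ * max (1 / ρ) p := rfl
  generalize hlam : 1 / ρ + Real.log p = lam at *
  have hlam0 : 0 < lam := by rw [← hlam]; positivity
  have hμlam : ρ * max (1 / ρ) p * lam ≤ p ^ 2 / ρ ^ 3 := by
    refine le_trans ?_ hpρ
    calc ρ * max (1 / ρ) p * lam ≤ p * (p / ρ) :=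
          mul_le_mul hμp hlamp hlam0.le (by linarith)
      _ = p ^ 2 / ρ := by ring
  generalize hμ : ρ * max (1 / ρ) p = μ at *
  have hR : (1 : ℝ) ≤ p ^ 2 / ρ ^ 3 := by linarith
  generalize hRR : p ^ 2 / ρ ^ 3 = R at *
  have heE : e ≤ Real.exp (-(min c (1 / 2) * p)) := by
    rw [he]
    apply Real.exp_le_exp.mpr
    have h1 := mul_le_mul_of_nonneg_right (min_le_right c (1 / 2)) (show 0 ≤ p by linarith)
    linarith
  have hcE : Real.exp (-(c * p)) ≤ Real.exp (-(min c (1 / 2) * p)) := by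
    apply Real.exp_le_exp.mpr
    exact neg_le_neg (mul_le_mul_of_nonneg_right (min_le_left c (1 / 2)) (by linarith))
  have he0 : 0 < e := by rw [he]; exact Real.exp_pos _
  have hE0 := Real.exp_pos (-(min c (1 / 2) * p))
  have hc0 := Real.exp_pos (-(c * p))
  generalize Real.exp (-(min c (1 / 2) * p)) = E at *
  generalize Real.exp (-(c * p)) = G at *
  generalize hL : p * (1 + Real.log p) = L at *
  have hL0 : 0 ≤ L := by rw [← hL]; positivity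
  -- the main term
  have t1 : μ * (lam * (Θ + m * D)) ≤ L * D + R * Θ := by
    have e1 : μ * (lam * (Θ + m * D)) = (μ * m) * lam * D + (μ * lam) * Θ := by ring
    rw [e1, hμm]
    exact add_le_add (mul_le_mul_of_nonneg_right hn3 hD) (mul_le_mul_of_nonneg_right hμlam hΘ)
  have t2 : μ * (lam * e) ≤ R * E := by
    rw [← mul_assoc]
    exact mul_le_mul hμlam heE he0.le (by linarith)
  have t3 : μ * U2 ≤ R * U2 := mul_le_mul_of_nonneg_right (hμp.trans hpp) hU2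
  have t4 : ρ * (G * Q) ≤ 2 * K * (R * E) := by
    calc ρ * (G * Q) ≤ ρ * (G * (2 * K / ρ)) := by gcongr
      _ = 2 * K * (1 * G) := by field_simp
      _ ≤ 2 * K * (R * E) :=
        mul_le_mul_of_nonneg_left (mul_le_mul hR hcE hc0.le (by linarith)) (by linarith)
  have s1 : ρ * N ≤ K2 * μ * J + K2 * (ρ * (G * Q)) := by
    calc ρ * N ≤ ρ * (K2 * max (1 / ρ) p * J + K2 * G * Q) :=
          mul_le_mul_of_nonneg_left hN hρ.le
      _ = _ := by rw [← hμ]; ring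
  have s2 : K2 * μ * J ≤ K2 * μ * (C5 * (lam * (Θ + m * D) + lam * e + U2)) :=
    mul_le_mul_of_nonneg_left hI (by positivity)
  have s3 : K2 * μ * (C5 * (lam * (Θ + m * D) + lam * e + U2)) =
      K2 * C5 * (μ * (lam * (Θ + m * D)) + μ * (lam * e) + μ * U2) := by ring
  have s4 : K2 * C5 * (μ * (lam * (Θ + m * D)) + μ * (lam * e) + μ * U2) ≤
      K2 * C5 * ((L * D + R * Θ) + R * E + R * U2) :=
    mul_le_mul_of_nonneg_left (add_le_add (add_le_add t1 t2) t3) (by positivity)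
  have s5 : K2 * (ρ * (G * Q)) ≤ K2 * (2 * K * (R * E)) :=
    mul_le_mul_of_nonneg_left t4 hK2.le
  have s6 : 0 ≤ 2 * K * K2 * (L * D) := by positivity
  have s7 : 0 ≤ 2 * K * K2 * (R * (Θ + U2)) := by positivity
  have s8 : (K2 * C5 + 2 * K * K2) * p * (1 + Real.log p) * D +
      (K2 * C5 + 2 * K * K2) * p ^ 2 / ρ ^ 3 * (E + Θ + U2) =
      K2 * C5 * ((L * D + R * Θ) + R * E + R * U2) + K2 * (2 * K * (R * E)) +
        2 * K * K2 * (L * D) + 2 * K * K2 * (R * (Θ + U2)) := by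
    rw [← hL, ← hRR]
    ring
  rw [s8]
  linarith

theorem measurable_be (b : ℕ) (θ : ℝ) : Measurable (be b θ) := by
  unfold be af
  fun_prop

/-- statement of the bound for `U` -/
def UStmt (b : ℕ) : Prop := ∃ K : ℝ, 0 < K ∧ ∀ (V : Type u) (T : RTree V b)
    (U f ε : V → V → (V → I) → ℝ), Equi T U → Equi T f → Equi T ε →
    (∀ u x, T.G.Adj u x → MemLp (U u x) 2 (iid V)) →
    (∀ u x, T.G.Adj u x → MemLp (f u x) 2 (iid V)) →
    (∀ u x ω, 0 ≤ ε u x ω ∧ ε u x ω ≤ 1) →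
    (∀ u x, T.G.Adj u x → ∀ᵐ ω ∂(iid V), U u x ω =
      T.av (fun u x => (1 - ε u x ω) * U u x ω + f u x ω) u x) →
    ∀ u x, T.G.Adj u x → ∫ ω, U u x ω ^ 2 ∂(iid V) ≤
      K * (∫ ω, f u x ω ^ 2 ∂(iid V) + (∫ ω, U u x ω ∂(iid V)) ^ 2)

/-- statement of the bound for `N` -/
def NStmt (b : ℕ) (K c M : ℝ) : Prop :=
    ∃ K' c' : ℝ, 0 < K' ∧ 0 < c' ∧ ∀ (V : Type u) (T : RTree V b) (ρ : ℝ), 0 < ρ → ρ ≤ 1 / 2 →
    ∀ N h w β : V → V → (V → I) → ℝ, Equi T N → Equi T h → Equi T w → Equi T β →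
    (∀ u x, T.G.Adj u x → MemLp (N u x) 2 (iid V)) →
    (∀ u x, T.G.Adj u x → Integrable (h u x) (iid V)) →
    (∀ u x ω, 0 ≤ N u x ω) → (∀ u x ω, 0 ≤ β u x ω ∧ β u x ω ≤ 1) →
    (∀ u x ω, 0 ≤ w u x ω ∧ w u x ω ≤ ((1 + β u x ω) / 2) ^ 2) →
    (∀ u x, T.G.Adj u x → ∀ᵐ ω ∂(iid V), N u x ω =
      T.av (fun u x => w u x ω * N u x ω + h u x ω) u x) →
    (∀ (n : ℕ) (u x : V), T.G.Adj u x → ∫ ω, T.wavN
      (fun u x => Real.exp (-(M / ρ) * (1 - β u x ω))) (fun _ _ => 1) n u x ∂(iid V) ≤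
        K * Real.exp (-(c * n))) →
    ∀ p : ℝ, 2 ≤ p → ∀ u x, T.G.Adj u x → ∫ ω, N u x ω ∂(iid V) ≤
      K' * max (1 / ρ) p * ∫ ω, |h u x ω| ∂(iid V) +
      K' * Real.exp (-(c' * p)) * Real.sqrt (∫ ω, N u x ω ^ 2 ∂(iid V))

/-- the algebra of the recursions -/
theorem rec_alg {V : Type u} {b : ℕ} {T : RTree V b} {β β' χ χ' S : V → V → ℝ} {u x : V}
    (h1 : χ u x = 1 + T.wav (fun u x => β u x ^ 2) χ u x)
    (h2 : χ' u x = 1 + T.wav (fun u x => β' u x ^ 2) χ' u x)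
    (h3 : S u x = 1 + T.wav (fun u x => β u x * β' u x) S u x) :
    χ u x - χ' u x = T.av (fun u x => (1 - (1 - (β u x ^ 2 + β' u x ^ 2) / 2)) * (χ u x - χ' u x) +
      (β u x - β' u x) * ((β u x + β' u x) / 2) * (χ u x + χ' u x)) u x ∧
    χ u x + χ' u x - 2 * S u x = T.av (fun u x => ((β u x + β' u x) / 2) ^ 2 *
      (χ u x + χ' u x - 2 * S u x) + ((β u x + β' u x) / 2 * (β u x - β' u x) * (χ u x - χ' u x) +
        (β u x - β' u x) ^ 2 / 4 * (χ u x + χ' u x + 2 * S u x))) u x := by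
  rw [h1, h2, h3]
  unfold RTree.wav RTree.av
  constructor
  · rw [add_sub_add_left_eq_sub, ← sub_div, ← Finset.sum_sub_distrib]
    congr 1
    refine Finset.sum_congr rfl fun y _ => ?_
    ring
  · have e : ∀ a b c : ℝ, 1 + a + (1 + b) - 2 * (1 + c) = a + b - 2 * c := fun a b c => by ring
    rw [e, mul_div_assoc', Finset.mul_sum, ← add_div, ← sub_div, ← Finset.sum_add_distrib,
      ← Finset.sum_sub_distrib]
    congr 1
    refine Finset.sum_congr rfl fun y _ => ?_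
    ring

/-- bound of the inhomogeneity -/
theorem h_bound {β β' χ χ' S lam : ℝ} (hl : 0 < lam) (h0 : 0 ≤ β) (h1 : β ≤ 1) (h0' : 0 ≤ β')
    (h1' : β' ≤ 1) (hS0 : 0 ≤ S) (hS : 2 * S ≤ χ + χ') :
    |(β + β') / 2 * (β - β') * (χ - χ') + (β - β') ^ 2 / 4 * (χ + χ' + 2 * S)| ≤
      lam / 2 * (β - β') ^ 2 + 1 / (2 * lam) * (χ - χ') ^ 2 + (β - β') ^ 2 * (χ + χ') := by
  have a1 : |(β + β') / 2 * (β - β') * (χ - χ')| ≤
      lam / 2 * (β - β') ^ 2 + 1 / (2 * lam) * (χ - χ') ^ 2 := by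
    rw [abs_mul, abs_mul, abs_of_nonneg (show 0 ≤ (β + β') / 2 by linarith)]
    have b1 : (β + β') / 2 * |β - β'| * |χ - χ'| ≤ 1 * |β - β'| * |χ - χ'| := by
      gcongr
      linarith
    have b2 : 0 ≤ (lam * |β - β'| - |χ - χ'|) ^ 2 / (2 * lam) := by positivity
    have b3 : (lam * |β - β'| - |χ - χ'|) ^ 2 / (2 * lam) =
        lam / 2 * |β - β'| ^ 2 + 1 / (2 * lam) * |χ - χ'| ^ 2 - |β - β'| * |χ - χ'| := by
      field_simp
      ring
    rw [sq_abs, sq_abs] at b3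
    linarith
  have a2 : |(β - β') ^ 2 / 4 * (χ + χ' + 2 * S)| ≤ (β - β') ^ 2 * (χ + χ') := by
    rw [abs_of_nonneg (mul_nonneg (by positivity) (by linarith))]
    have : (β - β') ^ 2 / 4 * (χ + χ' + 2 * S) ≤ (β - β') ^ 2 / 4 * (4 * (χ + χ')) :=
      mul_le_mul_of_nonneg_left (by linarith) (by positivity)
    linarith
  exact (abs_add_le _ _).trans (add_le_add a1 a2)

theorem num4 {lam ρ J A1 A2 A3 F F3 X e U2 C3 K1 : ℝ} (hρ : 0 < ρ) (hρ1 : ρ ≤ 1 / 2)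
    (hK1 : 0 < K1) (hC3 : 0 < C3) (hX : 0 ≤ X) (he : 0 < e) (hU2 : 0 ≤ U2)
    (hl : 1 / ρ ≤ lam) (j1 : J ≤ lam / 2 * A1 + 1 / (2 * lam) * A2 + A3)
    (b1 : A1 ≤ C3 * (X + e)) (hU : A2 ≤ K1 * (F + U2)) (j2 : F ≤ F3)
    (b3 : F3 ≤ C3 * (lam ^ 2 * X + e / ρ ^ 2)) (b2 : A3 ≤ C3 * (lam * X + e / ρ)) :
    J ≤ (C3 * (2 + K1) + K1) * (lam * X + lam * e + U2) := by
  have h2 : 2 ≤ 1 / ρ := by
    rw [le_div_iff₀ hρ]
    linarith
  have hl2 : 2 ≤ lam := h2.trans hl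
  have hl0 : 0 < lam := by linarith
  have e1 : e / ρ ≤ lam * e := by
    have : e / ρ = 1 / ρ * e := by ring
    rw [this]
    exact mul_le_mul_of_nonneg_right hl he.le
  have e2 : e / ρ ^ 2 ≤ lam ^ 2 * e := by
    have : e / ρ ^ 2 = (1 / ρ) ^ 2 * e := by ring
    rw [this]
    exact mul_le_mul_of_nonneg_right (pow_le_pow_left₀ (by positivity) hl 2) he.le
  have f1 : lam / 2 * A1 ≤ lam / 2 * (C3 * (X + e)) := mul_le_mul_of_nonneg_left b1 (by positivity)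
  have f2 : A2 ≤ K1 * (C3 * (lam ^ 2 * X + lam ^ 2 * e) + U2) := by
    refine hU.trans (mul_le_mul_of_nonneg_left ?_ hK1.le)
    have : C3 * (lam ^ 2 * X + e / ρ ^ 2) ≤ C3 * (lam ^ 2 * X + lam ^ 2 * e) :=
      mul_le_mul_of_nonneg_left (by linarith) hC3.le
    linarith
  have f3 : 1 / (2 * lam) * A2 ≤ K1 * C3 / 2 * (lam * X + lam * e) + K1 / (2 * lam) * U2 := by
    calc 1 / (2 * lam) * A2 ≤ 1 / (2 * lam) * (K1 * (C3 * (lam ^ 2 * X + lam ^ 2 * e) + U2)) :=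
          mul_le_mul_of_nonneg_left f2 (by positivity)
      _ = _ := by field_simp
  have f4 : K1 / (2 * lam) * U2 ≤ K1 * U2 := by
    refine mul_le_mul_of_nonneg_right ?_ hU2
    rw [div_le_iff₀ (by positivity)]
    nlinarith
  have f5 : A3 ≤ C3 * (lam * X + lam * e) :=
    b2.trans (mul_le_mul_of_nonneg_left (by linarith) hC3.le)
  have g1 : 0 ≤ lam * X + lam * e := by positivity
  have g2 : 0 ≤ C3 * (lam * X + lam * e) := by positivity
  have g3 : 0 ≤ K1 * C3 * (lam * X + lam * e) := by positivity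
  have g4 : 0 ≤ K1 * (lam * X + lam * e) := by positivity
  have g5 : 0 ≤ C3 * (2 + K1) * U2 := by positivity
  have e3 : (C3 * (2 + K1) + K1) * (lam * X + lam * e + U2) =
      2 * (C3 * (lam * X + lam * e)) + K1 * C3 * (lam * X + lam * e) + K1 * (lam * X + lam * e) +
        C3 * (2 + K1) * U2 + K1 * U2 := by ring
  rw [e3]
  have e4 : lam / 2 * (C3 * (X + e)) = C3 * (lam * X + lam * e) / 2 := by ring
  have e5 : K1 * C3 / 2 * (lam * X + lam * e) = K1 * C3 * (lam * X + lam * e) / 2 := by ring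
  linarith

theorem pair_core {b : ℕ} (hb : 2 ≤ b) {K c M : ℝ} (hK : 1 ≤ K)
    (hU : UStmt.{u} b) (hN : NStmt.{u} b K c M) :
    ∃ K' c' : ℝ, 0 < K' ∧ 0 < c' ∧ ∀ (V : Type u) (T : RTree V b) (ρ θ θ' : ℝ), 0 < ρ →
    ρ ≤ 1 / 2 → ∀ t χ t' χ' S : V → V → (V → I) → ℝ, Rep T K c M ρ θ t χ →
    Rep T K c M ρ θ' t' χ' → Equi T S →
    (∀ u x ω, 0 ≤ S u x ω ∧ 2 * S u x ω ≤ χ u x ω + χ' u x ω) →
    IsChi T (fun u x ω => be b θ (t u x ω) * be b θ' (t' u x ω)) S →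
    ∀ p : ℝ, 2 ≤ p → ∀ u x, T.G.Adj u x →
    ρ * ∫ ω, (χ u x ω + χ' u x ω - 2 * S u x ω) ∂(iid V) ≤
      K' * p * (1 + Real.log p) * ∫ ω, (t u x ω - t' u x ω) ^ 2 ∂(iid V) +
      K' * p ^ 2 / ρ ^ 3 * (Real.exp (-(c' * p)) + (θ - θ') ^ 2 +
        (∫ ω, χ u x ω ∂(iid V) - ∫ ω, χ' u x ω ∂(iid V)) ^ 2) := by
  obtain ⟨K1, hK1, hUb⟩ := hU
  obtain ⟨K2, c2, hK2, hc2, hNb⟩ := hN
  obtain ⟨C3, hC3⟩ : ∃ C3 : ℝ, C3 = 8 * K ^ 3 * (2 * b + 128) + 8 * K ^ 3 := ⟨_, rfl⟩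
  have hC30 : 0 < C3 := by rw [hC3]; positivity
  refine ⟨K2 * (C3 * (2 + K1) + K1) + 2 * K * K2, min c2 (1 / 2), by positivity,
    lt_min hc2 (by norm_num), ?_⟩
  intro V T ρ θ θ' hρ hρ1 t χ t' χ' S R R' hSe hS hSχ p hp u x hux
  have hV : Countable V := T.countable
  -- the weights
  have hβ : ∀ u x ω, 0 ≤ be b θ (t u x ω) ∧ be b θ (t u x ω) ≤ 1 := fun u x ω =>
    be_mem hb R.θ0 R.θ1 (R.t1 u x ω)
  have hβ' : ∀ u x ω, 0 ≤ be b θ' (t' u x ω) ∧ be b θ' (t' u x ω) ≤ 1 := fun u x ω =>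
    be_mem hb R'.θ0 R'.θ1 (R'.t1 u x ω)
  have hlip : ∀ u x ω, (be b θ (t u x ω) - be b θ' (t' u x ω)) ^ 2 ≤
      (2 * b + 128) * ((θ - θ') ^ 2 + (t u x ω ^ 2 + t' u x ω ^ 2) *
        (t u x ω - t' u x ω) ^ 2) := fun u x ω =>
    be_lip hb R.θ1 R'.θ1 (R.t1 u x ω) (R'.t1 u x ω)
  have eβ : Equi T (fun u x ω => be b θ (t u x ω)) := R.equi_t.comp (measurable_be b θ)
  have eβ' : Equi T (fun u x ω => be b θ' (t' u x ω)) := R'.equi_t.comp (measurable_be b θ')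
  have lχ : ∀ u x, T.G.Adj u x → MemLp (χ u x) 2 (iid V) := fun u x h =>
    memLp_of_four (R.equi_χ.meas u x) (R.χ1 u x) (R.int_χ u x h)
  have lχ' : ∀ u x, T.G.Adj u x → MemLp (χ' u x) 2 (iid V) := fun u x h =>
    memLp_of_four (R'.equi_χ.meas u x) (R'.χ1 u x) (R'.int_χ u x h)
  have lS : ∀ u x, T.G.Adj u x → MemLp (S u x) 2 (iid V) := fun u x h => by
    refine ((lχ u x h).add (lχ' u x h)).of_le (hSe.meas u x).aestronglyMeasurable
      (ae_of_all _ fun ω => ?_)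
    have h1 := hS u x ω
    have h2 := R.χ1 u x ω
    have h3 := R'.χ1 u x ω
    rw [Real.norm_eq_abs, Real.norm_eq_abs, abs_of_nonneg h1.1, Pi.add_apply,
      abs_of_nonneg (by linarith)]
    linarith
  -- the recursions
  have hrec : ∀ u x, T.G.Adj u x → ∀ᵐ ω ∂(iid V),
      (χ u x ω - χ' u x ω = T.av (fun u x => (1 - (1 - (be b θ (t u x ω) ^ 2 +
        be b θ' (t' u x ω) ^ 2) / 2)) * (χ u x ω - χ' u x ω) +
        (be b θ (t u x ω) - be b θ' (t' u x ω)) * ((be b θ (t u x ω) + be b θ' (t' u x ω)) / 2) *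
          (χ u x ω + χ' u x ω)) u x) ∧
      (χ u x ω + χ' u x ω - 2 * S u x ω =
        T.av (fun u x => ((be b θ (t u x ω) + be b θ' (t' u x ω)) / 2) ^ 2 *
        (χ u x ω + χ' u x ω - 2 * S u x ω) +
        ((be b θ (t u x ω) + be b θ' (t' u x ω)) / 2 * (be b θ (t u x ω) - be b θ' (t' u x ω)) *
          (χ u x ω - χ' u x ω) + (be b θ (t u x ω) - be b θ' (t' u x ω)) ^ 2 / 4 *
          (χ u x ω + χ' u x ω + 2 * S u x ω))) u x) := by
    intro u x h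
    filter_upwards [R.lim_χ.rec h, R'.lim_χ.rec h, hSχ.rec h] with ω h1 h2 h3
    exact rec_alg (β := fun u x => be b θ (t u x ω)) (β' := fun u x => be b θ' (t' u x ω))
      (χ := fun u x => χ u x ω) (χ' := fun u x => χ' u x ω) (S := fun u x => S u x ω) h1 h2 h3
  -- measurability of the edge functions
  have eU : Equi T (fun u x ω => χ u x ω - χ' u x ω) := R.equi_χ.sub R'.equi_χ
  have eδ : Equi T (fun u x ω => be b θ (t u x ω) - be b θ' (t' u x ω)) := eβ.sub eβ'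
  have eb : Equi T (fun u x ω => (be b θ (t u x ω) + be b θ' (t' u x ω)) / 2) :=
    (eβ.add eβ').comp (F := fun a => a / 2) (by fun_prop)
  have ef : Equi T (fun u x ω => (be b θ (t u x ω) - be b θ' (t' u x ω)) *
      ((be b θ (t u x ω) + be b θ' (t' u x ω)) / 2) * (χ u x ω + χ' u x ω)) :=
    (eδ.mul eb).mul (R.equi_χ.add R'.equi_χ)
  have eε : Equi T (fun u x ω => 1 - (be b θ (t u x ω) ^ 2 + be b θ' (t' u x ω) ^ 2) / 2) :=
    eβ.comp₂ eβ' (F := fun a b => 1 - (a ^ 2 + b ^ 2) / 2) (by fun_prop)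
  have eN : Equi T (fun u x ω => χ u x ω + χ' u x ω - 2 * S u x ω) :=
    (R.equi_χ.add R'.equi_χ).sub (hSe.const_mul 2)
  have eh : Equi T (fun u x ω => (be b θ (t u x ω) + be b θ' (t' u x ω)) / 2 *
      (be b θ (t u x ω) - be b θ' (t' u x ω)) * (χ u x ω - χ' u x ω) +
      (be b θ (t u x ω) - be b θ' (t' u x ω)) ^ 2 / 4 *
          (χ u x ω + χ' u x ω + 2 * S u x ω)) :=
    ((eb.mul eδ).mul eU).add ((eδ.comp (F := fun a => a ^ 2 / 4) (by fun_prop)).mul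
      ((R.equi_χ.add R'.equi_χ).add (hSe.const_mul 2)))
  have ew : Equi T (fun u x ω => ((be b θ (t u x ω) + be b θ' (t' u x ω)) / 2) ^ 2) := eb.pow 2
  -- the bound on `f`
  have hf2 : ∀ u x ω, ((be b θ (t u x ω) - be b θ' (t' u x ω)) *
      ((be b θ (t u x ω) + be b θ' (t' u x ω)) / 2) * (χ u x ω + χ' u x ω)) ^ 2 ≤
      (be b θ (t u x ω) - be b θ' (t' u x ω)) ^ 2 * (χ u x ω + χ' u x ω) ^ 2 := by
    intro u x ω
    have h1 := hβ u x ω
    have h2 := hβ' u x ω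
    have h3 : ((be b θ (t u x ω) + be b θ' (t' u x ω)) / 2) ^ 2 ≤ 1 :=
      pow_le_one₀ (by linarith) (by linarith)
    calc _ = ((be b θ (t u x ω) + be b θ' (t' u x ω)) / 2) ^ 2 *
        ((be b θ (t u x ω) - be b θ' (t' u x ω)) ^ 2 * (χ u x ω + χ' u x ω) ^ 2) := by ring
      _ ≤ 1 * ((be b θ (t u x ω) - be b θ' (t' u x ω)) ^ 2 * (χ u x ω + χ' u x ω) ^ 2) :=
        mul_le_mul_of_nonneg_right h3 (by positivity)
      _ = _ := one_mul _
  have hδ1 : ∀ u x ω, (be b θ (t u x ω) - be b θ' (t' u x ω)) ^ 2 ≤ 1 := by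
    intro u x ω
    have h1 := hβ u x ω
    have h2 := hβ' u x ω
    rw [sq_le_one_iff_abs_le_one, abs_le]
    constructor <;> linarith
  have lf : ∀ u x, T.G.Adj u x → MemLp (fun ω => (be b θ (t u x ω) - be b θ' (t' u x ω)) *
      ((be b θ (t u x ω) + be b θ' (t' u x ω)) / 2) * (χ u x ω + χ' u x ω)) 2 (iid V) := by
    intro u x h
    refine ((lχ u x h).add (lχ' u x h)).of_le (ef.meas u x).aestronglyMeasurable
      (ae_of_all _ fun ω => ?_)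
    rw [Real.norm_eq_abs, Real.norm_eq_abs, Pi.add_apply]
    refine sq_le_sq.mp ?_
    refine (hf2 u x ω).trans ?_
    calc _ ≤ 1 * (χ u x ω + χ' u x ω) ^ 2 :=
          mul_le_mul_of_nonneg_right (hδ1 u x ω) (sq_nonneg _)
      _ = _ := one_mul _
  have hUres := hUb V T _ _ _ eU ef eε (fun u x h => (lχ u x h).sub (lχ' u x h)) lf
    (fun u x ω => by
      have h1 := hβ u x ω
      have h2 := hβ' u x ω
      have h3 : be b θ (t u x ω) ^ 2 ≤ 1 := pow_le_one₀ h1.1 h1.2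
      have h4 : be b θ' (t' u x ω) ^ 2 ≤ 1 := pow_le_one₀ h2.1 h2.2
      have h5 := sq_nonneg (be b θ (t u x ω))
      have h6 := sq_nonneg (be b θ' (t' u x ω))
      constructor <;> linarith)
    (fun u x h => (hrec u x h).mono fun ω hω => hω.1) u x hux
  -- the bound on `N`
  have lN : ∀ u x, T.G.Adj u x →
      MemLp (fun ω => χ u x ω + χ' u x ω - 2 * S u x ω) 2 (iid V) := fun u x h =>
    ((lχ u x h).add (lχ' u x h)).sub ((lS u x h).const_mul 2)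
  have hbd : ∀ lam : ℝ, 0 < lam → ∀ u x ω, |(be b θ (t u x ω) + be b θ' (t' u x ω)) / 2 *
      (be b θ (t u x ω) - be b θ' (t' u x ω)) * (χ u x ω - χ' u x ω) +
      (be b θ (t u x ω) - be b θ' (t' u x ω)) ^ 2 / 4 *
          (χ u x ω + χ' u x ω + 2 * S u x ω)| ≤
      lam / 2 * (be b θ (t u x ω) - be b θ' (t' u x ω)) ^ 2 +
        1 / (2 * lam) * (χ u x ω - χ' u x ω) ^ 2 +
        (be b θ (t u x ω) - be b θ' (t' u x ω)) ^ 2 * (χ u x ω + χ' u x ω) :=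
    fun lam hlam u x ω => h_bound hlam (hβ u x ω).1 (hβ u x ω).2 (hβ' u x ω).1 (hβ' u x ω).2
      (hS u x ω).1 (hS u x ω).2
  have hedge : ∀ u x, T.G.Adj u x → _ := fun u x (h : T.G.Adj u x) =>
    edge (P := iid V) (K := K) (ρ := ρ) (p := p) (C2 := 2 * b + 128) (Θ := (θ - θ') ^ 2)
      (t := t u x) (t' := t' u x) (χ := χ u x) (χ' := χ' u x)
      (δ := fun ω => be b θ (t u x ω) - be b θ' (t' u x ω))
      hK (by positivity) (sq_nonneg _) hρ hp (R.equi_t.meas u x) (R'.equi_t.meas u x)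
      (R.equi_χ.meas u x) (R'.equi_χ.meas u x) (eδ.meas u x) (R.t1 u x) (R'.t1 u x)
      (hδ1 u x) (hlip u x) (R.χ1 u x) (R'.χ1 u x) (R.int_χ u x h) (R'.int_χ u x h)
      (R.mom_χ u x h) (R'.mom_χ u x h) (R.tail_t u x h p (by linarith))
      (R'.tail_t u x h p (by linarith)) (R.tail_χ u x h p hp) (R'.tail_χ u x h p hp)
  have ih : ∀ u x, T.G.Adj u x → Integrable (fun ω => (be b θ (t u x ω) +
      be b θ' (t' u x ω)) / 2 *
      (be b θ (t u x ω) - be b θ' (t' u x ω)) * (χ u x ω - χ' u x ω) +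
      (be b θ (t u x ω) - be b θ' (t' u x ω)) ^ 2 / 4 *
          (χ u x ω + χ' u x ω + 2 * S u x ω)) (iid V) := by
    intro u x h
    obtain ⟨⟨i1, _⟩, ⟨i2, _⟩, _⟩ := hedge u x h
    have i3 : Integrable (fun ω => (χ u x ω - χ' u x ω) ^ 2) (iid V) :=
      ((lχ u x h).sub (lχ' u x h)).integrable_sq
    refine (((i1.const_mul (1 / 2)).add (i3.const_mul (1 / (2 * 1)))).add i2).mono'
      (eh.meas u x).aestronglyMeasurable (ae_of_all _ fun ω => ?_)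
    rw [Real.norm_eq_abs]
    exact hbd 1 one_pos u x ω
  have hNres := hNb V T ρ hρ hρ1 _ _ _ _ eN eh ew eβ lN ih
    (fun u x ω => by linarith [(hS u x ω).2]) hβ
    (fun u x ω => ⟨sq_nonneg _, by
      have h1 := hβ u x ω
      have h2 := hβ' u x ω
      exact pow_le_pow_left₀ (by linarith) (by linarith) 2⟩)
    (fun u x h => (hrec u x h).mono fun ω hω => hω.2) R.ray p hp u x hux
  -- numbers
  obtain ⟨⟨i1, b1⟩, ⟨i2, b2⟩, ⟨i3, b3⟩⟩ := hedge u x hux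
  have iU : Integrable (fun ω => (χ u x ω - χ' u x ω) ^ 2) (iid V) :=
    ((lχ u x hux).sub (lχ' u x hux)).integrable_sq
  have hlog : 0 ≤ Real.log p := Real.log_nonneg (by linarith)
  rw [← hC3] at b1 b2 b3
  have hmean : ∫ ω, (χ u x ω - χ' u x ω) ∂(iid V) =
      ∫ ω, χ u x ω ∂(iid V) - ∫ ω, χ' u x ω ∂(iid V) :=
    integral_sub ((lχ u x hux).integrable one_le_two) ((lχ' u x hux).integrable one_le_two)
  rw [hmean] at hUres
  have hD0 : 0 ≤ ∫ ω, (t u x ω - t' u x ω) ^ 2 ∂(iid V) := integral_nonneg fun ω => sq_nonneg _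
  refine final_num (J := ∫ ω, |(be b θ (t u x ω) + be b θ' (t' u x ω)) / 2 *
      (be b θ (t u x ω) - be b θ' (t' u x ω)) * (χ u x ω - χ' u x ω) +
      (be b θ (t u x ω) - be b θ' (t' u x ω)) ^ 2 / 4 *
          (χ u x ω + χ' u x ω + 2 * S u x ω)| ∂(iid V))
    (Q := Real.sqrt (∫ ω, (χ u x ω + χ' u x ω - 2 * S u x ω) ^ 2 ∂(iid V)))
    hρ hρ1 hp hK2 (by positivity) hK hD0 (sq_nonneg _) rfl rfl (sq_nonneg _) ?_ ?_ hNres
  · -- the bound on `∫ |h|`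
    have hlam0 : 0 < 1 / ρ + Real.log p := by positivity
    have hρlam : 1 / ρ ≤ 1 / ρ + Real.log p := by linarith
    generalize 1 / ρ + Real.log p = lam at *
    have j1 : ∫ ω, |(be b θ (t u x ω) + be b θ' (t' u x ω)) / 2 *
      (be b θ (t u x ω) - be b θ' (t' u x ω)) * (χ u x ω - χ' u x ω) +
      (be b θ (t u x ω) - be b θ' (t' u x ω)) ^ 2 / 4 *
          (χ u x ω + χ' u x ω + 2 * S u x ω)| ∂(iid V) ≤
        lam / 2 * ∫ ω, (be b θ (t u x ω) - be b θ' (t' u x ω)) ^ 2 ∂(iid V) +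
        1 / (2 * lam) * ∫ ω, (χ u x ω - χ' u x ω) ^ 2 ∂(iid V) +
        ∫ ω, (be b θ (t u x ω) - be b θ' (t' u x ω)) ^ 2 * (χ u x ω + χ' u x ω) ∂(iid V) := by
      have k1 := i1.const_mul (lam / 2)
      have k2 := iU.const_mul (1 / (2 * lam))
      have k12 : Integrable (fun ω => lam / 2 * (be b θ (t u x ω) - be b θ' (t' u x ω)) ^ 2 +
        1 / (2 * lam) * (χ u x ω - χ' u x ω) ^ 2) (iid V) := k1.add k2
      rw [← integral_const_mul, ← integral_const_mul, ← integral_add k1 k2,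
        ← integral_add k12 i2]
      exact integral_mono (ih u x hux).abs (k12.add i2) fun ω => hbd lam hlam0 u x ω
    have j2 : ∫ ω, ((be b θ (t u x ω) - be b θ' (t' u x ω)) *
        ((be b θ (t u x ω) + be b θ' (t' u x ω)) / 2) * (χ u x ω + χ' u x ω)) ^ 2 ∂(iid V) ≤
        ∫ ω, (be b θ (t u x ω) - be b θ' (t' u x ω)) ^ 2 * (χ u x ω + χ' u x ω) ^ 2 ∂(iid V) :=
      integral_mono (lf u x hux).integrable_sq i3 fun ω => hf2 u x ω
    have hX0 : 0 ≤ (θ - θ') ^ 2 + min (p * ρ) 1 * ∫ ω, (t u x ω - t' u x ω) ^ 2 ∂(iid V) :=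
      add_nonneg (sq_nonneg _) (mul_nonneg (le_min (by positivity) zero_le_one) hD0)
    have he0 : 0 < Real.exp (-p / 2) := Real.exp_pos _
    generalize Real.exp (-p / 2) = e at *
    generalize (θ - θ') ^ 2 + min (p * ρ) 1 * ∫ ω, (t u x ω - t' u x ω) ^ 2 ∂(iid V) = X at *
    have hU20 := sq_nonneg (∫ ω, χ u x ω ∂(iid V) - ∫ ω, χ' u x ω ∂(iid V))
    generalize (∫ ω, χ u x ω ∂(iid V) - ∫ ω, χ' u x ω ∂(iid V)) ^ 2 = U2 at *
    exact num4 hρ hρ1 hK1 hC30 hX0 he0 hU20 hρlam j1 b1 hUres j2 b3 b2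
  · -- the bound on the root
    obtain ⟨⟨k2, l2⟩, _⟩ := moments (P := iid V) hK hρ (R.equi_χ.meas u x) (R'.equi_χ.meas u x)
      (R.int_χ u x hux) (R'.int_χ u x hux) (R.mom_χ u x hux) (R'.mom_χ u x hux)
    refine Real.sqrt_le_iff.mpr ⟨by positivity, ?_⟩
    refine le_trans (integral_mono (lN u x hux).integrable_sq k2 fun ω => ?_) l2
    have h1 := hS u x ω
    exact pow_le_pow_left₀ (by linarith) (by linarith) 2

end PR

/-- The pair inequality. -/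
theorem pair_ineq {b : ℕ} (hb : 2 ≤ b) {K c M : ℝ} (hK : 1 ≤ K) (hc : 0 < c) (hM : 0 < M) :
    ∃ K' c' : ℝ, 0 < K' ∧ 0 < c' ∧ ∀ (V : Type u) (T : RTree V b) (ρ θ θ' : ℝ), 0 < ρ →
    ρ ≤ 1 / 2 → ∀ t χ t' χ' S : V → V → (V → I) → ℝ, Rep T K c M ρ θ t χ →
    Rep T K c M ρ θ' t' χ' → Equi T S →
    (∀ u x ω, 0 ≤ S u x ω ∧ 2 * S u x ω ≤ χ u x ω + χ' u x ω) →
    IsChi T (fun u x ω => be b θ (t u x ω) * be b θ' (t' u x ω)) S →
    ∀ p : ℝ, 2 ≤ p → ∀ u x, T.G.Adj u x →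
    ρ * ∫ ω, (χ u x ω + χ' u x ω - 2 * S u x ω) ∂(iid V) ≤
      K' * p * (1 + Real.log p) * ∫ ω, (t u x ω - t' u x ω) ^ 2 ∂(iid V) +
      K' * p ^ 2 / ρ ^ 3 * (Real.exp (-(c' * p)) + (θ - θ') ^ 2 +
        (∫ ω, χ u x ω ∂(iid V) - ∫ ω, χ' u x ω ∂(iid V)) ^ 2) :=
  PR.pair_core hb hK (U_bound hb) (N_bound hb hK hc hM)

end Vale.Agent.P161E
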