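import Vale.Agent.P161E.Defs2

/-!
# The finite-volume sampler
-/

open MeasureTheory Set Filter Topology
open scoped unitInterval ENNReal

namespace Vale.Agent.P161E

open Vale.Agent.P161

universe u

variable {V : Type u}

theorem abs_str_le (u : I) : 0 ≤ str u ∧ str u ≤ 1 / 5 := by
  unfold str
  split_ifs with h
  · refine ⟨by positivity, ?_⟩
    have : Real.sqrt (u : ℝ) ≤ 1 := Real.sqrt_le_one.mpr u.2.2
    linarith
  · norm_num

theorem str_sq_le (u : I) : str u ^ 2 ≤ (u : ℝ) / 25 := by
  unfold str
  have h0 : (0 : ℝ) ≤ u := u.2.1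
  split_ifs with h
  · rw [mul_pow, Real.sq_sqrt h0]
    linarith
  · rw [zero_pow (by norm_num)]
    positivity

theorem str_of_half_le {u : I} (h : 1 / 2 ≤ (u : ℝ)) : str u = 0 := by
  unfold str
  rw [if_neg (not_lt.mpr h)]

theorem ell_zero (z : I) : ell 0 z = 0 := by
  unfold ell
  simp

theorem measurable_str : Measurable str := by
  unfold str
  refine Measurable.ite ?_ (by fun_prop) measurable_const
  exact measurableSet_lt measurable_subtype_coe measurable_const

theorem measurable_ell₂ : Measurable (fun p : ℝ × I => ell p.1 p.2) := by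
  unfold ell
  fun_prop

theorem abs_param_le (μ : Measure (V → Bool)) [IsProbabilityMeasure μ] (D : Finset V)
    (U x : ℕ × V → I) (j : ℕ × V) : |param μ D U x j| ≤ 1 / 5 := by
  obtain ⟨h0, h1⟩ := abs_str_le (U j)
  unfold param
  rw [abs_mul, abs_of_nonneg h0]
  have := abs_mean_le μ D j.2 (fld U x j.1 (U j))
  calc str (U j) * |mean μ D j.2 (fld U x j.1 (U j))| ≤ 1 / 5 * 1 := by gcongr
    _ = 1 / 5 := by ring

theorem measurable_fld {Ω : Type*} [MeasurableSpace Ω] {U x : Ω → ℕ × V → I} {r : Ω → ℝ}
    (hU : Measurable U) (hx : Measurable x) (hr : Measurable r) (k : ℕ) :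
    Measurable (fun ω => fld (U ω) (x ω) k (r ω)) := by
  have hUj : ∀ j : ℕ × V, Measurable fun ω => U ω j := fun j => (measurable_pi_apply j).comp hU
  have hxj : ∀ j : ℕ × V, Measurable fun ω => x ω j := fun j => (measurable_pi_apply j).comp hx
  have he : ∀ j : ℕ × V, Measurable fun ω => ell (str (U ω j)) (x ω j) := fun j =>
    measurable_ell₂.comp ((measurable_str.comp (hUj j)).prodMk (hxj j))
  rw [measurable_pi_iff]
  intro w
  unfold fld
  refine Measurable.add ?_ ?_
  · exact Finset.measurable_fun_sum _ fun i _ => he (i, w)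
  · exact Measurable.ite (measurableSet_lt (measurable_subtype_coe.comp (hUj (k, w))) hr)
      (he (k, w)) measurable_const

theorem measurable_param {Ω : Type*} [MeasurableSpace Ω] (μ : Measure (V → Bool))
    [IsProbabilityMeasure μ] (D : Finset V) {U x : Ω → ℕ × V → I}
    (hU : Measurable U) (hx : Measurable x) (j : ℕ × V) :
    Measurable (fun ω => param μ D (U ω) (x ω) j) := by
  have hUj : Measurable fun ω => U ω j := (measurable_pi_apply j).comp hU
  unfold param
  exact (measurable_str.comp hUj).mul ((measurable_mean μ D j.2).comp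
    (measurable_fld hU hx (measurable_subtype_coe.comp hUj) j.1))

theorem measurable_picard {Ω : Type*} [MeasurableSpace Ω] (μ : Measure (V → Bool))
    [IsProbabilityMeasure μ] (D : Finset V) {U s : Ω → ℕ × V → I}
    (hU : Measurable U) (hs : Measurable s) (n : ℕ) :
    Measurable (fun ω => picard μ D (U ω) (s ω) n) := by
  induction n with
  | zero => exact measurable_const
  | succ n ih =>
    rw [measurable_pi_iff]
    intro j
    exact measurable_sig.comp ((measurable_param μ D hU ih j).prodMk
      ((measurable_pi_apply j).comp hs))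

theorem measurable_sol {Ω : Type*} [MeasurableSpace Ω] (μ : Measure (V → Bool))
    [IsProbabilityMeasure μ] (D : Finset V) {U s : Ω → ℕ × V → I}
    (hU : Measurable U) (hs : Measurable s) :
    Measurable (fun ω => sol μ D (U ω) (s ω)) := by
  rw [measurable_pi_iff]
  intro j
  exact (measurable_pi_apply j).comp (measurable_picard μ D hU hs _)

namespace PicAux

/-- the fields before the site `(k, v)` only use the signals before it -/
theorem fld_congr {D : Finset V} {U U' x x' : ℕ × V → I} {k : ℕ} {r r' : ℝ} {w : V}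
    (h0 : ∀ i < k, U (i, w) = U' (i, w) ∧ x (i, w) = x' (i, w))
    (h1 : (U (k, w) : ℝ) < r → U (k, w) = U' (k, w) ∧ x (k, w) = x' (k, w))
    (h2 : (U (k, w) : ℝ) < r ↔ (U' (k, w) : ℝ) < r') :
    fld U x k r w = fld U' x' k r' w := by
  unfold fld
  congr 1
  · refine Finset.sum_congr rfl fun i hi => ?_
    obtain ⟨e1, e2⟩ := h0 i (Finset.mem_range.mp hi)
    rw [e1, e2]
  · by_cases h : (U (k, w) : ℝ) < r
    · obtain ⟨e1, e2⟩ := h1 h
      rw [if_pos h, if_pos (h2.mp h), e1, e2]
    · rw [if_neg h, if_neg (fun h' => h (h2.mpr h'))]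

theorem param_congr {μ : Measure (V → Bool)} {D : Finset V} {U U' x x' : ℕ × V → I} {k : ℕ}
    {v : V} (hU : U (k, v) = U' (k, v))
    (h0 : ∀ i < k, ∀ w ∈ D, U (i, w) = U' (i, w) ∧ x (i, w) = x' (i, w))
    (h1 : ∀ w ∈ D, (U (k, w) : ℝ) < U (k, v) → U (k, w) = U' (k, w) ∧ x (k, w) = x' (k, w))
    (h2 : ∀ w ∈ D, (U (k, w) : ℝ) < U (k, v) ↔ (U' (k, w) : ℝ) < U' (k, v)) :
    param μ D U x (k, v) = param μ D U' x' (k, v) := by
  unfold param
  rw [hU]
  congr 1
  apply mean_congr
  intro w hw
  exact fld_congr (D := D) (fun i hi => h0 i hi w hw)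
    (by simpa [← hU] using h1 w hw) (by simpa [← hU] using h2 w hw)

open Classical in
/-- the number of sites before `(k, v)` -/
noncomputable def rk (D : Finset V) (U : ℕ × V → I) (k : ℕ) (v : V) : ℕ :=
  k * D.card + (D.filter (fun w => U (k, w) < U (k, v))).card

theorem rk_lt {D : Finset V} {U : ℕ × V → I} {k : ℕ} {v : V} (hv : v ∈ D) :
    rk D U k v < (k + 1) * D.card := by
  classical
  have hcard : (D.filter (fun w' => U (k, w') < U (k, v))).card < D.card := by
    apply Finset.card_lt_card
    refine ⟨Finset.filter_subset _ _, fun hsub => ?_⟩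
    have := Finset.mem_filter.mp (hsub hv)
    exact lt_irrefl _ this.2
  unfold rk
  have : (k + 1) * D.card = k * D.card + D.card := Nat.succ_mul _ _
  have e : (D.filter (fun w' => U (k, w') < U (k, v))).card =
    (Finset.filter (fun w ↦ U (k, w) < U (k, v)) D).card := by congr
  omega

theorem rk_lt_of_lt {D : Finset V} {U : ℕ × V → I} {i k : ℕ} {v w : V} (hw : w ∈ D)
    (h : i < k) : rk D U i w < rk D U k v := by
  have h1 := rk_lt (U := U) (k := i) hw
  have h2 : (i + 1) * D.card ≤ k * D.card := Nat.mul_le_mul_right _ h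
  have h3 : k * D.card ≤ rk D U k v := by unfold rk; omega
  omega

theorem rk_lt_of_label {D : Finset V} {U : ℕ × V → I} {k : ℕ} {v w : V} (hw : w ∈ D)
    (h : U (k, w) < U (k, v)) : rk D U k w < rk D U k v := by
  classical
  unfold rk
  have : (D.filter (fun w' => U (k, w') < U (k, w))).card <
      (D.filter (fun w' => U (k, w') < U (k, v))).card := by
    apply Finset.card_lt_card
    refine ⟨fun w' hw' => ?_, fun hsub => ?_⟩
    · have := Finset.mem_filter.mp hw'
      exact Finset.mem_filter.mpr ⟨this.1, this.2.trans h⟩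
    · have := Finset.mem_filter.mp (hsub (Finset.mem_filter.mpr ⟨hw, h⟩))
      exact lt_irrefl _ this.2
  have e1 : (D.filter (fun w' => U (k, w') < U (k, w))).card =
    (Finset.filter (fun w' ↦ U (k, w') < U (k, w)) D).card := by congr
  have e2 : (D.filter (fun w' => U (k, w') < U (k, v))).card =
    (Finset.filter (fun w' ↦ U (k, w') < U (k, v)) D).card := by congr
  omega

/-- the Picard iterates stabilise -/
theorem picard_stab (μ : Measure (V → Bool)) (D : Finset V) (U s : ℕ × V → I) (n : ℕ) :
    ∀ (k : ℕ) (v : V), v ∈ D → rk D U k v < n → ∀ m, n ≤ m →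
      picard μ D U s m (k, v) = picard μ D U s n (k, v) := by
  induction n with
  | zero => intro k v _ h; omega
  | succ n ih =>
    intro k v hv hn m hm
    obtain ⟨m, rfl⟩ : ∃ m', m = m' + 1 := ⟨m - 1, by omega⟩
    show sig (param μ D U (picard μ D U s m) (k, v)) (s (k, v)) =
      sig (param μ D U (picard μ D U s n) (k, v)) (s (k, v))
    congr 1
    apply param_congr rfl
    · intro i hi w hw
      refine ⟨rfl, ih i w hw ?_ m (by omega)⟩
      have := rk_lt_of_lt (U := U) (v := v) hw hi
      omega
    · intro w hw hlt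
      refine ⟨rfl, ih k w hw ?_ m (by omega)⟩
      have := rk_lt_of_label hw (show U (k, w) < U (k, v) from hlt)
      omega
    · intro w _
      exact Iff.rfl

end PicAux

open PicAux

/-- the sampler solves its equations -/
theorem sol_fix (μ : Measure (V → Bool)) (D : Finset V) (U s : ℕ × V → I)
    (k : ℕ) (v : V) (hv : v ∈ D) :
    sol μ D U s (k, v) = sig (param μ D U (sol μ D U s) (k, v)) (s (k, v)) := by
  have h1 := rk_lt (U := U) (k := k) hv
  have e1 : sol μ D U s (k, v) = picard μ D U s ((k + 1) * D.card + 1) (k, v) :=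
    (picard_stab μ D U s _ k v hv h1 _ (Nat.le_succ _)).symm
  rw [e1]
  show sig (param μ D U (picard μ D U s ((k + 1) * D.card)) (k, v)) (s (k, v)) = _
  congr 1
  apply param_congr rfl
  · intro i hi w hw
    refine ⟨rfl, ?_⟩
    exact picard_stab μ D U s _ i w hw (rk_lt hw) _
      (Nat.mul_le_mul_right _ (by omega))
  · intro w hw _
    exact ⟨rfl, rfl⟩
  · intro w _
    exact Iff.rfl

/-- induction along the order of the sites -/
theorem site_induction (D : Finset V) (U : ℕ × V → I) {p : ℕ → V → Prop}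
    (h : ∀ k, ∀ v ∈ D, (∀ i < k, ∀ w ∈ D, p i w) →
      (∀ w ∈ D, (U (k, w) : ℝ) < U (k, v) → p k w) → p k v) :
    ∀ k, ∀ v ∈ D, p k v := by
  have key : ∀ n k v, v ∈ D → rk D U k v < n → p k v := by
    intro n
    induction n with
    | zero => intro k v _ h; omega
    | succ n ih =>
      intro k v hv hn
      apply h k v hv
      · intro i hi w hw
        refine ih i w hw ?_
        have := rk_lt_of_lt (U := U) (v := v) hw hi
        omega
      · intro w hw hlt
        refine ih k w hw ?_
        have := rk_lt_of_label hw (show U (k, w) < U (k, v) from hlt)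
        omega
  exact fun k v hv => key _ k v hv (Nat.lt_succ_self _)

/-- exactness: any solution of the equations in the volume `D` is the sampler -/
theorem sol_eq {μ : Measure (V → Bool)} {D : Finset V} {U s x : ℕ × V → I}
    (h : ∀ k, ∀ v ∈ D, x (k, v) = sig (param μ D U x (k, v)) (s (k, v)))
    (k : ℕ) (v : V) (hv : v ∈ D) : sol μ D U s (k, v) = x (k, v) := by
  refine site_induction D U (p := fun k v => sol μ D U s (k, v) = x (k, v)) ?_ k v hv
  intro k v hv h0 h1
  rw [h k v hv, sol_fix μ D U s k v hv]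
  congr 1
  apply param_congr rfl
  · exact fun i hi w hw => ⟨rfl, h0 i hi w hw⟩
  · exact fun w hw hlt => ⟨rfl, h1 w hw hlt⟩
  · exact fun w _ => Iff.rfl

/-- causality in the labels: nor on the labels of the sites after `(k, r)` -/
theorem sol_causal_label (μ : Measure (V → Bool)) (D : Finset V) (U U' s s' : ℕ × V → I)
    (k : ℕ) (r : ℝ)
    (h : ∀ i w, w ∈ D → (i < k ∨ (i = k ∧ (U (i, w) : ℝ) < r)) →
      s (i, w) = s' (i, w) ∧ U (i, w) = U' (i, w))
    (h' : ∀ w ∈ D, (U (k, w) : ℝ) < r ↔ (U' (k, w) : ℝ) < r) :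
    ∀ i w, w ∈ D → (i < k ∨ (i = k ∧ (U (i, w) : ℝ) < r)) →
      sol μ D U s (i, w) = sol μ D U' s' (i, w) := by
  intro i w hw
  refine site_induction D U (p := fun i w => (i < k ∨ (i = k ∧ (U (i, w) : ℝ) < r)) →
      sol μ D U s (i, w) = sol μ D U' s' (i, w)) ?_ i w hw
  intro i v hv h0 h1 hb
  rw [sol_fix μ D U s i v hv, sol_fix μ D U' s' i v hv, (h i v hv hb).1]
  congr 1
  apply param_congr (h i v hv hb).2
  · intro l hl w hw
    have hb' : l < k ∨ (l = k ∧ (U (l, w) : ℝ) < r) := by
      rcases hb with hb | ⟨hb, _⟩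
      · exact Or.inl (hl.trans hb)
      · exact Or.inl (hb ▸ hl)
    exact ⟨(h l w hw hb').2, h0 l hl w hw hb'⟩
  · intro w hw hlt
    have hb' : i < k ∨ (i = k ∧ (U (i, w) : ℝ) < r) := by
      rcases hb with hb | ⟨hb, hb2⟩
      · exact Or.inl hb
      · exact Or.inr ⟨hb, hlt.trans hb2⟩
    exact ⟨(h i w hw hb').2, h1 w hw hlt hb'⟩
  · intro w hw
    rw [← (h i v hv hb).2]
    rcases hb with hb | ⟨hb, hb2⟩
    · rw [(h i w hw (Or.inl hb)).2]
    · subst hb
      by_cases hwr : (U (i, w) : ℝ) < r
      · rw [(h i w hw (Or.inr ⟨rfl, hwr⟩)).2]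
      · have h3 : ¬ ((U' (i, w) : ℝ) < r) := fun h3 => hwr ((h' w hw).mpr h3)
        constructor
        · intro h4; exact absurd (h4.trans hb2) hwr
        · intro h4; exact absurd (h4.trans hb2) h3

/-- causality: the signals at the sites before `(k, r)` do not depend on the seeds at the sites
after `(k, r)` -/
theorem sol_causal (μ : Measure (V → Bool)) (D : Finset V) (U s s' : ℕ × V → I) (k : ℕ) (r : ℝ)
    (h : ∀ i w, w ∈ D → (i < k ∨ (i = k ∧ (U (i, w) : ℝ) < r)) → s (i, w) = s' (i, w)) :
    ∀ i w, w ∈ D → (i < k ∨ (i = k ∧ (U (i, w) : ℝ) < r)) →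
      sol μ D U s (i, w) = sol μ D U s' (i, w) :=
  sol_causal_label μ D U U s s' k r (fun i w hw hb => ⟨h i w hw hb, rfl⟩)
    (fun _ _ => Iff.rfl)

theorem fld_translate (g : V ≃ V) (U x : ℕ × V → I) (k : ℕ) (r : ℝ) :
    fld (translateS g U) (translateS g x) k r = translate g (fld U x k r) := by
  funext w
  rfl

theorem picard_translate {μ : Measure (V → Bool)} {g : V ≃ V}
    (hg : Measure.map (translate g) μ = μ) (D : Finset V) (U s : ℕ × V → I) (n : ℕ) :
    picard μ (D.map g.toEmbedding) (translateS g U) (translateS g s) n =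
      translateS g (picard μ D U s n) := by
  induction n with
  | zero => rfl
  | succ n ih =>
    funext j
    obtain ⟨k, v⟩ := j
    obtain ⟨v, rfl⟩ := g.surjective v
    change sig (param μ (D.map g.toEmbedding) (translateS g U)
      (picard μ (D.map g.toEmbedding) (translateS g U) (translateS g s) n) (k, g v))
      (translateS g s (k, g v)) = translateS g (picard μ D U s (n + 1)) (k, g v)
    rw [ih]
    unfold param
    simp only
    rw [fld_translate, mean_translate hg]
    simp only [translateS, Equiv.symm_apply_apply]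
    rfl

theorem sol_translate {μ : Measure (V → Bool)} {g : V ≃ V}
    (hg : Measure.map (translate g) μ = μ) (D : Finset V) (U s : ℕ × V → I) :
    sol μ (D.map g.toEmbedding) (translateS g U) (translateS g s) =
      translateS g (sol μ D U s) := by
  funext j
  unfold sol
  rw [picard_translate hg, Finset.card_map]
  rfl

/-- the end of a round is the beginning of the next one -/
theorem fld_succ (U x : ℕ × V → I) (k : ℕ) (r : ℝ) (hr : 1 / 2 ≤ r) :
    fld U x k r = fld U x (k + 1) 0 := by
  funext w
  unfold fld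
  have h0 : ¬ ((U (k + 1, w) : ℝ) < 0) := not_lt.mpr (U (k + 1, w)).2.1
  rw [if_neg h0, add_zero, Finset.sum_range_succ]
  congr 1
  split_ifs with h
  · rfl
  · have h1 : 1 / 2 ≤ (U (k, w) : ℝ) := hr.trans (not_lt.mp h)
    rw [str_of_half_le h1, ell_zero]

end Vale.Agent.P161E
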