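import Vale.Agent.P161E.Limit

/-!
# Product measures: densities and columns
-/

open MeasureTheory Set Filter Topology ProbabilityTheory
open scoped unitInterval ENNReal

namespace Vale.Agent.P161E

open Vale.Agent.P161

universe u

namespace PlA

variable {ι : Type u}

theorem lintegral_prod_coord {X : Type*} [MeasurableSpace X] (P : ι → Measure X)
    [∀ i, IsProbabilityMeasure (P i)] (s : Finset ι) (h : ι → X → ℝ≥0∞)
    (hm : ∀ i, Measurable (h i)) :
    ∫⁻ y, ∏ i ∈ s, h i (y i) ∂(Measure.infinitePi P) = ∏ i ∈ s, ∫⁻ t, h i t ∂(P i) := by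
  have e := lintegral_prod_eq_prod_lintegral_of_indepFun (μ := Measure.infinitePi P) s
    (fun (i : ι) (y : ι → X) => h i (y i)) (iIndepFun_infinitePi hm)
    (fun i => (hm i).comp (measurable_pi_apply i))
  rw [e]
  refine Finset.prod_congr rfl fun i _ => ?_
  exact (measurePreserving_eval_infinitePi P i).lintegral_comp (hm i)

open Classical in
/-- extension by zero -/
noncomputable def ext0 (D : Finset ι) (y : D → ℝ) : ι → ℝ := fun i =>
  if h : i ∈ D then y ⟨i, h⟩ else 0

theorem measurable_ext0 (D : Finset ι) : Measurable (ext0 D) := by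
  rw [measurable_pi_iff]
  intro i
  unfold ext0
  by_cases h : i ∈ D
  · simp only [h, dif_pos]
    exact measurable_pi_apply _
  · simp only [h, not_false_eq_true, dif_neg]
    exact measurable_const

theorem ext0_restrict {D : Finset ι} {F : (ι → ℝ) → ℝ≥0∞} (hd : DependsOn F (D : Set ι))
    (Y : ι → ℝ) : F (ext0 D (D.restrict Y)) = F Y := by
  apply hd
  intro i hi
  unfold ext0
  rw [dif_pos (Finset.mem_coe.mp hi)]
  rfl

/-- A change of densities at finitely many coordinates. -/
theorem lintegral_density {ν : Measure ℝ} [IsProbabilityMeasure ν] (P : ι → Measure ℝ)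
    [∀ i, IsProbabilityMeasure (P i)] (D : Finset ι) (g : ι → ℝ → ℝ≥0∞)
    (hg : ∀ i, Measurable (g i)) (hP : ∀ i ∈ D, P i = ν.withDensity (g i))
    {F : (ι → ℝ) → ℝ≥0∞} (hF : Measurable F) (hd : DependsOn F (D : Set ι)) :
    ∫⁻ Y, F Y ∂(Measure.infinitePi P) =
      ∫⁻ Y, F Y * ∏ w ∈ D, g w (Y w) ∂(Measure.infinitePi fun _ : ι => ν) := by
  classical
  set G : (ι → ℝ) → ℝ≥0∞ := fun Y => ∏ w ∈ D, g w (Y w) with hG
  have hGm : Measurable G := Finset.measurable_fun_prod _ fun w _ =>
    (hg w).comp (measurable_pi_apply w)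
  set M : Measure (ι → ℝ) := (Measure.infinitePi fun _ : ι => ν).withDensity G with hM
  have key : M.map D.restrict = Measure.pi fun i : D => P i := by
    symm
    refine Measure.pi_eq fun t ht => ?_
    have hpre : (D.restrict : (ι → ℝ) → _) ⁻¹' (Set.univ.pi t) =
        Set.pi D (fun i => if h : i ∈ D then t ⟨i, h⟩ else Set.univ) := by
      ext Y
      simp only [Set.mem_preimage, Set.mem_pi, Set.mem_univ, forall_true_left, Finset.mem_coe,
        Subtype.forall]
      refine forall₂_congr fun i hi => ?_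
      rw [dif_pos hi]
      rfl
    have ht' : ∀ i, MeasurableSet (if h : i ∈ D then t ⟨i, h⟩ else Set.univ) := by
      intro i
      split_ifs with h
      · exact ht _
      · exact MeasurableSet.univ
    have hms : MeasurableSet (Set.pi (D : Set ι)
        (fun i => if h : i ∈ D then t ⟨i, h⟩ else Set.univ)) :=
      MeasurableSet.pi D.countable_toSet fun i _ => ht' i
    rw [Measure.map_apply (Finset.measurable_restrict D) (MeasurableSet.univ_pi ht), hpre, hM,
      withDensity_apply _ hms, ← lintegral_indicator hms]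
    have e1 : ∀ Y : ι → ℝ, (Set.pi (D : Set ι)
        (fun i => if h : i ∈ D then t ⟨i, h⟩ else Set.univ)).indicator G Y =
        ∏ i ∈ D, (if h : i ∈ D then t ⟨i, h⟩ else Set.univ).indicator (g i) (Y i) := by
      intro Y
      by_cases hY : Y ∈ Set.pi (D : Set ι)
        (fun i => if h : i ∈ D then t ⟨i, h⟩ else Set.univ)
      · rw [Set.indicator_of_mem hY]
        refine Finset.prod_congr rfl fun i hi => ?_
        rw [Set.indicator_of_mem (hY i (Finset.mem_coe.mpr hi))]
      · rw [Set.indicator_of_notMem hY]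
        rw [Set.mem_pi] at hY
        push Not at hY
        obtain ⟨i, hi, hi2⟩ := hY
        symm
        exact Finset.prod_eq_zero (Finset.mem_coe.mp hi) (Set.indicator_of_notMem hi2 _)
    simp_rw [e1]
    rw [lintegral_prod_coord (fun _ : ι => ν) D (fun i =>
      (if h : i ∈ D then t ⟨i, h⟩ else Set.univ).indicator (g i))
      (fun i => (hg i).indicator (ht' i)), ← Finset.prod_coe_sort]
    refine Finset.prod_congr rfl fun i _ => ?_
    rw [lintegral_indicator (ht' i), hP i i.2, withDensity_apply _ (ht i)]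
    simp only [Subtype.coe_eta, Finset.coe_mem, dite_true]
  have hFe : Measurable fun y : D → ℝ => F (ext0 D y) := hF.comp (measurable_ext0 D)
  calc ∫⁻ Y, F Y ∂(Measure.infinitePi P)
      = ∫⁻ Y, F (ext0 D (D.restrict Y)) ∂(Measure.infinitePi P) :=
        lintegral_congr fun Y => (ext0_restrict hd Y).symm
    _ = ∫⁻ y, F (ext0 D y) ∂(Measure.pi fun i : D => P i) :=
        lintegral_restrict_infinitePi P hFe
    _ = ∫⁻ Y, F (ext0 D (D.restrict Y)) ∂M := by
        rw [← key, lintegral_map hFe (Finset.measurable_restrict D)]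
    _ = ∫⁻ Y, F Y ∂M := lintegral_congr fun Y => ext0_restrict hd Y
    _ = ∫⁻ Y, F Y * ∏ w ∈ D, g w (Y w) ∂(Measure.infinitePi fun _ : ι => ν) := by
        rw [hM, lintegral_withDensity_eq_lintegral_mul _ hGm hF]
        refine lintegral_congr fun Y => ?_
        rw [Pi.mul_apply, mul_comm]

/-- two independent iid families form one iid family -/
theorem map_sumElim (A B : Type u) :
    Measure.map (fun q : (A → I) × (B → I) => Sum.elim q.1 q.2) ((iid A).prod (iid B)) =
      iid (A ⊕ B) := by
  have hm : Measurable (fun q : (A → I) × (B → I) => (Sum.elim q.1 q.2 : A ⊕ B → I)) := by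
    rw [measurable_pi_iff]
    rintro (i | i)
    · exact (measurable_pi_apply i).comp measurable_fst
    · exact (measurable_pi_apply i).comp measurable_snd
  refine Measure.eq_infinitePi _ ?_
  intro s t ht
  rw [Measure.map_apply hm (MeasurableSet.pi s.countable_toSet fun j _ => ht j)]
  have hpre : (fun q : (A → I) × (B → I) => (Sum.elim q.1 q.2 : A ⊕ B → I)) ⁻¹' (Set.pi s t) =
      (Set.pi s.toLeft fun i => t (Sum.inl i)) ×ˢ (Set.pi s.toRight fun i => t (Sum.inr i)) := by
    ext q
    simp only [Set.mem_preimage, Set.mem_pi, Finset.mem_coe, Set.mem_prod, Finset.mem_toLeft,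
      Finset.mem_toRight]
    constructor
    · intro h
      exact ⟨fun i hi => h _ hi, fun i hi => h _ hi⟩
    · rintro ⟨h1, h2⟩ (i | i) hi
      · exact h1 i hi
      · exact h2 i hi
  rw [hpre, Measure.prod_prod]
  unfold iid
  rw [Measure.infinitePi_pi _ fun i _ => ht _, Measure.infinitePi_pi _ fun i _ => ht _,
    Finset.prod_sum_eq_prod_toLeft_mul_prod_toRight]

variable {V : Type u}

/-- The labels and the seeds of one vertex. -/
def col (q : Om V) (v : V) : Om PUnit.{u + 1} := (fun j => q.1 (j.1, v), fun j => q.2 (j.1, v))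

theorem measurable_col : Measurable (col (V := V)) := by
  rw [measurable_pi_iff]
  intro v
  refine Measurable.prodMk ?_ ?_
  · rw [measurable_pi_iff]
    intro j
    exact (measurable_pi_apply (j.1, v)).comp measurable_fst
  · rw [measurable_pi_iff]
    intro j
    exact (measurable_pi_apply (j.1, v)).comp measurable_snd

/-- The columns are iid. -/
theorem map_col : Measure.map (col (V := V)) (PO V) =
    Measure.infinitePi fun _ : V => PO PUnit.{u + 1} := by
  -- the encoding of one column
  set S : Type u := (ℕ × PUnit.{u + 1}) ⊕ (ℕ × PUnit.{u + 1}) with hS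
  set enc1 : Om PUnit.{u + 1} → (S → I) := fun q => Sum.elim q.1 q.2 with henc1
  set dec1 : (S → I) → Om PUnit.{u + 1} := fun y => (fun i => y (Sum.inl i),
    fun i => y (Sum.inr i)) with hdec1
  have hem : Measurable enc1 := by
    rw [measurable_pi_iff]
    rintro (i | i)
    · exact (measurable_pi_apply i).comp measurable_fst
    · exact (measurable_pi_apply i).comp measurable_snd
  have hdm : Measurable dec1 :=
    (measurable_pi_iff.mpr fun i => measurable_pi_apply _).prodMk
      (measurable_pi_iff.mpr fun i => measurable_pi_apply _)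
  have h1 : Measure.map enc1 (PO PUnit.{u + 1}) = iid S := map_sumElim _ _
  have h2 : Measure.map dec1 (iid S) = PO PUnit.{u + 1} := by
    rw [← h1, Measure.map_map hdm hem]
    have : dec1 ∘ enc1 = id := rfl
    rw [this, Measure.map_id]
  -- the encoding of all columns
  set enc : Om V → ((ℕ × V) ⊕ (ℕ × V) → I) := fun q => Sum.elim q.1 q.2 with henc
  have hem' : Measurable enc := by
    rw [measurable_pi_iff]
    rintro (i | i)
    · exact (measurable_pi_apply i).comp measurable_fst
    · exact (measurable_pi_apply i).comp measurable_snd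
  have h3 : Measure.map enc (PO V) = iid ((ℕ × V) ⊕ (ℕ × V)) := map_sumElim _ _
  set φ : V × S → (ℕ × V) ⊕ (ℕ × V) := fun p => Sum.elim
    (fun j : ℕ × PUnit.{u + 1} => Sum.inl (j.1, p.1))
    (fun j : ℕ × PUnit.{u + 1} => Sum.inr (j.1, p.1)) p.2 with hφ
  have hφi : Function.Injective φ := by
    rintro ⟨v, (⟨i, _⟩ | ⟨i, _⟩)⟩ ⟨w, (⟨j, _⟩ | ⟨j, _⟩)⟩ h
    · simp only [hφ, Sum.elim_inl, Sum.inl.injEq, Prod.mk.injEq] at h
      obtain ⟨rfl, rfl⟩ := h
      rfl
    · simp [hφ] at h
    · simp [hφ] at h
    · simp only [hφ, Sum.elim_inr, Sum.inr.injEq, Prod.mk.injEq] at h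
      obtain ⟨rfl, rfl⟩ := h
      rfl
  have h4 : Measure.map (fun (y : (ℕ × V) ⊕ (ℕ × V) → I) (p : V × S) => y (φ p))
      (iid ((ℕ × V) ⊕ (ℕ × V))) = iid (V × S) := SeedAux.map_reindex φ hφi
  have hm4 : Measurable (fun (y : (ℕ × V) ⊕ (ℕ × V) → I) (p : V × S) => y (φ p)) := by
    fun_prop
  have h5 : Measure.map (MeasurableEquiv.curry V S I) (iid (V × S)) =
      Measure.infinitePi fun _ : V => iid S :=
    Measure.infinitePi_map_curry (fun (_ : V) (_ : S) => (volume : Measure I))
  have h6 : Measure.map (fun (e : V → S → I) v => dec1 (e v))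
      (Measure.infinitePi fun _ : V => iid S) =
      Measure.infinitePi fun _ : V => Measure.map dec1 (iid S) :=
    Measure.infinitePi_map_pi (fun _ : V => iid S) (fun _ => hdm)
  have hm6 : Measurable (fun (e : V → S → I) v => dec1 (e v)) :=
    measurable_pi_iff.mpr fun v => hdm.comp (measurable_pi_apply v)
  have e : (col (V := V)) = (fun (e : V → S → I) v => dec1 (e v)) ∘
      ((MeasurableEquiv.curry V S I) ∘ ((fun (y : (ℕ × V) ⊕ (ℕ × V) → I) (p : V × S) =>
        y (φ p)) ∘ enc)) := rfl
  rw [e, ← Measure.map_map hm6 ((MeasurableEquiv.measurable _).comp (hm4.comp hem')),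
    ← Measure.map_map (MeasurableEquiv.measurable _) (hm4.comp hem'),
    ← Measure.map_map hm4 hem', h3, h4, h5, h6]
  simp_rw [h2]

end PlA

end Vale.Agent.P161E
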