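import Vale.Agent.P161E.PlantedA
import Vale.Agent.P161E.Ortho

/-!
# The law of the field at one vertex at a fixed time
-/

open MeasureTheory Set Filter Topology ProbabilityTheory
open scoped unitInterval ENNReal

namespace Vale.Agent.P161E

open Vale.Agent.P161

universe u

namespace PlA

open LawAux

/-- the one-vertex set -/
def pt : Finset PUnit.{u + 1} := {PUnit.unit}

/-- a uniform spin at one vertex -/
noncomputable def μ0 : Measure (PUnit.{u + 1} → Bool) :=
  (1 / 2 : ℝ≥0∞) • Measure.dirac (fun _ => true) + (1 / 2 : ℝ≥0∞) • Measure.dirac (fun _ => false)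

instance : IsProbabilityMeasure μ0.{u} := by
  constructor
  unfold μ0
  simp only [Measure.coe_add, Measure.coe_smul, Pi.add_apply, Pi.smul_apply, measure_univ,
    smul_eq_mul, mul_one]
  exact ENNReal.add_halves 1

/-- the spin `s` at one vertex -/
noncomputable def dS (s : Bool) : Measure (PUnit.{u + 1} → Bool) := Measure.dirac (fun _ => s)

instance (s : Bool) : IsProbabilityMeasure (dS.{u} s) := by unfold dS; infer_instance

/-- the field at one vertex -/
noncomputable def fk (k : ℕ) (r : ℝ) (q : Om PUnit.{u + 1}) : ℝ := fld q.1 q.2 k r PUnit.unit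

theorem measurable_fk (k : ℕ) (r : ℝ) : Measurable (fk.{u} k r) :=
  (measurable_pi_apply PUnit.unit).comp
    (measurable_fld measurable_fst measurable_snd measurable_const k)

/-- the product of the normalising factors -/
noncomputable def Gc (k : ℕ) (r : ℝ) (U x : ℕ × PUnit.{u + 1} → I) : ℝ :=
  ∏ j ∈ beforeR U pt k r, cden (str (U j)) (x j)

theorem Gc_nonneg (k : ℕ) (r : ℝ) (U x : ℕ × PUnit.{u + 1} → I) : 0 ≤ Gc k r U x :=
  Finset.prod_nonneg fun _ _ => (cden_pos (abs_str_le _).1 (abs_str_le _).2 _).le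

theorem lintegral_fk (μ : Measure (PUnit.{u + 1} → Bool)) [IsProbabilityMeasure μ] (k : ℕ)
    (r : ℝ) {F : ℝ → ℝ≥0∞} (hF : Measurable F) :
    ∫⁻ y, F y ∂(Measure.map (fk k r) (PL μ)) =
      ∫⁻ U, ∫⁻ x, F (fk k r (U, x)) * ∫⁻ τ, ENNReal.ofReal
        (Gc k r U x * Real.exp (fk k r (U, x) * sg (τ PUnit.unit))) ∂μ
        ∂(iid (ℕ × PUnit.{u + 1})) ∂(iid (ℕ × PUnit.{u + 1})) := by
  rw [lintegral_map hF (measurable_fk k r),
    lintegral_PL μ (F := fun q => F (fk k r q)) (hF.comp (measurable_fk k r))]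
  refine lintegral_congr fun U => ?_
  have h1 := LawAux.lintegral_PP μ U (beforeR U pt k r) (G := fun _ x => F (fk k r (U, x)))
    ((hF.comp (measurable_fk k r)).comp (measurable_const.prodMk measurable_snd))
    (fun τ x x' h => by
      show F (fk k r (U, x)) = F (fk k r (U, x'))
      congr 1
      exact PicAux.fld_congr (D := pt)
        (fun l hl => ⟨rfl, h (l, PUnit.unit) (Finset.mem_coe.mpr
          (mem_beforeR.mpr ⟨Finset.mem_singleton_self _, Or.inl hl⟩))⟩)
        (fun hlt => ⟨rfl, h (k, PUnit.unit) (Finset.mem_coe.mpr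
          (mem_beforeR.mpr ⟨Finset.mem_singleton_self _, Or.inr ⟨rfl, hlt⟩⟩))⟩) Iff.rfl)
  rw [h1]
  refine lintegral_congr fun x => ?_
  have hmd : Measurable fun τ : PUnit.{u + 1} → Bool =>
      ∏ j ∈ beforeR U pt k r, ENNReal.ofReal (dens (str (U j)) (τ j.2) (x j)) :=
    Finset.measurable_fun_prod _ fun j _ => (Measurable.of_discrete (f := fun b : Bool =>
      ENNReal.ofReal (dens (str (U j)) b (x j)))).comp (measurable_pi_apply j.2)
  rw [lintegral_const_mul _ hmd]
  congr 1
  refine lintegral_congr fun τ => ?_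
  rw [← ENNReal.ofReal_prod_of_nonneg fun j _ =>
    (dens_pos (abs_str_le _).1 (abs_str_le _).2 _ _).le]
  congr 1
  rw [prod_beforeR]
  congr 1
  unfold wt pt
  rw [Finset.sum_singleton]
  rfl

theorem lintegral_μ0 (F : Bool → ℝ≥0∞) :
    ∫⁻ τ, F (τ PUnit.unit) ∂μ0.{u} = 1 / 2 * F true + 1 / 2 * F false := by
  unfold μ0
  rw [lintegral_add_measure, lintegral_smul_measure, lintegral_smul_measure, lintegral_dirac,
    lintegral_dirac, smul_eq_mul, smul_eq_mul]

/-- the observation law -/
noncomputable def nu (k : ℕ) (r : ℝ) : Measure ℝ := Measure.map (fk.{u} k r) (PL μ0)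

/-- the law of the field given the spin -/
noncomputable def PS (k : ℕ) (r : ℝ) (s : Bool) : Measure ℝ := Measure.map (fk.{u} k r) (PL (dS s))

instance (k : ℕ) (r : ℝ) : IsProbabilityMeasure (nu.{u} k r) :=
  Measure.isProbabilityMeasure_map (measurable_fk k r).aemeasurable

instance (k : ℕ) (r : ℝ) (s : Bool) : IsProbabilityMeasure (PS.{u} k r s) :=
  Measure.isProbabilityMeasure_map (measurable_fk k r).aemeasurable

theorem lintegral_nu (k : ℕ) (r : ℝ) {F : ℝ → ℝ≥0∞} (hF : Measurable F) :
    ∫⁻ y, F y ∂(nu.{u} k r) =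
      ∫⁻ U, ∫⁻ x, F (fk k r (U, x)) * ENNReal.ofReal
        (Gc k r U x * Real.cosh (fk k r (U, x)))
        ∂(iid (ℕ × PUnit.{u + 1})) ∂(iid (ℕ × PUnit.{u + 1})) := by
  unfold nu
  rw [lintegral_fk μ0 k r hF]
  refine lintegral_congr fun U => lintegral_congr fun x => ?_
  congr 1
  rw [lintegral_μ0 (fun b => ENNReal.ofReal (Gc k r U x * Real.exp (fk k r (U, x) * sg b)))]
  have hG := Gc_nonneg k r U x
  have h2 : (1 / 2 : ℝ≥0∞) = ENNReal.ofReal (1 / 2) := by
    rw [ENNReal.ofReal_div_of_pos (by norm_num)]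
    simp
  rw [h2, ← ENNReal.ofReal_mul (by norm_num), ← ENNReal.ofReal_mul (by norm_num),
    ← ENNReal.ofReal_add (by positivity) (by positivity)]
  congr 1
  rw [Real.cosh_eq]
  simp only [sg, if_true, mul_one]
  simp
  ring

theorem lintegral_PS (k : ℕ) (r : ℝ) (s : Bool) {F : ℝ → ℝ≥0∞} (hF : Measurable F) :
    ∫⁻ y, F y ∂(PS.{u} k r s) =
      ∫⁻ U, ∫⁻ x, F (fk k r (U, x)) * ENNReal.ofReal
        (Gc k r U x * Real.exp (fk k r (U, x) * sg s))
        ∂(iid (ℕ × PUnit.{u + 1})) ∂(iid (ℕ × PUnit.{u + 1})) := by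
  unfold PS
  rw [lintegral_fk (dS s) k r hF]
  refine lintegral_congr fun U => lintegral_congr fun x => ?_
  congr 1
  unfold dS
  rw [lintegral_dirac]

theorem one_add_tanh (s : Bool) (y : ℝ) :
    (1 + sg s * Real.tanh y) * Real.cosh y = Real.exp (y * sg s) := by
  have hc := (Real.cosh_pos y).ne'
  rw [Real.tanh_eq_sinh_div_cosh]
  have : (1 + sg s * (Real.sinh y / Real.cosh y)) * Real.cosh y =
      Real.cosh y + sg s * Real.sinh y := by field_simp
  rw [this]
  cases s
  · simp only [sg]
    rw [if_neg (by decide)]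
    rw [mul_neg, mul_one, ← Real.cosh_sub_sinh]
    ring
  · simp only [sg, if_true, mul_one, one_mul]
    exact Real.cosh_add_sinh y

theorem one_add_tanh_nonneg (s : Bool) (y : ℝ) : 0 ≤ 1 + sg s * Real.tanh y := by
  have h := one_add_tanh s y
  have hc := Real.cosh_pos y
  by_contra hneg
  push Not at hneg
  have := mul_neg_of_neg_of_pos hneg hc
  rw [h] at this
  exact absurd this (not_lt.mpr (Real.exp_pos _).le)

theorem measurable_tanh' : Measurable Real.tanh := by
  have : Real.tanh = fun x => Real.sinh x / Real.cosh x := by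
    funext x; exact Real.tanh_eq_sinh_div_cosh x
  rw [this]
  exact Real.measurable_sinh.div Real.measurable_cosh

/-- the likelihood ratio -/
noncomputable def gd (s : Bool) (y : ℝ) : ℝ≥0∞ := ENNReal.ofReal (1 + sg s * Real.tanh y)

theorem measurable_gd (s : Bool) : Measurable (gd s) :=
  ((measurable_tanh'.const_mul _).const_add 1).ennreal_ofReal

theorem PS_eq (k : ℕ) (r : ℝ) (s : Bool) :
    PS.{u} k r s = (nu.{u} k r).withDensity (gd s) := by
  refine Measure.ext_of_lintegral _ fun F hF => ?_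
  rw [lintegral_withDensity_eq_lintegral_mul _ (measurable_gd s) hF,
    lintegral_PS k r s hF, lintegral_nu k r ((measurable_gd s).mul hF)]
  refine lintegral_congr fun U => lintegral_congr fun x => ?_
  rw [Pi.mul_apply, mul_comm (gd s _) (F _), mul_assoc]
  congr 1
  unfold gd
  rw [← ENNReal.ofReal_mul (one_add_tanh_nonneg s _)]
  congr 1
  rw [← one_add_tanh s (fk k r (U, x))]
  ring

/-- the law of the fields given the spins -/
theorem map_fld_given {V : Type u} (τ : V → Bool) (k : ℕ) (r : ℝ) :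
    Measure.map (fun ω : Om V => fld ω.1 (xs (τ, ω)) k r) (PO V) =
      Measure.infinitePi fun v => PS.{u} k r (τ v) := by
  -- one vertex
  set yS : Bool → Om PUnit.{u + 1} → ℝ := fun s ω => fk k r (ω.1, xs ((fun _ => s), ω)) with hyS
  have hxm : ∀ s : Bool, Measurable fun ω : Om PUnit.{u + 1} =>
      ((ω.1, xs ((fun _ => s), ω)) : Om PUnit.{u + 1}) := fun s =>
    measurable_fst.prodMk (measurable_xs (τ := fun _ => fun _ => s) measurable_const
      measurable_fst measurable_snd)
  have hySm : ∀ s, Measurable (yS s) := fun s => (measurable_fk k r).comp (hxm s)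
  have hlaw : ∀ s, Measure.map (yS s) (PO PUnit.{u + 1}) = PS k r s := by
    intro s
    unfold PS PL
    rw [Measure.map_map (measurable_fk k r) measurable_pl]
    unfold dS
    have hd := Measure.dirac_prod (ν := PO PUnit.{u + 1}) (fun _ : PUnit.{u + 1} => s)
    rw [hd, Measure.map_map ((measurable_fk k r).comp measurable_pl)
      measurable_prodMk_left]
    rfl
  have e : (fun ω : Om V => fld ω.1 (xs (τ, ω)) k r) =
      (fun (c : V → Om PUnit.{u + 1}) v => yS (τ v) (c v)) ∘ col := rfl
  have hm : Measurable (fun (c : V → Om PUnit.{u + 1}) v => yS (τ v) (c v)) :=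
    measurable_pi_iff.mpr fun v => (hySm (τ v)).comp (measurable_pi_apply v)
  rw [e, ← Measure.map_map hm measurable_col, map_col,
    Measure.infinitePi_map_pi (fun _ : V => PO PUnit.{u + 1}) (fun v => hySm (τ v))]
  simp_rw [hlaw]

theorem measurable_fldq {V : Type u} (k : ℕ) (r : ℝ) :
    Measurable fun q : Om V => fld q.1 q.2 k r :=
  measurable_fld measurable_fst measurable_snd measurable_const k

theorem measurable_prod_gd {V : Type u} (D : Finset V) :
    Measurable fun p : (V → Bool) × (V → ℝ) => ∏ w ∈ D, gd (p.1 w) (p.2 w) := by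
  refine Finset.measurable_fun_prod _ fun w _ => ?_
  unfold gd
  exact (((measurable_sg.comp ((measurable_pi_apply w).comp measurable_fst)).mul
    (measurable_tanh'.comp ((measurable_pi_apply w).comp measurable_snd))).const_add
      1).ennreal_ofReal

theorem lintegral_gd {V : Type u} (μ : Measure (V → Bool)) [IsProbabilityMeasure μ]
    (D : Finset V) (Y : V → ℝ) :
    ∫⁻ τ, ∏ w ∈ D, gd (τ w) (Y w) ∂μ = ENNReal.ofReal (Lik μ D Y) := by
  unfold Lik
  rw [ofReal_integral_eq_lintegral_ofReal]
  · refine lintegral_congr fun τ => ?_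
    rw [ENNReal.ofReal_prod_of_nonneg fun w _ => one_add_tanh_nonneg (τ w) (Y w)]
    rfl
  · have hm : Measurable fun τ : V → Bool => ∏ w ∈ D, (1 + sg (τ w) * Real.tanh (Y w)) :=
      Finset.measurable_fun_prod _ fun w _ =>
        ((measurable_sg.comp (measurable_pi_apply w)).mul_const _).const_add 1
    refine Integrable.of_bound hm.aestronglyMeasurable (∏ _w ∈ D, 2) (ae_of_all _ fun τ => ?_)
    rw [Real.norm_eq_abs, Finset.abs_prod]
    refine Finset.prod_le_prod (fun _ _ => abs_nonneg _) fun w _ => ?_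
    refine (abs_add_le _ _).trans ?_
    rw [abs_one, abs_mul, abs_sg, one_mul]
    have := abs_lt.mpr ⟨Real.neg_one_lt_tanh (Y w), Real.tanh_lt_one (Y w)⟩
    linarith
  · exact ae_of_all _ fun τ => Finset.prod_nonneg fun w _ =>
      one_add_tanh_nonneg (τ w) (Y w)

theorem lintegral_given {V : Type u} (τ : V → Bool) (k : ℕ) (r : ℝ) (D : Finset V)
    {F : (V → ℝ) → ℝ≥0∞} (hF : Measurable F) (hd : DependsOn F (D : Set V)) :
    ∫⁻ ω, F (fld ω.1 (xs (τ, ω)) k r) ∂(PO V) =
      ∫⁻ Y, F Y * ∏ w ∈ D, gd (τ w) (Y w) ∂(Measure.infinitePi fun _ : V => nu.{u} k r) := by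
  have hmτ : Measurable fun ω : Om V => fld ω.1 (xs (τ, ω)) k r :=
    measurable_fld measurable_fst (measurable_xs (τ := fun _ => τ) measurable_const
      measurable_fst measurable_snd) measurable_const k
  rw [← lintegral_map hF hmτ, map_fld_given τ k r]
  exact lintegral_density (fun v => PS.{u} k r (τ v)) D (fun v => gd (τ v))
    (fun v => measurable_gd _) (fun v _ => PS_eq k r (τ v)) hF hd

theorem lintegral_fld {V : Type u} (μ : Measure (V → Bool)) [IsProbabilityMeasure μ] (k : ℕ)
    (r : ℝ) {F : (V → ℝ) → ℝ≥0∞} (hF : Measurable F) :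
    ∫⁻ Y, F Y ∂(Measure.map (fun q : Om V => fld q.1 q.2 k r) (PL μ)) =
      ∫⁻ τ, ∫⁻ ω, F (fld ω.1 (xs (τ, ω)) k r) ∂(PO V) ∂μ := by
  have hm : Measurable fun p : (V → Bool) × Om V => fld p.2.1 (xs p) k r :=
    measurable_fld (measurable_fst.comp measurable_snd) (measurable_xs measurable_fst
      (measurable_fst.comp measurable_snd) (measurable_snd.comp measurable_snd))
      measurable_const k
  have h1 : Measure.map (fun q : Om V => fld q.1 q.2 k r) (PL μ) =
      Measure.map (fun p : (V → Bool) × Om V => fld p.2.1 (xs p) k r) (μ.prod (PO V)) := by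
    unfold PL
    exact Measure.map_map (measurable_fldq k r) measurable_pl
  have h2 := lintegral_prod (μ := μ) (ν := PO V)
    (fun p : (V → Bool) × Om V => F (fld p.2.1 (xs p) k r)) (hF.comp hm).aemeasurable
  rw [h1, lintegral_map hF hm]
  exact h2

theorem lintegral_fld_dep {V : Type u} (μ : Measure (V → Bool)) [IsProbabilityMeasure μ] (k : ℕ)
    (r : ℝ) (D : Finset V) {F : (V → ℝ) → ℝ≥0∞} (hF : Measurable F)
    (hd : DependsOn F (D : Set V)) :
    ∫⁻ Y, F Y ∂(Measure.map (fun q : Om V => fld q.1 q.2 k r) (PL μ)) =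
      ∫⁻ Y, F Y * ENNReal.ofReal (Lik μ D Y) ∂(Measure.infinitePi fun _ : V => nu.{u} k r) := by
  rw [lintegral_fld μ k r hF, lintegral_congr fun τ => lintegral_given τ k r D hF hd,
    lintegral_lintegral_swap ((hF.comp measurable_snd).mul (measurable_prod_gd D)).aemeasurable]
  refine lintegral_congr fun Y => ?_
  have hmY : Measurable fun τ : V → Bool => ∏ w ∈ D, gd (τ w) (Y w) :=
    Finset.measurable_fun_prod _ fun w _ => (Measurable.of_discrete (f := fun b : Bool =>
      gd b (Y w))).comp (measurable_pi_apply w)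
  rw [lintegral_const_mul _ hmY, lintegral_gd]

/-- the fields at a fixed time are planted -/
theorem isPlanted_fld {V : Type u} (μ : Measure (V → Bool)) [IsProbabilityMeasure μ] (k : ℕ)
    (r : ℝ) : IsPlanted μ (nu.{u} k r)
      (Measure.map (fun q : Om V => fld q.1 q.2 k r) (PL μ)) where
  prob := Measure.isProbabilityMeasure_map (measurable_fldq k r).aemeasurable
  law := fun D _ hF hd => lintegral_fld_dep μ k r D hF hd

end PlA

end Vale.Agent.P161E
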