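import Vale.Agent.P161E.Spheres
import Vale.Agent.P161E.EquiAut

/-!
# The growth rate
-/

open MeasureTheory Set Filter Topology
open scoped unitInterval ENNReal

namespace Vale.Agent.P161E

open Vale.Agent.P161 Vale.Agent.P161.ExistAux

universe u

namespace Rate

open Dec Sph

variable {V : Type u} {b : ℕ} {T : RTree V b}

theorem ppN_mul (g h : V → V → ℝ) (n : ℕ) : ∀ v w,
    ppN T (fun u x => g u x * h u x) n v w = ppN T g n v w * ppN T h n v w := by
  induction n with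
  | zero => intro v w; show (1 : ℝ) = 1 * 1; ring
  | succ n ih =>
    intro v w
    show g v (nxt T v w) * h v (nxt T v w) * ppN T (fun u x => g u x * h u x) n (nxt T v w) w = _
    rw [ih]
    show _ = (g v (nxt T v w) * ppN T g n (nxt T v w) w) *
      (h v (nxt T v w) * ppN T h n (nxt T v w) w)
    ring

theorem pp_mul (g h : V → V → ℝ) (v w : V) :
    pp T (fun u x => g u x * h u x) v w = pp T g v w * pp T h v w := ppN_mul g h _ v w

theorem measurable_ppN {g : V → V → (V → I) → ℝ} (hg : ∀ u x, Measurable (g u x)) (n : ℕ) :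
    ∀ v w, Measurable fun ω => ppN T (fun u x => g u x ω) n v w := by
  induction n with
  | zero => intro v w; exact measurable_const
  | succ n ih => intro v w; exact (hg _ _).mul (ih _ _)

theorem measurable_pp {g : V → V → (V → I) → ℝ} (hg : ∀ u x, Measurable (g u x)) (v w : V) :
    Measurable fun ω => pp T (fun u x => g u x ω) v w := measurable_ppN hg _ v w

theorem nxt_spec {v w : V} {n : ℕ} (h : T.G.dist v w = n + 1) :
    T.G.Adj v (nxt T v w) ∧ w ∈ T.side v (nxt T v w) ∧ T.G.dist (nxt T v w) w = n := by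
  have hne : w ≠ v := by
    rintro rfl
    rw [SimpleGraph.dist_self] at h
    omega
  obtain ⟨y, hy1, hy2⟩ := nbr_exists T hne
  have hy3 : w ∈ T.side v y := hy2
  rw [nxt_eq hy1 hy3]
  refine ⟨hy1, hy3, ?_⟩
  have h1 : T.G.dist v w ≤ T.G.dist v y + T.G.dist y w := T.tree.1.dist_triangle
  rw [SimpleGraph.dist_eq_one_iff_adj.2 hy1] at h1
  rw [T.G.dist_comm (u := w), T.G.dist_comm (u := w)] at hy2
  omega

theorem ppN_map (φ : T.G ≃g T.G) (h : V → V → ℝ) (n : ℕ) : ∀ v w, T.G.dist v w = n →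
    ppN T h n (φ v) (φ w) = ppN T (fun u x => h (φ u) (φ x)) n v w := by
  induction n with
  | zero => intro v w _; rfl
  | succ n ih =>
    intro v w hvw
    obtain ⟨h1, h2, h3⟩ := nxt_spec hvw
    have h4 : nxt T (φ v) (φ w) = φ (nxt T v w) :=
      nxt_eq (φ.map_adj_iff.mpr h1) ((side_map φ _ _ _).mpr h2)
    show h (φ v) (nxt T (φ v) (φ w)) * ppN T h n (nxt T (φ v) (φ w)) (φ w) = _
    rw [h4, ih _ _ h3]
    rfl

theorem pp_map (φ : T.G ≃g T.G) (h : V → V → ℝ) (v w : V) :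
    pp T h (φ v) (φ w) = pp T (fun u x => h (φ u) (φ x)) v w := by
  unfold pp
  rw [dist_iso T.tree.1]
  exact ppN_map φ h _ v w rfl

theorem af_mem {θ t : ℝ} (hθ : θ ^ 2 ≤ 1 / 2) (ht : |t| ≤ 1) : 0 ≤ af θ t ∧ af θ t ≤ 1 := by
  have h1 : t ^ 2 ≤ 1 := by
    rw [← sq_abs]; exact pow_le_one₀ (abs_nonneg t) ht
  have h2 : θ ^ 2 * t ^ 2 ≤ 1 / 2 := by nlinarith [sq_nonneg θ, sq_nonneg t]
  have h3 : θ ^ 2 * t ^ 2 ≤ t ^ 2 := by nlinarith [sq_nonneg θ, sq_nonneg t]
  unfold af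
  constructor
  · apply div_nonneg <;> linarith
  · rw [div_le_one (by linarith)]; linarith

theorem measurable_af (θ : ℝ) : Measurable (af θ) := by
  unfold af
  fun_prop

/-- the algebra of one summand -/
theorem term_le {m m' X X' : ℝ} (hm : |m| ≤ 1) (hm' : |m'| ≤ 1) :
    ((1 - m ^ 2) * X - (1 - m' ^ 2) * X') ^ 2 ≤ 2 * (X - X') ^ 2 + 8 * ((m - m') ^ 2 * X' ^ 2) := by
  have h1 : m ^ 2 ≤ 1 := by rw [← sq_abs]; exact pow_le_one₀ (abs_nonneg m) hm
  have h2 : (m + m') ^ 2 ≤ 4 := by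
    have h3 := abs_le.mp hm
    have h4 := abs_le.mp hm'
    nlinarith
  have h3 : ((1 - m ^ 2) * X - (1 - m' ^ 2) * X') ^ 2 ≤
      2 * ((1 - m ^ 2) * (X - X')) ^ 2 + 2 * ((m' ^ 2 - m ^ 2) * X') ^ 2 := by
    nlinarith [sq_nonneg ((1 - m ^ 2) * (X - X') - (m' ^ 2 - m ^ 2) * X')]
  have h4 : ((1 - m ^ 2) * (X - X')) ^ 2 ≤ (X - X') ^ 2 := by
    rw [mul_pow]
    have : (1 - m ^ 2) ^ 2 ≤ 1 := by nlinarith [sq_nonneg m]
    exact mul_le_of_le_one_left (sq_nonneg _) this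
  have h5 : ((m' ^ 2 - m ^ 2) * X') ^ 2 ≤ 4 * ((m - m') ^ 2 * X' ^ 2) := by
    have h6 : ((m' ^ 2 - m ^ 2) * X') ^ 2 = (m + m') ^ 2 * ((m - m') ^ 2 * X' ^ 2) := by ring
    rw [h6]
    exact mul_le_mul_of_nonneg_right h2 (by positivity)
  linarith

/-- a sum in `[0, ∞]` of integrals of nonnegative real functions -/
theorem tsum_lintegral [Countable V] {F : V → (V → I) → ℝ} {G : (V → I) → ℝ}
    (hF : ∀ w, Measurable (F w)) (h0 : ∀ w ω, 0 ≤ F w ω)
    (h : ∀ᵐ ω ∂(iid V), HasSum (fun w => F w ω) (G ω)) :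
    ∑' w, ∫⁻ ω, ENNReal.ofReal (F w ω) ∂(iid V) = ∫⁻ ω, ENNReal.ofReal (G ω) ∂(iid V) := by
  rw [← lintegral_tsum fun w => (hF w).ennreal_ofReal.aemeasurable]
  refine lintegral_congr_ae ?_
  filter_upwards [h] with ω hω
  rw [← hω.tsum_eq, ENNReal.ofReal_tsum_of_nonneg (fun w => h0 w ω) hω.summable]

end Rate

open Rate Dec Sph in
/-- The growth rate. `C(v, w) = (1 - m v ^ 2) pp (θ af(t)) v w`, symmetric in `v, w`. -/
theorem rate_bound {b : ℕ} (hb : 2 ≤ b) : ∃ K : ℝ, 0 < K ∧ ∀ (V : Type u) (T : RTree V b)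
    (θ θ' : ℝ) (t χ t' χ' S : V → V → (V → I) → ℝ) (m m' : V → (V → I) → ℝ),
    0 ≤ θ → b * θ ^ 2 ≤ 1 → 0 ≤ θ' → b * θ' ^ 2 ≤ 1 →
    Equi T t → Equi T χ → Equi T t' → Equi T χ' → Equi T S →
    (∀ u x ω, |t u x ω| ≤ 1) → (∀ u x ω, |t' u x ω| ≤ 1) →
    (∀ u x ω, 1 ≤ χ u x ω) → (∀ u x ω, 1 ≤ χ' u x ω) →
    (∀ u x ω, 0 ≤ S u x ω ∧ 2 * S u x ω ≤ χ u x ω + χ' u x ω) →
    (∀ u x, T.G.Adj u x → Integrable (χ u x) (iid V)) →
    (∀ u x, T.G.Adj u x → Integrable (χ' u x) (iid V)) →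
    IsChi T (fun u x ω => be b θ (t u x ω) ^ 2) χ →
    IsChi T (fun u x ω => be b θ' (t' u x ω) ^ 2) χ' →
    IsChi T (fun u x ω => be b θ (t u x ω) * be b θ' (t' u x ω)) S →
    (∀ v, Measurable (m v)) → (∀ v, Measurable (m' v)) →
    (∀ v ω, |m v ω| ≤ 1) → (∀ v ω, |m' v ω| ≤ 1) →
    (∀ (φ : T.G ≃g T.G) (v : V), ∀ᵐ ω ∂(iid V), m (φ v) (translate φ.toEquiv ω) = m v ω) →
    (∀ (φ : T.G ≃g T.G) (v : V), ∀ᵐ ω ∂(iid V), m' (φ v) (translate φ.toEquiv ω) = m' v ω) →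
    (∀ v w, ∀ᵐ ω ∂(iid V),
      (1 - m' v ω ^ 2) * pp T (fun u x => θ' * af θ' (t' u x ω)) v w =
      (1 - m' w ω ^ 2) * pp T (fun u x => θ' * af θ' (t' u x ω)) w v) →
    ∀ v u x, T.G.Adj u x →
    ∑' w, ∫⁻ ω, ENNReal.ofReal
      (((1 - m v ω ^ 2) * pp T (fun u x => θ * af θ (t u x ω)) v w -
        (1 - m' v ω ^ 2) * pp T (fun u x => θ' * af θ' (t' u x ω)) v w) ^ 2 +
      ((1 - m' v ω ^ 2) * pp T (fun u x => θ' * af θ' (t' u x ω)) v w) ^ 2 *
        (m w ω - m' w ω) ^ 2) ∂(iid V) ≤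
    ENNReal.ofReal (K * ∫ ω, (χ u x ω + χ' u x ω - 2 * S u x ω) ∂(iid V)) +
    ∫⁻ ω, ENNReal.ofReal (K * (m v ω - m' v ω) ^ 2 * (1 + ∑ y ∈ T.nb v, χ' v y ω)) ∂(iid V) := by
  refine ⟨9, by norm_num, ?_⟩
  intro V T θ θ' t χ t' χ' S m m' hθ hθ1 hθ' hθ1' et eχ et' eχ' eS ht ht' hχ hχ' hS iχ iχ' lχ lχ'
    lS mm mm' hm hm' em em' hsym v u x hux
  have hcount := T.countable
  have hb0 : 0 < b := by omega
  have hb' : (2 : ℝ) ≤ b := by exact_mod_cast hb
  have hθ2 : θ ^ 2 ≤ 1 / 2 := by nlinarith [sq_nonneg θ]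
  have hθ2' : θ' ^ 2 ≤ 1 / 2 := by nlinarith [sq_nonneg θ']
  have hθ3 : θ ≤ 1 := by nlinarith
  have hθ3' : θ' ≤ 1 := by nlinarith
  -- the factors
  obtain ⟨g, hg⟩ : ∃ g : V → V → (V → I) → ℝ, g = fun u x ω => θ * af θ (t u x ω) := ⟨_, rfl⟩
  obtain ⟨g', hg'⟩ : ∃ g' : V → V → (V → I) → ℝ, g' = fun u x ω => θ' * af θ' (t' u x ω) :=
    ⟨_, rfl⟩
  have eg : Equi T g := by
    rw [hg]
    exact et.comp (F := fun s => θ * af θ s) ((measurable_af θ).const_mul θ)
  have eg' : Equi T g' := by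
    rw [hg']
    exact et'.comp (F := fun s => θ' * af θ' s) ((measurable_af θ').const_mul θ')
  have hg01 : ∀ u x ω, 0 ≤ g u x ω ∧ g u x ω ≤ 1 := by
    intro u x ω
    rw [hg]
    obtain ⟨h1, h2⟩ := af_mem hθ2 (ht u x ω)
    exact ⟨mul_nonneg hθ h1, mul_le_one₀ hθ3 h1 h2⟩
  have hg01' : ∀ u x ω, 0 ≤ g' u x ω ∧ g' u x ω ≤ 1 := by
    intro u x ω
    rw [hg']
    obtain ⟨h1, h2⟩ := af_mem hθ2' (ht' u x ω)
    exact ⟨mul_nonneg hθ' h1, mul_le_one₀ hθ3' h1 h2⟩
  have hsb : Real.sqrt b ^ 2 = b := Real.sq_sqrt (by positivity)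
  have hbe : ∀ u x ω, be b θ (t u x ω) ^ 2 = b * (g u x ω * g u x ω) := by
    intro u x ω
    rw [hg]
    unfold be
    rw [mul_pow, mul_pow, hsb]
    ring
  have hbe' : ∀ u x ω, be b θ' (t' u x ω) ^ 2 = b * (g' u x ω * g' u x ω) := by
    intro u x ω
    rw [hg']
    unfold be
    rw [mul_pow, mul_pow, hsb]
    ring
  have hbeS : ∀ u x ω, be b θ (t u x ω) * be b θ' (t' u x ω) = b * (g u x ω * g' u x ω) := by
    intro u x ω
    rw [hg, hg']
    unfold be
    calc Real.sqrt b * θ * af θ (t u x ω) * (Real.sqrt b * θ' * af θ' (t' u x ω))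
        = Real.sqrt b ^ 2 * (θ * af θ (t u x ω) * (θ' * af θ' (t' u x ω))) := by ring
      _ = _ := by rw [hsb]
  have hχr : ∀ u x, T.G.Adj u x → ∀ᵐ ω ∂(iid V),
      Tendsto (fun n => T.chiN (fun u x => b * (g u x ω * g u x ω)) n u x) atTop
        (𝓝 (χ u x ω)) := by
    intro u x h
    filter_upwards [lχ u x h] with ω hω
    refine hω.congr fun n => ?_
    congr 1
    funext u x
    exact hbe u x ω
  have hχr' : ∀ u x, T.G.Adj u x → ∀ᵐ ω ∂(iid V),
      Tendsto (fun n => T.chiN (fun u x => b * (g' u x ω * g' u x ω)) n u x) atTop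
        (𝓝 (χ' u x ω)) := by
    intro u x h
    filter_upwards [lχ' u x h] with ω hω
    refine hω.congr fun n => ?_
    congr 1
    funext u x
    exact hbe' u x ω
  have hSr : ∀ u x, T.G.Adj u x → ∀ᵐ ω ∂(iid V),
      Tendsto (fun n => T.chiN (fun u x => b * (g u x ω * g' u x ω)) n u x) atTop
        (𝓝 (S u x ω)) := by
    intro u x h
    filter_upwards [lS u x h] with ω hω
    refine hω.congr fun n => ?_
    congr 1
    funext u x
    exact hbeS u x ω
  -- all edges at once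
  have all : ∀ {P : V → V → (V → I) → Prop}, (∀ u x, T.G.Adj u x → ∀ᵐ ω ∂(iid V), P u x ω) →
      ∀ᵐ ω ∂(iid V), ∀ u x, T.G.Adj u x → P u x ω := by
    intro P hP
    rw [ae_all_iff]
    intro u
    rw [ae_all_iff]
    intro x
    by_cases h : T.G.Adj u x
    · filter_upwards [hP u x h] with ω hω _
      exact hω
    · exact ae_of_all _ fun ω h' => absurd h' h
  obtain ⟨X, hX⟩ : ∃ X : V → (V → I) → ℝ, X = fun w ω => pp T (fun u x => g u x ω) v w :=
    ⟨_, rfl⟩
  obtain ⟨X', hX'⟩ : ∃ X' : V → (V → I) → ℝ, X' = fun w ω => pp T (fun u x => g' u x ω) v w :=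
    ⟨_, rfl⟩
  have hXm : ∀ w, Measurable (X w) := fun w => by rw [hX]; exact measurable_pp eg.meas v w
  have hXm' : ∀ w, Measurable (X' w) := fun w => by rw [hX']; exact measurable_pp eg'.meas v w
  -- the sum of the squares
  obtain ⟨Dd, hDd⟩ : ∃ Dd : V → V → (V → I) → ℝ, Dd = fun u x ω =>
    (g u x ω * g u x ω) * χ u x ω + (g' u x ω * g' u x ω) * χ' u x ω -
      2 * ((g u x ω * g' u x ω) * S u x ω) := ⟨_, rfl⟩
  have eD : Equi T Dd := by
    rw [hDd]
    exact (((eg.mul eg).mul eχ).add ((eg'.mul eg').mul eχ')).sub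
      (((eg.mul eg').mul eS).const_mul 2)
  have sum2 : ∀ᵐ ω ∂(iid V), HasSum (fun w => X' w ω ^ 2)
      (1 + ∑ y ∈ T.nb v, (g' v y ω * g' v y ω) * χ' v y ω) := by
    filter_upwards [all hχr'] with ω h2
    have k := hasSum_pp hb T (fun u x => g' u x ω * g' u x ω) (fun u x => χ' u x ω)
      (fun u x => mul_self_nonneg _) h2 v
    have e : (fun w => X' w ω ^ 2) = fun w => pp T (fun u x => g' u x ω * g' u x ω) v w := by
      funext w
      rw [hX', pp_mul (fun u x => g' u x ω) (fun u x => g' u x ω), sq]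
    rw [e]
    exact k
  have sum1 : ∀ᵐ ω ∂(iid V), HasSum (fun w => (X w ω - X' w ω) ^ 2)
      (∑ y ∈ T.nb v, Dd v y ω) := by
    filter_upwards [all hχr, all hχr', all hSr] with ω h1 h2 h3
    have k1 := hasSum_pp hb T (fun u x => g u x ω * g u x ω) (fun u x => χ u x ω)
      (fun u x => mul_self_nonneg _) h1 v
    have k2 := hasSum_pp hb T (fun u x => g' u x ω * g' u x ω) (fun u x => χ' u x ω)
      (fun u x => mul_self_nonneg _) h2 v
    have k3 := hasSum_pp hb T (fun u x => g u x ω * g' u x ω) (fun u x => S u x ω)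
      (fun u x => mul_nonneg (hg01 _ _ _).1 (hg01' _ _ _).1) h3 v
    have k4 := (k1.add k2).sub (k3.mul_left 2)
    have e : (fun w => (X w ω - X' w ω) ^ 2) = fun w =>
        pp T (fun u x => g u x ω * g u x ω) v w + pp T (fun u x => g' u x ω * g' u x ω) v w -
          2 * pp T (fun u x => g u x ω * g' u x ω) v w := by
      funext w
      rw [hX, hX', pp_mul (fun u x => g' u x ω) (fun u x => g' u x ω),
        pp_mul (fun u x => g u x ω) (fun u x => g u x ω),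
        pp_mul (fun u x => g u x ω) (fun u x => g' u x ω)]
      ring
    have e2 : ∑ y ∈ T.nb v, Dd v y ω =
        (1 + ∑ y ∈ T.nb v, (g v y ω * g v y ω) * χ v y ω) +
          (1 + ∑ y ∈ T.nb v, (g' v y ω * g' v y ω) * χ' v y ω) -
          2 * (1 + ∑ y ∈ T.nb v, (g v y ω * g' v y ω) * S v y ω) := by
      rw [hDd]
      simp only
      rw [Finset.sum_sub_distrib, Finset.sum_add_distrib, ← Finset.mul_sum]
      ring
    rw [e, e2]
    exact k4
  -- integrability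
  have iS : ∀ u x, T.G.Adj u x → Integrable (S u x) (iid V) := by
    intro u x h
    refine ((iχ u x h).add (iχ' u x h)).mono' (eS.meas u x).aestronglyMeasurable
      (ae_of_all _ fun ω => ?_)
    rw [Real.norm_eq_abs, abs_of_nonneg (hS u x ω).1]
    have h1 := hS u x ω
    show S u x ω ≤ χ u x ω + χ' u x ω
    linarith
  have imul : ∀ {h1 h2 F : V → V → (V → I) → ℝ}, Equi T h1 → Equi T h2 →
      (∀ u x ω, 0 ≤ h1 u x ω ∧ h1 u x ω ≤ 1) → (∀ u x ω, 0 ≤ h2 u x ω ∧ h2 u x ω ≤ 1) →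
      ∀ {u x}, Integrable (F u x) (iid V) →
      Integrable (fun ω => (h1 u x ω * h2 u x ω) * F u x ω) (iid V) := by
    intro h1 h2 F e1 e2 k1 k2 u x hF
    refine hF.bdd_mul (c := 1) ((e1.meas u x).mul (e2.meas u x)).aestronglyMeasurable
      (ae_of_all _ fun ω => ?_)
    rw [Real.norm_eq_abs, abs_of_nonneg (mul_nonneg (k1 u x ω).1 (k2 u x ω).1)]
    exact mul_le_one₀ (k1 u x ω).2 (k2 u x ω).1 (k2 u x ω).2
  have iD : ∀ u x, T.G.Adj u x → Integrable (Dd u x) (iid V) := by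
    intro u x h
    rw [hDd]
    exact ((imul eg eg hg01 hg01 (iχ u x h)).add (imul eg' eg' hg01' hg01' (iχ' u x h))).sub
      ((imul eg eg' hg01 hg01' (iS u x h)).const_mul 2)
  -- the mean of `Dd`
  obtain ⟨J, hJ⟩ : ∃ J : ℝ, J = ∫ ω, (χ u x ω + χ' u x ω - 2 * S u x ω) ∂(iid V) := ⟨_, rfl⟩
  have hJ0 : 0 ≤ J := by
    rw [hJ]
    refine integral_nonneg fun ω => ?_
    have := hS u x ω
    show 0 ≤ χ u x ω + χ' u x ω - 2 * S u x ω
    linarith
  have hDJ : (b : ℝ) * ∫ ω, Dd u x ω ∂(iid V) = J := by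
    rw [← integral_const_mul, ← Equi.integral_av hb0 (eD.const_mul b)
      (fun u x h => (iD u x h).const_mul _) hux, hJ]
    refine integral_congr_ae ?_
    filter_upwards [lχ.rec hux, lχ'.rec hux, lS.rec hux] with ω h1 h2 h3
    rw [h1, h2, h3]
    unfold RTree.wav RTree.av
    rw [show ∀ A B C : ℝ, 1 + A + (1 + B) - 2 * (1 + C) = A + B - 2 * C from
      fun A B C => by ring, ← add_div, ← Finset.sum_add_distrib, ← mul_div_assoc,
      Finset.mul_sum, ← sub_div, ← Finset.sum_sub_distrib]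
    congr 1
    refine Finset.sum_congr rfl fun y _ => ?_
    simp only
    rw [hbe, hbe', hbeS, hDd]
    ring
  have hDy : ∀ y ∈ T.nb v, ∫ ω, Dd v y ω ∂(iid V) = J / b := by
    intro y hy
    rw [eD.integral_eq ((T.mem_nb v y).mp hy) hux, eq_div_iff (by positivity), mul_comm]
    exact hDJ
  -- first part
  have part1 : ∑' w, ∫⁻ ω, ENNReal.ofReal (2 * (X w ω - X' w ω) ^ 2) ∂(iid V) ≤
      ENNReal.ofReal (9 * J) := by
    rw [tsum_lintegral (F := fun w ω => 2 * (X w ω - X' w ω) ^ 2)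
      (G := fun ω => 2 * ∑ y ∈ T.nb v, Dd v y ω)
      (fun w => (((hXm w).sub (hXm' w)).pow_const 2).const_mul 2)
      (fun w ω => by positivity) (by
        filter_upwards [sum1] with ω hω
        exact hω.mul_left 2)]
    have hi : Integrable (fun ω => 2 * ∑ y ∈ T.nb v, Dd v y ω) (iid V) :=
      (integrable_finsetSum _ fun y hy => iD v y ((T.mem_nb v y).mp hy)).const_mul 2
    have h0 : 0 ≤ᵐ[iid V] fun ω => 2 * ∑ y ∈ T.nb v, Dd v y ω := by
      filter_upwards [sum1] with ω hω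
      have := hω.nonneg fun w => sq_nonneg _
      show 0 ≤ 2 * ∑ y ∈ T.nb v, Dd v y ω
      linarith
    rw [← ofReal_integral_eq_lintegral_ofReal hi h0]
    apply ENNReal.ofReal_le_ofReal
    rw [integral_const_mul, integral_finsetSum _ fun y hy => iD v y ((T.mem_nb v y).mp hy),
      Finset.sum_congr rfl hDy, Finset.sum_const, T.card_nb, nsmul_eq_mul]
    push_cast
    have h1 : ((b : ℝ) + 1) * (J / b) ≤ 2 * J := by
      rw [← mul_div_assoc, div_le_iff₀ (by positivity)]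
      nlinarith
    linarith
  -- second part
  have part2 : ∑' w, ∫⁻ ω, ENNReal.ofReal (9 * ((m v ω - m' v ω) ^ 2 * X' w ω ^ 2)) ∂(iid V) ≤
      ∫⁻ ω, ENNReal.ofReal (9 * (m v ω - m' v ω) ^ 2 * (1 + ∑ y ∈ T.nb v, χ' v y ω)) ∂(iid V) := by
    rw [tsum_lintegral (F := fun w ω => 9 * ((m v ω - m' v ω) ^ 2 * X' w ω ^ 2))
      (G := fun ω => 9 * ((m v ω - m' v ω) ^ 2 *
      (1 + ∑ y ∈ T.nb v, (g' v y ω * g' v y ω) * χ' v y ω)))
      (fun w => (((((mm v).sub (mm' v)).pow_const 2)).mul ((hXm' w).pow_const 2)).const_mul 9)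
      (fun w ω => by positivity) (by
        filter_upwards [sum2] with ω hω
        exact (hω.mul_left _).mul_left 9)]
    refine lintegral_mono fun ω => ENNReal.ofReal_le_ofReal ?_
    rw [← mul_assoc]
    refine mul_le_mul_of_nonneg_left ?_ (by positivity)
    gcongr with y hy
    have h1 := hg01' v y ω
    have h2 := hχ' v y ω
    calc g' v y ω * g' v y ω * χ' v y ω ≤ 1 * χ' v y ω :=
          mul_le_mul_of_nonneg_right (mul_le_one₀ h1.2 h1.1 h1.2) (by linarith)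
      _ = _ := one_mul _
  -- the swap
  obtain ⟨Fs, hFs⟩ : ∃ Fs : V → V → (V → I) → ℝ≥0∞, Fs = fun v w ω => ENNReal.ofReal
      (((1 - m' v ω ^ 2) * pp T (fun u x => g' u x ω) v w) ^ 2 * (m v ω - m' v ω) ^ 2) :=
    ⟨_, rfl⟩
  have hFm : ∀ v w, Measurable (Fs v w) := by
    intro v w
    rw [hFs]
    have h1 := measurable_pp (T := T) eg'.meas v w
    have h2 := mm v
    have h3 := mm' v
    exact ((((measurable_const.sub (h3.pow_const 2)).mul h1).pow_const 2).mul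
      ((h2.sub h3).pow_const 2)).ennreal_ofReal
  have swap : ∀ w, ∫⁻ ω, ENNReal.ofReal
      (((1 - m' v ω ^ 2) * X' w ω) ^ 2 * (m w ω - m' w ω) ^ 2) ∂(iid V) =
      ∫⁻ ω, Fs v w ω ∂(iid V) := by
    intro w
    have h1 : ∫⁻ ω, ENNReal.ofReal
        (((1 - m' v ω ^ 2) * X' w ω) ^ 2 * (m w ω - m' w ω) ^ 2) ∂(iid V) =
        ∫⁻ ω, Fs w v ω ∂(iid V) := by
      refine lintegral_congr_ae ?_
      filter_upwards [hsym v w] with ω hω
      rw [hFs, hX']
      simp only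
      rw [hg']
      simp only
      rw [hω]
    rw [h1]
    obtain ⟨φ, k1, k2⟩ := exists_aut T (v := v) (w := w) (v' := w) (w' := v)
      (T.G.dist_comm)
    have h2 := Equi.lintegral_equi (g := Fs) hFm φ (u := v) (x := w) (by
      have h3 : ∀ᵐ ω ∂(iid V), ∀ u x, g' (φ u) (φ x) (translate φ.toEquiv ω) = g' u x ω := by
        rw [ae_all_iff]; intro u
        rw [ae_all_iff]; intro x
        exact eg'.equi φ u x
      filter_upwards [h3, em φ v, em' φ v] with ω e1 e2 e3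
      rw [hFs]
      simp only
      rw [pp_map, e2, e3]
      simp only [e1])
    rw [k1, k2] at h2
    exact h2
  -- conclusion
  have step : ∀ w, ∫⁻ ω, ENNReal.ofReal
      (((1 - m v ω ^ 2) * pp T (fun u x => θ * af θ (t u x ω)) v w -
        (1 - m' v ω ^ 2) * pp T (fun u x => θ' * af θ' (t' u x ω)) v w) ^ 2 +
      ((1 - m' v ω ^ 2) * pp T (fun u x => θ' * af θ' (t' u x ω)) v w) ^ 2 *
        (m w ω - m' w ω) ^ 2) ∂(iid V) ≤
      ∫⁻ ω, ENNReal.ofReal (2 * (X w ω - X' w ω) ^ 2) ∂(iid V) +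
        ∫⁻ ω, ENNReal.ofReal (9 * ((m v ω - m' v ω) ^ 2 * X' w ω ^ 2)) ∂(iid V) := by
        intro w
        have e1 : ∀ ω, pp T (fun u x => θ * af θ (t u x ω)) v w = X w ω := by
          intro ω; rw [hX, hg]
        have e2 : ∀ ω, pp T (fun u x => θ' * af θ' (t' u x ω)) v w = X' w ω := by
          intro ω; rw [hX', hg']
        simp only [e1, e2]
        have m1 : Measurable fun ω => ENNReal.ofReal (2 * (X w ω - X' w ω) ^ 2) :=
          ((((hXm w).sub (hXm' w)).pow_const 2).const_mul 2).ennreal_ofReal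
        have m2 : Measurable fun ω =>
            ENNReal.ofReal (8 * ((m v ω - m' v ω) ^ 2 * X' w ω ^ 2)) :=
          ((((((mm v).sub (mm' v)).pow_const 2)).mul
            ((hXm' w).pow_const 2)).const_mul 8).ennreal_ofReal
        have m12 : Measurable fun ω => (ENNReal.ofReal (2 * (X w ω - X' w ω) ^ 2) +
            ENNReal.ofReal (8 * ((m v ω - m' v ω) ^ 2 * X' w ω ^ 2))) := m1.add m2
        calc ∫⁻ ω, ENNReal.ofReal (((1 - m v ω ^ 2) * X w ω - (1 - m' v ω ^ 2) * X' w ω) ^ 2 +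
            ((1 - m' v ω ^ 2) * X' w ω) ^ 2 * (m w ω - m' w ω) ^ 2) ∂(iid V)
            ≤ ∫⁻ ω, (ENNReal.ofReal (2 * (X w ω - X' w ω) ^ 2) +
              ENNReal.ofReal (8 * ((m v ω - m' v ω) ^ 2 * X' w ω ^ 2)) + ENNReal.ofReal
              (((1 - m' v ω ^ 2) * X' w ω) ^ 2 * (m w ω - m' w ω) ^ 2)) ∂(iid V) := by
              refine lintegral_mono fun ω => ?_
              rw [← ENNReal.ofReal_add (by positivity) (by positivity),
                ← ENNReal.ofReal_add (by positivity) (by positivity)]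
              apply ENNReal.ofReal_le_ofReal
              have := term_le (X := X w ω) (X' := X' w ω) (hm v ω) (hm' v ω)
              linarith
          _ = ∫⁻ ω, ENNReal.ofReal (2 * (X w ω - X' w ω) ^ 2) ∂(iid V) +
              ∫⁻ ω, ENNReal.ofReal (8 * ((m v ω - m' v ω) ^ 2 * X' w ω ^ 2)) ∂(iid V) +
              ∫⁻ ω, Fs v w ω ∂(iid V) := by
              rw [lintegral_add_left m12, lintegral_add_left m1, swap w]
          _ ≤ _ := by
              rw [add_assoc, ← lintegral_add_left m2]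
              gcongr with ω
              rw [hFs]
              simp only
              rw [← ENNReal.ofReal_add (by positivity) (by positivity)]
              apply ENNReal.ofReal_le_ofReal
              have h1 : (m' v ω) ^ 2 ≤ 1 := by
                rw [← sq_abs]; exact pow_le_one₀ (abs_nonneg _) (hm' v ω)
              have h2 : (1 - m' v ω ^ 2) ^ 2 ≤ 1 := by nlinarith [sq_nonneg (m' v ω)]
              have h3 : pp T (fun u x => g' u x ω) v w = X' w ω := by rw [hX']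
              rw [h3, mul_pow]
              have h4 : (1 - m' v ω ^ 2) ^ 2 * X' w ω ^ 2 * (m v ω - m' v ω) ^ 2 ≤
                  (m v ω - m' v ω) ^ 2 * X' w ω ^ 2 := by
                have h5 : 0 ≤ (m v ω - m' v ω) ^ 2 * X' w ω ^ 2 := by positivity
                nlinarith
              linarith
  refine (ENNReal.tsum_le_tsum step).trans ?_
  rw [ENNReal.tsum_add, ← hJ]
  exact add_le_add part1 part2

end Vale.Agent.P161E
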