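import Vale.Agent.P161E.SDefs

/-!
# Part S, S0: finite volume facts about planted fields
-/

open MeasureTheory Set Filter Topology
open scoped unitInterval ENNReal

namespace Vale.Agent.P161E

open Vale.Agent.P161

universe u

variable {V : Type u} {b : ℕ}

namespace SB

theorem continuous_tanh : Continuous Real.tanh := by
  have : Real.tanh = fun x => Real.sinh x / Real.cosh x := by
    funext x; exact Real.tanh_eq_sinh_div_cosh x
  rw [this]
  exact Real.continuous_sinh.div Real.continuous_cosh fun x => (Real.cosh_pos x).ne'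

/-- the likelihood factor -/
noncomputable def lf (D : Finset V) (Y : V → ℝ) (τ : V → Bool) : ℝ :=
  ∏ w ∈ D, (1 + sg (τ w) * Real.tanh (Y w))

theorem one_add_pos (s : Bool) (y : ℝ) : 0 < 1 + sg s * Real.tanh y := by
  have h1 := Real.neg_one_lt_tanh y
  have h2 := Real.tanh_lt_one y
  cases s
  · simp [sg]; linarith
  · simp [sg]; linarith

theorem one_add_le (s : Bool) (y : ℝ) : 1 + sg s * Real.tanh y ≤ 2 := by
  have h1 := Real.neg_one_lt_tanh y
  have h2 := Real.tanh_lt_one y
  cases s
  · simp [sg]; linarith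
  · simp [sg]; linarith

theorem lf_pos (D : Finset V) (Y : V → ℝ) (τ : V → Bool) : 0 < lf D Y τ :=
  Finset.prod_pos fun _ _ => one_add_pos _ _

theorem lf_le (D : Finset V) (Y : V → ℝ) (τ : V → Bool) : lf D Y τ ≤ 2 ^ D.card := by
  unfold lf
  rw [← Finset.prod_const]
  exact Finset.prod_le_prod (fun w _ => (one_add_pos _ _).le) fun w _ => one_add_le _ _

theorem measurable_lf (D : Finset V) : Measurable (fun p : (V → ℝ) × (V → Bool) =>
    lf D p.1 p.2) := by
  unfold lf
  refine Finset.measurable_fun_prod _ fun w _ => ?_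
  have h1 : Measurable (fun p : (V → ℝ) × (V → Bool) => sg (p.2 w)) :=
    CovAux.measurable_sg.comp ((measurable_pi_apply w).comp measurable_snd)
  have h2 : Measurable (fun p : (V → ℝ) × (V → Bool) => Real.tanh (p.1 w)) :=
    continuous_tanh.measurable.comp ((measurable_pi_apply w).comp measurable_fst)
  exact (h1.mul h2).const_add 1

theorem measurable_lf_right (D : Finset V) (Y : V → ℝ) : Measurable (lf D Y) :=
  (measurable_lf D).of_uncurry_left

theorem wt_eq (D : Finset V) (Y : V → ℝ) (τ : V → Bool) :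
    wt D Y τ = (∏ w ∈ D, Real.cosh (Y w)) * lf D Y τ := by
  unfold wt lf
  rw [Real.exp_sum, ← Finset.prod_mul_distrib]
  refine Finset.prod_congr rfl fun w _ => ?_
  rw [CovAux.exp_mul_sg, Real.tanh_eq_sinh_div_cosh]
  have := (Real.cosh_pos (Y w)).ne'
  field_simp

theorem Zf_eq (μ : Measure (V → Bool)) (D : Finset V) (Y : V → ℝ) :
    Zf μ D Y = (∏ w ∈ D, Real.cosh (Y w)) * Lik μ D Y := by
  unfold Zf Lik
  rw [← integral_const_mul]
  exact integral_congr_ae (ae_of_all _ fun τ => wt_eq D Y τ)

theorem cosh_prod_pos (D : Finset V) (Y : V → ℝ) : 0 < ∏ w ∈ D, Real.cosh (Y w) :=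
  Finset.prod_pos fun _ _ => Real.cosh_pos _

theorem integrable_mul_lf (μ : Measure (V → Bool)) [IsProbabilityMeasure μ] (D : Finset V)
    (Y : V → ℝ) {F : (V → Bool) → ℝ} (hF : Measurable F) (hb : ∀ τ, |F τ| ≤ 1) :
    Integrable (fun τ => F τ * lf D Y τ) μ := by
  refine Integrable.of_bound (hF.mul (measurable_lf_right D Y)).aestronglyMeasurable
    (2 ^ D.card) (Eventually.of_forall fun τ => ?_)
  rw [Real.norm_eq_abs, abs_mul, abs_of_pos (lf_pos D Y τ)]
  calc |F τ| * lf D Y τ ≤ 1 * 2 ^ D.card :=
        mul_le_mul (hb τ) (lf_le D Y τ) (lf_pos D Y τ).le zero_le_one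
    _ = _ := one_mul _

theorem integrable_lf (μ : Measure (V → Bool)) [IsProbabilityMeasure μ] (D : Finset V)
    (Y : V → ℝ) : Integrable (lf D Y) μ := by
  have := integrable_mul_lf μ D Y (F := fun _ => 1) measurable_const (by simp)
  simpa using this

end SB

section S0

variable {μ : Measure (V → Bool)} [IsProbabilityMeasure μ] {ν : Measure ℝ} {Q : Measure (V → ℝ)}

theorem measurable_mean (μ : Measure (V → Bool)) [IsProbabilityMeasure μ] (D : Finset V) (v : V) :
    Measurable (fun Y : V → ℝ => mean μ D v Y) := Vale.Agent.P161.measurable_mean μ D v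

theorem dependsOn_mean (μ : Measure (V → Bool)) (D : Finset V) (v : V) :
    DependsOn (fun Y : V → ℝ => mean μ D v Y) (D : Set V) :=
  fun _ _ h => mean_congr μ v fun w hw => h w (Finset.mem_coe.mpr hw)

theorem measurable_Lik (μ : Measure (V → Bool)) [IsProbabilityMeasure μ] (D : Finset V) :
    Measurable (fun Y : V → ℝ => Lik μ D Y) :=
  ((SB.measurable_lf D).stronglyMeasurable.integral_prod_right (ν := μ)).measurable

theorem Lik_pos (μ : Measure (V → Bool)) [IsProbabilityMeasure μ] (D : Finset V) (Y : V → ℝ) :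
    0 < Lik μ D Y := by
  have h1 := CovAux.Zf_pos μ D Y
  rw [SB.Zf_eq] at h1
  exact (mul_pos_iff_of_pos_left (SB.cosh_prod_pos D Y)).mp h1

theorem mean_mul_Lik (μ : Measure (V → Bool)) [IsProbabilityMeasure μ] (D : Finset V) (v : V)
    (Y : V → ℝ) : mean μ D v Y * Lik μ D Y =
      ∫ τ, sg (τ v) * ∏ w ∈ D, (1 + sg (τ w) * Real.tanh (Y w)) ∂μ := by
  have h1 := (SB.cosh_prod_pos D Y).ne'
  have h2 := (Lik_pos μ D Y).ne'
  have h3 : ∫ τ, sg (τ v) * wt D Y τ ∂μ = (∏ w ∈ D, Real.cosh (Y w)) *
      ∫ τ, sg (τ v) * ∏ w ∈ D, (1 + sg (τ w) * Real.tanh (Y w)) ∂μ := by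
    rw [← integral_const_mul]
    refine integral_congr_ae (ae_of_all _ fun τ => ?_)
    simp only [SB.wt_eq]
    unfold SB.lf
    ring
  unfold mean tilt
  rw [h3, SB.Zf_eq]
  field_simp

end S0

namespace SB

/-- the likelihood is bounded -/
theorem Lik_le (μ : Measure (V → Bool)) [IsProbabilityMeasure μ] (D : Finset V) (Y : V → ℝ) :
    Lik μ D Y ≤ 2 ^ D.card := by
  have h : ∫ τ, lf D Y τ ∂μ ≤ ∫ _, (2 : ℝ) ^ D.card ∂μ :=
    integral_mono (integrable_lf μ D Y) (integrable_const _) (lf_le D Y)
  rw [integral_const, probReal_univ, smul_eq_mul, one_mul] at h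
  exact h

theorem Lik_empty (μ : Measure (V → Bool)) [IsProbabilityMeasure μ] (Y : V → ℝ) :
    Lik μ ∅ Y = 1 := by
  simp [Lik]

theorem prob_inf {μ : Measure (V → Bool)} [IsProbabilityMeasure μ] {ν : Measure ℝ}
    {Q : Measure (V → ℝ)} (hQ : IsPlanted μ ν Q) :
    IsProbabilityMeasure (Measure.infinitePi fun _ : V => ν) := by
  have := hQ.prob
  have h := hQ.law ∅ (fun _ => 1) measurable_const (fun _ _ _ => rfl)
  simp only [lintegral_const, Lik_empty, one_mul, measure_univ, ENNReal.ofReal_one] at h
  exact ⟨h.symm⟩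

theorem map_update [DecidableEq V] (ν : Measure ℝ) [IsProbabilityMeasure ν] (i : V) :
    Measure.map (fun p : (V → ℝ) × ℝ => Function.update p.1 i p.2)
      ((Measure.infinitePi fun _ : V => ν).prod ν) = Measure.infinitePi fun _ : V => ν := by
  have hm : Measurable (fun p : (V → ℝ) × ℝ => Function.update p.1 i p.2) := measurable_update'
  refine Measure.eq_infinitePi _ ?_
  intro s t ht
  rw [Measure.map_apply hm (MeasurableSet.pi s.countable_toSet (fun j _ => ht j))]
  by_cases hi : i ∈ s
  · have : (fun p : (V → ℝ) × ℝ => Function.update p.1 i p.2) ⁻¹' (Set.pi (↑s) t) =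
        (Set.pi (↑(s.erase i)) t) ×ˢ (t i) := by
      ext p
      simp only [Set.mem_preimage, Set.mem_pi, Finset.mem_coe, Set.mem_prod, Finset.mem_erase]
      constructor
      · intro h
        refine ⟨fun j hj => ?_, ?_⟩
        · have := h j hj.2
          rwa [Function.update_of_ne hj.1] at this
        · have := h i hi
          rwa [Function.update_self] at this
      · rintro ⟨h1, h2⟩ j hj
        by_cases hji : j = i
        · subst hji
          rwa [Function.update_self]
        · rw [Function.update_of_ne hji]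
          exact h1 j ⟨hji, hj⟩
    rw [this, Measure.prod_prod, Measure.infinitePi_pi _ (fun j _ => ht j),
      Finset.prod_erase_mul _ _ hi]
  · have : (fun p : (V → ℝ) × ℝ => Function.update p.1 i p.2) ⁻¹' (Set.pi (↑s) t) =
        (Set.pi (↑s) t) ×ˢ Set.univ := by
      ext p
      simp only [Set.mem_preimage, Set.mem_pi, Finset.mem_coe, Set.mem_prod, Set.mem_univ,
        and_true]
      constructor
      · intro h j hj
        have := h j hj
        have hne : j ≠ i := fun h' => hi (h' ▸ hj)
        rwa [Function.update_of_ne hne] at this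
      · intro h j hj
        have hne : j ≠ i := fun h' => hi (h' ▸ hj)
        rw [Function.update_of_ne hne]
        exact h j hj
    rw [this, Measure.prod_prod, Measure.infinitePi_pi _ (fun j _ => ht j)]
    simp

/-- resampling one coordinate -/
theorem integral_update [DecidableEq V] (ν : Measure ℝ) [IsProbabilityMeasure ν] (i : V)
    {F : (V → ℝ) → ℝ} (hF : Measurable F) (hb : ∃ C, ∀ Y, |F Y| ≤ C) :
    ∫ Y, F Y ∂(Measure.infinitePi fun _ : V => ν) =
      ∫ Y, (∫ t, F (Function.update Y i t) ∂ν) ∂(Measure.infinitePi fun _ : V => ν) := by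
  have hm : Measurable (fun p : (V → ℝ) × ℝ => Function.update p.1 i p.2) := measurable_update'
  obtain ⟨C, hC⟩ := hb
  conv_lhs => rw [← map_update ν i]
  rw [integral_map hm.aemeasurable hF.aestronglyMeasurable]
  refine integral_prod (fun p : (V → ℝ) × ℝ => F (Function.update p.1 i p.2)) ?_
  exact Integrable.of_bound (hF.comp hm).aestronglyMeasurable C
    (ae_of_all _ fun p => by rw [Real.norm_eq_abs]; exact hC _)

theorem integral_tanh {ν : Measure ℝ} (hν : Obs ν) : ∫ y, Real.tanh y ∂ν = 0 := by
  have h : ∫ y, Real.tanh y ∂ν = ∫ y, Real.tanh (-y) ∂ν := by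
    conv_lhs => rw [← hν.symm]
    rw [integral_map measurable_neg.aemeasurable
      continuous_tanh.measurable.aestronglyMeasurable]
  have h2 : ∫ y, Real.tanh (-y) ∂ν = -∫ y, Real.tanh y ∂ν := by
    rw [← integral_neg]
    exact integral_congr_ae (ae_of_all _ fun y => Real.tanh_neg y)
  linarith

theorem integrable_tanh {ν : Measure ℝ} (hν : Obs ν) : Integrable Real.tanh ν := by
  have := hν.prob
  refine Integrable.of_bound continuous_tanh.measurable.aestronglyMeasurable 1
    (ae_of_all _ fun y => ?_)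
  rw [Real.norm_eq_abs, abs_le]
  exact ⟨(Real.neg_one_lt_tanh y).le, (Real.tanh_lt_one y).le⟩

/-- likelihood factors of unseen coordinates integrate to one -/
theorem integral_lf_sdiff [DecidableEq V] {ν : Measure ℝ} (hν : Obs ν) (D E : Finset V)
    (hDE : Disjoint D E) (τ : V → Bool) {F : (V → ℝ) → ℝ} (hF : Measurable F)
    (hb : ∃ C, ∀ Y, |F Y| ≤ C) (hd : DependsOn F (D : Set V)) :
    ∫ Y, F Y * lf (D ∪ E) Y τ ∂(Measure.infinitePi fun _ : V => ν) =
      ∫ Y, F Y * lf D Y τ ∂(Measure.infinitePi fun _ : V => ν) := by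
  have := hν.prob
  induction E using Finset.induction_on with
  | empty => simp
  | insert i E hi ih =>
    rw [Finset.disjoint_insert_right] at hDE
    have hi' : i ∉ D ∪ E := by
      rw [Finset.mem_union]; exact fun h => h.elim hDE.1 hi
    rw [← ih hDE.2, Finset.union_insert]
    obtain ⟨C, hC⟩ := hb
    have hmeas : ∀ A : Finset V, Measurable (fun Y : V → ℝ => F Y * lf A Y τ) := fun A =>
      hF.mul (measurable_lf A).of_uncurry_right
    have hbd : ∀ A : Finset V, ∀ Y : V → ℝ, |F Y * lf A Y τ| ≤ C * 2 ^ A.card := by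
      intro A Y
      rw [abs_mul, abs_of_pos (lf_pos A Y τ)]
      exact mul_le_mul (hC Y) (lf_le A Y τ) (lf_pos A Y τ).le ((abs_nonneg _).trans (hC Y))
    rw [integral_update ν i (hmeas _) ⟨_, hbd _⟩]
    refine integral_congr_ae (ae_of_all _ fun Y => ?_)
    have h1 : ∀ t, F (Function.update Y i t) * lf (insert i (D ∪ E)) (Function.update Y i t) τ =
        (F Y * lf (D ∪ E) Y τ) * (1 + sg (τ i) * Real.tanh t) := by
      intro t
      have hFu : F (Function.update Y i t) = F Y := by
        apply hd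
        intro j hj
        rw [Function.update_of_ne]
        rintro rfl
        exact hDE.1 (Finset.mem_coe.mp hj)
      have hlf : lf (D ∪ E) (Function.update Y i t) τ = lf (D ∪ E) Y τ := by
        unfold lf
        refine Finset.prod_congr rfl fun j hj => ?_
        rw [Function.update_of_ne]
        rintro rfl
        exact hi' hj
      have hins : lf (insert i (D ∪ E)) (Function.update Y i t) τ =
          (1 + sg (τ i) * Real.tanh t) * lf (D ∪ E) (Function.update Y i t) τ := by
        unfold lf
        rw [Finset.prod_insert hi', Function.update_self]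
      rw [hins, hlf, hFu]
      ring
    simp only [h1]
    rw [integral_const_mul, integral_add (integrable_const _)
      ((integrable_tanh hν).const_mul _), integral_const_mul, integral_tanh hν]
    simp

end SB

section S0

variable {μ : Measure (V → Bool)} [IsProbabilityMeasure μ] {ν : Measure ℝ} {Q : Measure (V → ℝ)}

theorem integral_planted (hQ : IsPlanted μ ν Q) (D : Finset V) {F : (V → ℝ) → ℝ}
    (hF : Measurable F) (hb : ∃ C, ∀ Y, |F Y| ≤ C) (hd : DependsOn F (D : Set V)) :
    ∫ Y, F Y ∂Q = ∫ Y, F Y * Lik μ D Y ∂(Measure.infinitePi fun _ : V => ν) := by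
  have := hQ.prob
  have := SB.prob_inf hQ
  obtain ⟨C, hC⟩ := hb
  have hi1 : Integrable F Q := Integrable.of_bound hF.aestronglyMeasurable C
    (ae_of_all _ fun Y => by rw [Real.norm_eq_abs]; exact hC Y)
  have hi2 : Integrable (fun Y => F Y * Lik μ D Y) (Measure.infinitePi fun _ : V => ν) := by
    refine Integrable.of_bound (hF.mul (measurable_Lik μ D)).aestronglyMeasurable
      (C * 2 ^ D.card) (ae_of_all _ fun Y => ?_)
    rw [Real.norm_eq_abs, abs_mul, abs_of_pos (Lik_pos μ D Y)]
    exact mul_le_mul (hC Y) (SB.Lik_le μ D Y) (Lik_pos μ D Y).le ((abs_nonneg _).trans (hC Y))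
  rw [integral_eq_lintegral_pos_part_sub_lintegral_neg_part hi1,
    integral_eq_lintegral_pos_part_sub_lintegral_neg_part hi2,
    hQ.law D (fun Y => ENNReal.ofReal (F Y)) hF.ennreal_ofReal
      (fun x y h => by simp only [hd h]),
    hQ.law D (fun Y => ENNReal.ofReal (-F Y)) hF.neg.ennreal_ofReal
      (fun x y h => by simp only [hd h])]
  congr 2
  · refine lintegral_congr fun Y => ?_
    rw [ENNReal.ofReal_mul' (Lik_pos μ D Y).le]
  · refine lintegral_congr fun Y => ?_
    rw [← neg_mul, ENNReal.ofReal_mul' (Lik_pos μ D Y).le]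

/-- integration against the magnetisation -/
theorem SB.integral_mul_mean (hν : Obs ν) (hQ : IsPlanted μ ν Q) (D : Finset V) (v : V)
    {F : (V → ℝ) → ℝ} (hF : Measurable F) (hb : ∃ C, ∀ Y, |F Y| ≤ C)
    (hd : DependsOn F (D : Set V)) :
    ∫ Y, F Y * mean μ D v Y ∂Q =
      ∫ τ, sg (τ v) * ∫ Y, F Y * SB.lf D Y τ ∂(Measure.infinitePi fun _ : V => ν) ∂μ := by
  have := hν.prob
  obtain ⟨C, hC⟩ := hb
  have hm : Measurable (fun Y => F Y * mean μ D v Y) := hF.mul (measurable_mean μ D v)
  rw [integral_planted hQ D hm ⟨C * 1, fun Y => ?_⟩ ?_]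
  · have h1 : ∀ Y, F Y * mean μ D v Y * Lik μ D Y =
        ∫ τ, F Y * (sg (τ v) * SB.lf D Y τ) ∂μ := by
      intro Y
      rw [mul_assoc, mean_mul_Lik, integral_const_mul]
      rfl
    simp only [h1]
    rw [integral_integral_swap]
    · refine integral_congr_ae (ae_of_all _ fun τ => ?_)
      simp only
      rw [← integral_const_mul]
      refine integral_congr_ae (ae_of_all _ fun Y => ?_)
      simp only
      ring
    · refine Integrable.of_bound (C := C * 2 ^ D.card) ?_ (ae_of_all _ fun p => ?_)
      · refine Measurable.aestronglyMeasurable ?_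
        exact (hF.comp measurable_fst).mul ((CovAux.measurable_sg.comp
          ((measurable_pi_apply v).comp measurable_snd)).mul (SB.measurable_lf D))
      · simp only [Function.uncurry]
        rw [Real.norm_eq_abs, abs_mul, abs_mul, CovAux.abs_sg, one_mul,
          abs_of_pos (SB.lf_pos D p.1 p.2)]
        exact mul_le_mul (hC _) (SB.lf_le D _ _) (SB.lf_pos D _ _).le
          ((abs_nonneg _).trans (hC p.1))
  · intro x y h
    simp only [hd h]
    congr 1
    exact dependsOn_mean μ D v h
  · rw [abs_mul]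
    exact mul_le_mul (hC Y) (CovAux.abs_mean_le μ D v Y) (abs_nonneg _)
      ((abs_nonneg _).trans (hC Y))

/-- the magnetisations form a martingale in the volume -/
theorem tower_fin (hν : Obs ν) (hQ : IsPlanted μ ν Q) {D D' : Finset V} (hD : D ⊆ D') (v : V)
    {F : (V → ℝ) → ℝ} (hF : Measurable F) (hb : ∃ C, ∀ Y, |F Y| ≤ C)
    (hd : DependsOn F (D : Set V)) :
    ∫ Y, F Y * mean μ D' v Y ∂Q = ∫ Y, F Y * mean μ D v Y ∂Q := by
  classical
  have hd' : DependsOn F (D' : Set V) := fun x y h => hd fun j hj => h j (by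
    exact Finset.mem_coe.mpr (hD (Finset.mem_coe.mp hj)))
  rw [SB.integral_mul_mean hν hQ D' v hF hb hd', SB.integral_mul_mean hν hQ D v hF hb hd]
  refine integral_congr_ae (ae_of_all _ fun τ => ?_)
  simp only
  have := SB.integral_lf_sdiff hν D (D' \ D) Finset.disjoint_sdiff τ hF hb hd
  rw [Finset.union_sdiff_of_subset hD] at this
  rw [this]

end S0

end Vale.Agent.P161E
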