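import Mathlib

/-!
# Product formulas from boxes
-/

open MeasureTheory Set Filter Topology
open scoped ENNReal

namespace Vale.Agent.P161E

universe u

namespace Box

variable {V : Type u}

/-- If the probabilities of boxes over disjoint families of coordinates are products then so are
the integrals of products of functions of these families. -/
theorem prod_of_box {J : Type*} (I : Finset J) (S : J → Set V)
    (P : Measure (V → ℝ)) [IsFiniteMeasure P] (P' : J → Measure (V → ℝ))
    [∀ i, IsProbabilityMeasure (P' i)]
    (hbox : ∀ (D : J → Finset V) (A : J → V → Set ℝ), (∀ i ∈ I, (D i : Set V) ⊆ S i) →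
      (∀ i w, MeasurableSet (A i w)) →
      P {Y | ∀ i ∈ I, ∀ w ∈ D i, Y w ∈ A i w} = ∏ i ∈ I, P' i {Y | ∀ w ∈ D i, Y w ∈ A i w})
    (f : J → (V → ℝ) → ℝ) (hf : ∀ i, Measurable (f i)) (hd : ∀ i ∈ I, DependsOn (f i) (S i)) :
    ∫ Y, ∏ i ∈ I, f i Y ∂P = ∏ i ∈ I, ∫ Y, f i Y ∂(P' i) := by
  classical
  -- restriction maps
  let r : ∀ i : I, (V → ℝ) → (S i → ℝ) := fun i Y w => Y w
  have hr : ∀ i, Measurable (r i) := fun i => measurable_pi_lambda _ fun w => measurable_pi_apply _
  let e : ∀ i : I, (S i → ℝ) → (V → ℝ) := fun i z w => if h : w ∈ S i then z ⟨w, h⟩ else 0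
  have he : ∀ i, Measurable (e i) := by
    intro i
    refine measurable_pi_lambda _ fun w => ?_
    by_cases h : w ∈ S i
    · simp only [e, h, dif_pos]
      exact measurable_pi_apply _
    · simp only [e, h, dif_neg, not_false_eq_true]
      exact measurable_const
  have hfe : ∀ (i : I) (Y : V → ℝ), f i (e i (r i Y)) = f i Y := by
    intro i Y
    refine hd i i.2 fun w hw => ?_
    simp only [e, r, hw, dif_pos]
  have hR : Measurable (fun (Y : V → ℝ) (i : I) => r i Y) :=
    measurable_pi_lambda _ fun i => hr i
  have hprob : ∀ i : I, IsProbabilityMeasure ((P' i).map (r i)) := fun i =>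
    Measure.isProbabilityMeasure_map (hr i).aemeasurable
  have key : Measure.pi (fun i : I => (P' i).map (r i)) =
      P.map (fun (Y : V → ℝ) (i : I) => r i Y) := by
    refine Measure.pi_eq_generateFrom
      (C := fun i : I => squareCylinders (fun _ : S i => {s : Set ℝ | MeasurableSet s}))
      (fun i => generateFrom_squareCylinders) (fun i => isPiSystem_squareCylinders
        (fun _ => MeasurableSpace.isPiSystem_measurableSet)
        (fun _ => by rw [mem_ofPred_eq]; exact MeasurableSet.univ))
      (fun i => ⟨fun _ => univ, fun _ => ⟨∅, fun _ => univ, fun _ _ => by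
        rw [mem_ofPred_eq]; exact MeasurableSet.univ, by
          rw [Finset.coe_empty, Set.empty_pi]⟩, fun _ => measure_lt_top _ _, iUnion_const _⟩) ?_
    intro s hs
    choose D t ht hst using hs
    -- the boxes
    let D' : J → Finset V := fun i => if h : i ∈ I then (D ⟨i, h⟩).map (Function.Embedding.subtype _)
      else ∅
    let A : J → V → Set ℝ := fun i w => if h : i ∈ I then (if h' : w ∈ S i then
      t ⟨i, h⟩ ⟨w, h'⟩ else univ) else univ
    have hA : ∀ i w, MeasurableSet (A i w) := by
      intro i w
      by_cases h : i ∈ I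
      · by_cases h' : w ∈ S i
        · simp only [A, h, h', dif_pos]
          exact ht ⟨i, h⟩ _ (mem_univ _)
        · simp only [A, h, h', dif_pos, dif_neg, not_false_eq_true]
          exact MeasurableSet.univ
      · simp only [A, h, dif_neg, not_false_eq_true]
        exact MeasurableSet.univ
    have hmem : ∀ (i : J) (h : i ∈ I) (Y : V → ℝ),
        (∀ w ∈ D' i, Y w ∈ A i w) ↔ r ⟨i, h⟩ Y ∈ s ⟨i, h⟩ := by
      intro i h Y
      rw [hst ⟨i, h⟩]
      simp only [D', h, dif_pos, Finset.mem_map, Function.Embedding.subtype_apply, Set.mem_pi,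
        Finset.mem_coe, r]
      constructor
      · intro H w hw
        have := H w ⟨w, hw, rfl⟩
        simp only [A, h, w.2, dif_pos] at this
        exact this
      · rintro H w ⟨w', hw', rfl⟩
        simp only [A, h, w'.2, dif_pos]
        exact H w' hw'
    have h1 := hbox D' A (by
      intro i hi w hw
      simp only [D', hi, dif_pos, Finset.coe_map, mem_image, Finset.mem_coe,
        Function.Embedding.subtype_apply] at hw
      obtain ⟨w', _, rfl⟩ := hw
      exact w'.2) hA
    have hmeas : ∀ i : I, MeasurableSet (s i) := by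
      intro i
      rw [hst i]
      exact MeasurableSet.pi (Finset.countable_toSet _) (fun w _ => ht i w (mem_univ _))
    rw [Measure.map_apply hR (MeasurableSet.univ_pi hmeas)]
    have e1 : (fun (Y : V → ℝ) (i : I) => r i Y) ⁻¹' univ.pi s =
        {Y | ∀ i ∈ I, ∀ w ∈ D' i, Y w ∈ A i w} := by
      ext Y
      simp only [mem_preimage, mem_univ_pi, mem_ofPred_eq]
      constructor
      · intro H i hi
        exact (hmem i hi Y).mpr (H ⟨i, hi⟩)
      · intro H i
        exact (hmem i i.2 Y).mp (H i i.2)
    rw [e1, h1, ← Finset.prod_coe_sort]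
    refine Finset.prod_congr rfl fun i _ => ?_
    rw [Measure.map_apply (hr i) (hmeas i)]
    congr 1
    ext Y
    exact hmem i i.2 Y
  have hF : Measurable (fun z : (∀ i : I, S i → ℝ) => ∏ i : I, f i (e i (z i))) := by
    refine Finset.measurable_fun_prod _ fun i _ => ?_
    exact (hf i).comp ((he i).comp (measurable_pi_apply i))
  calc ∫ Y, ∏ i ∈ I, f i Y ∂P
      = ∫ Y, (fun z : (∀ i : I, S i → ℝ) => ∏ i : I, f i (e i (z i))) (fun i => r i Y) ∂P := by
        refine integral_congr_ae (ae_of_all _ fun Y => ?_)
        simp only [hfe]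
        exact (Finset.prod_coe_sort I fun i => f i Y).symm
    _ = ∫ z, ∏ i : I, f i (e i (z i)) ∂(P.map (fun (Y : V → ℝ) (i : I) => r i Y)) := by
        rw [integral_map hR.aemeasurable hF.aestronglyMeasurable]
    _ = ∏ i : I, ∫ z, f i (e i z) ∂((P' i).map (r i)) := by
        rw [← key]
        exact integral_fintype_prod_eq_prod (fun i : I => fun z : S i → ℝ => f i (e i z))
    _ = ∏ i : I, ∫ Y, f i Y ∂(P' i) := by
        refine Finset.prod_congr rfl fun i _ => ?_
        have hm : Measurable (fun z : S i → ℝ => f i (e i z)) := (hf i).comp (he i)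
        rw [integral_map (hr i).aemeasurable hm.aestronglyMeasurable]
        simp only [hfe]
    _ = _ := Finset.prod_coe_sort I fun i => ∫ Y, f i Y ∂(P' i)

end Box

end Vale.Agent.P161E
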