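import Vale.Agent.P161E.Equi
import Vale.Agent.P161E.Aut

/-!
# Sides of the edges of a tree, automorphisms
-/

open MeasureTheory Set Filter Topology
open scoped unitInterval ENNReal

namespace Vale.Agent.P161E

open Vale.Agent.P161 Vale.Agent.P161.ExistAux

universe u

namespace Dec

variable {V : Type u} {b : ℕ} {T : RTree V b}

/-! ### Trees -/

theorem dist_iso {G : SimpleGraph V} (hG : G.Connected) (φ : G ≃g G) (x y : V) :
    G.dist (φ x) (φ y) = G.dist x y := by
  have key : ∀ (ψ : G ≃g G) (x y : V), G.dist (ψ x) (ψ y) ≤ G.dist x y := by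
    intro ψ x y
    obtain ⟨p, hp⟩ := hG.exists_walk_length_eq_dist x y
    have := SimpleGraph.dist_le (p.map ψ.toHom)
    rw [SimpleGraph.Walk.length_map, hp] at this
    exact this
  refine le_antisymm (key φ x y) ?_
  have := key φ.symm (φ x) (φ y)
  simpa using this

theorem nbr_unique (T : RTree V b) {z x y y' : V} (hy : T.G.Adj x y) (hy' : T.G.Adj x y')
    (h : T.G.dist z y < T.G.dist z x) (h' : T.G.dist z y' < T.G.dist z x) : y = y' := by
  have key : ∀ y, T.G.Adj x y → T.G.dist z y < T.G.dist z x → y = par T.G z x := by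
    intro y hy h
    refine par_unique T.tree hy.symm ?_
    have h1 : T.G.dist z x ≤ T.G.dist z y + T.G.dist y x := T.tree.1.dist_triangle
    rw [SimpleGraph.dist_eq_one_iff_adj.2 hy.symm] at h1
    omega
  rw [key y hy h, key y' hy' h']

theorem nbr_exists (T : RTree V b) {z x : V} (h : z ≠ x) :
    ∃ y, T.G.Adj x y ∧ T.G.dist z y < T.G.dist z x := by
  obtain ⟨h1, h2⟩ := par_spec T.tree.1 (o := z) (v := x) (Ne.symm h)
  exact ⟨par T.G z x, h1.symm, by omega⟩

theorem mem_side {u x z : V} : z ∈ T.side u x ↔ T.G.dist z x < T.G.dist z u := Iff.rfl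

theorem side_compl {u x : V} (h : T.G.Adj u x) : (T.side u x)ᶜ = T.side x u := by
  ext z
  rw [mem_compl_iff, mem_side, mem_side]
  rcases dist_lt_or_gt T.tree h z with h1 | h1 <;> omega

theorem side_disj {x y y' : V} (hy : T.G.Adj x y) (hy' : T.G.Adj x y') (h : y ≠ y') {z : V}
    (hz : z ∈ T.side x y) : z ∉ T.side x y' := fun hz' => h (nbr_unique T hy hy' hz hz')

theorem side_sub {u x y : V} (hux : T.G.Adj u x) (hy : y ∈ T.ch u x) :
    T.side x y ⊆ T.side u x := by
  intro z hz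
  obtain ⟨h1, h2⟩ := RTree.mem_ch.mp hy
  have h3 := side_disj (y' := u) h2 hux.symm h1 hz
  rw [← side_compl hux, mem_compl_iff, not_not] at h3
  exact h3

theorem side_map (φ : T.G ≃g T.G) (u x z : V) : φ z ∈ T.side (φ u) (φ x) ↔ z ∈ T.side u x := by
  rw [mem_side, mem_side, dist_iso T.tree.1, dist_iso T.tree.1]

/-- common neighbours are unique -/
theorem mid_unique {u y x x' : V} (h : u ≠ y) (h1 : T.G.Adj u x) (h2 : T.G.Adj x y)
    (h3 : T.G.Adj u x') (h4 : T.G.Adj x' y) : x = x' := by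
  by_contra hne
  have e1 : ¬ T.G.Adj u y := by
    intro hadj
    have k1 := T.G.dist_comm (u := y) (v := x)
    have k2 := SimpleGraph.dist_eq_one_iff_adj.2 h2
    have k3 := SimpleGraph.dist_eq_one_iff_adj.2 hadj
    have k4 := dist_lt_or_gt T.tree hadj x
    have k5 := SimpleGraph.dist_eq_one_iff_adj.2 h1.symm
    omega
  have e2 : T.G.dist u y = 2 := by
    have k1 : T.G.dist u y ≤ T.G.dist u x + T.G.dist x y := T.tree.1.dist_triangle
    have k2 := SimpleGraph.dist_eq_one_iff_adj.2 h1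
    have k3 := SimpleGraph.dist_eq_one_iff_adj.2 h2
    have k4 : 0 < T.G.dist u y := T.tree.1.pos_dist_of_ne h
    have k5 : T.G.dist u y ≠ 1 := fun h => e1 (SimpleGraph.dist_eq_one_iff_adj.1 h)
    omega
  refine hne (nbr_unique T (z := u) (x := y) h2.symm h4.symm ?_ ?_)
  · rw [e2, SimpleGraph.dist_eq_one_iff_adj.2 h1]; norm_num
  · rw [e2, SimpleGraph.dist_eq_one_iff_adj.2 h3]; norm_num

theorem dist_two {u x y : V} (h : u ≠ y) (h1 : T.G.Adj u x) (h2 : T.G.Adj x y) :
    T.G.dist u y = 2 := by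
  have e1 : ¬ T.G.Adj u y := by
    intro hadj
    have k1 := T.G.dist_comm (u := y) (v := x)
    have k2 := SimpleGraph.dist_eq_one_iff_adj.2 h2
    have k3 := SimpleGraph.dist_eq_one_iff_adj.2 hadj
    have k4 := dist_lt_or_gt T.tree hadj x
    have k5 := SimpleGraph.dist_eq_one_iff_adj.2 h1.symm
    omega
  have k1 : T.G.dist u y ≤ T.G.dist u x + T.G.dist x y := T.tree.1.dist_triangle
  have k2 := SimpleGraph.dist_eq_one_iff_adj.2 h1
  have k3 := SimpleGraph.dist_eq_one_iff_adj.2 h2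
  have k4 : 0 < T.G.dist u y := T.tree.1.pos_dist_of_ne h
  have k5 : T.G.dist u y ≠ 1 := fun h => e1 (SimpleGraph.dist_eq_one_iff_adj.1 h)
  omega

/-- an automorphism exchanging two neighbours and fixing the others that are given -/
theorem exists_aut_fork {u u' x y : V} (hu : T.G.Adj u x) (hu' : T.G.Adj u' x)
    (hy : T.G.Adj x y) (h : u ≠ y) (h' : u' ≠ y) :
    ∃ φ : T.G ≃g T.G, φ u = u' ∧ φ x = x ∧ φ y = y := by
  obtain ⟨φ, h1, h2⟩ := exists_aut T (v := u) (w := y) (v' := u') (w' := y) (by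
    rw [dist_two h hu hy, dist_two h' hu' hy])
  refine ⟨φ, h1, ?_, h2⟩
  have e1 : T.G.Adj u' (φ x) := by rw [← h1]; exact φ.map_adj_iff.mpr hu
  have e2 : T.G.Adj (φ x) y := by
    conv_rhs => rw [← h2]
    exact φ.map_adj_iff.mpr hy
  exact (mid_unique h' hu' hy e1 e2).symm

end Dec

end Vale.Agent.P161E
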