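import Vale.Agent.P161E.SLim
import Vale.Agent.P161E.TreeSide
import Vale.Agent.P161E.SBox

/-!
# Conditional product formulas
-/

open MeasureTheory Set Filter Topology ProbabilityTheory
open scoped unitInterval ENNReal

namespace Vale.Agent.P161E
open Vale.Agent.P161
universe u
variable {V : Type u} {b : ℕ}



namespace Cpf

theorem integral_sg {T : RTree V b} {θ : ℝ} {μ : Measure (V → Bool)} (hμ : IsFreeIsing T.G θ μ)
    (x : V) : ∫ τ, sg (τ x) ∂μ = 0 := by
  classical
  have := hμ.prob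
  have hc : (T.G.induce (({x} : Finset V) : Set V)).Connected := by
    have hs : Subsingleton ((({x} : Finset V) : Set V)) := by
      rw [Finset.coe_singleton]; infer_instance
    have hn : Nonempty ((({x} : Finset V) : Set V)) := ⟨⟨x, by simp⟩⟩
    exact { preconnected := SimpleGraph.Preconnected.of_subsingleton, nonempty := hn }
  have h1 := hμ.cylinder {x} hc (fun _ => true)
  have h2 : ∏ e ∈ (({x} : Finset V).sym2) with e ∈ T.G.edgeSet, edgeFactor θ (fun _ : V => true) e = 1 := by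
    refine Finset.prod_eq_one fun e he => ?_
    exfalso
    rw [Finset.mem_filter] at he
    obtain ⟨h3, h4⟩ := he
    rw [Finset.sym2_singleton, Finset.mem_singleton] at h3
    rw [h3] at h4
    exact T.G.loopless.irrefl x h4
  rw [h2, mul_one] at h1
  have hm : MeasurableSet {τ : V → Bool | ∀ v ∈ ({x} : Finset V), τ v = true} := by
    have e : {τ : V → Bool | ∀ v ∈ ({x} : Finset V), τ v = true} =
        (fun τ : V → Bool => τ x) ⁻¹' {true} := by ext; simp
    rw [e]
    exact measurable_pi_apply x (measurableSet_singleton true)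
  have h3 : ∀ τ : V → Bool, sg (τ x) = 2 * ({τ : V → Bool | ∀ v ∈ ({x} : Finset V), τ v = true}.indicator
      (fun _ => (1 : ℝ)) τ) - 1 := by
    intro τ
    by_cases h : τ x = true
    · rw [Set.indicator_of_mem (by simpa using h), h]; norm_num [sg]
    · rw [Set.indicator_of_notMem (by simpa using h)]
      simp only [Bool.not_eq_true] at h
      rw [h]; norm_num [sg]
  simp_rw [h3]
  rw [integral_sub, integral_const_mul, integral_indicator_const _ hm, h1]
  · simp
  · exact ((integrable_const _).indicator hm).const_mul _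
  · exact integrable_const _

theorem sg_mul_one_add {s : ℝ} (hs : s = 1 ∨ s = -1) (c : Bool) :
    sg c * (1 + s * sg c) = s * (1 + s * sg c) := by
  rcases hs with rfl | rfl <;> cases c <;> norm_num [sg]

theorem dependsOn_prod {α : Type*} {C : Finset V} {D : V → Finset V} {G : V → (V → α) → ℝ}
    (hG : ∀ y ∈ C, DependsOn (G y) (D y : Set V)) [DecidableEq V] :
    DependsOn (fun τ => ∏ y ∈ C, G y τ) ((C.biUnion D : Finset V) : Set V) := by
  intro τ τ' h
  refine Finset.prod_congr rfl fun y hy => hG y hy fun w hw => h w ?_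
  rw [Finset.mem_coe, Finset.mem_biUnion]
  exact ⟨y, hy, hw⟩

/-- the spatial Markov property at `x` -/
theorem markov {T : RTree V b} {θ : ℝ} {μ : Measure (V → Bool)} (hμ : IsFreeIsing T.G θ μ)
    {x : V} {s : ℝ} (hs : s = 1 ∨ s = -1) (C : Finset V) (hC : ∀ y ∈ C, T.G.Adj x y)
    (D : V → Finset V) (hD : ∀ y ∈ C, (D y : Set V) ⊆ T.side x y)
    (G : V → (V → Bool) → ℝ) (hG : ∀ y ∈ C, DependsOn (G y) (D y : Set V))
    (hGi : ∀ y ∈ C, Integrable (G y) μ) :
    ∫ τ, (1 + s * sg (τ x)) * ∏ y ∈ C, G y τ ∂μ =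
      ∏ y ∈ C, ∫ τ, (1 + s * (θ * sg (τ y))) * G y τ ∂μ := by
  classical
  have := hμ.prob
  induction C using Finset.induction_on with
  | empty =>
    simp only [Finset.prod_empty, mul_one]
    rw [integral_add (integrable_const _)
      ((Integrable.of_bound (CovAux.measurable_sgv x).aestronglyMeasurable 1
        (ae_of_all _ fun τ => by simpa using (CovAux.abs_sg (τ x)).le)).const_mul _),
      integral_const_mul, integral_sg hμ]
    simp
  | insert y C hy ih =>
    have ih' := ih (fun z hz => hC z (Finset.mem_insert_of_mem hz))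
      (fun z hz => hD z (Finset.mem_insert_of_mem hz))
      (fun z hz => hG z (Finset.mem_insert_of_mem hz))
      (fun z hz => hGi z (Finset.mem_insert_of_mem hz))
    have hxy : T.G.Adj x y := hC y (Finset.mem_insert_self _ _)
    rw [Finset.prod_insert hy, ← ih']
    have h1 := P161.split T.tree T.fin hμ hxy (insert x (C.biUnion D)) (D y) (by
      intro w hw
      rcases Finset.mem_insert.1 hw with rfl | hw
      · rw [SimpleGraph.dist_self]
        exact T.tree.1.pos_dist_of_ne hxy.ne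
      · obtain ⟨z, hz, hw⟩ := Finset.mem_biUnion.1 hw
        have h2 : w ∈ T.side x z := hD z (Finset.mem_insert_of_mem hz) hw
        have h3 : w ∉ T.side x y := Dec.side_disj (hC z (Finset.mem_insert_of_mem hz)) hxy
          (fun h => hy (h ▸ hz)) h2
        rw [Dec.mem_side] at h3
        rcases dist_lt_or_gt T.tree hxy w with h4 | h4
        · exact h4
        · exact absurd h4 h3) (by
      intro w hw
      exact (Dec.mem_side).1 (hD y (Finset.mem_insert_self _ _) hw))
      (fun τ => (1 + s * sg (τ x)) * ∏ z ∈ C, G z τ) (G y) (by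
        intro τ τ' h
        have e1 : τ x = τ' x := h x (by simp)
        have e2 := dependsOn_prod (fun z hz => hG z (Finset.mem_insert_of_mem hz) :
          ∀ z ∈ C, DependsOn (G z) (D z : Set V)) (x := τ) (y := τ') (fun w hw => h w (by
            rw [Finset.coe_insert]; exact Set.mem_insert_of_mem _ hw))
        simp only at e2
        simp only [e1]
        rw [e2]) (hG y (Finset.mem_insert_self _ _))
    have e1 : ∀ τ : V → Bool, (1 + s * sg (τ x)) * ∏ z ∈ insert y C, G z τ =
        (1 + s * sg (τ x)) * (∏ z ∈ C, G z τ) * G y τ := by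
      intro τ
      rw [Finset.prod_insert hy]; ring
    simp_rw [e1]
    rw [h1]
    have e2 : ∀ τ : V → Bool, sg (τ x) * ((1 + s * sg (τ x)) * ∏ z ∈ C, G z τ) =
        s * ((1 + s * sg (τ x)) * ∏ z ∈ C, G z τ) := by
      intro τ
      rw [← mul_assoc, sg_mul_one_add hs]; ring
    simp_rw [e2]
    rw [integral_const_mul]
    have hiy : Integrable (fun τ : V → Bool => sg (τ y) * G y τ) μ :=
      (hGi y (Finset.mem_insert_self _ _)).bdd_mul
        (CovAux.measurable_sgv y).aestronglyMeasurable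
        (ae_of_all _ fun τ => by simpa using (CovAux.abs_sg (τ y)).le)
    have e3 : ∫ τ, (1 + s * (θ * sg (τ y))) * G y τ ∂μ =
        ∫ τ, G y τ ∂μ + s * θ * ∫ τ, sg (τ y) * G y τ ∂μ := by
      rw [← integral_const_mul, ← integral_add (hGi y (Finset.mem_insert_self _ _))
        (hiy.const_mul _)]
      refine integral_congr_ae (ae_of_all _ fun τ => ?_)
      simp only
      ring
    rw [e3]
    ring

theorem integral_prod_pi (ν : Measure ℝ) [IsProbabilityMeasure ν] (D : Finset V)
    {ψ : V → ℝ → ℝ} (hψ : ∀ w, Measurable (ψ w)) :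
    ∫ Y, ∏ w ∈ D, ψ w (Y w) ∂(Measure.infinitePi fun _ : V => ν) = ∏ w ∈ D, ∫ y, ψ w y ∂ν := by
  have h0 : Measurable (fun y : D → ℝ => ∏ v : D, ψ v (y v)) :=
    Finset.measurable_prod _ (fun v _ => (hψ v).comp (measurable_pi_apply v))
  have h1 := integral_restrict_infinitePi (μ := fun _ : V => ν) (s := D)
    (f := fun y : D → ℝ => ∏ v : D, ψ v (y v)) h0.aestronglyMeasurable
  rw [integral_fintype_prod_eq_prod (fun (v : D) (t : ℝ) => ψ v t)] at h1
  rw [← Finset.prod_coe_sort D (fun v => ∫ t, ψ v t ∂ν), ← h1]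
  refine integral_congr_ae (ae_of_all _ fun Y => ?_)
  exact (Finset.prod_coe_sort D (fun v => ψ v (Y v))).symm

theorem measurable_tanh : Measurable Real.tanh := by
  have h : Real.tanh = fun x => Real.sinh x / Real.cosh x :=
    funext fun x => Real.tanh_eq_sinh_div_cosh x
  rw [h]
  exact Real.measurable_sinh.div Real.measurable_cosh

theorem abs_tanh_le (y : ℝ) : |Real.tanh y| ≤ 1 := (Real.abs_tanh_lt_one y).le

theorem abs_factor_le (c : Bool) (y : ℝ) : |1 + sg c * Real.tanh y| ≤ 2 := by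
  calc |1 + sg c * Real.tanh y| ≤ |1| + |sg c * Real.tanh y| := abs_add_le _ _
    _ = 1 + |Real.tanh y| := by rw [abs_mul, CovAux.abs_sg, one_mul, abs_one]
    _ ≤ 2 := by linarith [abs_tanh_le y]

theorem box_mean {μ : Measure (V → Bool)} [IsProbabilityMeasure μ] {ν : Measure ℝ}
    [IsProbabilityMeasure ν] {Q : Measure (V → ℝ)} (hQ : IsPlanted μ ν Q) (D : Finset V) (v : V)
    (c : ℝ) {φ : V → ℝ → ℝ} (hφ : ∀ w, Measurable (φ w)) (hφ1 : ∀ w y, |φ w y| ≤ 1) :
    ∫ Y, (∏ w ∈ D, φ w (Y w)) * (1 + c * mean μ D v Y) ∂Q =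
      ∫ τ, (1 + c * sg (τ v)) * ∏ w ∈ D, ∫ y, φ w y * (1 + sg (τ w) * Real.tanh y) ∂ν ∂μ := by
  classical
  have hbox : Measurable (fun Y : V → ℝ => ∏ w ∈ D, φ w (Y w)) :=
    Finset.measurable_fun_prod _ fun w _ => (hφ w).comp (measurable_pi_apply w)
  have hbox1 : ∀ Y : V → ℝ, |∏ w ∈ D, φ w (Y w)| ≤ 1 := by
    intro Y
    rw [Finset.abs_prod]
    exact Finset.prod_le_one (fun _ _ => abs_nonneg _) fun w _ => hφ1 w _
  have hm : Measurable (fun Y : V → ℝ => mean μ D v Y) := measurable_mean μ D v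
  have hm1 : ∀ Y : V → ℝ, |mean μ D v Y| ≤ 1 := fun Y => CovAux.abs_mean_le μ D v Y
  have hc1 : ∀ Y : V → ℝ, |1 + c * mean μ D v Y| ≤ 1 + |c| := by
    intro Y
    calc |1 + c * mean μ D v Y| ≤ |1| + |c * mean μ D v Y| := abs_add_le _ _
      _ = 1 + |c| * |mean μ D v Y| := by rw [abs_mul, abs_one]
      _ ≤ 1 + |c| * 1 := by gcongr; exact hm1 Y
      _ = 1 + |c| := by ring
  rw [integral_planted hQ D (F := fun Y => (∏ w ∈ D, φ w (Y w)) * (1 + c * mean μ D v Y))
    (hbox.mul (measurable_const.add (hm.const_mul c))) ⟨1 * (1 + |c|), fun Y => by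
      rw [abs_mul]
      exact mul_le_mul (hbox1 Y) (hc1 Y) (abs_nonneg _) zero_le_one⟩ (by
      intro Y Y' h
      have e1 : ∏ w ∈ D, φ w (Y w) = ∏ w ∈ D, φ w (Y' w) :=
        Finset.prod_congr rfl fun w hw => by rw [h w hw]
      have e2 : mean μ D v Y = mean μ D v Y' := dependsOn_mean μ D v h
      simp only [e1, e2])]
  -- the likelihood as an integral
  have hprod : ∀ τ : V → Bool, ∀ Y : V → ℝ, |∏ w ∈ D, (1 + sg (τ w) * Real.tanh (Y w))| ≤
      2 ^ D.card := by
    intro τ Y
    rw [Finset.abs_prod]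
    exact (Finset.prod_le_prod (fun _ _ => abs_nonneg _)
      fun w _ => abs_factor_le (τ w) (Y w)).trans (by rw [Finset.prod_const])
  have hmf : ∀ w : V, Measurable (fun p : (V → ℝ) × (V → Bool) => 1 + sg (p.2 w) * Real.tanh (p.1 w)) := by
    intro w
    refine measurable_const.add (Measurable.mul ?_ ?_)
    · exact (CovAux.measurable_sgv w).comp measurable_snd
    · exact measurable_tanh.comp ((measurable_pi_apply w).comp measurable_fst)
  have hmP : Measurable (fun p : (V → ℝ) × (V → Bool) =>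
      ∏ w ∈ D, (1 + sg (p.2 w) * Real.tanh (p.1 w))) :=
    Finset.measurable_fun_prod _ fun w _ => hmf w
  have e1 : ∀ Y : V → ℝ, (∏ w ∈ D, φ w (Y w)) * (1 + c * mean μ D v Y) * Lik μ D Y =
      ∫ τ, (∏ w ∈ D, φ w (Y w)) * ((1 + c * sg (τ v)) *
        ∏ w ∈ D, (1 + sg (τ w) * Real.tanh (Y w))) ∂μ := by
    intro Y
    have i1 : Integrable (fun τ : V → Bool => ∏ w ∈ D, (1 + sg (τ w) * Real.tanh (Y w))) μ :=
      Integrable.of_bound (hmP.comp (measurable_const.prodMk measurable_id)).aestronglyMeasurable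
        (2 ^ D.card) (ae_of_all _ fun τ => hprod τ Y)
    have i2 : Integrable (fun τ : V → Bool => sg (τ v) *
        ∏ w ∈ D, (1 + sg (τ w) * Real.tanh (Y w))) μ :=
      i1.bdd_mul (CovAux.measurable_sgv v).aestronglyMeasurable
        (ae_of_all _ fun τ => by simpa using (CovAux.abs_sg (τ v)).le)
    have e2 : ∀ τ : V → Bool, (1 + c * sg (τ v)) * ∏ w ∈ D, (1 + sg (τ w) * Real.tanh (Y w)) =
        ∏ w ∈ D, (1 + sg (τ w) * Real.tanh (Y w)) +
          c * (sg (τ v) * ∏ w ∈ D, (1 + sg (τ w) * Real.tanh (Y w))) := fun τ => by ring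
    rw [integral_const_mul]
    simp_rw [e2]
    rw [integral_add i1 (i2.const_mul c), integral_const_mul, ← mean_mul_Lik]
    unfold Lik
    ring
  simp_rw [e1]
  have hi : Integrable (Function.uncurry fun (Y : V → ℝ) (τ : V → Bool) =>
      (∏ w ∈ D, φ w (Y w)) * ((1 + c * sg (τ v)) *
        ∏ w ∈ D, (1 + sg (τ w) * Real.tanh (Y w))))
      ((Measure.infinitePi fun _ : V => ν).prod μ) := by
    refine Integrable.of_bound (C := 1 * ((1 + |c|) * 2 ^ D.card)) ?_ (ae_of_all _ fun p => ?_)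
    · refine Measurable.aestronglyMeasurable ?_
      refine (hbox.comp measurable_fst).mul (Measurable.mul ?_ hmP)
      exact measurable_const.add (((CovAux.measurable_sgv v).comp measurable_snd).const_mul c)
    · simp only [Function.uncurry, Real.norm_eq_abs]
      rw [abs_mul, abs_mul]
      refine mul_le_mul (hbox1 _) (mul_le_mul ?_ (hprod _ _) (abs_nonneg _) (by positivity))
        (by positivity) zero_le_one
      calc |1 + c * sg (p.2 v)| ≤ |1| + |c * sg (p.2 v)| := abs_add_le _ _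
        _ = 1 + |c| := by rw [abs_mul, CovAux.abs_sg, mul_one, abs_one]
  rw [integral_integral_swap hi]
  refine integral_congr_ae (ae_of_all _ fun τ => ?_)
  simp only
  have e3 : ∀ Y : V → ℝ, (∏ w ∈ D, φ w (Y w)) * ((1 + c * sg (τ v)) *
      ∏ w ∈ D, (1 + sg (τ w) * Real.tanh (Y w))) =
      (1 + c * sg (τ v)) * ∏ w ∈ D, (φ w (Y w) * (1 + sg (τ w) * Real.tanh (Y w))) := by
    intro Y
    rw [Finset.prod_mul_distrib]; ring
  simp_rw [e3]
  rw [integral_const_mul]
  congr 1
  exact integral_prod_pi ν D (ψ := fun w y => φ w y * (1 + sg (τ w) * Real.tanh y))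
    (fun w => (hφ w).mul (measurable_const.add (measurable_tanh.const_mul _)))

/-! ### densities -/

section dens

variable {Q : Measure (V → ℝ)} [IsProbabilityMeasure Q] {w : (V → ℝ) → ℝ} (hw : Measurable w)
  (hw1 : ∀ Y, |w Y| ≤ 1) {s : ℝ} (hs : s = 1 ∨ s = -1)

/-- the measure with the density `1 + s w` -/
noncomputable def dens (Q : Measure (V → ℝ)) (w : (V → ℝ) → ℝ) (s : ℝ) : Measure (V → ℝ) :=
  Q.withDensity fun Y => ENNReal.ofReal (1 + s * w Y)

include hw hw1 hs

omit hw in
theorem dens_nonneg (Y : V → ℝ) : 0 ≤ 1 + s * w Y := by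
  have := abs_le.mp (hw1 Y)
  rcases hs with rfl | rfl <;> linarith

omit hs in
theorem integrable_dens : Integrable (fun Y => 1 + s * w Y) Q := by
  refine (integrable_const _).add (Integrable.const_mul ?_ _)
  exact Integrable.of_bound hw.aestronglyMeasurable 1 (ae_of_all _ hw1)

theorem dens_apply {B : Set (V → ℝ)} (hB : MeasurableSet B) :
    dens Q w s B = ENNReal.ofReal (∫ Y, B.indicator (fun _ => (1 : ℝ)) Y * (1 + s * w Y) ∂Q) := by
  unfold dens
  rw [withDensity_apply _ hB, ← ofReal_integral_eq_lintegral_ofReal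
    (integrable_dens hw hw1).integrableOn (ae_of_all _ fun Y => dens_nonneg hw1 hs Y),
    ← integral_indicator hB]
  congr 1
  refine integral_congr_ae (ae_of_all _ fun Y => ?_)
  by_cases h : Y ∈ B
  · simp [h]
  · simp [h]

theorem dens_prob (h0 : ∫ Y, w Y ∂Q = 0) : IsProbabilityMeasure (dens Q w s) := by
  constructor
  rw [dens_apply hw hw1 hs MeasurableSet.univ]
  have e : ∫ Y, (univ : Set (V → ℝ)).indicator (fun _ => (1 : ℝ)) Y * (1 + s * w Y) ∂Q = 1 := by
    simp only [indicator_univ, one_mul]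
    rw [integral_add (integrable_const _) (Integrable.const_mul
      (Integrable.of_bound hw.aestronglyMeasurable 1 (ae_of_all _ hw1)) _), integral_const_mul, h0]
    simp
  rw [e, ENNReal.ofReal_one]

omit [IsProbabilityMeasure Q] in
theorem integral_dens (F : (V → ℝ) → ℝ) :
    ∫ Y, F Y ∂(dens Q w s) = ∫ Y, (1 + s * w Y) * F Y ∂Q := by
  unfold dens
  have hm : Measurable fun Y => ENNReal.ofReal (1 + s * w Y) :=
    (measurable_const.add (hw.const_mul s)).ennreal_ofReal
  rw [integral_withDensity_eq_integral_toReal_smul hm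
    (ae_of_all _ fun Y => ENNReal.ofReal_lt_top)]
  refine integral_congr_ae (ae_of_all _ fun Y => ?_)
  simp only [smul_eq_mul]
  rw [ENNReal.toReal_ofReal (dens_nonneg hw1 hs Y)]

end dens

/-! ### marginals -/

theorem map_eval {T : RTree V b} {θ : ℝ} {μ : Measure (V → Bool)} {ν : Measure ℝ}
    {Q : Measure (V → ℝ)} (h : SR T θ μ ν Q) (x : V) : Q.map (fun Y => Y x) = ν := by
  have := h.prob_μ
  have := h.prob_ν
  have := h.prob_Q
  ext A hA
  rw [Measure.map_apply (measurable_pi_apply x) hA]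
  have h1 := h.hQ.law {x} (((fun Y : V → ℝ => Y x) ⁻¹' A).indicator (fun _ => 1))
    (measurable_const.indicator (measurable_pi_apply x hA)) (by
      intro Y Y' hY
      have : Y x = Y' x := hY x (by simp)
      by_cases hx : Y x ∈ A
      · rw [indicator_of_mem (by exact hx), indicator_of_mem (by rw [mem_preimage, ← this]; exact hx)]
      · rw [indicator_of_notMem (by exact hx),
          indicator_of_notMem (by rw [mem_preimage, ← this]; exact hx)])
  have h2 : ∀ Y : V → ℝ, Lik μ {x} Y = 1 := by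
    intro Y
    unfold Lik
    simp only [Finset.prod_singleton]
    rw [integral_add (integrable_const _) (Integrable.mul_const
      (Integrable.of_bound (CovAux.measurable_sgv x).aestronglyMeasurable 1
        (ae_of_all _ fun τ => by simpa using (CovAux.abs_sg (τ x)).le)) _), integral_mul_const,
      integral_sg h.hμ]
    simp
  simp_rw [h2, ENNReal.ofReal_one, mul_one] at h1
  rw [lintegral_indicator_const (measurable_pi_apply x hA),
    lintegral_indicator_const (measurable_pi_apply x hA), one_mul, one_mul] at h1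
  rw [h1, ← Measure.map_apply (measurable_pi_apply x) hA, Measure.infinitePi_map_eval]

theorem integral_eval {T : RTree V b} {θ : ℝ} {μ : Measure (V → Bool)} {ν : Measure ℝ}
    {Q : Measure (V → ℝ)} (h : SR T θ μ ν Q) (x : V) {g : ℝ → ℝ} (hg : Measurable g) :
    ∫ Y, g (Y x) ∂Q = ∫ y, g y ∂ν := by
  rw [← map_eval h x, integral_map (measurable_pi_apply x).aemeasurable hg.aestronglyMeasurable]

theorem integral_tanh {ν : Measure ℝ} (hν : Obs ν) : ∫ y, Real.tanh y ∂ν = 0 := by
  have h1 : ∫ y, Real.tanh y ∂ν = ∫ y, Real.tanh y ∂(Measure.map (fun y : ℝ => -y) ν) := by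
    rw [hν.symm]
  rw [integral_map measurable_neg.aemeasurable measurable_tanh.aestronglyMeasurable] at h1
  simp only [Real.tanh_neg] at h1
  rw [integral_neg] at h1
  linarith

theorem integral_th {T : RTree V b} {θ : ℝ} {μ : Measure (V → Bool)} {ν : Measure ℝ}
    {Q : Measure (V → ℝ)} (h : SR T θ μ ν Q) (u x : V) : ∫ Y, th T μ u x Y ∂Q = 0 := by
  have := h.prob_μ
  have h1 := tower_th T h.hν h.hQ u x ∅ (by simp) (F := fun _ => 1) measurable_const
    ⟨1, fun _ => by simp⟩ (fun _ _ _ => rfl)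
  simp only [one_mul] at h1
  rw [h1]
  have h2 : ∀ Y : V → ℝ, mean μ ∅ x Y = 0 := by
    intro Y
    have h3 := mean_mul_Lik μ ∅ x Y
    simp only [Finset.prod_empty, mul_one] at h3
    rw [integral_sg h.hμ] at h3
    exact (mul_eq_zero.mp h3).resolve_right (Lik_pos μ ∅ Y).ne'
  simp [h2]

open Classical in
/-- the weight of the branch at `i` seen from `x` (of the field at `x` if `i = x`) -/
noncomputable def Wt (T : RTree V b) (μ : Measure (V → Bool)) (θ : ℝ) (x i : V) (Y : V → ℝ) : ℝ :=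
  if i = x then Real.tanh (Y x) else θ * th T μ x i Y

open Classical in
/-- the branch at `i` seen from `x` (the field at `x` if `i = x`) -/
def Sd (T : RTree V b) (x i : V) : Set V := if i = x then {x} else T.side x i

section main

variable {T : RTree V b} {θ : ℝ} {μ : Measure (V → Bool)} {ν : Measure ℝ}
    {Q : Measure (V → ℝ)} (h : SR T θ μ ν Q)

include h

theorem measurable_Wt (x i : V) : Measurable (Wt T μ θ x i) := by
  have := h.prob_μ
  unfold Wt
  by_cases hi : i = x
  · simp only [hi, if_true]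
    exact measurable_tanh.comp (measurable_pi_apply x)
  · simp only [hi, if_false]
    exact (measurable_th T μ x i).const_mul θ

theorem abs_Wt_le (x i : V) (Y : V → ℝ) : |Wt T μ θ x i Y| ≤ 1 := by
  have := h.prob_μ
  unfold Wt
  by_cases hi : i = x
  · simp only [hi, if_true]
    exact abs_tanh_le _
  · simp only [hi, if_false]
    rw [abs_mul, abs_of_nonneg h.θ0]
    exact mul_le_one₀ h.θlt.le (abs_nonneg _) (abs_th_le T μ x i Y)

theorem integral_Wt (x i : V) : ∫ Y, Wt T μ θ x i Y ∂Q = 0 := by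
  unfold Wt
  by_cases hi : i = x
  · simp only [hi, if_true]
    rw [integral_eval h x measurable_tanh, integral_tanh h.hν]
  · simp only [hi, if_false]
    rw [integral_const_mul, integral_th h, mul_zero]

theorem prod_indicator {D : Finset V} {A : V → Set ℝ} (Y : V → ℝ) :
    ∏ w ∈ D, (A w).indicator (fun _ => (1 : ℝ)) (Y w) =
      {Y : V → ℝ | ∀ w ∈ D, Y w ∈ A w}.indicator (fun _ => 1) Y := by
  classical
  by_cases hY : ∀ w ∈ D, Y w ∈ A w
  · rw [indicator_of_mem (by rw [mem_ofPred_eq]; exact hY)]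
    exact Finset.prod_eq_one fun w hw => by rw [indicator_of_mem (hY w hw)]
  · rw [indicator_of_notMem (by rw [mem_ofPred_eq]; exact hY)]
    push Not at hY
    obtain ⟨w, hw, hw'⟩ := hY
    exact Finset.prod_eq_zero hw (by rw [indicator_of_notMem hw'])

theorem measurableSet_box {D : Finset V} {A : V → Set ℝ} (hA : ∀ w, MeasurableSet (A w)) :
    MeasurableSet {Y : V → ℝ | ∀ w ∈ D, Y w ∈ A w} := by
  have : {Y : V → ℝ | ∀ w ∈ D, Y w ∈ A w} = (D : Set V).pi A := by
    ext Y; simp [Set.mem_pi]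
  rw [this]
  exact MeasurableSet.pi (Finset.countable_toSet _) fun w _ => hA w

/-- the integral of a box in a branch -/
theorem box_branch {x y : V} (D : Finset V) (hD : (D : Set V) ⊆ T.side x y)
    {A : V → Set ℝ} (hA : ∀ w, MeasurableSet (A w)) {s : ℝ} :
    ∫ Y, {Y : V → ℝ | ∀ w ∈ D, Y w ∈ A w}.indicator (fun _ => (1 : ℝ)) Y *
        (1 + s * (θ * th T μ x y Y)) ∂Q =
      ∫ τ, (1 + s * (θ * sg (τ y))) * ∏ w ∈ D, ∫ z, (A w).indicator (fun _ => (1 : ℝ)) z *
        (1 + sg (τ w) * Real.tanh z) ∂ν ∂μ := by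
  have := h.prob_μ
  have := h.prob_ν
  have := h.prob_Q
  have hm : ∀ w, Measurable ((A w).indicator (fun _ => (1 : ℝ))) := fun w =>
    measurable_const.indicator (hA w)
  have hm1 : ∀ w z, |(A w).indicator (fun _ => (1 : ℝ)) z| ≤ 1 := by
    intro w z
    by_cases hz : z ∈ A w
    · rw [indicator_of_mem hz]; simp
    · rw [indicator_of_notMem hz]; simp
  have h1 := box_mean h.hQ D y (s * θ) hm hm1
  have e1 : ∀ τ : V → Bool, (1 + s * (θ * sg (τ y))) = (1 + s * θ * sg (τ y)) := fun τ => by ring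
  simp_rw [e1]
  rw [← h1]
  simp_rw [prod_indicator h]
  set ind := {Y : V → ℝ | ∀ w ∈ D, Y w ∈ A w}.indicator (fun _ => (1 : ℝ)) with hind
  have hi : Measurable ind := measurable_const.indicator (measurableSet_box h hA)
  have hi1 : ∀ Y, |ind Y| ≤ 1 := by
    intro Y
    by_cases hz : Y ∈ {Y : V → ℝ | ∀ w ∈ D, Y w ∈ A w}
    · rw [hind, indicator_of_mem hz]; simp
    · rw [hind, indicator_of_notMem hz]; simp
  have hid : DependsOn ind (D : Set V) := by
    intro Y Y' hY
    rw [hind, ← prod_indicator h, ← prod_indicator h]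
    exact Finset.prod_congr rfl fun w hw => by rw [hY w hw]
  have h2 := tower_th T h.hν h.hQ x y D hD hi ⟨1, hi1⟩ hid
  have i0 : Integrable ind Q := Integrable.of_bound hi.aestronglyMeasurable 1 (ae_of_all _ hi1)
  have i1 : Integrable (fun Y => ind Y * th T μ x y Y) Q :=
    i0.mul_bdd (measurable_th T μ x y).aestronglyMeasurable
      (ae_of_all _ fun Y => by simpa using abs_th_le T μ x y Y)
  have i2 : Integrable (fun Y => ind Y * mean μ D y Y) Q :=
    i0.mul_bdd (measurable_mean μ D y).aestronglyMeasurable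
      (ae_of_all _ fun Y => by simpa using CovAux.abs_mean_le μ D y Y)
  have e2 : ∀ Y, ind Y * (1 + s * (θ * th T μ x y Y)) =
      ind Y + s * θ * (ind Y * th T μ x y Y) := fun Y => by ring
  have e3 : ∀ Y, ind Y * (1 + s * θ * mean μ D y Y) =
      ind Y + s * θ * (ind Y * mean μ D y Y) := fun Y => by ring
  simp_rw [e2, e3]
  rw [integral_add i0 (i1.const_mul _), integral_add i0 (i2.const_mul _), integral_const_mul,
    integral_const_mul, h2]

theorem mem_Sd_self {x w : V} : w ∈ Sd T x x ↔ w = x := by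
  unfold Sd
  simp

theorem mem_Sd_of_ne {x i w : V} (hi : i ≠ x) : w ∈ Sd T x i ↔ w ∈ T.side x i := by
  unfold Sd
  simp [hi]

theorem notMem_side {x y : V} : x ∉ T.side x y := by
  rw [Dec.mem_side, SimpleGraph.dist_self]
  exact Nat.not_lt_zero _

theorem box_eq [DecidableEq V] {x : V} {C : Finset V} (hC : ∀ y ∈ C, T.G.Adj x y) {R : Set V}
    (hxR : x ∈ R) (hR : ∀ y ∈ C, T.side x y ⊆ R) {m : (V → ℝ) → ℝ} (hm : Measurable m)
    (hm1 : ∀ Y, |m Y| ≤ 1)
    (htower : ∀ D : Finset V, (D : Set V) ⊆ R → ∀ F : (V → ℝ) → ℝ, Measurable F →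
      (∃ C, ∀ Y, |F Y| ≤ C) → DependsOn F (D : Set V) →
      ∫ Y, F Y * m Y ∂Q = ∫ Y, F Y * mean μ D x Y ∂Q) {s : ℝ} (hs : s = 1 ∨ s = -1)
    (D : V → Finset V) (A : V → V → Set ℝ) (hD : ∀ i ∈ insert x C, (D i : Set V) ⊆ Sd T x i)
    (hA : ∀ i w, MeasurableSet (A i w)) :
    dens Q m s {Y | ∀ i ∈ insert x C, ∀ w ∈ D i, Y w ∈ A i w} =
      ∏ i ∈ insert x C, dens Q (Wt T μ θ x i) s {Y | ∀ w ∈ D i, Y w ∈ A i w} := by
  have := h.prob_μ
  have := h.prob_ν
  have := h.prob_Q
  have hxC : x ∉ C := fun hx => (hC x hx).ne rfl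
  have hDx : ∀ w ∈ D x, w = x := fun w hw =>
    (mem_Sd_self h).mp (hD x (Finset.mem_insert_self _ _) hw)
  have hDy : ∀ y ∈ C, (D y : Set V) ⊆ T.side x y := fun y hy w hw =>
    (mem_Sd_of_ne h (hC y hy).ne').mp (hD y (Finset.mem_insert_of_mem hy) hw)
  have hxD : ∀ y ∈ C, x ∉ D y := fun y hy hx => notMem_side h (hDy y hy hx)
  have hdisj : ∀ y ∈ C, ∀ y' ∈ C, y ≠ y' → Disjoint (D y) (D y') := by
    intro y hy y' hy' hne
    rw [Finset.disjoint_left]
    intro w hw hw'
    exact Dec.side_disj (hC y hy) (hC y' hy') hne (hDy y hy hw) (hDy y' hy' hw')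
  -- common sets
  obtain ⟨A', hA'⟩ : ∃ A' : V → Set ℝ, A' = fun w => {y | ∀ i ∈ insert x C, w ∈ D i → y ∈ A i w} :=
    ⟨_, rfl⟩
  have hA'm : ∀ w, MeasurableSet (A' w) := by
    intro w
    have : A' w = ⋂ i ∈ (insert x C).filter (fun i => w ∈ D i), A i w := by
      ext y
      simp only [hA', mem_ofPred_eq, mem_iInter, Finset.mem_filter, and_imp]
    rw [this]
    exact Finset.measurableSet_biInter _ fun i _ => hA i w
  have hA'y : ∀ y ∈ C, ∀ w ∈ D y, A' w = A y w := by
    intro y hy w hw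
    ext z
    simp only [hA', mem_ofPred_eq]
    constructor
    · intro H
      exact H y (Finset.mem_insert_of_mem hy) hw
    · intro H i hi hw'
      rcases Finset.mem_insert.1 hi with rfl | hi
      · have := hDx w hw'
        rw [this] at hw
        exact absurd hw (hxD y hy)
      · by_cases hiy : i = y
        · rw [hiy]; exact H
        · exact absurd hw (Finset.disjoint_left.mp (hdisj i hi y hy hiy) hw')
  have hbox : {Y : V → ℝ | ∀ i ∈ insert x C, ∀ w ∈ D i, Y w ∈ A i w} =
      {Y : V → ℝ | ∀ w ∈ insert x (C.biUnion D), Y w ∈ A' w} := by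
    ext Y
    simp only [mem_ofPred_eq, hA']
    constructor
    · intro H w _ i hi hw
      exact H i hi w hw
    · intro H i hi w hw
      refine H w ?_ i hi hw
      rcases Finset.mem_insert.1 hi with rfl | hi
      · rw [hDx w hw]; exact Finset.mem_insert_self _ _
      · exact Finset.mem_insert_of_mem (Finset.mem_biUnion.2 ⟨i, hi, hw⟩)
  have hboxx : {Y : V → ℝ | ∀ w ∈ D x, Y w ∈ A x w} = {Y : V → ℝ | ∀ w ∈ ({x} : Finset V), Y w ∈ A' w} := by
    ext Y
    simp only [mem_ofPred_eq, hA', Finset.mem_singleton, forall_eq]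
    constructor
    · intro H i hi hw
      rcases Finset.mem_insert.1 hi with rfl | hi
      · exact H _ hw
      · exact absurd hw (hxD i hi)
    · intro H w hw
      have hwx := hDx w hw
      rw [hwx] at hw ⊢
      exact H x (Finset.mem_insert_self _ _) hw
  have hboxy : ∀ y ∈ C, {Y : V → ℝ | ∀ w ∈ D y, Y w ∈ A y w} =
      {Y : V → ℝ | ∀ w ∈ D y, Y w ∈ A' w} := by
    intro y hy
    ext Y
    simp only [mem_ofPred_eq]
    exact forall₂_congr fun w hw => by rw [hA'y y hy w hw]
  -- the factor at `x`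
  obtain ⟨α, hα⟩ : ∃ α : ℝ, α = ∫ z, (A' x).indicator (fun _ => (1 : ℝ)) z *
    (1 + s * Real.tanh z) ∂ν := ⟨_, rfl⟩
  have hs0 : ∀ z : ℝ, 0 ≤ 1 + s * Real.tanh z := by
    intro z
    have := abs_le.mp (abs_tanh_le z)
    rcases hs with rfl | rfl <;> linarith
  have hα0 : 0 ≤ α := by
    rw [hα]
    refine integral_nonneg fun z => mul_nonneg ?_ (hs0 z)
    exact indicator_nonneg (fun _ _ => zero_le_one) z
  have hx1 : dens Q (Wt T μ θ x x) s {Y | ∀ w ∈ D x, Y w ∈ A x w} = ENNReal.ofReal α := by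
    rw [hboxx, dens_apply (measurable_Wt h x x) (abs_Wt_le h x x) hs (measurableSet_box h hA'm), hα]
    congr 1
    have hgm : Measurable fun z => (A' x).indicator (fun _ => (1 : ℝ)) z *
        (1 + s * Real.tanh z) := (measurable_const.indicator (hA'm x)).mul
      (measurable_const.add (measurable_tanh.const_mul s))
    rw [← integral_eval h x hgm]
    refine integral_congr_ae (ae_of_all _ fun Y => ?_)
    simp only
    rw [← prod_indicator h]
    simp [Wt]
  -- the factors of the branches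
  obtain ⟨β, hβ⟩ : ∃ β : V → ℝ, β = fun y => ∫ Y, {Y : V → ℝ | ∀ w ∈ D y, Y w ∈ A' w}.indicator
    (fun _ => (1 : ℝ)) Y * (1 + s * (θ * th T μ x y Y)) ∂Q := ⟨_, rfl⟩
  have hβ1 : ∀ y ∈ C, dens Q (Wt T μ θ x y) s {Y | ∀ w ∈ D y, Y w ∈ A y w} =
      ENNReal.ofReal (β y) := by
    intro y hy
    rw [hboxy y hy, dens_apply (measurable_Wt h x y) (abs_Wt_le h x y) hs
      (measurableSet_box h hA'm), hβ]
    simp only [Wt, if_neg (hC y hy).ne']
  have hβ0 : ∀ y ∈ C, 0 ≤ β y := by
    intro y hy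
    rw [hβ]
    refine integral_nonneg fun Y => mul_nonneg ?_ ?_
    · exact indicator_nonneg (fun _ _ => zero_le_one) Y
    · have h1 := dens_nonneg (abs_Wt_le h x y) hs Y
      simpa only [Wt, if_neg (hC y hy).ne'] using h1
  rw [Finset.prod_insert hxC, hx1, Finset.prod_congr rfl hβ1,
    ← ENNReal.ofReal_prod_of_nonneg hβ0, ← ENNReal.ofReal_mul hα0, hbox,
    dens_apply hm hm1 hs (measurableSet_box h hA'm)]
  congr 1
  -- tower
  set D₀ : Finset V := insert x (C.biUnion D) with hD₀
  have hD₀R : (D₀ : Set V) ⊆ R := by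
    intro w hw
    rw [hD₀] at hw
    rcases Finset.mem_insert.1 (Finset.mem_coe.1 hw) with rfl | hw
    · exact hxR
    · obtain ⟨y, hy, hw⟩ := Finset.mem_biUnion.1 hw
      exact hR y hy (hDy y hy hw)
  have hmi : ∀ w, Measurable ((A' w).indicator (fun _ => (1 : ℝ))) := fun w =>
    measurable_const.indicator (hA'm w)
  have hmi1 : ∀ w z, |(A' w).indicator (fun _ => (1 : ℝ)) z| ≤ 1 := by
    intro w z
    by_cases hz : z ∈ A' w
    · rw [indicator_of_mem hz]; simp
    · rw [indicator_of_notMem hz]; simp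
  have h1 := box_mean h.hQ D₀ x s hmi hmi1
  simp_rw [prod_indicator h] at h1
  set ind := {Y : V → ℝ | ∀ w ∈ D₀, Y w ∈ A' w}.indicator (fun _ => (1 : ℝ)) with hind
  have hi : Measurable ind := measurable_const.indicator (measurableSet_box h hA'm)
  have hi1 : ∀ Y, |ind Y| ≤ 1 := by
    intro Y
    by_cases hz : Y ∈ {Y : V → ℝ | ∀ w ∈ D₀, Y w ∈ A' w}
    · rw [hind, indicator_of_mem hz]; simp
    · rw [hind, indicator_of_notMem hz]; simp
  have hid : DependsOn ind (D₀ : Set V) := by
    intro Y Y' hY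
    rw [hind, ← prod_indicator h, ← prod_indicator h]
    exact Finset.prod_congr rfl fun w hw => by rw [hY w hw]
  have h2 := htower D₀ hD₀R ind hi ⟨1, hi1⟩ hid
  have i0 : Integrable ind Q := Integrable.of_bound hi.aestronglyMeasurable 1 (ae_of_all _ hi1)
  have i1 : Integrable (fun Y => ind Y * m Y) Q :=
    i0.mul_bdd hm.aestronglyMeasurable (ae_of_all _ fun Y => by simpa using hm1 Y)
  have i2 : Integrable (fun Y => ind Y * mean μ D₀ x Y) Q :=
    i0.mul_bdd (measurable_mean μ D₀ x).aestronglyMeasurable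
      (ae_of_all _ fun Y => by simpa using CovAux.abs_mean_le μ D₀ x Y)
  have e2 : ∀ Y, ind Y * (1 + s * m Y) = ind Y + s * (ind Y * m Y) := fun Y => by ring
  have e3 : ∀ Y, ind Y * (1 + s * mean μ D₀ x Y) = ind Y + s * (ind Y * mean μ D₀ x Y) :=
    fun Y => by ring
  simp_rw [e3] at h1
  simp_rw [e2]
  rw [integral_add i0 (i1.const_mul _), integral_const_mul, h2, ← integral_const_mul,
    ← integral_add i0 (i2.const_mul _), h1]
  -- Markov property
  obtain ⟨a, ha⟩ : ∃ a : V → Bool → ℝ, a = fun w c => ∫ z, (A' w).indicator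
    (fun _ => (1 : ℝ)) z * (1 + sg c * Real.tanh z) ∂ν := ⟨_, rfl⟩
  have hxU : x ∉ C.biUnion D := by
    intro hx
    obtain ⟨y, hy, hx⟩ := Finset.mem_biUnion.1 hx
    exact hxD y hy hx
  have e4 : ∀ τ : V → Bool, (1 + s * sg (τ x)) * ∏ w ∈ D₀, ∫ z, (A' w).indicator
      (fun _ => (1 : ℝ)) z * (1 + sg (τ w) * Real.tanh z) ∂ν =
      α * ((1 + s * sg (τ x)) * ∏ y ∈ C, ∏ w ∈ D y, a w (τ w)) := by
    intro τ
    have e5 : (1 + s * sg (τ x)) * a x (τ x) = (1 + s * sg (τ x)) * α := by
      have hcase : sg (τ x) = s ∨ 1 + s * sg (τ x) = 0 := by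
        rcases hs with rfl | rfl <;> cases τ x <;> norm_num [sg]
      rcases hcase with hc | hc
      · rw [ha, hα]; simp only [hc]
      · rw [hc]; ring
    have e6 : ∏ w ∈ D₀, ∫ z, (A' w).indicator (fun _ => (1 : ℝ)) z *
        (1 + sg (τ w) * Real.tanh z) ∂ν = a x (τ x) * ∏ y ∈ C, ∏ w ∈ D y, a w (τ w) := by
      rw [hD₀, Finset.prod_insert hxU, Finset.prod_biUnion (fun y hy y' hy' hne =>
        hdisj y hy y' hy' hne), ha]
    rw [e6, ← mul_assoc, e5]
    ring
  simp_rw [e4]
  rw [integral_const_mul]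
  congr 1
  have hap : ∀ w c, |a w c| ≤ 2 := by
    intro w c
    rw [ha]
    simp only
    calc |∫ z, (A' w).indicator (fun _ => (1 : ℝ)) z * (1 + sg c * Real.tanh z) ∂ν|
        ≤ ∫ z, |(A' w).indicator (fun _ => (1 : ℝ)) z * (1 + sg c * Real.tanh z)| ∂ν :=
          abs_integral_le_integral_abs
      _ ≤ ∫ _, (2 : ℝ) ∂ν := by
          refine integral_mono_of_nonneg (ae_of_all _ fun z => abs_nonneg _) (integrable_const _)
            (ae_of_all _ fun z => ?_)
          simp only
          rw [abs_mul]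
          calc |(A' w).indicator (fun _ => (1 : ℝ)) z| * |1 + sg c * Real.tanh z| ≤ 1 * 2 :=
                mul_le_mul (hmi1 w z) (abs_factor_le c z) (abs_nonneg _) zero_le_one
            _ = 2 := one_mul 2
      _ = 2 := by simp
  have hGm : ∀ y, Measurable (fun τ : V → Bool => ∏ w ∈ D y, a w (τ w)) := fun y =>
    Finset.measurable_fun_prod _ fun w _ => (measurable_of_finite (a w)).comp
      (measurable_pi_apply w)
  rw [markov h.hμ hs C hC D hDy (fun y τ => ∏ w ∈ D y, a w (τ w)) (fun y _ τ τ' hτ =>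
    Finset.prod_congr rfl fun w hw => by rw [hτ w hw]) (fun y _ => by
      refine Integrable.of_bound (hGm y).aestronglyMeasurable (2 ^ (D y).card)
        (ae_of_all _ fun τ => ?_)
      rw [Real.norm_eq_abs, Finset.abs_prod]
      exact (Finset.prod_le_prod (fun _ _ => abs_nonneg _) fun w _ => hap w (τ w)).trans
        (by rw [Finset.prod_const]))]
  refine Finset.prod_congr rfl fun y hy => ?_
  rw [hβ]
  simp only
  rw [box_branch h (D y) (hDy y hy) hA'm, ha]

theorem cpf_gen {x : V} {C : Finset V} (hC : ∀ y ∈ C, T.G.Adj x y) {R : Set V}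
    (hxR : x ∈ R) (hR : ∀ y ∈ C, T.side x y ⊆ R) {m : (V → ℝ) → ℝ} (hm : Measurable m)
    (hm1 : ∀ Y, |m Y| ≤ 1)
    (htower : ∀ D : Finset V, (D : Set V) ⊆ R → ∀ F : (V → ℝ) → ℝ, Measurable F →
      (∃ C, ∀ Y, |F Y| ≤ C) → DependsOn F (D : Set V) →
      ∫ Y, F Y * m Y ∂Q = ∫ Y, F Y * mean μ D x Y ∂Q) {s : ℝ} (hs : s = 1 ∨ s = -1)
    {f₀ : ℝ → ℝ} (hf₀ : Measurable f₀) {f : V → (V → ℝ) → ℝ} (hf : ∀ y, Measurable (f y))
    (hd : ∀ y ∈ C, DependsOn (f y) (T.side x y)) :
    ∫ Y, (1 + s * m Y) * (f₀ (Y x) * ∏ y ∈ C, f y Y) ∂Q =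
      (∫ y, (1 + s * Real.tanh y) * f₀ y ∂ν) *
        ∏ y ∈ C, ∫ Y, (1 + s * (θ * th T μ x y Y)) * f y Y ∂Q := by
  classical
  have := h.prob_μ
  have := h.prob_ν
  have := h.prob_Q
  have hxC : x ∉ C := fun hx => (hC x hx).ne rfl
  have hfin : IsFiniteMeasure (dens Q m s) := by
    unfold dens
    exact isFiniteMeasure_withDensity_ofReal (integrable_dens hm hm1).2
  have hprob : ∀ i, IsProbabilityMeasure (dens Q (Wt T μ θ x i) s) := fun i =>
    dens_prob (measurable_Wt h x i) (abs_Wt_le h x i) hs (integral_Wt h x i)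
  have h1 := Box.prod_of_box (insert x C) (Sd T x) (dens Q m s)
    (fun i => dens Q (Wt T μ θ x i) s)
    (fun D A hD hA => box_eq h hC hxR hR hm hm1 htower hs D A hD hA)
    (fun i Y => if i = x then f₀ (Y x) else f i Y) (fun i => by
      by_cases hi : i = x
      · simp only [hi, if_true]
        exact hf₀.comp (measurable_pi_apply x)
      · simp only [hi, if_false]
        exact hf i) (fun i hi Y Y' hY => by
      by_cases hix : i = x
      · subst hix
        simp only [if_true]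
        rw [hY i ((mem_Sd_self h).mpr rfl)]
      · simp only [hix, if_false]
        have hiC : i ∈ C := (Finset.mem_insert.1 hi).resolve_left hix
        exact hd i hiC fun w hw => hY w ((mem_Sd_of_ne h hix).mpr hw))
  rw [Finset.prod_insert hxC] at h1
  simp only [if_true] at h1
  rw [integral_dens hm hm1 hs, integral_dens (measurable_Wt h x x) (abs_Wt_le h x x) hs] at h1
  have e1 : ∀ Y : V → ℝ, (∏ i ∈ insert x C, if i = x then f₀ (Y x) else f i Y) =
      f₀ (Y x) * ∏ y ∈ C, f y Y := by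
    intro Y
    rw [Finset.prod_insert hxC, if_pos rfl]
    congr 1
    exact Finset.prod_congr rfl fun y hy => by rw [if_neg (hC y hy).ne']
  simp_rw [e1] at h1
  rw [h1]
  congr 1
  · have hg : Measurable fun y => (1 + s * Real.tanh y) * f₀ y :=
      (measurable_const.add (measurable_tanh.const_mul s)).mul hf₀
    rw [← integral_eval h x hg]
    simp [Wt]
  · refine Finset.prod_congr rfl fun y hy => ?_
    rw [integral_dens (measurable_Wt h x y) (abs_Wt_le h x y) hs]
    simp only [Wt, if_neg (hC y hy).ne']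

end main

end Cpf

variable {T : RTree V b} {θ : ℝ} {μ : Measure (V → Bool)} {ν : Measure ℝ} {Q : Measure (V → ℝ)}

/-- Under `Q` with the density `1 + s th` the field at `x` and the fields in the branches at the
children are independent. -/
theorem cpf (h : SR T θ μ ν Q) {u x : V} (hux : T.G.Adj u x) {s : ℝ} (hs : s = 1 ∨ s = -1)
    {f₀ : ℝ → ℝ} (hf₀ : Measurable f₀) {f : V → (V → ℝ) → ℝ} (hf : ∀ y, Measurable (f y))
    (hd : ∀ y ∈ T.ch u x, DependsOn (f y) (T.side x y)) :
    ∫ Y, (1 + s * th T μ u x Y) * (f₀ (Y x) * ∏ y ∈ T.ch u x, f y Y) ∂Q =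
      (∫ y, (1 + s * Real.tanh y) * f₀ y ∂ν) *
        ∏ y ∈ T.ch u x, ∫ Y, (1 + s * (θ * th T μ x y Y)) * f y Y ∂Q := by
  have := h.prob_μ
  refine Cpf.cpf_gen h (fun y hy => (RTree.mem_ch.mp hy).2) (R := T.side u x) ?_
    (fun y hy => Dec.side_sub hux hy) (measurable_th T μ u x) (abs_th_le T μ u x)
    (fun D hD F hF hb hd => tower_th T h.hν h.hQ u x D hD hF hb hd) hs hf₀ hf hd
  rw [Dec.mem_side, SimpleGraph.dist_self]
  exact T.tree.1.pos_dist_of_ne hux.ne'

theorem cpfM (h : SR T θ μ ν Q) (x : V) {s : ℝ} (hs : s = 1 ∨ s = -1)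
    {f₀ : ℝ → ℝ} (hf₀ : Measurable f₀) {f : V → (V → ℝ) → ℝ} (hf : ∀ y, Measurable (f y))
    (hd : ∀ y ∈ T.nb x, DependsOn (f y) (T.side x y)) :
    ∫ Y, (1 + s * Mh T μ x Y) * (f₀ (Y x) * ∏ y ∈ T.nb x, f y Y) ∂Q =
      (∫ y, (1 + s * Real.tanh y) * f₀ y ∂ν) *
        ∏ y ∈ T.nb x, ∫ Y, (1 + s * (θ * th T μ x y Y)) * f y Y ∂Q := by
  have := h.prob_μ
  exact Cpf.cpf_gen h (fun y hy => (T.mem_nb x y).mp hy) (R := univ) (mem_univ _)
    (fun y _ => subset_univ _) (measurable_Mh T μ x) (abs_Mh_le T μ x)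
    (fun D _ F hF hb hd => tower_Mh T h.hν h.hQ x D hF hb hd) hs hf₀ hf hd

end Vale.Agent.P161E
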