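import Vale.Agent.P161E.Defs2

/-!
# Part S (single replica): standing hypotheses
-/

open MeasureTheory Set Filter Topology
open scoped unitInterval ENNReal

namespace Vale.Agent.P161E

open Vale.Agent.P161

universe u

variable {V : Type u} {b : ℕ}

/-- The standing hypotheses of part S. -/
structure SR (T : RTree V b) (θ : ℝ) (μ : Measure (V → Bool)) (ν : Measure ℝ)
    (Q : Measure (V → ℝ)) : Prop where
  hb : 2 ≤ b
  θ0 : 0 ≤ θ
  θ1 : b * θ ^ 2 ≤ 1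
  θ2 : 1 / 2 ≤ b * θ ^ 2
  hμ : IsFreeIsing T.G θ μ
  hν : Obs ν
  hQ : IsPlanted μ ν Q

/-- The hypotheses on the rate. -/
structure Rate (ν : Measure ℝ) (ρ : ℝ) : Prop where
  pos : 0 < ρ
  le : ρ ≤ 1 / 2
  q : ρ ^ 2 ≤ 4000 * qq ν
  cases : (ν {y | y ≠ 0} ≤ ENNReal.ofReal ρ ∧ ∀ᵐ y ∂ν, |y| ≤ Real.sqrt ρ) ∨ ρ = 1 / 2

/-- The moment generating function of the log-likelihood of a branch under the plus phase. -/
noncomputable def Zk (T : RTree V b) (μ : Measure (V → Bool)) (Q : Measure (V → ℝ)) (u x : V)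
    (κ : ℝ) : ℝ :=
  ∫ Y, (1 + th T μ u x Y) * Real.exp (κ * Real.artanh (th T μ u x Y)) ∂Q

namespace SR

variable {T : RTree V b} {θ : ℝ} {μ : Measure (V → Bool)} {ν : Measure ℝ} {Q : Measure (V → ℝ)}

theorem prob_μ (h : SR T θ μ ν Q) : IsProbabilityMeasure μ := h.hμ.prob

theorem prob_ν (h : SR T θ μ ν Q) : IsProbabilityMeasure ν := h.hν.prob

theorem prob_Q (h : SR T θ μ ν Q) : IsProbabilityMeasure Q := h.hQ.prob

/-- `θ² ≤ 1/2` -/
theorem θsq (h : SR T θ μ ν Q) : θ ^ 2 ≤ 1 / 2 := by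
  have hb : (2 : ℝ) ≤ b := by exact_mod_cast h.hb
  nlinarith [h.θ1, sq_nonneg θ]

theorem θlt (h : SR T θ μ ν Q) : θ < 1 := by
  nlinarith [h.θsq, h.θ0]

/-- `θ ≤ 3/4` -/
theorem θle (h : SR T θ μ ν Q) : θ ≤ 3 / 4 := by
  nlinarith [h.θsq, h.θ0]

theorem θpos (h : SR T θ μ ν Q) : 0 < θ := by
  rcases h.θ0.lt_or_eq with h0 | h0
  · exact h0
  · exfalso
    have := h.θ2
    rw [← h0] at this
    norm_num at this

end SR

end Vale.Agent.P161E
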