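import Vale.Agent.P161E.S23
import Mathlib.Analysis.SpecialFunctions.Artanh

/-!
# The moment generating function of the log-likelihood of a branch
-/

open MeasureTheory Set Filter Topology
open scoped unitInterval ENNReal

namespace Vale.Agent.P161E

open Vale.Agent.P161

universe u

variable {V : Type u} {b : ℕ}

namespace Mgf

theorem artanh_neg (x : ℝ) : Real.artanh (-x) = -Real.artanh x := by
  unfold Real.artanh
  rw [sub_neg_eq_add, ← sub_eq_add_neg, ← Real.log_inv, ← Real.sqrt_inv, inv_div]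

theorem measurable_artanh : Measurable Real.artanh := by
  unfold Real.artanh
  fun_prop

/-- `artanh (θ t) ≤ θ artanh t` -/
theorem artanh_scale {θ t : ℝ} (h0 : 0 ≤ θ) (h1 : θ ≤ 1) (ht0 : 0 ≤ t) (ht : t < 1) :
    Real.artanh (θ * t) ≤ θ * Real.artanh t := by
  have h2 : θ * t ≤ t := by nlinarith
  have h3 : 0 ≤ θ * t := mul_nonneg h0 ht0
  have e1 := Real.hasSum_log_sub_log_of_abs_lt_one (x := t) (by rw [abs_of_nonneg ht0]; exact ht)
  have e2 := Real.hasSum_log_sub_log_of_abs_lt_one (x := θ * t)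
    (by rw [abs_of_nonneg h3]; linarith)
  have h4 : Real.log (1 + θ * t) - Real.log (1 - θ * t) ≤
      θ * (Real.log (1 + t) - Real.log (1 - t)) := by
    refine hasSum_le (fun k => ?_) e2 (e1.mul_left θ)
    have h5 : (θ * t) ^ (2 * k + 1) ≤ θ * t ^ (2 * k + 1) := by
      rw [mul_pow]
      have h6 : θ ^ (2 * k + 1) ≤ θ := by
        rw [pow_succ]
        have : θ ^ (2 * k) ≤ 1 := pow_le_one₀ h0 h1
        nlinarith
      exact mul_le_mul_of_nonneg_right h6 (pow_nonneg ht0 _)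
    have h6 : (0 : ℝ) ≤ 2 * (1 / (2 * (k : ℝ) + 1)) := by positivity
    calc 2 * (1 / (2 * (k : ℝ) + 1)) * (θ * t) ^ (2 * k + 1)
        ≤ 2 * (1 / (2 * (k : ℝ) + 1)) * (θ * t ^ (2 * k + 1)) :=
          mul_le_mul_of_nonneg_left h5 h6
      _ = θ * (2 * (1 / (2 * (k : ℝ) + 1)) * t ^ (2 * k + 1)) := by ring
  rw [Real.artanh_eq_half_log (by constructor <;> linarith),
    Real.artanh_eq_half_log (by constructor <;> linarith),
    Real.log_div (by linarith) (by linarith), Real.log_div (by linarith) (by linarith)]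
  linarith

theorem abs_artanh (t : ℝ) : |Real.artanh t| = Real.artanh |t| := by
  rcases le_total 0 t with h | h
  · rw [abs_of_nonneg h, abs_of_nonneg (Real.artanh_nonneg h)]
  · rw [abs_of_nonpos h, artanh_neg, abs_of_nonpos (Real.artanh_nonpos h)]

theorem abs_artanh_scale {θ t : ℝ} (h0 : 0 ≤ θ) (h1 : θ ≤ 1) (ht : |t| < 1) :
    |Real.artanh (θ * t)| ≤ θ * |Real.artanh t| := by
  rw [abs_artanh, abs_artanh, abs_mul, abs_of_nonneg h0]
  exact artanh_scale h0 h1 (abs_nonneg t) ht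

theorem abs_artanh_le {t L : ℝ} (h : |t| ≤ Real.tanh L) : |Real.artanh t| ≤ L := by
  rw [abs_artanh, ← Real.artanh_tanh L]
  exact Real.artanh_le_artanh (by linarith [abs_nonneg t]) (Real.tanh_lt_one L) h

/-- `x sinh y` is even and monotone -/
theorem mul_sinh_le {x y x' y' : ℝ} (h1 : x * y = |x| * |y|) (h2 : |x| ≤ x') (h3 : |y| ≤ y') :
    x * Real.sinh y ≤ x' * Real.sinh y' := by
  have e : x * Real.sinh y = |x| * Real.sinh |y| := by
    rcases le_total 0 y with hy | hy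
    · rw [abs_of_nonneg hy]
      rcases hy.eq_or_lt with h0 | h0
      · rw [← h0]; simp
      · rw [abs_of_nonneg hy] at h1
        rw [mul_right_cancel₀ h0.ne' h1]
        simp
    · rw [abs_of_nonpos hy, Real.sinh_neg]
      rcases hy.eq_or_lt with h0 | h0
      · rw [h0]; simp
      · rw [abs_of_nonpos hy] at h1
        have h4 : x * y = -|x| * y := by rw [h1]; ring
        have h5 := mul_right_cancel₀ h0.ne h4
        calc x * Real.sinh y = -|x| * Real.sinh y := by rw [← h5]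
          _ = |x| * -Real.sinh y := by rw [neg_mul, mul_neg]
  rw [e]
  have h4 : Real.sinh |y| ≤ Real.sinh y' := Real.sinh_le_sinh.mpr h3
  have h5 : 0 ≤ Real.sinh |y| := Real.sinh_nonneg_iff.mpr (abs_nonneg y)
  exact mul_le_mul h2 h4 h5 ((abs_nonneg x).trans h2)

theorem cosh_le {y y' : ℝ} (h : |y| ≤ y') : Real.cosh y ≤ Real.cosh y' := by
  rw [Real.cosh_le_cosh, abs_of_nonneg ((abs_nonneg y).trans h)]
  exact h

/-- the symmetric form of the integrand -/
noncomputable def gs (s κ t : ℝ) : ℝ :=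
  Real.cosh (κ * Real.artanh (s * t)) + s * t * Real.sinh (κ * Real.artanh (s * t))

/-- the integrand -/
noncomputable def fs (s κ t : ℝ) : ℝ := (1 + s * t) * Real.exp (κ * Real.artanh (s * t))

theorem fs_add (s κ t : ℝ) : fs s κ t + fs s κ (-t) = 2 * gs s κ t := by
  unfold fs gs
  rw [mul_neg, artanh_neg, mul_neg, Real.cosh_eq, Real.sinh_eq]
  ring

theorem measurable_fs (s κ : ℝ) : Measurable (fs s κ) := by
  unfold fs
  have := measurable_artanh
  fun_prop

theorem measurable_gs (s κ : ℝ) : Measurable (gs s κ) := by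
  have e : gs s κ = fun t => (fs s κ t + fs s κ (-t)) / 2 := by
    funext t
    rw [fs_add]; ring
  rw [e]
  exact (((measurable_fs s κ).add ((measurable_fs s κ).comp measurable_neg))).div_const 2

theorem fs_nonneg {s κ t : ℝ} (hs : 0 ≤ s) (hs1 : s ≤ 1) (ht : |t| ≤ 1) : 0 ≤ fs s κ t := by
  unfold fs
  have h1 := abs_le.mp ht
  have : 0 ≤ 1 + s * t := by nlinarith
  positivity

theorem fs_le {s κ t L : ℝ} (hs : 0 ≤ s) (hs1 : s ≤ 1) (hκ : 0 ≤ κ) (ht : |t| ≤ Real.tanh L) :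
    |fs s κ t| ≤ 2 * Real.exp (κ * L) := by
  have hL1 := Real.tanh_lt_one L
  have ht1 : |t| < 1 := by linarith
  have h1 := abs_le.mp ht1.le
  rw [abs_of_nonneg (fs_nonneg hs hs1 ht1.le)]
  unfold fs
  have h2 : 1 + s * t ≤ 2 := by nlinarith
  have h3 : Real.artanh (s * t) ≤ L := by
    refine (le_abs_self _).trans ((abs_artanh_scale hs hs1 ht1).trans ?_)
    have := abs_artanh_le ht
    nlinarith [abs_nonneg (Real.artanh t)]
  have h4 : Real.exp (κ * Real.artanh (s * t)) ≤ Real.exp (κ * L) :=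
    Real.exp_le_exp.mpr (mul_le_mul_of_nonneg_left h3 hκ)
  have h5 : 0 ≤ 1 + s * t := by nlinarith
  exact mul_le_mul h2 h4 (Real.exp_nonneg _) (by norm_num)

theorem gs_le {s κ t : ℝ} (hs : 0 ≤ s) (hs1 : s ≤ 1) (hκ : 0 ≤ κ) (ht : |t| < 1) :
    gs s κ t ≤ gs 1 (s * κ) t := by
  unfold gs
  have h1 := abs_artanh_scale hs hs1 ht
  have h2 : |κ * Real.artanh (s * t)| ≤ s * κ * |Real.artanh t| := by
    rw [abs_mul, abs_of_nonneg hκ]
    nlinarith
  have h3 : Real.cosh (s * κ * Real.artanh (1 * t)) = Real.cosh (s * κ * |Real.artanh t|) := by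
    rw [one_mul, ← Real.cosh_abs (s * κ * Real.artanh t), abs_mul, abs_of_nonneg (mul_nonneg hs hκ)]
  have h4 : 1 * t * Real.sinh (s * κ * Real.artanh (1 * t)) =
      |t| * Real.sinh (s * κ * |Real.artanh t|) := by
    rw [one_mul]
    rcases le_total 0 t with h | h
    · rw [abs_of_nonneg h, abs_of_nonneg (Real.artanh_nonneg h)]
    · rw [abs_of_nonpos h, abs_of_nonpos (Real.artanh_nonpos h), mul_neg, Real.sinh_neg]
      ring
  rw [h3, h4]
  refine add_le_add (cosh_le h2) (mul_sinh_le ?_ ?_ h2)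
  · rw [abs_mul, abs_mul, abs_of_nonneg hκ, abs_of_nonneg hs]
    rcases le_total 0 t with h | h
    · rw [abs_of_nonneg h, abs_of_nonneg (Real.artanh_nonneg (mul_nonneg hs h))]
    · rw [abs_of_nonpos h, abs_of_nonpos (Real.artanh_nonpos (mul_nonpos_of_nonneg_of_nonpos hs h))]
      ring
  · rw [abs_mul, abs_of_nonneg hs]
    nlinarith [abs_nonneg t]

section

variable {T : RTree V b} {θ : ℝ} {μ : Measure (V → Bool)} {ν : Measure ℝ} {Q : Measure (V → ℝ)}

/-- a bound of `th` -/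
theorem exists_bd (h : SR T θ μ ν Q) : ∃ L : ℝ, ∀ u x, T.G.Adj u x →
    ∀ᵐ Y ∂Q, |th T μ u x Y| ≤ Real.tanh L := by
  obtain ⟨B, hB⟩ := h.hν.bdd
  exact ⟨_, fun u x hux => abs_th_lt h hB hux⟩

theorem integrable_fs (h : SR T θ μ ν Q) {u x : V} (hux : T.G.Adj u x) {s κ : ℝ} (hs : 0 ≤ s)
    (hs1 : s ≤ 1) (hκ : 0 ≤ κ) : Integrable (fun Y => fs s κ (th T μ u x Y)) Q := by
  have := h.prob_μ
  have := h.prob_Q
  obtain ⟨L, hL⟩ := exists_bd h
  refine Integrable.of_bound ((measurable_fs s κ).comp (measurable_th T μ u x)).aestronglyMeasurable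
    (2 * Real.exp (κ * L)) ?_
  filter_upwards [hL u x hux] with Y hY
  exact fs_le hs hs1 hκ hY

theorem integrable_fs_neg (h : SR T θ μ ν Q) {u x : V} (hux : T.G.Adj u x) {s κ : ℝ} (hs : 0 ≤ s)
    (hs1 : s ≤ 1) (hκ : 0 ≤ κ) : Integrable (fun Y => fs s κ (-th T μ u x Y)) Q := by
  have := h.prob_μ
  have := h.prob_Q
  obtain ⟨L, hL⟩ := exists_bd h
  refine Integrable.of_bound
    ((measurable_fs s κ).comp (measurable_th T μ u x).neg).aestronglyMeasurable
    (2 * Real.exp (κ * L)) ?_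
  filter_upwards [hL u x hux] with Y hY
  exact fs_le hs hs1 hκ (by rw [abs_neg]; exact hY)

theorem integrable_gs (h : SR T θ μ ν Q) {u x : V} (hux : T.G.Adj u x) {s κ : ℝ} (hs : 0 ≤ s)
    (hs1 : s ≤ 1) (hκ : 0 ≤ κ) : Integrable (fun Y => gs s κ (th T μ u x Y)) Q := by
  have e : (fun Y => gs s κ (th T μ u x Y)) =
      fun Y => (fs s κ (th T μ u x Y) + fs s κ (-th T μ u x Y)) / 2 := by
    funext Y
    rw [fs_add]; ring
  rw [e]
  exact ((integrable_fs h hux hs hs1 hκ).add (integrable_fs_neg h hux hs hs1 hκ)).div_const 2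

theorem integral_fs (h : SR T θ μ ν Q) {u x : V} (hux : T.G.Adj u x) {s κ : ℝ} (hs : 0 ≤ s)
    (hs1 : s ≤ 1) (hκ : 0 ≤ κ) :
    ∫ Y, fs s κ (th T μ u x Y) ∂Q = ∫ Y, gs s κ (th T μ u x Y) ∂Q := by
  have e1 := integral_flip h u x (measurable_fs s κ)
  have e2 : ∫ Y, (fs s κ (th T μ u x Y) + fs s κ (-th T μ u x Y)) ∂Q =
      ∫ Y, fs s κ (th T μ u x Y) ∂Q + ∫ Y, fs s κ (-th T μ u x Y) ∂Q :=
    integral_add (integrable_fs h hux hs hs1 hκ) (integrable_fs_neg h hux hs hs1 hκ)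
  simp_rw [fs_add] at e2
  rw [integral_const_mul, e1] at e2
  linarith

theorem Zk_eq (h : SR T θ μ ν Q) {u x : V} (hux : T.G.Adj u x) {κ : ℝ} (hκ : 0 ≤ κ) :
    Zk T μ Q u x κ = ∫ Y, gs 1 κ (th T μ u x Y) ∂Q := by
  rw [← integral_fs h hux zero_le_one le_rfl hκ]
  unfold Zk fs
  simp_rw [one_mul]

end

end Mgf

section

variable {T : RTree V b} {θ : ℝ} {μ : Measure (V → Bool)} {ν : Measure ℝ} {Q : Measure (V → ℝ)}

/-- `Z(κ) ≤ Z_ν(κ) ∏ Z_y(θ κ)`: `1 + th` times the exponential is a product (S2, S3);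
`artanh (θ t) ≤ θ artanh t` for `t ≥ 0` and symmetry (S4). -/
theorem Zk_rec (h : SR T θ μ ν Q) {u x : V} (hux : T.G.Adj u x) {κ : ℝ} (hκ : 0 ≤ κ) :
    Zk T μ Q u x κ ≤ (∫ y, (1 + Real.tanh y) * Real.exp (κ * y) ∂ν) *
      ∏ y ∈ T.ch u x, Zk T μ Q x y (θ * κ) := by
  classical
  have := h.prob_μ
  have := h.prob_Q
  have := h.prob_ν
  have hθ1 : θ ≤ 1 := h.θlt.le
  have hadj : ∀ y ∈ T.ch u x, T.G.Adj x y := fun y hy =>
    (T.mem_nb x y).mp (Finset.mem_of_mem_erase hy)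
  have e1 : Zk T μ Q u x κ = ∫ Y, (1 + 1 * th T μ u x Y) * ((fun z : ℝ => Real.exp (κ * z)) (Y x) *
      ∏ y ∈ T.ch u x, (fun y Y => Real.exp (κ * Real.artanh (θ * th T μ x y Y))) y Y) ∂Q := by
    unfold Zk
    refine integral_congr_ae ?_
    filter_upwards [th_rec h hux] with Y hY
    have e2 : Real.artanh (th T μ u x Y) =
        Y x + ∑ y ∈ T.ch u x, Real.artanh (θ * th T μ x y Y) := by
      conv_lhs => rw [hY]
      exact Real.artanh_tanh _
    rw [e2, mul_add, Real.exp_add, Finset.mul_sum, Real.exp_sum, one_mul]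
  have e3 := cpf h hux (s := 1) (Or.inl rfl) (f₀ := fun z : ℝ => Real.exp (κ * z)) (by fun_prop)
    (f := fun y Y => Real.exp (κ * Real.artanh (θ * th T μ x y Y))) (fun y => by
      have h1 := measurable_th T μ x y
      have h2 := Mgf.measurable_artanh
      fun_prop) (fun y hy => by
      intro Y Y' hYY
      show Real.exp (κ * Real.artanh (θ * th T μ x y Y)) =
        Real.exp (κ * Real.artanh (θ * th T μ x y Y'))
      rw [dependsOn_th T μ x y hYY])
  rw [e1, e3]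
  simp_rw [one_mul]
  refine mul_le_mul_of_nonneg_left ?_ ?_
  · refine Finset.prod_le_prod (fun y hy => ?_) (fun y hy => ?_)
    · exact integral_nonneg fun Y => Mgf.fs_nonneg h.θ0 hθ1 (abs_th_le T μ x y Y)
    · have h3 := Mgf.integral_fs h (hadj y hy) h.θ0 hθ1 hκ
      unfold Mgf.fs at h3
      rw [h3, Mgf.Zk_eq h (hadj y hy) (mul_nonneg h.θ0 hκ)]
      refine integral_mono_ae (Mgf.integrable_gs h (hadj y hy) h.θ0 hθ1 hκ)
        (Mgf.integrable_gs h (hadj y hy) zero_le_one le_rfl (mul_nonneg h.θ0 hκ)) ?_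
      obtain ⟨L, hL⟩ := Mgf.exists_bd h
      filter_upwards [hL x y (hadj y hy)] with Y hY
      exact Mgf.gs_le h.θ0 hθ1 hκ (hY.trans_lt (Real.tanh_lt_one L))
  · refine integral_nonneg fun y => ?_
    have := Real.neg_one_lt_tanh y
    have h2 : 0 ≤ 1 + Real.tanh y := by linarith
    exact mul_nonneg h2 (Real.exp_nonneg _)

theorem Zk_nonneg (T : RTree V b) (μ : Measure (V → Bool)) [IsProbabilityMeasure μ]
    (Q : Measure (V → ℝ)) (u x : V) (κ : ℝ) : 0 ≤ Zk T μ Q u x κ := by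
  refine integral_nonneg fun Y => ?_
  have := (abs_le.mp (abs_th_le T μ u x Y)).1
  have h2 : 0 ≤ 1 + th T μ u x Y := by linarith
  exact mul_nonneg h2 (Real.exp_nonneg _)

/-- `Q` is controlled by `Z` -/
theorem integral_cosh_le (h : SR T θ μ ν Q) {u x : V} (hux : T.G.Adj u x) {κ : ℝ} (hκ : 0 ≤ κ) :
    ∫ Y, Real.cosh (κ * Real.artanh (th T μ u x Y)) ∂Q ≤ Zk T μ Q u x κ := by
  have := h.prob_μ
  have := h.prob_Q
  rw [Mgf.Zk_eq h hux hκ]
  refine integral_mono_of_nonneg (ae_of_all _ fun Y => (Real.cosh_pos _).le)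
    (Mgf.integrable_gs h hux zero_le_one le_rfl hκ) (ae_of_all _ fun Y => ?_)
  show Real.cosh (κ * Real.artanh (th T μ u x Y)) ≤ Mgf.gs 1 κ (th T μ u x Y)
  unfold Mgf.gs
  rw [one_mul]
  have h1 : 0 ≤ th T μ u x Y * Real.sinh (κ * Real.artanh (th T μ u x Y)) := by
    rcases le_total 0 (th T μ u x Y) with h0 | h0
    · exact mul_nonneg h0 (Real.sinh_nonneg_iff.mpr (mul_nonneg hκ (Real.artanh_nonneg h0)))
    · exact mul_nonneg_of_nonpos_of_nonpos h0 (Real.sinh_nonpos_iff.mpr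
        (mul_nonpos_of_nonneg_of_nonpos hκ (Real.artanh_nonpos h0)))
  linarith

end

namespace Mgf

theorem sinh_le_mul_cosh {x : ℝ} (hx : 0 ≤ x) : Real.sinh x ≤ x * Real.cosh x := by
  refine hasSum_le (fun n => ?_) (Real.hasSum_sinh x) ((Real.hasSum_cosh x).mul_left x)
  have h1 : ((2 * n).factorial : ℝ) ≤ ((2 * n + 1).factorial : ℝ) := by
    exact_mod_cast Nat.factorial_le (Nat.le_succ _)
  have h2 : (0 : ℝ) < ((2 * n).factorial : ℝ) := by exact_mod_cast Nat.factorial_pos _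
  calc x ^ (2 * n + 1) / ((2 * n + 1).factorial : ℝ) ≤ x ^ (2 * n + 1) / ((2 * n).factorial : ℝ) :=
        div_le_div_of_nonneg_left (pow_nonneg hx _) h2 h1
    _ = x * (x ^ (2 * n) / ((2 * n).factorial : ℝ)) := by rw [pow_succ]; ring

theorem abs_sinh_le {x L : ℝ} (hx : |x| ≤ L) : |Real.sinh x| ≤ Real.cosh L * |x| := by
  rw [Real.abs_sinh]
  have h1 := sinh_le_mul_cosh (abs_nonneg x)
  have h2 : Real.cosh |x| ≤ Real.cosh L := cosh_le (by rw [abs_abs]; exact hx)
  nlinarith [abs_nonneg x]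

theorem cosh_le_one_add {x L : ℝ} (hx : |x| ≤ L) : Real.cosh x ≤ 1 + Real.cosh L * x ^ 2 := by
  have h1 := Real.cosh_sq (x / 2)
  have h2 : Real.cosh x = 1 + 2 * Real.sinh (x / 2) ^ 2 := by
    have h3 := Real.cosh_two_mul (x / 2)
    rw [show 2 * (x / 2) = x by ring] at h3
    rw [h3, h1]
    ring
  have h3 := Real.cosh_sq (L / 2)
  have h4 : Real.cosh L = 2 * Real.cosh (L / 2) ^ 2 - 1 := by
    have h3' := Real.cosh_two_mul (L / 2)
    rw [show 2 * (L / 2) = L by ring] at h3'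
    rw [h3']
    linarith
  have h5 : |x / 2| ≤ L / 2 := by
    rw [abs_div, abs_of_pos (by norm_num : (0 : ℝ) < 2)]
    linarith
  have h6 := abs_sinh_le h5
  have h7 : Real.sinh (x / 2) ^ 2 ≤ (Real.cosh (L / 2) * |x / 2|) ^ 2 := by
    rw [← sq_abs (Real.sinh (x / 2))]
    exact pow_le_pow_left₀ (abs_nonneg _) h6 2
  rw [mul_pow, sq_abs] at h7
  have h8 : 1 ≤ Real.cosh L := Real.one_le_cosh L
  have h9 : Real.cosh (L / 2) ^ 2 = (Real.cosh L + 1) / 2 := by rw [h4]; ring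
  rw [h9] at h7
  rw [h2]
  nlinarith [sq_nonneg x]

/-- `|x| ≤ cosh L |tanh x|` for `|x| ≤ L` -/
theorem abs_le_tanh {x L : ℝ} (hx : |x| ≤ L) : |x| ≤ Real.cosh L * |Real.tanh x| := by
  have h1 : |Real.tanh x| = Real.sinh |x| / Real.cosh x := by
    rw [Real.tanh_eq_sinh_div_cosh, abs_div, Real.abs_sinh, abs_of_pos (Real.cosh_pos x)]
  have h2 : |x| ≤ Real.sinh |x| := Real.self_le_sinh_iff.mpr (abs_nonneg x)
  have h3 : Real.cosh x ≤ Real.cosh L := cosh_le hx
  have h4 := Real.cosh_pos x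
  rw [h1, mul_div_assoc', le_div_iff₀ h4]
  nlinarith [abs_nonneg x]

theorem abs_tanh_le (x : ℝ) : |Real.tanh x| ≤ |x| := by
  have h1 : |Real.tanh x| = Real.sinh |x| / Real.cosh |x| := by
    rw [Real.tanh_eq_sinh_div_cosh, abs_div, Real.abs_sinh, Real.cosh_abs,
      abs_of_pos (Real.cosh_pos x)]
  rw [h1, div_le_iff₀ (Real.cosh_pos _)]
  exact sinh_le_mul_cosh (abs_nonneg x)

theorem tanh_mono {x y : ℝ} (h : x ≤ y) : Real.tanh x ≤ Real.tanh y := by
  rw [← Real.artanh_le_artanh_iff ⟨Real.neg_one_lt_tanh x, Real.tanh_lt_one x⟩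
    ⟨Real.neg_one_lt_tanh y, Real.tanh_lt_one y⟩, Real.artanh_tanh, Real.artanh_tanh]
  exact h

theorem tanh_nonneg {x : ℝ} (h : 0 ≤ x) : 0 ≤ Real.tanh x := by
  have := tanh_mono h
  rwa [Real.tanh_zero] at this

theorem tanh_nonpos {x : ℝ} (h : x ≤ 0) : Real.tanh x ≤ 0 := by
  have := tanh_mono h
  rwa [Real.tanh_zero] at this

/-- small exponents -/
theorem gs_small {κ t L : ℝ} (hκ : 0 ≤ κ) (hκ1 : κ ≤ 1) (ht : |t| ≤ Real.tanh L) :
    gs 1 κ t ≤ 1 + (Real.cosh L ^ 3 + Real.cosh L ^ 2) * t ^ 2 := by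
  have hL1 := Real.tanh_lt_one L
  have ht1 : |t| < 1 := by linarith
  have ht2 := abs_lt.mp ht1
  set B := Real.artanh t with hB
  have htB : Real.tanh B = t := Real.tanh_artanh ⟨ht2.1, ht2.2⟩
  have hBL : |B| ≤ L := abs_artanh_le ht
  have h1 : |κ * B| ≤ |B| := by
    rw [abs_mul, abs_of_nonneg hκ]
    nlinarith [abs_nonneg B]
  have h2 := cosh_le_one_add (h1.trans hBL)
  have h3 := abs_sinh_le (h1.trans hBL)
  have h4 := abs_le_tanh hBL
  rw [htB] at h4
  have hc : 1 ≤ Real.cosh L := Real.one_le_cosh L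
  unfold gs
  rw [one_mul, ← hB]
  have h5 : (κ * B) ^ 2 ≤ Real.cosh L ^ 2 * t ^ 2 := by
    rw [← sq_abs (κ * B), ← sq_abs t, ← mul_pow]
    exact pow_le_pow_left₀ (abs_nonneg _) (h1.trans h4) 2
  have h6 : t * Real.sinh (κ * B) ≤ |t| * (Real.cosh L * (Real.cosh L * |t|)) := by
    refine (le_abs_self _).trans ?_
    rw [abs_mul]
    refine mul_le_mul_of_nonneg_left (h3.trans ?_) (abs_nonneg t)
    exact mul_le_mul_of_nonneg_left (h1.trans h4) (by linarith)
  have h7 : |t| * (Real.cosh L * (Real.cosh L * |t|)) = Real.cosh L ^ 2 * t ^ 2 := by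
    rw [← sq_abs t]; ring
  rw [h7] at h6
  have h8 : Real.cosh L * (κ * B) ^ 2 ≤ Real.cosh L * (Real.cosh L ^ 2 * t ^ 2) :=
    mul_le_mul_of_nonneg_left h5 (by linarith)
  nlinarith

end Mgf

/-- the case `κ ≤ 1` if the fields are bounded by one -/
theorem Zk_small {b : ℕ} : ∃ C : ℝ, 0 < C ∧ ∀ (V : Type u) (T : RTree V b) (θ : ℝ)
    (μ : Measure (V → Bool)) (ν : Measure ℝ) (Q : Measure (V → ℝ)), SR T θ μ ν Q →
    (∀ᵐ y ∂ν, |y| ≤ 1) → ∀ u x, T.G.Adj u x → ∀ κ : ℝ, 0 ≤ κ → κ ≤ 1 →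
    Zk T μ Q u x κ ≤ 1 + C * ∫ Y, th T μ u x Y ^ 2 ∂Q := by
  set L : ℝ := 1 + b * Real.artanh (3 / 4) with hL
  refine ⟨Real.cosh L ^ 3 + Real.cosh L ^ 2, by positivity, ?_⟩
  intro V T θ μ ν Q h hB u x hux κ hκ hκ1
  have := h.prob_μ
  have := h.prob_Q
  rw [Mgf.Zk_eq h hux hκ]
  have hm : Measurable fun Y => th T μ u x Y := measurable_th T μ u x
  have i1 : Integrable (fun Y => th T μ u x Y ^ 2) Q := by
    refine Integrable.of_bound (hm.pow_const 2).aestronglyMeasurable 1 (ae_of_all _ fun Y => ?_)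
    rw [Real.norm_eq_abs, abs_pow]
    exact pow_le_one₀ (abs_nonneg _) (abs_th_le T μ u x Y)
  have e1 : ∫ Y, (1 + (Real.cosh L ^ 3 + Real.cosh L ^ 2) * th T μ u x Y ^ 2) ∂Q =
      1 + (Real.cosh L ^ 3 + Real.cosh L ^ 2) * ∫ Y, th T μ u x Y ^ 2 ∂Q := by
    rw [integral_add (integrable_const _) (i1.const_mul _), integral_const_mul]
    simp
  rw [← e1]
  refine integral_mono_ae (Mgf.integrable_gs h hux zero_le_one le_rfl hκ)
    ((integrable_const _).add (i1.const_mul _)) ?_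
  filter_upwards [abs_th_lt h hB hux] with Y hY
  refine Mgf.gs_small hκ hκ1 (hY.trans ?_)
  have h1 : Real.artanh θ ≤ Real.artanh (3 / 4) :=
    Real.artanh_le_artanh (by linarith [h.θ0]) (by norm_num) h.θle
  have h2 : (1 : ℝ) + b * Real.artanh θ ≤ L := by
    rw [hL]
    have : (0 : ℝ) ≤ b := Nat.cast_nonneg b
    nlinarith
  exact Mgf.tanh_mono h2

namespace Mgf

section

variable {ν : Measure ℝ}

theorem measurable_tanh : Measurable Real.tanh := by
  have : Real.tanh = fun x => Real.sinh x / Real.cosh x := by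
    funext x
    exact Real.tanh_eq_sinh_div_cosh x
  rw [this]
  fun_prop

theorem integral_symm (hν : Obs ν) {φ : ℝ → ℝ} (hφ : Measurable φ) :
    ∫ y, φ (-y) ∂ν = ∫ y, φ y ∂ν := by
  conv_rhs => rw [← hν.symm]
  rw [integral_map measurable_neg.aemeasurable hφ.aestronglyMeasurable]

theorem integral_tanh (hν : Obs ν) : ∫ y, Real.tanh y ∂ν = 0 := by
  have h1 := integral_symm hν measurable_tanh
  simp_rw [Real.tanh_neg] at h1
  rw [integral_neg] at h1
  linarith

end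

end Mgf

/-- the base field in the first pass -/
theorem Znu_le {ν : Measure ℝ} (hν : Obs ν) {ρ : ℝ} (hρ : 0 < ρ) (hρ1 : ρ ≤ 1)
    (h1 : ν {y | y ≠ 0} ≤ ENNReal.ofReal ρ) (h2 : ∀ᵐ y ∂ν, |y| ≤ Real.sqrt ρ) {κ : ℝ}
    (hκ : 0 ≤ κ) :
    ∫ y, (1 + Real.tanh y) * Real.exp (κ * y) ∂ν ≤ Real.exp (κ * Real.sqrt ρ) ∧
    ∫ y, (1 + Real.tanh y) * Real.exp (κ * y) ∂ν ≤ 1 + ρ * (Real.cosh (κ * Real.sqrt ρ) - 1 +
      Real.sqrt ρ * Real.sinh (κ * Real.sqrt ρ)) := by
  have := hν.prob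
  have mt := Mgf.measurable_tanh
  have mf : Measurable fun y : ℝ => (1 + Real.tanh y) * Real.exp (κ * y) := by fun_prop
  have tp : ∀ y : ℝ, 0 ≤ 1 + Real.tanh y ∧ 1 + Real.tanh y ≤ 2 := fun y => by
    constructor <;> linarith [Real.neg_one_lt_tanh y, Real.tanh_lt_one y]
  have hbd : ∀ y : ℝ, |y| ≤ Real.sqrt ρ →
      ‖(1 + Real.tanh y) * Real.exp (κ * y)‖ ≤ 2 * Real.exp (κ * Real.sqrt ρ) := by
    intro y hy
    rw [Real.norm_eq_abs, abs_of_nonneg (mul_nonneg (tp y).1 (Real.exp_nonneg _))]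
    refine mul_le_mul (tp y).2 (Real.exp_le_exp.mpr ?_) (Real.exp_nonneg _) (by norm_num)
    exact mul_le_mul_of_nonneg_left ((le_abs_self y).trans hy) hκ
  have i1 : Integrable (fun y : ℝ => (1 + Real.tanh y) * Real.exp (κ * y)) ν := by
    refine Integrable.of_bound mf.aestronglyMeasurable (2 * Real.exp (κ * Real.sqrt ρ)) ?_
    filter_upwards [h2] with y hy
    exact hbd y hy
  have i2 : Integrable (fun y : ℝ => (1 + Real.tanh (-y)) * Real.exp (κ * -y)) ν := by
    refine Integrable.of_bound (mf.comp measurable_neg).aestronglyMeasurable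
      (2 * Real.exp (κ * Real.sqrt ρ)) ?_
    filter_upwards [h2] with y hy
    exact hbd (-y) (by rw [abs_neg]; exact hy)
  have it : Integrable Real.tanh ν := by
    refine Integrable.of_bound mt.aestronglyMeasurable 1 (ae_of_all _ fun y => ?_)
    rw [Real.norm_eq_abs, abs_le]
    constructor <;> linarith [Real.neg_one_lt_tanh y, Real.tanh_lt_one y]
  constructor
  · have e1 : ∫ y, (1 + Real.tanh y) * Real.exp (κ * Real.sqrt ρ) ∂ν =
        Real.exp (κ * Real.sqrt ρ) := by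
      rw [integral_mul_const, integral_add (integrable_const _) it, Mgf.integral_tanh hν]
      simp
    rw [← e1]
    refine integral_mono_ae i1 (((integrable_const _).add it).mul_const _) ?_
    filter_upwards [h2] with y hy
    refine mul_le_mul_of_nonneg_left (Real.exp_le_exp.mpr ?_) (tp y).1
    exact mul_le_mul_of_nonneg_left ((le_abs_self y).trans hy) hκ
  · set K : ℝ := Real.cosh (κ * Real.sqrt ρ) - 1 + Real.sqrt ρ * Real.sinh (κ * Real.sqrt ρ)
      with hK
    have hs0 : 0 ≤ Real.sqrt ρ := Real.sqrt_nonneg ρ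
    have hK0 : 0 ≤ K := by
      have a1 := Real.one_le_cosh (κ * Real.sqrt ρ)
      have a2 : 0 ≤ Real.sinh (κ * Real.sqrt ρ) := Real.sinh_nonneg_iff.mpr (mul_nonneg hκ hs0)
      have a3 := mul_nonneg hs0 a2
      rw [hK]
      linarith
    have e1 : ∫ y, (1 + Real.tanh (-y)) * Real.exp (κ * -y) ∂ν =
        ∫ y, (1 + Real.tanh y) * Real.exp (κ * y) ∂ν := Mgf.integral_symm hν mf
    have e2 : 2 * ∫ y, (1 + Real.tanh y) * Real.exp (κ * y) ∂ν =
        ∫ y, ((1 + Real.tanh y) * Real.exp (κ * y) + (1 + Real.tanh (-y)) * Real.exp (κ * -y)) ∂ν := by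
      rw [integral_add i1 i2, e1]
      ring
    have ms : MeasurableSet {y : ℝ | y ≠ 0} := measurableSet_eq_fun measurable_id measurable_const |>.compl
    have e3 : ∫ y, ((1 + Real.tanh y) * Real.exp (κ * y) + (1 + Real.tanh (-y)) * Real.exp (κ * -y)) ∂ν ≤
        ∫ y, (2 + {y : ℝ | y ≠ 0}.indicator (fun _ => 2 * K) y) ∂ν := by
      refine integral_mono_ae (i1.add i2)
        ((integrable_const _).add ((integrable_const _).indicator ms)) ?_
      filter_upwards [h2] with y hy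
      have e4 : (1 + Real.tanh y) * Real.exp (κ * y) + (1 + Real.tanh (-y)) * Real.exp (κ * -y) =
          2 * (Real.cosh (κ * y) + Real.tanh y * Real.sinh (κ * y)) := by
        rw [Real.tanh_neg, Real.cosh_eq, Real.sinh_eq, mul_neg]
        ring
      show (1 + Real.tanh y) * Real.exp (κ * y) + (1 + Real.tanh (-y)) * Real.exp (κ * -y) ≤ _
      rw [e4]
      by_cases h0 : y = 0
      · subst h0
        simp
      · rw [indicator_of_mem (show y ∈ {y : ℝ | y ≠ 0} from h0)]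
        have a1 : |κ * y| ≤ κ * Real.sqrt ρ := by
          rw [abs_mul, abs_of_nonneg hκ]
          exact mul_le_mul_of_nonneg_left hy hκ
        have a2 := Mgf.cosh_le a1
        have a3 : Real.tanh y * Real.sinh (κ * y) ≤
            Real.sqrt ρ * Real.sinh (κ * Real.sqrt ρ) := by
          refine Mgf.mul_sinh_le ?_ ((Mgf.abs_tanh_le y).trans hy) a1
          have a4 : 0 ≤ Real.tanh y * (κ * y) := by
            rcases le_total 0 y with h | h
            · have : 0 ≤ Real.tanh y := Mgf.tanh_nonneg h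
              positivity
            · have : Real.tanh y ≤ 0 := Mgf.tanh_nonpos h
              exact mul_nonneg_of_nonpos_of_nonpos this (mul_nonpos_of_nonneg_of_nonpos hκ h)
          rw [← abs_mul, abs_of_nonneg a4]
        show 2 * (Real.cosh (κ * y) + Real.tanh y * Real.sinh (κ * y)) ≤ 2 + 2 * K
        rw [hK]
        linarith
    have e5 : ∫ y, (2 + {y : ℝ | y ≠ 0}.indicator (fun _ => 2 * K) y) ∂ν =
        2 + 2 * K * ν.real {y : ℝ | y ≠ 0} := by
      rw [integral_add (integrable_const _) ((integrable_const _).indicator ms),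
        integral_indicator ms, setIntegral_const]
      simp [mul_comm]
    have e6 : ν.real {y : ℝ | y ≠ 0} ≤ ρ := by
      unfold Measure.real
      exact ENNReal.toReal_le_of_le_ofReal hρ.le h1
    have e7 : 2 * K * ν.real {y : ℝ | y ≠ 0} ≤ 2 * K * ρ :=
      mul_le_mul_of_nonneg_left e6 (by linarith)
    linarith

end Vale.Agent.P161E
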