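import Vale.Agent.P161E.S23
import Vale.Agent.P161E.SMgf

/-!
# Part S: information inequalities
-/

open MeasureTheory Set Filter Topology
open scoped unitInterval ENNReal

namespace Vale.Agent.P161E

open Vale.Agent.P161

universe u

variable {V : Type u} {b : ℕ}

namespace Info

/-! ### algebra -/

theorem one_add_tanh (a : ℝ) : 1 + Real.tanh a = (1 - Real.tanh a) * Real.exp (2 * a) := by
  have hc := Real.cosh_pos a
  have h1 : 1 + Real.tanh a = Real.exp a / Real.cosh a := by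
    rw [Real.tanh_eq_sinh_div_cosh, ← Real.cosh_add_sinh]
    field_simp
  have h2 : 1 - Real.tanh a = Real.exp (-a) / Real.cosh a := by
    rw [Real.tanh_eq_sinh_div_cosh, ← Real.cosh_sub_sinh]
    field_simp
  rw [h1, h2, div_mul_eq_mul_div, ← Real.exp_add]
  congr 2
  ring

theorem one_sub_mul_exp {s : ℝ} (hs : |s| < 1) :
    (1 - s) * Real.exp (2 * Real.artanh s) = 1 + s := by
  obtain ⟨h1, h2⟩ := abs_lt.mp hs
  have h3 := one_add_tanh (Real.artanh s)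
  rw [Real.tanh_artanh ⟨h1, h2⟩] at h3
  exact h3.symm

theorem key {C : Finset V} {s : V → ℝ} (hs : ∀ y ∈ C, |s y| < 1) (y₀ : ℝ) :
    (1 + Real.tanh (y₀ + ∑ y ∈ C, Real.artanh (s y))) * ((1 - Real.tanh y₀) * ∏ y ∈ C, (1 - s y)) =
      (1 - Real.tanh (y₀ + ∑ y ∈ C, Real.artanh (s y))) *
        ((1 + Real.tanh y₀) * ∏ y ∈ C, (1 + s y)) := by
  rw [one_add_tanh (y₀ + ∑ y ∈ C, Real.artanh (s y)), one_add_tanh y₀, mul_add, Real.exp_add,
    Finset.mul_sum, Real.exp_sum]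
  have h1 : ∏ y ∈ C, (1 + s y) = (∏ y ∈ C, (1 - s y)) * ∏ y ∈ C, Real.exp (2 * Real.artanh (s y)) := by
    rw [← Finset.prod_mul_distrib]
    exact Finset.prod_congr rfl fun y hy => (one_sub_mul_exp (hs y hy)).symm
  rw [h1]
  ring

/-- `1 - t² ≥ 2 A - N` -/
theorem ptw {C : Finset V} {s : V → ℝ} (hs : ∀ y ∈ C, |s y| < 1) (y₀ t : ℝ)
    (ht : t = Real.tanh (y₀ + ∑ y ∈ C, Real.artanh (s y))) :
    2 * ((1 + t) * ((1 - Real.tanh y₀) * ∏ y ∈ C, (1 - s y))) -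
      (1 - Real.tanh y₀ ^ 2) * ∏ y ∈ C, (1 - s y ^ 2) ≤ 1 - t ^ 2 := by
  have hk := key hs y₀
  rw [← ht] at hk
  set M := (1 - Real.tanh y₀) * ∏ y ∈ C, (1 - s y) with hM
  set P := (1 + Real.tanh y₀) * ∏ y ∈ C, (1 + s y) with hP
  have hN : (1 - Real.tanh y₀ ^ 2) * ∏ y ∈ C, (1 - s y ^ 2) = M * P := by
    have h1 : ∏ y ∈ C, (1 - s y ^ 2) = (∏ y ∈ C, (1 - s y)) * ∏ y ∈ C, (1 + s y) := by
      rw [← Finset.prod_mul_distrib]
      exact Finset.prod_congr rfl fun y _ => by ring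
    rw [h1, hM, hP]
    ring
  rw [hN]
  have h0 := Real.tanh_lt_one y₀
  have h0' := Real.neg_one_lt_tanh y₀
  have hM0 : 0 < M := mul_pos (by linarith) (Finset.prod_pos fun y hy => by
    have := (abs_lt.mp (hs y hy)).2; linarith)
  have hP0 : 0 < P := mul_pos (by linarith) (Finset.prod_pos fun y hy => by
    have := (abs_lt.mp (hs y hy)).1; linarith)
  have h2 : 0 ≤ (M * P) * (1 - t ^ 2 - 2 * ((1 + t) * M) + M * P) := by
    have e : (M * P) * (1 - t ^ 2 - 2 * ((1 + t) * M) + M * P) = ((1 + t) * M - M * P) ^ 2 := by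
      have : M * P * (1 - t ^ 2) = ((1 + t) * M) * ((1 + t) * M) := by
        calc M * P * (1 - t ^ 2) = ((1 + t) * M) * ((1 - t) * P) := by ring
          _ = _ := by rw [← hk]
      calc (M * P) * (1 - t ^ 2 - 2 * ((1 + t) * M) + M * P)
          = M * P * (1 - t ^ 2) - 2 * ((1 + t) * M) * (M * P) + (M * P) ^ 2 := by ring
        _ = _ := by rw [this]; ring
    rw [e]
    exact sq_nonneg _
  have h3 := nonneg_of_mul_nonneg_right h2 (mul_pos hM0 hP0)
  linarith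

/-! ### moments -/

section mom

variable {Ω : Type*} [MeasurableSpace Ω] {P : Measure Ω} [IsProbabilityMeasure P] {X : Ω → ℝ}

theorem integrable_bdd {F : Ω → ℝ} (hF : Measurable F) {K : ℝ} (hK : ∀ ω, |F ω| ≤ K) :
    Integrable F P :=
  Integrable.mono' (integrable_const K) hF.aestronglyMeasurable (ae_of_all _ hK)

theorem pow_le_one' {x : ℝ} (hx : |x| ≤ 1) (n : ℕ) : |x ^ n| ≤ 1 := by
  rw [abs_pow]; exact pow_le_one₀ (abs_nonneg _) hx

theorem integrable_pow (hX : Measurable X) (h1 : ∀ ω, |X ω| ≤ 1) (n : ℕ) :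
    Integrable (fun ω => X ω ^ n) P :=
  integrable_bdd (hX.pow_const n) (fun ω => pow_le_one' (h1 ω) n)

theorem mom0 (hX : Measurable X) (h1 : ∀ ω, |X ω| ≤ 1) (h0 : ∫ ω, X ω ∂P = 0) (s : ℝ) :
    ∫ ω, (1 + s * X ω) ∂P = 1 := by
  have i1 : Integrable X P := integrable_bdd hX h1
  rw [integral_add (integrable_const _) (i1.const_mul s), integral_const_mul, h0]
  simp

theorem mom1 (hX : Measurable X) (h1 : ∀ ω, |X ω| ≤ 1) (h0 : ∫ ω, X ω ∂P = 0) (s : ℝ) :
    ∫ ω, (1 + s * X ω) * X ω ∂P = s * ∫ ω, X ω ^ 2 ∂P := by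
  have i1 : Integrable X P := integrable_bdd hX h1
  have i2 := integrable_pow (P := P) hX h1 2
  have e : ∀ ω, (1 + s * X ω) * X ω = X ω + s * X ω ^ 2 := fun ω => by ring
  simp_rw [e]
  rw [integral_add i1 (i2.const_mul s), integral_const_mul, h0, zero_add]

theorem mom2 (hX : Measurable X) (h1 : ∀ ω, |X ω| ≤ 1) (h3 : ∫ ω, X ω ^ 3 ∂P = 0) (s : ℝ) :
    ∫ ω, (1 + s * X ω) * X ω ^ 2 ∂P = ∫ ω, X ω ^ 2 ∂P := by
  have i2 := integrable_pow (P := P) hX h1 2
  have i3 := integrable_pow (P := P) hX h1 3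
  have e : ∀ ω, (1 + s * X ω) * X ω ^ 2 = X ω ^ 2 + s * X ω ^ 3 := fun ω => by ring
  simp_rw [e]
  rw [integral_add i2 (i3.const_mul s), integral_const_mul, h3, mul_zero, add_zero]

theorem momA (hX : Measurable X) (h1 : ∀ ω, |X ω| ≤ 1) :
    ∫ ω, (1 + 1 * X ω) * (1 - X ω) ∂P = 1 - ∫ ω, X ω ^ 2 ∂P := by
  have i2 := integrable_pow (P := P) hX h1 2
  have e : ∀ ω, (1 + 1 * X ω) * (1 - X ω) = 1 - X ω ^ 2 := fun ω => by ring
  simp_rw [e]
  rw [integral_sub (integrable_const _) i2]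
  simp

theorem momN (hX : Measurable X) (h1 : ∀ ω, |X ω| ≤ 1) (h0 : ∫ ω, X ω ∂P = 0)
    (h3 : ∫ ω, X ω ^ 3 ∂P = 0) (s : ℝ) :
    ∫ ω, (1 + s * X ω) * (1 - X ω ^ 2) ∂P = 1 - ∫ ω, X ω ^ 2 ∂P := by
  have i1 : Integrable X P := integrable_bdd hX h1
  have i2 := integrable_pow (P := P) hX h1 2
  have i3 := integrable_pow (P := P) hX h1 3
  have e : ∀ ω, (1 + s * X ω) * (1 - X ω ^ 2) = (1 - X ω ^ 2) + (s * X ω - s * X ω ^ 3) :=
    fun ω => by ring
  simp_rw [e]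
  have j1 : Integrable (fun ω => 1 - X ω ^ 2) P := (integrable_const _).sub i2
  have j2 : Integrable (fun ω => s * X ω - s * X ω ^ 3) P := (i1.const_mul s).sub (i3.const_mul s)
  rw [integral_add j1 j2, integral_sub (integrable_const _) i2,
    integral_sub (i1.const_mul s) (i3.const_mul s), integral_const_mul, integral_const_mul, h0, h3]
  simp

end mom

section

variable {T : RTree V b} {θ : ℝ} {μ : Measure (V → Bool)} {ν : Measure ℝ} {Q : Measure (V → ℝ)}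

theorem odd_ν (hν : Obs ν) {φ : ℝ → ℝ} (hφ : Measurable φ) (ho : ∀ y, φ (-y) = -φ y) :
    ∫ y, φ y ∂ν = 0 := by
  have h1 := Mgf.integral_symm hν hφ
  simp_rw [ho] at h1
  rw [integral_neg] at h1
  linarith

theorem odd_th (h : SR T θ μ ν Q) (u x : V) {φ : ℝ → ℝ} (hφ : Measurable φ)
    (ho : ∀ y, φ (-y) = -φ y) : ∫ Y, φ (th T μ u x Y) ∂Q = 0 := by
  have h1 := integral_flip h u x hφ
  simp_rw [ho] at h1
  rw [integral_neg] at h1
  linarith

/-- the conditional product formula at `x` with the branches at `C` -/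
def CPF (T : RTree V b) (θ : ℝ) (μ : Measure (V → Bool)) (ν : Measure ℝ) (Q : Measure (V → ℝ))
    (x : V) (C : Finset V) (t : (V → ℝ) → ℝ) : Prop :=
  ∀ s : ℝ, s = 1 ∨ s = -1 → ∀ f₀ : ℝ → ℝ, Measurable f₀ → ∀ f : V → (V → ℝ) → ℝ,
    (∀ y, Measurable (f y)) → (∀ y ∈ C, DependsOn (f y) (T.side x y)) →
    ∫ Y, (1 + s * t Y) * (f₀ (Y x) * ∏ y ∈ C, f y Y) ∂Q =
      (∫ y, (1 + s * Real.tanh y) * f₀ y ∂ν) *
        ∏ y ∈ C, ∫ Y, (1 + s * (θ * th T μ x y Y)) * f y Y ∂Q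

variable {x : V} {C : Finset V} {t : (V → ℝ) → ℝ}

theorem measurable_th' (h : SR T θ μ ν Q) (x y : V) : Measurable fun Y => θ * th T μ x y Y := by
  have := h.prob_μ
  exact (measurable_th T μ x y).const_mul θ

theorem abs_th' (h : SR T θ μ ν Q) (x y : V) (Y : V → ℝ) : |θ * th T μ x y Y| ≤ 3 / 4 := by
  have := h.prob_μ
  have h1 := abs_th_le T μ x y Y
  rw [abs_mul, abs_of_nonneg h.θ0]
  calc θ * |th T μ x y Y| ≤ 3 / 4 * 1 := mul_le_mul h.θle h1 (abs_nonneg _) (by norm_num)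
    _ = 3 / 4 := by norm_num

theorem cp_th (h : SR T θ μ ν Q) (hc : CPF T θ μ ν Q x C t) {s : ℝ} (hs : s = 1 ∨ s = -1)
    {f₀ : ℝ → ℝ} (hf₀ : Measurable f₀) {g : V → ℝ → ℝ} (hg : ∀ y, Measurable (g y)) :
    ∫ Y, (1 + s * t Y) * (f₀ (Y x) * ∏ y ∈ C, g y (θ * th T μ x y Y)) ∂Q =
      (∫ y, (1 + s * Real.tanh y) * f₀ y ∂ν) *
        ∏ y ∈ C, ∫ Y, (1 + s * (θ * th T μ x y Y)) * g y (θ * th T μ x y Y) ∂Q := by
  refine hc s hs f₀ hf₀ (fun y Y => g y (θ * th T μ x y Y))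
    (fun y => (hg y).comp (measurable_th' h x y)) fun y _ => ?_
  intro Y Y' hY
  show g y (θ * th T μ x y Y) = g y (θ * th T μ x y Y')
  rw [dependsOn_th T μ x y hY]

/-- expectations with and without the factor `t` -/
theorem both (h : SR T θ μ ν Q) (hc : CPF T θ μ ν Q x C t) (ht : Measurable t)
    (ht1 : ∀ Y, |t Y| ≤ 1) {f₀ : ℝ → ℝ} (hf₀ : Measurable f₀) {g : V → ℝ → ℝ}
    (hg : ∀ y, Measurable (g y)) {K R R' : ℝ}
    (hK : ∀ Y : V → ℝ, |f₀ (Y x) * ∏ y ∈ C, g y (θ * th T μ x y Y)| ≤ K)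
    (hR : (∫ y, (1 + 1 * Real.tanh y) * f₀ y ∂ν) *
        ∏ y ∈ C, ∫ Y, (1 + 1 * (θ * th T μ x y Y)) * g y (θ * th T μ x y Y) ∂Q = R)
    (hR' : (∫ y, (1 + (-1) * Real.tanh y) * f₀ y ∂ν) *
        ∏ y ∈ C, ∫ Y, (1 + (-1) * (θ * th T μ x y Y)) * g y (θ * th T μ x y Y) ∂Q = R') :
    Measurable (fun Y : V → ℝ => f₀ (Y x) * ∏ y ∈ C, g y (θ * th T μ x y Y)) ∧
    ∫ Y, f₀ (Y x) * ∏ y ∈ C, g y (θ * th T μ x y Y) ∂Q = (R + R') / 2 ∧
    ∫ Y, t Y * (f₀ (Y x) * ∏ y ∈ C, g y (θ * th T μ x y Y)) ∂Q = (R - R') / 2 := by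
  have := h.prob_Q
  set F : (V → ℝ) → ℝ := fun Y => f₀ (Y x) * ∏ y ∈ C, g y (θ * th T μ x y Y) with hF
  have mF : Measurable F := by
    refine (hf₀.comp (measurable_pi_apply x)).mul (Finset.measurable_prod _ fun y _ => ?_)
    exact (hg y).comp (measurable_th' h x y)
  have iF : Integrable F Q := integrable_bdd mF hK
  have hK0 : 0 ≤ K := (abs_nonneg _).trans (hK fun _ => 0)
  have itF : Integrable (fun Y => t Y * F Y) Q := by
    refine integrable_bdd (K := K) (ht.mul mF) fun Y => ?_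
    rw [abs_mul]
    calc |t Y| * |F Y| ≤ 1 * K := mul_le_mul (ht1 Y) (hK Y) (abs_nonneg _) zero_le_one
      _ = K := one_mul K
  have h1 := cp_th h hc (s := 1) (Or.inl rfl) hf₀ hg
  have h2 := cp_th h hc (s := -1) (Or.inr rfl) hf₀ hg
  rw [hR] at h1
  rw [hR'] at h2
  have e1 : ∀ (s : ℝ), ∫ Y, (1 + s * t Y) * F Y ∂Q = ∫ Y, F Y ∂Q + s * ∫ Y, t Y * F Y ∂Q := by
    intro s
    have e : ∀ Y, (1 + s * t Y) * F Y = F Y + s * (t Y * F Y) := fun Y => by ring
    simp_rw [e]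
    rw [integral_add iF (itF.const_mul s), integral_const_mul]
  have h3 := e1 1
  have h4 := e1 (-1)
  have h5 : ∫ Y, F Y ∂Q + 1 * ∫ Y, t Y * F Y ∂Q = R := by rw [← h3]; exact h1
  have h6 : ∫ Y, F Y ∂Q + (-1) * ∫ Y, t Y * F Y ∂Q = R' := by rw [← h4]; exact h2
  exact ⟨mF, by linarith, by linarith⟩

/-- moments of the base field -/
theorem nu_facts (h : SR T θ μ ν Q) :
    (∫ y, Real.tanh y ∂ν = 0) ∧ (∫ y, Real.tanh y ^ 3 ∂ν = 0) := by
  refine ⟨odd_ν h.hν Mgf.measurable_tanh Real.tanh_neg, ?_⟩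
  refine odd_ν h.hν (φ := fun y => Real.tanh y ^ 3) (Mgf.measurable_tanh.pow_const 3) fun y => ?_
  rw [Real.tanh_neg]; ring

theorem th_facts (h : SR T θ μ ν Q) (x y : V) :
    (∫ Y, θ * th T μ x y Y ∂Q = 0) ∧ (∫ Y, (θ * th T μ x y Y) ^ 3 ∂Q = 0) ∧
    ∫ Y, (θ * th T μ x y Y) ^ 2 ∂Q = θ ^ 2 * ∫ Y, th T μ x y Y ^ 2 ∂Q := by
  refine ⟨odd_th h x y (φ := fun v => θ * v) (by fun_prop) (fun v => by ring),
    odd_th h x y (φ := fun v => (θ * v) ^ 3) (by fun_prop) (fun v => by ring), ?_⟩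
  rw [← integral_const_mul]
  refine integral_congr_ae (ae_of_all _ fun Y => ?_)
  show (θ * th T μ x y Y) ^ 2 = θ ^ 2 * th T μ x y Y ^ 2
  ring

theorem up (h : SR T θ μ ν Q) (hc : CPF T θ μ ν Q x C t) (ht : Measurable t)
    (ht1 : ∀ Y, |t Y| ≤ 1)
    (hrec : ∀ᵐ Y ∂Q, t Y = Real.tanh (Y x + ∑ y ∈ C, Real.artanh (θ * th T μ x y Y))) :
    (1 - qq ν) * ∏ y ∈ C, (1 - θ ^ 2 * ∫ Y, th T μ x y Y ^ 2 ∂Q) ≤ 1 - ∫ Y, t Y ^ 2 ∂Q := by
  have := h.prob_Q
  have := h.prob_ν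
  obtain ⟨n1, n3⟩ := nu_facts h
  have htanh : ∀ y : ℝ, |Real.tanh y| ≤ 1 := fun y => (Real.abs_tanh_lt_one y).le
  have mt := Mgf.measurable_tanh
  set P := (1 - qq ν) * ∏ y ∈ C, (1 - θ ^ 2 * ∫ Y, th T μ x y Y ^ 2 ∂Q) with hP
  have a1 : ∀ Y : V → ℝ, ∀ y, |θ * th T μ x y Y| ≤ 1 := fun Y y =>
    (abs_th' h x y Y).trans (by norm_num)
  -- the first product
  have hA := cp_th h hc (s := 1) (Or.inl rfl) (f₀ := fun y => 1 - Real.tanh y) (by fun_prop)
    (g := fun _ v => 1 - v) (fun _ => by fun_prop)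
  have hA' : ∫ Y, (1 + 1 * t Y) * ((1 - Real.tanh (Y x)) *
      ∏ y ∈ C, (1 - θ * th T μ x y Y)) ∂Q = P := by
    rw [hA, momA mt htanh, hP]
    congr 1
    refine Finset.prod_congr rfl fun y _ => ?_
    rw [momA (measurable_th' h x y) (fun Y => a1 Y y), (th_facts h x y).2.2]
  -- the second product
  have hb2 : ∀ Y : V → ℝ, |(1 - Real.tanh (Y x) ^ 2) * ∏ y ∈ C, (1 - (θ * th T μ x y Y) ^ 2)| ≤ 1 := by
    intro Y
    rw [abs_mul, Finset.abs_prod]
    have k1 : ∀ v : ℝ, |v| ≤ 1 → |1 - v ^ 2| ≤ 1 := by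
      intro v hv
      have := sq_le_one_iff_abs_le_one v |>.mpr hv
      rw [abs_le]
      constructor <;> nlinarith [sq_nonneg v]
    refine mul_le_one₀ (k1 _ (htanh _)) (Finset.prod_nonneg fun y _ => abs_nonneg _) ?_
    exact Finset.prod_le_one (fun y _ => abs_nonneg _) (fun y _ => k1 _ (a1 Y y))
  have hRs : ∀ s : ℝ, (∫ y, (1 + s * Real.tanh y) * (1 - Real.tanh y ^ 2) ∂ν) *
      ∏ y ∈ C, ∫ Y, (1 + s * (θ * th T μ x y Y)) * (1 - (θ * th T μ x y Y) ^ 2) ∂Q = P := by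
    intro s
    rw [momN mt htanh n1 n3, hP]
    congr 1
    refine Finset.prod_congr rfl fun y _ => ?_
    obtain ⟨t1, t3, t2⟩ := th_facts h x y
    rw [momN (measurable_th' h x y) (fun Y => a1 Y y) t1 t3, t2]
  obtain ⟨mN, hN, _⟩ := both h hc ht ht1 (f₀ := fun y => 1 - Real.tanh y ^ 2) (by fun_prop)
    (g := fun _ v => 1 - v ^ 2) (fun _ => by fun_prop) hb2 (hRs 1) (hRs (-1))
  -- integrability
  have mA : Measurable fun Y : V → ℝ => (1 + 1 * t Y) * ((1 - Real.tanh (Y x)) *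
      ∏ y ∈ C, (1 - θ * th T μ x y Y)) := by
    refine (measurable_const.add (ht.const_mul 1)).mul ((measurable_const.sub
      (mt.comp (measurable_pi_apply x))).mul (Finset.measurable_prod _ fun y _ => ?_))
    exact measurable_const.sub (measurable_th' h x y)
  have iA : Integrable (fun Y : V → ℝ => (1 + 1 * t Y) * ((1 - Real.tanh (Y x)) *
      ∏ y ∈ C, (1 - θ * th T μ x y Y))) Q := by
    refine integrable_bdd (K := 2 * (2 * ∏ _y ∈ C, (2 : ℝ))) mA fun Y => ?_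
    rw [abs_mul, abs_mul, Finset.abs_prod]
    have k1 : ∀ v : ℝ, |v| ≤ 1 → |1 - v| ≤ 2 := by
      intro v hv
      obtain ⟨h1, h2⟩ := abs_le.mp hv
      rw [abs_le]
      constructor <;> linarith
    have k2 : |1 + 1 * t Y| ≤ 2 := by
      obtain ⟨h1, h2⟩ := abs_le.mp (ht1 Y)
      rw [abs_le]
      constructor <;> linarith
    refine mul_le_mul k2 (mul_le_mul (k1 _ (htanh _)) ?_ (Finset.prod_nonneg fun y _ =>
      abs_nonneg _) zero_le_two) (by positivity) zero_le_two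
    exact Finset.prod_le_prod (fun y _ => abs_nonneg _) fun y _ => k1 _ (a1 Y y)
  have iN : Integrable (fun Y : V → ℝ => (1 - Real.tanh (Y x) ^ 2) *
      ∏ y ∈ C, (1 - (θ * th T μ x y Y) ^ 2)) Q := integrable_bdd mN hb2
  have it : Integrable (fun Y => t Y ^ 2) Q := integrable_pow ht ht1 2
  have hpt : ∀ᵐ Y ∂Q, 2 * ((1 + 1 * t Y) * ((1 - Real.tanh (Y x)) *
      ∏ y ∈ C, (1 - θ * th T μ x y Y))) - (1 - Real.tanh (Y x) ^ 2) *
      ∏ y ∈ C, (1 - (θ * th T μ x y Y) ^ 2) ≤ 1 - t Y ^ 2 := by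
    filter_upwards [hrec] with Y hY
    rw [one_mul]
    exact ptw (s := fun y => θ * th T μ x y Y)
      (fun y _ => (abs_th' h x y Y).trans_lt (by norm_num)) (Y x) (t Y) hY
  have hint := integral_mono_ae ((iA.const_mul 2).sub iN) ((integrable_const 1).sub it) hpt
  simp only [Pi.sub_apply] at hint
  rw [integral_sub (iA.const_mul 2) iN, integral_const_mul, hA',
    integral_sub (integrable_const _) it] at hint
  have hN' : ∫ Y, (1 - Real.tanh (Y x) ^ 2) * ∏ y ∈ C, (1 - (θ * th T μ x y Y) ^ 2) ∂Q = P := by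
    rw [hN]; ring
  rw [hN'] at hint
  simp only [integral_const, probReal_univ, smul_eq_mul, one_mul] at hint
  linarith

theorem prod_ite_one {C : Finset V} [DecidableEq V] {y : V} (hy : y ∈ C) (a : V → ℝ) :
    ∏ w ∈ C, (if w = y then a w else 1) = a y := by
  rw [Finset.prod_ite_eq' C y a, if_pos hy]

theorem low (h : SR T θ μ ν Q) (hc : CPF T θ μ ν Q x C t) (ht : Measurable t)
    (ht1 : ∀ Y, |t Y| ≤ 1) :
    qq ν + θ ^ 2 * ∑ y ∈ C, ∫ Y, th T μ x y Y ^ 2 ∂Q ≤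
      (1 + (qq ν + θ ^ 2 * ∑ y ∈ C, ∫ Y, th T μ x y Y ^ 2 ∂Q)) * ∫ Y, t Y ^ 2 ∂Q := by
  classical
  have := h.prob_Q
  have := h.prob_ν
  obtain ⟨n1, n3⟩ := nu_facts h
  have htanh : ∀ y : ℝ, |Real.tanh y| ≤ 1 := fun y => (Real.abs_tanh_lt_one y).le
  have mt := Mgf.measurable_tanh
  have a1 : ∀ Y : V → ℝ, ∀ y, |θ * th T μ x y Y| ≤ 1 := fun Y y =>
    (abs_th' h x y Y).trans (by norm_num)
  set r : V → ℝ := fun y => θ ^ 2 * ∫ Y, th T μ x y Y ^ 2 ∂Q with hr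
  have hr0 : ∀ y, 0 ≤ r y := fun y => mul_nonneg (sq_nonneg _) (integral_nonneg fun Y => sq_nonneg _)
  have hq0 : 0 ≤ qq ν := integral_nonneg fun y => sq_nonneg _
  have hX : qq ν + θ ^ 2 * ∑ y ∈ C, ∫ Y, th T μ x y Y ^ 2 ∂Q = qq ν + ∑ y ∈ C, r y := by
    rw [hr, Finset.mul_sum]
  rw [hX]
  -- moments
  have p0 : ∀ (s : ℝ) (y : V), ∫ Y, (1 + s * (θ * th T μ x y Y)) * 1 ∂Q = 1 := by
    intro s y
    simp only [mul_one]
    exact mom0 (measurable_th' h x y) (fun Y => a1 Y y) (th_facts h x y).1 s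
  have p1 : ∀ (s : ℝ) (y : V), ∫ Y, (1 + s * (θ * th T μ x y Y)) * (θ * th T μ x y Y) ∂Q =
      s * r y := by
    intro s y
    rw [mom1 (measurable_th' h x y) (fun Y => a1 Y y) (th_facts h x y).1 s, (th_facts h x y).2.2]
  have p2 : ∀ (s : ℝ) (y : V), ∫ Y, (1 + s * (θ * th T μ x y Y)) * (θ * th T μ x y Y) ^ 2 ∂Q =
      r y := by
    intro s y
    rw [mom2 (measurable_th' h x y) (fun Y => a1 Y y) (th_facts h x y).2.1 s,
      (th_facts h x y).2.2]
  have v0 : ∀ s : ℝ, ∫ y, (1 + s * Real.tanh y) * 1 ∂ν = 1 := by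
    intro s
    simp only [mul_one]
    exact mom0 mt htanh n1 s
  have v1 : ∀ s : ℝ, ∫ y, (1 + s * Real.tanh y) * Real.tanh y ∂ν = s * qq ν := fun s =>
    mom1 mt htanh n1 s
  have v2 : ∀ s : ℝ, ∫ y, (1 + s * Real.tanh y) * Real.tanh y ^ 2 ∂ν = qq ν := fun s =>
    mom2 mt htanh n3 s
  -- bounded products
  have bprod : ∀ (g : V → ℝ → ℝ), (∀ w v, |v| ≤ 1 → |g w v| ≤ 1) → ∀ Y : V → ℝ,
      |∏ y ∈ C, g y (θ * th T μ x y Y)| ≤ 1 := by
    intro g hg Y
    rw [Finset.abs_prod]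
    exact Finset.prod_le_one (fun y _ => abs_nonneg _) (fun y _ => hg y _ (a1 Y y))
  have bmul : ∀ a c : ℝ, |a| ≤ 1 → |c| ≤ 1 → |a * c| ≤ 1 := by
    intro a c ha hc
    rw [abs_mul]
    exact mul_le_one₀ ha (abs_nonneg _) hc
  have bone : |(1 : ℝ)| ≤ 1 := by norm_num
  -- single functions
  have g1m : ∀ y w : V, Measurable (fun v : ℝ => if w = y then v else 1) := by
    intro y w
    split_ifs
    · exact measurable_id
    · exact measurable_const
  have g1b : ∀ y w : V, ∀ v : ℝ, |v| ≤ 1 → |(if w = y then v else 1)| ≤ 1 := by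
    intro y w v hv
    split_ifs
    · exact hv
    · exact bone
  -- `tanh`
  have c1 : ∀ s : ℝ, (∫ y, (1 + s * Real.tanh y) * Real.tanh y ∂ν) *
      ∏ y ∈ C, ∫ Y, (1 + s * (θ * th T μ x y Y)) * 1 ∂Q = s * qq ν := by
    intro s
    rw [v1, Finset.prod_congr rfl fun y _ => p0 s y, Finset.prod_const_one, mul_one]
  obtain ⟨m1, _, t1⟩ := both h hc ht ht1 (f₀ := Real.tanh) mt (g := fun _ _ => 1)
    (fun _ => measurable_const) (fun Y => bmul _ _ (htanh _) (bprod (fun _ _ => 1)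
      (fun _ _ _ => bone) Y)) (c1 1) (c1 (-1))
  simp only [Finset.prod_const_one, mul_one] at m1 t1
  -- `tanh²`
  have c2 : ∀ s : ℝ, (∫ y, (1 + s * Real.tanh y) * Real.tanh y ^ 2 ∂ν) *
      ∏ y ∈ C, ∫ Y, (1 + s * (θ * th T μ x y Y)) * 1 ∂Q = qq ν := by
    intro s
    rw [v2, Finset.prod_congr rfl fun y _ => p0 s y, Finset.prod_const_one, mul_one]
  obtain ⟨m2, t2, _⟩ := both h hc ht ht1 (f₀ := fun y => Real.tanh y ^ 2) (mt.pow_const 2)
    (g := fun _ _ => 1) (fun _ => measurable_const) (fun Y => bmul _ _ (pow_le_one' (htanh _) 2)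
      (bprod (fun _ _ => 1) (fun _ _ _ => bone) Y)) (c2 1) (c2 (-1))
  simp only [Finset.prod_const_one, mul_one] at m2 t2
  -- `θ th_y`
  have e1 : ∀ y ∈ C, ∀ Y : V → ℝ, ∏ w ∈ C, (if w = y then θ * th T μ x w Y else 1) =
      θ * th T μ x y Y := fun y hy Y => prod_ite_one hy fun w => θ * th T μ x w Y
  have q1 : ∀ (s : ℝ), ∀ y ∈ C, ∏ w ∈ C, ∫ Y, (1 + s * (θ * th T μ x w Y)) *
      (if w = y then θ * th T μ x w Y else 1) ∂Q = s * r y := by
    intro s y hy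
    rw [← prod_ite_one hy fun w => s * r w]
    refine Finset.prod_congr rfl fun w _ => ?_
    by_cases hw : w = y
    · simp only [hw, if_true]; exact p1 s y
    · simp only [hw, if_false]; exact p0 s w
  have t3 : ∀ y ∈ C, ∫ Y, t Y * (θ * th T μ x y Y) ∂Q = r y := by
    intro y hy
    have c3 : ∀ s : ℝ, (∫ z, (1 + s * Real.tanh z) * 1 ∂ν) *
        ∏ w ∈ C, ∫ Y, (1 + s * (θ * th T μ x w Y)) *
          (fun v : ℝ => if w = y then v else 1) (θ * th T μ x w Y) ∂Q = s * r y := by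
      intro s
      rw [v0, one_mul]
      exact q1 s y hy
    obtain ⟨_, _, t3⟩ := both h hc ht ht1 (f₀ := fun _ => 1) measurable_const
      (g := fun w v => if w = y then v else 1) (g1m y)
      (fun Y => bmul _ _ bone (bprod _ (g1b y) Y)) (c3 1) (c3 (-1))
    simp only [one_mul] at t3
    rw [integral_congr_ae (ae_of_all _ fun Y => by
      show t Y * (θ * th T μ x y Y) =
        t Y * ∏ w ∈ C, (if w = y then θ * th T μ x w Y else 1)
      rw [e1 y hy]), t3]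
    ring
  -- `tanh · θ th_y`
  have t4 : ∀ y ∈ C, ∫ Y : V → ℝ, Real.tanh (Y x) * (θ * th T μ x y Y) ∂Q = qq ν * r y := by
    intro y hy
    have c4 : ∀ s : ℝ, s ^ 2 = 1 → (∫ z, (1 + s * Real.tanh z) * Real.tanh z ∂ν) *
        ∏ w ∈ C, ∫ Y, (1 + s * (θ * th T μ x w Y)) *
          (fun v : ℝ => if w = y then v else 1) (θ * th T μ x w Y) ∂Q = qq ν * r y := by
      intro s hs
      rw [v1, show ∏ w ∈ C, ∫ Y, (1 + s * (θ * th T μ x w Y)) *
          (fun v : ℝ => if w = y then v else 1) (θ * th T μ x w Y) ∂Q = s * r y from q1 s y hy]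
      calc s * qq ν * (s * r y) = s ^ 2 * (qq ν * r y) := by ring
        _ = _ := by rw [hs, one_mul]
    obtain ⟨_, t4, _⟩ := both h hc ht ht1 (f₀ := Real.tanh) mt
      (g := fun w v => if w = y then v else 1) (g1m y)
      (fun Y => bmul _ _ (htanh _) (bprod _ (g1b y) Y)) (c4 1 (by norm_num))
      (c4 (-1) (by norm_num))
    rw [integral_congr_ae (ae_of_all _ fun Y => by
      show Real.tanh (Y x) * (θ * th T μ x y Y) =
        Real.tanh (Y x) * ∏ w ∈ C, (if w = y then θ * th T μ x w Y else 1)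
      rw [e1 y hy]), t4]
    ring
  -- products of two
  have t5 : ∀ y ∈ C, ∀ z ∈ C, ∫ Y : V → ℝ, (θ * th T μ x y Y) * (θ * th T μ x z Y) ∂Q ≤
      r y * r z + if y = z then r y else 0 := by
    intro y hy z hz
    have c5 : ∀ s : ℝ, s ^ 2 = 1 → (∫ z, (1 + s * Real.tanh z) * 1 ∂ν) *
        ∏ w ∈ C, ∫ Y, (1 + s * (θ * th T μ x w Y)) *
          (fun v : ℝ => (if w = y then v else 1) * (if w = z then v else 1))
            (θ * th T μ x w Y) ∂Q = if y = z then r y else r y * r z := by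
      intro s hs
      rw [v0, one_mul]
      by_cases hyz : y = z
      · subst hyz
        rw [if_pos rfl, ← prod_ite_one hy r]
        refine Finset.prod_congr rfl fun w _ => ?_
        by_cases hw : w = y
        · simp only [hw, if_true, ← sq]; exact p2 s y
        · simp only [hw, if_false, mul_one]
          have := p0 s w
          simp only [mul_one] at this
          exact this
      · rw [if_neg hyz]
        have : r y * r z = (s * r y) * (s * r z) := by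
          calc r y * r z = s ^ 2 * (r y * r z) := by rw [hs, one_mul]
            _ = _ := by ring
        rw [this, ← prod_ite_one hy fun w => s * r w, ← prod_ite_one hz fun w => s * r w,
          ← Finset.prod_mul_distrib]
        refine Finset.prod_congr rfl fun w _ => ?_
        by_cases hw : w = y
        · have hwz : ¬ w = z := fun hc => hyz (hw.symm.trans hc)
          simp only [hw, if_true, hyz, if_false, mul_one]
          exact p1 s y
        · by_cases hwz : w = z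
          · have hzy : ¬ z = y := fun hc => hyz hc.symm
            simp only [hwz, if_true, hzy, if_false, one_mul]
            exact p1 s z
          · simp only [hw, hwz, if_false, mul_one]
            have := p0 s w
            simp only [mul_one] at this
            exact this
    obtain ⟨_, t5, _⟩ := both h hc ht ht1 (f₀ := fun _ => 1) measurable_const
      (g := fun w v => (if w = y then v else 1) * (if w = z then v else 1))
      (fun w => (g1m y w).mul (g1m z w))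
      (fun Y => bmul _ _ bone (bprod _ (fun w v hv => bmul _ _ (g1b y w v hv) (g1b z w v hv)) Y))
      (c5 1 (by norm_num)) (c5 (-1) (by norm_num))
    simp only [one_mul] at t5
    rw [integral_congr_ae (ae_of_all _ fun Y => by
      show (θ * th T μ x y Y) * (θ * th T μ x z Y) =
        ∏ w ∈ C, ((if w = y then θ * th T μ x w Y else 1) *
          (if w = z then θ * th T μ x w Y else 1))
      rw [Finset.prod_mul_distrib, e1 y hy, e1 z hz]), t5]
    split_ifs with hyz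
    · have := mul_nonneg (hr0 y) (hr0 z)
      linarith
    · linarith
  -- the linear statistic
  set S : (V → ℝ) → ℝ := fun Y => Real.tanh (Y x) + ∑ y ∈ C, θ * th T μ x y Y with hS
  have ith : ∀ y, Integrable (fun Y => θ * th T μ x y Y) Q := fun y =>
    integrable_bdd (measurable_th' h x y) (fun Y => a1 Y y)
  have itth : ∀ y, Integrable (fun Y => t Y * (θ * th T μ x y Y)) Q := fun y =>
    integrable_bdd (ht.mul (measurable_th' h x y)) (fun Y => bmul _ _ (ht1 Y) (a1 Y y))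
  have mx : Measurable fun Y : V → ℝ => Real.tanh (Y x) := mt.comp (measurable_pi_apply x)
  have itt : Integrable (fun Y : V → ℝ => t Y * Real.tanh (Y x)) Q :=
    integrable_bdd (ht.mul mx) (fun Y => bmul _ _ (ht1 Y) (htanh _))
  have ixx : Integrable (fun Y : V → ℝ => Real.tanh (Y x) ^ 2) Q :=
    integrable_bdd (mx.pow_const 2) (fun Y => pow_le_one' (htanh _) 2)
  have ixt : ∀ y, Integrable (fun Y : V → ℝ => Real.tanh (Y x) * (θ * th T μ x y Y)) Q := fun y =>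
    integrable_bdd (mx.mul (measurable_th' h x y)) (fun Y => bmul _ _ (htanh _) (a1 Y y))
  have iyz : ∀ y z, Integrable (fun Y => (θ * th T μ x y Y) * (θ * th T μ x z Y)) Q := fun y z =>
    integrable_bdd ((measurable_th' h x y).mul (measurable_th' h x z))
      (fun Y => bmul _ _ (a1 Y y) (a1 Y z))
  have it2 : Integrable (fun Y => t Y ^ 2) Q := integrable_pow ht ht1 2
  have etS : ∀ Y, t Y * S Y = t Y * Real.tanh (Y x) + ∑ y ∈ C, t Y * (θ * th T μ x y Y) := by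
    intro Y
    rw [hS]
    simp only
    rw [mul_add, Finset.mul_sum]
  have itS : Integrable (fun Y => t Y * S Y) Q := by
    simp_rw [etS]
    exact itt.add (integrable_finsetSum _ fun y _ => itth y)
  have hTS : ∫ Y, t Y * S Y ∂Q = qq ν + ∑ y ∈ C, r y := by
    simp_rw [etS]
    rw [integral_add itt (integrable_finsetSum _ fun y _ => itth y),
      integral_finsetSum _ fun y _ => itth y, Finset.sum_congr rfl t3, t1]
    ring
  have eSS : ∀ Y, S Y ^ 2 = Real.tanh (Y x) ^ 2 + (2 * ∑ y ∈ C, Real.tanh (Y x) *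
      (θ * th T μ x y Y) + ∑ y ∈ C, ∑ z ∈ C, (θ * th T μ x y Y) * (θ * th T μ x z Y)) := by
    intro Y
    have d1 : ∑ y ∈ C, Real.tanh (Y x) * (θ * th T μ x y Y) =
        Real.tanh (Y x) * ∑ y ∈ C, θ * th T μ x y Y := (Finset.mul_sum _ _ _).symm
    have d2 : ∑ y ∈ C, ∑ z ∈ C, (θ * th T μ x y Y) * (θ * th T μ x z Y) =
        (∑ y ∈ C, θ * th T μ x y Y) ^ 2 := by
      rw [sq, Finset.sum_mul_sum]
    rw [d1, d2, hS]
    simp only
    generalize ∑ y ∈ C, θ * th T μ x y Y = B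
    ring
  have j1 : Integrable (fun Y : V → ℝ => 2 * ∑ y ∈ C, Real.tanh (Y x) * (θ * th T μ x y Y)) Q :=
    (integrable_finsetSum _ fun y _ => ixt y).const_mul 2
  have j2 : Integrable (fun Y => ∑ y ∈ C, ∑ z ∈ C, (θ * th T μ x y Y) * (θ * th T μ x z Y)) Q :=
    integrable_finsetSum _ fun y _ => integrable_finsetSum _ fun z _ => iyz y z
  have iS2 : Integrable (fun Y => S Y ^ 2) Q := by
    simp_rw [eSS]
    exact ixx.add (j1.add j2)
  have hSS : ∫ Y, S Y ^ 2 ∂Q ≤ (qq ν + ∑ y ∈ C, r y) + (qq ν + ∑ y ∈ C, r y) ^ 2 := by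
    simp_rw [eSS]
    have j12 : Integrable (fun Y : V → ℝ => 2 * ∑ y ∈ C, Real.tanh (Y x) * (θ * th T μ x y Y) +
        ∑ y ∈ C, ∑ z ∈ C, (θ * th T μ x y Y) * (θ * th T μ x z Y)) Q := j1.add j2
    rw [integral_add ixx j12, integral_add j1 j2, integral_const_mul,
      integral_finsetSum _ fun y _ => ixt y, Finset.sum_congr rfl t4,
      integral_finsetSum _ fun y _ => integrable_finsetSum _ fun z _ => iyz y z, t2]
    have k1 : ∑ y ∈ C, ∫ Y, ∑ z ∈ C, (θ * th T μ x y Y) * (θ * th T μ x z Y) ∂Q ≤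
        ∑ y ∈ C, ∑ z ∈ C, (r y * r z + if y = z then r y else 0) := by
      refine Finset.sum_le_sum fun y hy => ?_
      rw [integral_finsetSum _ fun z _ => iyz y z]
      exact Finset.sum_le_sum fun z hz => t5 y hy z hz
    have k2 : ∑ y ∈ C, ∑ z ∈ C, (r y * r z + if y = z then r y else 0) =
        (∑ y ∈ C, r y) ^ 2 + ∑ y ∈ C, r y := by
      simp_rw [Finset.sum_add_distrib]
      rw [sq, Finset.sum_mul_sum]
      congr 1
      refine Finset.sum_congr rfl fun y hy => ?_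
      rw [Finset.sum_ite_eq, if_pos hy]
    rw [k2] at k1
    rw [← Finset.mul_sum]
    nlinarith [sq_nonneg (qq ν)]
  -- optimisation
  set X := qq ν + ∑ y ∈ C, r y with hXd
  have hX0 : 0 ≤ X := add_nonneg hq0 (Finset.sum_nonneg fun y _ => hr0 y)
  have hpos : 0 ≤ ∫ Y, ((1 + X) * t Y - S Y) ^ 2 ∂Q := integral_nonneg fun Y => sq_nonneg _
  have eexp : ∀ Y, ((1 + X) * t Y - S Y) ^ 2 =
      (1 + X) ^ 2 * t Y ^ 2 + (S Y ^ 2 - 2 * (1 + X) * (t Y * S Y)) := fun Y => by ring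
  simp_rw [eexp] at hpos
  have l1 : Integrable (fun Y => S Y ^ 2 - 2 * (1 + X) * (t Y * S Y)) Q :=
    iS2.sub (itS.const_mul _)
  rw [integral_add (it2.const_mul _) l1, integral_sub iS2 (itS.const_mul _), integral_const_mul,
    integral_const_mul, hTS] at hpos
  have hfin : 0 ≤ (1 + X) * ((1 + X) * ∫ Y, t Y ^ 2 ∂Q - X) := by nlinarith
  have := nonneg_of_mul_nonneg_right hfin (by linarith : 0 < 1 + X)
  linarith

end

end Info

section S5

variable {T : RTree V b} {θ : ℝ} {μ : Measure (V → Bool)} {ν : Measure ℝ} {Q : Measure (V → ℝ)}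

/-- `1 - q ≥ (1 - q_ν) ∏ (1 - θ² q_y)`: with `Π₊, Π₋` the products of `1 ± s_i` over `tanh (Y x)`
and the `θ th`, `Π₋ (1 + t) = Π₊ (1 - t) = A` (S2), so `1 - t² = A² / N ≥ 2 A - N`,
`N = Π₊ Π₋`, and the integrals of `A` and `N` are products (S3, S4). -/
theorem info_up (h : SR T θ μ ν Q) {u x : V} (hux : T.G.Adj u x) :
    (1 - qq ν) * ∏ y ∈ T.ch u x, (1 - θ ^ 2 * ∫ Y, th T μ x y Y ^ 2 ∂Q) ≤
      1 - ∫ Y, th T μ u x Y ^ 2 ∂Q := by
  have := h.prob_μ
  exact Info.up h (fun s hs f₀ hf₀ f hf hd => cpf h hux hs hf₀ hf hd) (measurable_th T μ u x)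
    (abs_th_le T μ u x) (th_rec h hux)

theorem info_up_Mh (h : SR T θ μ ν Q) (x : V) :
    (1 - qq ν) * ∏ y ∈ T.nb x, (1 - θ ^ 2 * ∫ Y, th T μ x y Y ^ 2 ∂Q) ≤
      1 - ∫ Y, Mh T μ x Y ^ 2 ∂Q := by
  have := h.prob_μ
  exact Info.up h (fun s hs f₀ hf₀ f hf hd => cpfM h x hs hf₀ hf hd) (measurable_Mh T μ x)
    (abs_Mh_le T μ x) (Mh_rec h x)

/-- `q ≥ X / (1 + X)`, `X = q_ν + θ² ∑ q_y`: Cauchy-Schwarz with `S = tanh (Y x) + θ ∑ th`,
`∫ th S = X`, `∫ S² ≤ X + X²` (S3). -/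
theorem info_low (h : SR T θ μ ν Q) {u x : V} (hux : T.G.Adj u x) :
    qq ν + θ ^ 2 * ∑ y ∈ T.ch u x, ∫ Y, th T μ x y Y ^ 2 ∂Q ≤
      (1 + (qq ν + θ ^ 2 * ∑ y ∈ T.ch u x, ∫ Y, th T μ x y Y ^ 2 ∂Q)) *
        ∫ Y, th T μ u x Y ^ 2 ∂Q := by
  have := h.prob_μ
  exact Info.low h (fun s hs f₀ hf₀ f hf hd => cpf h hux hs hf₀ hf hd) (measurable_th T μ u x)
    (abs_th_le T μ u x)

end S5

end Vale.Agent.P161E
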