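import Vale.Agent.P161E.STail

/-!
# Part S, S7: the cavity magnetisation is of order `√ρ`
-/

open MeasureTheory Set Filter Topology
open scoped unitInterval ENNReal

namespace Vale.Agent.P161E

open Vale.Agent.P161

universe u

variable {V : Type u} {b : ℕ}

namespace Large

section

variable {T : RTree V b} {θ : ℝ} {μ : Measure (V → Bool)} {ν : Measure ℝ} {Q : Measure (V → ℝ)}

/-- Paley-Zygmund -/
theorem pz (h : SR T θ μ ν Q) (u x : V) {ρ K : ℝ} (hρ : 0 < ρ) (hK : 1 ≤ K)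
    (h2 : ρ / 128 ≤ ∫ Y, th T μ u x Y ^ 2 ∂Q) (h4 : ∫ Y, th T μ u x Y ^ 4 ∂Q ≤ K * ρ ^ 2) :
    1 / (131072 * K) ≤ Q.real {Y | Real.sqrt ρ / 16 ≤ th T μ u x Y} := by
  have := h.prob_μ
  have := h.prob_Q
  have hm : Measurable (th T μ u x) := measurable_th T μ u x
  have hab : ∀ Y, |th T μ u x Y| ≤ 1 := abs_th_le T μ u x
  have ip : ∀ n : ℕ, Integrable (fun Y => th T μ u x Y ^ n) Q := fun n =>
    Integrable.of_bound (hm.pow_const n).aestronglyMeasurable 1 (ae_of_all _ fun Y => by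
      rw [Real.norm_eq_abs, abs_pow]
      exact pow_le_one₀ (abs_nonneg _) (hab Y))
  obtain ⟨φ, hφ⟩ : ∃ φ : ℝ → ℝ, φ = (Ici (Real.sqrt ρ / 16)).indicator (fun _ => (1 : ℝ)) :=
    ⟨_, rfl⟩
  have hφm : Measurable φ := by rw [hφ]; exact measurable_const.indicator measurableSet_Ici
  have hφ1 : ∀ t, |φ t| ≤ 1 := by
    intro t
    rw [hφ]
    by_cases ht : t ∈ Ici (Real.sqrt ρ / 16)
    · rw [indicator_of_mem ht]; simp
    · rw [indicator_of_notMem ht]; simp
  have hφ0 : ∀ t, 0 ≤ φ t := fun t => by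
    rw [hφ]; exact indicator_nonneg (fun _ _ => zero_le_one) t
  have hset : MeasurableSet {Y | Real.sqrt ρ / 16 ≤ th T μ u x Y} :=
    measurableSet_le measurable_const hm
  have e1 : ∫ Y, φ (th T μ u x Y) ∂Q = Q.real {Y | Real.sqrt ρ / 16 ≤ th T μ u x Y} := by
    rw [← integral_indicator_one hset]
    refine integral_congr_ae (ae_of_all _ fun Y => ?_)
    simp only [hφ]
    by_cases hY : Real.sqrt ρ / 16 ≤ th T μ u x Y
    · rw [indicator_of_mem (mem_Ici.mpr hY), indicator_of_mem (by rw [mem_ofPred_eq]; exact hY)]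
      rfl
    · rw [indicator_of_notMem (by rw [mem_Ici]; exact hY),
        indicator_of_notMem (by rw [mem_ofPred_eq]; exact hY)]
  have e2 := integral_flip h u x hφm
  have i1 : Integrable (fun Y => φ (th T μ u x Y)) Q :=
    Integrable.of_bound (hφm.comp hm).aestronglyMeasurable 1 (ae_of_all _ fun Y => hφ1 _)
  have i2 : Integrable (fun Y => φ (-th T μ u x Y)) Q :=
    Integrable.of_bound (hφm.comp hm.neg).aestronglyMeasurable 1 (ae_of_all _ fun Y => hφ1 _)
  have hsq : Real.sqrt ρ ^ 2 = ρ := Real.sq_sqrt hρ.le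
  have hs0 : 0 < Real.sqrt ρ := Real.sqrt_pos.mpr hρ
  -- the pointwise inequality
  have hpt : ∀ Y, th T μ u x Y ^ 2 ≤ ρ / 256 + 1 / (512 * K * ρ) * th T μ u x Y ^ 4 +
      128 * K * ρ * (φ (th T μ u x Y) + φ (-th T μ u x Y)) := by
    intro Y
    obtain ⟨t, ht⟩ : ∃ t, t = th T μ u x Y := ⟨_, rfl⟩
    rw [← ht]
    have hA : 0 ≤ 1 / (512 * K * ρ) * t ^ 4 := by positivity
    have hB : 0 ≤ 128 * K * ρ * (φ t + φ (-t)) :=
      mul_nonneg (by positivity) (add_nonneg (hφ0 _) (hφ0 _))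
    by_cases hc : t ^ 2 ≤ ρ / 256
    · linarith
    · have h5 : 1 ≤ φ t + φ (-t) := by
        have h6 : (Real.sqrt ρ / 16) ^ 2 ≤ |t| ^ 2 := by
          rw [sq_abs, div_pow, hsq]; linarith
        have h7 : Real.sqrt ρ / 16 ≤ |t| := by
          exact (pow_le_pow_iff_left₀ (by positivity) (abs_nonneg t) two_ne_zero).mp h6
        rcases le_abs.mp h7 with h8 | h8
        · have : φ t = 1 := by rw [hφ, indicator_of_mem (mem_Ici.mpr h8)]
          linarith [hφ0 (-t)]
        · have : φ (-t) = 1 := by rw [hφ, indicator_of_mem (mem_Ici.mpr h8)]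
          linarith [hφ0 t]
      have h9 : 128 * K * ρ ≤ 128 * K * ρ * (φ t + φ (-t)) := by
        have : 0 < 128 * K * ρ := by positivity
        nlinarith
      have h10 : t ^ 2 ≤ 1 / (512 * K * ρ) * t ^ 4 + 128 * K * ρ := by
        have h11 : 0 ≤ (t ^ 2 - 256 * K * ρ) ^ 2 / (512 * K * ρ) := by positivity
        have h12 : (t ^ 2 - 256 * K * ρ) ^ 2 / (512 * K * ρ) =
            1 / (512 * K * ρ) * t ^ 4 - t ^ 2 + 128 * K * ρ := by
          field_simp
          ring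
        linarith
      linarith
  have i4 : Integrable (fun Y => 1 / (512 * K * ρ) * th T μ u x Y ^ 4) Q := (ip 4).const_mul _
  have i5 : Integrable (fun Y => ρ / 256 + 1 / (512 * K * ρ) * th T μ u x Y ^ 4) Q :=
    (integrable_const _).add i4
  have i6 : Integrable (fun Y => 128 * K * ρ * (φ (th T μ u x Y) + φ (-th T μ u x Y))) Q :=
    (i1.add i2).const_mul _
  have h5 : ∫ Y, th T μ u x Y ^ 2 ∂Q ≤ ∫ Y, (ρ / 256 + 1 / (512 * K * ρ) * th T μ u x Y ^ 4 +
      128 * K * ρ * (φ (th T μ u x Y) + φ (-th T μ u x Y))) ∂Q :=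
    integral_mono (ip 2) (i5.add i6) hpt
  rw [integral_add i5 i6, integral_add (integrable_const _) i4, integral_const_mul,
    integral_const_mul, integral_add i1 i2, e2, e1] at h5
  simp only [integral_const, probReal_univ, one_smul] at h5
  have h6 : 1 / (512 * K * ρ) * ∫ Y, th T μ u x Y ^ 4 ∂Q ≤ ρ / 512 := by
    calc 1 / (512 * K * ρ) * ∫ Y, th T μ u x Y ^ 4 ∂Q ≤ 1 / (512 * K * ρ) * (K * ρ ^ 2) :=
          mul_le_mul_of_nonneg_left h4 (by positivity)
      _ = ρ / 512 := by field_simp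
  obtain ⟨p, hp⟩ : ∃ p, p = Q.real {Y | Real.sqrt ρ / 16 ≤ th T μ u x Y} := ⟨_, rfl⟩
  rw [← hp] at h5 ⊢
  have h7 : ρ / 512 ≤ 256 * K * ρ * p := by nlinarith
  have h8 : 1 / 512 ≤ 256 * K * p := by
    have h9 : ρ * (1 / 512) ≤ ρ * (256 * K * p) := by linarith
    exact le_of_mul_le_mul_left h9 hρ
  rw [div_le_iff₀ (by positivity)]
  linarith

end

/-- signs of the recursion -/
theorem rec_sign {C : Finset V} {t : V → ℝ} {θ y a s : ℝ} (hs : s = 1 ∨ s = -1) (hθ : 0 ≤ θ)
    (hθ1 : θ < 1) (ht : ∀ w ∈ C, |t w| ≤ 1) (hy : 0 ≤ s * y) (h0 : ∀ w ∈ C, 0 ≤ s * t w)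
    {z : V} (hz : z ∈ C) (ha : a ≤ s * t z) :
    θ * a ≤ s * Real.tanh (y + ∑ w ∈ C, Real.artanh (θ * t w)) := by
  classical
  have hneg : ∀ x : ℝ, s * Real.artanh x = Real.artanh (s * x) := by
    intro x
    rcases hs with rfl | rfl
    · rw [one_mul, one_mul]
    · rw [neg_one_mul, neg_one_mul, Mgf.artanh_neg]
  have htan : ∀ x : ℝ, s * Real.tanh x = Real.tanh (s * x) := by
    intro x
    rcases hs with rfl | rfl
    · rw [one_mul, one_mul]
    · rw [neg_one_mul, neg_one_mul, Real.tanh_neg]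
  have hst : ∀ w ∈ C, |s * t w| ≤ 1 := by
    intro w hw
    rw [abs_mul]
    rcases hs with rfl | rfl
    · simpa using ht w hw
    · simpa using ht w hw
  have hin : θ * (s * t z) ∈ Ioo (-1 : ℝ) 1 := by
    have h1 := h0 z hz
    have h2 := (abs_le.mp (hst z hz)).2
    constructor
    · nlinarith
    · nlinarith
  have h1 : Real.artanh (θ * (s * t z)) ≤ s * (y + ∑ w ∈ C, Real.artanh (θ * t w)) := by
    rw [mul_add, Finset.mul_sum]
    have h2 : ∀ w ∈ C, s * Real.artanh (θ * t w) = Real.artanh (θ * (s * t w)) := by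
      intro w _
      rw [hneg]; congr 1; ring
    rw [Finset.sum_congr rfl h2]
    have h3 : Real.artanh (θ * (s * t z)) ≤ ∑ w ∈ C, Real.artanh (θ * (s * t w)) :=
      Finset.single_le_sum (f := fun w => Real.artanh (θ * (s * t w)))
        (fun w hw => Real.artanh_nonneg (mul_nonneg hθ (h0 w hw))) hz
    linarith
  rw [htan]
  calc θ * a ≤ θ * (s * t z) := mul_le_mul_of_nonneg_left ha hθ
    _ = Real.tanh (Real.artanh (θ * (s * t z))) := (Real.tanh_artanh hin).symm
    _ ≤ _ := Mgf.tanh_mono h1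

section

variable {T : RTree V b} {θ : ℝ} {μ : Measure (V → Bool)} {ν : Measure ℝ} {Q : Measure (V → ℝ)}

/-- indicator of `[a, ∞)` -/
noncomputable def ind (a t : ℝ) : ℝ := (Ici a).indicator (fun _ => (1 : ℝ)) t

theorem measurable_ind (a : ℝ) : Measurable (ind a) := by
  unfold ind
  exact measurable_const.indicator measurableSet_Ici

theorem ind_nonneg (a t : ℝ) : 0 ≤ ind a t := indicator_nonneg (fun _ _ => zero_le_one) t

theorem ind_le_one (a t : ℝ) : ind a t ≤ 1 := by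
  unfold ind
  by_cases ht : t ∈ Ici a
  · rw [indicator_of_mem ht]
  · rw [indicator_of_notMem ht]; exact zero_le_one

theorem ind_of_le {a t : ℝ} (h : a ≤ t) : ind a t = 1 := indicator_of_mem (mem_Ici.mpr h) _

theorem ind_of_lt {a t : ℝ} (h : t < a) : ind a t = 0 :=
  indicator_of_notMem (by rw [mem_Ici]; exact not_le.mpr h) _

theorem abs_ind_le (a t : ℝ) : |ind a t| ≤ 1 := by
  rw [abs_of_nonneg (ind_nonneg a t)]; exact ind_le_one a t

theorem flip_s (h : SR T θ μ ν Q) (u x : V) {s : ℝ} (hs : s = 1 ∨ s = -1) (a : ℝ) :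
    ∫ Y, ind a (s * th T μ u x Y) ∂Q = ∫ Y, ind a (th T μ u x Y) ∂Q := by
  rcases hs with rfl | rfl
  · simp
  · simp only [neg_one_mul]
    exact integral_flip h u x (measurable_ind a)

theorem integrable_ind (h : SR T θ μ ν Q) (u x : V) (a s : ℝ) :
    Integrable (fun Y => ind a (s * th T μ u x Y)) Q := by
  have := h.prob_μ
  have := h.prob_Q
  exact Integrable.of_bound (((measurable_ind a).comp
    ((measurable_th T μ u x).const_mul s)).aestronglyMeasurable) 1
    (ae_of_all _ fun Y => abs_ind_le _ _)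

/-- the weight does not decrease on the event -/
theorem weight_ge (h : SR T θ μ ν Q) (u x : V) {s : ℝ} {a : ℝ} (ha : 0 ≤ a)
    {k : (V → ℝ) → ℝ} (hk : Integrable k Q) (hk0 : ∀ Y, 0 ≤ k Y) :
    ∫ Y, ind a (s * th T μ u x Y) * k Y ∂Q ≤
      ∫ Y, (1 + s * (θ * th T μ u x Y)) * (ind a (s * th T μ u x Y) * k Y) ∂Q := by
  have := h.prob_μ
  have := h.prob_Q
  have hm : Measurable (th T μ u x) := measurable_th T μ u x
  have hi : Integrable (fun Y => ind a (s * th T μ u x Y) * k Y) Q :=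
    hk.bdd_mul ((measurable_ind a).comp (hm.const_mul s)).aestronglyMeasurable
      (ae_of_all _ fun Y => abs_ind_le _ _)
  have hw : Integrable (fun Y => (1 + s * (θ * th T μ u x Y)) *
      (ind a (s * th T μ u x Y) * k Y)) Q := by
    refine hi.bdd_mul (c := 1 + |s| * |θ|)
      (measurable_const.add ((hm.const_mul θ).const_mul s)).aestronglyMeasurable
      (ae_of_all _ fun Y => ?_)
    have h1 := abs_th_le T μ u x Y
    calc ‖1 + s * (θ * th T μ u x Y)‖ ≤ ‖(1 : ℝ)‖ + ‖s * (θ * th T μ u x Y)‖ := norm_add_le _ _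
      _ = 1 + |s| * (|θ| * |th T μ u x Y|) := by simp
      _ ≤ 1 + |s| * (|θ| * 1) := by gcongr
      _ = 1 + |s| * |θ| := by ring
  refine integral_mono hi hw fun Y => ?_
  simp only
  rcases lt_or_ge (s * th T μ u x Y) a with h1 | h1
  · rw [ind_of_lt h1]; simp
  · have h2 : 0 ≤ s * (θ * th T μ u x Y) := by
      have h3 : s * (θ * th T μ u x Y) = θ * (s * th T μ u x Y) := by ring
      rw [h3]
      exact mul_nonneg h.θ0 (ha.trans h1)
    have h4 : 0 ≤ ind a (s * th T μ u x Y) * k Y := mul_nonneg (ind_nonneg _ _) (hk0 Y)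
    nlinarith

theorem half_le (h : SR T θ μ ν Q) (u x : V) : 1 / 2 ≤ ∫ Y, ind 0 (th T μ u x Y) ∂Q := by
  have := h.prob_Q
  have h1 := flip_s h u x (s := -1) (Or.inr rfl) 0
  have i1 := integrable_ind h u x 0 1
  have i2 := integrable_ind h u x 0 (-1)
  simp only [one_mul] at i1
  have h2 : ∫ _, (1 : ℝ) ∂Q ≤ ∫ Y, (ind 0 (th T μ u x Y) + ind 0 (-1 * th T μ u x Y)) ∂Q := by
    refine integral_mono (integrable_const _) (i1.add i2) fun Y => ?_
    simp only
    rcases le_total 0 (th T μ u x Y) with h3 | h3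
    · rw [ind_of_le h3]; linarith [ind_nonneg 0 (-1 * th T μ u x Y)]
    · rw [ind_of_le (a := 0) (t := -1 * th T μ u x Y) (by linarith)]
      linarith [ind_nonneg 0 (th T μ u x Y)]
  rw [integral_add i1 i2, h1] at h2
  simp at h2
  linarith

theorem half_le_nu {ν : Measure ℝ} (hν : Obs ν) {s : ℝ} (hs : s = 1 ∨ s = -1) :
    1 / 2 ≤ ∫ y, (1 + s * Real.tanh y) * ind 0 (s * y) ∂ν := by
  have := hν.prob
  have hmt : Measurable Real.tanh := Mgf.measurable_tanh
  have hmi : ∀ s : ℝ, Measurable fun y : ℝ => ind 0 (s * y) := fun s =>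
    (measurable_ind 0).comp (measurable_const.mul measurable_id)
  have hii : ∀ s : ℝ, Integrable (fun y : ℝ => ind 0 (s * y)) ν := fun s =>
    Integrable.of_bound (hmi s).aestronglyMeasurable 1 (ae_of_all _ fun y => abs_ind_le _ _)
  have h1 : ∫ y, ind 0 (s * y) ∂ν ≤ ∫ y, (1 + s * Real.tanh y) * ind 0 (s * y) ∂ν := by
    refine integral_mono (hii s) ?_ fun y => ?_
    · refine (hii s).bdd_mul (c := 2)
        (measurable_const.add (hmt.const_mul s)).aestronglyMeasurable (ae_of_all _ fun y => ?_)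
      have h2 := abs_le.mp (Real.abs_tanh_lt_one y).le
      rw [Real.norm_eq_abs, abs_le]
      rcases hs with rfl | rfl <;> constructor <;> linarith
    · simp only
      rcases lt_or_ge (s * y) 0 with h2 | h2
      · rw [ind_of_lt h2]; simp
      · rw [ind_of_le h2]
        have h3 : 0 ≤ s * Real.tanh y := by
          have h4 : s * Real.tanh y = Real.tanh (s * y) := by
            rcases hs with rfl | rfl
            · simp
            · simp [Real.tanh_neg]
          rw [h4]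
          have := Mgf.tanh_mono h2
          rwa [Real.tanh_zero] at this
        linarith
  have h2 : ∫ y, ind 0 (-1 * y) ∂ν = ∫ y, ind 0 (1 * y) ∂ν := by
    conv_rhs => rw [← hν.symm]
    rw [integral_map measurable_neg.aemeasurable (hmi 1).aestronglyMeasurable]
    simp
  have h3 : ∫ _, (1 : ℝ) ∂ν ≤ ∫ y, (ind 0 (1 * y) + ind 0 (-1 * y)) ∂ν := by
    refine integral_mono (integrable_const _) ((hii 1).add (hii (-1))) fun y => ?_
    simp only
    rcases le_total 0 y with h3 | h3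
    · rw [ind_of_le (a := 0) (t := 1 * y) (by linarith)]; linarith [ind_nonneg 0 (-1 * y)]
    · rw [ind_of_le (a := 0) (t := -1 * y) (by linarith)]; linarith [ind_nonneg 0 (1 * y)]
  rw [integral_add (hii 1) (hii (-1)), h2] at h3
  simp only [integral_const, probReal_univ, one_smul] at h3
  have h4 : ∫ y, ind 0 (s * y) ∂ν = ∫ y, ind 0 (1 * y) ∂ν := by
    rcases hs with rfl | rfl
    · rfl
    · exact h2
  rw [h4] at h1
  linarith

theorem integral_ind (u x : V) {a : ℝ} (hm : Measurable (th T μ u x)) :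
    ∫ Y, ind a (th T μ u x Y) ∂Q = Q.real {Y | a ≤ th T μ u x Y} := by
  rw [← integral_indicator_one (measurableSet_le measurable_const hm)]
  refine integral_congr_ae (ae_of_all _ fun Y => ?_)
  simp only
  by_cases hY : a ≤ th T μ u x Y
  · rw [ind_of_le hY, indicator_of_mem (by rw [mem_ofPred_eq]; exact hY)]
    rfl
  · rw [ind_of_lt (not_le.mp hY), indicator_of_notMem (by rw [mem_ofPred_eq]; exact hY)]

theorem given_aux (h : SR T θ μ ν Q) {u x y z : V} (hux : T.G.Adj u x) (hy : y ∈ T.ch u x)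
    (hz : z ∈ T.ch u x) (hzy : z ≠ y) {a c₂ : ℝ} (ha : 0 ≤ a) (hc₂ : 0 ≤ c₂)
    (hc : c₂ ≤ Q.real {Y | a ≤ th T μ x z Y}) {g : (V → ℝ) → ℝ} (hg : Measurable g)
    (hg0 : ∀ Y, 0 ≤ g Y) (hgi : Integrable g Q) (hgd : DependsOn g (T.side x y)) {s : ℝ}
    (hs : s = 1 ∨ s = -1) :
    c₂ * (1 / 2) ^ (b + 1) * ∫ Y, ind 0 (s * th T μ x y Y) * g Y ∂Q ≤
      2 * ∫ Y, ind (θ * a) (s * th T μ u x Y) * g Y ∂Q := by
  classical
  have := h.prob_μ
  have := h.prob_Q
  have hm : ∀ u x, Measurable (th T μ u x) := fun u x => measurable_th T μ u x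
  have hdn : ∀ w, DependsOn (th T μ x w) (T.side x w) := fun w => dependsOn_th T μ x w
  obtain ⟨f, hf⟩ : ∃ f : V → (V → ℝ) → ℝ, f = fun w Y =>
      if w = y then ind 0 (s * th T μ x y Y) * g Y else
      if w = z then ind a (s * th T μ x z Y) else ind 0 (s * th T μ x w Y) := ⟨_, rfl⟩
  have hfy : ∀ Y, f y Y = ind 0 (s * th T μ x y Y) * g Y := fun Y => by rw [hf]; simp
  have hfz : ∀ Y, f z Y = ind a (s * th T μ x z Y) := fun Y => by rw [hf]; simp [hzy]
  have hfw : ∀ w, w ≠ y → w ≠ z → ∀ Y, f w Y = ind 0 (s * th T μ x w Y) :=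
    fun w h1 h2 Y => by rw [hf]; simp [h1, h2]
  have hfm : ∀ w, Measurable (f w) := by
    intro w
    by_cases h1 : w = y
    · rw [h1, funext hfy]
      exact ((measurable_ind 0).comp ((hm x y).const_mul s)).mul hg
    · by_cases h2 : w = z
      · rw [h2, funext hfz]
        exact (measurable_ind a).comp ((hm x z).const_mul s)
      · rw [funext (hfw w h1 h2)]
        exact (measurable_ind 0).comp ((hm x w).const_mul s)
  have hf0 : ∀ w Y, 0 ≤ f w Y := by
    intro w Y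
    by_cases h1 : w = y
    · rw [h1, hfy]; exact mul_nonneg (ind_nonneg _ _) (hg0 Y)
    · by_cases h2 : w = z
      · rw [h2, hfz]; exact ind_nonneg _ _
      · rw [hfw w h1 h2]; exact ind_nonneg _ _
  have hf1 : ∀ w, w ≠ y → ∀ Y, f w Y ≤ 1 := by
    intro w h1 Y
    by_cases h2 : w = z
    · rw [h2, hfz]; exact ind_le_one _ _
    · rw [hfw w h1 h2]; exact ind_le_one _ _
  have hfd : ∀ w ∈ T.ch u x, DependsOn (f w) (T.side x w) := by
    intro w _ Y Y' hY
    by_cases h1 : w = y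
    · rw [h1] at hY ⊢
      rw [hfy, hfy, hdn y hY, hgd hY]
    · by_cases h2 : w = z
      · rw [h2] at hY ⊢
        rw [hfz, hfz, hdn z hY]
      · rw [hfw w h1 h2, hfw w h1 h2, hdn w hY]
  have hcpf := cpf h hux hs (f₀ := fun v => ind 0 (s * v))
    ((measurable_ind 0).comp (measurable_const.mul measurable_id)) hfm hfd
  -- upper bound of the left side
  have hP1 : ∀ Y, ∏ w ∈ T.ch u x, f w Y ≤ g Y := by
    intro Y
    rw [← Finset.mul_prod_erase _ _ hy]
    calc f y Y * ∏ w ∈ (T.ch u x).erase y, f w Y ≤ f y Y * 1 :=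
          mul_le_mul_of_nonneg_left (Finset.prod_le_one (fun w _ => hf0 w Y)
            fun w hw => hf1 w (Finset.ne_of_mem_erase hw) Y) (hf0 y Y)
      _ = ind 0 (s * th T μ x y Y) * g Y := by rw [mul_one, hfy]
      _ ≤ 1 * g Y := mul_le_mul_of_nonneg_right (ind_le_one _ _) (hg0 Y)
      _ = g Y := one_mul _
  have hP0 : ∀ Y, 0 ≤ ∏ w ∈ T.ch u x, f w Y := fun Y => Finset.prod_nonneg fun w _ => hf0 w Y
  have hw2 : ∀ Y, 0 ≤ 1 + s * th T μ u x Y ∧ 1 + s * th T μ u x Y ≤ 2 := by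
    intro Y
    have h1 := abs_le.mp (abs_th_le T μ u x Y)
    rcases hs with rfl | rfl <;> constructor <;> linarith
  have hPm : Measurable fun Y => ∏ w ∈ T.ch u x, f w Y :=
    Finset.measurable_fun_prod _ fun w _ => hfm w
  have hYx : Measurable fun Y : V → ℝ => s * Y x := measurable_const.mul (measurable_pi_apply x)
  have hLi : Integrable (fun Y => (1 + s * th T μ u x Y) *
      (ind 0 (s * Y x) * ∏ w ∈ T.ch u x, f w Y)) Q := by
    refine Integrable.mono (hgi.const_mul 2) ?_ (ae_of_all _ fun Y => ?_)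
    · exact ((measurable_const.add ((hm u x).const_mul s)).mul
        (((measurable_ind 0).comp hYx).mul hPm)).aestronglyMeasurable
    · have h1 : 0 ≤ ind 0 (s * Y x) * ∏ w ∈ T.ch u x, f w Y :=
        mul_nonneg (ind_nonneg _ _) (hP0 Y)
      have h2 : ind 0 (s * Y x) * ∏ w ∈ T.ch u x, f w Y ≤ g Y := by
        calc ind 0 (s * Y x) * ∏ w ∈ T.ch u x, f w Y ≤ 1 * g Y :=
              mul_le_mul (ind_le_one _ _) (hP1 Y) (hP0 Y) zero_le_one
          _ = g Y := one_mul _
      rw [Real.norm_eq_abs, Real.norm_eq_abs, abs_of_nonneg (mul_nonneg (hw2 Y).1 h1),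
        abs_of_nonneg (mul_nonneg zero_le_two (hg0 Y))]
      exact mul_le_mul (hw2 Y).2 h2 h1 zero_le_two
  have hRi : Integrable (fun Y => ind (θ * a) (s * th T μ u x Y) * g Y) Q :=
    hgi.bdd_mul ((measurable_ind _).comp ((hm u x).const_mul s)).aestronglyMeasurable
      (ae_of_all _ fun Y => abs_ind_le _ _)
  have hup : ∫ Y, (1 + s * th T μ u x Y) * (ind 0 (s * Y x) * ∏ w ∈ T.ch u x, f w Y) ∂Q ≤
      2 * ∫ Y, ind (θ * a) (s * th T μ u x Y) * g Y ∂Q := by
    rw [← integral_const_mul]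
    refine integral_mono_ae hLi (hRi.const_mul 2) ?_
    filter_upwards [th_rec h hux] with Y hY
    by_cases hne : ind 0 (s * Y x) * ∏ w ∈ T.ch u x, f w Y = 0
    · simp only [hne, mul_zero]
      exact mul_nonneg zero_le_two (mul_nonneg (ind_nonneg _ _) (hg0 Y))
    · have h1 : ind 0 (s * Y x) ≠ 0 := left_ne_zero_of_mul hne
      have h2 : ∀ w ∈ T.ch u x, f w Y ≠ 0 := by
        have := right_ne_zero_of_mul hne
        rwa [Finset.prod_ne_zero_iff] at this
      have h3 : ∀ a' t, ind a' t ≠ 0 → a' ≤ t := by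
        intro a' t ht
        by_contra hc
        exact ht (ind_of_lt (not_le.mp hc))
      have h4 : a ≤ s * th T μ x z Y := h3 _ _ (by rw [← hfz]; exact h2 z hz)
      have h5 : ∀ w ∈ T.ch u x, 0 ≤ s * th T μ x w Y := by
        intro w hw
        by_cases k1 : w = y
        · have := h2 w hw
          rw [k1, hfy] at this
          rw [k1]
          exact h3 _ _ (left_ne_zero_of_mul this)
        · by_cases k2 : w = z
          · rw [k2]; exact ha.trans h4
          · have := h2 w hw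
            rw [hfw w k1 k2] at this
            exact h3 _ _ this
      have h6 := rec_sign (C := T.ch u x) (t := fun w => th T μ x w Y) hs h.θ0 h.θlt
        (fun w _ => abs_th_le T μ x w Y) (h3 _ _ h1) h5 hz h4
      rw [← hY] at h6
      rw [ind_of_le h6, one_mul]
      exact mul_le_mul (hw2 Y).2 ((mul_le_mul (ind_le_one _ _) (hP1 Y) (hP0 Y)
        zero_le_one).trans_eq (one_mul _)) (mul_nonneg (ind_nonneg _ _) (hP0 Y)) zero_le_two
  -- lower bound of the right side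
  have hAy : ∫ Y, ind 0 (s * th T μ x y Y) * g Y ∂Q ≤
      ∫ Y, (1 + s * (θ * th T μ x y Y)) * f y Y ∂Q := by
    simp_rw [hfy]
    exact weight_ge h x y le_rfl hgi hg0
  have hAz : c₂ ≤ ∫ Y, (1 + s * (θ * th T μ x z Y)) * f z Y ∂Q := by
    simp_rw [hfz]
    have h1 := weight_ge h x z (s := s) ha (k := fun _ => 1) (integrable_const _)
      (fun _ => zero_le_one)
    simp only [mul_one] at h1
    rw [flip_s h x z hs, integral_ind x z (hm x z)] at h1
    exact hc.trans h1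
  have hAw : ∀ w ∈ ((T.ch u x).erase y).erase z,
      1 / 2 ≤ ∫ Y, (1 + s * (θ * th T μ x w Y)) * f w Y ∂Q := by
    intro w hw
    have h1 := Finset.ne_of_mem_erase hw
    have h2 := Finset.ne_of_mem_erase (Finset.mem_of_mem_erase hw)
    simp_rw [hfw w h2 h1]
    have h3 := weight_ge h x w (s := s) (a := 0) le_rfl (k := fun _ => 1) (integrable_const _)
      (fun _ => zero_le_one)
    simp only [mul_one] at h3
    rw [flip_s h x w hs] at h3
    exact (half_le h x w).trans h3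
  have hG : 0 ≤ ∫ Y, ind 0 (s * th T μ x y Y) * g Y ∂Q :=
    integral_nonneg fun Y => mul_nonneg (ind_nonneg _ _) (hg0 Y)
  have hzm : z ∈ (T.ch u x).erase y := Finset.mem_erase.mpr ⟨hzy, hz⟩
  have hrest : (1 / 2 : ℝ) ^ b ≤ ∏ w ∈ ((T.ch u x).erase y).erase z,
      ∫ Y, (1 + s * (θ * th T μ x w Y)) * f w Y ∂Q := by
    have hcard : (((T.ch u x).erase y).erase z).card ≤ b := by
      have h1 : (((T.ch u x).erase y).erase z).card ≤ (T.ch u x).card :=
        Finset.card_le_card ((Finset.erase_subset _ _).trans (Finset.erase_subset _ _))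
      rwa [Tail.card_ch T hux] at h1
    calc (1 / 2 : ℝ) ^ b ≤ (1 / 2 : ℝ) ^ (((T.ch u x).erase y).erase z).card :=
          pow_le_pow_of_le_one (by norm_num) (by norm_num) hcard
      _ = ∏ _w ∈ ((T.ch u x).erase y).erase z, (1 / 2 : ℝ) := by rw [Finset.prod_const]
      _ ≤ _ := Finset.prod_le_prod (fun _ _ => by norm_num) hAw
  have hprod : c₂ * (1 / 2) ^ b * ∫ Y, ind 0 (s * th T μ x y Y) * g Y ∂Q ≤
      ∏ w ∈ T.ch u x, ∫ Y, (1 + s * (θ * th T μ x w Y)) * f w Y ∂Q := by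
    rw [← Finset.mul_prod_erase _ _ hy, ← Finset.mul_prod_erase _ _ hzm]
    calc c₂ * (1 / 2) ^ b * ∫ Y, ind 0 (s * th T μ x y Y) * g Y ∂Q
        = (∫ Y, ind 0 (s * th T μ x y Y) * g Y ∂Q) * (c₂ * (1 / 2) ^ b) := by ring
      _ ≤ _ := mul_le_mul hAy (mul_le_mul hAz hrest (by positivity) (hc₂.trans hAz))
          (by positivity) (hG.trans hAy)
  have hlow : c₂ * (1 / 2) ^ (b + 1) * ∫ Y, ind 0 (s * th T μ x y Y) * g Y ∂Q ≤
      (∫ y, (1 + s * Real.tanh y) * ind 0 (s * y) ∂ν) *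
        ∏ w ∈ T.ch u x, ∫ Y, (1 + s * (θ * th T μ x w Y)) * f w Y ∂Q := by
    calc c₂ * (1 / 2) ^ (b + 1) * ∫ Y, ind 0 (s * th T μ x y Y) * g Y ∂Q
        = 1 / 2 * (c₂ * (1 / 2) ^ b * ∫ Y, ind 0 (s * th T μ x y Y) * g Y ∂Q) := by ring
      _ ≤ _ := mul_le_mul (half_le_nu h.hν hs) hprod (by positivity)
          ((by norm_num : (0 : ℝ) ≤ 1 / 2).trans (half_le_nu h.hν hs))
  rw [← hcpf] at hlow
  exact hlow.trans hup

end

end Large

/-- Paley-Zygmund from `q_low` and `th_tail` (and symmetry). -/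
theorem th_large {b : ℕ} (hb : 2 ≤ b) : ∃ c : ℝ, 0 < c ∧ c ≤ 1 ∧ ∀ (V : Type u) (T : RTree V b)
    (θ ρ : ℝ) (μ : Measure (V → Bool)) (ν : Measure ℝ) (Q : Measure (V → ℝ)),
    SR T θ μ ν Q → Rate ν ρ → c * ρ ≤ 1 - b * θ ^ 2 ∨
    ∀ u x, T.G.Adj u x → c ≤ Q.real {Y | c * Real.sqrt ρ ≤ th T μ u x Y} := by
  obtain ⟨K, hK, hT⟩ := th_tail.{u} hb
  have hc1 : 1 / (131072 * K) ≤ 1 / 131072 := by
    rw [div_le_div_iff₀ (by positivity) (by positivity)]
    linarith
  refine ⟨1 / (131072 * K), by positivity, by linarith, ?_⟩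
  intro V T θ ρ μ ν Q h hR
  have := h.prob_Q
  have hρ := hR.pos
  have hs : ρ / 64 ≤ Real.sqrt (qq ν) := by
    refine Real.le_sqrt_of_sq_le ?_
    have := hR.q
    rw [div_pow]
    have h1 : 0 ≤ ρ ^ 2 := sq_nonneg ρ
    rw [div_le_iff₀ (by norm_num)]
    nlinarith
  rcases q_low h with h1 | h1
  · right
    intro u x hux
    obtain ⟨_, h4, _⟩ := hT V T θ ρ μ ν Q h hR u x hux
    have h2 : ρ / 128 ≤ ∫ Y, th T μ u x Y ^ 2 ∂Q := by
      have := h1 u x hux
      linarith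
    refine (Large.pz h u x hρ hK h2 h4).trans ?_
    refine measureReal_mono (fun Y hY => ?_)
    rw [mem_ofPred_eq] at hY ⊢
    refine le_trans ?_ hY
    have h3 : 0 ≤ Real.sqrt ρ := Real.sqrt_nonneg ρ
    have h5 : 1 / (131072 * K) * Real.sqrt ρ ≤ 1 / 131072 * Real.sqrt ρ :=
      mul_le_mul_of_nonneg_right hc1 h3
    linarith
  · left
    have h3 : 1 / (131072 * K) * ρ ≤ 1 / 131072 * ρ := mul_le_mul_of_nonneg_right hc1 hρ.le
    linarith

/-- Given the branch of one child, `|th|` is of order `√ρ` with probability at least `c`. -/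
theorem th_large_given {b : ℕ} (hb : 2 ≤ b) : ∃ c : ℝ, 0 < c ∧ c ≤ 1 ∧ ∀ (V : Type u)
    (T : RTree V b) (θ ρ : ℝ) (μ : Measure (V → Bool)) (ν : Measure ℝ) (Q : Measure (V → ℝ)),
    SR T θ μ ν Q → Rate ν ρ → c * ρ ≤ 1 - b * θ ^ 2 ∨
    ∀ u x y, T.G.Adj u x → y ∈ T.ch u x → ∀ g : (V → ℝ) → ℝ, Measurable g → (∀ Y, 0 ≤ g Y) →
    Integrable g Q → DependsOn g (T.side x y) →
    c * ∫ Y, g Y ∂Q ≤ ∫ Y in {Y | c * Real.sqrt ρ ≤ |th T μ u x Y|}, g Y ∂Q := by
  classical
  obtain ⟨c₂, hc0, hc1, hL⟩ := th_large.{u} hb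
  have hb0 : (2 : ℝ) ≤ b := by exact_mod_cast hb
  obtain ⟨d, hd⟩ : ∃ d : ℝ, d = (1 / 2) ^ (b + 2) := ⟨_, rfl⟩
  have hd0 : 0 < d := by rw [hd]; positivity
  have hd1 : d ≤ 1 := by rw [hd]; exact pow_le_one₀ (by norm_num) (by norm_num)
  have hb1 : 1 / (2 * b : ℝ) ≤ 1 := by
    rw [div_le_one (by positivity)]; linarith
  have hb2 : 0 < 1 / (2 * b : ℝ) := by positivity
  have hcle : c₂ * (1 / (2 * b)) * d ≤ c₂ := by
    calc c₂ * (1 / (2 * b)) * d ≤ c₂ * 1 * 1 := by gcongr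
      _ = c₂ := by ring
  refine ⟨c₂ * (1 / (2 * b)) * d, by positivity, hcle.trans hc1, ?_⟩
  intro V T θ ρ μ ν Q h hR
  have := h.prob_μ
  have := h.prob_Q
  have hρ := hR.pos
  have hs0 : 0 < Real.sqrt ρ := Real.sqrt_pos.mpr hρ
  rcases hL V T θ ρ μ ν Q h hR with h1 | h1
  · left
    exact (mul_le_mul_of_nonneg_right hcle hρ.le).trans h1
  · right
    intro u x y hux hy g hg hg0 hgi hgd
    obtain ⟨z, hz, hzy⟩ : ∃ z ∈ T.ch u x, z ≠ y := by
      have h2 : 1 < (T.ch u x).card := by rw [Tail.card_ch T hux]; omega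
      obtain ⟨z, hz, hzy⟩ := Finset.exists_mem_ne h2 y
      exact ⟨z, hz, hzy⟩
    obtain ⟨a, ha⟩ : ∃ a : ℝ, a = c₂ * Real.sqrt ρ := ⟨_, rfl⟩
    have ha0 : 0 < a := by rw [ha]; positivity
    have hc := h1 x z ((T.mem_nb x z).mp (Finset.mem_of_mem_erase hz))
    rw [← ha] at hc
    have k1 := Large.given_aux h hux hy hz hzy ha0.le hc0.le hc hg hg0 hgi hgd (s := 1)
      (Or.inl rfl)
    have k2 := Large.given_aux h hux hy hz hzy ha0.le hc0.le hc hg hg0 hgi hgd (s := -1)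
      (Or.inr rfl)
    have hm : ∀ u x, Measurable (th T μ u x) := fun u x => measurable_th T μ u x
    have ii : ∀ (u x : V) (a' s : ℝ),
        Integrable (fun Y => Large.ind a' (s * th T μ u x Y) * g Y) Q := fun u x a' s =>
      hgi.bdd_mul ((Large.measurable_ind _).comp ((hm u x).const_mul s)).aestronglyMeasurable
        (ae_of_all _ fun Y => Large.abs_ind_le _ _)
    -- the sum of the two lower bounds
    have k3 : ∫ Y, g Y ∂Q ≤ ∫ Y, Large.ind 0 (1 * th T μ x y Y) * g Y ∂Q +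
        ∫ Y, Large.ind 0 (-1 * th T μ x y Y) * g Y ∂Q := by
      rw [← integral_add (ii _ _ _ _) (ii _ _ _ _)]
      refine integral_mono hgi ((ii _ _ _ _).add (ii _ _ _ _)) fun Y => ?_
      simp only
      have n1 := Large.ind_nonneg 0 (1 * th T μ x y Y)
      have n2 := Large.ind_nonneg 0 (-1 * th T μ x y Y)
      have hgY := hg0 Y
      rcases le_total 0 (th T μ x y Y) with h3 | h3
      · rw [Large.ind_of_le (a := 0) (t := 1 * th T μ x y Y) (by linarith)]
        nlinarith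
      · rw [Large.ind_of_le (a := 0) (t := -1 * th T μ x y Y) (by linarith)]
        nlinarith
    -- the events are disjoint
    have hθ : 1 / (2 * b) ≤ θ := by
      have h2 : 1 / (2 * b : ℝ) ≤ θ ^ 2 := by
        rw [div_le_iff₀ (by positivity)]
        have := h.θ2
        nlinarith
      have h3 : θ ^ 2 ≤ θ := by nlinarith [h.θ0, h.θlt]
      linarith
    have hθa : 0 < θ * a := mul_pos h.θpos ha0
    have hEm : MeasurableSet {Y | c₂ * (1 / (2 * b)) * d * Real.sqrt ρ ≤ |th T μ u x Y|} :=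
      measurableSet_le measurable_const (hm u x).abs
    have hca : c₂ * (1 / (2 * b)) * d * Real.sqrt ρ ≤ θ * a := by
      rw [ha]
      have h3 := h.θ0
      calc c₂ * (1 / (2 * b)) * d * Real.sqrt ρ ≤ c₂ * θ * 1 * Real.sqrt ρ := by gcongr
        _ = θ * (c₂ * Real.sqrt ρ) := by ring
    have k4 : ∫ Y, Large.ind (θ * a) (1 * th T μ u x Y) * g Y ∂Q +
        ∫ Y, Large.ind (θ * a) (-1 * th T μ u x Y) * g Y ∂Q ≤
        ∫ Y in {Y | c₂ * (1 / (2 * b)) * d * Real.sqrt ρ ≤ |th T μ u x Y|}, g Y ∂Q := by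
      rw [← integral_add (ii _ _ _ _) (ii _ _ _ _), ← integral_indicator hEm]
      refine integral_mono ((ii _ _ _ _).add (ii _ _ _ _)) (hgi.indicator hEm) fun Y => ?_
      simp only
      have hgY := hg0 Y
      by_cases e1 : θ * a ≤ 1 * th T μ u x Y
      · have e2 : -1 * th T μ u x Y < θ * a := by linarith
        rw [Large.ind_of_le e1, Large.ind_of_lt e2, indicator_of_mem]
        · linarith
        · rw [mem_ofPred_eq]
          have := le_abs_self (th T μ u x Y)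
          linarith
      · rw [Large.ind_of_lt (not_le.mp e1)]
        by_cases e2 : θ * a ≤ -1 * th T μ u x Y
        · rw [Large.ind_of_le e2, indicator_of_mem]
          · linarith
          · rw [mem_ofPred_eq]
            have := neg_le_abs (th T μ u x Y)
            linarith
        · rw [Large.ind_of_lt (not_le.mp e2)]
          simp only [zero_mul, add_zero]
          exact indicator_nonneg (fun Y _ => hg0 Y) Y
    have hG : 0 ≤ ∫ Y, g Y ∂Q := integral_nonneg hg0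
    have hpow : (1 / 2 : ℝ) ^ (b + 1) = 2 * d := by rw [hd]; ring
    rw [hpow] at k1 k2
    have hcd : 0 < c₂ * d := by positivity
    calc c₂ * (1 / (2 * b)) * d * ∫ Y, g Y ∂Q ≤ c₂ * 1 * d * ∫ Y, g Y ∂Q := by gcongr
      _ = c₂ * d * ∫ Y, g Y ∂Q := by ring
      _ ≤ c₂ * d * (∫ Y, Large.ind 0 (1 * th T μ x y Y) * g Y ∂Q +
        ∫ Y, Large.ind 0 (-1 * th T μ x y Y) * g Y ∂Q) := mul_le_mul_of_nonneg_left k3 hcd.le
      _ ≤ ∫ Y, Large.ind (θ * a) (1 * th T μ u x Y) * g Y ∂Q +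
        ∫ Y, Large.ind (θ * a) (-1 * th T μ u x Y) * g Y ∂Q := by linarith
      _ ≤ _ := k4

end Vale.Agent.P161E
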