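import Vale.Agent.P161E.Fin
import Vale.Agent.P161E.SLim

/-!
# The recursion in infinite volume
-/

open MeasureTheory Set Filter Topology
open scoped unitInterval ENNReal

namespace Vale.Agent.P161E

open Vale.Agent.P161

universe u

variable {V : Type u} {b : ℕ}

namespace RecAux

variable (T : RTree V b)

theorem mem_half {u x w : V} {n : ℕ} :
    w ∈ T.half u x n ↔ T.G.dist w x ≤ n ∧ T.G.dist w x < T.G.dist w u := by
  unfold RTree.half
  exact SplitAux.mem_half

theorem mem_ball {x w : V} {n : ℕ} : w ∈ T.ball x n ↔ T.G.dist x w ≤ n := by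
  unfold RTree.ball
  rw [Set.Finite.mem_toFinset]
  exact Iff.rfl

theorem inter_half_self (u x : V) (n : ℕ) : T.inter (T.half u x n) u x = T.half u x n := by
  ext w
  rw [FinAux.mem_inter, mem_half]
  tauto

theorem inter_ball_child {x y : V} (h : T.G.Adj x y) (n : ℕ) :
    T.inter (T.ball x (n + 1)) x y = T.half x y n := by
  ext w
  rw [FinAux.mem_inter, mem_half, mem_ball]
  have t1 : T.G.dist w x ≤ T.G.dist w y + T.G.dist y x := T.tree.1.dist_triangle
  rw [FinAux.dist_adj T h.symm] at t1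
  rw [T.G.dist_comm (u := x) (v := w)]
  constructor
  · rintro ⟨h1, h2⟩
    exact ⟨by omega, h2⟩
  · rintro ⟨h1, h2⟩
    exact ⟨by omega, h2⟩

theorem ch_adj {u x y : V} (hy : y ∈ T.ch u x) : y ≠ u ∧ T.G.Adj x y := by
  classical
  unfold RTree.ch at hy
  rw [Finset.mem_erase, T.mem_nb] at hy
  exact hy

theorem inter_half_child {u x y : V} (hux : T.G.Adj u x) (hy : y ∈ T.ch u x) (n : ℕ) :
    T.inter (T.half u x (n + 1)) x y = T.half x y n := by
  obtain ⟨hyu, hxy⟩ := ch_adj T hy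
  rw [← inter_ball_child T hxy n]
  ext w
  rw [FinAux.mem_inter, FinAux.mem_inter, mem_half, mem_ball, T.G.dist_comm (u := x) (v := w)]
  constructor
  · rintro ⟨⟨h1, -⟩, h2⟩
    exact ⟨h1, h2⟩
  · rintro ⟨h1, h2⟩
    refine ⟨⟨h1, ?_⟩, h2⟩
    rcases dist_lt_or_gt T.tree hux w with h3 | h3
    · exact absurd (FinAux.side_unique T hxy hux.symm h2 h3) hyu
    · exact h3

theorem self_mem_half {u x : V} (hux : T.G.Adj u x) (n : ℕ) : x ∈ T.half u x n := by
  rw [mem_half, SimpleGraph.dist_self]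
  exact ⟨Nat.zero_le _, T.tree.1.pos_dist_of_ne hux.ne'⟩

theorem self_mem_ball (x : V) (n : ℕ) : x ∈ T.ball x n := by
  rw [mem_ball, SimpleGraph.dist_self]
  exact Nat.zero_le _

theorem card_ch {u x : V} (hux : T.G.Adj u x) : (T.ch u x).card = b := by
  classical
  unfold RTree.ch
  rw [Finset.card_erase_of_mem ((T.mem_nb x u).2 hux.symm), T.card_nb]
  rfl

theorem continuousAt_artanh {x : ℝ} (h1 : -1 < x) (h2 : x < 1) : ContinuousAt Real.artanh x := by
  have h : Real.artanh = fun x => Real.log (Real.sqrt ((1 + x) / (1 - x))) := by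
    funext x; rfl
  rw [h]
  have h3 : 1 - x ≠ 0 := by linarith
  have h4 : 0 < (1 + x) / (1 - x) := div_pos (by linarith) (by linarith)
  refine ContinuousAt.log ?_ (Real.sqrt_pos.2 h4).ne'
  refine Real.continuous_sqrt.continuousAt.comp ?_
  exact ContinuousAt.div (by fun_prop) (by fun_prop) h3

theorem continuous_tanh' : Continuous Real.tanh := by
  have h : Real.tanh = fun x => Real.sinh x / Real.cosh x := by
    funext x
    exact Real.tanh_eq_sinh_div_cosh x
  rw [h]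
  exact Real.continuous_sinh.div Real.continuous_cosh fun x => (Real.cosh_pos x).ne'

theorem tendsto_artanh {θ t : ℝ} {f : ℕ → ℝ} (hθ : 0 ≤ θ) (hθ1 : θ < 1) (ht : |t| ≤ 1)
    (hf : Tendsto f atTop (𝓝 t)) :
    Tendsto (fun n => Real.artanh (θ * f n)) atTop (𝓝 (Real.artanh (θ * t))) := by
  obtain ⟨h1, h2⟩ := abs_le.1 ht
  have hc : ContinuousAt Real.artanh (θ * t) :=
    continuousAt_artanh (by nlinarith) (by nlinarith)
  exact hc.tendsto.comp (hf.const_mul θ)

theorem tanh_le_tanh {x y : ℝ} (h : x ≤ y) : Real.tanh x ≤ Real.tanh y := by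
  rw [← Real.artanh_le_artanh_iff ⟨Real.neg_one_lt_tanh x, Real.tanh_lt_one x⟩
    ⟨Real.neg_one_lt_tanh y, Real.tanh_lt_one y⟩, Real.artanh_tanh, Real.artanh_tanh]
  exact h

theorem abs_tanh_le {x y : ℝ} (h : |x| ≤ y) : |Real.tanh x| ≤ Real.tanh y := by
  obtain ⟨h1, h2⟩ := abs_le.1 h
  rw [abs_le]
  refine ⟨?_, tanh_le_tanh h2⟩
  rw [← Real.tanh_neg]
  exact tanh_le_tanh h1

theorem artanh_neg' {x : ℝ} (h1 : -1 < x) (h2 : x < 1) : Real.artanh (-x) = -Real.artanh x := by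
  conv_lhs => rw [← Real.tanh_artanh ⟨h1, h2⟩, ← Real.tanh_neg, Real.artanh_tanh]

theorem abs_artanh_le {x y : ℝ} (h : |x| ≤ y) (hy : y < 1) : |Real.artanh x| ≤ Real.artanh y := by
  obtain ⟨h1, h2⟩ := abs_le.1 h
  rw [abs_le]
  refine ⟨?_, Real.artanh_le_artanh (by linarith) hy h2⟩
  rw [← artanh_neg' (by linarith) hy]
  exact Real.artanh_le_artanh (by linarith) (by linarith) h1

end RecAux

open RecAux

section

variable {T : RTree V b} {θ : ℝ} {μ : Measure (V → Bool)} {ν : Measure ℝ} {Q : Measure (V → ℝ)}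

theorem th_rec (h : SR T θ μ ν Q) {u x : V} (hux : T.G.Adj u x) :
    ∀ᵐ Y ∂Q, th T μ u x Y =
      Real.tanh (Y x + ∑ y ∈ T.ch u x, Real.artanh (θ * th T μ x y Y)) := by
  have := h.prob_μ
  have h1 := tendsto_th T h.hν h.hQ u x
  have h2 : ∀ᵐ Y ∂Q, ∀ y ∈ T.ch u x,
      Tendsto (fun n => mean μ (T.half x y n) y Y) atTop (𝓝 (th T μ x y Y)) :=
    (Filter.eventually_all_finset (T.ch u x)).2 fun y _ => tendsto_th T h.hν h.hQ x y
  filter_upwards [h1, h2] with Y g1 g2
  have g3 : Tendsto (fun n => Real.tanh (Y x + ∑ y ∈ T.ch u x,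
      Real.artanh (θ * mean μ (T.half x y n) y Y))) atTop
      (𝓝 (Real.tanh (Y x + ∑ y ∈ T.ch u x, Real.artanh (θ * th T μ x y Y)))) := by
    refine (continuous_tanh'.tendsto _).comp (tendsto_const_nhds.add ?_)
    exact tendsto_finsetSum _ fun y hy =>
      tendsto_artanh h.θ0 h.θlt (abs_th_le T μ x y Y) (g2 y hy)
  refine tendsto_nhds_unique ((tendsto_add_atTop_iff_nat 1).2 g1) (g3.congr fun n => ?_)
  have e := mean_cavity T h.θ0 h.θlt h.hμ (T.half u x (n + 1)) Y hux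
    (self_mem_half T hux (n + 1))
  rw [inter_half_self] at e
  rw [e]
  congr 2
  refine Finset.sum_congr rfl fun y hy => ?_
  rw [inter_half_child T hux hy n]

theorem Mh_rec (h : SR T θ μ ν Q) (x : V) :
    ∀ᵐ Y ∂Q, Mh T μ x Y =
      Real.tanh (Y x + ∑ y ∈ T.nb x, Real.artanh (θ * th T μ x y Y)) := by
  have := h.prob_μ
  have h1 := tendsto_Mh T h.hν h.hQ x
  have h2 : ∀ᵐ Y ∂Q, ∀ y ∈ T.nb x,
      Tendsto (fun n => mean μ (T.half x y n) y Y) atTop (𝓝 (th T μ x y Y)) :=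
    (Filter.eventually_all_finset (T.nb x)).2 fun y _ => tendsto_th T h.hν h.hQ x y
  filter_upwards [h1, h2] with Y g1 g2
  have g3 : Tendsto (fun n => Real.tanh (Y x + ∑ y ∈ T.nb x,
      Real.artanh (θ * mean μ (T.half x y n) y Y))) atTop
      (𝓝 (Real.tanh (Y x + ∑ y ∈ T.nb x, Real.artanh (θ * th T μ x y Y)))) := by
    refine (continuous_tanh'.tendsto _).comp (tendsto_const_nhds.add ?_)
    exact tendsto_finsetSum _ fun y hy =>
      tendsto_artanh h.θ0 h.θlt (abs_th_le T μ x y Y) (g2 y hy)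
  refine tendsto_nhds_unique ((tendsto_add_atTop_iff_nat 1).2 g1) (g3.congr fun n => ?_)
  rw [mean_vertex T h.θ0 h.θlt h.hμ (T.ball x (n + 1)) Y (self_mem_ball T x (n + 1))]
  congr 2
  refine Finset.sum_congr rfl fun y hy => ?_
  rw [inter_ball_child T ((T.mem_nb x y).1 hy) n]

theorem ae_abs_le (hQ : IsPlanted μ ν Q) [IsProbabilityMeasure ν] {B : ℝ}
    (hB : ∀ᵐ y ∂ν, |y| ≤ B) (x : V) : ∀ᵐ Y ∂Q, |Y x| ≤ B := by
  have hm : MeasurableSet {Y : V → ℝ | B < |Y x|} :=
    measurableSet_lt measurable_const ((measurable_pi_apply x).abs)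
  have h := hQ.law {x} ({Y : V → ℝ | B < |Y x|}.indicator fun _ => 1)
    (measurable_const.indicator hm) (by
      intro Y Y' hY
      have : Y x = Y' x := hY x (by simp)
      by_cases g : B < |Y x|
      · have g' : B < |Y' x| := this ▸ g
        rw [Set.indicator_of_mem (show Y ∈ {Y : V → ℝ | B < |Y x|} from g),
          Set.indicator_of_mem (show Y' ∈ {Y : V → ℝ | B < |Y x|} from g')]
      · have g' : ¬ B < |Y' x| := this ▸ g
        rw [Set.indicator_of_notMem (show Y ∉ {Y : V → ℝ | B < |Y x|} from g),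
          Set.indicator_of_notMem (show Y' ∉ {Y : V → ℝ | B < |Y x|} from g')])
  have h0 : ∀ᵐ Y ∂(Measure.infinitePi fun _ : V => ν), |Y x| ≤ B := by
    have hmp := measurePreserving_eval_infinitePi (fun _ : V => ν) x
    exact hmp.quasiMeasurePreserving.ae hB
  have h1 : ∫⁻ Y, {Y : V → ℝ | B < |Y x|}.indicator (fun _ => 1) Y *
      ENNReal.ofReal (Lik μ {x} Y) ∂(Measure.infinitePi fun _ : V => ν) = 0 := by
    rw [← lintegral_zero]
    refine lintegral_congr_ae ?_
    filter_upwards [h0] with Y hY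
    rw [Set.indicator_of_notMem (show Y ∉ {Y : V → ℝ | B < |Y x|} from not_lt.2 hY), zero_mul]
  rw [h1, lintegral_indicator_const hm, one_mul] at h
  rw [ae_iff]
  convert h using 2
  ext Y
  simp

/-- `th` is bounded away from one -/
theorem abs_th_lt (h : SR T θ μ ν Q) {B : ℝ} (hB : ∀ᵐ y ∂ν, |y| ≤ B) {u x : V}
    (hux : T.G.Adj u x) :
    ∀ᵐ Y ∂Q, |th T μ u x Y| ≤ Real.tanh (B + b * Real.artanh θ) := by
  have := h.prob_μ
  have := h.prob_ν
  filter_upwards [th_rec h hux, ae_abs_le h.hQ hB x] with Y g1 g2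
  rw [g1]
  refine abs_tanh_le ((abs_add_le _ _).trans (add_le_add g2 ?_))
  refine (Finset.abs_sum_le_sum_abs _ _).trans ?_
  calc ∑ y ∈ T.ch u x, |Real.artanh (θ * th T μ x y Y)| ≤ ∑ _y ∈ T.ch u x, Real.artanh θ := by
        refine Finset.sum_le_sum fun y _ => abs_artanh_le ?_ h.θlt
        rw [abs_mul, abs_of_nonneg h.θ0]
        have := abs_th_le T μ x y Y
        nlinarith [h.θ0]
    _ = b * Real.artanh θ := by rw [Finset.sum_const, nsmul_eq_mul, card_ch T hux]

end

end Vale.Agent.P161E
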