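import Vale.Agent.P161E.SLim

/-!
# Part S, S4: symmetry under the global spin flip
-/

open MeasureTheory Set Filter Topology
open scoped unitInterval ENNReal

namespace Vale.Agent.P161E

open Vale.Agent.P161

universe u

variable {V : Type u} {b : ℕ}

namespace Sym

/-- the spin flip -/
def fl (τ : V → Bool) : V → Bool := fun v => !(τ v)

theorem measurable_fl : Measurable (fl : (V → Bool) → (V → Bool)) :=
  measurable_pi_lambda _ fun v => (measurable_of_finite (fun b : Bool => !b)).comp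
    (measurable_pi_apply v)

theorem sg_not (b : Bool) : sg (!b) = -sg b := by
  cases b <;> simp [sg]

theorem edgeFactor_fl (θ : ℝ) (η : V → Bool) (e : Sym2 V) :
    edgeFactor θ (fl η) e = edgeFactor θ η e := by
  induction e with
  | h u v =>
    simp only [edgeFactor, Sym2.lift_mk, fl, sg_not]
    ring

theorem isFreeIsing_fl {G : SimpleGraph V} {θ : ℝ} {μ : Measure (V → Bool)}
    (hμ : IsFreeIsing G θ μ) : IsFreeIsing G θ (μ.map fl) := by
  classical
  have := hμ.prob
  refine ⟨Measure.isProbabilityMeasure_map measurable_fl.aemeasurable, ?_⟩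
  intro D hD η
  have hmeas : MeasurableSet {τ : V → Bool | ∀ v ∈ D, τ v = η v} := by
    have : {τ : V → Bool | ∀ v ∈ D, τ v = η v} = ⋂ v ∈ D, (fun τ : V → Bool => τ v) ⁻¹' {η v} := by
      ext τ; simp
    rw [this]
    exact Finset.measurableSet_biInter _ fun v _ =>
      measurable_pi_apply v (measurableSet_singleton _)
  rw [map_measureReal_apply measurable_fl hmeas]
  have hpre : fl ⁻¹' {τ : V → Bool | ∀ v ∈ D, τ v = η v} =
      {τ : V → Bool | ∀ v ∈ D, τ v = fl η v} := by
    ext τ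
    simp only [Set.mem_preimage, Set.mem_ofPred_eq, fl]
    refine forall₂_congr fun v _ => ?_
    cases τ v <;> cases η v <;> simp
  rw [hpre, hμ.cylinder D hD (fl η)]
  congr 1
  exact Finset.prod_congr (by congr) fun e _ => edgeFactor_fl θ η e

theorem map_fl {G : SimpleGraph V} (hG : G.Connected) {θ : ℝ} {μ : Measure (V → Bool)}
    (hμ : IsFreeIsing G θ μ) : μ.map fl = μ :=
  isFreeIsing_unique hG (isFreeIsing_fl hμ) hμ

theorem integral_fl {μ : Measure (V → Bool)} (hμ : μ.map fl = μ) {F : (V → Bool) → ℝ}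
    (hF : Measurable F) : ∫ τ, F (fl τ) ∂μ = ∫ τ, F τ ∂μ := by
  conv_rhs => rw [← hμ]
  rw [integral_map measurable_fl.aemeasurable hF.aestronglyMeasurable]

theorem measurable_lf' (D : Finset V) (Y : V → ℝ) :
    Measurable (fun τ : V → Bool => ∏ w ∈ D, (1 + sg (τ w) * Real.tanh (Y w))) :=
  SB.measurable_lf_right D Y

theorem lik_neg {μ : Measure (V → Bool)} (hμ : μ.map fl = μ) (D : Finset V) (Y : V → ℝ) :
    Lik μ D (-Y) = Lik μ D Y := by
  unfold Lik
  rw [← integral_fl hμ (measurable_lf' D Y)]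
  refine integral_congr_ae (ae_of_all _ fun τ => ?_)
  refine Finset.prod_congr rfl fun w _ => ?_
  simp only [Pi.neg_apply, Real.tanh_neg, fl, sg_not]
  ring

theorem mean_neg {μ : Measure (V → Bool)} [IsProbabilityMeasure μ] (hμ : μ.map fl = μ)
    (D : Finset V) (v : V) (Y : V → ℝ) : mean μ D v (-Y) = -mean μ D v Y := by
  have h1 := mean_mul_Lik μ D v (-Y)
  have h2 := mean_mul_Lik μ D v Y
  rw [lik_neg hμ] at h1
  have h3 : ∫ τ, sg (τ v) * ∏ w ∈ D, (1 + sg (τ w) * Real.tanh ((-Y) w)) ∂μ =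
      -∫ τ, sg (τ v) * ∏ w ∈ D, (1 + sg (τ w) * Real.tanh (Y w)) ∂μ := by
    rw [← integral_fl hμ (F := fun τ => sg (τ v) * ∏ w ∈ D, (1 + sg (τ w) * Real.tanh (Y w)))
      ((CovAux.measurable_sg.comp (measurable_pi_apply v)).mul (measurable_lf' D Y)),
      ← integral_neg]
    refine integral_congr_ae (ae_of_all _ fun τ => ?_)
    have h4 : ∏ w ∈ D, (1 + sg (τ w) * Real.tanh ((-Y) w)) =
        ∏ w ∈ D, (1 + sg (fl τ w) * Real.tanh (Y w)) := by
      refine Finset.prod_congr rfl fun w _ => ?_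
      simp only [Pi.neg_apply, Real.tanh_neg, fl, sg_not]
      ring
    simp only [h4]
    simp only [fl, sg_not]
    ring
  rw [h3, ← h2, ← neg_mul] at h1
  exact mul_right_cancel₀ (Lik_pos μ D Y).ne' h1

theorem measurable_neg' : Measurable (fun Y : V → ℝ => -Y) :=
  measurable_pi_lambda _ fun v => (measurable_pi_apply v).neg

theorem map_neg_inf {ν : Measure ℝ} (hν : Obs ν) :
    Measure.map (fun Y : V → ℝ => -Y) (Measure.infinitePi fun _ : V => ν) =
      Measure.infinitePi fun _ : V => ν := by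
  have := hν.prob
  refine Measure.eq_infinitePi _ ?_
  intro s t ht
  rw [Measure.map_apply measurable_neg' (MeasurableSet.pi s.countable_toSet (fun j _ => ht j))]
  have h1 : (fun Y : V → ℝ => -Y) ⁻¹' (Set.pi (↑s) t) =
      Set.pi (↑s) (fun i => (fun y : ℝ => -y) ⁻¹' (t i)) := by
    ext Y
    simp [Set.mem_pi]
  rw [h1, Measure.infinitePi_pi _ (fun j _ => measurable_neg (ht j))]
  refine Finset.prod_congr rfl fun i _ => ?_
  rw [← Measure.map_apply measurable_neg (ht i)]
  exact congrArg (fun m : Measure ℝ => m (t i)) hν.symm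

end Sym

section S4

variable {T : RTree V b} {θ : ℝ} {μ : Measure (V → Bool)} {ν : Measure ℝ} {Q : Measure (V → ℝ)}

theorem map_neg (h : SR T θ μ ν Q) : Measure.map (fun Y : V → ℝ => -Y) Q = Q := by
  have := h.prob_μ
  have := h.prob_Q
  have := h.prob_ν
  have hfl := Sym.map_fl T.tree.1 h.hμ
  have key : ∀ A : Finset V, (Measure.map (fun Y : V → ℝ => -Y) Q).map
      (A.restrict : (V → ℝ) → (A → ℝ)) = Q.map A.restrict := by
    intro A
    have hr : Measurable (A.restrict : (V → ℝ) → (A → ℝ)) := Finset.measurable_restrict A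
    ext s hs
    have hs' : MeasurableSet (A.restrict ⁻¹' s : Set (V → ℝ)) := hr hs
    rw [Measure.map_apply hr hs, Measure.map_apply hr hs, Measure.map_apply Sym.measurable_neg' hs']
    set F : (V → ℝ) → ℝ≥0∞ := (A.restrict ⁻¹' s : Set (V → ℝ)).indicator (fun _ => 1) with hF
    have hFm : Measurable F := measurable_const.indicator hs'
    have hFd : DependsOn F (A : Set V) := by
      intro Y Y' hY
      have e : (A.restrict Y : A → ℝ) = A.restrict Y' := by
        funext w
        exact hY w w.2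
      have e2 : Y ∈ (A.restrict ⁻¹' s : Set (V → ℝ)) ↔ Y' ∈ (A.restrict ⁻¹' s : Set (V → ℝ)) := by
        rw [mem_preimage, mem_preimage, e]
      rw [hF]
      by_cases hx : Y ∈ (A.restrict ⁻¹' s : Set (V → ℝ))
      · rw [indicator_of_mem hx, indicator_of_mem (e2.mp hx)]
      · rw [indicator_of_notMem hx, indicator_of_notMem (mt e2.mpr hx)]
    have hGm : Measurable fun Y : V → ℝ => F (-Y) := hFm.comp Sym.measurable_neg'
    have hGd : DependsOn (fun Y : V → ℝ => F (-Y)) (A : Set V) := by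
      intro Y Y' hY
      apply hFd
      intro w hw
      show -Y w = -Y' w
      rw [hY w hw]
    have e1 : Q ((fun Y : V → ℝ => -Y) ⁻¹' (A.restrict ⁻¹' s)) = ∫⁻ Y, F (-Y) ∂Q := by
      rw [← lintegral_indicator_one (Sym.measurable_neg' hs')]
      rfl
    have e2 : Q (A.restrict ⁻¹' s) = ∫⁻ Y, F Y ∂Q := by
      rw [← lintegral_indicator_one hs']
      rfl
    rw [e1, e2, h.hQ.law A _ hGm hGd, h.hQ.law A F hFm hFd]
    have hLm : Measurable fun Y : V → ℝ => F Y * ENNReal.ofReal (Lik μ A Y) :=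
      hFm.mul (measurable_Lik μ A).ennreal_ofReal
    conv_rhs => rw [← Sym.map_neg_inf h.hν]
    rw [lintegral_map hLm Sym.measurable_neg']
    refine lintegral_congr fun Y => ?_
    rw [Sym.lik_neg hfl]
  have hp : IsProbabilityMeasure (Measure.map (fun Y : V → ℝ => -Y) Q) :=
    Measure.isProbabilityMeasure_map Sym.measurable_neg'.aemeasurable
  have h1 : IsProjectiveLimit (Measure.map (fun Y : V → ℝ => -Y) Q)
      (fun A : Finset V => Q.map (A.restrict : (V → ℝ) → (A → ℝ))) := fun A => key A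
  have h2 : IsProjectiveLimit Q
      (fun A : Finset V => Q.map (A.restrict : (V → ℝ) → (A → ℝ))) := fun A => rfl
  have : ∀ A : Finset V, IsFiniteMeasure (Q.map (A.restrict : (V → ℝ) → (A → ℝ))) :=
    fun A => inferInstance
  exact h1.unique h2

theorem th_neg (h : SR T θ μ ν Q) (u x : V) :
    ∀ᵐ Y ∂Q, th T μ u x (-Y) = -th T μ u x Y := by
  have := h.prob_μ
  have hfl := Sym.map_fl T.tree.1 h.hμ
  filter_upwards [tendsto_th T h.hν h.hQ u x] with Y hY
  have h1 : Tendsto (fun n => mean μ (T.half u x n) x (-Y)) atTop (𝓝 (-th T μ u x Y)) := by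
    have : (fun n => mean μ (T.half u x n) x (-Y)) = fun n => -mean μ (T.half u x n) x Y := by
      funext n
      exact Sym.mean_neg hfl _ _ _
    rw [this]
    exact hY.neg
  exact h1.limsup_eq

theorem Mh_neg (h : SR T θ μ ν Q) (x : V) :
    ∀ᵐ Y ∂Q, Mh T μ x (-Y) = -Mh T μ x Y := by
  have := h.prob_μ
  have hfl := Sym.map_fl T.tree.1 h.hμ
  filter_upwards [tendsto_Mh T h.hν h.hQ x] with Y hY
  have h1 : Tendsto (fun n => mean μ (T.ball x n) x (-Y)) atTop (𝓝 (-Mh T μ x Y)) := by
    have : (fun n => mean μ (T.ball x n) x (-Y)) = fun n => -mean μ (T.ball x n) x Y := by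
      funext n
      exact Sym.mean_neg hfl _ _ _
    rw [this]
    exact hY.neg
  exact h1.limsup_eq

/-- invariance of integrals -/
theorem Sym.integral_neg_arg (h : SR T θ μ ν Q) {g : (V → ℝ) → ℝ} (hg : Measurable g) :
    ∫ Y, g (-Y) ∂Q = ∫ Y, g Y ∂Q := by
  conv_rhs => rw [← map_neg h]
  rw [integral_map Sym.measurable_neg'.aemeasurable hg.aestronglyMeasurable]

/-- even functions are orthogonal to `th` -/
theorem integral_even_mul_th (h : SR T θ μ ν Q) (u x : V) {g : (V → ℝ) → ℝ}
    (hg : Measurable g) (he : ∀ᵐ Y ∂Q, g (-Y) = g Y) :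
    ∫ Y, g Y * th T μ u x Y ∂Q = 0 := by
  have := h.prob_μ
  have h1 := Sym.integral_neg_arg h (hg.mul (measurable_th T μ u x))
  have h2 : ∫ Y, g (-Y) * th T μ u x (-Y) ∂Q = ∫ Y, -(g Y * th T μ u x Y) ∂Q := by
    refine integral_congr_ae ?_
    filter_upwards [he, th_neg h u x] with Y h3 h4
    rw [h3, h4]
    ring
  have h3 : ∫ Y, g (-Y) * th T μ u x (-Y) ∂Q = ∫ Y, g Y * th T μ u x Y ∂Q := h1
  rw [h2, integral_neg] at h3
  linarith

/-- integrals with the density `1 + s th` as integrals of symmetric functions -/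
theorem integral_flip (h : SR T θ μ ν Q) (u x : V) {φ : ℝ → ℝ} (hφ : Measurable φ) :
    ∫ Y, φ (-th T μ u x Y) ∂Q = ∫ Y, φ (th T μ u x Y) ∂Q := by
  have := h.prob_μ
  have h1 := Sym.integral_neg_arg h (hφ.comp (measurable_th T μ u x))
  rw [show (∫ Y, φ (th T μ u x Y) ∂Q) = ∫ Y, (φ ∘ th T μ u x) Y ∂Q from rfl, ← h1]
  refine integral_congr_ae ?_
  filter_upwards [th_neg h u x] with Y h2
  show φ (-th T μ u x Y) = φ (th T μ u x (-Y))
  rw [h2]

end S4

end Vale.Agent.P161E
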