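import Vale.Agent.P161E.SDefs
import Vale.Agent.P161E.TreeSide

/-!
# Part S: iteration along rays
-/

open MeasureTheory Set Filter Topology
open scoped unitInterval ENNReal

namespace Vale.Agent.P161E

open Vale.Agent.P161

universe u

variable {V : Type u} {b : ℕ}

namespace SW

theorem wavN_succ (T : RTree V b) (w h : V → V → ℝ) (n : ℕ) (u x : V) :
    T.wavN w h (n + 1) u x = (∑ y ∈ T.ch u x, w x y * T.wavN w h n x y) / b := rfl

theorem adj_of_ch {T : RTree V b} {u x y : V} (hy : y ∈ T.ch u x) : T.G.Adj x y :=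
  (RTree.mem_ch.mp hy).2

theorem dependsOn_mul {s : Set V} {f g : (V → ℝ) → ℝ} (hf : DependsOn f s) (hg : DependsOn g s) :
    DependsOn (fun Y => f Y * g Y) s := by
  intro Y Y' h
  show f Y * g Y = f Y' * g Y'
  rw [hf h, hg h]

theorem dependsOn_mono {s t : Set V} {f : (V → ℝ) → ℝ} (hst : s ⊆ t) (hf : DependsOn f s) :
    DependsOn f t := fun _ _ h => hf fun i hi => h i (hst hi)

/-- product of an integrable function with a weight in `[0, 1]` -/
theorem integrable_w {Ω : Type*} [MeasurableSpace Ω] {Q : Measure Ω} {w k : Ω → ℝ}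
    (hw : Measurable w) (hw0 : ∀ Y, 0 ≤ w Y ∧ w Y ≤ 1) (hk : Integrable k Q) :
    Integrable (fun Y => w Y * k Y) Q := by
  refine hk.mono (hw.aestronglyMeasurable.mul hk.1) (Eventually.of_forall fun Y => ?_)
  rw [norm_mul]
  have h1 : ‖w Y‖ ≤ 1 := by
    rw [Real.norm_eq_abs, abs_of_nonneg (hw0 Y).1]; exact (hw0 Y).2
  exact mul_le_of_le_one_left (norm_nonneg _) h1

end SW

open SW

/-- Iterated averages inherit measurability, dependence, bounds. -/
theorem wavN_basic (T : RTree V b) {w g : V → V → (V → ℝ) → ℝ}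
    (hw : ∀ u x, Measurable (w u x)) (hg : ∀ u x, Measurable (g u x))
    (hw0 : ∀ u x Y, 0 ≤ w u x Y) (hg0 : ∀ u x Y, 0 ≤ g u x Y)
    (hwd : ∀ u x, T.G.Adj u x → DependsOn (w u x) (T.side u x))
    (hgd : ∀ u x, T.G.Adj u x → DependsOn (g u x) (T.side u x)) (n : ℕ) (u x : V)
    (hux : T.G.Adj u x) :
    Measurable (fun Y => T.wavN (fun u x => w u x Y) (fun u x => g u x Y) n u x) ∧
    (∀ Y, 0 ≤ T.wavN (fun u x => w u x Y) (fun u x => g u x Y) n u x) ∧
    DependsOn (fun Y => T.wavN (fun u x => w u x Y) (fun u x => g u x Y) n u x)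
      (T.side u x) := by
  induction n generalizing u x with
  | zero => exact ⟨hg u x, hg0 u x, hgd u x hux⟩
  | succ n ih =>
    simp only [wavN_succ]
    refine ⟨?_, ?_, ?_⟩
    · refine Measurable.div_const (Finset.measurable_sum _ fun y hy => ?_) _
      exact (hw x y).mul (ih x y (adj_of_ch hy)).1
    · intro Y
      refine div_nonneg (Finset.sum_nonneg fun y hy => ?_) (Nat.cast_nonneg b)
      exact mul_nonneg (hw0 x y Y) ((ih x y (adj_of_ch hy)).2.1 Y)
    · intro Y Y' h
      show (∑ y ∈ T.ch u x, _) / (b : ℝ) = (∑ y ∈ T.ch u x, _) / (b : ℝ)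
      congr 1
      refine Finset.sum_congr rfl fun y hy => ?_
      have hxy := adj_of_ch hy
      have hs := Dec.side_sub hux hy
      rw [hwd x y hxy (fun i hi => h i (hs hi))]
      congr 1
      exact (ih x y hxy).2.2 (fun i hi => h i (hs hi))

/-- Iterated averages are integrable. -/
theorem wavN_integrable (T : RTree V b) (Q : Measure (V → ℝ))
    {w g : V → V → (V → ℝ) → ℝ}
    (hw : ∀ u x, Measurable (w u x))
    (hw0 : ∀ u x Y, 0 ≤ w u x Y ∧ w u x Y ≤ 1)
    (hgi : ∀ u x, T.G.Adj u x → Integrable (g u x) Q) (n : ℕ) (u x : V)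
    (hux : T.G.Adj u x) :
    Integrable (fun Y => T.wavN (fun u x => w u x Y) (fun u x => g u x Y) n u x) Q := by
  induction n generalizing u x with
  | zero => exact hgi u x hux
  | succ n ih =>
    simp only [wavN_succ]
    refine Integrable.div_const (integrable_finsetSum _ fun y hy => ?_) _
    exact integrable_w (hw x y) (hw0 x y) (ih x y (adj_of_ch hy))

/-- If one step contracts by `δ` then `n` steps contract by `δ ^ (n - 1)`. -/
theorem wavN_decay (T : RTree V b) (hb : 0 < b) (Q : Measure (V → ℝ)) {δ G : ℝ} (hδ : 0 ≤ δ)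
    {w g : V → V → (V → ℝ) → ℝ}
    (hw : ∀ u x, Measurable (w u x)) (hg : ∀ u x, Measurable (g u x))
    (hw0 : ∀ u x Y, 0 ≤ w u x Y ∧ w u x Y ≤ 1) (hg0 : ∀ u x Y, 0 ≤ g u x Y)
    (hwd : ∀ u x, T.G.Adj u x → DependsOn (w u x) (T.side u x))
    (hgd : ∀ u x, T.G.Adj u x → DependsOn (g u x) (T.side u x))
    (hgi : ∀ u x, T.G.Adj u x → Integrable (g u x) Q)
    (hG : ∀ u x, T.G.Adj u x → ∫ Y, g u x Y ∂Q ≤ G)
    (hstep : ∀ u x y, T.G.Adj u x → y ∈ T.ch u x → ∀ k : (V → ℝ) → ℝ, Measurable k →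
      (∀ Y, 0 ≤ k Y) → Integrable k Q → DependsOn k (T.side x y) →
      ∫ Y, w u x Y * k Y ∂Q ≤ δ * ∫ Y, k Y ∂Q)
    (n : ℕ) (u x : V) (hux : T.G.Adj u x) :
    ∫ Y, T.wavN (fun u x => w u x Y) (fun u x => g u x Y) n u x ∂Q ≤ δ ^ (n - 1) * G := by
  have hb' : (0 : ℝ) < b := by exact_mod_cast hb
  have hbas := fun n u x (hux : T.G.Adj u x) => wavN_basic T hw hg (fun u x Y => (hw0 u x Y).1) hg0
    hwd hgd n u x hux
  have hint := fun n u x (hux : T.G.Adj u x) => wavN_integrable T Q hw hw0 hgi n u x hux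
  -- the average of a bound over the children
  have havg : ∀ (n : ℕ) (u x : V), T.G.Adj u x → ∀ D : ℝ,
      (∀ y ∈ T.ch u x, ∫ Y, w x y Y * T.wavN (fun u x => w u x Y) (fun u x => g u x Y) n x y ∂Q ≤
        D) →
      ∫ Y, T.wavN (fun u x => w u x Y) (fun u x => g u x Y) (n + 1) u x ∂Q ≤ D := by
    intro n u x hux D hD
    simp only [wavN_succ]
    rw [integral_div, integral_finsetSum _ fun y hy =>
      integrable_w (hw x y) (hw0 x y) (hint n x y (adj_of_ch hy)), div_le_iff₀ hb']
    calc ∑ y ∈ T.ch u x,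
          ∫ Y, w x y Y * T.wavN (fun u x => w u x Y) (fun u x => g u x Y) n x y ∂Q
        ≤ ∑ y ∈ T.ch u x, D := Finset.sum_le_sum hD
      _ = D * b := by rw [Finset.sum_const, RTree.card_ch hux, nsmul_eq_mul, mul_comm]
  cases n with
  | zero =>
    have e0 : δ ^ (0 - 1) * G = G := by simp
    rw [e0]
    exact hG u x hux
  | succ n =>
    rw [Nat.add_sub_cancel]
    induction n generalizing u x with
    | zero =>
      refine havg 0 u x hux _ fun y hy => ?_
      have hxy := adj_of_ch hy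
      rw [pow_zero, one_mul]
      refine le_trans (integral_mono (integrable_w (hw x y) (hw0 x y) (hint 0 x y hxy))
        (hgi x y hxy) fun Y => ?_) (hG x y hxy)
      exact mul_le_of_le_one_left (hg0 x y Y) (hw0 x y Y).2
    | succ n ih =>
      refine havg (n + 1) u x hux _ fun y hy => ?_
      have hxy := adj_of_ch hy
      have e1 : ∀ Y, w x y Y * T.wavN (fun u x => w u x Y) (fun u x => g u x Y) (n + 1) x y =
          (∑ z ∈ T.ch x y, w x y Y *
            (w y z Y * T.wavN (fun u x => w u x Y) (fun u x => g u x Y) n y z)) / b := by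
        intro Y
        rw [wavN_succ, ← mul_div_assoc, Finset.mul_sum]
      have i1 : ∀ z ∈ T.ch x y, Integrable (fun Y =>
          w y z Y * T.wavN (fun u x => w u x Y) (fun u x => g u x Y) n y z) Q := fun z hz =>
        integrable_w (hw y z) (hw0 y z) (hint n y z (adj_of_ch hz))
      have e2 : ∫ Y, T.wavN (fun u x => w u x Y) (fun u x => g u x Y) (n + 1) x y ∂Q =
          (∑ z ∈ T.ch x y, ∫ Y,
            w y z Y * T.wavN (fun u x => w u x Y) (fun u x => g u x Y) n y z ∂Q) / b := by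
        simp only [wavN_succ]
        rw [integral_div, integral_finsetSum _ i1]
      have h3 := ih x y hxy
      rw [e2] at h3
      simp_rw [e1]
      rw [integral_div, integral_finsetSum _ fun z hz => integrable_w (hw x y) (hw0 x y) (i1 z hz)]
      have h4 : ∑ z ∈ T.ch x y, ∫ Y, w x y Y *
            (w y z Y * T.wavN (fun u x => w u x Y) (fun u x => g u x Y) n y z) ∂Q ≤
          δ * ∑ z ∈ T.ch x y, ∫ Y,
            w y z Y * T.wavN (fun u x => w u x Y) (fun u x => g u x Y) n y z ∂Q := by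
        rw [Finset.mul_sum]
        refine Finset.sum_le_sum fun z hz => ?_
        have hyz := adj_of_ch hz
        obtain ⟨b1, b2, b3⟩ := hbas n y z hyz
        refine hstep x y z hxy hz _ ((hw y z).mul b1)
          (fun Y => mul_nonneg (hw0 y z Y).1 (b2 Y)) (i1 z hz) ?_
        exact dependsOn_mul (hwd y z hyz) b3
      calc _ ≤ (δ * ∑ z ∈ T.ch x y, ∫ Y,
            w y z Y * T.wavN (fun u x => w u x Y) (fun u x => g u x Y) n y z ∂Q) / b :=
            div_le_div_of_nonneg_right h4 hb'.le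
        _ = δ * ((∑ z ∈ T.ch x y, ∫ Y,
            w y z Y * T.wavN (fun u x => w u x Y) (fun u x => g u x Y) n y z ∂Q) / b) := by
            rw [mul_div_assoc]
        _ ≤ δ * (δ ^ n * G) := mul_le_mul_of_nonneg_left h3 hδ
        _ = δ ^ (n + 1) * G := by ring

end Vale.Agent.P161E
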