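import Vale.Agent.P161E.SCpf
import Vale.Agent.P161E.SSym
import Vale.Agent.P161E.SWav
import Vale.Agent.P161E.SRec
import Vale.Agent.P161E.PairAux

/-!
# Part S: independence of the branches, generating function of the averages of `χ`
-/

open MeasureTheory Set Filter Topology
open scoped unitInterval ENNReal

namespace Vale.Agent.P161E

open Vale.Agent.P161

universe u

variable {V : Type u} {b : ℕ}

section S

variable {T : RTree V b} {θ : ℝ} {μ : Measure (V → Bool)} {ν : Measure ℝ} {Q : Measure (V → ℝ)}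

/-- even functions of the branches at the children are independent (S3, S4) -/
theorem siblings (h : SR T θ μ ν Q) {u x : V} (hux : T.G.Adj u x) {g : V → (V → ℝ) → ℝ}
    (hg : ∀ y, Measurable (g y)) (hgb : ∀ y, ∃ C, ∀ Y, |g y Y| ≤ C)
    (hd : ∀ y ∈ T.ch u x, DependsOn (g y) (T.side x y))
    (he : ∀ y ∈ T.ch u x, ∀ᵐ Y ∂Q, g y (-Y) = g y Y) :
    ∫ Y, ∏ y ∈ T.ch u x, g y Y ∂Q = ∏ y ∈ T.ch u x, ∫ Y, g y Y ∂Q := by
  have := h.prob_μ
  have := h.prob_Q
  have hcpf := cpf h hux (s := 1) (Or.inl rfl) (f₀ := fun _ => 1) measurable_const hg hd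
  have hcpf1 := cpf h hux (s := 1) (Or.inl rfl) (f₀ := fun _ => 1) measurable_const
    (f := fun _ _ => 1) (fun _ => measurable_const) (fun _ _ _ _ _ => rfl)
  simp only [one_mul, mul_one, Finset.prod_const_one] at hcpf hcpf1
  -- integrability
  have hint : ∀ (F : (V → ℝ) → ℝ), Measurable F → (∃ C, ∀ Y, |F Y| ≤ C) → Integrable F Q := by
    rintro F hF ⟨C, hC⟩
    exact Integrable.of_bound hF.aestronglyMeasurable C (Eventually.of_forall fun Y => hC Y)
  have hth : ∀ (v w : V) (F : (V → ℝ) → ℝ), Measurable F → (∃ C, ∀ Y, |F Y| ≤ C) →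
      Integrable (fun Y => F Y * th T μ v w Y) Q := by
    rintro v w F hF ⟨C, hC⟩
    refine hint _ (hF.mul (measurable_th T μ v w)) ⟨C, fun Y => ?_⟩
    rw [abs_mul]
    calc |F Y| * |th T μ v w Y| ≤ C * 1 := by
          apply mul_le_mul (hC Y) (abs_th_le T μ v w Y) (abs_nonneg _)
            ((abs_nonneg _).trans (hC Y))
      _ = C := mul_one C
  have hexp : ∀ (v w : V) (c : ℝ) (F : (V → ℝ) → ℝ), Measurable F → (∃ C, ∀ Y, |F Y| ≤ C) →
      (∀ᵐ Y ∂Q, F (-Y) = F Y) →
      ∫ Y, (1 + c * th T μ v w Y) * F Y ∂Q = ∫ Y, F Y ∂Q := by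
    intro v w c F hF hC hev
    have h1 : (fun Y => (1 + c * th T μ v w Y) * F Y) =
        fun Y => F Y + c * (F Y * th T μ v w Y) := by
      funext Y; ring
    rw [h1, integral_add (hint F hF hC) ((hth v w F hF hC).const_mul c), integral_const_mul,
      integral_even_mul_th h v w hF hev, mul_zero, add_zero]
  -- the product
  have hPm : Measurable (fun Y : V → ℝ => ∏ y ∈ T.ch u x, g y Y) :=
    Finset.measurable_prod _ fun y _ => hg y
  have hPb : ∃ C, ∀ Y : V → ℝ, |∏ y ∈ T.ch u x, g y Y| ≤ C := by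
    choose C hC using hgb
    refine ⟨∏ y ∈ T.ch u x, C y, fun Y => ?_⟩
    rw [Finset.abs_prod]
    exact Finset.prod_le_prod (fun y _ => abs_nonneg _) fun y _ => hC y Y
  have hPe : ∀ᵐ Y ∂Q, ∏ y ∈ T.ch u x, g y (-Y) = ∏ y ∈ T.ch u x, g y Y := by
    have : ∀ᵐ Y ∂Q, ∀ y ∈ T.ch u x, g y (-Y) = g y Y :=
      (Finset.eventually_all (T.ch u x)).mpr he
    filter_upwards [this] with Y hY
    exact Finset.prod_congr rfl fun y hy => hY y hy
  have e1 : ∫ Y, (1 + th T μ u x Y) * ∏ y ∈ T.ch u x, g y Y ∂Q =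
      ∫ Y, ∏ y ∈ T.ch u x, g y Y ∂Q := by
    have := hexp u x 1 _ hPm hPb hPe
    simpa only [one_mul] using this
  have e2 : ∀ y ∈ T.ch u x, ∫ Y, (1 + θ * th T μ x y Y) * g y Y ∂Q = ∫ Y, g y Y ∂Q :=
    fun y hy => hexp x y θ (g y) (hg y) (hgb y) (he y hy)
  -- the field at `x`
  have e3 : ∫ y, (1 + Real.tanh y) ∂ν = 1 := by
    have h1 : ∀ v w : V, ∀ c : ℝ, ∫ Y, (1 + c * th T μ v w Y) ∂Q = 1 := by
      intro v w c
      have := hexp v w c (fun _ => 1) measurable_const ⟨1, fun _ => by simp⟩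
        (Eventually.of_forall fun _ => rfl)
      simpa using this
    have h2 : ∫ Y, (1 + th T μ u x Y) ∂Q = 1 := by
      have := h1 u x 1
      simpa only [one_mul] using this
    rw [h2, Finset.prod_congr rfl (fun y _ => h1 x y θ), Finset.prod_const_one, mul_one]
      at hcpf1
    exact hcpf1.symm
  rw [e1, e3, one_mul, Finset.prod_congr rfl e2] at hcpf
  exact hcpf

namespace Sib

theorem card_ch_le (T : RTree V b) (u x : V) : (T.ch u x).card ≤ b + 1 := by
  rw [← T.card_nb x]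
  exact Finset.card_le_card (fun y hy => (T.mem_nb x y).mpr (RTree.mem_ch.mp hy).2)

theorem wav_bd (T : RTree V b) (hb : 0 < b) {w g : V → V → ℝ} {C : ℝ}
    (hw : ∀ u x, 0 ≤ w u x ∧ w u x ≤ 1) (hg : ∀ u x, 0 ≤ g u x ∧ g u x ≤ C) (u x : V) :
    0 ≤ (∑ y ∈ T.ch u x, w x y * g x y) / b ∧ (∑ y ∈ T.ch u x, w x y * g x y) / b ≤ 2 * C := by
  have hb' : (1 : ℝ) ≤ b := by exact_mod_cast hb
  have hC : 0 ≤ C := (hg u x).1.trans (hg u x).2
  constructor
  · exact div_nonneg (Finset.sum_nonneg fun y _ => mul_nonneg (hw x y).1 (hg x y).1)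
      (by linarith)
  · rw [div_le_iff₀ (by linarith)]
    have h1 : ∑ y ∈ T.ch u x, w x y * g x y ≤ ∑ y ∈ T.ch u x, C := by
      refine Finset.sum_le_sum fun y _ => ?_
      exact (mul_le_of_le_one_left (hg x y).1 (hw x y).2).trans (hg x y).2
    rw [Finset.sum_const, nsmul_eq_mul] at h1
    have h2 : ((T.ch u x).card : ℝ) ≤ b + 1 := by exact_mod_cast card_ch_le T u x
    have h3 : ((T.ch u x).card : ℝ) * C ≤ (b + 1) * C := mul_le_mul_of_nonneg_right h2 hC
    nlinarith

theorem chiN_succ (T : RTree V b) (w : V → V → ℝ) (n : ℕ) (u x : V) :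
    T.chiN w (n + 1) u x = 1 + (∑ y ∈ T.ch u x, w x y * T.chiN w n x y) / b := rfl

theorem chiN_bd (T : RTree V b) (hb : 0 < b) {w : V → V → ℝ}
    (hw : ∀ u x, 0 ≤ w u x ∧ w u x ≤ 1) (N : ℕ) (u x : V) :
    0 ≤ T.chiN w N u x ∧ T.chiN w N u x ≤ 2 ^ (N + 1) - 1 := by
  induction N generalizing u x with
  | zero =>
    constructor
    · simp [RTree.chiN]
    · simp only [RTree.chiN]; norm_num
  | succ N ih =>
    have h1 := wav_bd T hb hw ih u x
    rw [chiN_succ]
    constructor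
    · linarith [h1.1]
    · have h2 : (2 : ℝ) ^ (N + 1 + 1) = 2 * 2 ^ (N + 1) := by ring
      rw [h2]
      linarith [h1.2]

theorem wavN_bd (T : RTree V b) (hb : 0 < b) {w g : V → V → ℝ} {C : ℝ}
    (hw : ∀ u x, 0 ≤ w u x ∧ w u x ≤ 1) (hg : ∀ u x, 0 ≤ g u x ∧ g u x ≤ C) (n : ℕ) (u x : V) :
    0 ≤ T.wavN w g n u x ∧ T.wavN w g n u x ≤ 2 ^ n * C := by
  induction n generalizing u x with
  | zero => simpa [RTree.wavN] using hg u x
  | succ n ih =>
    have h1 := wav_bd T hb hw ih u x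
    rw [SW.wavN_succ]
    refine ⟨h1.1, h1.2.trans (le_of_eq (by ring))⟩

theorem chiN_basic (T : RTree V b) {w : V → V → (V → ℝ) → ℝ}
    (hw : ∀ u x, Measurable (w u x)) (hw0 : ∀ u x Y, 0 ≤ w u x Y)
    (hwd : ∀ u x, T.G.Adj u x → DependsOn (w u x) (T.side u x)) (n : ℕ) (u x : V) :
    Measurable (fun Y => T.chiN (fun u x => w u x Y) n u x) ∧
    (∀ Y, 0 ≤ T.chiN (fun u x => w u x Y) n u x) ∧
    (T.G.Adj u x → DependsOn (fun Y => T.chiN (fun u x => w u x Y) n u x) (T.side u x)) := by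
  induction n generalizing u x with
  | zero =>
    refine ⟨measurable_const, fun _ => zero_le_one, fun _ _ _ _ => rfl⟩
  | succ n ih =>
    simp only [chiN_succ]
    refine ⟨?_, ?_, ?_⟩
    · refine measurable_const.add (Measurable.div_const (Finset.measurable_sum _ fun y _ => ?_) _)
      exact (hw x y).mul (ih x y).1
    · intro Y
      have : 0 ≤ (∑ y ∈ T.ch u x, w x y Y * T.chiN (fun u x => w u x Y) n x y) / (b : ℝ) :=
        div_nonneg (Finset.sum_nonneg fun y _ => mul_nonneg (hw0 x y Y) ((ih x y).2.1 Y))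
          (Nat.cast_nonneg b)
      linarith
    · intro hux Y Y' h
      show 1 + (∑ y ∈ T.ch u x, _) / (b : ℝ) = 1 + (∑ y ∈ T.ch u x, _) / (b : ℝ)
      congr 2
      refine Finset.sum_congr rfl fun y hy => ?_
      have hxy := SW.adj_of_ch hy
      have hs := Dec.side_sub hux hy
      rw [hwd x y hxy (fun i hi => h i (hs hi))]
      congr 1
      exact (ih x y).2.2 hxy (fun i hi => h i (hs hi))

theorem measurable_af (θ : ℝ) : Measurable (af θ) := by
  unfold af; fun_prop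

theorem measurable_be (b : ℕ) (θ : ℝ) : Measurable (be b θ) := by
  unfold be; exact (measurable_af θ).const_mul _

theorem be_neg (b : ℕ) (θ t : ℝ) : be b θ (-t) = be b θ t := by
  unfold be af; rw [neg_sq]

/-- the weight of an edge -/
theorem w_mem (h : SR T θ μ ν Q) (u x : V) (Y : V → ℝ) :
    0 ≤ be b θ (th T μ u x Y) ^ 2 ∧ be b θ (th T μ u x Y) ^ 2 ≤ 1 := by
  have := h.prob_μ
  have h1 := PR.be_mem h.hb h.θ0 h.θ1 (abs_th_le T μ u x Y)
  exact ⟨sq_nonneg _, pow_le_one₀ h1.1 h1.2⟩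

theorem w_meas (h : SR T θ μ ν Q) (u x : V) :
    Measurable (fun Y => be b θ (th T μ u x Y) ^ 2) := by
  have := h.prob_μ
  exact ((measurable_be b θ).comp (measurable_th T μ u x)).pow_const 2

theorem w_dep (T : RTree V b) (θ : ℝ) (μ : Measure (V → Bool)) (u x : V) :
    DependsOn (fun Y => be b θ (th T μ u x Y) ^ 2) (T.side u x) := by
  intro Y Y' hYY
  show be b θ (th T μ u x Y) ^ 2 = be b θ (th T μ u x Y') ^ 2
  rw [dependsOn_th T μ u x hYY]

theorem w_even (h : SR T θ μ ν Q) : ∀ᵐ Y ∂Q, (fun u x => be b θ (th T μ u x (-Y)) ^ 2) =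
    fun u x => be b θ (th T μ u x Y) ^ 2 := by
  have hV : Countable V := T.countable
  have : ∀ᵐ Y ∂Q, ∀ u x, th T μ u x (-Y) = -th T μ u x Y :=
    ae_all_iff.mpr fun u => ae_all_iff.mpr fun x => th_neg h u x
  filter_upwards [this] with Y hY
  funext u x
  rw [hY u x, be_neg]

end Sib

open Sib in
/-- `E exp (s b^n (A^n χ_N)) ≤ 4 ^ (b ^ n)` -/
theorem chi_gen (h : SR T θ μ ν Q) {s : ℝ} (hs : 0 ≤ s) {N : ℕ}
    (h4 : ∀ u x, T.G.Adj u x →
      ∫ Y, Real.exp (s * T.chiN (fun u x => be b θ (th T μ u x Y) ^ 2) N u x) ∂Q ≤ 4)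
    (n : ℕ) (u x : V) (hux : T.G.Adj u x) :
    ∫ Y, Real.exp (s * (b ^ n * T.wavN (fun _ _ => 1)
      (T.chiN (fun u x => be b θ (th T μ u x Y) ^ 2) N) n u x)) ∂Q ≤ 4 ^ (b ^ n) := by
  have := h.prob_μ
  have := h.prob_Q
  have hb0 : 0 < b := by have := h.hb; omega
  have hb' : (b : ℝ) ≠ 0 := by exact_mod_cast hb0.ne'
  have hw1 : ∀ (u x : V), (0 : ℝ) ≤ 1 ∧ (1 : ℝ) ≤ 1 := fun _ _ => ⟨zero_le_one, le_rfl⟩
  induction n generalizing u x with
  | zero =>
    have := h4 u x hux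
    simpa [RTree.wavN] using this
  | succ n ih =>
    set X : V → V → (V → ℝ) → ℝ := fun u x Y => T.wavN (fun _ _ => 1)
      (T.chiN (fun u x => be b θ (th T μ u x Y) ^ 2) N) n u x with hX
    have hXm : ∀ u x, T.G.Adj u x → Measurable (X u x) ∧ (∀ Y, 0 ≤ X u x Y) ∧
        DependsOn (X u x) (T.side u x) := by
      intro u x hux
      exact wavN_basic T (w := fun _ _ _ => 1)
        (g := fun u x Y => T.chiN (fun u x => be b θ (th T μ u x Y) ^ 2) N u x)
        (fun _ _ => measurable_const)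
        (fun u x => (chiN_basic T (w_meas h) (fun u x Y => (w_mem h u x Y).1)
          (fun u x _ => w_dep T θ μ u x) N u x).1)
        (fun _ _ _ => zero_le_one)
        (fun u x => (chiN_basic T (w_meas h) (fun u x Y => (w_mem h u x Y).1)
          (fun u x _ => w_dep T θ μ u x) N u x).2.1)
        (fun _ _ _ _ _ _ => rfl)
        (fun u x hux => (chiN_basic T (w_meas h) (fun u x Y => (w_mem h u x Y).1)
          (fun u x _ => w_dep T θ μ u x) N u x).2.2 hux) n u x hux
    have hXb : ∀ u x Y, 0 ≤ X u x Y ∧ X u x Y ≤ 2 ^ n * (2 ^ (N + 1) - 1) := by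
      intro u x Y
      exact wavN_bd T hb0 hw1 (fun u x => chiN_bd T hb0 (fun u x => w_mem h u x Y) N u x) n u x
    -- the functions of the branches
    classical
    set g : V → (V → ℝ) → ℝ := fun y => if y ∈ T.ch u x then
      fun Y => Real.exp (s * (b ^ n * X x y Y)) else fun _ => 1 with hg
    have hgin : ∀ y ∈ T.ch u x, g y = fun Y => Real.exp (s * (b ^ n * X x y Y)) := by
      intro y hy; simp only [hg, if_pos hy]
    have hgout : ∀ y, y ∉ T.ch u x → g y = fun _ => 1 := by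
      intro y hy; simp only [hg, if_neg hy]
    have hgm : ∀ y, Measurable (g y) := by
      intro y
      by_cases hy : y ∈ T.ch u x
      · rw [hgin y hy]
        exact Real.measurable_exp.comp
          (((hXm x y (SW.adj_of_ch hy)).1.const_mul _).const_mul _)
      · rw [hgout y hy]; exact measurable_const
    have hgb : ∀ y, ∃ C, ∀ Y, |g y Y| ≤ C := by
      intro y
      by_cases hy : y ∈ T.ch u x
      · refine ⟨Real.exp (s * (b ^ n * (2 ^ n * (2 ^ (N + 1) - 1)))), fun Y => ?_⟩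
        rw [hgin y hy, Real.abs_exp]
        apply Real.exp_le_exp.mpr
        have := (hXb x y Y).2
        gcongr
      · refine ⟨1, fun Y => ?_⟩
        rw [hgout y hy]; simp
    have hgd : ∀ y ∈ T.ch u x, DependsOn (g y) (T.side x y) := by
      intro y hy Y Y' hYY
      rw [hgin y hy]
      show Real.exp (s * (b ^ n * X x y Y)) = Real.exp (s * (b ^ n * X x y Y'))
      rw [(hXm x y (SW.adj_of_ch hy)).2.2 hYY]
    have hge : ∀ y ∈ T.ch u x, ∀ᵐ Y ∂Q, g y (-Y) = g y Y := by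
      intro y hy
      filter_upwards [w_even h] with Y hY
      rw [hgin y hy]
      show Real.exp (s * (b ^ n * X x y (-Y))) = Real.exp (s * (b ^ n * X x y Y))
      simp only [hX]
      rw [hY]
    have hsib := siblings h hux hgm hgb hgd hge
    have hprod : ∀ Y : V → ℝ, Real.exp (s * (b ^ (n + 1) * T.wavN (fun _ _ => 1)
        (T.chiN (fun u x => be b θ (th T μ u x Y) ^ 2) N) (n + 1) u x)) =
        ∏ y ∈ T.ch u x, g y Y := by
      intro Y
      rw [SW.wavN_succ, Finset.prod_congr rfl (fun y hy => by rw [hgin y hy]),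
        ← Real.exp_sum]
      congr 1
      have : ∑ y ∈ T.ch u x, 1 * T.wavN (fun _ _ => 1)
          (T.chiN (fun u x => be b θ (th T μ u x Y) ^ 2) N) n x y =
          ∑ y ∈ T.ch u x, X x y Y := by
        refine Finset.sum_congr rfl fun y _ => ?_
        rw [one_mul]
      rw [this, ← Finset.mul_sum, ← Finset.mul_sum, pow_succ]
      field_simp
    calc ∫ Y, Real.exp (s * (b ^ (n + 1) * T.wavN (fun _ _ => 1)
          (T.chiN (fun u x => be b θ (th T μ u x Y) ^ 2) N) (n + 1) u x)) ∂Q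
        = ∫ Y, ∏ y ∈ T.ch u x, g y Y ∂Q := integral_congr_ae (Eventually.of_forall hprod)
      _ = ∏ y ∈ T.ch u x, ∫ Y, g y Y ∂Q := hsib
      _ ≤ ∏ y ∈ T.ch u x, (4 : ℝ) ^ (b ^ n) := by
          refine Finset.prod_le_prod (fun y hy => ?_) fun y hy => ?_
          · rw [hgin y hy]; exact integral_nonneg fun Y => (Real.exp_pos _).le
          · rw [hgin y hy]; exact ih x y (SW.adj_of_ch hy)
      _ = 4 ^ (b ^ (n + 1)) := by
          rw [Finset.prod_const, RecAux.card_ch T hux, ← pow_mul, pow_succ]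

end S

end Vale.Agent.P161E
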