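import Vale.Agent.P161E.SLarge
import Vale.Agent.P161E.PairAux

/-!
# One step along a ray
-/

open MeasureTheory Set Filter Topology
open scoped unitInterval ENNReal

namespace Vale.Agent.P161E

open Vale.Agent.P161

universe u

variable {V : Type u} {b : ℕ}



namespace Stp

theorem one_sub_be {b : ℕ} (hb : 2 ≤ b) {θ t : ℝ} (hθ0 : 0 ≤ θ) (hθ : b * θ ^ 2 ≤ 1)
    (ht : |t| ≤ 1) : (1 - b * θ ^ 2) / 2 ≤ 1 - be b θ t ∧ t ^ 2 / 2 ≤ 1 - be b θ t := by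
  have hθ2 : θ ^ 2 ≤ 1 / 2 := PR.sq_half hb hθ
  have haf := PR.af_mem hθ2 ht
  have hl2 : (Real.sqrt b * θ) ^ 2 = b * θ ^ 2 := by
    rw [mul_pow, Real.sq_sqrt (Nat.cast_nonneg b)]
  have hl0 : 0 ≤ Real.sqrt b * θ := mul_nonneg (Real.sqrt_nonneg _) hθ0
  obtain ⟨l, hl⟩ : ∃ l, l = Real.sqrt b * θ := ⟨_, rfl⟩
  rw [← hl] at hl2 hl0
  have hl1 : l ≤ 1 := by nlinarith
  have hbe : be b θ t = l * af θ t := by unfold be; rw [hl]
  have ht2 : t ^ 2 ≤ 1 := PR.sq_le_one' ht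
  have hden : 1 / 2 ≤ 1 - θ ^ 2 * t ^ 2 := PR.den hθ2 ht
  have haf2 : af θ t ≤ 1 - t ^ 2 / 2 := by
    unfold af
    rw [div_le_iff₀ (by linarith)]
    nlinarith [mul_nonneg (sq_nonneg θ) (sq_nonneg t), mul_nonneg (sq_nonneg t) (sq_nonneg t),
      mul_nonneg (mul_nonneg (sq_nonneg θ) (sq_nonneg t)) (sq_nonneg t)]
  rw [hbe]
  constructor
  · rw [← hl2]
    nlinarith [haf.1, haf.2]
  · nlinarith [haf.1, haf.2]

/-- a weight which is at most `1 - η` on a large event -/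
theorem gen {Q : Measure (V → ℝ)} {g w : (V → ℝ) → ℝ} (hg0 : ∀ Y, 0 ≤ g Y)
    (hgi : Integrable g Q) (hw : Measurable w) (hw0 : ∀ Y, 0 ≤ w Y) (hw1 : ∀ Y, w Y ≤ 1)
    {E : Set (V → ℝ)} (hE : MeasurableSet E) {c η : ℝ} (hη : 0 ≤ η)
    (h1 : c * ∫ Y, g Y ∂Q ≤ ∫ Y in E, g Y ∂Q) (h2 : ∀ Y ∈ E, w Y ≤ 1 - η) :
    ∫ Y, w Y * g Y ∂Q ≤ Real.exp (-(c * η)) * ∫ Y, g Y ∂Q := by
  have hwi : Integrable (fun Y => w Y * g Y) Q :=
    hgi.bdd_mul hw.aestronglyMeasurable (c := 1) (ae_of_all _ fun Y => by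
      rw [Real.norm_eq_abs, abs_of_nonneg (hw0 Y)]; exact hw1 Y)
  have hind : Integrable (E.indicator g) Q := hgi.indicator hE
  have h3 : ∫ Y, w Y * g Y ∂Q ≤ ∫ Y, (g Y - η * E.indicator g Y) ∂Q := by
    refine integral_mono hwi (hgi.sub (hind.const_mul η)) fun Y => ?_
    simp only
    by_cases hY : Y ∈ E
    · rw [indicator_of_mem hY]
      nlinarith [hg0 Y, h2 Y hY]
    · rw [indicator_of_notMem hY]
      nlinarith [hg0 Y, hw1 Y]
  rw [integral_sub hgi (hind.const_mul η), integral_const_mul, integral_indicator hE] at h3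
  have h4 : 0 ≤ ∫ Y, g Y ∂Q := integral_nonneg hg0
  have h5 : 1 - c * η ≤ Real.exp (-(c * η)) := by
    have := Real.add_one_le_exp (-(c * η))
    linarith
  have h6 : η * (c * ∫ Y, g Y ∂Q) ≤ η * ∫ Y in E, g Y ∂Q := mul_le_mul_of_nonneg_left h1 hη
  calc ∫ Y, w Y * g Y ∂Q ≤ (1 - c * η) * ∫ Y, g Y ∂Q := by nlinarith
    _ ≤ _ := mul_le_mul_of_nonneg_right h5 h4

end Stp

/-- One step along a ray. -/
theorem one_step {b : ℕ} (hb : 2 ≤ b) : ∃ M c : ℝ, 0 < M ∧ 0 < c ∧ ∀ (V : Type u)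
    (T : RTree V b) (θ ρ : ℝ) (μ : Measure (V → Bool)) (ν : Measure ℝ) (Q : Measure (V → ℝ)),
    SR T θ μ ν Q → Rate ν ρ →
    ∀ u x y, T.G.Adj u x → y ∈ T.ch u x → ∀ g : (V → ℝ) → ℝ, Measurable g → (∀ Y, 0 ≤ g Y) →
    Integrable g Q → DependsOn g (T.side x y) →
    ∫ Y, Real.exp (-(M / ρ) * (1 - be b θ (th T μ u x Y))) * g Y ∂Q ≤
      Real.exp (-c) * ∫ Y, g Y ∂Q ∧
    ∫ Y, be b θ (th T μ u x Y) ^ 2 * g Y ∂Q ≤ Real.exp (-(c * ρ)) * ∫ Y, g Y ∂Q ∧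
    ∀ m : ℕ, M / ρ ≤ m → ∫ Y, be b θ (th T μ u x Y) ^ (2 * m) * g Y ∂Q ≤
      Real.exp (-c) * ∫ Y, g Y ∂Q := by
  obtain ⟨c₁, hc0, hc1, hL⟩ := th_large_given.{u} hb
  obtain ⟨d, hd⟩ : ∃ d : ℝ, d = c₁ ^ 2 / 2 := ⟨_, rfl⟩
  have hd0 : 0 < d := by rw [hd]; positivity
  have hd1 : d ≤ 1 / 2 := by rw [hd]; nlinarith
  refine ⟨1 / d, c₁ * d, by positivity, by positivity, ?_⟩
  intro V T θ ρ μ ν Q h hR u x y hux hy g hg hg0 hgi hgd
  have := h.prob_μ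
  have hρ := hR.pos
  have hm : Measurable (th T μ u x) := measurable_th T μ u x
  have hab : ∀ Y, |th T μ u x Y| ≤ 1 := abs_th_le T μ u x
  have hbem : Measurable fun Y => be b θ (th T μ u x Y) := by
    unfold be af
    exact ((measurable_const.sub (hm.pow_const 2)).div
      (measurable_const.sub ((hm.pow_const 2).const_mul _))).const_mul _
  have hbe : ∀ Y, 0 ≤ be b θ (th T μ u x Y) ∧ be b θ (th T μ u x Y) ≤ 1 := fun Y =>
    PR.be_mem hb h.θ0 h.θ1 (hab Y)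
  -- the event
  obtain ⟨E, hE, hE1, hE2⟩ : ∃ E : Set (V → ℝ), MeasurableSet E ∧
      c₁ * ∫ Y, g Y ∂Q ≤ ∫ Y in E, g Y ∂Q ∧
      ∀ Y ∈ E, d * ρ ≤ 1 - be b θ (th T μ u x Y) := by
    rcases hL V T θ ρ μ ν Q h hR with h1 | h1
    · refine ⟨univ, MeasurableSet.univ, ?_, fun Y _ => ?_⟩
      · rw [setIntegral_univ]
        have : 0 ≤ ∫ Y, g Y ∂Q := integral_nonneg hg0
        nlinarith
      · have h2 := (Stp.one_sub_be hb h.θ0 h.θ1 (hab Y)).1
        have h3 : c₁ ^ 2 * ρ ≤ c₁ * ρ := mul_le_mul_of_nonneg_right (by nlinarith) hρ.le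
        rw [hd]
        linarith
    · refine ⟨{Y | c₁ * Real.sqrt ρ ≤ |th T μ u x Y|},
        measurableSet_le measurable_const hm.abs, h1 u x y hux hy g hg hg0 hgi hgd,
        fun Y hY => ?_⟩
      rw [mem_ofPred_eq] at hY
      have h2 := (Stp.one_sub_be hb h.θ0 h.θ1 (hab Y)).2
      have h3 : (c₁ * Real.sqrt ρ) ^ 2 ≤ th T μ u x Y ^ 2 := by
        rw [← sq_abs (th T μ u x Y)]
        exact pow_le_pow_left₀ (by positivity) hY 2
      rw [mul_pow, Real.sq_sqrt hρ.le] at h3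
      rw [hd]
      linarith
  have he : Real.exp (-1) ≤ 1 - 1 / 2 := by
    have := Real.exp_one_gt_d9
    rw [Real.exp_neg]
    have h2 : (Real.exp 1)⁻¹ ≤ (2 : ℝ)⁻¹ := inv_anti₀ (by norm_num) (by linarith)
    linarith
  have hcd : Real.exp (-(c₁ * (1 / 2))) ≤ Real.exp (-(c₁ * d)) := by
    rw [Real.exp_le_exp]
    nlinarith
  have hG : 0 ≤ ∫ Y, g Y ∂Q := integral_nonneg hg0
  -- the first weight
  have hw : ∀ Y, Real.exp (-(1 / d / ρ) * (1 - be b θ (th T μ u x Y))) ≤ 1 := by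
    intro Y
    rw [Real.exp_le_one_iff]
    have : 0 ≤ 1 / d / ρ := by positivity
    nlinarith [(hbe Y).2]
  have hwE : ∀ Y ∈ E, Real.exp (-(1 / d / ρ) * (1 - be b θ (th T μ u x Y))) ≤ 1 - 1 / 2 := by
    intro Y hY
    refine le_trans ?_ he
    rw [Real.exp_le_exp]
    have h1 := hE2 Y hY
    have h2 : 0 < 1 / d / ρ := by positivity
    have h3 : 1 / d / ρ * (d * ρ) = 1 := by field_simp
    nlinarith [mul_le_mul_of_nonneg_left h1 h2.le]
  refine ⟨?_, ?_, ?_⟩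
  · refine (Stp.gen hg0 hgi ?_ (fun Y => (Real.exp_pos _).le) hw hE (by norm_num) hE1 hwE).trans
      (mul_le_mul_of_nonneg_right hcd hG)
    exact (Real.measurable_exp.comp ((measurable_const.sub hbem).const_mul _))
  · have h1 := Stp.gen hg0 hgi (w := fun Y => be b θ (th T μ u x Y) ^ 2) (hbem.pow_const 2)
      (fun Y => sq_nonneg _) (fun Y => pow_le_one₀ (hbe Y).1 (hbe Y).2) hE (η := d * ρ)
      (by positivity) hE1 (fun Y hY => by
        have := hE2 Y hY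
        nlinarith [(hbe Y).1, (hbe Y).2])
    rw [← mul_assoc] at h1
    exact h1
  · intro m hm1
    have h1 : ∀ Y, be b θ (th T μ u x Y) ^ (2 * m) ≤
        Real.exp (-(1 / d / ρ) * (1 - be b θ (th T μ u x Y))) := by
      intro Y
      obtain ⟨h2, h3⟩ := hbe Y
      calc be b θ (th T μ u x Y) ^ (2 * m) ≤ be b θ (th T μ u x Y) ^ m :=
            pow_le_pow_of_le_one h2 h3 (by omega)
        _ ≤ Real.exp (-(1 - be b θ (th T μ u x Y))) ^ m := by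
            refine pow_le_pow_left₀ h2 ?_ m
            have := Real.add_one_le_exp (-(1 - be b θ (th T μ u x Y)))
            linarith
        _ = Real.exp (m * -(1 - be b θ (th T μ u x Y))) := by rw [← Real.exp_nat_mul]
        _ ≤ _ := by
            rw [Real.exp_le_exp]
            nlinarith
    refine (Stp.gen hg0 hgi (w := fun Y => be b θ (th T μ u x Y) ^ (2 * m))
      (hbem.pow_const _) (fun Y => pow_nonneg (hbe Y).1 _)
      (fun Y => pow_le_one₀ (hbe Y).1 (hbe Y).2) hE (η := 1 / 2) (by norm_num) hE1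
      (fun Y hY => (h1 Y).trans (hwE Y hY))).trans (mul_le_mul_of_nonneg_right hcd hG)

end Vale.Agent.P161E
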