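import Vale.Agent.P161E.TreeSide

/-!
# Sums of path products over the spheres
-/

open MeasureTheory Set Filter Topology
open scoped unitInterval ENNReal

namespace Vale.Agent.P161E

open Vale.Agent.P161 Vale.Agent.P161.ExistAux

universe u

namespace Sph

open Dec

variable {V : Type u} {b : ℕ} {T : RTree V b}

theorem pp_self (g : V → V → ℝ) (v : V) : pp T g v v = 1 := by
  unfold pp
  rw [SimpleGraph.dist_self]
  rfl

theorem nxt_eq {x y w : V} (h : T.G.Adj x y) (hw : w ∈ T.side x y) : nxt T x w = y := by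
  have hex : ∃ z ∈ T.nb x, T.G.dist z w < T.G.dist x w := by
    refine ⟨y, (T.mem_nb x y).mpr h, ?_⟩
    rw [T.G.dist_comm, T.G.dist_comm (u := x)]
    exact hw
  unfold nxt
  rw [dif_pos hex]
  have key : ∀ z, z ∈ T.nb x ∧ T.G.dist z w < T.G.dist x w → z = y := by
    rintro z ⟨h1, h2⟩
    rw [T.G.dist_comm, T.G.dist_comm (u := x)] at h2
    exact nbr_unique T ((T.mem_nb _ _).mp h1) h h2 hw
  exact key _ hex.choose_spec

theorem pp_cons (g : V → V → ℝ) {x y w : V} (h : T.G.Adj x y) (hw : w ∈ T.side x y) :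
    pp T g x w = g x y * pp T g y w := by
  have h1 : T.G.dist x w = T.G.dist y w + 1 := by
    have h2 : T.G.dist w y < T.G.dist w x := hw
    have h3 : T.G.dist w x ≤ T.G.dist w y + T.G.dist y x := T.tree.1.dist_triangle
    rw [SimpleGraph.dist_eq_one_iff_adj.2 h.symm] at h3
    rw [T.G.dist_comm (u := x), T.G.dist_comm (u := y)]
    omega
  unfold pp
  rw [h1]
  show g x (nxt T x w) * ppN T g _ (nxt T x w) w = _
  rw [nxt_eq h hw]

open Classical in
/-- the descendants up to the generation `n` -/
noncomputable def desc (T : RTree V b) : ℕ → V → V → Finset V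
  | 0, _, x => {x}
  | n + 1, u, x => insert x ((T.ch u x).biUnion fun y => desc T n x y)

theorem self_side {u x : V} (h : T.G.Adj u x) : x ∈ T.side u x := by
  rw [mem_side, SimpleGraph.dist_self, SimpleGraph.dist_eq_one_iff_adj.2 h.symm]
  exact Nat.one_pos

theorem self_notMem_side {x y : V} : x ∉ T.side x y := by
  rw [mem_side, SimpleGraph.dist_self]
  exact Nat.not_lt_zero _

theorem desc_sub (n : ℕ) : ∀ {u x : V}, T.G.Adj u x → ∀ w ∈ desc T n u x, w ∈ T.side u x := by
  classical
  induction n with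
  | zero =>
    intro u x h w hw
    rw [desc, Finset.mem_singleton] at hw
    subst hw
    exact self_side h
  | succ n ih =>
    intro u x h w hw
    rw [desc, Finset.mem_insert, Finset.mem_biUnion] at hw
    rcases hw with rfl | ⟨y, hy, hw⟩
    · exact self_side h
    · exact side_sub h hy (ih (RTree.mem_ch.mp hy).2 w hw)

theorem mem_desc (n : ℕ) : ∀ {u x w : V}, T.G.Adj u x → w ∈ T.side u x → T.G.dist x w ≤ n →
    w ∈ desc T n u x := by
  classical
  induction n with
  | zero =>
    intro u x w h _ hd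
    rw [desc, Finset.mem_singleton]
    exact (T.tree.1.dist_eq_zero_iff.mp (by omega : T.G.dist x w = 0)).symm
  | succ n ih =>
    intro u x w h hw hd
    rw [desc, Finset.mem_insert, Finset.mem_biUnion]
    by_cases hwx : w = x
    · exact Or.inl hwx
    · right
      obtain ⟨y, hy1, hy2⟩ := nbr_exists T hwx
      have hyu : y ≠ u := by
        rintro rfl
        have h1 : T.G.dist w x < T.G.dist w y := hw
        omega
      refine ⟨y, RTree.mem_ch.mpr ⟨hyu, hy1⟩, ih hy1 hy2 ?_⟩
      rw [T.G.dist_comm, T.G.dist_comm (u := w)] at hy2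
      omega

/-- the sum over the descendants -/
theorem sum_desc (hb : 0 < b) (g : V → V → ℝ) (n : ℕ) : ∀ {u x : V}, T.G.Adj u x →
    ∑ w ∈ desc T n u x, pp T g x w = T.chiN (fun u x => b * g u x) n u x := by
  classical
  have hb' : (b : ℝ) ≠ 0 := by exact_mod_cast hb.ne'
  induction n with
  | zero =>
    intro u x _
    rw [desc, Finset.sum_singleton, pp_self]
    rfl
  | succ n ih =>
    intro u x h
    rw [desc, Finset.sum_insert, pp_self, Finset.sum_biUnion]
    · show _ = 1 + T.wav (fun u x => b * g u x) (T.chiN (fun u x => b * g u x) n) u x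
      unfold RTree.wav RTree.av
      congr 1
      rw [Finset.sum_div]
      refine Finset.sum_congr rfl fun y hy => ?_
      have hxy := (RTree.mem_ch.mp hy).2
      simp only
      rw [← ih hxy, mul_assoc, mul_div_assoc, mul_comm, div_mul_cancel₀ _ hb', Finset.mul_sum]
      exact Finset.sum_congr rfl fun w hw => pp_cons g hxy (desc_sub n hxy w hw)
    · intro y hy y' hy' hne
      rw [Function.onFun, Finset.disjoint_left]
      intro w hw hw'
      have h1 := (RTree.mem_ch.mp hy).2
      have h2 := (RTree.mem_ch.mp hy').2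
      exact side_disj h1 h2 hne (desc_sub n h1 w hw) (desc_sub n h2 w hw')
    · rw [Finset.mem_biUnion]
      rintro ⟨y, hy, hw⟩
      exact self_notMem_side (desc_sub n (RTree.mem_ch.mp hy).2 x hw)

theorem ppN_nonneg {g : V → V → ℝ} (hg : ∀ u x, 0 ≤ g u x) (n : ℕ) : ∀ v w,
    0 ≤ ppN T g n v w := by
  induction n with
  | zero => intro v w; exact zero_le_one
  | succ n ih => intro v w; exact mul_nonneg (hg _ _) (ih _ _)

theorem pp_nonneg {g : V → V → ℝ} (hg : ∀ u x, 0 ≤ g u x) (v w : V) : 0 ≤ pp T g v w :=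
  ppN_nonneg hg _ v w

end Sph

open Sph Dec in
/-- Spheres: a sum over all vertices of path products is a sum of edge averages. -/
theorem hasSum_pp {V : Type u} {b : ℕ} (hb : 2 ≤ b) (T : RTree V b) (g χ : V → V → ℝ)
    (hg : ∀ u x, 0 ≤ g u x)
    (hlim : ∀ u x, T.G.Adj u x →
      Tendsto (fun n => T.chiN (fun u x => b * g u x) n u x) atTop (𝓝 (χ u x)))
    (v : V) :
    HasSum (fun w => pp T g v w) (1 + ∑ u ∈ T.nb v, g v u * χ v u) := by
  classical
  have hb0 : 0 < b := by omega
  obtain ⟨E, hE⟩ : ∃ E : ℕ → Finset V,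
    E = fun n => insert v ((T.nb v).biUnion fun u => desc T n v u) := ⟨_, rfl⟩
  have hsum : ∀ n, ∑ w ∈ E n, pp T g v w =
      1 + ∑ u ∈ T.nb v, g v u * T.chiN (fun u x => b * g u x) n v u := by
    intro n
    rw [hE]
    simp only
    rw [Finset.sum_insert, pp_self, Finset.sum_biUnion]
    · congr 1
      refine Finset.sum_congr rfl fun u hu => ?_
      have hvu := (T.mem_nb v u).mp hu
      rw [← sum_desc hb0 g n hvu, Finset.mul_sum]
      exact Finset.sum_congr rfl fun w hw => pp_cons g hvu (desc_sub n hvu w hw)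
    · intro y hy y' hy' hne
      rw [Function.onFun, Finset.disjoint_left]
      intro w hw hw'
      have h1 := (T.mem_nb v y).mp hy
      have h2 := (T.mem_nb v y').mp hy'
      exact side_disj h1 h2 hne (desc_sub n h1 w hw) (desc_sub n h2 w hw')
    · rw [Finset.mem_biUnion]
      rintro ⟨y, hy, hw⟩
      exact self_notMem_side (desc_sub n ((T.mem_nb v y).mp hy) v hw)
  have hmem : ∀ w n, T.G.dist v w ≤ n → w ∈ E n := by
    intro w n hn
    rw [hE]
    simp only
    rw [Finset.mem_insert, Finset.mem_biUnion]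
    by_cases hwv : w = v
    · exact Or.inl hwv
    · right
      obtain ⟨y, hy1, hy2⟩ := nbr_exists T hwv
      refine ⟨y, (T.mem_nb v y).mpr hy1, mem_desc n hy1 hy2 ?_⟩
      rw [T.G.dist_comm (u := w), T.G.dist_comm (u := w)] at hy2
      omega
  have hlim' : Tendsto (fun n => ∑ w ∈ E n, pp T g v w) atTop
      (𝓝 (1 + ∑ u ∈ T.nb v, g v u * χ v u)) := by
    rw [show (fun n => ∑ w ∈ E n, pp T g v w) = fun n =>
      1 + ∑ u ∈ T.nb v, g v u * T.chiN (fun u x => b * g u x) n v u from funext hsum]
    refine Tendsto.const_add _ (tendsto_finsetSum _ fun u hu => ?_)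
    exact (hlim v u ((T.mem_nb v u).mp hu)).const_mul _
  have hmono : ∀ s : Finset V, ∃ n, s ⊆ E n := by
    intro s
    refine ⟨s.sup fun w => T.G.dist v w, fun w hw => hmem w _ ?_⟩
    exact Finset.le_sup (f := fun w => T.G.dist v w) hw
  have h0 : ∀ w, 0 ≤ pp T g v w := fun w => pp_nonneg hg v w
  have hEmono : Monotone fun n => ∑ w ∈ E n, pp T g v w := by
    intro m n hmn
    refine Finset.sum_le_sum_of_subset_of_nonneg ?_ fun w _ _ => h0 w
    have hdm : ∀ (k : ℕ) {u x : V}, desc T k u x ⊆ desc T (k + 1) u x := by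
      intro k
      induction k with
      | zero =>
        intro u x
        rw [desc, desc]
        exact Finset.singleton_subset_iff.mpr (Finset.mem_insert_self _ _)
      | succ k ih =>
        intro u x
        rw [desc]
        conv_rhs => rw [desc]
        exact Finset.insert_subset_insert _ (Finset.biUnion_mono fun y _ => ih)
    have hdm' : ∀ {u x : V}, desc T m u x ⊆ desc T n u x := by
      intro u x
      induction hmn with
      | refl => exact Finset.Subset.refl _
      | step _ ih => exact ih.trans (hdm _)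
    rw [hE]
    exact Finset.insert_subset_insert _ (Finset.biUnion_mono fun y _ => hdm')
  refine hasSum_of_isLUB_of_nonneg _ h0 ⟨?_, ?_⟩
  · rintro _ ⟨s, rfl⟩
    obtain ⟨n, hn⟩ := hmono s
    calc ∑ w ∈ s, pp T g v w ≤ ∑ w ∈ E n, pp T g v w :=
          Finset.sum_le_sum_of_subset_of_nonneg hn fun w _ _ => h0 w
      _ ≤ _ := hEmono.ge_of_tendsto hlim' n
  · intro a ha
    exact le_of_tendsto' hlim' fun n => ha ⟨E n, rfl⟩

end Vale.Agent.P161E
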