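import Vale.Agent.P161E.Picard
import Vale.Agent.P161E.TreeSide
import Vale.Agent.P161E.Equi

/-!
# States at a fixed time: measurability, translations, sums over generations
-/

open MeasureTheory Set Filter Topology
open scoped unitInterval ENNReal

namespace Vale.Agent.P161E

open Vale.Agent.P161

universe u

namespace ST

variable {V : Type u} {b : ℕ}

theorem abs_limsup_le {f : ℕ → ℝ} {B : ℝ} (h : ∀ n, |f n| ≤ B) : |limsup f atTop| ≤ B := by
  rw [abs_le]
  have hbdd : IsBoundedUnder (· ≤ ·) atTop f := isBoundedUnder_of ⟨B, fun n => (abs_le.mp (h n)).2⟩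
  have hcob : IsCoboundedUnder (· ≤ ·) atTop f :=
    (isBoundedUnder_of (r := (· ≥ ·)) ⟨-B, fun n => (abs_le.mp (h n)).1⟩).isCoboundedUnder_le
  constructor
  · exact le_limsup_of_frequently_le (Frequently.of_forall fun n => (abs_le.mp (h n)).1) hbdd
  · exact limsup_le_of_le hcob (Eventually.of_forall fun n => (abs_le.mp (h n)).2)

section magnetisations

variable (T : RTree V b) (μ : Measure (V → Bool))

theorem abs_th_le [IsProbabilityMeasure μ] (u x : V) (Y : V → ℝ) : |th T μ u x Y| ≤ 1 :=
  abs_limsup_le fun _ => CovAux.abs_mean_le μ _ _ Y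

theorem abs_Mh_le [IsProbabilityMeasure μ] (v : V) (Y : V → ℝ) : |Mh T μ v Y| ≤ 1 :=
  abs_limsup_le fun _ => CovAux.abs_mean_le μ _ _ Y

theorem measurable_th [IsProbabilityMeasure μ] (u x : V) : Measurable (th T μ u x) := by
  unfold th
  exact Measurable.limsup fun n => measurable_mean μ _ _

theorem measurable_Mh [IsProbabilityMeasure μ] (v : V) : Measurable (Mh T μ v) := by
  unfold Mh
  exact Measurable.limsup fun n => measurable_mean μ _ _

variable {T μ}

theorem half_map (φ : T.G ≃g T.G) (u x : V) (n : ℕ) :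
    T.half (φ u) (φ x) n = (T.half u x n).map φ.toEquiv.toEmbedding := by
  ext w
  obtain ⟨z, rfl⟩ := φ.toEquiv.surjective w
  rw [Finset.mem_map_equiv, Equiv.symm_apply_apply]
  unfold RTree.half
  rw [SplitAux.mem_half, SplitAux.mem_half]
  show T.G.dist (φ z) (φ x) ≤ n ∧ T.G.dist (φ z) (φ x) < T.G.dist (φ z) (φ u) ↔ _
  rw [Dec.dist_iso T.tree.1, Dec.dist_iso T.tree.1]

theorem mem_ball {v w : V} {n : ℕ} : w ∈ T.ball v n ↔ T.G.dist v w ≤ n := by
  unfold RTree.ball
  rw [Set.Finite.mem_toFinset]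
  rfl

theorem ball_map (φ : T.G ≃g T.G) (v : V) (n : ℕ) :
    T.ball (φ v) n = (T.ball v n).map φ.toEquiv.toEmbedding := by
  ext w
  obtain ⟨z, rfl⟩ := φ.toEquiv.surjective w
  rw [Finset.mem_map_equiv, Equiv.symm_apply_apply, mem_ball, mem_ball]
  show T.G.dist (φ v) (φ z) ≤ n ↔ _
  rw [Dec.dist_iso T.tree.1]

theorem th_translate {φ : T.G ≃g T.G} (hg : Measure.map (translate φ.toEquiv) μ = μ) (u x : V)
    (Y : V → ℝ) : th T μ (φ u) (φ x) (translate φ.toEquiv Y) = th T μ u x Y := by
  unfold th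
  congr 1
  funext n
  rw [half_map]
  exact mean_translate hg _ _ _

theorem Mh_translate {φ : T.G ≃g T.G} (hg : Measure.map (translate φ.toEquiv) μ = μ) (v : V)
    (Y : V → ℝ) : Mh T μ (φ v) (translate φ.toEquiv Y) = Mh T μ v Y := by
  unfold Mh
  congr 1
  funext n
  rw [ball_map]
  exact mean_translate hg _ _ _

theorem map_translate {θ : ℝ} (hμ : IsFreeIsing T.G θ μ) (φ : T.G ≃g T.G) :
    Measure.map (translate φ.toEquiv) μ = μ :=
  isFreeIsing_unique T.tree.1 (isFreeIsing_translate hμ φ) hμ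

end magnetisations

/-! ### Sums over generations -/

theorem chiN_map {T : RTree V b} (φ : T.G ≃g T.G) (w : V → V → ℝ) (n : ℕ) (u x : V) :
    T.chiN w n (φ u) (φ x) = T.chiN (fun u x => w (φ u) (φ x)) n u x := by
  induction n generalizing u x with
  | zero => rfl
  | succ n ih =>
    show 1 + T.av (fun x y => w x y * T.chiN w n x y) (φ u) (φ x) =
      1 + T.av (fun x y => w (φ x) (φ y) * T.chiN (fun u x => w (φ u) (φ x)) n x y) u x
    rw [RTree.av_map]
    simp only [ih]

theorem chiY_translate {T : RTree V b} {μ : Measure (V → Bool)} {φ : T.G ≃g T.G}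
    (hg : Measure.map (translate φ.toEquiv) μ = μ) (θ : ℝ) (u x : V) (Y : V → ℝ) :
    chiY T μ θ (φ u) (φ x) (translate φ.toEquiv Y) = chiY T μ θ u x Y := by
  unfold chiY RTree.chi
  simp only [chiN_map, th_translate hg]

theorem one_le_chiN {T : RTree V b} {w : V → V → ℝ} (hw : ∀ u x, 0 ≤ w u x) (n : ℕ) (u x : V) :
    1 ≤ T.chiN w n u x := by
  induction n generalizing u x with
  | zero => exact le_rfl
  | succ n ih =>
    show (1 : ℝ) ≤ 1 + T.av (fun x y => w x y * T.chiN w n x y) u x
    have : 0 ≤ T.av (fun x y => w x y * T.chiN w n x y) u x :=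
      RTree.av_nonneg fun y _ => mul_nonneg (hw x y) (zero_le_one.trans (ih x y))
    linarith

theorem monotone_chiN {T : RTree V b} {w : V → V → ℝ} (hw : ∀ u x, 0 ≤ w u x) (u x : V) :
    Monotone fun n => T.chiN w n u x := by
  have key : ∀ n u x, T.chiN w n u x ≤ T.chiN w (n + 1) u x := by
    intro n
    induction n with
    | zero =>
      intro u x
      exact one_le_chiN hw 1 u x
    | succ n ih =>
      intro u x
      show 1 + T.av (fun x y => w x y * T.chiN w n x y) u x ≤
        1 + T.av (fun x y => w x y * T.chiN w (n + 1) x y) u x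
      have := RTree.av_mono (T := T) (g := fun x y => w x y * T.chiN w n x y)
        (h := fun x y => w x y * T.chiN w (n + 1) x y) (u := u) (x := x)
        fun y _ => mul_le_mul_of_nonneg_left (ih x y) (hw x y)
      linarith
  exact monotone_nat_of_le_succ fun n => key n u x

/-- if the partial sums are bounded they converge to `chi` -/
theorem tendsto_chi {T : RTree V b} {w : V → V → ℝ} (hw : ∀ u x, 0 ≤ w u x) {u x : V}
    (hb : BddAbove (range fun n => T.chiN w n u x)) :
    Tendsto (fun n => T.chiN w n u x) atTop (𝓝 (T.chi w u x)) ∧ 1 ≤ T.chi w u x := by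
  have h1 := tendsto_atTop_ciSup (monotone_chiN hw u x) hb
  have h2 : T.chi w u x = ⨆ n, T.chiN w n u x := h1.limsup_eq
  rw [h2]
  exact ⟨h1, (one_le_chiN hw 0 u x).trans (le_ciSup hb 0)⟩

/-- Cauchy-Schwarz along rays -/
theorem chiN_cs {T : RTree V b} {v w : V → V → ℝ} (hv : ∀ u x, 0 ≤ v u x)
    (hw : ∀ u x, 0 ≤ w u x) (n : ℕ) (u x : V) :
    T.chiN (fun u x => v u x * w u x) n u x ^ 2 ≤
      T.chiN (fun u x => v u x ^ 2) n u x * T.chiN (fun u x => w u x ^ 2) n u x := by
  induction n generalizing u x with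
  | zero =>
    show (1 : ℝ) ^ 2 ≤ 1 * 1
    norm_num
  | succ n ih =>
    show (1 + T.av (fun x y => v x y * w x y * T.chiN (fun u x => v u x * w u x) n x y) u x) ^ 2 ≤
      (1 + T.av (fun x y => v x y ^ 2 * T.chiN (fun u x => v u x ^ 2) n x y) u x) *
      (1 + T.av (fun x y => w x y ^ 2 * T.chiN (fun u x => w u x ^ 2) n x y) u x)
    have hA : ∀ x y, 0 ≤ T.chiN (fun u x => v u x ^ 2) n x y := fun x y =>
      zero_le_one.trans (one_le_chiN (fun _ _ => sq_nonneg _) n x y)
    have hB : ∀ x y, 0 ≤ T.chiN (fun u x => w u x ^ 2) n x y := fun x y =>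
      zero_le_one.trans (one_le_chiN (fun _ _ => sq_nonneg _) n x y)
    have hS : ∀ x y, 0 ≤ T.chiN (fun u x => v u x * w u x) n x y := fun x y =>
      zero_le_one.trans (one_le_chiN (fun u x => mul_nonneg (hv u x) (hw u x)) n x y)
    unfold RTree.av
    generalize hm : (b : ℝ) = m
    have hm0 : 0 ≤ m := by rw [← hm]; exact Nat.cast_nonneg b
    -- the sums
    have cs := Finset.sum_mul_sq_le_sq_mul_sq (T.ch u x)
      (fun y => v x y * Real.sqrt (T.chiN (fun u x => v u x ^ 2) n x y))
      (fun y => w x y * Real.sqrt (T.chiN (fun u x => w u x ^ 2) n x y))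
    have e1 : ∀ y, (v x y * Real.sqrt (T.chiN (fun u x => v u x ^ 2) n x y)) ^ 2 =
        v x y ^ 2 * T.chiN (fun u x => v u x ^ 2) n x y := fun y => by
      rw [mul_pow, Real.sq_sqrt (hA x y)]
    have e2 : ∀ y, (w x y * Real.sqrt (T.chiN (fun u x => w u x ^ 2) n x y)) ^ 2 =
        w x y ^ 2 * T.chiN (fun u x => w u x ^ 2) n x y := fun y => by
      rw [mul_pow, Real.sq_sqrt (hB x y)]
    simp only [e1, e2] at cs
    have e3 : ∑ y ∈ T.ch u x, v x y * w x y * T.chiN (fun u x => v u x * w u x) n x y ≤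
        ∑ y ∈ T.ch u x, v x y * Real.sqrt (T.chiN (fun u x => v u x ^ 2) n x y) *
          (w x y * Real.sqrt (T.chiN (fun u x => w u x ^ 2) n x y)) := by
      refine Finset.sum_le_sum fun y _ => ?_
      have : T.chiN (fun u x => v u x * w u x) n x y ≤
          Real.sqrt (T.chiN (fun u x => v u x ^ 2) n x y) *
          Real.sqrt (T.chiN (fun u x => w u x ^ 2) n x y) := by
        rw [← Real.sqrt_mul (hA x y)]
        exact Real.le_sqrt_of_sq_le (ih x y)
      calc v x y * w x y * T.chiN (fun u x => v u x * w u x) n x y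
          ≤ v x y * w x y * (Real.sqrt (T.chiN (fun u x => v u x ^ 2) n x y) *
          Real.sqrt (T.chiN (fun u x => w u x ^ 2) n x y)) :=
            mul_le_mul_of_nonneg_left this (mul_nonneg (hv x y) (hw x y))
        _ = _ := by ring
    have e4 : 0 ≤ ∑ y ∈ T.ch u x, v x y * w x y * T.chiN (fun u x => v u x * w u x) n x y :=
      Finset.sum_nonneg fun y _ => mul_nonneg (mul_nonneg (hv x y) (hw x y)) (hS x y)
    have e5 : 0 ≤ ∑ y ∈ T.ch u x, v x y ^ 2 * T.chiN (fun u x => v u x ^ 2) n x y :=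
      Finset.sum_nonneg fun y _ => mul_nonneg (sq_nonneg _) (hA x y)
    have e6 : 0 ≤ ∑ y ∈ T.ch u x, w x y ^ 2 * T.chiN (fun u x => w u x ^ 2) n x y :=
      Finset.sum_nonneg fun y _ => mul_nonneg (sq_nonneg _) (hB x y)
    have e7 := (pow_le_pow_left₀ e4 e3 2).trans cs
    generalize ∑ y ∈ T.ch u x, v x y * w x y * T.chiN (fun u x => v u x * w u x) n x y = s at *
    generalize ∑ y ∈ T.ch u x, v x y ^ 2 * T.chiN (fun u x => v u x ^ 2) n x y = p at *
    generalize ∑ y ∈ T.ch u x, w x y ^ 2 * T.chiN (fun u x => w u x ^ 2) n x y = q at *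
    have f1 : (s / m) ^ 2 ≤ (p / m) * (q / m) := by
      rw [div_pow, div_mul_div_comm, ← sq]
      exact div_le_div_of_nonneg_right e7 (sq_nonneg m)
    have g1 : 0 ≤ p / m := div_nonneg e5 hm0
    have g2 : 0 ≤ q / m := div_nonneg e6 hm0
    have f2 : 2 * (s / m) ≤ p / m + q / m := by
      nlinarith [sq_nonneg (p / m - q / m), div_nonneg e4 hm0]
    nlinarith

theorem measurable_chiN {α : Type*} [MeasurableSpace α] {T : RTree V b} {w : V → V → α → ℝ}
    (hw : ∀ u x, Measurable (w u x)) (n : ℕ) (u x : V) :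
    Measurable fun a => T.chiN (fun u x => w u x a) n u x := by
  induction n generalizing u x with
  | zero => exact measurable_const
  | succ n ih =>
    refine measurable_const.add ?_
    unfold RTree.wav RTree.av
    exact (Finset.measurable_fun_sum _ fun y _ => (hw x y).mul (ih x y)).div_const _

theorem measurable_wavN {α : Type*} [MeasurableSpace α] {T : RTree V b} {w g : V → V → α → ℝ}
    (hw : ∀ u x, Measurable (w u x)) (hg : ∀ u x, Measurable (g u x)) (n : ℕ) (u x : V) :
    Measurable fun a => T.wavN (fun u x => w u x a) (fun u x => g u x a) n u x := by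
  induction n generalizing u x with
  | zero => exact hg u x
  | succ n ih =>
    show Measurable fun a => T.wav (fun u x => w u x a)
      (T.wavN (fun u x => w u x a) (fun u x => g u x a) n) u x
    unfold RTree.wav RTree.av
    exact (Finset.measurable_fun_sum _ fun y _ => (hw x y).mul (ih x y)).div_const _

theorem measurable_chi {α : Type*} [MeasurableSpace α] {T : RTree V b} {w : V → V → α → ℝ}
    (hw : ∀ u x, Measurable (w u x)) (u x : V) :
    Measurable fun a => T.chi (fun u x => w u x a) u x := by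
  unfold RTree.chi
  exact Measurable.limsup fun n => measurable_chiN hw n u x

theorem measurable_be' (b : ℕ) (θ : ℝ) : Measurable (be b θ) := by
  unfold be af
  fun_prop

theorem measurable_chiY (T : RTree V b) (μ : Measure (V → Bool)) [IsProbabilityMeasure μ] (θ : ℝ)
    (u x : V) : Measurable (chiY T μ θ u x) :=
  measurable_chi (w := fun u x Y => be b θ (th T μ u x Y) ^ 2)
    (fun u x => ((measurable_be' b θ).comp (measurable_th T μ u x)).pow_const 2) u x

end ST

end Vale.Agent.P161E
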