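import Vale.Agent.P161E.State
import Vale.Agent.P161E.Limit
import Vale.Agent.P161E.Decode

/-!
# The state of the sampler at a fixed time as a family on the space of iid labels
-/

open MeasureTheory Set Filter Topology
open scoped unitInterval ENNReal

namespace Vale.Agent.P161E

open Vale.Agent.P161

universe u

namespace ST

variable {V : Type u} {b : ℕ}

/-- the labels and seeds of all sites from one label per vertex -/
def seedMap (s : I → (ℕ → I) × (ℕ → I)) (W : V → I) : Om V :=
  (fun j => (s (W j.2)).1 j.1, fun j => (s (W j.2)).2 j.1)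

/-- the fields at the time `(k, r)` -/
noncomputable def st (s : I → (ℕ → I) × (ℕ → I)) (X : Om V → ℕ × V → I) (k : ℕ) (r : ℝ)
    (W : V → I) : V → ℝ :=
  fld (seedMap s W).1 (X (seedMap s W)) k r

theorem seedMap_translate (s : I → (ℕ → I) × (ℕ → I)) (g : V ≃ V) (W : V → I) :
    seedMap s (translate g W) = trO g (seedMap s W) := rfl

theorem measurable_seedMap {s : I → (ℕ → I) × (ℕ → I)} (hs : Measurable s) :
    Measurable (seedMap s : (V → I) → Om V) := by
  unfold seedMap
  refine Measurable.prodMk ?_ ?_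
  · rw [measurable_pi_iff]
    intro j
    exact (measurable_pi_apply j.1).comp
      (measurable_fst.comp (hs.comp (measurable_pi_apply j.2)))
  · rw [measurable_pi_iff]
    intro j
    exact (measurable_pi_apply j.1).comp
      (measurable_snd.comp (hs.comp (measurable_pi_apply j.2)))

section st

variable {s : I → (ℕ → I) × (ℕ → I)} (hs : Measurable s)
  (hl : Measure.map (seedMap s) (iid V) = PO V) {μ : Measure (V → Bool)}
  {X : Om V → ℕ × V → I} (hX : IsLim μ X)

include hs hX in
theorem measurable_st (k : ℕ) (r : ℝ) : Measurable (st s X k r) :=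
  measurable_fld (measurable_fst.comp (measurable_seedMap hs))
    (hX.meas.comp (measurable_seedMap hs)) measurable_const k

theorem measurable_fldq (k : ℕ) (r : ℝ) : Measurable (fun q : Om V => fld q.1 q.2 k r) :=
  measurable_fld measurable_fst measurable_snd measurable_const k

include hs hl hX in
theorem st_law [Countable V] [IsProbabilityMeasure μ] (k : ℕ) (r : ℝ) :
    Measure.map (st s X k r) (iid V) = Measure.map (fun q : Om V => fld q.1 q.2 k r) (PL μ) := by
  rw [← isLim_law hX, ← hl, Measure.map_map (measurable_fst.prodMk hX.meas) (measurable_seedMap hs),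
    Measure.map_map (measurable_fldq k r)
      ((measurable_fst.prodMk hX.meas).comp (measurable_seedMap hs))]
  rfl

include hs hl hX in
theorem st_equi [Countable V] [IsProbabilityMeasure μ] {g : V ≃ V}
    (hg : Measure.map (translate g) μ = μ) (k : ℕ) (r : ℝ) :
    ∀ᵐ W ∂(iid V), st s X k r (translate g W) = translate g (st s X k r W) := by
  have h1 := isLim_equi hX hg
  rw [← hl] at h1
  have h2 := ae_of_ae_map (measurable_seedMap hs).aemeasurable h1
  filter_upwards [h2] with W hW
  unfold st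
  rw [seedMap_translate, hW]
  exact fld_translate g _ _ k r

/-- integrals of functions of the state -/
theorem integral_st {Q : Measure (V → ℝ)} {f : (V → I) → V → ℝ} (hf : Measurable f)
    (hQ : Measure.map f (iid V) = Q) {F : (V → ℝ) → ℝ} (hF : Measurable F) :
    ∫ W, F (f W) ∂(iid V) = ∫ Y, F Y ∂Q := by
  rw [← hQ, integral_map hf.aemeasurable hF.aestronglyMeasurable]

theorem integrable_st {Q : Measure (V → ℝ)} {f : (V → I) → V → ℝ} (hf : Measurable f)
    (hQ : Measure.map f (iid V) = Q) {F : (V → ℝ) → ℝ} (hF : Measurable F)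
    (h : Integrable F Q) : Integrable (fun W => F (f W)) (iid V) := by
  rw [← hQ] at h
  exact (integrable_map_measure hF.aestronglyMeasurable hf.aemeasurable).mp h

theorem real_st {Q : Measure (V → ℝ)} {f : (V → I) → V → ℝ} (hf : Measurable f)
    (hQ : Measure.map f (iid V) = Q) {A : Set (V → ℝ)} (hA : MeasurableSet A) :
    (iid V).real {W | f W ∈ A} = Q.real A := by
  rw [← hQ, map_measureReal_apply hf hA]
  rfl

end st

/-- the cavity magnetisations at the time `(k, r)` -/
noncomputable def tt (T : RTree V b) (μ : Measure (V → Bool)) (s : I → (ℕ → I) × (ℕ → I))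
    (X : Om V → ℕ × V → I) (k : ℕ) (r : ℝ) : V → V → (V → I) → ℝ :=
  fun u x W => th T μ u x (st s X k r W)

/-- the magnetisations at the time `(k, r)` -/
noncomputable def mm (T : RTree V b) (μ : Measure (V → Bool)) (s : I → (ℕ → I) × (ℕ → I))
    (X : Om V → ℕ × V → I) (k : ℕ) (r : ℝ) : V → (V → I) → ℝ :=
  fun v W => Mh T μ v (st s X k r W)

/-- the sums over all generations at the time `(k, r)` -/
noncomputable def cc (T : RTree V b) (μ : Measure (V → Bool)) (θ : ℝ)
    (s : I → (ℕ → I) × (ℕ → I))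
    (X : Om V → ℕ × V → I) (k : ℕ) (r : ℝ) : V → V → (V → I) → ℝ :=
  fun u x W => max 1 (chiY T μ θ u x (st s X k r W))

/-- the conclusion of `single` -/
def SC (T : RTree V b) (K c M θ ρ : ℝ) (μ : Measure (V → Bool)) (Q : Measure (V → ℝ)) : Prop :=
    (∀ u x, T.G.Adj u x → ∀ᵐ Y ∂Q, BddAbove (range fun n =>
      T.chiN (fun u x => be b θ (th T μ u x Y) ^ 2) n u x)) ∧
    (∀ u x, T.G.Adj u x → Integrable (fun Y => chiY T μ θ u x Y ^ 4) Q ∧
      ∫ Y, chiY T μ θ u x Y ^ 4 ∂Q ≤ K / ρ ^ 4) ∧
    (∀ u x, T.G.Adj u x → ∀ p : ℝ, 2 ≤ p →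
      Q.real {Y | K * (1 / ρ + Real.log p) < chiY T μ θ u x Y} ≤ K * Real.exp (-p)) ∧
    (∀ u x, T.G.Adj u x → ∀ p : ℝ, 1 ≤ p →
      Q.real {Y | K * p * ρ < th T μ u x Y ^ 2} ≤ K * Real.exp (-p)) ∧
    (∀ (n : ℕ) (u x : V), T.G.Adj u x → ∫ Y, T.wavN
      (fun u x => Real.exp (-(M / ρ) * (1 - be b θ (th T μ u x Y)))) (fun _ _ => 1) n u x ∂Q ≤
        K * Real.exp (-(c * n))) ∧
    (∀ (n : ℕ) (u x : V), T.G.Adj u x → ∫ Y, T.wavN
      (fun u x => be b θ (th T μ u x Y) ^ 2) (fun _ _ => 1) n u x ∂Q ≤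
        K * Real.exp (-(c * ρ * n))) ∧
    (∀ u x, T.G.Adj u x → ∫ Y, th T μ u x Y ^ 2 ∂Q ≤ K * ρ) ∧
    (∀ v, ∫ Y, Mh T μ v Y ^ 2 ∂Q ≤ K * ρ)

section rep

variable {T : RTree V b} {s : I → (ℕ → I) × (ℕ → I)} (hs : Measurable s)
  (hl : Measure.map (seedMap s) (iid V) = PO V) {θ : ℝ} {μ : Measure (V → Bool)}
  (hμ : IsFreeIsing T.G θ μ) {X : Om V → ℕ × V → I} (hX : IsLim μ X) {k : ℕ} {r : ℝ}

include hs hl hμ hX

theorem equi_tt : Equi T (tt T μ s X k r) := by
  have := T.countable
  have := hμ.prob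
  refine ⟨fun u x => (measurable_th T μ u x).comp (measurable_st hs hX k r), fun φ u x => ?_⟩
  filter_upwards [st_equi hs hl hX (map_translate hμ φ) k r] with W hW
  unfold tt
  rw [hW, th_translate (map_translate hμ φ)]

theorem equi_cc : Equi T (cc T μ θ s X k r) := by
  have := T.countable
  have := hμ.prob
  refine ⟨fun u x => measurable_const.max
    ((measurable_chiY T μ θ u x).comp (measurable_st hs hX k r)), fun φ u x => ?_⟩
  filter_upwards [st_equi hs hl hX (map_translate hμ φ) k r] with W hW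
  unfold cc
  rw [hW, chiY_translate (map_translate hμ φ)]

theorem equi_mm (φ : T.G ≃g T.G) (v : V) :
    ∀ᵐ W ∂(iid V), mm T μ s X k r (φ v) (translate φ.toEquiv W) = mm T μ s X k r v W := by
  have := T.countable
  have := hμ.prob
  filter_upwards [st_equi hs hl hX (map_translate hμ φ) k r] with W hW
  unfold mm
  rw [hW, Mh_translate (map_translate hμ φ)]

/-- the partial sums converge, and `cc` is `chiY` -/
theorem lim_cc {K c M ρ : ℝ} {Q : Measure (V → ℝ)}
    (hQ : Measure.map (st s X k r) (iid V) = Q) (h : SC T K c M θ ρ μ Q) {u x : V}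
    (hux : T.G.Adj u x) : ∀ᵐ W ∂(iid V),
      Tendsto (fun n => T.chiN (fun u x => be b θ (tt T μ s X k r u x W) ^ 2) n u x) atTop
        (𝓝 (cc T μ θ s X k r u x W)) ∧
      cc T μ θ s X k r u x W = chiY T μ θ u x (st s X k r W) := by
  have h1 := h.1 u x hux
  rw [← hQ] at h1
  have h2 := ae_of_ae_map (measurable_st hs hX k r).aemeasurable h1
  filter_upwards [h2] with W hW
  have h3 := tendsto_chi (fun u x => sq_nonneg _) hW
  have h4 : cc T μ θ s X k r u x W = chiY T μ θ u x (st s X k r W) := max_eq_right h3.2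
  rw [h4]
  exact ⟨h3.1, rfl⟩

theorem rep {K c M ρ : ℝ} {Q : Measure (V → ℝ)}
    (hQ : Measure.map (st s X k r) (iid V) = Q) (h : SC T K c M θ ρ μ Q)
    (hθ : 0 ≤ θ) (h1 : b * θ ^ 2 ≤ 1) (h2 : 1 / 2 ≤ b * θ ^ 2) :
    Rep T K c M ρ θ (tt T μ s X k r) (cc T μ θ s X k r) := by
  have := T.countable
  have hp := hμ.prob
  have mst := measurable_st hs hX k r
  have mth : ∀ u x, Measurable (th T μ u x) := measurable_th T μ
  have mbe : Measurable (be b θ) := measurable_be' b θ
  refine ⟨hθ, h1, h2, equi_tt hs hl hμ hX, equi_cc hs hl hμ hX,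
    fun u x W => abs_th_le T μ u x _, fun u x W => le_max_left _ _,
    fun u x hux => (lim_cc hs hl hμ hX hQ h hux).mono fun W hW => hW.1, ?_, ?_, ?_, ?_, ?_, ?_⟩
  · intro u x hux
    have i1 := integrable_st mst hQ ((measurable_chiY T μ θ u x).pow_const 4) (h.2.1 u x hux).1
    refine i1.congr ?_
    filter_upwards [lim_cc hs hl hμ hX hQ h hux] with W hW
    rw [hW.2]
  · intro u x hux
    have e1 := integral_st mst hQ ((measurable_chiY T μ θ u x).pow_const 4)
    have e2 : ∫ W, cc T μ θ s X k r u x W ^ 4 ∂(iid V) =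
        ∫ W, chiY T μ θ u x (st s X k r W) ^ 4 ∂(iid V) := by
      refine integral_congr_ae ?_
      filter_upwards [lim_cc hs hl hμ hX hQ h hux] with W hW
      rw [hW.2]
    rw [e2, e1]
    exact (h.2.1 u x hux).2
  · intro u x hux p hp
    have e1 := real_st mst hQ (A := {Y | K * (1 / ρ + Real.log p) < chiY T μ θ u x Y})
      (measurableSet_lt measurable_const (measurable_chiY T μ θ u x))
    have e2 : (iid V).real {W | K * (1 / ρ + Real.log p) < cc T μ θ s X k r u x W} =
        (iid V).real {W | st s X k r W ∈ {Y | K * (1 / ρ + Real.log p) < chiY T μ θ u x Y}} := by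
      refine measureReal_congr ?_
      filter_upwards [lim_cc hs hl hμ hX hQ h hux] with W hW
      refine propext ?_
      show K * (1 / ρ + Real.log p) < cc T μ θ s X k r u x W ↔
        K * (1 / ρ + Real.log p) < chiY T μ θ u x (st s X k r W)
      rw [hW.2]
    rw [e2, e1]
    exact h.2.2.1 u x hux p hp
  · intro u x hux p hp
    have e1 := real_st mst hQ (A := {Y | K * p * ρ < th T μ u x Y ^ 2})
      (measurableSet_lt measurable_const ((mth u x).pow_const 2))
    exact e1.le.trans (h.2.2.2.1 u x hux p hp)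
  · intro n u x hux
    have e1 := integral_st mst hQ (F := fun Y => T.wavN
      (fun u x => Real.exp (-(M / ρ) * (1 - be b θ (th T μ u x Y)))) (fun _ _ => 1) n u x)
      (measurable_wavN (w := fun u x Y => Real.exp (-(M / ρ) * (1 - be b θ (th T μ u x Y))))
        (g := fun _ _ _ => 1)
        (fun u x => Real.measurable_exp.comp
          ((measurable_const.sub (mbe.comp (mth u x))).const_mul _))
        (fun _ _ => measurable_const) n u x)
    exact e1.le.trans (h.2.2.2.2.1 n u x hux)
  · intro n u x hux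
    have e1 := integral_st mst hQ (F := fun Y => T.wavN
      (fun u x => be b θ (th T μ u x Y) ^ 2) (fun _ _ => 1) n u x)
      (measurable_wavN (w := fun u x Y => be b θ (th T μ u x Y) ^ 2)
        (g := fun _ _ _ => 1) (fun u x => (mbe.comp (mth u x)).pow_const 2)
        (fun _ _ => measurable_const) n u x)
    exact e1.le.trans (h.2.2.2.2.2.1 n u x hux)

end rep

/-! ### The mixed sums -/

/-- the mixed sum of two replicas -/
noncomputable def ss (T : RTree V b) (θ θ' : ℝ) (t t' χ χ' : V → V → (V → I) → ℝ) :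
    V → V → (V → I) → ℝ := fun u x W =>
  max 0 (min (T.chi (fun u x => be b θ (t u x W) * be b θ' (t' u x W)) u x)
    ((χ u x W + χ' u x W) / 2))

theorem ss_spec {T : RTree V b} {θ θ' : ℝ} {t t' χ χ' : V → V → (V → I) → ℝ}
    (ht : Equi T t) (ht' : Equi T t') (hχe : Equi T χ) (hχe' : Equi T χ')
    (h1 : ∀ u x W, 0 ≤ be b θ (t u x W)) (h1' : ∀ u x W, 0 ≤ be b θ' (t' u x W))
    (hχ : IsChi T (fun u x W => be b θ (t u x W) ^ 2) χ)
    (hχ' : IsChi T (fun u x W => be b θ' (t' u x W) ^ 2) χ')
    (h2 : ∀ u x W, 1 ≤ χ u x W) (h2' : ∀ u x W, 1 ≤ χ' u x W) :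
    Equi T (ss T θ θ' t t' χ χ') ∧
    (∀ u x W, 0 ≤ ss T θ θ' t t' χ χ' u x W ∧
      2 * ss T θ θ' t t' χ χ' u x W ≤ χ u x W + χ' u x W) ∧
    IsChi T (fun u x W => be b θ (t u x W) * be b θ' (t' u x W)) (ss T θ θ' t t' χ χ') := by
  have hV := T.countable
  refine ⟨⟨fun u x => ?_, fun φ u x => ?_⟩, fun u x W => ⟨le_max_left _ _, ?_⟩, fun u x hux => ?_⟩
  · have m1 := measurable_chi (T := T) (w := fun u x W => be b θ (t u x W) * be b θ' (t' u x W))
      (fun u x => ((measurable_be' b θ).comp (ht.meas u x)).mul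
        ((measurable_be' b θ').comp (ht'.meas u x))) u x
    exact measurable_const.max (m1.min (((hχe.meas u x).add (hχe'.meas u x)).div_const 2))
  · have e1 : ∀ᵐ W ∂(iid V), ∀ u x, t (φ u) (φ x) (translate φ.toEquiv W) = t u x W :=
      ae_all_iff.mpr fun u => ae_all_iff.mpr fun x => ht.equi φ u x
    have e2 : ∀ᵐ W ∂(iid V), ∀ u x, t' (φ u) (φ x) (translate φ.toEquiv W) = t' u x W :=
      ae_all_iff.mpr fun u => ae_all_iff.mpr fun x => ht'.equi φ u x
    filter_upwards [e1, e2, hχe.equi φ u x, hχe'.equi φ u x] with W w1 w2 w3 w4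
    unfold ss RTree.chi
    simp only [chiN_map, w1, w2, w3, w4]
  · unfold ss
    have : (0 : ℝ) ≤ (χ u x W + χ' u x W) / 2 := by linarith [h2 u x W, h2' u x W]
    have h3 : max 0 (min (T.chi (fun u x => be b θ (t u x W) * be b θ' (t' u x W)) u x)
        ((χ u x W + χ' u x W) / 2)) ≤ (χ u x W + χ' u x W) / 2 :=
      max_le this (min_le_right _ _)
    linarith
  · filter_upwards [hχ u x hux, hχ' u x hux] with W w1 w2
    have mono := monotone_chiN (T := T) (w := fun u x => be b θ (t u x W) * be b θ' (t' u x W))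
      (fun u x => mul_nonneg (h1 u x W) (h1' u x W)) u x
    have m1 := monotone_chiN (T := T) (w := fun u x => be b θ (t u x W) ^ 2)
      (fun u x => sq_nonneg _) u x
    have m2 := monotone_chiN (T := T) (w := fun u x => be b θ' (t' u x W) ^ 2)
      (fun u x => sq_nonneg _) u x
    have b1 : ∀ n, T.chiN (fun u x => be b θ (t u x W) ^ 2) n u x ≤ χ u x W :=
      fun n => m1.ge_of_tendsto w1 n
    have b2 : ∀ n, T.chiN (fun u x => be b θ' (t' u x W) ^ 2) n u x ≤ χ' u x W :=
      fun n => m2.ge_of_tendsto w2 n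
    have hle : ∀ n, T.chiN (fun u x => be b θ (t u x W) * be b θ' (t' u x W)) n u x ≤
        (χ u x W + χ' u x W) / 2 := by
      intro n
      have cs := chiN_cs (T := T) (v := fun u x => be b θ (t u x W))
        (w := fun u x => be b θ' (t' u x W)) (fun u x => h1 u x W) (fun u x => h1' u x W) n u x
      have c1 := one_le_chiN (T := T) (w := fun u x => be b θ (t u x W) * be b θ' (t' u x W))
        (fun u x => mul_nonneg (h1 u x W) (h1' u x W)) n u x
      have c2 := one_le_chiN (T := T) (w := fun u x => be b θ (t u x W) ^ 2)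
        (fun u x => sq_nonneg _) n u x
      have c3 := one_le_chiN (T := T) (w := fun u x => be b θ' (t' u x W) ^ 2)
        (fun u x => sq_nonneg _) n u x
      have d1 := b1 n
      have d2 := b2 n
      generalize T.chiN (fun u x => be b θ (t u x W) * be b θ' (t' u x W)) n u x = S at *
      generalize T.chiN (fun u x => be b θ (t u x W) ^ 2) n u x = A at *
      generalize T.chiN (fun u x => be b θ' (t' u x W) ^ 2) n u x = B at *
      have : S ≤ (A + B) / 2 := by nlinarith [sq_nonneg (A - B)]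
      linarith
    have h3 := tendsto_chi (T := T) (w := fun u x => be b θ (t u x W) * be b θ' (t' u x W))
      (fun u x => mul_nonneg (h1 u x W) (h1' u x W)) (u := u) (x := x)
      ⟨(χ u x W + χ' u x W) / 2, by rintro _ ⟨n, rfl⟩; exact hle n⟩
    have h4 : T.chi (fun u x => be b θ (t u x W) * be b θ' (t' u x W)) u x ≤
        (χ u x W + χ' u x W) / 2 := le_of_tendsto' h3.1 hle
    have h5 : ss T θ θ' t t' χ χ' u x W =
        T.chi (fun u x => be b θ (t u x W) * be b θ' (t' u x W)) u x := by
      unfold ss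
      rw [min_eq_left h4, max_eq_right (by linarith [h3.2])]
    rw [h5]
    exact h3.1

end ST

end Vale.Agent.P161E
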