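import Vale.Agent.P161E.StateRep
import Vale.Agent.P161E.Planted
import Vale.Agent.P161E.Single
import Vale.Agent.P161E.Ident
import Vale.Agent.P161E.Rate
import Vale.Agent.P161E.Grow
import Vale.Agent.P161E.Pair
import Vale.Agent.P161E.Alg

/-!
# The growth inequality: auxiliary estimates
-/

open MeasureTheory Set Filter Topology
open scoped unitInterval ENNReal

namespace Vale.Agent.P161E

open Vale.Agent.P161

universe u

namespace TI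

theorem trunc {Ω : Type*} [MeasurableSpace Ω] {P : Measure Ω} [IsProbabilityMeasure P]
    {K p L B : ℝ} (hK : 1 ≤ K) (hB : 0 < B) (hL : 0 ≤ L)
    {d χ : Ω → ℝ} (md : Measurable d) (mχ : Measurable χ) (d0 : ∀ ω, 0 ≤ d ω)
    (d4 : ∀ ω, d ω ≤ 4) (χ0 : ∀ ω, 0 ≤ χ ω)
    (iχ : Integrable (fun ω => χ ω ^ 2) P) (bχ : ∫ ω, χ ω ^ 2 ∂P ≤ B ^ 2)
    (tail : P.real {ω | L < χ ω} ≤ K * Real.exp (-p)) :
    Integrable (fun ω => d ω * χ ω) P ∧
      ∫ ω, d ω * χ ω ∂P ≤ L * ∫ ω, d ω ∂P + 4 * K * Real.exp (-p / 2) * B := by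
  set s := K * Real.exp (-p / 2) with hs
  have hs0 : 0 < s := mul_pos (by linarith) (Real.exp_pos _)
  set A : Set Ω := {ω | L < χ ω} with hA
  have mA : MeasurableSet A := measurableSet_lt measurable_const mχ
  have hA' : P.real A ≤ s ^ 2 := by
    have e : s ^ 2 = K ^ 2 * Real.exp (-p) := by
      rw [hs, mul_pow, ← Real.exp_nat_mul]
      congr 2
      push_cast
      ring
    rw [e]
    have : K ≤ K ^ 2 := by nlinarith
    exact tail.trans (mul_le_mul_of_nonneg_right this (Real.exp_pos _).le)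
  set l := B / s with hl
  have hl0 : 0 < l := by positivity
  have id : Integrable d P := by
    refine Integrable.of_bound (C := 4) md.aestronglyMeasurable (ae_of_all _ fun ω => ?_)
    rw [Real.norm_eq_abs, abs_of_nonneg (d0 ω)]
    exact d4 ω
  have hpt : ∀ ω, d ω * χ ω ≤ L * d ω +
      (2 * l * A.indicator (fun _ => (1 : ℝ)) ω + 2 / l * χ ω ^ 2) := by
    intro ω
    have hsecond : 0 ≤ 2 / l * χ ω ^ 2 := by positivity
    have hfirst : 0 ≤ L * d ω := mul_nonneg hL (d0 ω)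
    by_cases h : ω ∈ A
    · rw [indicator_of_mem h, mul_one]
      have h1 : 4 * χ ω ≤ 2 * l + 2 / l * χ ω ^ 2 := by
        have : 0 ≤ 2 / l * (l - χ ω) ^ 2 := by positivity
        have e : 2 / l * (l - χ ω) ^ 2 = 2 * l - 4 * χ ω + 2 / l * χ ω ^ 2 := by
          field_simp
          ring
        linarith
      have h2 : d ω * χ ω ≤ 4 * χ ω := mul_le_mul_of_nonneg_right (d4 ω) (χ0 ω)
      linarith
    · rw [indicator_of_notMem h, mul_zero, zero_add]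
      have g : χ ω ≤ L := not_lt.mp h
      have := mul_le_mul_of_nonneg_left g (d0 ω)
      linarith
  have iR1 : Integrable (fun ω => L * d ω) P := id.const_mul _
  have iR2 : Integrable (fun ω => 2 * l * A.indicator (fun _ => (1 : ℝ)) ω) P :=
    ((integrable_const (1 : ℝ)).indicator mA).const_mul _
  have iR3 : Integrable (fun ω => 2 / l * χ ω ^ 2) P := iχ.const_mul _
  have iR23 : Integrable (fun ω => 2 * l * A.indicator (fun _ => (1 : ℝ)) ω +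
      2 / l * χ ω ^ 2) P := iR2.add iR3
  have iR := iR1.add iR23
  have iL : Integrable (fun ω => d ω * χ ω) P := by
    refine iR.mono' (by fun_prop) (ae_of_all _ fun ω => ?_)
    rw [Real.norm_eq_abs, abs_of_nonneg (mul_nonneg (d0 ω) (χ0 ω))]
    exact hpt ω
  have e1 : ∫ ω, (L * d ω + (2 * l * A.indicator (fun _ => (1 : ℝ)) ω + 2 / l * χ ω ^ 2)) ∂P =
      L * ∫ ω, d ω ∂P + (2 * l * P.real A + 2 / l * ∫ ω, χ ω ^ 2 ∂P) := by
    rw [integral_add iR1 iR23, integral_add iR2 iR3, integral_const_mul,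
      integral_const_mul, integral_const_mul, integral_indicator mA]
    simp
  refine ⟨iL, (integral_mono iL iR hpt).trans (e1.le.trans ?_)⟩
  have e2 : 2 * l * P.real A ≤ 2 * (s * B) := by
    calc 2 * l * P.real A ≤ 2 * l * s ^ 2 := by gcongr
      _ = 2 * (s * B) := by rw [hl]; field_simp
  have e3 : 2 / l * ∫ ω, χ ω ^ 2 ∂P ≤ 2 * (s * B) := by
    calc 2 / l * ∫ ω, χ ω ^ 2 ∂P ≤ 2 / l * B ^ 2 := by gcongr
      _ = 2 * (s * B) := by rw [hl]; field_simp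
  have e4 : 4 * K * Real.exp (-p / 2) * B = 4 * (s * B) := by rw [hs]; ring
  rw [e4]
  linarith

theorem trunc_sum {Ω ι : Type*} [MeasurableSpace Ω] {P : Measure Ω} [IsProbabilityMeasure P]
    {K p L B : ℝ} (hK : 1 ≤ K) (hB : 0 < B) (hL : 0 ≤ L) (N : Finset ι)
    {d : Ω → ℝ} {χ : ι → Ω → ℝ} (md : Measurable d) (mχ : ∀ y, Measurable (χ y))
    (d0 : ∀ ω, 0 ≤ d ω) (d4 : ∀ ω, d ω ≤ 4) (χ0 : ∀ y ω, 0 ≤ χ y ω)
    (iχ : ∀ y ∈ N, Integrable (fun ω => χ y ω ^ 2) P) (bχ : ∀ y ∈ N, ∫ ω, χ y ω ^ 2 ∂P ≤ B ^ 2)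
    (tail : ∀ y ∈ N, P.real {ω | L < χ y ω} ≤ K * Real.exp (-p)) :
    Integrable (fun ω => d ω * (1 + ∑ y ∈ N, χ y ω)) P ∧
      ∫ ω, d ω * (1 + ∑ y ∈ N, χ y ω) ∂P ≤ ∫ ω, d ω ∂P +
        N.card * (L * ∫ ω, d ω ∂P + 4 * K * Real.exp (-p / 2) * B) := by
  have id : Integrable d P := by
    refine Integrable.of_bound (C := 4) md.aestronglyMeasurable (ae_of_all _ fun ω => ?_)
    rw [Real.norm_eq_abs, abs_of_nonneg (d0 ω)]
    exact d4 ω
  have e : ∀ ω, d ω * (1 + ∑ y ∈ N, χ y ω) = d ω + ∑ y ∈ N, d ω * χ y ω := by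
    intro ω
    rw [mul_add, mul_one, Finset.mul_sum]
  simp only [e]
  have ht := fun y (hy : y ∈ N) => trunc hK hB hL md (mχ y) d0 d4 (χ0 y) (iχ y hy) (bχ y hy)
    (tail y hy)
  have is : Integrable (fun ω => ∑ y ∈ N, d ω * χ y ω) P :=
    integrable_finsetSum _ fun y hy => (ht y hy).1
  refine ⟨id.add is, ?_⟩
  rw [integral_add id is, integral_finsetSum _ fun y hy => (ht y hy).1]
  have := Finset.sum_le_card_nsmul N _ _ fun y hy => (ht y hy).2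
  rw [nsmul_eq_mul] at this
  linarith

/-- second moment from the fourth -/
theorem second {Ω : Type*} [MeasurableSpace Ω] {P : Measure Ω} [IsProbabilityMeasure P]
    {K ρ : ℝ} (hK : 1 ≤ K) (hρ : 0 < ρ) {χ : Ω → ℝ} (mχ : Measurable χ)
    (iχ : Integrable (fun ω => χ ω ^ 4) P) (bχ : ∫ ω, χ ω ^ 4 ∂P ≤ K / ρ ^ 4) :
    Integrable (fun ω => χ ω ^ 2) P ∧ ∫ ω, χ ω ^ 2 ∂P ≤ (2 * K / ρ) ^ 2 := by
  have h := (PR.moments (P := P) hK hρ mχ (χ' := fun _ => (0 : ℝ)) measurable_const iχ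
    (by simp) bχ (by
      simp
      positivity)).1
  simpa using h

/-- the square of a difference of two quotients -/
theorem sq3 {a x y z K : ℝ} (hK : 0 ≤ K) (h : |a| ≤ K * (|x| + |y| + |z|)) :
    a ^ 2 ≤ 3 * K ^ 2 * (x ^ 2 + y ^ 2 + z ^ 2) := by
  have h1 : a ^ 2 ≤ (K * (|x| + |y| + |z|)) ^ 2 := by
    rw [← sq_abs a]
    exact pow_le_pow_left₀ (abs_nonneg a) h 2
  have h2 : (|x| + |y| + |z|) ^ 2 ≤ 3 * (x ^ 2 + y ^ 2 + z ^ 2) := by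
    rw [← sq_abs x, ← sq_abs y, ← sq_abs z]
    nlinarith [sq_nonneg (|x| - |y|), sq_nonneg (|x| - |z|), sq_nonneg (|y| - |z|)]
  calc a ^ 2 ≤ (K * (|x| + |y| + |z|)) ^ 2 := h1
    _ = K ^ 2 * (|x| + |y| + |z|) ^ 2 := by ring
    _ ≤ K ^ 2 * (3 * (x ^ 2 + y ^ 2 + z ^ 2)) := mul_le_mul_of_nonneg_left h2 (sq_nonneg K)
    _ = _ := by ring

theorem kp_num2 {K0 K1 K2 K3 m L D R E Θ Z A B : ℝ} (hK0 : 1 ≤ K0) (hK1 : 0 < K1) (hK2 : 0 < K2)
    (hm : 0 ≤ m) (hLD : 0 ≤ L * D) (hRE : 0 ≤ R * E) (hRΘ : 0 ≤ R * Θ) (hRZ : 0 ≤ R * Z)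
    (a5 : A ≤ 6 * K1 * K3 ^ 2 * (L * D) + 3 * K1 * K3 ^ 2 * (R * Θ) + K1 * R * (E + Θ + Z))
    (a6 : B ≤ (1 + m * K0) * (L * D) + 8 * m * K0 ^ 2 * (R * E)) :
    K2 * A + K2 * B ≤
      (K2 * (6 * K1 * K3 ^ 2 + 1 + m * K0) + K2 * (3 * K1 * K3 ^ 2 + K1 + 8 * m * K0 ^ 2) + 1) *
        L * D +
      (K2 * (6 * K1 * K3 ^ 2 + 1 + m * K0) + K2 * (3 * K1 * K3 ^ 2 + K1 + 8 * m * K0 ^ 2) + 1) *
        R * (E + Θ + Z) := by
  have hc1 : 0 ≤ K2 * (3 * K1 * K3 ^ 2 + K1 + 8 * m * K0 ^ 2) + 1 := by positivity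
  have hc2 : 0 ≤ K2 * (6 * K1 * K3 ^ 2 + 1 + m * K0) + K2 * (3 * K1 * K3 ^ 2) + 1 := by positivity
  have hc3 : 0 ≤ K2 * (6 * K1 * K3 ^ 2 + 1 + m * K0) + K2 * (8 * m * K0 ^ 2) + 1 := by positivity
  have hc4 : 0 ≤ K2 * (6 * K1 * K3 ^ 2 + 1 + m * K0) + K2 * (3 * K1 * K3 ^ 2 + 8 * m * K0 ^ 2) +
      1 := by positivity
  have c1 := mul_nonneg hc1 hLD
  have c2 := mul_nonneg hc2 hRE
  have c3 := mul_nonneg hc3 hRΘ
  have c4 := mul_nonneg hc4 hRZ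
  calc K2 * A + K2 * B
      ≤ K2 * (6 * K1 * K3 ^ 2 * (L * D) + 3 * K1 * K3 ^ 2 * (R * Θ) +
      K1 * R * (E + Θ + Z)) + K2 * ((1 + m * K0) * (L * D) + 8 * m * K0 ^ 2 * (R * E)) :=
        add_le_add (mul_le_mul_of_nonneg_left a5 hK2.le) (mul_le_mul_of_nonneg_left a6 hK2.le)
    _ ≤ K2 * (6 * K1 * K3 ^ 2 * (L * D) + 3 * K1 * K3 ^ 2 * (R * Θ) +
      K1 * R * (E + Θ + Z)) + K2 * ((1 + m * K0) * (L * D) + 8 * m * K0 ^ 2 * (R * E)) +
      ((K2 * (3 * K1 * K3 ^ 2 + K1 + 8 * m * K0 ^ 2) + 1) * (L * D) +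
      (K2 * (6 * K1 * K3 ^ 2 + 1 + m * K0) + K2 * (3 * K1 * K3 ^ 2) + 1) * (R * E) +
      (K2 * (6 * K1 * K3 ^ 2 + 1 + m * K0) + K2 * (8 * m * K0 ^ 2) + 1) * (R * Θ) +
      (K2 * (6 * K1 * K3 ^ 2 + 1 + m * K0) + K2 * (3 * K1 * K3 ^ 2 + 8 * m * K0 ^ 2) +
      1) * (R * Z)) :=
        le_add_of_nonneg_right (add_nonneg (add_nonneg (add_nonneg c1 c2) c3) c4)
    _ = _ := by ring

theorem kp_num0 {p ρ : ℝ} (hρ : 0 < ρ) (hρ1 : ρ ≤ 1 / 2) (hp : 2 ≤ p) :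
    p * (1 + Real.log p) ≤ p ^ 2 / ρ ^ 3 ∧ ρ * (1 / ρ + Real.log p) ≤ p * (1 + Real.log p) ∧
      1 ≤ p * (1 + Real.log p) := by
  have hlog : 0 ≤ Real.log p := Real.log_nonneg (by linarith)
  have hlogp : Real.log p ≤ p - 1 := Real.log_le_sub_one_of_pos (by linarith)
  have hL1 : 1 + Real.log p ≤ p * (1 + Real.log p) :=
    le_mul_of_one_le_left (by linarith) (by linarith)
  refine ⟨?_, ?_, by linarith⟩
  · have h1 : p * (1 + Real.log p) ≤ p ^ 2 := by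
      rw [sq]
      exact mul_le_mul_of_nonneg_left (by linarith) (by linarith)
    have h2 : p ^ 2 ≤ p ^ 2 / ρ ^ 3 := by
      rw [le_div_iff₀ (by positivity)]
      exact mul_le_of_le_one_right (sq_nonneg p) (pow_le_one₀ hρ.le (by linarith))
    linarith
  · rw [mul_add, mul_one_div_cancel hρ.ne']
    have : ρ * Real.log p ≤ 1 * Real.log p := mul_le_mul_of_nonneg_right (by linarith) hlog
    linarith

/-- the numerical conclusion -/
theorem kp_num {K0 K1 K2 K3 m c1 p ρ r N Dt G D Θ Z : ℝ} (hρ : 0 < ρ) (hρ1 : ρ ≤ 1 / 2)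
    (hr : r ≤ ρ)
    (hp : 2 ≤ p) (hK0 : 1 ≤ K0) (hK1 : 0 < K1) (hK2 : 0 < K2) (hm : 0 ≤ m) (hN0 : 0 ≤ N)
    (hG0 : 0 ≤ G) (hD : 0 ≤ D) (hΘ : 0 ≤ Θ) (hZ : 0 ≤ Z)
    (hN : ρ * N ≤ K1 * p * (1 + Real.log p) * Dt +
      K1 * p ^ 2 / ρ ^ 3 * (Real.exp (-(c1 * p)) + Θ + Z))
    (hDt : Dt ≤ 3 * K3 ^ 2 * (D + D + Θ))
    (hG : G ≤ D + m * (K0 * (1 / ρ + Real.log p) * D +
      4 * K0 * Real.exp (-p / 2) * (2 * K0 / ρ))) :
    r * (K2 * N + K2 * G) ≤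
      (K2 * (6 * K1 * K3 ^ 2 + 1 + m * K0) + K2 * (3 * K1 * K3 ^ 2 + K1 + 8 * m * K0 ^ 2) + 1) *
        (p * (1 + Real.log p)) * D +
      (K2 * (6 * K1 * K3 ^ 2 + 1 + m * K0) + K2 * (3 * K1 * K3 ^ 2 + K1 + 8 * m * K0 ^ 2) + 1) *
        (p ^ 2 / ρ ^ 3) * (Real.exp (-(min c1 (1 / 2) * p)) + Θ + Z) := by
  obtain ⟨hpL, hρl, hL1⟩ := kp_num0 hρ hρ1 hp
  have heE : Real.exp (-p / 2) ≤ Real.exp (-(min c1 (1 / 2) * p)) := by
    apply Real.exp_le_exp.mpr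
    have h1 := mul_le_mul_of_nonneg_right (min_le_right c1 (1 / 2)) (show 0 ≤ p by linarith)
    linarith
  have hcE : Real.exp (-(c1 * p)) ≤ Real.exp (-(min c1 (1 / 2) * p)) := by
    apply Real.exp_le_exp.mpr
    exact neg_le_neg (mul_le_mul_of_nonneg_right (min_le_left c1 (1 / 2)) (by linarith))
  have hE0 := Real.exp_pos (-(min c1 (1 / 2) * p))
  have he20 := Real.exp_pos (-p / 2)
  have eR : K1 * p ^ 2 / ρ ^ 3 = K1 * (p ^ 2 / ρ ^ 3) := by ring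
  have ePL : K1 * p * (1 + Real.log p) = K1 * (p * (1 + Real.log p)) := by ring
  have b2 : ρ * (D + m * (K0 * (1 / ρ + Real.log p) * D +
      4 * K0 * Real.exp (-p / 2) * (2 * K0 / ρ))) =
      ρ * D + m * K0 * ((ρ * (1 / ρ + Real.log p)) * D) +
        8 * m * K0 ^ 2 * Real.exp (-p / 2) := by
    field_simp
    ring
  have b1 := mul_le_mul_of_nonneg_left hG hρ.le
  rw [b2] at b1
  rw [eR, ePL] at hN
  generalize Real.exp (-(min c1 (1 / 2) * p)) = E at *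
  generalize Real.exp (-(c1 * p)) = E1 at *
  generalize Real.exp (-p / 2) = e2 at *
  generalize p ^ 2 / ρ ^ 3 = R at *
  generalize ρ * (1 / ρ + Real.log p) = l at *
  generalize p * (1 + Real.log p) = L at *
  clear b2 eR ePL hG hp
  have hR1 : 1 ≤ R := hL1.trans hpL
  have hR0 : 0 ≤ R := zero_le_one.trans hR1
  have hL0 : 0 ≤ L := zero_le_one.trans hL1
  have a4 : r * (K2 * N + K2 * G) ≤ K2 * (ρ * N) + K2 * (ρ * G) := by
    have : r * (K2 * N + K2 * G) ≤ ρ * (K2 * N + K2 * G) :=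
      mul_le_mul_of_nonneg_right hr (by positivity)
    linarith
  refine a4.trans (kp_num2 hK0 hK1 hK2 hm (mul_nonneg hL0 hD) (mul_nonneg hR0 hE0.le)
    (mul_nonneg hR0 hΘ) (mul_nonneg hR0 hZ) ?_ ?_)
  · refine hN.trans (add_le_add ?_ ?_)
    · have h1 : K1 * L * Dt ≤ K1 * L * (3 * K3 ^ 2 * (D + D + Θ)) :=
        mul_le_mul_of_nonneg_left hDt (by positivity)
      have h2 : L * Θ ≤ R * Θ := mul_le_mul_of_nonneg_right hpL hΘ
      have h3 : 0 ≤ 3 * K1 * K3 ^ 2 := by positivity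
      have h4 := mul_le_mul_of_nonneg_left h2 h3
      linarith
    · exact mul_le_mul_of_nonneg_left (by linarith) (by positivity)
  · have b3 : ρ * D ≤ L * D := mul_le_mul_of_nonneg_right (by linarith) hD
    have b4 : l * D ≤ L * D := mul_le_mul_of_nonneg_right hρl hD
    have b5 : m * K0 * (l * D) ≤ m * K0 * (L * D) :=
      mul_le_mul_of_nonneg_left b4 (by positivity)
    have b6 : e2 ≤ R * E := heE.trans (le_mul_of_one_le_left hE0.le hR1)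
    have b7 : 8 * m * K0 ^ 2 * e2 ≤ 8 * m * K0 ^ 2 * (R * E) :=
      mul_le_mul_of_nonneg_left b6 (by positivity)
    linarith

end TI

end Vale.Agent.P161E
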