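import Vale.Agent.P161E.TimeAux

/-!
# The growth inequality at a fixed time
-/

open MeasureTheory Set Filter Topology
open scoped unitInterval ENNReal

namespace Vale.Agent.P161E

open Vale.Agent.P161

universe u

namespace TI

open Vale.Agent.P161E.ST

section meas

variable {V : Type u} {b : ℕ}

theorem measurable_pp {α : Type*} [MeasurableSpace α] {T : RTree V b} {g : V → V → α → ℝ}
    (hg : ∀ u x, Measurable (g u x)) (v w : V) :
    Measurable (fun a => pp T (fun u x => g u x a) v w) := by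
  unfold pp
  generalize T.G.dist v w = n
  induction n generalizing v with
  | zero => exact measurable_const
  | succ n ih => exact (hg v (nxt T v w)).mul (ih (nxt T v w))

theorem measurable_af (θ : ℝ) : Measurable (af θ) := by
  unfold af
  fun_prop

theorem measurable_Ch (T : RTree V b) (θ : ℝ) (μ : Measure (V → Bool)) [IsProbabilityMeasure μ]
    (v w : V) : Measurable (Ch T θ μ v w) := by
  unfold Ch
  exact (measurable_const.sub ((measurable_Mh T μ v).pow_const 2)).mul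
    (measurable_pp (g := fun u x Y => θ * af θ (th T μ u x Y))
      (fun u x => ((measurable_af θ).comp (measurable_th T μ u x)).const_mul θ) v w)

variable {T : RTree V b} {s : I → (ℕ → I) × (ℕ → I)} (hs : Measurable s)
  (hl : Measure.map (seedMap s) (iid V) = PO V) {θ θ' : ℝ} {μ μ' : Measure (V → Bool)}
  [IsProbabilityMeasure μ] [IsProbabilityMeasure μ']
  {X X' : Om V → ℕ × V → I} (hX : IsLim μ X) (hX' : IsLim μ' X') {k : ℕ} {r : ℝ}

include hs hl hX hX'

theorem Rinf_eq (v : V) : Rinf T θ θ' μ μ' X X' k r v = ∑' w, ∫⁻ W, ENNReal.ofReal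
      (((1 - mm T μ s X k r v W ^ 2) * pp T (fun u x => θ * af θ (tt T μ s X k r u x W)) v w -
        (1 - mm T μ' s X' k r v W ^ 2) *
          pp T (fun u x => θ' * af θ' (tt T μ' s X' k r u x W)) v w) ^ 2 +
      ((1 - mm T μ' s X' k r v W ^ 2) *
          pp T (fun u x => θ' * af θ' (tt T μ' s X' k r u x W)) v w) ^ 2 *
        (mm T μ s X k r w W - mm T μ' s X' k r w W) ^ 2) ∂(iid V) := by
  unfold Rinf
  congr 1
  funext w
  have m1 : Measurable fun ω : Om V => fld ω.1 (X ω) k r :=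
    measurable_fld measurable_fst hX.meas measurable_const k
  have m2 : Measurable fun ω : Om V => fld ω.1 (X' ω) k r :=
    measurable_fld measurable_fst hX'.meas measurable_const k
  rw [← hl, lintegral_map _ (measurable_seedMap hs)]
  · rfl
  · refine Measurable.ennreal_ofReal ?_
    exact ((((measurable_Ch T θ μ v w).comp m1).sub
      ((measurable_Ch T θ' μ' v w).comp m2)).pow_const 2).add
      ((((measurable_Ch T θ' μ' v w).comp m2).pow_const 2).mul
      ((((measurable_Mh T μ w).comp m1).sub ((measurable_Mh T μ' w).comp m2)).pow_const 2))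

theorem Dinf_eq (v : V) : Dinf T μ μ' X X' k r v =
    ∫ W, (mm T μ s X k r v W - mm T μ' s X' k r v W) ^ 2 ∂(iid V) := by
  unfold Dinf
  have m1 : Measurable fun ω : Om V => fld ω.1 (X ω) k r :=
    measurable_fld measurable_fst hX.meas measurable_const k
  have m2 : Measurable fun ω : Om V => fld ω.1 (X' ω) k r :=
    measurable_fld measurable_fst hX'.meas measurable_const k
  rw [← hl, integral_map (measurable_seedMap hs).aemeasurable]
  · rfl
  · exact ((((measurable_Mh T μ v).comp m1).sub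
      ((measurable_Mh T μ' v).comp m2)).pow_const 2).aestronglyMeasurable

end meas

/-- the mean of `cc` is `ec` -/
theorem ec_eq {V : Type u} {b : ℕ} {T : RTree V b} {s : I → (ℕ → I) × (ℕ → I)}
    (hs : Measurable s) (hl : Measure.map (seedMap s) (iid V) = PO V) {θ : ℝ}
    {μ : Measure (V → Bool)} (hμ : IsFreeIsing T.G θ μ) {X : Om V → ℕ × V → I} (hX : IsLim μ X)
    {k : ℕ} {r : ℝ} {K c M ρ : ℝ}
    (h : SC T K c M θ ρ μ (Measure.map (fun q : Om V => fld q.1 q.2 k r) (PL μ))) {u x : V}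
    (hux : T.G.Adj u x) : ∫ W, cc T μ θ s X k r u x W ∂(iid V) = ec T μ θ k r u x := by
  have := T.countable
  have := hμ.prob
  have hQ := st_law hs hl hX k r
  have e1 : ∫ W, cc T μ θ s X k r u x W ∂(iid V) =
      ∫ W, chiY T μ θ u x (st s X k r W) ∂(iid V) := by
    refine integral_congr_ae ?_
    filter_upwards [lim_cc hs hl hμ hX hQ h hux] with W hW
    rw [hW.2]
  rw [e1, integral_st (measurable_st hs hX k r) hQ (measurable_chiY T μ θ u x),
    integral_map (measurable_fldq k r).aemeasurable (measurable_chiY T μ θ u x).aestronglyMeasurable]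
  rfl

theorem theta_le {b : ℕ} (hb : 2 ≤ b) {θ : ℝ} (h : b * θ ^ 2 < 1) : θ ≤ 3 / 4 := by
  have := PR.sq_half hb h.le
  nlinarith

theorem KP {b : ℕ} (hb : 2 ≤ b) {K0 c0 M : ℝ} (hK0 : 1 ≤ K0) (hc0 : 0 < c0) (hM : 0 < M) :
    ∃ K c : ℝ, 1 ≤ K ∧ 0 < c ∧
    ∀ (V : Type u) (T : RTree V b) (θ θ' : ℝ) (μ μ' : Measure (V → Bool))
      (X X' : Om V → ℕ × V → I) (k : ℕ) (r ρ : ℝ),
    0 ≤ θ → 1 / 2 ≤ b * θ ^ 2 → b * θ ^ 2 < 1 →
    0 ≤ θ' → 1 / 2 ≤ b * θ' ^ 2 → b * θ' ^ 2 < 1 →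
    IsFreeIsing T.G θ μ → IsFreeIsing T.G θ' μ' → IsLim μ X → IsLim μ' X' →
    0 ≤ r → r ≤ ρ → 0 < ρ → ρ ≤ 1 / 2 →
    SC T K0 c0 M θ ρ μ (Measure.map (fun q : Om V => fld q.1 q.2 k r) (PL μ)) →
    SC T K0 c0 M θ' ρ μ' (Measure.map (fun q : Om V => fld q.1 q.2 k r) (PL μ')) →
    ∀ v u x, T.G.Adj u x → ∀ p : ℝ, 2 ≤ p →
    ENNReal.ofReal r * Rinf T θ θ' μ μ' X X' k r v ≤ ENNReal.ofReal
      (K * (p * (1 + Real.log p)) * Dinf T μ μ' X X' k r v +
        K * (p ^ 2 / ρ ^ 3) * (Real.exp (-(c * p)) + (θ - θ') ^ 2 +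
          (ec T μ θ k r u x - ec T μ' θ' k r u x) ^ 2)) := by
  obtain ⟨K1, c1, hK1, hc1, hpair⟩ := pair_ineq hb hK0 hc0 hM
  obtain ⟨K2, hK2, hrate⟩ := rate_bound hb
  obtain ⟨K3, hK3, hcav⟩ := cavity_lip (θ₁ := 3 / 4) (by norm_num)
  refine ⟨K2 * (6 * K1 * K3 ^ 2 + 1 + ((b + 1 : ℕ) : ℝ) * K0) +
    K2 * (3 * K1 * K3 ^ 2 + K1 + 8 * ((b + 1 : ℕ) : ℝ) * K0 ^ 2) + 1, min c1 (1 / 2), ?_,
    lt_min hc1 (by norm_num), ?_⟩
  · have : 0 ≤ K2 * (6 * K1 * K3 ^ 2 + 1 + ((b + 1 : ℕ) : ℝ) * K0) +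
      K2 * (3 * K1 * K3 ^ 2 + K1 + 8 * ((b + 1 : ℕ) : ℝ) * K0 ^ 2) := by positivity
    linarith
  intro V T θ θ' μ μ' X X' k r ρ hθ hθ2 hθ1 hθ' hθ2' hθ1' hμ hμ' hX hX' hr0 hrρ hρ hρ1 hSC hSC'
    v u x hux p hp
  have hV := T.countable
  have hpμ := hμ.prob
  have hpμ' := hμ'.prob
  obtain ⟨s, hs, hl⟩ := exists_seeds V
  have hl : Measure.map (seedMap s) (iid V) = PO V := hl
  have hQ := st_law hs hl hX k r
  have hQ' := st_law hs hl hX' k r
  have R := rep hs hl hμ hX hQ hSC hθ hθ1.le hθ2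
  have R' := rep hs hl hμ' hX' hQ' hSC' hθ' hθ1'.le hθ2'
  obtain ⟨S1, S2, S3⟩ := ss_spec (θ := θ) (θ' := θ') R.equi_t R'.equi_t R.equi_χ R'.equi_χ
    (fun u x W => (PR.be_mem hb hθ hθ1.le (R.t1 u x W)).1)
    (fun u x W => (PR.be_mem hb hθ' hθ1'.le (R'.t1 u x W)).1) R.lim_χ R'.lim_χ R.χ1 R'.χ1
  have hP := hpair V T ρ θ θ' hρ hρ1 _ _ _ _ _ R R' S1 S2 S3 p hp u x hux
  rw [ec_eq hs hl hμ hX hSC hux, ec_eq hs hl hμ' hX' hSC' hux] at hP
  -- the identities
  obtain ⟨ν, hν, hpl, _⟩ := planted_fld (μ := μ) k hr0 (hrρ.trans hρ1)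
  obtain ⟨ν', hν', hpl', _⟩ := planted_fld (μ := μ') k hr0 (hrρ.trans hρ1)
  have id1 := (ident hb T hθ (by linarith [theta_le hb hθ1]) hμ hν hpl).1
  have id2 := ident hb T hθ' (by linarith [theta_le hb hθ1']) hμ' hν' hpl'
  have mst := measurable_st hs hX k r
  have mst' := measurable_st hs hX' k r
  have idt : ∀ u x, T.G.Adj u x → ∀ᵐ W ∂(iid V), mm T μ s X k r x W =
      (tt T μ s X k r u x W + θ * tt T μ s X k r x u W) /
      (1 + θ * tt T μ s X k r u x W * tt T μ s X k r x u W) := by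
    intro u x h
    have := id1 u x h
    rw [← hQ] at this
    exact ae_of_ae_map mst.aemeasurable this
  have idt' : ∀ u x, T.G.Adj u x → ∀ᵐ W ∂(iid V), mm T μ' s X' k r x W =
      (tt T μ' s X' k r u x W + θ' * tt T μ' s X' k r x u W) /
      (1 + θ' * tt T μ' s X' k r u x W * tt T μ' s X' k r x u W) := by
    intro u x h
    have := id2.1 u x h
    rw [← hQ'] at this
    exact ae_of_ae_map mst'.aemeasurable this
  have hsym : ∀ v w, ∀ᵐ W ∂(iid V),
      (1 - mm T μ' s X' k r v W ^ 2) *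
        pp T (fun u x => θ' * af θ' (tt T μ' s X' k r u x W)) v w =
      (1 - mm T μ' s X' k r w W ^ 2) *
        pp T (fun u x => θ' * af θ' (tt T μ' s X' k r u x W)) w v := by
    intro v w
    have := id2.2 v w
    rw [← hQ'] at this
    exact ae_of_ae_map mst'.aemeasurable this
  -- the magnetisations
  have mm1 : ∀ v, Measurable (mm T μ s X k r v) := fun v => (measurable_Mh T μ v).comp mst
  have mm2 : ∀ v, Measurable (mm T μ' s X' k r v) := fun v => (measurable_Mh T μ' v).comp mst'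
  have am1 : ∀ v W, |mm T μ s X k r v W| ≤ 1 := fun v W => abs_Mh_le T μ v _
  have am2 : ∀ v W, |mm T μ' s X' k r v W| ≤ 1 := fun v W => abs_Mh_le T μ' v _
  have lχ : ∀ u x, T.G.Adj u x → MemLp (cc T μ θ s X k r u x) 2 (iid V) := fun u x h =>
    PR.memLp_of_four (R.equi_χ.meas u x) (R.χ1 u x) (R.int_χ u x h)
  have lχ' : ∀ u x, T.G.Adj u x → MemLp (cc T μ' θ' s X' k r u x) 2 (iid V) := fun u x h =>
    PR.memLp_of_four (R'.equi_χ.meas u x) (R'.χ1 u x) (R'.int_χ u x h)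
  have hRate := hrate V T θ θ' _ _ _ _ _ (mm T μ s X k r) (mm T μ' s X' k r) hθ hθ1.le hθ' hθ1'.le
    R.equi_t R.equi_χ R'.equi_t R'.equi_χ S1 R.t1 R'.t1 R.χ1 R'.χ1 S2
    (fun u x h => (lχ u x h).integrable one_le_two)
    (fun u x h => (lχ' u x h).integrable one_le_two) R.lim_χ R'.lim_χ S3 mm1 mm2 am1 am2
    (equi_mm hs hl hμ hX) (equi_mm hs hl hμ' hX') hsym v u x hux
  -- the mean square difference does not depend on the vertex
  have hDv : ∀ z, ∫ W, (mm T μ s X k r z W - mm T μ' s X' k r z W) ^ 2 ∂(iid V) =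
      Dinf T μ μ' X X' k r v := by
    intro z
    have eg : Equi T (fun _ x W => (mm T μ s X k r x W - mm T μ' s X' k r x W) ^ 2) :=
      ⟨fun _ x => ((mm1 x).sub (mm2 x)).pow_const 2, fun φ _ x => by
        filter_upwards [equi_mm hs hl hμ hX φ x, equi_mm hs hl hμ' hX' φ x] with W h1 h2
        rw [h1, h2]⟩
    obtain ⟨φ, h1, _⟩ := exists_aut T (v := v) (w := v) (v' := z) (w' := z)
      (by rw [SimpleGraph.dist_self, SimpleGraph.dist_self])
    rw [Dinf_eq hs hl hX hX', ← eg.integral_equi φ v v, h1]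
  -- the cavity magnetisations
  have hD4 : ∀ z W, 0 ≤ (mm T μ s X k r z W - mm T μ' s X' k r z W) ^ 2 ∧
      (mm T μ s X k r z W - mm T μ' s X' k r z W) ^ 2 ≤ 4 := by
    intro z W
    have h1 := abs_le.mp (am1 z W)
    have h2 := abs_le.mp (am2 z W)
    exact ⟨sq_nonneg _, by nlinarith⟩
  have iD : ∀ z, Integrable (fun W => (mm T μ s X k r z W - mm T μ' s X' k r z W) ^ 2) (iid V) := by
    intro z
    refine Integrable.of_bound (C := 4)
      (((mm1 z).sub (mm2 z)).pow_const 2).aestronglyMeasurable (ae_of_all _ fun W => ?_)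
    rw [Real.norm_eq_abs, abs_of_nonneg (hD4 z W).1]
    exact (hD4 z W).2
  have hDt : ∫ W, (tt T μ s X k r u x W - tt T μ' s X' k r u x W) ^ 2 ∂(iid V) ≤
      3 * K3 ^ 2 * (Dinf T μ μ' X X' k r v + Dinf T μ μ' X X' k r v + (θ - θ') ^ 2) := by
    have hpt : ∀ᵐ W ∂(iid V), (tt T μ s X k r u x W - tt T μ' s X' k r u x W) ^ 2 ≤
        3 * K3 ^ 2 * ((mm T μ s X k r x W - mm T μ' s X' k r x W) ^ 2 +
          (mm T μ s X k r u W - mm T μ' s X' k r u W) ^ 2 + (θ - θ') ^ 2) := by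
      filter_upwards [idt u x hux, idt x u hux.symm, idt' u x hux, idt' x u hux.symm] with
        W h1 h2 h3 h4
      refine sq3 hK3.le ?_
      have h5 := hcav θ θ' _ _ _ _ hθ (theta_le hb hθ1) hθ' (theta_le hb hθ1') (R.t1 u x W)
        (R.t1 x u W) (R'.t1 u x W) (R'.t1 x u W)
      rw [h1, h2, h3, h4]
      have e1 : 1 + θ * tt T μ s X k r x u W * tt T μ s X k r u x W =
          1 + θ * tt T μ s X k r u x W * tt T μ s X k r x u W := by ring
      have e2 : 1 + θ' * tt T μ' s X' k r x u W * tt T μ' s X' k r u x W =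
          1 + θ' * tt T μ' s X' k r u x W * tt T μ' s X' k r x u W := by ring
      rw [e1, e2]
      exact h5
    have it : Integrable (fun W => (tt T μ s X k r u x W - tt T μ' s X' k r u x W) ^ 2)
        (iid V) := by
      refine Integrable.of_bound (C := 4)
        (((R.equi_t.meas u x).sub (R'.equi_t.meas u x)).pow_const 2).aestronglyMeasurable
        (ae_of_all _ fun W => ?_)
      have h1 := abs_le.mp (R.t1 u x W)
      have h2 := abs_le.mp (R'.t1 u x W)
      rw [Real.norm_eq_abs, abs_of_nonneg (sq_nonneg _)]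
      nlinarith
    have i12 : Integrable (fun W => (mm T μ s X k r x W - mm T μ' s X' k r x W) ^ 2 +
          (mm T μ s X k r u W - mm T μ' s X' k r u W) ^ 2) (iid V) := (iD x).add (iD u)
    have i123 : Integrable (fun W => (mm T μ s X k r x W - mm T μ' s X' k r x W) ^ 2 +
          (mm T μ s X k r u W - mm T μ' s X' k r u W) ^ 2 + (θ - θ') ^ 2) (iid V) :=
      i12.add (integrable_const _)
    refine (integral_mono_ae it (i123.const_mul _) hpt).trans ?_
    rw [integral_const_mul]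
    have e3 : ∫ W, ((mm T μ s X k r x W - mm T μ' s X' k r x W) ^ 2 +
          (mm T μ s X k r u W - mm T μ' s X' k r u W) ^ 2 + (θ - θ') ^ 2) ∂(iid V) =
        Dinf T μ μ' X X' k r v + Dinf T μ μ' X X' k r v + (θ - θ') ^ 2 := by
      rw [integral_add i12 (integrable_const _), integral_add (iD x) (iD u), hDv, hDv]
      simp
    exact (mul_le_mul_of_nonneg_left e3.le (by positivity))
  -- the second term
  have hlog : 0 ≤ Real.log p := Real.log_nonneg (by linarith)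
  have hsec : ∀ u x, T.G.Adj u x → _ := fun u x (h : T.G.Adj u x) =>
    second hK0 hρ (R'.equi_χ.meas u x) (R'.int_χ u x h) (R'.mom_χ u x h)
  obtain ⟨iG, hG⟩ := trunc_sum (P := iid V) (K := K0) (p := p) (L := K0 * (1 / ρ + Real.log p))
    (B := 2 * K0 / ρ) hK0 (by positivity) (by positivity) (T.nb v)
    (d := fun W => (mm T μ s X k r v W - mm T μ' s X' k r v W) ^ 2)
    (χ := fun y => cc T μ' θ' s X' k r v y) (((mm1 v).sub (mm2 v)).pow_const 2)
    (fun y => R'.equi_χ.meas v y) (fun W => (hD4 v W).1) (fun W => (hD4 v W).2)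
    (fun y W => zero_le_one.trans (R'.χ1 v y W))
    (fun y hy => (hsec v y ((T.mem_nb v y).mp hy)).1)
    (fun y hy => (hsec v y ((T.mem_nb v y).mp hy)).2)
    (fun y hy => R'.tail_χ v y ((T.mem_nb v y).mp hy) p hp)
  rw [T.card_nb, hDv] at hG
  have hG0 : 0 ≤ ∫ W, (mm T μ s X k r v W - mm T μ' s X' k r v W) ^ 2 *
      (1 + ∑ y ∈ T.nb v, cc T μ' θ' s X' k r v y W) ∂(iid V) := by
    refine integral_nonneg fun W => mul_nonneg (sq_nonneg _) ?_
    have : 0 ≤ ∑ y ∈ T.nb v, cc T μ' θ' s X' k r v y W :=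
      Finset.sum_nonneg fun y _ => zero_le_one.trans (R'.χ1 v y W)
    linarith
  have hN0 : 0 ≤ ∫ W, (cc T μ θ s X k r u x W + cc T μ' θ' s X' k r u x W -
      2 * ss T θ θ' (tt T μ s X k r) (tt T μ' s X' k r) (cc T μ θ s X k r)
        (cc T μ' θ' s X' k r) u x W) ∂(iid V) :=
    integral_nonneg fun W => by
      have := (S2 u x W).2
      simp only [Pi.zero_apply]
      linarith
  have hD0 : 0 ≤ Dinf T μ μ' X X' k r v := by
    rw [Dinf_eq hs hl hX hX']
    exact integral_nonneg fun W => sq_nonneg _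
  have hnum := kp_num (K0 := K0) (K1 := K1) (K2 := K2) (K3 := K3) (m := ((b + 1 : ℕ) : ℝ))
    (c1 := c1) hρ hρ1 hrρ hp hK0 hK1 hK2 (Nat.cast_nonneg _) hN0 hG0 hD0 (sq_nonneg (θ - θ'))
    (sq_nonneg (ec T μ θ k r u x - ec T μ' θ' k r u x)) hP hDt hG
  have hlast : ∫⁻ W, ENNReal.ofReal (K2 * (mm T μ s X k r v W - mm T μ' s X' k r v W) ^ 2 *
      (1 + ∑ y ∈ T.nb v, cc T μ' θ' s X' k r v y W)) ∂(iid V) =
      ENNReal.ofReal (K2 * ∫ W, (mm T μ s X k r v W - mm T μ' s X' k r v W) ^ 2 *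
      (1 + ∑ y ∈ T.nb v, cc T μ' θ' s X' k r v y W) ∂(iid V)) := by
    rw [← integral_const_mul, ofReal_integral_eq_lintegral_ofReal (iG.const_mul K2)]
    · refine lintegral_congr fun W => ?_
      rw [mul_assoc]
    · refine ae_of_all _ fun W => ?_
      have : 0 ≤ ∑ y ∈ T.nb v, cc T μ' θ' s X' k r v y W :=
        Finset.sum_nonneg fun y _ => zero_le_one.trans (R'.χ1 v y W)
      exact mul_nonneg hK2.le (mul_nonneg (sq_nonneg _) (by linarith))
  rw [Rinf_eq hs hl hX hX']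
  calc _ ≤ ENNReal.ofReal r * (_ + _) := mul_le_mul_right hRate _
    _ = ENNReal.ofReal (r * (K2 * ∫ W, (cc T μ θ s X k r u x W + cc T μ' θ' s X' k r u x W -
      2 * ss T θ θ' (tt T μ s X k r) (tt T μ' s X' k r) (cc T μ θ s X k r)
        (cc T μ' θ' s X' k r) u x W) ∂(iid V) +
        K2 * ∫ W, (mm T μ s X k r v W - mm T μ' s X' k r v W) ^ 2 *
      (1 + ∑ y ∈ T.nb v, cc T μ' θ' s X' k r v y W) ∂(iid V))) := by
      rw [hlast, ← ENNReal.ofReal_add (by positivity) (by positivity),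
        ← ENNReal.ofReal_mul hr0]
    _ ≤ _ := ENNReal.ofReal_le_ofReal hnum

end TI

end Vale.Agent.P161E
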