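import Vale.Agent.P161E.Limit
import Vale.Agent.P161E.SLim
import Vale.Agent.P161E.TreeSide
import Vale.Agent.P161E.Crude
import Vale.Agent.P161E.Decode

/-!
# Transfer of the fields at a fixed time to a space of iid labels
-/

open MeasureTheory Set Filter Topology
open scoped unitInterval ENNReal

namespace Vale.Agent.P161E

open Vale.Agent.P161

universe u

namespace Tr

variable {V : Type u} {b : ℕ} {T : RTree V b} {θ : ℝ} {μ : Measure (V → Bool)}

/-- A factor map from the iid labels to the labels and seeds of the sites. -/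
structure IsSeed (S : (V → I) → Om V) : Prop where
  meas : Measurable S
  law : Measure.map S (iid V) = PO V
  equi : ∀ (g : V ≃ V) (W : V → I), S (translate g W) = trO g (S W)

theorem exists_isSeed (V : Type u) [Countable V] : ∃ S : (V → I) → Om V, IsSeed S := by
  obtain ⟨s, hs, hlaw⟩ := exists_seeds V
  refine ⟨fun W => ((fun j : ℕ × V => (s (W j.2)).1 j.1, fun j : ℕ × V => (s (W j.2)).2 j.1)),
    ⟨?_, hlaw, ?_⟩⟩
  · refine Measurable.prodMk ?_ ?_
    · rw [measurable_pi_iff]
      intro j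
      exact (measurable_pi_apply j.1).comp
        (measurable_fst.comp (hs.comp (measurable_pi_apply j.2)))
    · rw [measurable_pi_iff]
      intro j
      exact (measurable_pi_apply j.1).comp
        (measurable_snd.comp (hs.comp (measurable_pi_apply j.2)))
  · intro g W
    rfl

/-- the labels and the signals as functions of the iid labels -/
def jt (S : (V → I) → Om V) (X : Om V → ℕ × V → I) (W : V → I) : Om V := ((S W).1, X (S W))

theorem measurable_jt {S : (V → I) → Om V} (hS : IsSeed S) {X : Om V → ℕ × V → I}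
    (hX : Measurable X) : Measurable (jt S X) :=
  (measurable_fst.comp hS.meas).prodMk (hX.comp hS.meas)

theorem map_jt [Countable V] [IsProbabilityMeasure μ] {S : (V → I) → Om V} (hS : IsSeed S)
    {X : Om V → ℕ × V → I} (hX : IsLim μ X) : Measure.map (jt S X) (iid V) = PL μ := by
  have h1 : Measurable (fun ω : Om V => ((ω.1, X ω) : Om V)) :=
    measurable_fst.prodMk hX.meas
  rw [← isLim_law hX, ← hS.law, Measure.map_map h1 hS.meas]
  rfl

/-- change of variables -/
theorem integral_PL [Countable V] [IsProbabilityMeasure μ] {S : (V → I) → Om V} (hS : IsSeed S)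
    {X : Om V → ℕ × V → I} (hX : IsLim μ X) {F : Om V → ℝ} (hF : Measurable F) :
    ∫ q, F q ∂(PL μ) = ∫ W, F (jt S X W) ∂(iid V) := by
  rw [← map_jt hS hX, integral_map (measurable_jt hS hX.meas).aemeasurable
    hF.aestronglyMeasurable]

theorem ae_PL [Countable V] [IsProbabilityMeasure μ] {S : (V → I) → Om V} (hS : IsSeed S)
    {X : Om V → ℕ × V → I} (hX : IsLim μ X) {p : Om V → Prop} (h : ∀ᵐ q ∂(PL μ), p q) :
    ∀ᵐ W ∂(iid V), p (jt S X W) := by
  rw [← map_jt hS hX] at h
  exact ae_of_ae_map (measurable_jt hS hX.meas).aemeasurable h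

/-- the free Ising measure is invariant -/
theorem map_translate_eq (hμ : IsFreeIsing T.G θ μ) (φ : T.G ≃g T.G) :
    Measure.map (translate φ.toEquiv) μ = μ :=
  isFreeIsing_unique T.tree.1 (isFreeIsing_translate hμ φ) hμ

theorem jt_translate [Countable V] (hμ : IsFreeIsing T.G θ μ) {S : (V → I) → Om V}
    (hS : IsSeed S) {X : Om V → ℕ × V → I} (hX : IsLim μ X) (φ : T.G ≃g T.G) :
    ∀ᵐ W ∂(iid V), jt S X (translate φ.toEquiv W) = trO φ.toEquiv (jt S X W) := by
  have := hμ.prob
  have h1 := isLim_equi hX (map_translate_eq hμ φ)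
  rw [← hS.law] at h1
  have h2 := ae_of_ae_map hS.meas.aemeasurable h1
  filter_upwards [h2] with W hW
  unfold jt
  rw [hS.equi, hW]
  rfl

/-! ### Invariance of the cavity magnetisations -/

theorem half_map (φ : T.G ≃g T.G) (u x : V) (n : ℕ) :
    T.half (φ u) (φ x) n = (T.half u x n).map φ.toEquiv.toEmbedding := by
  ext w
  rw [SL.mem_half', Finset.mem_map]
  constructor
  · rintro ⟨h1, h2⟩
    refine ⟨φ.symm w, ?_, by simp⟩
    rw [SL.mem_half', ← Dec.dist_iso T.tree.1 φ (φ.symm w) x,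
      ← Dec.dist_iso T.tree.1 φ (φ.symm w) u]
    simpa using And.intro h1 h2
  · rintro ⟨z, hz, rfl⟩
    rw [SL.mem_half'] at hz
    have e1 := Dec.dist_iso T.tree.1 φ z x
    have e2 := Dec.dist_iso T.tree.1 φ z u
    show T.G.dist (φ z) (φ x) ≤ n ∧ T.G.dist (φ z) (φ x) < T.G.dist (φ z) (φ u)
    rw [e1, e2]
    exact hz

theorem ball_map (φ : T.G ≃g T.G) (v : V) (n : ℕ) :
    T.ball (φ v) n = (T.ball v n).map φ.toEquiv.toEmbedding := by
  ext w
  rw [SL.mem_ball, Finset.mem_map]
  constructor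
  · intro h1
    refine ⟨φ.symm w, ?_, by simp⟩
    rw [SL.mem_ball, ← Dec.dist_iso T.tree.1 φ v (φ.symm w)]
    simpa using h1
  · rintro ⟨z, hz, rfl⟩
    rw [SL.mem_ball] at hz
    have e1 := Dec.dist_iso T.tree.1 φ v z
    show T.G.dist (φ v) (φ z) ≤ n
    rw [e1]
    exact hz

theorem th_translate (hμ : IsFreeIsing T.G θ μ) (φ : T.G ≃g T.G) (u x : V) (Y : V → ℝ) :
    th T μ (φ u) (φ x) (translate φ.toEquiv Y) = th T μ u x Y := by
  unfold th
  congr 1
  funext n
  rw [half_map]
  exact mean_translate (map_translate_eq hμ φ) (T.half u x n) x Y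

theorem Mh_translate (hμ : IsFreeIsing T.G θ μ) (φ : T.G ≃g T.G) (v : V) (Y : V → ℝ) :
    Mh T μ (φ v) (translate φ.toEquiv Y) = Mh T μ v Y := by
  unfold Mh
  congr 1
  funext n
  rw [ball_map]
  exact mean_translate (map_translate_eq hμ φ) (T.ball v n) v Y

theorem chiN_map (φ : T.G ≃g T.G) (w : V → V → ℝ) (n : ℕ) : ∀ u x,
    T.chiN w n (φ u) (φ x) = T.chiN (fun u x => w (φ u) (φ x)) n u x := by
  induction n with
  | zero => intro u x; rfl
  | succ n ih =>
    intro u x
    show 1 + T.av (fun u x => w u x * T.chiN w n u x) (φ u) (φ x) =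
      1 + T.av (fun u x => w (φ u) (φ x) * T.chiN (fun u x => w (φ u) (φ x)) n u x) u x
    rw [RTree.av_map]
    simp only [ih]

theorem chiY_translate (hμ : IsFreeIsing T.G θ μ) (φ : T.G ≃g T.G) (u x : V) (Y : V → ℝ) :
    chiY T μ θ (φ u) (φ x) (translate φ.toEquiv Y) = chiY T μ θ u x Y := by
  unfold chiY RTree.chi
  congr 1
  funext n
  rw [chiN_map]
  simp only [th_translate hμ]

theorem measurable_chiN_th (μ : Measure (V → Bool)) [IsProbabilityMeasure μ] (θ : ℝ) (n : ℕ) :
    ∀ u x, Measurable fun Y => T.chiN (fun u x => be b θ (th T μ u x Y) ^ 2) n u x := by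
  have hbe : Measurable fun s : ℝ => be b θ s ^ 2 := by
    unfold be af
    fun_prop
  induction n with
  | zero => intro u x; exact measurable_const
  | succ n ih =>
    intro u x
    show Measurable fun Y => 1 + T.av (fun u x => be b θ (th T μ u x Y) ^ 2 *
      T.chiN (fun u x => be b θ (th T μ u x Y) ^ 2) n u x) u x
    unfold RTree.av
    refine measurable_const.add ((Finset.measurable_fun_sum _ fun y _ => ?_).div_const _)
    exact (hbe.comp (measurable_th T μ x y)).mul (ih x y)

theorem measurable_chiY (μ : Measure (V → Bool)) [IsProbabilityMeasure μ] (θ : ℝ) (u x : V) :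
    Measurable (chiY T μ θ u x) :=
  Measurable.limsup fun n => measurable_chiN_th μ θ n u x

/-! ### The families on the space of iid labels -/

/-- the fields at the time `(k, r)` -/
noncomputable def Yf (S : (V → I) → Om V) (X : Om V → ℕ × V → I) (k : ℕ) (r : ℝ)
    (W : V → I) : V → ℝ := fld (jt S X W).1 (jt S X W).2 k r

theorem measurable_fldq (k : ℕ) (r : ℝ) : Measurable fun q : Om V => fld q.1 q.2 k r :=
  measurable_fld measurable_fst measurable_snd measurable_const k

theorem measurable_Yf {S : (V → I) → Om V} (hS : IsSeed S) {X : Om V → ℕ × V → I}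
    (hX : Measurable X) (k : ℕ) (r : ℝ) : Measurable (Yf S X k r) :=
  (measurable_fldq k r).comp (measurable_jt hS hX)

theorem map_Yf [Countable V] [IsProbabilityMeasure μ] {S : (V → I) → Om V} (hS : IsSeed S)
    {X : Om V → ℕ × V → I} (hX : IsLim μ X) (k : ℕ) (r : ℝ) :
    Measure.map (Yf S X k r) (iid V) =
      Measure.map (fun q : Om V => fld q.1 q.2 k r) (PL μ) := by
  rw [← map_jt hS hX, Measure.map_map (measurable_fldq k r) (measurable_jt hS hX.meas)]
  rfl

/-- integrals of functions of the fields -/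
theorem integral_Yf [Countable V] [IsProbabilityMeasure μ] {S : (V → I) → Om V} (hS : IsSeed S)
    {X : Om V → ℕ × V → I} (hX : IsLim μ X) (k : ℕ) (r : ℝ) {F : (V → ℝ) → ℝ}
    (hF : Measurable F) :
    ∫ W, F (Yf S X k r W) ∂(iid V) =
      ∫ Y, F Y ∂(Measure.map (fun q : Om V => fld q.1 q.2 k r) (PL μ)) := by
  rw [← map_Yf hS hX, integral_map (measurable_Yf hS hX.meas k r).aemeasurable
    hF.aestronglyMeasurable]

theorem ae_Yf [Countable V] [IsProbabilityMeasure μ] {S : (V → I) → Om V} (hS : IsSeed S)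
    {X : Om V → ℕ × V → I} (hX : IsLim μ X) (k : ℕ) (r : ℝ) {p : (V → ℝ) → Prop}
    (h : ∀ᵐ Y ∂(Measure.map (fun q : Om V => fld q.1 q.2 k r) (PL μ)), p Y) :
    ∀ᵐ W ∂(iid V), p (Yf S X k r W) := by
  rw [← map_Yf hS hX] at h
  exact ae_of_ae_map (measurable_Yf hS hX.meas k r).aemeasurable h

theorem Yf_translate [Countable V] (hμ : IsFreeIsing T.G θ μ) {S : (V → I) → Om V}
    (hS : IsSeed S) {X : Om V → ℕ × V → I} (hX : IsLim μ X) (φ : T.G ≃g T.G) :
    ∀ᵐ W ∂(iid V), ∀ (k : ℕ) (r : ℝ), Yf S X k r (translate φ.toEquiv W) =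
      translate φ.toEquiv (Yf S X k r W) := by
  filter_upwards [jt_translate hμ hS hX φ] with W hW k r
  unfold Yf
  rw [hW]
  exact fld_translate φ.toEquiv _ _ k r

/-- the cavity magnetisations -/
noncomputable def tf (T : RTree V b) (μ : Measure (V → Bool)) (S : (V → I) → Om V)
    (X : Om V → ℕ × V → I) (k : ℕ) (r : ℝ) (u x : V) (W : V → I) : ℝ :=
  th T μ u x (Yf S X k r W)

/-- the susceptibilities, made at least `1` everywhere -/
noncomputable def cf (T : RTree V b) (μ : Measure (V → Bool)) (θ : ℝ) (S : (V → I) → Om V)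
    (X : Om V → ℕ × V → I) (k : ℕ) (r : ℝ) (u x : V) (W : V → I) : ℝ :=
  max 1 (chiY T μ θ u x (Yf S X k r W))

section

variable [Countable V] (hμ : IsFreeIsing T.G θ μ) {S : (V → I) → Om V}
    (hS : IsSeed S) {X : Om V → ℕ × V → I} (hX : IsLim μ X) (k : ℕ) (r : ℝ)

include hμ hS hX

theorem equi_tf : Equi T (tf T μ S X k r) := by
  have := hμ.prob
  refine ⟨fun u x => (measurable_th T μ u x).comp (measurable_Yf hS hX.meas k r),
    fun φ u x => ?_⟩
  filter_upwards [Yf_translate hμ hS hX φ] with W hW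
  unfold tf
  rw [hW]
  exact th_translate hμ φ u x _

theorem equi_cf : Equi T (cf T μ θ S X k r) := by
  have := hμ.prob
  refine ⟨fun u x => measurable_const.max
    ((measurable_chiY μ θ u x).comp (measurable_Yf hS hX.meas k r)), fun φ u x => ?_⟩
  filter_upwards [Yf_translate hμ hS hX φ] with W hW
  unfold cf
  rw [hW, chiY_translate hμ φ u x]

omit [Countable V] hS hX in
theorem abs_tf_le (u x : V) (W : V → I) : |tf T μ S X k r u x W| ≤ 1 := by
  have := hμ.prob
  exact abs_th_le T μ u x _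

omit [Countable V] hμ hS hX in
theorem one_le_cf (u x : V) (W : V → I) : 1 ≤ cf T μ θ S X k r u x W := le_max_left _ _

/-- if the partial sums are bounded, `chiY` is their limit and is at least one -/
theorem chiY_spec (hθ : b * θ ^ 2 ≤ 1) (hb : 2 ≤ b) {u x : V} {Y : V → ℝ}
    (h : BddAbove (range fun n => T.chiN (fun u x => be b θ (th T μ u x Y) ^ 2) n u x)) :
    Tendsto (fun n => T.chiN (fun u x => be b θ (th T μ u x Y) ^ 2) n u x) atTop
      (𝓝 (chiY T μ θ u x Y)) ∧ 1 ≤ chiY T μ θ u x Y := by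
  have hmono : Monotone fun n => T.chiN (fun u x => be b θ (th T μ u x Y) ^ 2) n u x := by
    refine monotone_nat_of_le_succ fun n => ?_
    rw [Crude.chiN_eq, Crude.chiN_eq, Finset.sum_range_succ _ (n + 1)]
    have := NB.wavN_nonneg (T := T) (w := fun u x => be b θ (th T μ u x Y) ^ 2)
      (h := fun _ _ => (1 : ℝ)) (fun u x => sq_nonneg _) (fun _ _ => zero_le_one) (n + 1) u x
    linarith
  have h1 := tendsto_atTop_ciSup hmono h
  have h2 : chiY T μ θ u x Y =
      ⨆ n, T.chiN (fun u x => be b θ (th T μ u x Y) ^ 2) n u x := h1.limsup_eq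
  rw [h2]
  refine ⟨h1, ?_⟩
  exact le_ciSup h 0

theorem isChi_cf (hθ : b * θ ^ 2 ≤ 1) (hb : 2 ≤ b)
    (h : ∀ u x, T.G.Adj u x →
      ∀ᵐ Y ∂(Measure.map (fun q : Om V => fld q.1 q.2 k r) (PL μ)), BddAbove (range fun n =>
      T.chiN (fun u x => be b θ (th T μ u x Y) ^ 2) n u x)) :
    IsChi T (fun u x W => be b θ (tf T μ S X k r u x W) ^ 2) (cf T μ θ S X k r) := by
  have := hμ.prob
  intro u x hux
  filter_upwards [ae_Yf hS hX k r (h u x hux)] with W hW
  obtain ⟨h1, h2⟩ := chiY_spec hμ hS hX hθ hb hW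
  have h3 : cf T μ θ S X k r u x W = chiY T μ θ u x (Yf S X k r W) := max_eq_right h2
  rw [h3]
  exact h1

theorem cf_eq (hθ : b * θ ^ 2 ≤ 1) (hb : 2 ≤ b)
    (h : ∀ u x, T.G.Adj u x →
      ∀ᵐ Y ∂(Measure.map (fun q : Om V => fld q.1 q.2 k r) (PL μ)), BddAbove (range fun n =>
      T.chiN (fun u x => be b θ (th T μ u x Y) ^ 2) n u x)) {u x : V} (hux : T.G.Adj u x) :
    ∀ᵐ W ∂(iid V), cf T μ θ S X k r u x W = chiY T μ θ u x (Yf S X k r W) := by
  have := hμ.prob
  filter_upwards [ae_Yf hS hX k r (h u x hux)] with W hW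
  obtain ⟨h1, h2⟩ := chiY_spec hμ hS hX hθ hb hW
  exact max_eq_right h2

/-- the mean of `chi` -/
theorem ec_eq (hθ : b * θ ^ 2 ≤ 1) (hb : 2 ≤ b)
    (h : ∀ u x, T.G.Adj u x →
      ∀ᵐ Y ∂(Measure.map (fun q : Om V => fld q.1 q.2 k r) (PL μ)), BddAbove (range fun n =>
      T.chiN (fun u x => be b θ (th T μ u x Y) ^ 2) n u x)) {u x : V} (hux : T.G.Adj u x) :
    ec T μ θ k r u x = ∫ W, cf T μ θ S X k r u x W ∂(iid V) := by
  have := hμ.prob
  unfold ec
  rw [integral_PL hS hX (F := fun q => chiY T μ θ u x (fld q.1 q.2 k r))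
    ((measurable_chiY μ θ u x).comp (measurable_fldq k r))]
  refine integral_congr_ae ?_
  filter_upwards [cf_eq hμ hS hX k r hθ hb h hux] with W hW
  rw [hW]
  rfl

end

end Tr

end Vale.Agent.P161E
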