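import Vale.Agent.P161E.Equi

/-!
# The bound on solutions of `U = A[(1 - ε) U + f]` (with stationarity and decorrelation as
hypotheses)
-/

open MeasureTheory Set Filter Topology
open scoped unitInterval ENNReal

namespace Vale.Agent.P161E

open Vale.Agent.P161

universe u

/-- stationarity of equivariant families -/
def StatStmt (b : ℕ) : Prop := ∀ (V : Type u) (T : RTree V b) (g : V → V → (V → I) → ℝ),
  Equi T g → ∀ {u x u' x' : V}, T.G.Adj u x → T.G.Adj u' x' →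
    ∫ ω, g u x ω ∂(iid V) = ∫ ω, g u' x' ω ∂(iid V)

/-- decorrelation -/
def DecorStmt (b : ℕ) : Prop := ∃ C : ℝ, 0 < C ∧ ∀ (V : Type u) (T : RTree V b)
    (g : V → V → (V → I) → ℝ), Equi T g → (∀ u x, T.G.Adj u x → MemLp (g u x) 2 (iid V)) →
    (∀ u x, T.G.Adj u x → ∫ ω, g u x ω ∂(iid V) = 0) → ∀ (n : ℕ) (u x : V), T.G.Adj u x →
    ∫ ω, (T.wavN (fun _ _ => 1) (fun u x => g u x ω) n u x) ^ 2 ∂(iid V) ≤
      C * (n + 1) ^ 2 * ((b : ℝ)⁻¹) ^ n * ∫ ω, (g u x ω) ^ 2 ∂(iid V)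

namespace UB

variable {V : Type u} {b : ℕ} {T : RTree V b}

theorem wavN_one_succ (h : V → V → ℝ) (n : ℕ) (u x : V) :
    T.wavN (fun _ _ => 1) h (n + 1) u x =
      T.av (T.wavN (fun _ _ => 1) h n) u x := by
  show T.av (fun x y => 1 * T.wavN (fun _ _ => 1) h n x y) u x = _
  simp only [one_mul]

/-- iteration of `h = A[h + g]` -/
theorem iterate {h g : V → V → ℝ}
    (hh : ∀ u x, T.G.Adj u x → h u x = T.av (fun u x => h u x + g u x) u x) (n : ℕ) {u x : V}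
    (hux : T.G.Adj u x) : h u x = T.wavN (fun _ _ => 1) h n u x +
      ∑ i ∈ Finset.range n, T.wavN (fun _ _ => 1) g (i + 1) u x := by
  induction n generalizing u x with
  | zero => simp [RTree.wavN]
  | succ n ih =>
    have e1 : T.av (fun u x => h u x + g u x) u x = T.av h u x + T.av g u x := RTree.av_add h g u x
    have e2 : T.av h u x = T.av (fun u x => T.wavN (fun _ _ => 1) h n u x +
        ∑ i ∈ Finset.range n, T.wavN (fun _ _ => 1) g (i + 1) u x) u x := by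
      unfold RTree.av
      congr 1
      exact Finset.sum_congr rfl fun y hy => ih (RTree.mem_ch.mp hy).2
    have e3 : T.av (fun u x => ∑ i ∈ Finset.range n, T.wavN (fun _ _ => 1) g (i + 1) u x) u x =
        ∑ i ∈ Finset.range n, T.wavN (fun _ _ => 1) g (i + 1 + 1) u x := by
      unfold RTree.av
      rw [Finset.sum_comm, Finset.sum_div]
      refine Finset.sum_congr rfl fun i _ => ?_
      rw [wavN_one_succ]
      rfl
    rw [hh u x hux, e1, e2, RTree.av_add, e3, wavN_one_succ, Finset.sum_range_succ',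
      wavN_one_succ (T := T) g 0]
    have e4 : T.av (T.wavN (fun _ _ => 1) g 0) u x = T.av g u x := rfl
    have e5 : T.av (fun u x => T.wavN (fun _ _ => 1) h n u x) u x =
      T.av (T.wavN (fun _ _ => 1) h n) u x := rfl
    rw [e4, e5]
    ring

variable {g : V → V → (V → I) → ℝ}

theorem memLp_av (hi : ∀ u x, T.G.Adj u x → MemLp (g u x) 2 (iid V)) {u x : V} :
    MemLp (fun ω => T.av (fun u x => g u x ω) u x) 2 (iid V) := by
  have e : (fun ω => T.av (fun u x => g u x ω) u x) =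
      fun ω => (b : ℝ)⁻¹ * ∑ y ∈ T.ch u x, g x y ω := by
    funext ω
    unfold RTree.av
    rw [div_eq_inv_mul]
  rw [e]
  refine MemLp.const_mul ?_ _
  exact memLp_finsetSum _ fun y hy => hi x y (RTree.mem_ch.mp hy).2

theorem memLp_wavN (hi : ∀ u x, T.G.Adj u x → MemLp (g u x) 2 (iid V)) (n : ℕ) {u x : V}
    (hux : T.G.Adj u x) :
    MemLp (fun ω => T.wavN (fun _ _ => 1) (fun u x => g u x ω) n u x) 2 (iid V) := by
  induction n generalizing u x with
  | zero => exact hi u x hux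
  | succ n ih =>
    have e : (fun ω => T.wavN (fun _ _ => 1) (fun u x => g u x ω) (n + 1) u x) =
        fun ω => T.av (fun u x => T.wavN (fun _ _ => 1) (fun u x => g u x ω) n u x) u x := by
      funext ω
      exact wavN_one_succ _ n u x
    rw [e]
    exact memLp_av fun u x h => ih h

theorem integral_av (hst : StatStmt.{u} b) (hb : 0 < b) (hg : Equi T g)
    (hi : ∀ u x, T.G.Adj u x → Integrable (g u x) (iid V)) {u x : V} (h : T.G.Adj u x) :
    ∫ ω, T.av (fun u x => g u x ω) u x ∂(iid V) = ∫ ω, g u x ω ∂(iid V) := by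
  unfold RTree.av
  have hb' : (b : ℝ) ≠ 0 := by exact_mod_cast hb.ne'
  rw [integral_div, integral_finsetSum]
  · rw [Finset.sum_congr rfl fun y hy =>
      hst V T g hg (RTree.mem_ch.mp hy).2 h, Finset.sum_const, RTree.card_ch h, nsmul_eq_mul]
    field_simp
  · intro y hy
    exact hi x y (RTree.mem_ch.mp hy).2

/-- Jensen and stationarity -/
theorem sq_av (hst : StatStmt.{u} b) (hb : 0 < b) (hg : Equi T g)
    (hi : ∀ u x, T.G.Adj u x → MemLp (g u x) 2 (iid V)) {u x : V} (h : T.G.Adj u x) :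
    ∫ ω, (T.av (fun u x => g u x ω) u x) ^ 2 ∂(iid V) ≤ ∫ ω, g u x ω ^ 2 ∂(iid V) := by
  have h1 := integral_av hst hb (hg.pow 2) (fun u x h => (hi u x h).integrable_sq) h
  rw [← h1]
  refine integral_mono (memLp_av hi).integrable_sq ?_ fun ω => ?_
  · unfold RTree.av
    exact (integrable_finsetSum _ fun y hy =>
      (hi x y (RTree.mem_ch.mp hy).2).integrable_sq).div_const _
  · exact RTree.av_sq_le hb _ h

theorem sq_wavN (hst : StatStmt.{u} b) (hb : 0 < b) (hg : Equi T g)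
    (hi : ∀ u x, T.G.Adj u x → MemLp (g u x) 2 (iid V)) (n : ℕ) {u x : V} (h : T.G.Adj u x) :
    ∫ ω, (T.wavN (fun _ _ => 1) (fun u x => g u x ω) n u x) ^ 2 ∂(iid V) ≤
      ∫ ω, g u x ω ^ 2 ∂(iid V) := by
  induction n generalizing u x with
  | zero => exact le_rfl
  | succ n ih =>
    have e : ∀ ω, T.wavN (fun _ _ => 1) (fun u x => g u x ω) (n + 1) u x =
        T.av (fun u x => T.wavN (fun _ _ => 1) (fun u x => g u x ω) n u x) u x := fun ω =>
      wavN_one_succ _ n u x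
    simp only [e]
    have hE : Equi T (fun u x ω => T.wavN (fun _ _ => 1) (fun u x => g u x ω) n u x) :=
      (Equi.const 1).wavN hg n
    exact (sq_av hst hb hE (fun u x h => memLp_wavN hi n h) h).trans (ih h)

theorem exists_n {b : ℕ} (hb : 2 ≤ b) (C : ℝ) (hC : 0 < C) :
    ∃ n : ℕ, 1 ≤ n ∧ 2 * (C * (n + 1) ^ 2 * ((b : ℝ)⁻¹) ^ n) ≤ 1 / 2 := by
  have hb' : (2 : ℝ) ≤ b := by exact_mod_cast hb
  have h1 : |(b : ℝ)⁻¹| < 1 := by
    rw [abs_of_nonneg (by positivity)]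
    exact inv_lt_one_of_one_lt₀ (by linarith)
  have h2 := (tendsto_pow_const_mul_const_pow_of_abs_lt_one 2 h1).const_mul (8 * C)
  rw [mul_zero] at h2
  obtain ⟨N, hN⟩ := eventually_atTop.1 (h2.eventually (gt_mem_nhds (show (0 : ℝ) < 1 / 2 by norm_num)))
  refine ⟨max N 1, le_max_right _ _, ?_⟩
  have h3 := hN (max N 1) (le_max_left _ _)
  have h4 : (1 : ℝ) ≤ ((max N 1 : ℕ) : ℝ) := by exact_mod_cast le_max_right N 1
  generalize ((max N 1 : ℕ) : ℝ) = x at *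
  have h5 : (x + 1) ^ 2 ≤ 4 * x ^ 2 := by nlinarith
  have h6 : 0 ≤ ((b : ℝ)⁻¹) ^ (max N 1) := by positivity
  have h7 : (x + 1) ^ 2 * ((b : ℝ)⁻¹) ^ (max N 1) ≤ 4 * x ^ 2 * ((b : ℝ)⁻¹) ^ (max N 1) :=
    mul_le_mul_of_nonneg_right h5 h6
  have h8 := mul_le_mul_of_nonneg_left h7 hC.le
  linarith

theorem core {b : ℕ} (hb : 2 ≤ b) (hst : StatStmt.{u} b) (hdec : DecorStmt.{u} b) :
    ∃ n : ℕ, 1 ≤ n ∧ ∀ (V : Type u) (T : RTree V b) (W g : V → V → (V → I) → ℝ), Equi T W →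
    Equi T g → (∀ u x, T.G.Adj u x → MemLp (W u x) 2 (iid V)) →
    (∀ u x, T.G.Adj u x → MemLp (g u x) 2 (iid V)) →
    (∀ u x, T.G.Adj u x → ∫ ω, W u x ω ∂(iid V) = 0) →
    (∀ u x, T.G.Adj u x → ∀ᵐ ω ∂(iid V), W u x ω = T.av (fun u x => W u x ω + g u x ω) u x) →
    ∀ u x, T.G.Adj u x → ∫ ω, W u x ω ^ 2 ∂(iid V) ≤ 4 * (n : ℝ) ^ 2 * ∫ ω, g u x ω ^ 2 ∂(iid V) := by
  obtain ⟨C, hC, hdec⟩ := hdec
  obtain ⟨n, hn, hnC⟩ := exists_n hb C hC
  refine ⟨n, hn, fun V T W g hW hg hWi hgi hW0 hrel u x hux => ?_⟩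
  have hV : Countable V := T.countable
  have hb0 : 0 < b := by omega
  -- the relation everywhere
  have hall : ∀ᵐ ω ∂(iid V), ∀ u x, T.G.Adj u x →
      W u x ω = T.av (fun u x => W u x ω + g u x ω) u x := by
    rw [ae_all_iff]
    intro u
    rw [ae_all_iff]
    intro x
    by_cases hux : T.G.Adj u x
    · filter_upwards [hrel u x hux] with ω hω _
      exact hω
    · exact ae_of_all _ fun ω h => absurd h hux
  have hit : ∀ᵐ ω ∂(iid V), W u x ω ^ 2 ≤
      2 * T.wavN (fun _ _ => 1) (fun u x => W u x ω) n u x ^ 2 +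
      2 * (n * ∑ i ∈ Finset.range n, T.wavN (fun _ _ => 1) (fun u x => g u x ω) (i + 1) u x ^ 2) := by
    filter_upwards [hall] with ω hω
    have e := iterate (h := fun u x => W u x ω) (g := fun u x => g u x ω) hω n hux
    simp only at e
    have c := sq_sum_le_card_mul_sum_sq (s := Finset.range n)
      (f := fun i => T.wavN (fun _ _ => 1) (fun u x => g u x ω) (i + 1) u x)
    rw [Finset.card_range] at c
    rw [e]
    generalize T.wavN (fun _ _ => 1) (fun u x => W u x ω) n u x = A at *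
    generalize ∑ i ∈ Finset.range n, T.wavN (fun _ _ => 1) (fun u x => g u x ω) (i + 1) u x = B at *
    nlinarith [sq_nonneg (A - B)]
  have i1 : ∫ ω, W u x ω ^ 2 ∂(iid V) ≤ 2 * ∫ ω, T.wavN (fun _ _ => 1) (fun u x => W u x ω) n u x ^ 2
        ∂(iid V) +
      2 * (n * ∑ i ∈ Finset.range n, ∫ ω, T.wavN (fun _ _ => 1) (fun u x => g u x ω) (i + 1) u x ^ 2
        ∂(iid V)) := by
    rw [← integral_finsetSum _ fun i _ => (memLp_wavN hgi (i + 1) hux).integrable_sq,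
      ← integral_const_mul, ← integral_const_mul, ← integral_const_mul, ← integral_add]
    · refine integral_mono_ae (hWi u x hux).integrable_sq ?_ hit
      refine Integrable.add ((memLp_wavN hWi n hux).integrable_sq.const_mul _) ?_
      exact ((integrable_finsetSum _ fun i _ =>
        (memLp_wavN hgi (i + 1) hux).integrable_sq).const_mul _).const_mul _
    · exact (memLp_wavN hWi n hux).integrable_sq.const_mul _
    · exact ((integrable_finsetSum _ fun i _ =>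
        (memLp_wavN hgi (i + 1) hux).integrable_sq).const_mul _).const_mul _
  have i2 := hdec V T W hW hWi hW0 n u x hux
  have i3 : ∑ i ∈ Finset.range n, ∫ ω, T.wavN (fun _ _ => 1) (fun u x => g u x ω) (i + 1) u x ^ 2
        ∂(iid V) ≤ n * ∫ ω, g u x ω ^ 2 ∂(iid V) := by
    refine (Finset.sum_le_card_nsmul _ _ _ fun i _ => sq_wavN hst hb0 hg hgi (i + 1) hux).trans ?_
    rw [Finset.card_range, nsmul_eq_mul]
  have hW2 : 0 ≤ ∫ ω, W u x ω ^ 2 ∂(iid V) := integral_nonneg fun ω => sq_nonneg _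
  have i4 := mul_le_mul_of_nonneg_right hnC hW2
  have i5 := mul_le_mul_of_nonneg_left i3 (Nat.cast_nonneg n)
  nlinarith

theorem young {e U f n : ℝ} (hn : 1 ≤ n) (h0 : 0 ≤ e) (h1 : e ≤ 1) :
    ((1 - e) * U + f) ^ 2 ≤ (1 + 1 / (16 * n ^ 2)) * U ^ 2 - e * U ^ 2 +
      (1 + 16 * n ^ 2) * f ^ 2 := by
  have hk : 0 < 16 * n ^ 2 := by positivity
  generalize 16 * n ^ 2 = k at *
  have h2 : 0 ≤ (U - (1 - e) * k * f) ^ 2 / k := by positivity
  have h3 : (U - (1 - e) * k * f) ^ 2 / k = 1 / k * U ^ 2 - 2 * (1 - e) * U * f +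
      (1 - e) ^ 2 * k * f ^ 2 := by
    field_simp
    ring
  rw [h3] at h2
  have h4 : (1 - e) ^ 2 ≤ 1 := by nlinarith
  have h5 : (1 - e) ^ 2 * (k * f ^ 2) ≤ 1 * (k * f ^ 2) :=
    mul_le_mul_of_nonneg_right h4 (by positivity)
  have h6 : (1 - e) ^ 2 * U ^ 2 ≤ (1 - e) * U ^ 2 :=
    mul_le_mul_of_nonneg_right (by nlinarith) (sq_nonneg U)
  nlinarith

end UB

open UB in
theorem U_bound_core {b : ℕ} (hb : 2 ≤ b) (hst : StatStmt.{u} b) (hdec : DecorStmt.{u} b) :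
    ∃ K : ℝ, 0 < K ∧ ∀ (V : Type u) (T : RTree V b)
    (U f ε : V → V → (V → I) → ℝ), Equi T U → Equi T f → Equi T ε →
    (∀ u x, T.G.Adj u x → MemLp (U u x) 2 (iid V)) →
    (∀ u x, T.G.Adj u x → MemLp (f u x) 2 (iid V)) →
    (∀ u x ω, 0 ≤ ε u x ω ∧ ε u x ω ≤ 1) →
    (∀ u x, T.G.Adj u x → ∀ᵐ ω ∂(iid V), U u x ω =
      T.av (fun u x => (1 - ε u x ω) * U u x ω + f u x ω) u x) →
    ∀ u x, T.G.Adj u x → ∫ ω, U u x ω ^ 2 ∂(iid V) ≤
      K * (∫ ω, f u x ω ^ 2 ∂(iid V) + (∫ ω, U u x ω ∂(iid V)) ^ 2) := by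
  obtain ⟨n, hn, hcore⟩ := core hb hst hdec
  have hn' : (1 : ℝ) ≤ n := by exact_mod_cast hn
  refine ⟨2 * (16 * (n : ℝ) ^ 2 + 128 * (n : ℝ) ^ 4) + 2, by positivity,
    fun V T U f ε hU hf hε hUi hfi hε01 hrel u x hux => ?_⟩
  have hb0 : 0 < b := by omega
  -- the mean
  obtain ⟨m, hm⟩ : ∃ m : ℝ, m = ∫ ω, U u x ω ∂(iid V) := ⟨_, rfl⟩
  have hmean : ∀ u' x', T.G.Adj u' x' → ∫ ω, U u' x' ω ∂(iid V) = m := fun u' x' h => by
    rw [hm]; exact hst V T U hU h hux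
  have hεU : ∀ u x, T.G.Adj u x → MemLp (fun ω => ε u x ω * U u x ω) 2 (iid V) := by
    intro u x h
    refine (hUi u x h).of_le ((hε.mul hU).meas u x).aestronglyMeasurable (ae_of_all _ fun ω => ?_)
    rw [Real.norm_eq_abs, Real.norm_eq_abs, abs_mul, abs_of_nonneg (hε01 u x ω).1]
    exact mul_le_of_le_one_left (abs_nonneg _) (hε01 u x ω).2
  have hgi : ∀ u x, T.G.Adj u x → MemLp (fun ω => f u x ω - ε u x ω * U u x ω) 2 (iid V) :=
    fun u x h => (hfi u x h).sub (hεU u x h)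
  have hWi : ∀ u x, T.G.Adj u x → MemLp (fun ω => U u x ω - m) 2 (iid V) :=
    fun u x h => (hUi u x h).sub (memLp_const m)
  have hW0 : ∀ u x, T.G.Adj u x → ∫ ω, (U u x ω - m) ∂(iid V) = 0 := by
    intro u x h
    rw [integral_sub ((hUi u x h).integrable one_le_two) (integrable_const m), hmean u x h]
    simp
  have hr : ∀ u x, T.G.Adj u x → ∀ᵐ ω ∂(iid V), U u x ω - m = T.av (fun u x =>
      (U u x ω - m) + (f u x ω - ε u x ω * U u x ω)) u x := by
    intro u x h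
    filter_upwards [hrel u x h] with ω hω
    have e1 : T.av (fun u x => (U u x ω - m) + (f u x ω - ε u x ω * U u x ω)) u x =
        T.av (fun u x => ((1 - ε u x ω) * U u x ω + f u x ω) - (fun _ _ => m) u x) u x := by
      unfold RTree.av
      congr 1
      refine Finset.sum_congr rfl fun y _ => ?_
      ring
    rw [e1, RTree.av_sub, RTree.av_const hb0 m h, ← hω]
  have c1 := hcore V T (fun u x ω => U u x ω - m) (fun u x ω => f u x ω - ε u x ω * U u x ω)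
    (hU.sub (Equi.const m)) (hf.sub (hε.mul hU)) hWi hgi hW0 hr u x hux
  -- `E U² = E W² + m²`
  have c2 : ∫ ω, U u x ω ^ 2 ∂(iid V) = ∫ ω, (U u x ω - m) ^ 2 ∂(iid V) + m ^ 2 := by
    have e1 : ∀ ω, U u x ω ^ 2 = (U u x ω - m) ^ 2 + (2 * m * (U u x ω - m) + m ^ 2) := by
      intro ω; ring
    simp only [e1]
    rw [integral_add (hWi u x hux).integrable_sq, integral_add, integral_const_mul,
      hW0 u x hux]
    · simp
    · exact ((hWi u x hux).integrable one_le_two).const_mul _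
    · exact integrable_const _
    · exact (((hWi u x hux).integrable one_le_two).const_mul _).add (integrable_const _)
  -- `E g² ≤ 2 E f² + 2 E ε U²`
  have iεU : Integrable (fun ω => ε u x ω * U u x ω ^ 2) (iid V) := by
    refine (hUi u x hux).integrable_sq.mono' ((hε.mul (hU.pow 2)).meas u x).aestronglyMeasurable
      (ae_of_all _ fun ω => ?_)
    rw [Real.norm_eq_abs, abs_mul, abs_of_nonneg (hε01 u x ω).1, abs_of_nonneg (sq_nonneg _)]
    exact mul_le_of_le_one_left (sq_nonneg _) (hε01 u x ω).2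
  have c3 : ∫ ω, (f u x ω - ε u x ω * U u x ω) ^ 2 ∂(iid V) ≤
      2 * ∫ ω, f u x ω ^ 2 ∂(iid V) + 2 * ∫ ω, ε u x ω * U u x ω ^ 2 ∂(iid V) := by
    rw [← integral_const_mul, ← integral_const_mul, ← integral_add
      ((hfi u x hux).integrable_sq.const_mul _) (iεU.const_mul _)]
    refine integral_mono (hgi u x hux).integrable_sq
      (((hfi u x hux).integrable_sq.const_mul _).add (iεU.const_mul _)) fun ω => ?_
    have h0 := (hε01 u x ω).1
    have h1 := (hε01 u x ω).2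
    have h2 : ε u x ω * (ε u x ω * U u x ω ^ 2) ≤ 1 * (ε u x ω * U u x ω ^ 2) :=
      mul_le_mul_of_nonneg_right h1 (by positivity)
    show (f u x ω - ε u x ω * U u x ω) ^ 2 ≤ 2 * f u x ω ^ 2 + 2 * (ε u x ω * U u x ω ^ 2)
    nlinarith [sq_nonneg (f u x ω + ε u x ω * U u x ω)]
  -- the contraction
  have hGi : ∀ u x, T.G.Adj u x → MemLp (fun ω => (1 - ε u x ω) * U u x ω + f u x ω) 2 (iid V) := by
    intro u x h
    have e : (fun ω => (1 - ε u x ω) * U u x ω + f u x ω) =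
        fun ω => (U u x ω - ε u x ω * U u x ω) + f u x ω := by
      funext ω; ring
    rw [e]
    exact ((hUi u x h).sub (hεU u x h)).add (hfi u x h)
  have c4 : ∫ ω, U u x ω ^ 2 ∂(iid V) ≤
      ∫ ω, ((1 - ε u x ω) * U u x ω + f u x ω) ^ 2 ∂(iid V) := by
    have e : ∫ ω, U u x ω ^ 2 ∂(iid V) = ∫ ω, (T.av (fun u x =>
        (1 - ε u x ω) * U u x ω + f u x ω) u x) ^ 2 ∂(iid V) := by
      refine integral_congr_ae ?_
      filter_upwards [hrel u x hux] with ω hω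
      rw [← hω]
    rw [e]
    exact sq_av hst hb0 ((((Equi.const 1).sub hε).mul hU).add hf) hGi hux
  have c5 : ∫ ω, ((1 - ε u x ω) * U u x ω + f u x ω) ^ 2 ∂(iid V) ≤
      (1 + 1 / (16 * (n : ℝ) ^ 2)) * ∫ ω, U u x ω ^ 2 ∂(iid V) -
        ∫ ω, ε u x ω * U u x ω ^ 2 ∂(iid V) + (1 + 16 * (n : ℝ) ^ 2) * ∫ ω, f u x ω ^ 2 ∂(iid V) := by
    have i1 : Integrable (fun ω => (1 + 1 / (16 * (n : ℝ) ^ 2)) * U u x ω ^ 2) (iid V) :=
      (hUi u x hux).integrable_sq.const_mul _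
    have i2 : Integrable (fun ω => (1 + 16 * (n : ℝ) ^ 2) * f u x ω ^ 2) (iid V) :=
      (hfi u x hux).integrable_sq.const_mul _
    have i3 : Integrable (fun ω => (1 + 1 / (16 * (n : ℝ) ^ 2)) * U u x ω ^ 2 -
        ε u x ω * U u x ω ^ 2) (iid V) := i1.sub iεU
    have e1 : ∫ ω, ((1 + 1 / (16 * (n : ℝ) ^ 2)) * U u x ω ^ 2 - ε u x ω * U u x ω ^ 2 +
        (1 + 16 * (n : ℝ) ^ 2) * f u x ω ^ 2) ∂(iid V) =
        (1 + 1 / (16 * (n : ℝ) ^ 2)) * ∫ ω, U u x ω ^ 2 ∂(iid V) -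
        ∫ ω, ε u x ω * U u x ω ^ 2 ∂(iid V) +
        (1 + 16 * (n : ℝ) ^ 2) * ∫ ω, f u x ω ^ 2 ∂(iid V) := by
      rw [integral_add i3 i2, integral_sub i1 iεU, integral_const_mul, integral_const_mul]
    rw [← e1]
    exact integral_mono (hGi u x hux).integrable_sq (i3.add i2) fun ω =>
      young hn' (hε01 u x ω).1 (hε01 u x ω).2
  rw [← hm]
  have hF : 0 ≤ ∫ ω, f u x ω ^ 2 ∂(iid V) := integral_nonneg fun ω => sq_nonneg _
  generalize ∫ ω, U u x ω ^ 2 ∂(iid V) = A at *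
  generalize ∫ ω, f u x ω ^ 2 ∂(iid V) = F at *
  generalize ∫ ω, ε u x ω * U u x ω ^ 2 ∂(iid V) = E at *
  generalize ∫ ω, (f u x ω - ε u x ω * U u x ω) ^ 2 ∂(iid V) = G at *
  have hn2 : 0 < (n : ℝ) ^ 2 := by positivity
  -- `E ≤ A / (16 n²) + (1 + 16 n²) F`
  have d1 : E ≤ 1 / (16 * (n : ℝ) ^ 2) * A + (1 + 16 * (n : ℝ) ^ 2) * F := by linarith
  have d2 : 4 * (n : ℝ) ^ 2 * G ≤ 4 * (n : ℝ) ^ 2 * (2 * F + 2 * (1 / (16 * (n : ℝ) ^ 2) * A +
      (1 + 16 * (n : ℝ) ^ 2) * F)) :=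
    mul_le_mul_of_nonneg_left (by linarith) (by positivity)
  have d3 : 4 * (n : ℝ) ^ 2 * (2 * F + 2 * (1 / (16 * (n : ℝ) ^ 2) * A +
      (1 + 16 * (n : ℝ) ^ 2) * F)) = A / 2 + (16 * (n : ℝ) ^ 2 + 128 * (n : ℝ) ^ 4) * F := by
    field_simp
    ring
  have d4 : 0 ≤ (2 * (16 * (n : ℝ) ^ 2 + 128 * (n : ℝ) ^ 4)) * m ^ 2 := by positivity
  nlinarith [sq_nonneg m]

end Vale.Agent.P161E
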